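import Crest.Agent.R169.LatAPI

/-!
# Row 169, module 1 (C0): the free lattice `A^N`
-/

set_option autoImplicit false

namespace R169

section A

variable {k L : Type} [Field k] [Field L] [Algebra k L] {η ζ : L}

/-- `A_n^N` -/
def Apow (k : Type) {L : Type} [Field k] [Field L] [Algebra k L] (η ζ : L) (N : ℕ) (n : ℤ) :
    Submodule k (Fin N → L) :=
  Submodule.pi Set.univ (fun _ => A k η ζ n)

theorem mem_Apow {N : ℕ} {n : ℤ} {v : Fin N → L} : v ∈ Apow k η ζ N n ↔ ∀ l, v l ∈ A k η ζ n := by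
  simp [Apow, Submodule.mem_pi]

theorem A_mono' (n : ℤ) : A k η ζ n ≤ A k η ζ (n + 1) := by
  apply Submodule.span_mono
  rintro l ⟨a, b, h, rfl⟩
  exact ⟨a, b, by omega, rfl⟩

theorem η_A (n : ℤ) {l : L} (hl : l ∈ A k η ζ n) : η * l ∈ A k η ζ (n + 1) := by
  refine Submodule.span_induction (p := fun l _ => η * l ∈ A k η ζ (n + 1)) ?_ ?_ ?_ ?_ hl
  · rintro l ⟨a, b, h, rfl⟩
    exact Submodule.subset_span ⟨a + 1, b, by push_cast; omega, by ring⟩
  · rw [mul_zero]; exact Submodule.zero_mem _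
  · intro x y _ _ hx hy
    rw [mul_add]; exact Submodule.add_mem _ hx hy
  · intro c x _ hx
    rw [mul_smul_comm]; exact Submodule.smul_mem _ c hx

theorem ζ_A (n : ℤ) {l : L} (hl : l ∈ A k η ζ n) : ζ * l ∈ A k η ζ (n + 1) := by
  refine Submodule.span_induction (p := fun l _ => ζ * l ∈ A k η ζ (n + 1)) ?_ ?_ ?_ ?_ hl
  · rintro l ⟨a, b, h, rfl⟩
    exact Submodule.subset_span ⟨a, b + 1, by push_cast; omega, by ring⟩
  · rw [mul_zero]; exact Submodule.zero_mem _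
  · intro x y _ _ hx hy
    rw [mul_add]; exact Submodule.add_mem _ hx hy
  · intro c x _ hx
    rw [mul_smul_comm]; exact Submodule.smul_mem _ c hx

theorem A_fin (n : ℤ) : FiniteDimensional k (A k η ζ n) := by
  apply FiniteDimensional.span_of_finite
  have : {l : L | ∃ a b : ℕ, (a : ℤ) + b ≤ n ∧ l = η ^ a * ζ ^ b} ⊆
      (fun q : ℕ × ℕ => η ^ q.1 * ζ ^ q.2) '' ((Set.Iic n.toNat) ×ˢ (Set.Iic n.toNat)) := by
    rintro l ⟨a, b, h, rfl⟩
    exact ⟨(a, b), ⟨by simp only [Set.mem_Iic]; omega, by simp only [Set.mem_Iic]; omega⟩, rfl⟩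
  exact Set.Finite.subset (Set.Finite.image _ ((Set.finite_Iic _).prod (Set.finite_Iic _))) this

theorem A_neg {n : ℤ} (hn : n < 0) : A k η ζ n = ⊥ := by
  rw [A, Submodule.span_eq_bot]
  rintro l ⟨a, b, h, rfl⟩
  omega

theorem A_gen {n : ℤ} (hn : 0 ≤ n) {l : L} (hl : l ∈ A k η ζ (n + 1)) :
    ∃ l0 ∈ A k η ζ n, ∃ l1 ∈ A k η ζ n, ∃ l2 ∈ A k η ζ n, l = l0 + η * l1 + ζ * l2 := by
  refine Submodule.span_induction (p := fun l _ => ∃ l0 ∈ A k η ζ n, ∃ l1 ∈ A k η ζ n,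
    ∃ l2 ∈ A k η ζ n, l = l0 + η * l1 + ζ * l2) ?_ ?_ ?_ ?_ hl
  · rintro l ⟨a, b, h, rfl⟩
    rcases le_or_gt ((a : ℤ) + b) n with h1 | h1
    · exact ⟨_, Submodule.subset_span ⟨a, b, h1, rfl⟩, 0, Submodule.zero_mem _, 0,
        Submodule.zero_mem _, by ring⟩
    · rcases Nat.eq_zero_or_pos a with ha | ha
      · have hb : 0 < b := by omega
        obtain ⟨b', rfl⟩ : ∃ b', b = b' + 1 := ⟨b - 1, by omega⟩
        exact ⟨0, Submodule.zero_mem _, 0, Submodule.zero_mem _, η ^ a * ζ ^ b',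
          Submodule.subset_span ⟨a, b', by push_cast at h; omega, rfl⟩, by ring⟩
      · obtain ⟨a', rfl⟩ : ∃ a', a = a' + 1 := ⟨a - 1, by omega⟩
        exact ⟨0, Submodule.zero_mem _, η ^ a' * ζ ^ b,
          Submodule.subset_span ⟨a', b, by push_cast at h; omega, rfl⟩, 0,
          Submodule.zero_mem _, by ring⟩
  · exact ⟨0, Submodule.zero_mem _, 0, Submodule.zero_mem _, 0, Submodule.zero_mem _, by ring⟩
  · rintro x y _ _ ⟨a0, h0, a1, h1, a2, h2, rfl⟩ ⟨b0, g0, b1, g1, b2, g2, rfl⟩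
    exact ⟨_, Submodule.add_mem _ h0 g0, _, Submodule.add_mem _ h1 g1, _, Submodule.add_mem _ h2 g2,
      by ring⟩
  · rintro c x _ ⟨a0, h0, a1, h1, a2, h2, rfl⟩
    refine ⟨_, Submodule.smul_mem _ c h0, _, Submodule.smul_mem _ c h1, _, Submodule.smul_mem _ c h2, ?_⟩
    rw [smul_add, smul_add, mul_smul_comm, mul_smul_comm]

/-- `A^N` as a product -/
noncomputable def ApowEquiv (N : ℕ) (n : ℤ) : Apow k η ζ N n ≃ₗ[k] (Fin N → A k η ζ n) where
  toFun v := fun l => ⟨v.1 l, mem_Apow.1 v.2 l⟩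
  invFun w := ⟨fun l => (w l : L), mem_Apow.2 fun l => (w l).2⟩
  left_inv v := by ext l; rfl
  right_inv w := by ext l; rfl
  map_add' v w := by ext l; rfl
  map_smul' c v := by ext l; rfl

theorem Apow_fin (N : ℕ) (n : ℤ) : FiniteDimensional k (Apow k η ζ N n) := by
  have := A_fin (k := k) (η := η) (ζ := ζ) n
  exact LinearEquiv.finiteDimensional (ApowEquiv (k := k) (η := η) (ζ := ζ) N n).symm

theorem finrank_Apow (N : ℕ) (n : ℤ) :
    Module.finrank k (Apow k η ζ N n) = N * Module.finrank k (A k η ζ n) := by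
  have := A_fin (k := k) (η := η) (ζ := ζ) n
  rw [(ApowEquiv (k := k) (η := η) (ζ := ζ) N n).finrank_eq, Module.finrank_pi_fintype]
  simp

theorem isPLat_Apow (N : ℕ) : IsPLat η ζ (Apow k η ζ N) := by
  refine ⟨?_, ?_, ?_, ?_, ?_, ?_⟩
  · intro n v hv
    rw [mem_Apow] at hv ⊢
    exact fun l => A_mono' n (hv l)
  · rintro n _ ⟨v, hv, rfl⟩
    rw [SetLike.mem_coe, mem_Apow] at hv
    rw [mem_Apow]
    exact fun l => η_A n (hv l)
  · rintro n _ ⟨v, hv, rfl⟩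
    rw [SetLike.mem_coe, mem_Apow] at hv
    rw [mem_Apow]
    exact fun l => ζ_A n (hv l)
  · exact fun n => Apow_fin N n
  · refine ⟨0, fun n hn => ?_⟩
    rw [eq_bot_iff]
    intro v hv
    rw [mem_Apow, A_neg hn] at hv
    rw [Submodule.mem_bot]
    ext l
    exact (Submodule.mem_bot k).1 (hv l)
  · refine ⟨0, fun n hn v hv => ?_⟩
    rw [mem_Apow] at hv
    choose a0 h0 a1 h1 a2 h2 h using fun l => A_gen hn (hv l)
    have : v = a0 + η • a1 + ζ • a2 := by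
      ext l; exact h l
    rw [this]
    exact Submodule.add_mem_sup (Submodule.add_mem_sup (mem_Apow.2 h0)
      ⟨a1, mem_Apow.2 h1, rfl⟩) ⟨a2, mem_Apow.2 h2, rfl⟩

theorem embA_Apow (N : ℕ) : EmbA η ζ (Apow k η ζ N) 0 :=
  ⟨N, LinearMap.id, Function.injective_id, fun n w hw i => by
    rw [add_zero]; exact mem_Apow.1 hw i⟩

theorem finrank_Apow_eq (ind : AlgebraicIndependent k ![η, ζ]) (N : ℕ) (n : ℤ) (hn : 0 ≤ n) :
    (Module.finrank k (Apow k η ζ N n) : ℚ) = N * (((n : ℚ) + 1) * ((n : ℚ) + 2) / 2) := by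
  rw [finrank_Apow, finrank_A ind, if_pos hn]
  obtain ⟨m, rfl⟩ := Int.eq_ofNat_of_zero_le hn
  simp only [Int.toNat_natCast]
  push_cast
  have h2 : 2 ∣ (m + 1) * (m + 2) := by
    have := Nat.even_mul_succ_self (m + 1)
    exact even_iff_two_dvd.1 this
  rw [Nat.cast_div h2 (by norm_num)]
  push_cast
  ring

end A

end R169
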