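import Crest.Agent.R169.C0Defs

/-!
# Row 169, C0, piece C0_BASIC: elementary facts on `tq`, `IM`.

* `smul_mem_of_tq`: by `eq_sum_tq`, `f = ∑ tq D i (f.coeff i)`, `Finset.sum_smul`.
* `tq_k`: `D.zero : B 0 = span {1}`, so `a = c • 1`, and `tq D 0 (c • 1) = algebraMap k (T D) c`.
* `IM_zero`, `IM_nonpos`: `Int.toNat n = 0`, `pow_zero`, `Submodule.one_smul`/`Ideal.one_smul`.
* `IM_anti`: `Ideal.pow_le_pow_right`, `Submodule.smul_mono_left`.
* `IM_tq`: for `a ∈ A_i`, `tq D i a ∈ I^i` (`A_i` is spanned by `η^a ζ^b`, `a + b ≤ i`;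
  `tq D i (η^a ζ^b) = x^(i-a-b) y^a z^b` with `x = tq 1 1`, `y = tq 1 η`, `z = tq 1 ζ`), and
  `I^i • I^n M = I^(i+n) M` (for `n < 0`: everything is `M` resp. `IM (n+i) ≥ I^i M`).
* `IM_succ_gen`: `w ∈ I^(n+1)M` (n ≥ 0) is `x w0 + y w1 + z w2` with `w_i ∈ I^n M`.
-/

set_option autoImplicit false

namespace R169.C0

open Polynomial

section
variable {k L : Type} [Field k] [Field L] [Algebra k L] {D : GD k L} {η ζ : L} {hP : Par D η ζ}
variable {M : Type} [AddCommGroup M] [Module (T D) M] [Module k M] [IsScalarTower k (T D) M]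

theorem smul_mem_of_tq (S : AddSubgroup M)
    (h : ∀ (i : ℕ) (a : L), a ∈ D.B i → ∀ w ∈ S, tq D i a • w ∈ S) (f : T D) (w : M) (hw : w ∈ S) :
    f • w ∈ S := by
  rw [eq_sum_tq f, Finset.sum_smul]
  exact S.sum_mem fun i _ => h i _ (f.2 i) w hw

private theorem tq_zero_smul_one (c : k) (a : L) (h : a = algebraMap k L c) :
    tq D 0 a = algebraMap k (T D) c := by
  have ha : a ∈ D.B ((0 : ℕ) : ℤ) := by
    rw [Nat.cast_zero, D.zero, h, Algebra.algebraMap_eq_smul_one]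
    exact Submodule.smul_mem _ _ (Submodule.mem_span_singleton_self _)
  apply Subtype.ext
  rw [tq_val ha]
  change _ = algebraMap k L[X] c
  rw [Polynomial.algebraMap_apply, h, Polynomial.monomial_zero_left]

/-- degree zero elements act as scalars -/
theorem tq_k {a : L} (ha : a ∈ D.B 0) : ∃ c : k, a = algebraMap k L c ∧ ∀ w : M, tq D 0 a • w = c • w := by
  rw [D.zero, Submodule.mem_span_singleton] at ha
  obtain ⟨c, hc⟩ := ha
  have h : a = algebraMap k L c := by rw [Algebra.algebraMap_eq_smul_one, hc]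
  refine ⟨c, h, fun w => ?_⟩
  rw [tq_zero_smul_one c a h, algebraMap_smul]

theorem tq_algebraMap (c : k) (w : M) : tq D 0 (algebraMap k L c) • w = c • w := by
  rw [tq_zero_smul_one c _ rfl, algebraMap_smul]

theorem IM_nonpos {n : ℤ} (hn : n ≤ 0) : IM D hP M n = ⊤ := by
  unfold IM
  rw [Int.toNat_of_nonpos hn, pow_zero, Ideal.one_eq_top, Submodule.top_smul]

theorem IM_anti {n n' : ℤ} (h : n ≤ n') : IM D hP M n' ≤ IM D hP M n := by
  unfold IM
  exact Submodule.smul_mono_left (Ideal.pow_le_pow_right (Int.toNat_le_toNat h))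

private theorem tq_pow {a : L} (ha : a ∈ D.B 1) (n : ℕ) :
    a ^ n ∈ D.B n ∧ tq D n (a ^ n) = (tq D 1 a) ^ n := by
  induction n with
  | zero =>
    have h1 : (1 : L) ∈ D.B ((0 : ℕ) : ℤ) := by
      rw [Nat.cast_zero, D.zero]; exact Submodule.mem_span_singleton_self _
    refine ⟨by rw [pow_zero]; exact h1, ?_⟩
    rw [pow_zero, pow_zero, tq_zero_smul_one 1 1 (map_one _).symm, map_one]
  | succ n ih =>
    have ha' : a ∈ D.B ((1 : ℕ) : ℤ) := by rw [Nat.cast_one]; exact ha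
    refine ⟨?_, ?_⟩
    · rw [pow_succ]; push_cast; exact D.mul_mem ih.1 ha
    · rw [pow_succ, pow_succ, ← ih.2, tq_mul ih.1 ha']

/-- forms of degree `i` in `x,y,z` are in `I^i` -/
theorem tq_mem_pow {i : ℕ} {a : L} (ha : a ∈ A k η ζ i) : tq D i a ∈ (Ixyz D hP) ^ i := by
  have key : a ∈ D.B i ∧ tq D i a ∈ (Ixyz D hP) ^ i := by
    have h1 : (1 : L) ∈ D.B ((1 : ℕ) : ℤ) := by rw [Nat.cast_one]; exact D.one_mem
    have hη : η ∈ D.B ((1 : ℕ) : ℤ) := by rw [Nat.cast_one]; exact hP.hη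
    have hζ : ζ ∈ D.B ((1 : ℕ) : ℤ) := by rw [Nat.cast_one]; exact hP.hζ
    have hx : tq D 1 1 ∈ Ixyz D hP := by
      rw [tq_eq h1]; exact Ideal.subset_span ⟨0, rfl⟩
    have hy : tq D 1 η ∈ Ixyz D hP := by
      rw [tq_eq hη]; exact Ideal.subset_span ⟨1, rfl⟩
    have hz : tq D 1 ζ ∈ Ixyz D hP := by
      rw [tq_eq hζ]; exact Ideal.subset_span ⟨2, rfl⟩
    refine Submodule.span_induction ?_ ?_ ?_ ?_ ha
    · rintro l ⟨p, q, hpq, rfl⟩
      obtain ⟨r, hr⟩ : ∃ r : ℕ, i = r + (p + q) := ⟨i - (p + q), by omega⟩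
      obtain ⟨m1, e1⟩ := tq_pow (D := D) D.one_mem r
      obtain ⟨m2, e2⟩ := tq_pow (D := D) hP.hη p
      obtain ⟨m3, e3⟩ := tq_pow (D := D) hP.hζ q
      have m23 : η ^ p * ζ ^ q ∈ D.B ((p + q : ℕ) : ℤ) := by push_cast; exact D.mul_mem m2 m3
      have m123 : 1 ^ r * (η ^ p * ζ ^ q) ∈ D.B ((r + (p + q) : ℕ) : ℤ) := by
        rw [Nat.cast_add]; exact D.mul_mem m1 m23
      have e : tq D (r + (p + q)) (1 ^ r * (η ^ p * ζ ^ q)) =
          (tq D 1 1) ^ r * ((tq D 1 η) ^ p * (tq D 1 ζ) ^ q) := by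
        rw [← tq_mul m1 m23, ← tq_mul m2 m3, e1, e2, e3]
      rw [one_pow, one_mul] at e m123
      rw [hr]
      refine ⟨m123, ?_⟩
      rw [e, pow_add, pow_add]
      exact Ideal.mul_mem_mul (Ideal.pow_mem_pow hx r)
        (Ideal.mul_mem_mul (Ideal.pow_mem_pow hy p) (Ideal.pow_mem_pow hz q))
    · rw [tq_zero]; exact ⟨Submodule.zero_mem _, Submodule.zero_mem _⟩
    · rintro a b _ _ ⟨ha1, ha2⟩ ⟨hb1, hb2⟩
      rw [tq_add ha1 hb1]
      exact ⟨Submodule.add_mem _ ha1 hb1, Submodule.add_mem _ ha2 hb2⟩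
    · rintro c a _ ⟨ha1, ha2⟩
      refine ⟨Submodule.smul_mem _ c ha1, ?_⟩
      rw [tq_smul c ha1, ← algebraMap_smul (T D) c, smul_eq_mul]
      exact Ideal.mul_mem_left _ _ ha2
  exact key.2

theorem IM_tq {i : ℕ} {a : L} (ha : a ∈ A k η ζ i) {n : ℤ} {w : M} (hw : w ∈ IM D hP M n) :
    tq D i a • w ∈ IM D hP M (n + i) := by
  have h1 : tq D i a • w ∈ IM D hP M ((n.toNat : ℤ) + i) := by
    unfold IM at hw ⊢
    have e : ((n.toNat : ℤ) + i).toNat = i + n.toNat := by omega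
    rw [e, pow_add, Submodule.mul_smul]
    exact Submodule.smul_mem_smul (tq_mem_pow ha) hw
  exact IM_anti (by have := Int.self_le_toNat n; omega) h1

theorem IM_succ_gen {n : ℤ} (hn : 0 ≤ n) {w : M} (hw : w ∈ IM D hP M (n + 1)) :
    ∃ w0 ∈ IM D hP M n, ∃ w1 ∈ IM D hP M n, ∃ w2 ∈ IM D hP M n,
      w = tq D 1 1 • w0 + tq D 1 η • w1 + tq D 1 ζ • w2 := by
  have h1 : (1 : L) ∈ D.B ((1 : ℕ) : ℤ) := by rw [Nat.cast_one]; exact D.one_mem
  have hη : η ∈ D.B ((1 : ℕ) : ℤ) := by rw [Nat.cast_one]; exact hP.hη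
  have hζ : ζ ∈ D.B ((1 : ℕ) : ℤ) := by rw [Nat.cast_one]; exact hP.hζ
  have hw' : w ∈ (Ixyz D hP) • (IM D hP M n) := by
    unfold IM at hw ⊢
    have e : (n + 1).toNat = 1 + n.toNat := by omega
    rwa [e, pow_add, Submodule.mul_smul, pow_one] at hw
  refine Submodule.smul_induction_on hw' ?_ ?_
  · intro r hr m hm
    unfold Ixyz at hr
    obtain ⟨c, hc⟩ := (Ideal.mem_span_range_iff_exists_fun).1 hr
    refine ⟨c 0 • m, Submodule.smul_mem _ _ hm, c 1 • m, Submodule.smul_mem _ _ hm,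
      c 2 • m, Submodule.smul_mem _ _ hm, ?_⟩
    rw [← hc, Fin.sum_univ_three, add_smul, add_smul, tq_eq h1, tq_eq hη, tq_eq hζ,
      smul_smul, smul_smul, smul_smul]
    simp only [xyz, Matrix.cons_val_zero, Matrix.cons_val_one, Matrix.cons_val]
    rw [mul_comm (c 0), mul_comm (c 1), mul_comm (c 2)]
  · rintro u v ⟨u0, hu0, u1, hu1, u2, hu2, hu⟩ ⟨v0, hv0, v1, hv1, v2, hv2, hv⟩
    refine ⟨u0 + v0, Submodule.add_mem _ hu0 hv0, u1 + v1, Submodule.add_mem _ hu1 hv1,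
      u2 + v2, Submodule.add_mem _ hu2 hv2, ?_⟩
    rw [hu, hv, smul_add, smul_add, smul_add]
    abel

end

end R169.C0
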