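import Mathlib

/-!
# Row 169, module 1 (C0): numeric lemmas
-/

set_option autoImplicit false

namespace R169

open Finset Filter

/-- Abel summation, exact form. -/
theorem abel_aux (v : ℕ → ℤ → ℚ) (m : ℤ) (K : ℕ) :
    ∑ i ∈ range K, (v i (m - i) - v (i + 1) (m - i)) =
      v 0 m + ∑ i ∈ range K, (v (i + 1) (m - (i + 1)) - v (i + 1) (m - i)) - v K (m - K) := by
  induction K with
  | zero => simp
  | succ K ih =>
    rw [sum_range_succ, ih, sum_range_succ]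
    push_cast
    ring

/-- the variance inequality -/
theorem variance_nonneg (K : ℕ) (ν x : ℕ → ℚ) (hν : ∀ i, 0 ≤ ν i) (hpos : 0 < ∑ i ∈ range K, ν i) :
    (∑ i ∈ range K, ν i * x i) ^ 2 / (∑ i ∈ range K, ν i) ≤ ∑ i ∈ range K, ν i * x i ^ 2 := by
  rw [div_le_iff₀ hpos, mul_comm]
  have := Finset.sum_sq_le_sum_mul_sum_of_sq_le_mul (range K) (r := fun i => ν i * x i)
    (f := ν) (g := fun i => ν i * x i ^ 2) (fun i _ => hν i)
    (fun i _ => mul_nonneg (hν i) (sq_nonneg _)) (fun i _ => le_of_eq (by ring))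
  exact this

/-- the numeric part of C3 (Lemma L).  `v i m = dim (U_{i - c})_m`, `K = 2c + 1`. -/
theorem numericL (K : ℕ) (c : ℤ) (N0 : ℚ) (hN0 : 0 < N0) (N ε γ : ℕ → ℚ) (v : ℕ → ℤ → ℚ) (h : ℤ → ℚ)
    (hanti : ∀ i, N (i + 1) ≤ N i) (hN : N 0 = N0) (hK : N K = 0) (hε : ∀ i, 0 ≤ ε i)
    (hfull : ∃ m0 : ℤ, ∀ m, m0 ≤ m → v 0 m = N0 * ((m + 1) * (m + 2) / 2))
    (hend : ∃ m0 : ℤ, ∀ m, m0 ≤ m → v K m = 0)
    (hv : ∀ i, ∃ m0 : ℤ, ∀ m, m0 ≤ m → v i m = N i / 2 * m ^ 2 - (-3 * N i / 2 + ε i) * m + γ i)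
    (hh : ∃ n0 : ℤ, ∀ n, n0 ≤ n → h n = ∑ i ∈ range K, (v i (n + c - i) - v (i + 1) (n + c - i))) :
    ∃ β γ' : ℚ, (∃ n0 : ℤ, ∀ n : ℤ, n0 ≤ n → h n = N0 / 2 * n ^ 2 - β * n + γ') ∧
      -N0 / 8 ≤ γ' - β ^ 2 / (2 * N0) := by
  obtain ⟨n0, hh⟩ := hh
  obtain ⟨a0, hfull⟩ := hfull
  obtain ⟨b0, hend⟩ := hend
  choose m0 hv using hv
  -- a common threshold
  obtain ⟨M, hM⟩ : ∃ M : ℤ, ∀ i ∈ range (K + 1), m0 i ≤ M := by
    refine ⟨(range (K + 1)).sup' ⟨0, by simp⟩ m0, fun i hi => Finset.le_sup' m0 hi⟩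
  set ν : ℕ → ℚ := fun i => N i - N (i + 1) with hνdef
  have hν : ∀ i, 0 ≤ ν i := fun i => by simp only [hνdef]; linarith [hanti i]
  have hsumν : ∑ i ∈ range K, ν i = N0 := by
    have : ∀ k : ℕ, ∑ i ∈ range k, ν i = N 0 - N k := by
      intro k
      induction k with
      | zero => simp
      | succ k ih => rw [sum_range_succ, ih]; simp only [hνdef]; ring
    rw [this, hN, hK, sub_zero]
  -- telescoping for general weights
  have hAbelN : ∀ (f : ℕ → ℚ) (k : ℕ), ∑ i ∈ range k, N (i + 1) * (f (i + 1) - f i) =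
      ∑ i ∈ range k, ν i * f i - N 0 * f 0 + N k * f k := by
    intro f k
    induction k with
    | zero => simp
    | succ k ih => rw [sum_range_succ, ih, sum_range_succ]; simp only [hνdef]; ring
  set x : ℕ → ℚ := fun i => (c : ℚ) - i + 3 / 2 with hx
  set S1 : ℚ := ∑ i ∈ range K, ν i * x i with hS1
  set S2 : ℚ := ∑ i ∈ range K, ν i * x i ^ 2 with hS2
  set e : ℚ := ∑ i ∈ range (K - 1), ε (i + 1) with he
  refine ⟨-S1, S2 / 2 - N0 / 8 + e, ⟨max n0 (max (a0 - c) (max (b0 - c + K) (M - c + K))), fun n hn => ?_⟩, ?_⟩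
  · have h1 : n0 ≤ n := le_trans (le_max_left _ _) hn
    have h2 : a0 - c ≤ n := le_trans (le_trans (le_max_left _ _) (le_max_right _ _)) hn
    have h3 : b0 - c + K ≤ n := le_trans (le_trans (le_trans (le_max_left _ _) (le_max_right _ _))
      (le_max_right _ _)) hn
    have h4 : M - c + K ≤ n := le_trans (le_trans (le_trans (le_max_right _ _) (le_max_right _ _))
      (le_max_right _ _)) hn
    rw [hh n h1]
    rcases Nat.eq_zero_or_pos K with hK0 | hKpos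
    · exfalso
      rw [hK0] at hK; rw [hN] at hK; linarith
    obtain ⟨K', rfl⟩ : ∃ K', K = K' + 1 := ⟨K - 1, by omega⟩
    rw [abel_aux, hfull _ (by linarith), hend _ (by push_cast at *; linarith), sub_zero]
    have hterm : ∀ i ∈ range (K' + 1), v (i + 1) (n + c - (i + 1)) - v (i + 1) (n + c - i) =
        - (N (i + 1) * ((n : ℚ) + c - i + 1)) + (if i = K' then 0 else ε (i + 1)) := by
      intro i hi
      rw [mem_range] at hi
      have hi' : (i : ℤ) + 1 ≤ (K' : ℤ) + 1 := by exact_mod_cast hi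
      have hm1 : m0 (i + 1) ≤ n + c - (i + 1) := by
        have := hM (i + 1) (by rw [mem_range]; omega)
        push_cast at h4; linarith
      have hm2 : m0 (i + 1) ≤ n + c - i := by linarith
      rcases eq_or_ne i K' with rfl | hne
      · have hb1 : b0 ≤ n + c - (i + 1) := by push_cast at h3; linarith
        have hb2 : b0 ≤ n + c - i := by linarith
        rw [hend _ (by exact_mod_cast hb1), hend _ hb2, hK]
        simp
      · rw [if_neg hne, hv _ _ (by exact_mod_cast hm1), hv _ _ hm2]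
        push_cast
        ring
    rw [sum_congr rfl hterm, sum_add_distrib]
    have hεsum : ∑ i ∈ range (K' + 1), (if i = K' then (0 : ℚ) else ε (i + 1)) = e := by
      rw [sum_range_succ, if_pos rfl, add_zero, he]
      simp only [Nat.add_sub_cancel]
      refine sum_congr rfl (fun i hi => ?_)
      rw [mem_range] at hi
      rw [if_neg (by omega)]
    rw [hεsum]
    have hAb := hAbelN (fun i => ((n : ℚ) + c - i + 1) * ((n : ℚ) + c - i + 2) / 2) (K' + 1)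
    have hAb' : ∑ i ∈ range (K' + 1), -(N (i + 1) * ((n : ℚ) + c - i + 1)) =
        ∑ i ∈ range (K' + 1), ν i * (((n : ℚ) + c - i + 1) * ((n : ℚ) + c - i + 2) / 2) -
          N 0 * (((n : ℚ) + c - (0 : ℕ) + 1) * ((n : ℚ) + c - (0 : ℕ) + 2) / 2) := by
      have : ∑ i ∈ range (K' + 1), -(N (i + 1) * ((n : ℚ) + c - i + 1)) =
          ∑ i ∈ range (K' + 1), N (i + 1) * ((((n : ℚ) + c - (i + 1 : ℕ) + 1) *
            ((n : ℚ) + c - (i + 1 : ℕ) + 2) / 2) - (((n : ℚ) + c - i + 1) * ((n : ℚ) + c - i + 2) / 2)) := by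
        refine sum_congr rfl (fun i _ => ?_)
        push_cast; ring
      rw [this, hAb, hK]; ring
    rw [hAb', hN]
    have hexp : ∑ i ∈ range (K' + 1), ν i * (((n : ℚ) + c - i + 1) * ((n : ℚ) + c - i + 2) / 2) =
        N0 / 2 * n ^ 2 + S1 * n + (S2 / 2 - N0 / 8) := by
      have : ∀ i ∈ range (K' + 1), ν i * (((n : ℚ) + c - i + 1) * ((n : ℚ) + c - i + 2) / 2) =
          ν i * ((n : ℚ) ^ 2 / 2 - 1 / 8) + (ν i * x i) * n + (ν i * x i ^ 2) * (1 / 2) := by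
        intro i _
        simp only [hx]; ring
      rw [sum_congr rfl this, sum_add_distrib, sum_add_distrib, ← sum_mul, ← sum_mul, ← sum_mul, hsumν]
      simp only [hS1, hS2]; ring
    rw [hexp]
    push_cast; ring
  · have hvar := variance_nonneg K ν x hν (by rw [hsumν]; exact hN0)
    rw [hsumν] at hvar
    have he0 : 0 ≤ e := sum_nonneg (fun i _ => hε _)
    have : (-S1) ^ 2 / (2 * N0) = (S1 ^ 2 / N0) / 2 := by
      field_simp
    rw [this]
    linarith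

/-- existence of a minimum in a discrete bounded below set of rationals -/
theorem exists_min_disc (S : Set ℚ) (hne : S.Nonempty) (q : ℚ) (hq : 0 < q)
    (hdisc : ∀ c ∈ S, ∃ k : ℤ, c = k * q) (B : ℚ) (hB : ∀ c ∈ S, B ≤ c) :
    ∃ c0 ∈ S, ∀ c ∈ S, c0 ≤ c := by
  obtain ⟨c1, hc1⟩ := hne
  obtain ⟨k1, hk1⟩ := hdisc c1 hc1
  obtain ⟨k0, hk0, hmin⟩ := Int.exists_least_of_bdd (P := fun k : ℤ => (k : ℚ) * q ∈ S)
    ⟨⌊B / q⌋, fun z hz => by
      have := hB _ hz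
      have h2 : B / q ≤ z := by rw [div_le_iff₀ hq]; exact this
      exact_mod_cast (Int.floor_le (B / q)).trans h2⟩
    ⟨k1, by rw [← hk1]; exact hc1⟩
  refine ⟨k0 * q, hk0, fun c hc => ?_⟩
  obtain ⟨k, rfl⟩ := hdisc c hc
  have := hmin k hc
  have h3 : (k0 : ℚ) ≤ k := by exact_mod_cast this
  exact mul_le_mul_of_nonneg_right h3 hq.le

/-- `c = γ - β²/(2N) ∈ (1/8N) ℤ` -/
theorem c_disc (N : ℕ) (hN : 0 < N) (β γ : ℚ) (hβ : ∃ k : ℤ, β = k / 2) (hγ : ∃ k : ℤ, γ = k) :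
    ∃ k : ℤ, γ - β ^ 2 / (2 * N) = k * (1 / (8 * N : ℚ)) := by
  obtain ⟨k, rfl⟩ := hβ
  obtain ⟨l, rfl⟩ := hγ
  have hN' : (N : ℚ) ≠ 0 := by exact_mod_cast hN.ne'
  refine ⟨8 * N * l - k ^ 2, ?_⟩
  push_cast
  field_simp
  ring

/-- C5, numeric: the invariants of the modified filtration
`h'(n) = P_V(n) + P_Q(n+1)`. -/
theorem modif_poly (NV βV γV NQ βQ γQ t : ℚ) :
    (NV / 2 * t ^ 2 - βV * t + γV) + (NQ / 2 * (t + 1) ^ 2 - βQ * (t + 1) + γQ) =
      (NV + NQ) / 2 * t ^ 2 - (βV + βQ - NQ) * t + (γV + γQ - βQ + NQ / 2) := by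
  ring

theorem modif_c (NV βV γV NQ βQ γQ : ℚ) (hV : 0 < NV) (hQ : 0 < NQ) :
    ((γV + γQ - βQ + NQ / 2) - (βV + βQ - NQ) ^ 2 / (2 * (NV + NQ))) -
      ((γV + γQ) - (βV + βQ) ^ 2 / (2 * (NV + NQ))) =
      NV * NQ / (2 * (NV + NQ)) * (2 * (βV / NV - βQ / NQ) + 1) := by
  have : NV + NQ ≠ 0 := by positivity
  field_simp
  ring

/-- C5: minimality gives `b_Q - b_V ≤ 1/2`. -/
theorem modif_gap (NV βV γV NQ βQ γQ : ℚ) (hV : 0 < NV) (hQ : 0 < NQ)
    (hmin : (γV + γQ) - (βV + βQ) ^ 2 / (2 * (NV + NQ)) ≤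
      (γV + γQ - βQ + NQ / 2) - (βV + βQ - NQ) ^ 2 / (2 * (NV + NQ))) :
    βQ / NQ - βV / NV ≤ 1 / 2 := by
  have h := modif_c NV βV γV NQ βQ γQ hV hQ
  have h2 : 0 ≤ NV * NQ / (2 * (NV + NQ)) * (2 * (βV / NV - βQ / NQ) + 1) := by
    rw [← h]; linarith
  have hpos : 0 < NV * NQ / (2 * (NV + NQ)) := by positivity
  have h3 : 0 ≤ 2 * (βV / NV - βQ / NQ) + 1 := nonneg_of_mul_nonneg_right h2 hpos
  linarith

/-- C6: averaging -/
theorem avg_lemma (NV βV NQ βQ : ℚ) (hV : 0 < NV) (hQ : 0 < NQ) (hgap : βQ / NQ - βV / NV ≤ 1 / 2) :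
    (βV + βQ) / (NV + NQ) - 1 / 2 ≤ βV / NV ∧ βQ / NQ ≤ (βV + βQ) / (NV + NQ) + 1 / 2 := by
  have hs : 0 < NV + NQ := by positivity
  have hV' : βV = βV / NV * NV := by field_simp
  have hQ' : βQ = βQ / NQ * NQ := by field_simp
  set a := βV / NV with ha
  set b := βQ / NQ with hb
  rw [hV', hQ']
  constructor
  · rw [sub_le_iff_le_add, div_le_iff₀ hs]
    nlinarith
  · rw [← sub_le_iff_le_add, le_div_iff₀ hs]
    nlinarith

/-- C1, semistable case -/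
theorem ss_bound (N β γ t0 R : ℚ) (hN : 0 < N) (h1 : t0 - 1 / 2 ≤ β / N) (h2 : β / N ≤ t0 + 1 / 2)
    (hc : γ - β ^ 2 / (2 * N) ≤ R) :
    N / 2 * t0 ^ 2 - β * t0 + γ ≤ N / 8 + R := by
  have hβ : β = β / N * N := by field_simp
  set b := β / N with hb
  rw [hβ] at hc ⊢
  have e1 : (b * N) ^ 2 / (2 * N) = N / 2 * b ^ 2 := by field_simp
  rw [e1] at hc
  have h3 : (t0 - b) ^ 2 ≤ 1 / 4 := by nlinarith
  nlinarith

/-- C6, final arithmetic -/
theorem c0_final (d N r cB : ℚ) (hd : 0 < d) (hr : 0 < r) (hN : N = r * d)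
    (h : -N / 8 ≤ N / 8 + r * cB) : -d / 4 ≤ cB := by
  subst hN
  have : 0 ≤ r * (d / 4 + cB) := by linarith
  have := nonneg_of_mul_nonneg_right this hr
  linarith

end R169
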