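import Crest.Agent.R169.DefsBR
import Crest.Agent.R169.C0Num

/-!
# Row 169, module 1 (C0): the lemma C1 (induction on the rank from L5 and BR)
-/

set_option autoImplicit false

namespace R169

section pull

variable {k L : Type} [Field k] [Field L] [Algebra k L]
variable {W : Type} [AddCommGroup W] [Module k W] [Module L W] [IsScalarTower k L W]
variable {W' : Type} [AddCommGroup W'] [Module k W'] [Module L W'] [IsScalarTower k L W']

/-- pull back of a family along a linear map -/
def pull (g : W' →ₗ[L] W) (E : ℤ → Submodule k W) (n : ℤ) : Submodule k W' :=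
  (E n).comap (g.restrictScalars k)

theorem mem_pull (g : W' →ₗ[L] W) (E : ℤ → Submodule k W) (n : ℤ) (x : W') :
    x ∈ pull g E n ↔ g x ∈ E n := Iff.rfl

theorem finrank_pull (g : W' →ₗ[L] W) (hg : Function.Injective g) (E : ℤ → Submodule k W) (n : ℤ) :
    Module.finrank k (pull g E n) = Module.finrank k (sat E (LinearMap.range g) n) := by
  have h1 : (pull g E n).map (g.restrictScalars k) = sat E (LinearMap.range g) n := by
    ext w
    simp only [Submodule.mem_map, mem_pull, LinearMap.coe_restrictScalars, sat, Submodule.mem_inf,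
      Submodule.restrictScalars_mem, LinearMap.mem_range]
    constructor
    · rintro ⟨y, hy, rfl⟩
      exact ⟨hy, y, rfl⟩
    · rintro ⟨hw, y, rfl⟩
      exact ⟨y, hw, rfl⟩
  rw [← h1]
  exact LinearEquiv.finrank_eq (Submodule.equivMapOfInjective (g.restrictScalars k) hg _)

theorem sat_pull (g : W' →ₗ[L] W) (hg : Function.Injective g) (E : ℤ → Submodule k W)
    (V : Submodule L W') (n : ℤ) :
    Module.finrank k (sat (pull g E) V n) = Module.finrank k (sat E (V.map g) n) := by
  have h1 : (sat (pull g E) V n).map (g.restrictScalars k) = sat E (V.map g) n := by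
    ext w
    simp only [Submodule.mem_map, sat, Submodule.mem_inf, mem_pull, LinearMap.coe_restrictScalars,
      Submodule.restrictScalars_mem]
    constructor
    · rintro ⟨y, ⟨hy, hy2⟩, rfl⟩
      exact ⟨hy, y, hy2, rfl⟩
    · rintro ⟨hw, y, hy, rfl⟩
      exact ⟨y, ⟨hw, hy⟩, rfl⟩
  rw [← h1]
  exact LinearEquiv.finrank_eq (Submodule.equivMapOfInjective (g.restrictScalars k) hg _)

theorem IsLat.pull {D : GD k L} {η ζ : L} (hP : Par D η ζ) {E : ℤ → Submodule k W}
    (h : IsLat D η ζ E) (g : W' →ₗ[L] W) (hg : Function.Injective g) :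
    IsLat D η ζ (R169.pull g E) := by
  have hs := h.sat hP (LinearMap.range g)
  refine ⟨?_, ?_, ?_, ?_⟩
  · intro i n a w ha hw
    rw [mem_pull, map_smul]
    exact h.smul_mem ha hw
  · intro n
    have := h.fin n
    have e := Submodule.equivMapOfInjective (g.restrictScalars k) hg (R169.pull g E n)
    have hle : (R169.pull g E n).map (g.restrictScalars k) ≤ E n := Submodule.map_comap_le _ _
    have : FiniteDimensional k ((R169.pull g E n).map (g.restrictScalars k)) :=
      Submodule.finiteDimensional_of_le hle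
    exact LinearEquiv.finiteDimensional e.symm
  · obtain ⟨n0, hn0⟩ := h.bdd
    refine ⟨n0, fun n hn => ?_⟩
    rw [eq_bot_iff]
    intro x hx
    rw [mem_pull, hn0 n hn, Submodule.mem_bot] at hx
    rw [Submodule.mem_bot]
    exact hg (by rw [hx, map_zero])
  · obtain ⟨n1, hn1⟩ := hs.gen
    refine ⟨n1, fun n hn x hx => ?_⟩
    have h1 : g x ∈ R169.sat E (LinearMap.range g) (n + 1) := ⟨hx, by simp⟩
    have h2 := hn1 n hn h1
    rw [Submodule.mem_sup] at h2
    obtain ⟨y, hy, z, hz, hyz⟩ := h2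
    rw [Submodule.mem_sup] at hy
    obtain ⟨y1, hy1, y2, hy2, rfl⟩ := hy
    obtain ⟨y3, hy3, rfl⟩ := hy2
    obtain ⟨z3, hz3, rfl⟩ := hz
    obtain ⟨u1, hu1⟩ := hy1.2
    obtain ⟨u2, hu2⟩ := hy3.2
    obtain ⟨u3, hu3⟩ := hz3.2
    have hx' : x = u1 + η • u2 + ζ • u3 := by
      apply hg
      rw [map_add, map_add, map_smul, map_smul, hu1, hu2, hu3, ← hyz]
      rfl
    rw [hx']
    refine Submodule.add_mem_sup (Submodule.add_mem_sup ?_ ?_) ?_
    · rw [mem_pull, hu1]; exact hy1.1
    · exact ⟨u2, by rw [SetLike.mem_coe, mem_pull, hu2]; exact hy3.1, rfl⟩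
    · exact ⟨u3, by rw [SetLike.mem_coe, mem_pull, hu3]; exact hz3.1, rfl⟩

theorem lspan_pull {D : GD k L} {η ζ : L} {E : ℤ → Submodule k W}
    (h : IsLat D η ζ E) (hs : lspan L E = ⊤) (g : W' →ₗ[L] W) (hg : Function.Injective g) :
    lspan L (pull g E) = ⊤ := by
  have h1 := lspan_sat (V := LinearMap.range g) h hs
  rw [eq_top_iff]
  intro x _
  have hx : g x ∈ lspan L (sat E (LinearMap.range g)) := by rw [h1]; simp
  have key : lspan L (sat E (LinearMap.range g)) ≤ (lspan L (pull g E)).map g := by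
    rw [lspan, Submodule.span_le]
    intro w hw
    obtain ⟨n, hn⟩ := Set.mem_iUnion.1 hw
    obtain ⟨hn1, u, hu⟩ := hn
    refine ⟨u, Submodule.subset_span (Set.mem_iUnion.2 ⟨n, ?_⟩), hu⟩
    rw [SetLike.mem_coe, mem_pull, hu]; exact hn1
  obtain ⟨y, hy, hy2⟩ := key hx
  rw [← hg hy2]; exact hy

theorem finrank_map_of_ker_eq {V1 V2 V3 : Type} [AddCommGroup V1] [Module k V1] [AddCommGroup V2]
    [Module k V2] [AddCommGroup V3] [Module k V3] (f : V1 →ₗ[k] V2) (g : V1 →ₗ[k] V3)
    (h : LinearMap.ker f = LinearMap.ker g) (S : Submodule k V1) :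
    Module.finrank k (S.map f) = Module.finrank k (S.map g) := by
  have e1 := (f.domRestrict S).quotKerEquivRange
  have e2 := (g.domRestrict S).quotKerEquivRange
  have hk : LinearMap.ker (f.domRestrict S) = LinearMap.ker (g.domRestrict S) := by
    ext x
    rw [LinearMap.mem_ker, LinearMap.mem_ker, LinearMap.domRestrict_apply, LinearMap.domRestrict_apply,
      ← LinearMap.mem_ker, ← LinearMap.mem_ker, h]
  have r1 : LinearMap.range (f.domRestrict S) = S.map f := by
    rw [LinearMap.range_domRestrict]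
  have r2 : LinearMap.range (g.domRestrict S) = S.map g := by
    rw [LinearMap.range_domRestrict]
  rw [← r1, ← r2, ← e1.finrank_eq, ← e2.finrank_eq, hk]

theorem HasHP.congr {E : ℤ → Submodule k W} {E' : ℤ → Submodule k W'} {N β γ : ℚ}
    (h : HasHP E N β γ) (he : ∀ n, Module.finrank k (E' n) = Module.finrank k (E n)) :
    HasHP E' N β γ := by
  obtain ⟨n0, h⟩ := h
  exact ⟨n0, fun n hn => by rw [he]; exact h n hn⟩

end pull

section c1

variable {k L : Type} [Field k] [Field L] [Algebra k L]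

theorem C1_aux (D : GD k L) {η ζ : L} (hP : Par D η ζ) (hBR : BR D η ζ) {dB βB γB : ℚ}
    (hB : HasHP D.B dB βB γB) (r : ℕ) :
    ∀ (W : Type) [AddCommGroup W] [Module k W] [Module L W] [IsScalarTower k L W]
      [FiniteDimensional L W], Module.finrank L W = r →
    ∀ (E : ℤ → Submodule k W), IsLat D η ζ E → lspan L E = ⊤ → ∀ (t0 : ℚ),
      (∀ V : Submodule L W, V ≠ ⊥ → ∀ N' β' γ' : ℚ, HasHP (sat E V) N' β' γ' →
        (t0 - 1 / 2) * N' ≤ β') →
      (∀ V : Submodule L W, V ≠ ⊤ → ∀ N' β' γ' : ℚ, HasHP (quo E V) N' β' γ' →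
        β' ≤ (t0 + 1 / 2) * N') →
      ∀ N β γ : ℚ, HasHP E N β γ →
        N / 2 * t0 ^ 2 - β * t0 + γ ≤ N / 8 + r * (γB - βB ^ 2 / (2 * dB)) := by
  induction r using Nat.strong_induction_on with
  | _ r ih =>
  intro W _ _ _ _ _ hr E hE hs t0 hsub hquo N β γ hh
  obtain ⟨hd, hN⟩ := hE.rank hP hB hh
  rw [hs, finrank_top, hr] at hN
  rcases Nat.eq_zero_or_pos r with h0 | hpos
  · -- rank zero
    have hsubs : Subsingleton W := Module.finrank_zero_iff.1 (by rw [hr, h0])
    have h00 : HasHP E 0 0 0 := by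
      refine ⟨0, fun n _ => ?_⟩
      have : E n = ⊥ := Subsingleton.elim _ _
      rw [this]; simp
    obtain ⟨e1, e2, e3⟩ := hh.unique h00
    subst e1; subst e2; subst e3; subst h0
    simp
  have : Nontrivial W := Module.nontrivial_of_finrank_pos (R := L) (by rw [hr]; exact hpos)
  obtain ⟨V, N1, β1, γ1, hm⟩ := exists_minSlope hP hE hs
  obtain ⟨hVne, hh1, hmin⟩ := hm
  have hm : MinSlope L E V N1 β1 γ1 := ⟨hVne, hh1, hmin⟩
  have hfin := hE.fin
  -- ranks
  have hE1 := hE.sat hP V
  obtain ⟨-, hN1⟩ := hE1.rank hP hB hh1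
  rw [lspan_sat hE hs] at hN1
  have hV1 : 0 < Module.finrank L V := by
    rw [Module.finrank_pos_iff]
    exact Submodule.nontrivial_iff_ne_bot.2 hVne
  have hN1pos : 0 < N1 := by rw [hN1]; have : (0 : ℚ) < Module.finrank L V := by exact_mod_cast hV1
                             positivity
  have hNpos : 0 < N := by rw [hN]; have : (0 : ℚ) < r := by exact_mod_cast hpos
                           positivity
  -- slope bounds of V
  have hb1 : (t0 - 1 / 2) * N1 ≤ β1 := hsub V hVne _ _ _ hh1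
  have hbE : β ≤ (t0 + 1 / 2) * N := by
    refine hquo ⊥ bot_ne_top N β γ (hh.congr fun n => ?_)
    have h1 := finrank_sat_add_quo E hfin (⊥ : Submodule L W) n
    have h2 : sat E (⊥ : Submodule L W) n = ⊥ := by
      rw [eq_bot_iff]; intro w hw; exact hw.2
    rw [h2, finrank_bot, zero_add] at h1
    exact h1.symm
  have hbmin : β1 * N ≤ β * N1 := by
    refine hmin ⊤ top_ne_bot N β γ (hh.congr fun n => ?_)
    have : sat E (⊤ : Submodule L W) n = E n := by
      ext w; simp [sat]
    rw [this]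
  have hb1' : β1 / N1 ≤ t0 + 1 / 2 := by
    rw [div_le_iff₀ hN1pos]
    have h1 : β1 * N ≤ (t0 + 1 / 2) * N1 * N := by nlinarith
    exact le_of_mul_le_mul_right h1 hNpos
  have hb1'' : t0 - 1 / 2 ≤ β1 / N1 := by
    rw [le_div_iff₀ hN1pos]; exact hb1
  -- the semistable part
  have hss : N1 / 2 * t0 ^ 2 - β1 * t0 + γ1 ≤ N1 / 8 +
      (Module.finrank L V : ℚ) * (γB - βB ^ 2 / (2 * dB)) := by
    refine ss_bound N1 β1 γ1 t0 _ hN1pos hb1'' hb1' ?_
    let e : V ≃ₗ[L] (Fin (Module.finrank L V) → L) := (Module.finBasis L V).equivFun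
    let g : (Fin (Module.finrank L V) → L) →ₗ[L] W := V.subtype ∘ₗ e.symm.toLinearMap
    have hg : Function.Injective g := V.injective_subtype.comp e.symm.injective
    have hrange : LinearMap.range g = V := by
      rw [LinearMap.range_comp, LinearEquiv.range, Submodule.map_top, Submodule.range_subtype]
    refine hBR dB βB γB hB (Module.finrank L V) (pull g E) hV1 (hE.pull hP g hg)
      (lspan_pull hE hs g hg) N1 β1 γ1 (hh1.congr fun n => ?_) ?_
    · rw [finrank_pull g hg, hrange]
    · intro V' hV' N' β' γ' hh'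
      have hle : V'.map g ≤ V := by
        refine le_trans LinearMap.map_le_range (le_of_eq hrange)
      refine hm.semistable (V'.map g) hle ?_ N' β' γ' (hh'.congr fun n => (sat_pull g hg E V' n).symm)
      intro h0
      apply hV'
      rw [eq_bot_iff]
      intro x hx
      have h1 : g x ∈ V'.map g := ⟨x, hx, rfl⟩
      rw [h0, Submodule.mem_bot] at h1
      rw [Submodule.mem_bot]
      exact hg (by rw [h1, map_zero])
  -- the quotient
  have hE2 := hE.quo V
  have hfr : Module.finrank L V + Module.finrank L (W ⧸ V) = r := by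
    rw [← hr, add_comm]; exact Submodule.finrank_quotient_add_finrank V
  obtain ⟨N2n, β2, γ2, hh2, -, -⟩ := (hE2.toPLat hP).hasHP
  set N2 : ℚ := (N2n : ℚ) with hN2def
  have hq := ih (Module.finrank L (W ⧸ V)) (by omega) (W ⧸ V) rfl (quo E V) hE2 (lspan_quo hs) t0
    (by
      intro U hU N' β' γ' hh'
      have h1 := hm.quo hP hE hs U hU N' β' γ' hh'
      obtain ⟨hd', hN'⟩ := (hE2.sat hP U).rank hP hB hh'
      have hN'0 : 0 ≤ N' := by rw [hN']; positivity
      have h2 : (t0 - 1 / 2) * N' * N1 ≤ β' * N1 := by nlinarith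
      exact le_of_mul_le_mul_right h2 hN1pos)
    (by
      intro U hU N' β' γ' hh'
      refine hquo (U.comap V.mkQ) ?_ N' β' γ' (hh'.congr fun n => ?_)
      · intro h
        apply hU
        rw [eq_top_iff]
        intro x _
        obtain ⟨y, rfl⟩ := V.mkQ_surjective x
        have : y ∈ U.comap V.mkQ := by rw [h]; trivial
        exact this
      · have e1 : quo (quo E V) U n =
            (E n).map ((U.mkQ.restrictScalars k) ∘ₗ (V.mkQ.restrictScalars k)) := by
          rw [quo, quo, Submodule.map_comp]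
        rw [e1, quo]
        apply finrank_map_of_ker_eq
        ext w
        simp [LinearMap.mem_ker])
    N2 β2 γ2 hh2
  obtain ⟨e1, e2, e3⟩ := hh.sub_quo hfin hh1 hh2
  have hrr : (r : ℚ) = Module.finrank L V + Module.finrank L (W ⧸ V) := by exact_mod_cast hfr.symm
  rw [e1, e2, e3, hrr]
  have := add_le_add hss hq
  nlinarith

/-- C1 -/
theorem C1 (D : GD k L) {η ζ : L} (hP : Par D η ζ) (hBR : BR D η ζ) {dB βB γB : ℚ}
    (hB : HasHP D.B dB βB γB)
    {W : Type} [AddCommGroup W] [Module k W] [Module L W] [IsScalarTower k L W]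
    [FiniteDimensional L W] {E : ℤ → Submodule k W} (hE : IsLat D η ζ E) (hs : lspan L E = ⊤) (t0 : ℚ)
    (hsub : ∀ V : Submodule L W, V ≠ ⊥ → ∀ N' β' γ' : ℚ, HasHP (sat E V) N' β' γ' →
        (t0 - 1 / 2) * N' ≤ β')
    (hquo : ∀ V : Submodule L W, V ≠ ⊤ → ∀ N' β' γ' : ℚ, HasHP (quo E V) N' β' γ' →
        β' ≤ (t0 + 1 / 2) * N')
    {N β γ : ℚ} (hh : HasHP E N β γ) :
    N / 2 * t0 ^ 2 - β * t0 + γ ≤
      N / 8 + (Module.finrank L W : ℚ) * (γB - βB ^ 2 / (2 * dB)) :=
  C1_aux D hP hBR hB (Module.finrank L W) W rfl E hE hs t0 hsub hquo N β γ hh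

/-- C1 in the form used in `C0Main.lean` -/
theorem c1_bound {D : GD k L} {η ζ : L} (hP : Par D η ζ) (hBR : BR D η ζ) {dB βB γB : ℚ}
    (hB : HasHP D.B dB βB γB)
    {W : Type} [AddCommGroup W] [Module k W] [Module L W] [IsScalarTower k L W]
    [FiniteDimensional L W] {E : ℤ → Submodule k W} (h : IsLat D η ζ E) (hs : lspan L E = ⊤)
    {N β γ : ℚ} (hh : HasHP E N β γ) (t0 : ℚ)
    (hsub : ∀ V : Submodule L W, V ≠ ⊥ → ∀ N' β' γ' : ℚ, HasHP (sat E V) N' β' γ' →
        (t0 - 1 / 2) * N' ≤ β')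
    (hquo : ∀ V : Submodule L W, V ≠ ⊤ → ∀ N' β' γ' : ℚ, HasHP (quo E V) N' β' γ' →
        β' ≤ (t0 + 1 / 2) * N') :
    N / 2 * t0 ^ 2 - β * t0 + γ ≤
      N / 8 + (Module.finrank L W : ℚ) * (γB - βB ^ 2 / (2 * dB)) :=
  C1 D hP hBR hB h hs t0 hsub hquo hh

end c1

end R169
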