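import Mathlib

/-!
# Row 169, module 1 (C0): relative dimensions `dim (A + B)/B` of subspaces
-/

set_option autoImplicit false

namespace R169

section rd

variable {k M : Type} [Field k] [AddCommGroup M] [Module k M]

theorem finrank_map_congr {M1 M2 : Type} [AddCommGroup M1] [Module k M1] [AddCommGroup M2] [Module k M2]
    (f : M →ₗ[k] M1) (g : M →ₗ[k] M2) (S : Submodule k M) (h : ∀ x ∈ S, f x = 0 ↔ g x = 0) :
    Module.finrank k (S.map f) = Module.finrank k (S.map g) ∧
      (FiniteDimensional k (S.map f) ↔ FiniteDimensional k (S.map g)) := by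
  have e1 := (f.domRestrict S).quotKerEquivRange
  have e2 := (g.domRestrict S).quotKerEquivRange
  have hk : LinearMap.ker (f.domRestrict S) = LinearMap.ker (g.domRestrict S) := by
    ext x
    rw [LinearMap.mem_ker, LinearMap.mem_ker, LinearMap.domRestrict_apply, LinearMap.domRestrict_apply]
    exact h x x.2
  have r1 : LinearMap.range (f.domRestrict S) = S.map f := by
    rw [LinearMap.range_domRestrict]
  have r2 : LinearMap.range (g.domRestrict S) = S.map g := by
    rw [LinearMap.range_domRestrict]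
  rw [hk] at e1
  rw [← r1, ← r2]
  have e3 := e1.symm.trans e2
  exact ⟨e3.finrank_eq, ⟨fun _ => LinearEquiv.finiteDimensional e3,
    fun _ => LinearEquiv.finiteDimensional e3.symm⟩⟩

/-- `A/(A ∩ B)` computed with `B` or with any `C` such that `A ∩ B = A ∩ C` -/
theorem rd_congr {A B C : Submodule k M} (h : A ⊓ B = A ⊓ C) :
    Module.finrank k (A.map B.mkQ) = Module.finrank k (A.map C.mkQ) ∧
      (FiniteDimensional k (A.map B.mkQ) ↔ FiniteDimensional k (A.map C.mkQ)) := by
  apply finrank_map_congr
  intro x hx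
  rw [Submodule.mkQ_apply, Submodule.mkQ_apply, Submodule.Quotient.mk_eq_zero,
    Submodule.Quotient.mk_eq_zero]
  constructor
  · intro hb
    have : x ∈ A ⊓ C := h ▸ ⟨hx, hb⟩
    exact this.2
  · intro hb
    have : x ∈ A ⊓ B := h.symm ▸ ⟨hx, hb⟩
    exact this.2

theorem rd_add {A B C : Submodule k M} (hCB : C ≤ B) (hBA : B ≤ A)
    (h1 : FiniteDimensional k (A.map B.mkQ)) (h2 : FiniteDimensional k (B.map C.mkQ)) :
    FiniteDimensional k (A.map C.mkQ) ∧
      Module.finrank k (A.map C.mkQ) = Module.finrank k (A.map B.mkQ) + Module.finrank k (B.map C.mkQ) := by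
  -- the map `A/C → M/B`
  let φ : (M ⧸ C) →ₗ[k] (M ⧸ B) := Submodule.mapQ C B LinearMap.id (by simpa using hCB)
  let S : Submodule k (M ⧸ C) := A.map C.mkQ
  let ψ : S →ₗ[k] (M ⧸ B) := φ.domRestrict S
  have hrange : LinearMap.range ψ = A.map B.mkQ := by
    simp only [ψ]
    rw [LinearMap.range_domRestrict]
    simp only [S]
    rw [← Submodule.map_comp]
    congr 1
  have hker : LinearMap.ker ψ = (B.map C.mkQ).comap S.subtype := by
    ext ⟨x, hx⟩
    obtain ⟨y, rfl⟩ := C.mkQ_surjective x
    rw [LinearMap.mem_ker, LinearMap.domRestrict_apply, Submodule.mem_comap]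
    simp only [φ, Submodule.mkQ_apply, Submodule.mapQ_apply, LinearMap.id_apply, Submodule.subtype_apply]
    rw [Submodule.Quotient.mk_eq_zero]
    constructor
    · intro hy
      exact ⟨y, hy, rfl⟩
    · rintro ⟨z, hz, hzy⟩
      have : z - y ∈ C := (Submodule.Quotient.eq C).1 hzy
      have h3 : y = z - (z - y) := by abel
      rw [h3]
      exact B.sub_mem hz (hCB this)
  have hle : B.map C.mkQ ≤ S := Submodule.map_mono hBA
  have e : ((B.map C.mkQ).comap S.subtype) ≃ₗ[k] (B.map C.mkQ) := Submodule.comapSubtypeEquivOfLe hle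
  have : FiniteDimensional k (LinearMap.ker ψ) := by
    rw [hker]; exact LinearEquiv.finiteDimensional e.symm
  have : FiniteDimensional k (LinearMap.range ψ) := by rw [hrange]; exact h1
  have hS : FiniteDimensional k S := by
    have : FiniteDimensional k (S ⧸ LinearMap.ker ψ) :=
      LinearEquiv.finiteDimensional ψ.quotKerEquivRange.symm
    exact Module.Finite.of_submodule_quotient (LinearMap.ker ψ)
  refine ⟨hS, ?_⟩
  have h3 := LinearMap.finrank_range_add_finrank_ker ψ
  rw [hrange, hker, e.finrank_eq] at h3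
  exact h3.symm

theorem rd_self (A : Submodule k M) : FiniteDimensional k (A.map A.mkQ) ∧
    Module.finrank k (A.map A.mkQ) = 0 := by
  have : A.map A.mkQ = ⊥ := by
    rw [eq_bot_iff]
    rintro x ⟨y, hy, rfl⟩
    rw [Submodule.mem_bot, Submodule.mkQ_apply, Submodule.Quotient.mk_eq_zero]
    exact hy
  rw [this]
  exact ⟨inferInstance, finrank_bot _ _⟩

theorem rd_chain (G : ℕ → Submodule k M) (hG : ∀ i, G (i + 1) ≤ G i)
    (hf : ∀ i, FiniteDimensional k ((G i).map (G (i + 1)).mkQ)) (K : ℕ) :
    FiniteDimensional k ((G 0).map (G K).mkQ) ∧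
      Module.finrank k ((G 0).map (G K).mkQ) =
        ∑ i ∈ Finset.range K, Module.finrank k ((G i).map (G (i + 1)).mkQ) := by
  induction K with
  | zero => simpa using rd_self (G 0)
  | succ K ih =>
    have hle : ∀ j, G j ≤ G 0 := fun j => by
      induction j with
      | zero => exact le_rfl
      | succ j ihj => exact (hG j).trans ihj
    obtain ⟨h1, h2⟩ := rd_add (hG K) (hle K) ih.1 (hf K)
    refine ⟨h1, ?_⟩
    rw [h2, ih.2, Finset.sum_range_succ]

end rd

end R169
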