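import Crest.Agent.R169.C0A
import Crest.Agent.R169.C0Rd
import Crest.Agent.R169.C0Num

/-!
# Row 169, module 1 (C0): C3 (Lemma L), abstract form
-/

set_option autoImplicit false

namespace R169

open Finset

section C3

variable {k L : Type} [Field k] [Field L] [Algebra k L]
variable {M : Type} [AddCommGroup M] [Module k M]

/-- the data of `gr_I M ≅ P ⊗ M/IM` -/
structure C3Data (η ζ : L) (N : ℕ) (IM : ℤ → Submodule k M) (X0 X1 X2 : M →ₗ[k] M)
    (Θ : ℤ → (Fin N → L) → M) : Prop where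
  anti : ∀ j, IM (j + 1) ≤ IM j
  x0 : ∀ j w, w ∈ IM j → X0 w ∈ IM (j + 1)
  x1 : ∀ j w, w ∈ IM j → X1 w ∈ IM (j + 1)
  x2 : ∀ j w, w ∈ IM j → X2 w ∈ IM (j + 1)
  add : ∀ j v w, v ∈ Apow k η ζ N j → w ∈ Apow k η ζ N j → Θ j (v + w) = Θ j v + Θ j w
  smul : ∀ j (c : k) v, v ∈ Apow k η ζ N j → Θ j (c • v) = c • Θ j v
  θ0 : ∀ j v, v ∈ Apow k η ζ N j → Θ (j + 1) v = X0 (Θ j v)
  θ1 : ∀ j v, v ∈ Apow k η ζ N j → Θ (j + 1) (η • v) = X1 (Θ j v)
  θ2 : ∀ j v, v ∈ Apow k η ζ N j → Θ (j + 1) (ζ • v) = X2 (Θ j v)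
  mem : ∀ j v, v ∈ Apow k η ζ N j → Θ j v ∈ IM j
  surj : ∀ j w, w ∈ IM j → ∃ v ∈ Apow k η ζ N j, w - Θ j v ∈ IM (j + 1)
  inj : ∀ j v, v ∈ Apow k η ζ N j → Θ j v ∈ IM (j + 1) → v = 0

/-- the filtrations -/
structure Filt3 (IM : ℤ → Submodule k M) (X0 X1 X2 : M →ₗ[k] M) (F : ℤ → Submodule k M)
    (c : ℕ) : Prop where
  anti : ∀ n, F (n + 1) ≤ F n
  x0 : ∀ n w, w ∈ F n → X0 w ∈ F (n + 1)
  x1 : ∀ n w, w ∈ F n → X1 w ∈ F (n + 1)
  x2 : ∀ n w, w ∈ F n → X2 w ∈ F (n + 1)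
  low : ∀ n, IM (n + c) ≤ F n
  up : ∀ n, F n ≤ IM (n - c)

variable {η ζ : L} {N : ℕ} {IM : ℤ → Submodule k M} {X0 X1 X2 : M →ₗ[k] M}
  {Θ : ℤ → (Fin N → L) → M} {F : ℤ → Submodule k M} {c : ℕ}

/-- the graded modules `U_s` -/
def US (hd : C3Data η ζ N IM X0 X1 X2 Θ) (F : ℤ → Submodule k M) (s j : ℤ) :
    Submodule k (Fin N → L) where
  carrier := {v | v ∈ Apow k η ζ N j ∧ Θ j v ∈ F (j + s) ⊔ IM (j + 1)}
  add_mem' := by
    rintro v w ⟨hv, hv'⟩ ⟨hw, hw'⟩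
    refine ⟨Submodule.add_mem _ hv hw, ?_⟩
    rw [hd.add j v w hv hw]
    exact Submodule.add_mem _ hv' hw'
  zero_mem' := by
    refine ⟨Submodule.zero_mem _, ?_⟩
    have h := hd.smul j (0 : k) 0 (Submodule.zero_mem _)
    rw [zero_smul, zero_smul] at h
    rw [h]; exact Submodule.zero_mem _
  smul_mem' := by
    rintro a v ⟨hv, hv'⟩
    refine ⟨Submodule.smul_mem _ a hv, ?_⟩
    rw [hd.smul j a v hv]
    exact Submodule.smul_mem _ a hv'

theorem mem_US (hd : C3Data η ζ N IM X0 X1 X2 Θ) (s j : ℤ) (v : Fin N → L) :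
    v ∈ US hd F s j ↔ v ∈ Apow k η ζ N j ∧ Θ j v ∈ F (j + s) ⊔ IM (j + 1) := Iff.rfl

theorem F_anti (hF : Filt3 IM X0 X1 X2 F c) {a b : ℤ} (h : a ≤ b) : F b ≤ F a := by
  obtain ⟨m, rfl⟩ := Int.le.dest h
  induction m with
  | zero => simp
  | succ m ih =>
    push_cast
    rw [← add_assoc]
    exact (hF.anti _).trans (ih (by omega))

theorem IM_anti (hd : C3Data η ζ N IM X0 X1 X2 Θ) {a b : ℤ} (h : a ≤ b) : IM b ≤ IM a := by
  obtain ⟨m, rfl⟩ := Int.le.dest h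
  induction m with
  | zero => simp
  | succ m ih =>
    push_cast
    rw [← add_assoc]
    exact (hd.anti _).trans (ih (by omega))

theorem US_stab (hd : C3Data η ζ N IM X0 X1 X2 Θ) (hF : Filt3 IM X0 X1 X2 F c) (s : ℤ) :
    IsPLat η ζ (US hd F s) := by
  have key : ∀ (X : M →ₗ[k] M) (l : L) (_ : ∀ j w, w ∈ IM j → X w ∈ IM (j + 1))
      (_ : ∀ n w, w ∈ F n → X w ∈ F (n + 1))
      (_ : ∀ j v, v ∈ Apow k η ζ N j → Θ (j + 1) (l • v) = X (Θ j v))
      (_ : ∀ j v, v ∈ Apow k η ζ N j → l • v ∈ Apow k η ζ N (j + 1)) (j : ℤ) (v : Fin N → L)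
      (_ : v ∈ US hd F s j), l • v ∈ US hd F s (j + 1) := by
    intro X l h1 h2 h3 h4 j v hv
    refine ⟨h4 j v hv.1, ?_⟩
    rw [h3 j v hv.1]
    obtain ⟨a, ha, b, hb, hab⟩ := Submodule.mem_sup.1 hv.2
    rw [← hab, map_add]
    refine Submodule.add_mem_sup ?_ (h1 _ b hb)
    have := h2 _ a ha
    have e : j + 1 + s = j + s + 1 := by ring
    rw [e]; exact this
  have hL := isPLat_Apow (k := k) (η := η) (ζ := ζ) N
  refine hL.sub (fun n v hv => hv.1) ?_ ?_ ?_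
  · intro n v hv
    have := key X0 1 hd.x0 hF.x0 (fun j v hv => by rw [one_smul]; exact hd.θ0 j v hv)
      (fun j v hv => by rw [one_smul]; exact hL.mono j hv) n v hv
    rwa [one_smul] at this
  · rintro n _ ⟨v, hv, rfl⟩
    exact key X1 η hd.x1 hF.x1 hd.θ1 (fun j v hv => hL.smη j ⟨v, hv, rfl⟩) n v hv
  · rintro n _ ⟨v, hv, rfl⟩
    exact key X2 ζ hd.x2 hF.x2 hd.θ2 (fun j v hv => hL.smζ j ⟨v, hv, rfl⟩) n v hv

theorem US_anti (hd : C3Data η ζ N IM X0 X1 X2 Θ) (hF : Filt3 IM X0 X1 X2 F c) (s j : ℤ) :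
    US hd F (s + 1) j ≤ US hd F s j := by
  intro v hv
  refine ⟨hv.1, ?_⟩
  have h : F (j + (s + 1)) ≤ F (j + s) := F_anti hF (by omega)
  exact sup_le_sup_right h _ hv.2

theorem US_top (hd : C3Data η ζ N IM X0 X1 X2 Θ) (hF : Filt3 IM X0 X1 X2 F c) {s : ℤ}
    (hs : s ≤ -c) (j : ℤ) : US hd F s j = Apow k η ζ N j := by
  refine le_antisymm (fun v hv => hv.1) (fun v hv => ⟨hv, ?_⟩)
  have h1 : IM j ≤ F (j + s) := (IM_anti hd (by omega)).trans (hF.low (j + s))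
  exact Submodule.mem_sup_left (h1 (hd.mem j v hv))

theorem US_bot (hd : C3Data η ζ N IM X0 X1 X2 Θ) (hF : Filt3 IM X0 X1 X2 F c) {s : ℤ}
    (hs : c < s) (j : ℤ) : US hd F s j = ⊥ := by
  rw [eq_bot_iff]
  intro v hv
  rw [Submodule.mem_bot]
  have h1 : F (j + s) ≤ IM (j + 1) := (hF.up _).trans (IM_anti hd (by omega))
  exact hd.inj j v hv.1 (sup_le h1 le_rfl hv.2)

/-- one step of the Zassenhaus filtration -/
theorem zass_step (hd : C3Data η ζ N IM X0 X1 X2 Θ) (hF : Filt3 IM X0 X1 X2 F c) (n j : ℤ) :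
    FiniteDimensional k (((F n ⊓ IM j) ⊔ F (n + 1)).map ((F n ⊓ IM (j + 1)) ⊔ F (n + 1)).mkQ) ∧
    Module.finrank k (US hd F (n - j) j) = Module.finrank k (US hd F (n - j + 1) j) +
      Module.finrank k (((F n ⊓ IM j) ⊔ F (n + 1)).map ((F n ⊓ IM (j + 1)) ⊔ F (n + 1)).mkQ) := by
  set Q : Submodule k M := F (n + 1) ⊔ IM (j + 1) with hQ
  have hfinU := (US_stab hd hF (n - j)).fin j
  -- the linear map
  let Φ : US hd F (n - j) j →ₗ[k] (M ⧸ Q) :=
    { toFun := fun v => Q.mkQ (Θ j v.1)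
      map_add' := fun v w => by
        rw [← map_add, ← hd.add j v.1 w.1 v.2.1 w.2.1]; rfl
      map_smul' := fun a v => by
        rw [RingHom.id_apply, ← map_smul, ← hd.smul j a v.1 v.2.1]; rfl }
  have hG : ∀ w, w ∈ F n ⊓ IM j → ∃ v : US hd F (n - j) j, Φ v = Q.mkQ w := by
    rintro w ⟨hw1, hw2⟩
    obtain ⟨v, hv, hv2⟩ := hd.surj j w hw2
    have hmem : Θ j v ∈ F (j + (n - j)) ⊔ IM (j + 1) := by
      have e : j + (n - j) = n := by ring
      rw [e]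
      have : Θ j v = w - (w - Θ j v) := by abel
      rw [this]
      exact Submodule.sub_mem _ (Submodule.mem_sup_left hw1) (Submodule.mem_sup_right hv2)
    refine ⟨⟨v, hv, hmem⟩, ?_⟩
    change Q.mkQ (Θ j v) = Q.mkQ w
    rw [← sub_eq_zero, ← map_sub, Submodule.mkQ_apply, Submodule.Quotient.mk_eq_zero]
    have : Θ j v - w = -(w - Θ j v) := by abel
    rw [this]
    exact Submodule.neg_mem _ (Submodule.mem_sup_right hv2)
  have hrange : LinearMap.range Φ = ((F n ⊓ IM j) ⊔ F (n + 1)).map Q.mkQ := by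
    apply le_antisymm
    · rintro _ ⟨⟨v, hv, hv'⟩, rfl⟩
      change Q.mkQ (Θ j v) ∈ _
      have e : j + (n - j) = n := by ring
      rw [e] at hv'
      obtain ⟨a, ha, b, hb, hab⟩ := Submodule.mem_sup.1 hv'
      have haI : a ∈ IM j := by
        have : a = Θ j v - b := by rw [← hab]; abel
        rw [this]
        exact Submodule.sub_mem _ (hd.mem j v hv) (hd.anti j hb)
      refine ⟨a, Submodule.mem_sup_left ⟨ha, haI⟩, ?_⟩
      rw [← sub_eq_zero, ← map_sub, Submodule.mkQ_apply, Submodule.Quotient.mk_eq_zero, ← hab]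
      have : a - (a + b) = -b := by abel
      rw [this]
      exact Submodule.neg_mem _ (Submodule.mem_sup_right hb)
    · rintro _ ⟨w, hw, rfl⟩
      obtain ⟨a, ha, b, hb, rfl⟩ := Submodule.mem_sup.1 hw
      obtain ⟨v, hv⟩ := hG a ha
      refine ⟨v, ?_⟩
      rw [hv, ← sub_eq_zero, ← map_sub, Submodule.mkQ_apply, Submodule.Quotient.mk_eq_zero]
      have : a - (a + b) = -b := by abel
      rw [this]
      exact Submodule.neg_mem _ (Submodule.mem_sup_left hb)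
  have hle : US hd F (n - j + 1) j ≤ US hd F (n - j) j := US_anti hd hF _ _
  have hker : LinearMap.ker Φ = (US hd F (n - j + 1) j).comap (US hd F (n - j) j).subtype := by
    ext ⟨v, hv⟩
    rw [LinearMap.mem_ker, Submodule.mem_comap]
    change Q.mkQ (Θ j v) = 0 ↔ v ∈ US hd F (n - j + 1) j
    rw [Submodule.mkQ_apply, Submodule.Quotient.mk_eq_zero, mem_US]
    have e : j + (n - j + 1) = n + 1 := by ring
    rw [e]
    exact ⟨fun h => ⟨hv.1, h⟩, fun h => h.2⟩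
  have hinf : ((F n ⊓ IM j) ⊔ F (n + 1)) ⊓ Q = ((F n ⊓ IM j) ⊔ F (n + 1)) ⊓
      ((F n ⊓ IM (j + 1)) ⊔ F (n + 1)) := by
    apply le_antisymm
    · rintro w ⟨hw1, hw2⟩
      refine ⟨hw1, ?_⟩
      obtain ⟨a, ha, b, hb, rfl⟩ := Submodule.mem_sup.1 hw2
      have hwF : a + b ∈ F n := by
        have : (F n ⊓ IM j) ⊔ F (n + 1) ≤ F n := sup_le inf_le_left (hF.anti n)
        exact this hw1
      have hbF : b ∈ F n := by
        have : b = (a + b) - a := by abel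
        rw [this]
        exact Submodule.sub_mem _ hwF (hF.anti n ha)
      exact Submodule.add_mem _ (Submodule.mem_sup_right ha) (Submodule.mem_sup_left ⟨hbF, hb⟩)
    · refine inf_le_inf_left _ (sup_le ?_ le_sup_left)
      exact inf_le_right.trans le_sup_right
  have hcg := rd_congr hinf
  have h1 := LinearMap.finrank_range_add_finrank_ker Φ
  have hfr : FiniteDimensional k (LinearMap.range Φ) := inferInstance
  rw [hrange] at hfr h1
  rw [hker, (Submodule.comapSubtypeEquivOfLe hle).finrank_eq, hcg.1] at h1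
  exact ⟨hcg.2.1 hfr, by rw [← h1]; ring⟩

/-- Zassenhaus: `dim F^n/F^{n+1} = Σ_s dim (U_s/U_{s+1})_{n-s}` -/
theorem zass (hd : C3Data η ζ N IM X0 X1 X2 Θ) (hF : Filt3 IM X0 X1 X2 F c) (n : ℤ) :
    FiniteDimensional k ((F n).map (F (n + 1)).mkQ) ∧
    (Module.finrank k ((F n).map (F (n + 1)).mkQ) : ℚ) =
      ∑ i ∈ range (2 * c + 1), ((Module.finrank k (US hd F ((i : ℕ) - c) (n + c - i)) : ℚ) -
        Module.finrank k (US hd F (((i + 1 : ℕ) : ℤ) - c) (n + c - i))) := by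
  let G : ℕ → Submodule k M := fun t => (F n ⊓ IM (n - c + t)) ⊔ F (n + 1)
  have hG0 : G 0 = F n := by
    simp only [G, Nat.cast_zero, add_zero]
    apply le_antisymm (sup_le inf_le_left (hF.anti n))
    intro w hw
    exact Submodule.mem_sup_left ⟨hw, hF.up n hw⟩
  have hGK : G (2 * c + 1) = F (n + 1) := by
    have e : n - c + ((2 * c + 1 : ℕ) : ℤ) = n + 1 + c := by push_cast; ring
    have h1 : IM (n - c + ((2 * c + 1 : ℕ) : ℤ)) ≤ F (n + 1) := by
      rw [e]; exact hF.low (n + 1)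
    exact le_antisymm (sup_le (inf_le_right.trans h1) le_rfl) le_sup_right
  have hanti : ∀ t, G (t + 1) ≤ G t := by
    intro t
    apply sup_le_sup_right
    apply inf_le_inf_left
    apply IM_anti hd
    push_cast; omega
  have hstep : ∀ t : ℕ, FiniteDimensional k ((G t).map (G (t + 1)).mkQ) ∧
      (Module.finrank k ((G t).map (G (t + 1)).mkQ) : ℚ) =
        (Module.finrank k (US hd F ((c : ℤ) - t) (n - c + t)) : ℚ) -
          Module.finrank k (US hd F ((c : ℤ) - t + 1) (n - c + t)) := by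
    intro t
    have h := zass_step hd hF n (n - c + t)
    have e1 : n - (n - (c : ℤ) + t) = c - t := by ring
    have e2 : n - (c : ℤ) + ((t + 1 : ℕ) : ℤ) = n - c + t + 1 := by push_cast; ring
    rw [e1] at h
    have hGt : G (t + 1) = (F n ⊓ IM (n - c + t + 1)) ⊔ F (n + 1) := by
      simp only [G]; rw [e2]
    rw [hGt]
    refine ⟨h.1, ?_⟩
    rw [h.2]; push_cast; ring
  have hch := rd_chain G hanti (fun t => (hstep t).1) (2 * c + 1)
  rw [hG0, hGK] at hch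
  refine ⟨hch.1, ?_⟩
  rw [hch.2]
  push_cast
  rw [sum_congr rfl (fun t _ => (hstep t).2), ← sum_range_reflect]
  refine sum_congr rfl (fun i hi => ?_)
  rw [mem_range] at hi
  have e3 : (((2 * c + 1 - 1 - i : ℕ) : ℤ)) = 2 * c - i := by omega
  rw [e3]
  have e4 : (c : ℤ) - (2 * c - i) = i - c := by ring
  have e5 : n - (c : ℤ) + (2 * c - i) = n + c - i := by ring
  have e6 : (i : ℤ) - c + 1 = ((i : ℤ) + 1) - c := by ring
  rw [e4, e5, e6]

/-- comparison of leading coefficients -/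
theorem lead_le {a b c' a' b' c'' : ℚ}
    (h : ∃ n0 : ℤ, ∀ n : ℤ, n0 ≤ n → a' * n ^ 2 + b' * n + c'' ≤ a * n ^ 2 + b * n + c') : a' ≤ a := by
  by_contra hlt
  rw [not_le] at hlt
  obtain ⟨n0, h⟩ := h
  set δ := a' - a with hδ
  have hδ0 : 0 < δ := by rw [hδ]; linarith
  obtain ⟨m, hm⟩ := exists_nat_gt ((|b - b'| + |c' - c''|) / δ)
  set n : ℤ := max n0 (max 1 (m : ℤ)) with hn
  have h1 := h n (le_max_left _ _)
  have h2 : (1 : ℚ) ≤ n := by exact_mod_cast (le_max_left _ _).trans (le_max_right _ _)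
  have h3 : (m : ℚ) ≤ n := by exact_mod_cast (le_max_right _ _).trans (le_max_right _ _)
  have h4 : |b - b'| + |c' - c''| < δ * n := by
    rw [div_lt_iff₀ hδ0] at hm
    nlinarith
  have h5 : δ * n * n ≤ (b - b') * n + (c' - c'') := by
    rw [hδ]; nlinarith
  have h6 : (b - b') * n + (c' - c'') ≤ (|b - b'| + |c' - c''|) * n := by
    have e1 := le_abs_self (b - b')
    have e2 := le_abs_self (c' - c'')
    have e3 := abs_nonneg (c' - c'')
    nlinarith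
  nlinarith

/-- integrality -/
theorem hp_integral {N : ℕ} {β γ : ℚ} {h : ℤ → ℕ}
    (hh : ∃ n0 : ℤ, ∀ n : ℤ, n0 ≤ n → (h n : ℚ) = (N : ℚ) / 2 * n ^ 2 - β * n + γ) :
    (∃ z : ℤ, (N : ℚ) / 2 - β = z) ∧ ∃ z : ℤ, γ = z := by
  obtain ⟨n0, hh⟩ := hh
  have h1 : ∃ z : ℤ, (N : ℚ) / 2 - β = z := by
    refine ⟨(h (n0 + 1) : ℤ) - h n0 - N * n0, ?_⟩
    push_cast
    rw [hh n0 le_rfl, hh (n0 + 1) (by omega)]
    push_cast; ring
  refine ⟨h1, ?_⟩
  obtain ⟨z, hz⟩ := h1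
  have hev : ∃ w : ℤ, n0 * (n0 - 1) = 2 * w := by
    have := Int.even_mul_pred_self n0
    obtain ⟨w, hw⟩ := this
    exact ⟨w, by rw [hw]; ring⟩
  obtain ⟨w, hw⟩ := hev
  refine ⟨(h n0 : ℤ) - N * w - z * n0, ?_⟩
  have hw' : (n0 : ℚ) * (n0 - 1) = 2 * w := by exact_mod_cast hw
  push_cast
  rw [hh n0 le_rfl, ← hz]
  have : (N : ℚ) * w = N * (n0 * (n0 - 1)) / 2 := by rw [hw']; ring
  rw [this]; ring

/-- C3, first part (Lemma L) -/
theorem C3_hp (ind : AlgebraicIndependent k ![η, ζ]) (hN : 0 < N)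
    (hd : C3Data η ζ N IM X0 X1 X2 Θ) (hF : Filt3 IM X0 X1 X2 F c) :
    (∀ n, FiniteDimensional k ((F n).map (F (n + 1)).mkQ)) ∧
    ∃ β γ : ℚ, (∃ n0 : ℤ, ∀ n : ℤ, n0 ≤ n →
      (Module.finrank k ((F n).map (F (n + 1)).mkQ) : ℚ) = (N : ℚ) / 2 * n ^ 2 - β * n + γ) ∧
      (∃ z : ℤ, (N : ℚ) / 2 - β = z) ∧ (∃ z : ℤ, γ = z) ∧
      -(N : ℚ) / 8 ≤ γ - β ^ 2 / (2 * N) := by
  refine ⟨fun n => (zass hd hF n).1, ?_⟩
  choose Nn βn γn hHP hz1 hz2 using fun i : ℕ => (US_stab hd hF ((i : ℤ) - c)).hasHP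
  have hUK : ∀ j, US hd F (((2 * c + 1 : ℕ) : ℤ) - c) j = ⊥ := fun j =>
    US_bot hd hF (by push_cast; omega) j
  have hU0 : ∀ j, US hd F (((0 : ℕ) : ℤ) - c) j = Apow k η ζ N j := fun j =>
    US_top hd hF (by push_cast; omega) j
  have hpApow : HasHP (Apow k η ζ N) N (-3 / 2 * N) N := by
    refine ⟨0, fun n hn => ?_⟩
    rw [finrank_Apow_eq ind N n hn]; ring
  have hpbot : HasHP (fun _ : ℤ => (⊥ : Submodule k (Fin N → L))) 0 0 0 :=
    ⟨0, fun n _ => by simp⟩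
  have e0 : (Nn 0 : ℚ) = N := by
    have h := hHP 0
    have h' : HasHP (US hd F (((0 : ℕ) : ℤ) - c)) N (-3 / 2 * N) N := by
      obtain ⟨n0, hh⟩ := hpApow
      exact ⟨n0, fun n hn => by rw [hU0]; exact hh n hn⟩
    exact (h.unique h').1
  have eK : (Nn (2 * c + 1) : ℚ) = 0 := by
    have h := hHP (2 * c + 1)
    have h' : HasHP (US hd F (((2 * c + 1 : ℕ) : ℤ) - c)) 0 0 0 :=
      ⟨0, fun n hn => by rw [hUK]; simp⟩
    exact (h.unique h').1
  have hbound : ∀ i, 0 ≤ βn i + 3 * (Nn i : ℚ) / 2 := by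
    intro i
    have := (EmbA.bound ind (isPLat_Apow N) (embA_Apow N) (US_stab hd hF ((i : ℤ) - c))
      (fun n v hv => hv.1) (hHP i)).2
    push_cast at this
    linarith
  have hanti : ∀ i, (Nn (i + 1) : ℚ) ≤ Nn i := by
    intro i
    obtain ⟨a0, ha⟩ := hHP (i + 1)
    obtain ⟨b0, hb⟩ := hHP i
    have key : (Nn (i + 1) : ℚ) / 2 ≤ (Nn i : ℚ) / 2 := by
      refine lead_le (b := -βn i) (b' := -βn (i + 1)) (c' := γn i) (c'' := γn (i + 1))
        ⟨max a0 b0, fun n hn => ?_⟩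
      have h1 := ha n ((le_max_left _ _).trans hn)
      have h2 := hb n ((le_max_right _ _).trans hn)
      have h3 : Module.finrank k (US hd F (((i + 1 : ℕ) : ℤ) - c) n) ≤
          Module.finrank k (US hd F ((i : ℤ) - c) n) := by
        have := (US_stab hd hF ((i : ℤ) - c)).fin n
        apply Submodule.finrank_mono
        have e : ((i + 1 : ℕ) : ℤ) - c = (i : ℤ) - c + 1 := by push_cast; ring
        rw [e]; exact US_anti hd hF _ _
      have h3' : (Module.finrank k (US hd F (((i + 1 : ℕ) : ℤ) - c) n) : ℚ) ≤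
          Module.finrank k (US hd F ((i : ℤ) - c) n) := by exact_mod_cast h3
      rw [h1, h2] at h3'
      linarith
    linarith
  obtain ⟨β, γ, ⟨n0, h1⟩, h2⟩ := numericL (2 * c + 1) c N (by exact_mod_cast hN)
    (fun i => Nn i) (fun i => βn i + 3 * (Nn i : ℚ) / 2) γn
    (fun i m => (Module.finrank k (US hd F ((i : ℤ) - c) m) : ℚ))
    (fun n => (Module.finrank k ((F n).map (F (n + 1)).mkQ) : ℚ))
    hanti e0 eK hbound
    ⟨0, fun m hm => by
      rw [hU0, finrank_Apow_eq ind N m hm]⟩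
    ⟨0, fun m _ => by
      rw [hUK]; simp⟩
    (fun i => by
      obtain ⟨m0, hm⟩ := hHP i
      refine ⟨m0, fun m hmm => ?_⟩
      rw [hm m hmm]; ring)
    ⟨0, fun n _ => (zass hd hF n).2⟩
  exact ⟨β, γ, ⟨n0, h1⟩, (hp_integral (h := fun n => Module.finrank k ((F n).map (F (n + 1)).mkQ))
    ⟨n0, h1⟩).1, (hp_integral (h := fun n => Module.finrank k ((F n).map (F (n + 1)).mkQ))
    ⟨n0, h1⟩).2, h2⟩

/-- C3, second part: generation -/
theorem C3_gen (hd : C3Data η ζ N IM X0 X1 X2 Θ) (hF : Filt3 IM X0 X1 X2 F c) :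
    ∃ n1 : ℤ, ∀ n, n1 ≤ n → ∀ w ∈ F (n + 1), ∃ w0 ∈ F n, ∃ w1 ∈ F n, ∃ w2 ∈ F n,
      w - (X0 w0 + X1 w1 + X2 w2) ∈ F (n + 2) := by
  choose g hg using fun i : ℕ => (US_stab hd hF ((i : ℤ) - c - 1)).gen
  obtain ⟨G, hG⟩ : ∃ G : ℤ, ∀ i ∈ range (2 * c + 2), g i ≤ G :=
    ⟨(range (2 * c + 2)).sup' ⟨0, by simp⟩ g, fun i hi => Finset.le_sup' g hi⟩
  refine ⟨G + c + 1, fun n hn => ?_⟩
  -- induct on the number of steps
  have key : ∀ t : ℕ, t ≤ 2 * c + 1 → ∀ w ∈ F (n + 1), ∃ w0 ∈ F n, ∃ w1 ∈ F n, ∃ w2 ∈ F n,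
      w - (X0 w0 + X1 w1 + X2 w2) ∈ IM (n + 1 - c + t) := by
    intro t
    induction t with
    | zero =>
      intro _ w hw
      refine ⟨0, Submodule.zero_mem _, 0, Submodule.zero_mem _, 0, Submodule.zero_mem _, ?_⟩
      have := hF.up (n + 1) hw
      simpa using this
    | succ t ih =>
      intro ht w hw
      obtain ⟨w0, h0, w1, h1, w2, h2, hmem⟩ := ih (by omega) w hw
      set u := w - (X0 w0 + X1 w1 + X2 w2) with hu
      have huF : u ∈ F (n + 1) := Submodule.sub_mem _ hw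
        (Submodule.add_mem _ (Submodule.add_mem _ (hF.x0 _ _ h0) (hF.x1 _ _ h1)) (hF.x2 _ _ h2))
      set j : ℤ := n + 1 - c + t with hj
      obtain ⟨v, hv, hv2⟩ := hd.surj j u hmem
      -- v in U_s j with s = n + 1 - j = c - t
      have hvU : v ∈ US hd F ((c : ℤ) - t) j := by
        refine ⟨hv, ?_⟩
        have e : j + ((c : ℤ) - t) = n + 1 := by rw [hj]; ring
        rw [e]
        have : Θ j v = u - (u - Θ j v) := by abel
        rw [this]
        exact Submodule.sub_mem _ (Submodule.mem_sup_left huF) (Submodule.mem_sup_right hv2)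
      have hidx : (c : ℤ) - t = ((2 * c + 1 - t : ℕ) : ℤ) - c - 1 := by omega
      have hgen := hg (2 * c + 1 - t) (j - 1) (by
        have := hG (2 * c + 1 - t) (by rw [mem_range]; omega)
        rw [hj]; omega)
      rw [sub_add_cancel, ← hidx] at hgen
      have hv3 := hgen hvU
      obtain ⟨y, hy, z, hz, hyz⟩ := Submodule.mem_sup.1 hv3
      obtain ⟨y0, hy0, y1, hy1, rfl⟩ := Submodule.mem_sup.1 hy
      obtain ⟨v1, hv1, rfl⟩ := hy1
      obtain ⟨v2, hv2', rfl⟩ := hz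
      have hdec : ∀ v' ∈ US hd F ((c : ℤ) - t) (j - 1), ∃ f ∈ F n, ∃ r ∈ IM j, Θ (j - 1) v' = f + r := by
        intro v' hv'
        obtain ⟨f, hf, r, hr, hfr⟩ := Submodule.mem_sup.1 hv'.2
        have e1 : j - 1 + ((c : ℤ) - t) = n := by rw [hj]; ring
        have e2 : j - 1 + 1 = j := by ring
        rw [e1] at hf; rw [e2] at hr
        exact ⟨f, hf, r, hr, hfr.symm⟩
      obtain ⟨f0, hf0, r0, hr0, e0⟩ := hdec y0 hy0
      obtain ⟨f1, hf1, r1, hr1, e1⟩ := hdec v1 hv1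
      obtain ⟨f2, hf2, r2, hr2, e2⟩ := hdec v2 hv2'
      have hΘ : Θ j v = X0 (Θ (j - 1) y0) + X1 (Θ (j - 1) v1) + X2 (Θ (j - 1) v2) := by
        have hj' : j - 1 + 1 = j := by ring
        have q0 := hd.θ0 (j - 1) y0 hy0.1
        have q1 := hd.θ1 (j - 1) v1 hv1.1
        have q2 := hd.θ2 (j - 1) v2 hv2'.1
        rw [hj'] at q0 q1 q2
        have hL := isPLat_Apow (k := k) (η := η) (ζ := ζ) N
        have m0 : y0 ∈ Apow k η ζ N j := by have := hL.mono (j - 1) hy0.1; rwa [hj'] at this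
        have m1 : η • v1 ∈ Apow k η ζ N j := by
          have := hL.smη (j - 1) ⟨v1, hv1.1, rfl⟩; rwa [hj'] at this
        have m2 : ζ • v2 ∈ Apow k η ζ N j := by
          have := hL.smζ (j - 1) ⟨v2, hv2'.1, rfl⟩; rwa [hj'] at this
        rw [← q0, ← q1, ← q2, ← hd.add j _ _ m0 m1, ← hd.add j _ _ (Submodule.add_mem _ m0 m1) m2]
        congr 1
        exact hyz.symm
      refine ⟨w0 + f0, Submodule.add_mem _ h0 hf0, w1 + f1, Submodule.add_mem _ h1 hf1, w2 + f2,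
        Submodule.add_mem _ h2 hf2, ?_⟩
      have e3 : n + 1 - (c : ℤ) + ((t + 1 : ℕ) : ℤ) = j + 1 := by rw [hj]; push_cast; ring
      rw [e3]
      have e4 : w - (X0 (w0 + f0) + X1 (w1 + f1) + X2 (w2 + f2)) =
          (u - Θ j v) + (X0 r0 + X1 r1 + X2 r2) := by
        rw [hΘ, e0, e1, e2, hu]
        simp only [map_add]
        abel
      rw [e4]
      exact Submodule.add_mem _ hv2 (Submodule.add_mem _ (Submodule.add_mem _ (hd.x0 _ _ hr0)
        (hd.x1 _ _ hr1)) (hd.x2 _ _ hr2))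
  intro w hw
  obtain ⟨w0, h0, w1, h1, w2, h2, hmem⟩ := key (2 * c + 1) le_rfl w hw
  refine ⟨w0, h0, w1, h1, w2, h2, ?_⟩
  have e : n + 1 - (c : ℤ) + ((2 * c + 1 : ℕ) : ℤ) = n + 2 + c := by push_cast; ring
  rw [e] at hmem
  exact hF.low (n + 2) hmem

end C3

end R169
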