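import Crest.Agent.R169.C0Tf
import Crest.Agent.R169.C0C3A

/-!
# Row 169, C0, C3 (owner helper88): Lemma L and finite generation of `gr F`.
-/

set_option autoImplicit false

namespace R169.C0

open Polynomial

section
variable {k L : Type} [Field k] [Field L] [Algebra k L] {D : GD k L} {η ζ : L} {hP : Par D η ζ}
variable {M : Type} [AddCommGroup M] [Module (T D) M] [Module k M] [IsScalarTower k (T D) M]

/-- multiplication by an element of `T D` as a `k`-linear map -/
noncomputable def mulT (k : Type) {L : Type} [Field k] [Field L] [Algebra k L] {D : GD k L}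
    (M : Type) [AddCommGroup M] [Module (T D) M] [Module k M] [IsScalarTower k (T D) M] (f : T D) :
    M →ₗ[k] M where
  toFun w := f • w
  map_add' := smul_add f
  map_smul' c w := by
    rw [RingHom.id_apply]
    have h1 : c • w = (algebraMap k (T D) c) • w := (algebraMap_smul (T D) c w).symm
    rw [h1, ← mul_smul, mul_comm, mul_smul, algebraMap_smul]

theorem mulT_apply (f : T D) (w : M) : mulT k M f w = f • w := rfl

theorem c3data {N : ℕ} {m : Fin N → M} (hm : IBas D hP m) :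
    C3Data (k := k) η ζ N (fun j => (IM D hP M j).restrictScalars k)
      (mulT k M (tq D 1 1)) (mulT k M (tq D 1 η)) (mulT k M (tq D 1 ζ))
      (fun j v => theta D m j.toNat v) := by
  have hone : (1 : L) ∈ A k η ζ ((1 : ℕ) : ℤ) := Submodule.subset_span ⟨0, 0, by norm_num, by simp⟩
  have hη : η ∈ A k η ζ ((1 : ℕ) : ℤ) := Submodule.subset_span ⟨1, 0, by norm_num, by simp⟩
  have hζ : ζ ∈ A k η ζ ((1 : ℕ) : ℤ) := Submodule.subset_span ⟨0, 1, by norm_num, by simp⟩
  have hBA : ∀ (j : ℕ) (a : L), a ∈ A k η ζ (j : ℤ) → a ∈ D.B (j : ℤ) := fun j a h => A_le_B hP _ h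
  -- elements of `Apow` in negative degree vanish
  have hneg : ∀ (j : ℤ) (v : Fin N → L), j < 0 → v ∈ Apow k η ζ N j → v = 0 := by
    intro j v hj hv
    rw [mem_Apow, A_neg hj] at hv
    ext l
    exact (Submodule.mem_bot k).1 (hv l)
  have htheta0 : ∀ j : ℕ, theta D m j (0 : Fin N → L) = 0 := by
    intro j
    simp [theta, tq_zero]
  have hmul : ∀ (l : L), l ∈ A k η ζ ((1 : ℕ) : ℤ) → ∀ (j : ℤ) (v : Fin N → L),
      v ∈ Apow k η ζ N j →
      theta D m (j + 1).toNat (l • v) = mulT k M (tq D 1 l) (theta D m j.toNat v) := by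
    intro l hl j v hv
    rcases lt_or_ge j 0 with hj | hj
    · rw [hneg j v hj hv, smul_zero, htheta0, htheta0, map_zero]
    · obtain ⟨j, rfl⟩ := Int.eq_ofNat_of_zero_le hj
      have e : ((j : ℤ) + 1).toNat = 1 + j := by omega
      rw [e, Int.toNat_natCast, mulT_apply, theta, theta, Finset.smul_sum]
      refine Finset.sum_congr rfl (fun i _ => ?_)
      rw [← mul_smul, tq_mul (hBA 1 l hl) (hBA j _ (mem_Apow.1 hv i))]
      rfl
  refine ⟨?_, ?_, ?_, ?_, ?_, ?_, ?_, ?_, ?_, ?_, ?_, ?_⟩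
  · intro j
    exact fun w hw => IM_anti (by omega) hw
  · intro j w hw
    have := IM_tq (hP := hP) (i := 1) hone (n := j) (w := w) hw
    exact_mod_cast this
  · intro j w hw
    have := IM_tq (hP := hP) (i := 1) hη (n := j) (w := w) hw
    exact_mod_cast this
  · intro j w hw
    have := IM_tq (hP := hP) (i := 1) hζ (n := j) (w := w) hw
    exact_mod_cast this
  · intro j v w hv hw
    rcases lt_or_ge j 0 with hj | hj
    · rw [hneg j v hj hv, hneg j w hj hw, add_zero, htheta0, add_zero]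
    · obtain ⟨j, rfl⟩ := Int.eq_ofNat_of_zero_le hj
      simp only [Int.toNat_natCast, theta]
      rw [← Finset.sum_add_distrib]
      refine Finset.sum_congr rfl (fun i _ => ?_)
      rw [Pi.add_apply, tq_add (hBA j _ (mem_Apow.1 hv i)) (hBA j _ (mem_Apow.1 hw i)), add_smul]
  · intro j c v hv
    rcases lt_or_ge j 0 with hj | hj
    · rw [hneg j v hj hv, smul_zero, htheta0, smul_zero]
    · obtain ⟨j, rfl⟩ := Int.eq_ofNat_of_zero_le hj
      simp only [Int.toNat_natCast, theta]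
      rw [Finset.smul_sum]
      refine Finset.sum_congr rfl (fun i _ => ?_)
      rw [Pi.smul_apply, tq_smul c (hBA j _ (mem_Apow.1 hv i)), smul_assoc]
  · intro j v hv
    have := hmul 1 hone j v hv
    rwa [one_smul] at this
  · intro j v hv
    exact hmul η hη j v hv
  · intro j v hv
    exact hmul ζ hζ j v hv
  · intro j v hv
    rcases lt_or_ge j 0 with hj | hj
    · rw [hneg j v hj hv, htheta0]; exact Submodule.zero_mem _
    · obtain ⟨j, rfl⟩ := Int.eq_ofNat_of_zero_le hj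
      simp only [Int.toNat_natCast, theta]
      refine Submodule.sum_mem _ (fun i _ => ?_)
      have h0 : m i ∈ IM D hP M 0 := by rw [IM_nonpos le_rfl]; trivial
      have := IM_tq (hP := hP) (i := j) (mem_Apow.1 hv i) (n := 0) h0
      rw [zero_add] at this
      exact this
  · intro j w hw
    rcases lt_or_ge j 0 with hj | hj
    · refine ⟨0, Submodule.zero_mem _, ?_⟩
      rw [htheta0, sub_zero]
      change w ∈ IM D hP M (j + 1)
      rw [IM_nonpos (by omega)]; trivial
    · obtain ⟨j, rfl⟩ := Int.eq_ofNat_of_zero_le hj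
      obtain ⟨v, hv, hv2⟩ := hm.surj j w hw
      exact ⟨v, mem_Apow.2 hv, hv2⟩
  · intro j v hv hv2
    rcases lt_or_ge j 0 with hj | hj
    · exact hneg j v hj hv
    · obtain ⟨j, rfl⟩ := Int.eq_ofNat_of_zero_le hj
      exact hm.inj j v (mem_Apow.1 hv) hv2

theorem filt3 {F : ℤ → Submodule (T D) M} (hF : Filt D hP F) : ∃ c : ℕ,
    Filt3 (k := k) (fun j => (IM D hP M j).restrictScalars k)
      (mulT k M (tq D 1 1)) (mulT k M (tq D 1 η)) (mulT k M (tq D 1 ζ))
      (fun n => (F n).restrictScalars k) c := by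
  obtain ⟨c, hc⟩ := hF.comm
  refine ⟨c, ?_, ?_, ?_, ?_, ?_, ?_⟩
  · exact fun n w hw => hF.anti n hw
  · intro n w hw
    exact_mod_cast hF.smul 1 1 (by exact_mod_cast D.one_mem) n w hw
  · intro n w hw
    exact_mod_cast hF.smul 1 η (by exact_mod_cast hP.hη) n w hw
  · intro n w hw
    exact_mod_cast hF.smul 1 ζ (by exact_mod_cast hP.hζ) n w hw
  · exact fun n w hw => (hc n).1 hw
  · exact fun n w hw => (hc n).2 hw

theorem Filt.rfin {N : ℕ} {m : Fin N → M} (hm : IBas D hP m) {F : ℤ → Submodule (T D) M}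
    (hF : Filt D hP F) (n : ℤ) : rfin D (F n) (F (n + 1)) := by
  obtain ⟨c, hc⟩ := filt3 hF
  exact (zass (c3data hm) hc n).1

theorem lemmaL {N : ℕ} (hN : 0 < N) {m : Fin N → M} (hm : IBas D hP m) {F : ℤ → Submodule (T D) M}
    (hF : Filt D hP F) : ∃ β γ : ℚ, FHP D F N β γ ∧ (∃ z : ℤ, (N : ℚ) / 2 - β = z) ∧
      (∃ z : ℤ, γ = z) ∧ - (N : ℚ) / 8 ≤ γ - β ^ 2 / (2 * N) := by
  obtain ⟨c, hc⟩ := filt3 hF
  exact (C3_hp hP.indep hN (c3data hm) hc).2

theorem filt_gen {N : ℕ} {m : Fin N → M} (hm : IBas D hP m) {F : ℤ → Submodule (T D) M}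
    (hF : Filt D hP F) : ∃ n1 : ℤ, ∀ n, n1 ≤ n → ∀ w ∈ F (n + 1),
      ∃ w0 ∈ F n, ∃ w1 ∈ F n, ∃ w2 ∈ F n,
        w - (tq D 1 1 • w0 + tq D 1 η • w1 + tq D 1 ζ • w2) ∈ F (n + 2) := by
  obtain ⟨c, hc⟩ := filt3 hF
  exact C3_gen (c3data hm) hc

end

end R169.C0
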