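import Crest.Agent.R169.LatAPI

/-!
# Row 169, module 1 (C0): definitions (helper57)

`M` is a module over `T D = ⊕ B_n t^n`, `I = (x,y,z)`.  `IM n = I^n M` (`= M` for `n ≤ 0`).
`tq D i a` = the homogeneous element `a t^i` of `T D` (junk `0` if `a ∉ B_i`).
`Filt F`: filtrations commensurable with the `I`-adic one;  `FiltT F`: moreover `gr F` torsion free.
-/

set_option autoImplicit false

namespace R169

namespace C0

open Polynomial

section tq
variable {k L : Type} [Field k] [Field L] [Algebra k L] (D : GD k L)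

open Classical in
/-- the homogeneous element `a t^i` -/
noncomputable def tq (i : ℕ) (a : L) : T D := if h : a ∈ D.B i then tm D i a h else 0

variable {D}

theorem tq_eq {i : ℕ} {a : L} (h : a ∈ D.B i) : tq D i a = tm D i a h := dif_pos h

theorem tq_val {i : ℕ} {a : L} (h : a ∈ D.B i) : (tq D i a : L[X]) = monomial i a := by
  rw [tq_eq h]; rfl

theorem tq_mul {i j : ℕ} {a b : L} (ha : a ∈ D.B i) (hb : b ∈ D.B j) :
    tq D i a * tq D j b = tq D (i + j) (a * b) := by
  apply Subtype.ext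
  have h : a * b ∈ D.B ((i + j : ℕ) : ℤ) := by push_cast; exact D.mul_mem ha hb
  rw [tq_val h]
  change (tq D i a : L[X]) * (tq D j b : L[X]) = _
  rw [tq_val ha, tq_val hb, monomial_mul_monomial]

theorem tq_add {i : ℕ} {a b : L} (ha : a ∈ D.B i) (hb : b ∈ D.B i) :
    tq D i (a + b) = tq D i a + tq D i b := by
  apply Subtype.ext
  rw [tq_val (Submodule.add_mem _ ha hb)]
  change _ = (tq D i a : L[X]) + (tq D i b : L[X])
  rw [tq_val ha, tq_val hb, map_add]

theorem tq_smul {i : ℕ} {a : L} (c : k) (ha : a ∈ D.B i) :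
    tq D i (c • a) = c • tq D i a := by
  apply Subtype.ext
  rw [tq_val (Submodule.smul_mem _ c ha)]
  change _ = c • (tq D i a : L[X])
  rw [tq_val ha, smul_monomial]

theorem tq_zero (i : ℕ) : tq D i 0 = 0 := by
  apply Subtype.ext
  rw [tq_val (Submodule.zero_mem _)]
  simp

/-- every element is the sum of its homogeneous components -/
theorem eq_sum_tq (f : T D) : f = ∑ i ∈ (f : L[X]).support, tq D i ((f : L[X]).coeff i) := by
  apply Subtype.ext
  rw [AddSubmonoidClass.coe_finsetSum]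
  conv_lhs => rw [(f : L[X]).as_sum_support]
  refine Finset.sum_congr rfl fun i _ => ?_
  rw [tq_val (f.2 i)]

end tq

section
variable {k L : Type} [Field k] [Field L] [Algebra k L] (D : GD k L) {η ζ : L} (hP : Par D η ζ)
variable (M : Type) [AddCommGroup M] [Module (T D) M] [Module k M] [IsScalarTower k (T D) M]

/-- `I^n M`, `= M` for `n ≤ 0` -/
noncomputable def IM (n : ℤ) : Submodule (T D) M := (Ixyz D hP) ^ n.toNat • (⊤ : Submodule (T D) M)

variable {M}

/-- relative dimension `dim_k (A + B) / B` -/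
noncomputable def rd (A B : Submodule (T D) M) : ℕ :=
  Module.finrank k ((A.restrictScalars k).map (B.restrictScalars k).mkQ)

/-- `(A + B) / B` is finite dimensional -/
def rfin (A B : Submodule (T D) M) : Prop :=
  FiniteDimensional k ((A.restrictScalars k).map (B.restrictScalars k).mkQ)

/-- filtration of `M` by `T`-submodules, compatible with the grading of `T`, commensurable with the
`I`-adic filtration -/
structure Filt (F : ℤ → Submodule (T D) M) : Prop where
  anti : ∀ n, F (n + 1) ≤ F n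
  smul : ∀ (i : ℕ) (a : L), a ∈ D.B i → ∀ (n : ℤ) (w : M), w ∈ F n → tq D i a • w ∈ F (n + i)
  comm : ∃ c : ℕ, ∀ n : ℤ, IM D hP M (n + c) ≤ F n ∧ F n ≤ IM D hP M (n - c)

/-- moreover the graded `T`-module `gr F` is torsion free -/
structure FiltT (F : ℤ → Submodule (T D) M) : Prop extends Filt D hP F where
  tf : ∀ (i : ℕ) (a : L), a ∈ D.B i → a ≠ 0 → ∀ (n : ℤ) (w : M), w ∈ F n →
    tq D i a • w ∈ F (n + i + 1) → w ∈ F (n + 1)

/-- `∑_l (v_l t^j) m_l` -/
noncomputable def theta {N : ℕ} (m : Fin N → M) (j : ℕ) (v : Fin N → L) : M :=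
  ∑ l, tq D j (v l) • m l

/-- `m` is a basis of `gr_I M` over `P`: `A_j^N ≅ I^jM / I^{j+1}M` for all `j`. -/
structure IBas {N : ℕ} (m : Fin N → M) : Prop where
  surj : ∀ (j : ℕ) (w : M), w ∈ IM D hP M j → ∃ v : Fin N → L, (∀ l, v l ∈ A k η ζ j) ∧
    w - theta D m j v ∈ IM D hP M (j + 1)
  inj : ∀ (j : ℕ) (v : Fin N → L), (∀ l, v l ∈ A k η ζ j) → theta D m j v ∈ IM D hP M (j + 1) → v = 0

/-- Hilbert polynomial of a filtration: `dim F^n/F^{n+1} = N/2 n^2 - β n + γ` for `n ≫ 0` -/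
def FHP (F : ℤ → Submodule (T D) M) (N β γ : ℚ) : Prop :=
  ∃ n0 : ℤ, ∀ n, n0 ≤ n → (rd D (F n) (F (n + 1)) : ℚ) = N / 2 * n ^ 2 - β * n + γ

/-- dehomogenisation of `gr F` -/
structure Dehom (F : ℤ → Submodule (T D) M) (r : ℕ) where
  π : ∀ n : ℤ, F n →ₗ[k] (Fin r → L)
  ker : ∀ (n : ℤ) (w : F n), π n w = 0 ↔ (w : M) ∈ F (n + 1)
  smul : ∀ (n : ℤ) (i : ℕ) (a : L), a ∈ D.B i → ∀ (w : F n) (w' : F (n + i)),
    (w' : M) = tq D i a • (w : M) → π (n + i) w' = a • π n w

variable {D}

/-- the lattice of a dehomogenisation -/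
noncomputable def Dehom.E {F : ℤ → Submodule (T D) M} {r : ℕ} (δ : Dehom D F r) (n : ℤ) :
    Submodule k (Fin r → L) := LinearMap.range (δ.π n)

/-- modification of `F` by an `L`-subspace `V`: `F'^n = {w ∈ F^n : π_n w ∈ V}` (span: it is a
`T`-submodule, see `mem_modif`). -/
noncomputable def modif {F : ℤ → Submodule (T D) M} {r : ℕ} (δ : Dehom D F r)
    (V : Submodule L (Fin r → L)) (n : ℤ) : Submodule (T D) M :=
  Submodule.span (T D) {w | ∃ h : w ∈ F n, δ.π n ⟨w, h⟩ ∈ V}

end

end C0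

end R169
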