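import Crest.Agent.R169.C0C3

/-!
# Row 169, C0, C4: dehomogenisation of `gr F`.

`Ind F n0 e`: the classes of `e i` in `F^n0/F^(n0+1)` are linearly independent over (homogeneous
elements of) `T`.  `Rel F n0 e n w v`: `v ∈ L^r` is the coordinate vector of `w ∈ F^n`.
-/

set_option autoImplicit false

namespace R169.C0

open Polynomial

section
variable {k L : Type} [Field k] [Field L] [Algebra k L] (D : GD k L) {η ζ : L} {hP : Par D η ζ}
variable {M : Type} [AddCommGroup M] [Module (T D) M] [Module k M] [IsScalarTower k (T D) M]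

/-- homogeneous independence in `gr F` -/
def Ind (F : ℤ → Submodule (T D) M) (n0 : ℤ) {r : ℕ} (e : Fin r → M) : Prop :=
  (∀ i, e i ∈ F n0) ∧ ∀ (j : ℕ) (b : Fin r → L), (∀ i, b i ∈ D.B j) →
    ∑ i, tq D j (b i) • e i ∈ F (n0 + j + 1) → b = 0

/-- `v` is the coordinate vector of the class of `w` in `F^n/F^(n+1)` -/
def Rel (F : ℤ → Submodule (T D) M) (n0 : ℤ) {r : ℕ} (e : Fin r → M) (n : ℤ) (w : M)
    (v : Fin r → L) : Prop :=
  ∃ (j j' : ℕ) (b : L), n + j = n0 + j' ∧ b ∈ D.B j ∧ b ≠ 0 ∧ (∀ i, b * v i ∈ D.B j') ∧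
    tq D j b • w - ∑ i, tq D j' (b * v i) • e i ∈ F (n + j + 1)

variable {D}

end

end R169.C0
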