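import Crest.Agent.R169.C0Rel

/-!
# Row 169, C0, piece C0_DEHOMOF: the dehomogenisation maps.

`π n w :=` the `v` chosen from `hex`; unique: if `Rel w v`, `Rel w v'` then `Rel (w - w) (v - v')`
(`Rel.smulk` with `-1`, `Rel.add`), so `v = v'` by `Rel.zero_left`.  Linear by `Rel.add`, `Rel.smulk`
(construct `LinearMap` with `Classical.choose`).  `ker`: `Rel.zero_right`, `Rel.zero_left`.
`smul`: `Rel.smul`.  `lspan = ⊤`: `E n0` contains all unit vectors (`Rel.self`), `Pi.basisFun`.
-/

set_option autoImplicit false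

namespace R169.C0

open Polynomial

section
variable {k L : Type} [Field k] [Field L] [Algebra k L] {D : GD k L} {η ζ : L} {hP : Par D η ζ}
variable {M : Type} [AddCommGroup M] [Module (T D) M] [Module k M] [IsScalarTower k (T D) M]
variable {F : ℤ → Submodule (T D) M} {n0 : ℤ} {r : ℕ} {e : Fin r → M}

private theorem Rel.uniq (hF : FiltT D hP F) (he : Ind D F n0 e) {n : ℤ} {w : M}
    {v v' : Fin r → L} (h : Rel D F n0 e n w v) (h' : Rel D F n0 e n w v') : v = v' := by
  have h1 := Rel.add hF he h (Rel.smulk hF h' (-1 : k))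
  have h2 := Rel.zero_left hF he h1 (by
    rw [neg_smul, one_smul, add_neg_cancel]
    exact Submodule.zero_mem _)
  rw [neg_smul, one_smul] at h2
  exact add_neg_eq_zero.1 h2

theorem dehom_of_rel (hF : FiltT D hP F) (he : Ind D F n0 e)
    (hex : ∀ (n : ℤ) (w : M), w ∈ F n → ∃ v, Rel D F n0 e n w v) :
    ∃ δ : Dehom D F r, lspan L δ.E = ⊤ := by
  classical
  choose f hf using hex
  have hun : ∀ (n : ℤ) (w : M) (hw : w ∈ F n) (v : Fin r → L), Rel D F n0 e n w v →
      f n w hw = v := fun n w hw v h => Rel.uniq hF he (hf n w hw) h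
  let π : ∀ n : ℤ, F n →ₗ[k] (Fin r → L) := fun n =>
    { toFun := fun w => f n w.1 w.2
      map_add' := by
        intro w w'
        exact hun n _ _ _ (Rel.add hF he (hf n w.1 w.2) (hf n w'.1 w'.2))
      map_smul' := by
        intro c w
        exact hun n _ _ _ (Rel.smulk hF (hf n w.1 w.2) c) }
  have hπ : ∀ n (w : F n), Rel D F n0 e n w.1 (π n w) := fun n w => hf n w.1 w.2
  refine ⟨⟨π, ?_, ?_⟩, ?_⟩
  · intro n w
    constructor
    · intro h
      have h1 := hπ n w
      rw [h] at h1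
      exact Rel.zero_right hF w.2 h1
    · intro h
      exact Rel.zero_left hF he (hπ n w) h
  · intro n i a ha w w' hw
    have h1 := Rel.smul hF he (hπ n w) ha
    rw [← hw] at h1
    exact Rel.uniq hF he (hπ (n + i) w') h1
  · rw [eq_top_iff, ← (Pi.basisFun L (Fin r)).span_eq]
    unfold lspan
    refine Submodule.span_mono ?_
    rintro _ ⟨i, rfl⟩
    refine Set.mem_iUnion.2 ⟨n0, ?_⟩
    refine ⟨⟨e i, he.1 i⟩, ?_⟩
    rw [Pi.basisFun_apply]
    exact Rel.uniq hF he (hπ n0 ⟨e i, he.1 i⟩) (Rel.self hF he i)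

end

end R169.C0
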