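import Crest.Agent.R169.C0TI

/-!
# Row 169, C0, piece C0_FILT: existence of a filtration.

`F n = Submodule.span (T D) {w | ∃ i j : ℕ, n ≤ i + j ∧ ∃ a ∈ B_i, ∃ u ∈ I^j M, w = tq i a • u}`.
`anti`: clear.  `smul`: generators to generators (`tq_mul`), `Submodule.span_induction`.
`I^n M ≤ F n` (`c` anything; for `n ≥ 0`: `i = 0`, `a = 1`, `j = n`; for `n < 0`: `i = j = 0`).
`F n ≤ I^(n - n1) M`: `tq i a ∈ I^(i - n1)` (`exists_tq_pow`), so `tq i a • u ∈ I^(i-n1+j) M ≤ I^(n-n1) M`.
-/

set_option autoImplicit false

namespace R169.C0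

open Polynomial

section
variable {k L : Type} [Field k] [Field L] [Algebra k L] {D : GD k L} {η ζ : L} {hP : Par D η ζ}
variable {M : Type} [AddCommGroup M] [Module (T D) M] [Module k M] [IsScalarTower k (T D) M]

/-- generators of the filtration -/
private def fgen (M : Type) [AddCommGroup M] [Module (T D) M] (hP : Par D η ζ) (n : ℤ) : Set M :=
  {w | ∃ i j : ℕ, n ≤ (i : ℤ) + j ∧ ∃ a ∈ D.B i, ∃ u ∈ IM D hP M j, w = tq D i a • u}

variable (M) in
theorem exists_filt (hP : Par D η ζ) : ∃ F : ℤ → Submodule (T D) M, Filt D hP F := by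
  obtain ⟨n1, hn1⟩ := exists_tq_pow hP
  refine ⟨fun n => Submodule.span (T D) (fgen M hP n), ?_, ?_, n1, ?_⟩
  · intro n
    refine Submodule.span_mono ?_
    rintro w ⟨i, j, hij, a, ha, u, hu, rfl⟩
    exact ⟨i, j, by omega, a, ha, u, hu, rfl⟩
  · intro i a ha n w hw
    refine Submodule.span_induction (p := fun w _ => tq D i a • w ∈
      Submodule.span (T D) (fgen M hP (n + i))) ?_ ?_ ?_ ?_ hw
    · rintro w ⟨i', j, hij, a', ha', u, hu, rfl⟩
      refine Submodule.subset_span ⟨i + i', j, by push_cast; omega, a * a', ?_, u, hu, ?_⟩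
      · push_cast
        exact D.mul_mem ha ha'
      · rw [smul_smul, tq_mul ha ha']
    · rw [smul_zero]
      exact Submodule.zero_mem _
    · intro x y _ _ hx hy
      rw [smul_add]
      exact Submodule.add_mem _ hx hy
    · intro r x _ hx
      rw [smul_comm]
      exact Submodule.smul_mem _ r hx
  · intro n
    constructor
    · intro u hu
      refine Submodule.subset_span ⟨0, n.toNat, by omega, 1, ?_, u, ?_, ?_⟩
      · simp only [Nat.cast_zero, D.zero]
        exact Submodule.mem_span_singleton_self _
      · rcases le_total 0 n with h | h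
        · exact IM_anti (by omega) hu
        · rw [IM_nonpos (by omega)]
          exact Submodule.mem_top
      · have := tq_algebraMap (D := D) (M := M) (1 : k) u
        rw [map_one, one_smul] at this
        exact this.symm
    · refine Submodule.span_le.2 ?_
      rintro w ⟨i, j, hij, a, ha, u, hu, rfl⟩
      have h1 : tq D i a • u ∈ IM D hP M ((i - n1 + j : ℕ) : ℤ) := by
        unfold IM at hu ⊢
        rw [Int.toNat_natCast] at hu ⊢
        rw [pow_add, Submodule.mul_smul]
        exact Submodule.smul_mem_smul (hn1 i a ha) hu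
      exact IM_anti (by push_cast; omega) h1

end

end R169.C0
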