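import Crest.Agent.R169.C0C3

/-!
# Row 169, C0, piece C0_FINE: dimensions of the dehomogenised family.

`finrank_E`: both are `dim F^n / (F^n ∩ F^(n+1))`: `LinearMap.quotKerEquivRange` for `δ.π n` and for the
composition `F n → M → M / F (n+1)` (same kernel by `δ.ker`).
-/

set_option autoImplicit false

namespace R169.C0

open Polynomial

section
variable {k L : Type} [Field k] [Field L] [Algebra k L] {D : GD k L} {η ζ : L} {hP : Par D η ζ}
variable {M : Type} [AddCommGroup M] [Module (T D) M] [Module k M] [IsScalarTower k (T D) M]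
variable {F : ℤ → Submodule (T D) M} {r : ℕ}

/-- `F n → M → M / F (n+1)` -/
private noncomputable def gmap (F : ℤ → Submodule (T D) M) (n : ℤ) :
    F n →ₗ[k] M ⧸ ((F (n + 1)).restrictScalars k) :=
  ((F (n + 1)).restrictScalars k).mkQ.comp ((F n).subtype.restrictScalars k)

private theorem range_gmap (F : ℤ → Submodule (T D) M) (n : ℤ) :
    LinearMap.range (gmap (k := k) F n) =
      ((F n).restrictScalars k).map ((F (n + 1)).restrictScalars k).mkQ := by
  unfold gmap
  rw [LinearMap.range_comp]
  congr 1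
  ext x
  simp

private theorem ker_gmap (δ : Dehom D F r) (n : ℤ) :
    LinearMap.ker (gmap (k := k) F n) = LinearMap.ker (δ.π n) := by
  ext w
  rw [LinearMap.mem_ker, LinearMap.mem_ker, δ.ker]
  unfold gmap
  simp

private noncomputable def eqv (δ : Dehom D F r) (n : ℤ) :
    δ.E n ≃ₗ[k] ((F n).restrictScalars k).map ((F (n + 1)).restrictScalars k).mkQ := by
  have e1 := LinearMap.quotKerEquivRange (R := k) (M := F n) (M₂ := Fin r → L) (δ.π n)
  have e2 := LinearMap.quotKerEquivRange (R := k) (M := F n) (gmap (k := k) F n)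
  have e3 := Submodule.quotEquivOfEq (R := k) (M := F n) _ _ (ker_gmap δ n).symm
  have e4 := LinearEquiv.ofEq _ _ (range_gmap (k := k) F n)
  exact e1.symm.trans (e3.trans (e2.trans e4))

theorem Dehom.finrank_E (δ : Dehom D F r) (n : ℤ) :
    Module.finrank k (δ.E n) = rd D (F n) (F (n + 1)) :=
  (eqv δ n).finrank_eq

theorem Dehom.fin_E (δ : Dehom D F r) (n : ℤ) (h : rfin D (F n) (F (n + 1))) :
    FiniteDimensional k (δ.E n) := by
  have : FiniteDimensional k
    ↥(((F n).restrictScalars k).map ((F (n + 1)).restrictScalars k).mkQ) := h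
  exact (eqv δ n).symm.finiteDimensional

theorem Dehom.hasHP (δ : Dehom D F r) {N β γ : ℚ} (h : FHP D F N β γ) : HasHP δ.E N β γ := by
  obtain ⟨n0, h0⟩ := h
  exact ⟨n0, fun n hn => by rw [δ.finrank_E]; exact h0 n hn⟩

end

end R169.C0
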