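import Crest.Agent.R169.C0IbasInj

/-!
# Row 169, C0, piece C0_IBAS: quasi-regularity gives `gr_I M ≅ P ⊗ (M/IM)`.

Take `m : Fin N → M` lifting a `k`-basis of `M / IM` (`N = finrank > 0` since `IM ≠ ⊤`).
surj (induction or directly): `I^j M` is spanned by the `x^a w`, `|a| = j`, `w ∈ M`
(`Ideal.span_pow_eq_span_prod`-like or iterate `IM_succ_gen`); write `w = ∑ c_l m_l + (IM)`; the
monomial `x^a = tq D j (η^(a 1) ζ^(a 2))`.  Or induct on `j` with `IM_succ_gen`:
`w = x w0 + y w1 + z w2`, `w_i = theta m j v_i + I^(j+1)M`, `v = v0 + η v1 + ζ v2`.  `j = 0`: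
`v_l = algebraMap c_l`.
(`theta_inj` is a different piece, C0IbasInj.lean.)
-/

set_option autoImplicit false

namespace R169.C0

open Polynomial

section
variable {k L : Type} [Field k] [Field L] [Algebra k L] {D : GD k L} {η ζ : L} {hP : Par D η ζ}
variable {M : Type} [AddCommGroup M] [Module (T D) M] [Module k M] [IsScalarTower k (T D) M]

/-- lifts of a basis of `M / IM` -/
theorem exists_m
    (hfin : FiniteDimensional k (M ⧸ (Ixyz D hP • (⊤ : Submodule (T D) M)).restrictScalars k))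
    (hne : Ixyz D hP • (⊤ : Submodule (T D) M) ≠ ⊤) :
    ∃ N : ℕ, 0 < N ∧ ∃ m : Fin N → M,
      (∀ w : M, ∃ c : Fin N → k, w - ∑ l, c l • m l ∈ Ixyz D hP • (⊤ : Submodule (T D) M)) ∧
      (∀ c : Fin N → k, ∑ l, c l • m l ∈ Ixyz D hP • (⊤ : Submodule (T D) M) → c = 0) := by
  classical
  set S := (Ixyz D hP • (⊤ : Submodule (T D) M)).restrictScalars k with hS
  have hmem : ∀ w : M, w ∈ Ixyz D hP • (⊤ : Submodule (T D) M) ↔ w ∈ S := fun w => Iff.rfl
  have hmk : ∀ w : M, w ∈ S ↔ S.mkQ w = 0 := fun w => by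
    rw [Submodule.mkQ_apply, Submodule.Quotient.mk_eq_zero]
  have hnt : Nontrivial (M ⧸ S) := by
    rw [Submodule.Quotient.nontrivial_iff]
    intro h
    apply hne
    rw [eq_top_iff]
    intro w _
    rw [hmem, h]
    exact Submodule.mem_top
  refine ⟨Module.finrank k (M ⧸ S), Module.finrank_pos, ?_⟩
  let b := Module.finBasis k (M ⧸ S)
  have hlift : ∀ l, ∃ x : M, S.mkQ x = b l := fun l => S.mkQ_surjective (b l)
  choose m hm using hlift
  refine ⟨m, ?_, ?_⟩
  · intro w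
    refine ⟨b.repr (S.mkQ w), ?_⟩
    rw [hmem, hmk, map_sub, map_sum]
    simp only [map_smul, hm]
    rw [b.sum_repr, sub_self]
  · intro c hc
    rw [hmem, hmk, map_sum] at hc
    simp only [map_smul, hm] at hc
    have := (Fintype.linearIndependent_iff.1 b.linearIndependent) c hc
    funext l
    exact this l

theorem theta_surj {N : ℕ} {m : Fin N → M}
    (h : ∀ w : M, ∃ c : Fin N → k, w - ∑ l, c l • m l ∈ Ixyz D hP • (⊤ : Submodule (T D) M)) :
    ∀ (j : ℕ) (w : M), w ∈ IM D hP M j → ∃ v : Fin N → L, (∀ l, v l ∈ A k η ζ j) ∧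
      w - theta D m j v ∈ IM D hP M (j + 1) := by
  have hgen : ∀ (a b : ℕ) (n : ℤ), (a : ℤ) + b ≤ n → η ^ a * ζ ^ b ∈ A k η ζ n := fun a b n hab =>
    Submodule.subset_span ⟨a, b, hab, rfl⟩
  have h1 : (1 : L) ∈ A k η ζ 1 := by
    have := hgen 0 0 1 (by norm_num)
    simpa using this
  have h10 : (1 : L) ∈ A k η ζ 0 := by
    have := hgen 0 0 0 (by norm_num)
    simpa using this
  have hη : η ∈ A k η ζ 1 := by
    have := hgen 1 0 1 (by norm_num)
    simpa using this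
  have hζ : ζ ∈ A k η ζ 1 := by
    have := hgen 0 1 1 (by norm_num)
    simpa using this
  have hB : ∀ (n : ℤ) (a : L), a ∈ A k η ζ n → a ∈ D.B n := fun n a ha => A_le_B hP n ha
  -- multiplication of `theta` by a linear form
  have hth : ∀ (j : ℕ) (a : L) (v : Fin N → L), a ∈ A k η ζ 1 → (∀ l, v l ∈ A k η ζ j) →
      tq D 1 a • theta D m j v = theta D m (j + 1) (fun l => a * v l) := by
    intro j a v ha hv
    unfold theta
    rw [Finset.smul_sum]
    refine Finset.sum_congr rfl fun l _ => ?_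
    rw [smul_smul, tq_mul (i := 1) (hB _ _ ha) (hB _ _ (hv l)), add_comm 1 j]
  have hadd : ∀ (j : ℕ) (v v' : Fin N → L), (∀ l, v l ∈ A k η ζ j) → (∀ l, v' l ∈ A k η ζ j) →
      theta D m j (fun l => v l + v' l) = theta D m j v + theta D m j v' := by
    intro j v v' hv hv'
    unfold theta
    rw [← Finset.sum_add_distrib]
    refine Finset.sum_congr rfl fun l _ => ?_
    rw [tq_add (hB _ _ (hv l)) (hB _ _ (hv' l)), add_smul]
  intro j
  induction j with
  | zero =>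
    intro w _
    obtain ⟨c, hc⟩ := h w
    refine ⟨fun l => algebraMap k L (c l), fun l => ?_, ?_⟩
    · show algebraMap k L (c l) ∈ A k η ζ ((0 : ℕ) : ℤ)
      rw [Algebra.algebraMap_eq_smul_one]
      exact Submodule.smul_mem _ _ h10
    · have e1 : theta D m 0 (fun l => algebraMap k L (c l)) = ∑ l, c l • m l := by
        unfold theta
        exact Finset.sum_congr rfl fun l _ => tq_algebraMap (c l) (m l)
      rw [e1]
      have e2 : IM D hP M ((0 : ℕ) + 1 : ℤ) = Ixyz D hP • (⊤ : Submodule (T D) M) := by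
        unfold IM
        have : (((0 : ℕ) : ℤ) + 1).toNat = 1 := by norm_num
        rw [this, pow_one]
      rw [e2]
      exact hc
  | succ j ih =>
    intro w hw
    have hw' : w ∈ IM D hP M ((j : ℤ) + 1) := by
      have : (((j + 1 : ℕ) : ℤ)) = (j : ℤ) + 1 := by push_cast; ring
      rw [this] at hw
      exact hw
    obtain ⟨w0, hw0, w1, hw1, w2, hw2, hsum⟩ := IM_succ_gen (by positivity) hw'
    obtain ⟨v0, hv0, hr0⟩ := ih w0 hw0
    obtain ⟨v1, hv1, hr1⟩ := ih w1 hw1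
    obtain ⟨v2, hv2, hr2⟩ := ih w2 hw2
    have hcast : (((j + 1 : ℕ) : ℤ)) = 1 + (j : ℤ) := by push_cast; ring
    have m0 : ∀ l, 1 * v0 l ∈ A k η ζ ((j + 1 : ℕ) : ℤ) := fun l => by
      rw [hcast]; exact A_mul_mem h1 (hv0 l)
    have m1 : ∀ l, η * v1 l ∈ A k η ζ ((j + 1 : ℕ) : ℤ) := fun l => by
      rw [hcast]; exact A_mul_mem hη (hv1 l)
    have m2 : ∀ l, ζ * v2 l ∈ A k η ζ ((j + 1 : ℕ) : ℤ) := fun l => by
      rw [hcast]; exact A_mul_mem hζ (hv2 l)
    refine ⟨fun l => (1 * v0 l + η * v1 l) + ζ * v2 l, fun l =>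
      Submodule.add_mem _ (Submodule.add_mem _ (m0 l) (m1 l)) (m2 l), ?_⟩
    rw [hadd (j + 1) (fun l => 1 * v0 l + η * v1 l) (fun l => ζ * v2 l)
      (fun l => Submodule.add_mem _ (m0 l) (m1 l)) m2,
      hadd (j + 1) (fun l => 1 * v0 l) (fun l => η * v1 l) m0 m1,
      ← hth j 1 v0 h1 hv0, ← hth j η v1 hη hv1, ← hth j ζ v2 hζ hv2, hsum]
    have e3 : tq D 1 1 • w0 + tq D 1 η • w1 + tq D 1 ζ • w2 -
        (tq D 1 1 • theta D m j v0 + tq D 1 η • theta D m j v1 + tq D 1 ζ • theta D m j v2) =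
        tq D 1 1 • (w0 - theta D m j v0) + tq D 1 η • (w1 - theta D m j v1) +
          tq D 1 ζ • (w2 - theta D m j v2) := by
      rw [smul_sub, smul_sub, smul_sub]; abel
    rw [e3]
    have e4 : (((j + 1 : ℕ) : ℤ)) + 1 = ((j : ℤ) + 1) + ((1 : ℕ) : ℤ) := by push_cast; ring
    rw [e4]
    exact Submodule.add_mem _ (Submodule.add_mem _ (IM_tq (i := 1) (by exact_mod_cast h1) hr0)
      (IM_tq (i := 1) (by exact_mod_cast hη) hr1)) (IM_tq (i := 1) (by exact_mod_cast hζ) hr2)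

theorem exists_ibas (hq : QReg (xyz D hP) M)
    (hfin : FiniteDimensional k (M ⧸ (Ixyz D hP • (⊤ : Submodule (T D) M)).restrictScalars k))
    (hne : Ixyz D hP • (⊤ : Submodule (T D) M) ≠ ⊤) :
    ∃ N : ℕ, 0 < N ∧ ∃ m : Fin N → M, IBas D hP m := by
  obtain ⟨N, hN, m, h1, h2⟩ := exists_m hfin hne
  exact ⟨N, hN, m, ⟨theta_surj h1, theta_inj hq h2⟩⟩

end

end R169.C0
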