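import Crest.Agent.R169.C0Basic

/-!
# Row 169, C0, piece C0_IBASINJ: injectivity of `theta` from quasi-regularity.

`v_l ∈ A_j` is `∑_{a ∈ Finset.Nat.antidiagonalTuple 3 j} c_{l,a} η^(a 1) ζ^(a 2)` (`A_j` = span of the
`η^a ζ^b`, `a + b ≤ j`; the exponent of `x` is `j - a - b`); `tq D j (η^(a 1) ζ^(a 2)) = ∏ i, xyz i ^ a i`.
So `theta m j v = ∑_a (∏ x_i^(a i)) • (∑_l c_{l,a} m_l) ∈ I^(j+1)M` (`IM (j+1)`, `Ixyz = span (range xyz)`);
by `QReg` all `∑_l c_{l,a} m_l ∈ IM`, so `c_{l,a} = 0` (`h`), so `v = 0`.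
-/

set_option autoImplicit false

namespace R169.C0

open Polynomial

section
variable {k L : Type} [Field k] [Field L] [Algebra k L] {D : GD k L} {η ζ : L} {hP : Par D η ζ}
variable {M : Type} [AddCommGroup M] [Module (T D) M] [Module k M] [IsScalarTower k (T D) M]

private theorem mem_A_sum {k L : Type} [Field k] [Field L] [Algebra k L] {η ζ : L} {j : ℕ} {l : L}
    (hl : l ∈ A k η ζ (j : ℤ)) : ∃ c : (Fin 3 → ℕ) → k,
      l = ∑ a ∈ Finset.Nat.antidiagonalTuple 3 j, c a • (η ^ a 1 * ζ ^ a 2) := by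
  classical
  unfold A at hl
  induction hl using Submodule.span_induction with
  | mem x hx =>
    obtain ⟨a, b, hab, rfl⟩ := hx
    refine ⟨fun t => if t = ![j - a - b, a, b] then 1 else 0, ?_⟩
    have hab' : a + b ≤ j := by exact_mod_cast hab
    have hmem : (![j - a - b, a, b] : Fin 3 → ℕ) ∈ Finset.Nat.antidiagonalTuple 3 j := by
      rw [Finset.Nat.mem_antidiagonalTuple, Fin.sum_univ_three]
      change j - a - b + a + b = j
      omega
    rw [Finset.sum_eq_single_of_mem _ hmem (fun t _ ht => by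
      simp only [if_neg ht, zero_smul])]
    simp
  | zero => exact ⟨0, by simp⟩
  | add x y _ _ hx hy =>
    obtain ⟨c, hc⟩ := hx
    obtain ⟨d, hd⟩ := hy
    refine ⟨c + d, ?_⟩
    rw [hc, hd, ← Finset.sum_add_distrib]
    refine Finset.sum_congr rfl fun a _ => ?_
    rw [Pi.add_apply, add_smul]
  | smul t x _ hx =>
    obtain ⟨c, hc⟩ := hx
    refine ⟨t • c, ?_⟩
    rw [hc, Finset.smul_sum]
    refine Finset.sum_congr rfl fun a _ => ?_
    rw [Pi.smul_apply, smul_assoc]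

private theorem tq_eq_prod {k L : Type} [Field k] [Field L] [Algebra k L] {D : GD k L} {η ζ : L}
    (hP : Par D η ζ) {j : ℕ} {a : Fin 3 → ℕ} (ha : a ∈ Finset.Nat.antidiagonalTuple 3 j) :
    η ^ a 1 * ζ ^ a 2 ∈ D.B (j : ℤ) ∧ tq D j (η ^ a 1 * ζ ^ a 2) = ∏ i, xyz D hP i ^ a i := by
  rw [Finset.Nat.mem_antidiagonalTuple, Fin.sum_univ_three] at ha
  have hB : η ^ a 1 * ζ ^ a 2 ∈ D.B (j : ℤ) := by
    apply A_le_B hP
    refine Submodule.subset_span ⟨a 1, a 2, ?_, rfl⟩
    omega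
  refine ⟨hB, ?_⟩
  apply Subtype.ext
  rw [tq_val hB, Fin.prod_univ_three]
  change _ = (monomial 1 (1 : L)) ^ a 0 * (monomial 1 η) ^ a 1 * (monomial 1 ζ) ^ a 2
  rw [monomial_pow, monomial_pow, monomial_pow, monomial_mul_monomial, monomial_mul_monomial]
  simp only [one_mul, one_pow]
  rw [ha]

theorem theta_inj (hq : QReg (xyz D hP) M) {N : ℕ} {m : Fin N → M}
    (h : ∀ c : Fin N → k, ∑ l, c l • m l ∈ Ixyz D hP • (⊤ : Submodule (T D) M) → c = 0) :
    ∀ (j : ℕ) (v : Fin N → L), (∀ l, v l ∈ A k η ζ j) → theta D m j v ∈ IM D hP M (j + 1) → v = 0 := by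
  classical
  intro j v hv hth
  choose c hc using fun l => mem_A_sum (hv l)
  have htq : ∀ l, tq D j (v l) = ∑ a ∈ Finset.Nat.antidiagonalTuple 3 j,
      c l a • (∏ i, xyz D hP i ^ a i) := by
    intro l
    have hgen : ∀ s : Finset (Fin 3 → ℕ), (∀ a ∈ s, a ∈ Finset.Nat.antidiagonalTuple 3 j) →
        (∑ a ∈ s, c l a • (η ^ a 1 * ζ ^ a 2)) ∈ D.B (j : ℤ) ∧
        tq D j (∑ a ∈ s, c l a • (η ^ a 1 * ζ ^ a 2)) =
          ∑ a ∈ s, c l a • (∏ i, xyz D hP i ^ a i) := by
      intro s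
      induction s using Finset.induction_on with
      | empty => intro _; simp [tq_zero]
      | insert a s ha ih =>
        intro hs
        obtain ⟨h1, h2⟩ := ih (fun b hb => hs b (Finset.mem_insert_of_mem hb))
        obtain ⟨h3, h4⟩ := tq_eq_prod hP (hs a (Finset.mem_insert_self _ _))
        rw [Finset.sum_insert ha, Finset.sum_insert ha]
        refine ⟨Submodule.add_mem _ (Submodule.smul_mem _ _ h3) h1, ?_⟩
        rw [tq_add (Submodule.smul_mem _ _ h3) h1, tq_smul _ h3, h4, h2]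
    have h5 := (hgen _ (fun a ha => ha)).2
    rw [← hc l] at h5
    exact h5
  have hsum : theta D m j v = ∑ a ∈ Finset.Nat.antidiagonalTuple 3 j,
      (∏ i, xyz D hP i ^ a i) • (∑ l, c l a • m l) := by
    unfold theta
    simp_rw [htq, Finset.sum_smul, Finset.smul_sum]
    rw [Finset.sum_comm]
    refine Finset.sum_congr rfl fun a _ => Finset.sum_congr rfl fun l _ => ?_
    rw [smul_assoc, ← algebraMap_smul (T D) (c l a) (m l), smul_smul, mul_comm, mul_smul,
      algebraMap_smul]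
  have hmem : ∑ a ∈ Finset.Nat.antidiagonalTuple 3 j,
      (∏ i, xyz D hP i ^ a i) • (∑ l, c l a • m l) ∈
      (Ideal.span (Set.range (xyz D hP))) ^ (j + 1) • (⊤ : Submodule (T D) M) := by
    rw [← hsum]
    have h6 : ((j : ℤ) + 1).toNat = j + 1 := by omega
    unfold IM at hth
    rw [h6] at hth
    exact hth
  have hz := hq j (fun a => ∑ l, c l a • m l) hmem
  funext l
  rw [hc l, Pi.zero_apply]
  refine Finset.sum_eq_zero fun a ha => ?_
  have h7 := h (fun l => c l a) (hz a ha)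
  have h8 : c l a = 0 := congrFun h7 l
  rw [h8, zero_smul]

end

end R169.C0
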