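import Crest.Agent.R169.C0Dehom

/-!
# Row 169, C0, piece C0_IND: independent families of `gr F` are bounded.

`Ind.card_le`: if `Ind D F n0 e` (`e : Fin r → M`) then `r * dim B_j ≤ dim F^(n0+j)/F^(n0+j+1)` for all
`j : ℕ` (the map `(B_j)^r → F^(n0+j) / F^(n0+j+1)`, `b ↦ ∑ tq j (b i) • e i` is injective).  With
`FHP` (`lemmaL`: leading coefficient `N/2`) and `HasHP D.B d ..` (`isLat_B`, `IsPLat.hasHP`,
`IsLat.rank`: `d > 0`, integral so `d ≥ 1`): `r ≤ N`.
`Ind.shift`: multiply by `x^a = tq a 1` : `Ind D F (n0 + a) (fun i => tq D a 1 • e i)` (by `tf`).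
-/

set_option autoImplicit false

namespace R169.C0

open Polynomial

section
variable {k L : Type} [Field k] [Field L] [Algebra k L] {D : GD k L} {η ζ : L} {hP : Par D η ζ}
variable {M : Type} [AddCommGroup M] [Module (T D) M] [Module k M] [IsScalarTower k (T D) M]
variable {F : ℤ → Submodule (T D) M}

private theorem one_mem_nat (D : GD k L) (a : ℕ) : (1 : L) ∈ D.B a := by
  induction a with
  | zero =>
    rw [Nat.cast_zero, D.zero]
    exact Submodule.mem_span_singleton_self _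
  | succ a ih =>
    have h := D.mul_mem D.one_mem ih
    rw [mul_one] at h
    have e : ((a + 1 : ℕ) : ℤ) = 1 + (a : ℤ) := by push_cast; ring
    rw [e]
    exact h

theorem Ind.shift (hF : FiltT D hP F) {n0 : ℤ} {r : ℕ} {e : Fin r → M} (he : Ind D F n0 e) (a : ℕ) :
    Ind D F (n0 + a) (fun i => tq D a 1 • e i) := by
  refine ⟨fun i => hF.smul a 1 (one_mem_nat D a) n0 (e i) (he.1 i), ?_⟩
  intro j b hb h
  apply he.2 j b hb
  have h1 : ∑ i, tq D j (b i) • e i ∈ F (n0 + j) :=
    Submodule.sum_mem _ fun i _ => hF.smul j (b i) (hb i) n0 (e i) (he.1 i)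
  have h2 : ∑ i, tq D j (b i) • tq D a 1 • e i = tq D a 1 • ∑ i, tq D j (b i) • e i := by
    rw [Finset.smul_sum]
    refine Finset.sum_congr rfl fun i _ => ?_
    rw [smul_comm]
  rw [h2] at h
  have e1 : n0 + a + j + 1 = n0 + j + a + 1 := by ring
  rw [e1] at h
  exact hF.tf a 1 (one_mem_nat D a) one_ne_zero (n0 + j) _ h1 h

private theorem quad_nonpos (A B C : ℚ) (J : ℕ)
    (h : ∀ j : ℕ, J ≤ j → A * (j : ℚ) ^ 2 + B * j + C ≤ 0) : A ≤ 0 := by
  by_contra hA
  rw [not_le] at hA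
  obtain ⟨j0, hj0⟩ := exists_nat_gt ((|B| + |C|) / A)
  have h1 := h (max J (j0 + 1)) (le_max_left _ _)
  have h2 : ((j0 : ℚ) + 1) ≤ ((max J (j0 + 1) : ℕ) : ℚ) := by
    have := le_max_right J (j0 + 1)
    exact_mod_cast this
  set x : ℚ := ((max J (j0 + 1) : ℕ) : ℚ) with hx
  have hj : (0 : ℚ) ≤ (j0 : ℚ) := Nat.cast_nonneg j0
  have hx1 : 1 ≤ x := by linarith
  have h3 : |B| + |C| < A * x := by
    rw [div_lt_iff₀ hA] at hj0
    nlinarith
  have h4 : -|B| ≤ B := neg_abs_le B
  have h5 : -|C| ≤ C := neg_abs_le C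
  have h6 : 0 ≤ |B| := abs_nonneg B
  have h7 : 0 ≤ |C| := abs_nonneg C
  have h8 : (|B| + |C|) * x < A * x * x := by
    apply mul_lt_mul_of_pos_right h3; linarith
  have h9 : |C| ≤ |C| * x := le_mul_of_one_le_right h7 hx1
  have h10 : -|B| * x ≤ B * x := mul_le_mul_of_nonneg_right h4 (by linarith)
  nlinarith

/-- the map `(B_j)^r → M`, `b ↦ ∑ tq j (b i) • e i` -/
private noncomputable def psi (j : ℕ) {r : ℕ} (e : Fin r → M) :
    (Fin r → D.B j) →ₗ[k] M where
  toFun b := ∑ i, tq D j (b i : L) • e i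
  map_add' b b' := by
    rw [← Finset.sum_add_distrib]
    refine Finset.sum_congr rfl fun i _ => ?_
    rw [Pi.add_apply, Submodule.coe_add, tq_add (b i).2 (b' i).2, add_smul]
  map_smul' c b := by
    rw [RingHom.id_apply, Finset.smul_sum]
    refine Finset.sum_congr rfl fun i _ => ?_
    rw [Pi.smul_apply, Submodule.coe_smul, tq_smul c (b i).2, smul_assoc]

private theorem rank_le {N : ℕ} {m : Fin N → M} (hm : IBas D hP m) (hF : FiltT D hP F)
    {n0 : ℤ} {r : ℕ} {e : Fin r → M} (he : Ind D F n0 e) (j : ℕ) :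
    r * Module.finrank k (D.B j) ≤ rd D (F (n0 + j)) (F (n0 + j + 1)) := by
  have hfin : rfin D (F (n0 + j)) (F (n0 + j + 1)) := hF.toFilt.rfin hm (n0 + j)
  have hBfin : FiniteDimensional k (D.B j) := D.fin j
  unfold rfin at hfin
  unfold rd
  have hmem : ∀ b : Fin r → D.B j, psi (D := D) j e b ∈ F (n0 + j) := by
    intro b
    have h0 : ∑ i, tq D j (b i : L) • e i ∈ F (n0 + j) :=
      Submodule.sum_mem _ fun i _ => hF.smul j (b i) (b i).2 n0 (e i) (he.1 i)
    exact h0
  let g : (Fin r → D.B j) →ₗ[k]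
      (((F (n0 + j)).restrictScalars k).map ((F (n0 + j + 1)).restrictScalars k).mkQ) :=
    LinearMap.codRestrict _ (((F (n0 + j + 1)).restrictScalars k).mkQ ∘ₗ psi (D := D) j e) (fun b =>
      Submodule.mem_map_of_mem (hmem b))
  have hg : Function.Injective g := by
    rw [← LinearMap.ker_eq_bot, LinearMap.ker_eq_bot']
    intro b hb
    have h1 : ((F (n0 + j + 1)).restrictScalars k).mkQ (psi (D := D) j e b) = 0 := by
      have := congrArg Subtype.val hb
      exact this
    rw [Submodule.mkQ_apply, Submodule.Quotient.mk_eq_zero] at h1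
    have h2 := he.2 j (fun i => (b i : L)) (fun i => (b i).2) (Submodule.restrictScalars_mem k _ _ |>.1 h1)
    funext i
    apply Subtype.ext
    exact congrFun h2 i
  have h3 := LinearMap.finrank_le_finrank_of_injective hg
  rw [Module.finrank_pi_fintype] at h3
  simpa using h3

theorem Ind.card_le {N : ℕ} (hN : 0 < N) {m : Fin N → M} (hm : IBas D hP m) (hF : FiltT D hP F)
    {n0 : ℤ} {r : ℕ} {e : Fin r → M} (he : Ind D F n0 e) : r ≤ N := by
  obtain ⟨β, γ, ⟨n1, h1⟩, -, -, -⟩ := lemmaL hN hm hF.toFilt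
  have hlat := isLat_B hP
  obtain ⟨d, βB, γB, hB, -, -⟩ := (hlat.toPLat hP).hasHP
  have hd : (0 : ℚ) < (d : ℚ) := (hlat.rank hP hB hB).1
  obtain ⟨n2, h2⟩ := hB
  have hd1 : 1 ≤ d := by
    have : 0 < d := by exact_mod_cast hd
    omega
  have key := quad_nonpos ((r : ℚ) * d / 2 - N / 2) (-(r * βB) - N * n0 + β)
    (r * γB - N / 2 * n0 ^ 2 + β * n0 - γ) (max (n1 - n0).toNat n2.toNat) (by
      intro j hj
      have hj1 : n1 ≤ n0 + j := by
        have := le_trans (le_max_left _ _) hj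
        omega
      have hj2 : n2 ≤ j := by
        have := le_trans (le_max_right _ _) hj
        omega
      have e1 := h1 (n0 + j) hj1
      have e2 := h2 j hj2
      have e3 : ((r * Module.finrank k (D.B j) : ℕ) : ℚ) ≤ (rd D (F (n0 + j)) (F (n0 + j + 1)) : ℚ) := by
        exact_mod_cast rank_le hm hF he j
      rw [Nat.cast_mul, e1, e2] at e3
      push_cast at e3
      nlinarith)
  have h3 : (r : ℚ) * d ≤ N := by linarith
  have h4 : r * d ≤ N := by exact_mod_cast h3
  exact le_trans (Nat.le_mul_of_pos_right r hd1) h4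

end

end R169.C0
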