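import Crest.Agent.R169.C0FinE

/-!
# Row 169, C0, piece C0_LAT: the dehomogenised family is a lattice.

`smul_mem`: `a ∈ B_i`; if `i < 0` then `a = 0` (`D.neg`); else `δ.smul`.
`fin`: `Filt.rfin`, `Dehom.fin_E`.  `bdd`: for `n + 1 ≤ -c`: `F n = F (n+1) = ⊤` (`comm`, `IM_nonpos`),
so `π n = 0` (`δ.ker`).  `gen`: `filt_gen`: `π (n+1) w = π n w0 + η π n w1 + ζ π n w2`
(`w - (..) ∈ F (n+2)` is killed by `π (n+1)`).
-/

set_option autoImplicit false

namespace R169.C0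

open Polynomial

section
variable {k L : Type} [Field k] [Field L] [Algebra k L] {D : GD k L} {η ζ : L} {hP : Par D η ζ}
variable {M : Type} [AddCommGroup M] [Module (T D) M] [Module k M] [IsScalarTower k (T D) M]
variable {F : ℤ → Submodule (T D) M} {r : ℕ}

private theorem smul_one' (δ : Dehom D F r) (n : ℤ) (a : L) (ha : a ∈ D.B 1) (w : F n) (m' : ℤ)
    (hm : m' = n + 1) (w' : F m') (h : (w' : M) = tq D 1 a • (w : M)) :
    δ.π m' w' = a • δ.π n w := by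
  have hm2 : m' = n + ((1 : ℕ) : ℤ) := by rw [hm, Nat.cast_one]
  subst hm2
  exact δ.smul n 1 a (by rw [Nat.cast_one]; exact ha) w w' h

theorem Dehom.isLat {N : ℕ} {m : Fin N → M} (hm : IBas D hP m) (hF : FiltT D hP F)
    (δ : Dehom D F r) : IsLat D η ζ δ.E := by
  have hF' : Filt D hP F := hF.toFilt
  refine ⟨?_, ?_, ?_, ?_⟩
  · intro i n a w ha hw
    by_cases hi : 0 ≤ i
    · lift i to ℕ using hi
      obtain ⟨u, rfl⟩ := hw
      have hu : tq D i a • (u : M) ∈ F (n + i) := hF'.smul i a ha n u u.2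
      have h1 := δ.smul n i a ha u ⟨_, hu⟩ rfl
      rw [← h1, add_comm (i : ℤ) n]
      exact ⟨_, rfl⟩
    · have h0 : D.B i = ⊥ := D.neg i (by omega)
      rw [h0, Submodule.mem_bot] at ha
      rw [ha, zero_smul]
      exact Submodule.zero_mem _
  · intro n
    exact δ.fin_E n (Filt.rfin hm hF' n)
  · obtain ⟨c, hc⟩ := hF'.comm
    refine ⟨-c, ?_⟩
    intro n hn
    have h1 : F (n + 1) = ⊤ := by
      rw [eq_top_iff]
      have h2 := (hc (n + 1)).1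
      rwa [IM_nonpos (by omega)] at h2
    rw [eq_bot_iff]
    rintro w ⟨u, rfl⟩
    rw [Submodule.mem_bot, δ.ker, h1]
    exact Submodule.mem_top
  · obtain ⟨n1, h⟩ := filt_gen hm hF'
    refine ⟨n1, fun n hn => ?_⟩
    rintro _ ⟨u, rfl⟩
    obtain ⟨w0, h0, w1, h1, w2, h2, hd⟩ := h n hn u u.2
    have sm1 : ∀ (a : L), a ∈ D.B 1 → ∀ w ∈ F n, tq D 1 a • w ∈ F (n + 1) := by
      intro a ha w hw
      have := hF'.smul 1 a (by rw [Nat.cast_one]; exact ha) n w hw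
      rwa [Nat.cast_one] at this
    set X0 : F (n + 1) := ⟨tq D 1 1 • w0, sm1 1 D.one_mem w0 h0⟩ with hX0
    set X1 : F (n + 1) := ⟨tq D 1 η • w1, sm1 η hP.hη w1 h1⟩ with hX1
    set X2 : F (n + 1) := ⟨tq D 1 ζ • w2, sm1 ζ hP.hζ w2 h2⟩ with hX2
    have e0 : δ.π (n + 1) X0 = (1 : L) • δ.π n ⟨w0, h0⟩ :=
      smul_one' δ n 1 D.one_mem ⟨w0, h0⟩ (n + 1) rfl X0 rfl
    have e1 : δ.π (n + 1) X1 = η • δ.π n ⟨w1, h1⟩ :=
      smul_one' δ n η hP.hη ⟨w1, h1⟩ (n + 1) rfl X1 rfl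
    have e2 : δ.π (n + 1) X2 = ζ • δ.π n ⟨w2, h2⟩ :=
      smul_one' δ n ζ hP.hζ ⟨w2, h2⟩ (n + 1) rfl X2 rfl
    have e3 : δ.π (n + 1) (u - (X0 + X1 + X2)) = 0 := by
      rw [δ.ker]
      have e4 : n + 1 + 1 = n + 2 := by ring
      rw [e4]
      exact hd
    have hu : u = X0 + X1 + X2 + (u - (X0 + X1 + X2)) := by abel
    have e5 := congrArg (δ.π (n + 1)) hu
    rw [map_add, map_add, map_add, e0, e1, e2, e3, add_zero, one_smul] at e5
    rw [e5]
    refine Submodule.add_mem _ (Submodule.add_mem _ ?_ ?_) ?_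
    · exact Submodule.mem_sup_left (Submodule.mem_sup_left ⟨_, rfl⟩)
    · exact Submodule.mem_sup_left (Submodule.mem_sup_right ⟨_, ⟨_, rfl⟩, rfl⟩)
    · exact Submodule.mem_sup_right ⟨_, ⟨_, rfl⟩, rfl⟩

end

end R169.C0
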