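import Crest.Agent.R169.C0Ind

/-!
# Row 169, C0, piece C0_MAX: a maximal independent family.

Choose `r` maximal (`≤ N` by `Ind.card_le`) with `∃ n0 e, Ind D F n0 (e : Fin r → M)`; `r = 0` is always
possible.  For `w ∈ F n`: bring `w` and the `e i` to the same degree: `a b : ℕ` with `n + b = n0 + a`,
`w' = tq b 1 • w`, `e' i = tq a 1 • e i` (`Ind.shift`); the family `Fin.cons w' e'` of size `r + 1` is
not `Ind`: some `j`, `b0`, `b i ∈ B_j` not all zero with
`tq j b0 • w' + ∑ tq j (b i) • e' i ∈ F (n+b+j+1)`; `b0 ≠ 0` because `e'` is `Ind`.  So `Rel` holds with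
`v i = - b i / b0` and the data `(b + j, a + j, b0)`: `b0 * v i = - b i ∈ B_j ≤ B_(a+j)`,
`tq j c * tq a 1 = tq (j+a) c`.
-/

set_option autoImplicit false

namespace R169.C0

open Polynomial

section
variable {k L : Type} [Field k] [Field L] [Algebra k L] {D : GD k L} {η ζ : L} {hP : Par D η ζ}
variable {M : Type} [AddCommGroup M] [Module (T D) M] [Module k M] [IsScalarTower k (T D) M]
variable {F : ℤ → Submodule (T D) M}

private theorem one_mem_Bnat (D : GD k L) (n : ℕ) : (1 : L) ∈ D.B n := by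
  induction n with
  | zero =>
    rw [Nat.cast_zero, D.zero]
    exact Submodule.mem_span_singleton_self _
  | succ n ih =>
    push_cast
    exact D.mono n ih

private theorem mem_B_add {a : L} {j : ℕ} (h : a ∈ D.B j) (i : ℕ) :
    a ∈ D.B ((i + j : ℕ) : ℤ) := by
  have := D.mul_mem (one_mem_Bnat D i) h
  rw [one_mul] at this
  push_cast
  exact this

theorem exists_max {N : ℕ} (hN : 0 < N) {m : Fin N → M} (hm : IBas D hP m) (hF : FiltT D hP F) :
    ∃ (r : ℕ) (n0 : ℤ) (e : Fin r → M), Ind D F n0 e ∧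
      ∀ (n : ℤ) (w : M), w ∈ F n → ∃ v, Rel D F n0 e n w v := by
  classical
  let P : ℕ → Prop := fun r => ∃ (n0 : ℤ) (e : Fin r → M), Ind D F n0 e
  have hP0 : P 0 := ⟨0, Fin.elim0, fun i => i.elim0, fun j b _ _ => funext fun i => i.elim0⟩
  set r := Nat.findGreatest P N with hr
  have hPr : P r := Nat.findGreatest_spec (m := 0) (Nat.zero_le N) hP0
  have hPr1 : ¬ P (r + 1) := by
    rintro ⟨n1, e1, he1⟩
    have h1 : r + 1 ≤ N := he1.card_le hN hm hF
    have h2 : r + 1 ≤ Nat.findGreatest P N := Nat.le_findGreatest h1 ⟨n1, e1, he1⟩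
    omega
  obtain ⟨n0, e, he⟩ := hPr
  refine ⟨r, n0, e, he, fun n w hw => ?_⟩
  set a : ℕ := (n - n0).toNat with ha
  set c : ℕ := (n0 - n).toNat with hc
  have hac : n + c = n0 + a := by omega
  have he' := he.shift hF a
  have hw' : tq D c 1 • w ∈ F (n0 + a) := by
    rw [← hac]
    exact hF.smul c 1 (one_mem_Bnat D c) n w hw
  have hno : ¬ Ind D F (n0 + a) (Fin.cons (tq D c 1 • w) (fun i => tq D a 1 • e i) :
      Fin (r + 1) → M) := fun h => hPr1 ⟨_, _, h⟩
  have hmem : ∀ i, (Fin.cons (tq D c 1 • w) (fun i => tq D a 1 • e i) : Fin (r + 1) → M) i ∈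
      F (n0 + a) := by
    intro i
    refine Fin.cases ?_ (fun i => ?_) i
    · exact hw'
    · exact he'.1 i
  have hex : ∃ (j : ℕ) (b : Fin (r + 1) → L), (∀ i, b i ∈ D.B j) ∧
      ∑ i, tq D j (b i) • (Fin.cons (tq D c 1 • w) (fun i => tq D a 1 • e i) :
        Fin (r + 1) → M) i ∈ F (n0 + a + j + 1) ∧ b ≠ 0 := by
    by_contra hcon
    push Not at hcon
    exact hno ⟨hmem, fun j b hb hs => hcon j b hb hs⟩
  obtain ⟨j, b, hb, hs, hb0⟩ := hex
  rw [Fin.sum_univ_succ] at hs
  simp only [Fin.cons_zero, Fin.cons_succ] at hs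
  have hb00 : b 0 ≠ 0 := by
    intro h0
    apply hb0
    rw [h0, tq_zero, zero_smul, zero_add] at hs
    have h1 := he'.2 j (fun i => b i.succ) (fun i => hb _) hs
    funext i
    refine Fin.cases h0 (fun i => ?_) i
    exact congrFun h1 i
  refine ⟨fun i => - b i.succ / b 0, c + j, a + j, b 0, by push_cast; omega,
    mem_B_add (hb 0) c, hb00, fun i => ?_, ?_⟩
  · rw [mul_div_cancel₀ _ hb00]
    exact mem_B_add (Submodule.neg_mem _ (hb _)) a
  · have e1 : tq D (c + j) (b 0) • w = tq D j (b 0) • (tq D c 1 • w) := by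
      rw [← mul_smul, tq_mul (hb 0) (one_mem_Bnat D c), mul_one, add_comm j c]
    have e2 : ∀ i : Fin r, tq D (a + j) (b 0 * (- b i.succ / b 0)) • e i =
        - (tq D j (b i.succ) • (tq D a 1 • e i)) := by
      intro i
      rw [mul_div_cancel₀ _ hb00, ← neg_smul, ← mul_smul]
      have h2 : tq D j (- b i.succ) = - tq D j (b i.succ) := by
        have h3 := tq_smul (D := D) (i := j) (-1 : k) (hb i.succ)
        rw [neg_one_smul, neg_one_smul] at h3
        exact h3
      rw [← h2, tq_mul (Submodule.neg_mem _ (hb _)) (one_mem_Bnat D a), mul_one, add_comm j a]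
    rw [e1, Finset.sum_congr rfl fun i _ => e2 i, Finset.sum_neg_distrib, sub_neg_eq_add]
    have e3 : n + ((c + j : ℕ) : ℤ) + 1 = n0 + a + j + 1 := by push_cast; omega
    rw [e3]
    exact hs

end

end R169.C0
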