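import Crest.Agent.R169.C0Modif
import Crest.Agent.R169.C0FinE
import Crest.Agent.R169.C0Rd

/-!
# Row 169, C0, piece C0_MODIFRD: Hilbert function of the modification.

`0 → F^(n+1)/F'^(n+1) → F'^n/F'^(n+1) → F'^n/F^(n+1) → 0` (`F^(n+1) ≤ F'^n ≤ F^n`, `mem_modif`); the third is
`≅ E_n ∩ V` (by `π n`), the first is `≅ E_(n+1)/(E_(n+1) ∩ V) ≅ quo E V (n+1)` (by `π (n+1)`).
Alternatively with the linear map `F'^n → ...`; all dimensions are finite by `hfin`.
-/

set_option autoImplicit false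

namespace R169.C0

open Polynomial

section
variable {k L : Type} [Field k] [Field L] [Algebra k L] {D : GD k L} {η ζ : L} {hP : Par D η ζ}
variable {M : Type} [AddCommGroup M] [Module (T D) M] [Module k M] [IsScalarTower k (T D) M]
variable {F : ℤ → Submodule (T D) M} {r : ℕ}

/-- the relative dimension computed with a linear map -/
private theorem rd_of_map {N : Type} [AddCommGroup N] [Module k N] (A B : Submodule (T D) M)
    (g : A →ₗ[k] N) (h : ∀ x : A, g x = 0 ↔ (x : M) ∈ B) :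
    Module.finrank k ((A.restrictScalars k).map (B.restrictScalars k).mkQ) =
      Module.finrank k (LinearMap.range g) ∧
    (FiniteDimensional k ((A.restrictScalars k).map (B.restrictScalars k).mkQ) ↔
      FiniteDimensional k (LinearMap.range g)) := by
  let f : A →ₗ[k] (M ⧸ B.restrictScalars k) :=
    (B.restrictScalars k).mkQ ∘ₗ (A.subtype.restrictScalars k)
  have hk : LinearMap.ker f = LinearMap.ker g := by
    ext x
    rw [LinearMap.mem_ker, LinearMap.mem_ker, h x]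
    change (B.restrictScalars k).mkQ (x : M) = 0 ↔ _
    rw [Submodule.mkQ_apply, Submodule.Quotient.mk_eq_zero, Submodule.restrictScalars_mem]
  have hr : LinearMap.range f = (A.restrictScalars k).map (B.restrictScalars k).mkQ := by
    ext x
    constructor
    · rintro ⟨y, rfl⟩
      exact ⟨(y : M), y.2, rfl⟩
    · rintro ⟨y, hy, rfl⟩
      exact ⟨⟨y, hy⟩, rfl⟩
  have e1 := LinearMap.quotKerEquivRange (R := k) (M := A) f
  have e2 := LinearMap.quotKerEquivRange (R := k) (M := A) g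
  rw [hk] at e1
  rw [← hr]
  have e3 := e1.symm.trans e2
  exact ⟨e3.finrank_eq, ⟨fun _ => LinearEquiv.finiteDimensional e3,
    fun _ => LinearEquiv.finiteDimensional e3.symm⟩⟩

theorem modif_rd (hF : FiltT D hP F) (hfin : ∀ n, rfin D (F n) (F (n + 1))) (δ : Dehom D F r)
    (V : Submodule L (Fin r → L)) (n : ℤ) :
    rd D (modif δ V n) (modif δ V (n + 1)) =
      Module.finrank k (sat δ.E V n) + Module.finrank k (quo δ.E V (n + 1)) := by
  have hmem := mem_modif hF δ V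
  have hle1 : modif δ V n ≤ F n := fun w hw => ((hmem n w).1 hw).1
  have hle2 : modif δ V (n + 1) ≤ F (n + 1) := fun w hw => ((hmem (n + 1) w).1 hw).1
  have hle3 : F (n + 1) ≤ modif δ V n := fun w hw => by
    refine (hmem n w).2 ⟨hF.anti n hw, ?_⟩
    rw [(δ.ker n ⟨w, hF.anti n hw⟩).2 hw]
    exact V.zero_mem
  have fE1 : FiniteDimensional k (δ.E n) := δ.fin_E n (hfin n)
  have fE2 : FiniteDimensional k (δ.E (n + 1)) := δ.fin_E (n + 1) (hfin (n + 1))
  -- first map
  let g1 : modif δ V n →ₗ[k] (Fin r → L) :=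
    (δ.π n) ∘ₗ ((Submodule.inclusion hle1).restrictScalars k)
  have hg1 : ∀ x : modif δ V n, g1 x = 0 ↔ (x : M) ∈ F (n + 1) := fun x =>
    δ.ker n (Submodule.inclusion hle1 x)
  have hr1 : LinearMap.range g1 = sat δ.E V n := by
    ext v
    constructor
    · rintro ⟨x, rfl⟩
      obtain ⟨h1, h2⟩ := (hmem n (x : M)).1 x.2
      exact ⟨⟨Submodule.inclusion hle1 x, rfl⟩, h2⟩
    · rintro ⟨⟨w, rfl⟩, hv⟩
      have hw : (w : M) ∈ modif δ V n := (hmem n (w : M)).2 ⟨w.2, hv⟩
      exact ⟨⟨(w : M), hw⟩, rfl⟩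
  obtain ⟨a1, a2⟩ := rd_of_map (modif δ V n) (F (n + 1)) g1 hg1
  -- second map
  let g2 : F (n + 1) →ₗ[k] ((Fin r → L) ⧸ V) := (V.mkQ.restrictScalars k) ∘ₗ (δ.π (n + 1))
  have hg2 : ∀ x : F (n + 1), g2 x = 0 ↔ (x : M) ∈ modif δ V (n + 1) := fun x => by
    rw [hmem (n + 1) (x : M)]
    change V.mkQ (δ.π (n + 1) x) = 0 ↔ _
    rw [Submodule.mkQ_apply, Submodule.Quotient.mk_eq_zero]
    exact ⟨fun h => ⟨x.2, h⟩, fun ⟨_, h⟩ => h⟩
  have hr2 : LinearMap.range g2 = quo δ.E V (n + 1) := by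
    ext v
    constructor
    · rintro ⟨x, rfl⟩
      exact ⟨δ.π (n + 1) x, ⟨x, rfl⟩, rfl⟩
    · rintro ⟨_, ⟨x, rfl⟩, rfl⟩
      exact ⟨x, rfl⟩
  obtain ⟨b1, b2⟩ := rd_of_map (F (n + 1)) (modif δ V (n + 1)) g2 hg2
  have f1 : FiniteDimensional k (((modif δ V n).restrictScalars k).map
      ((F (n + 1)).restrictScalars k).mkQ) := by
    rw [a2, hr1]
    unfold sat
    exact Submodule.finiteDimensional_inf_left _ _
  have f2 : FiniteDimensional k (((F (n + 1)).restrictScalars k).map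
      ((modif δ V (n + 1)).restrictScalars k).mkQ) := by
    rw [b2, hr2]
    unfold quo
    infer_instance
  obtain ⟨_, c2⟩ := rd_add (A := (modif δ V n).restrictScalars k)
    (B := (F (n + 1)).restrictScalars k) (C := (modif δ V (n + 1)).restrictScalars k)
    (fun w hw => hle2 hw) (fun w hw => hle3 hw) f1 f2
  unfold rd
  rw [c2, a1, b1, hr1, hr2]

theorem modif_FHP (hF : FiltT D hP F) (hfin : ∀ n, rfin D (F n) (F (n + 1))) (δ : Dehom D F r)
    (V : Submodule L (Fin r → L)) {N1 β1 γ1 N2 β2 γ2 : ℚ} (h1 : HasHP (sat δ.E V) N1 β1 γ1)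
    (h2 : HasHP (quo δ.E V) N2 β2 γ2) :
    FHP D (modif δ V) (N1 + N2) (β1 + β2 - N2) (γ1 + γ2 - β2 + N2 / 2) := by
  obtain ⟨n1, h1⟩ := h1
  obtain ⟨n2, h2⟩ := h2
  refine ⟨max n1 n2, fun n hn => ?_⟩
  rw [modif_rd hF hfin]
  push_cast
  rw [h1 n (le_trans (le_max_left _ _) hn), h2 (n + 1) (by have := le_max_right n1 n2; omega)]
  push_cast
  ring

end

end R169.C0
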