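import Crest.Agent.R169.C0Defs

/-!
# Row 169, C0, piece C0_MULA: every `0 ≠ a ∈ B_i` has a nonzero homogeneous multiple in `A`.

Dimension count.  `dim B_n = d/2 n² - β n + γ` for `n ≫ 0` (`(isLat_B hP).toPLat hP |>.hasHP`), `d > 0`
(`IsLat.rank` for `isLat_B hP`, `W = L`), `dim A_n = (n+1)(n+2)/2` (`finrank_A`).  For `j` large
`dim (a B_j) + dim A_(i+j) > dim B_(i+j)` and both are subspaces of the finite dimensional `B_(i+j)`
(`D.mul_mem`, `A_le_B`), so they meet nontrivially: `a b = c ≠ 0`.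
-/

set_option autoImplicit false

namespace R169.C0

section
variable {k L : Type} [Field k] [Field L] [Algebra k L] {D : GD k L} {η ζ : L}

theorem exists_mul_mem_A (hP : Par D η ζ) {i : ℕ} {a : L} (ha : a ∈ D.B i) (h0 : a ≠ 0) :
    ∃ (j : ℕ) (b : L), b ∈ D.B j ∧ b ≠ 0 ∧ a * b ∈ A k η ζ ((i + j : ℕ) : ℤ) := by
  obtain ⟨N, β, γ, hHP, -, -⟩ := ((isLat_B hP).toPLat hP).hasHP
  have hd : (0 : ℚ) < N := (IsLat.rank (W := L) hP hHP (isLat_B hP) hHP).1
  obtain ⟨n0, hn0⟩ := hHP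
  set d : ℚ := (N : ℚ) with hdd
  -- choice of `j`
  obtain ⟨j0, hj0⟩ := exists_nat_gt (2 * (d * i) + (d * i * i + 2 * |β| * i) + 1)
  set j : ℕ := j0 + n0.toNat with hj
  have hjn : n0 ≤ (j : ℤ) := by
    have := Int.self_le_toNat n0
    rw [hj]; push_cast; omega
  have hj1 : 2 * (d * i) + (d * i * i + 2 * |β| * i) + 1 < (j : ℚ) := by
    refine hj0.trans_le ?_
    rw [hj]; push_cast
    have : (0 : ℚ) ≤ (n0.toNat : ℚ) := Nat.cast_nonneg _
    linarith
  have hi0 : (0 : ℚ) ≤ (i : ℚ) := Nat.cast_nonneg _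
  have hβ0 : 0 ≤ |β| := abs_nonneg β
  have e1 := hn0 (j : ℤ) hjn
  have e2 := hn0 ((i + j : ℕ) : ℤ) (by push_cast; omega)
  have e3 := finrank_A hP.indep ((i + j : ℕ) : ℤ)
  rw [if_pos (by positivity), Int.toNat_natCast] at e3
  -- the dimension count
  have hq : ((i + j : ℕ) : ℚ) ^ 2 / 2 ≤ (Module.finrank k (A k η ζ ((i + j : ℕ) : ℤ)) : ℚ) := by
    rw [e3]
    have h1 : (i + j + 1) * (i + j + 2) ≤ 2 * ((i + j + 1) * (i + j + 2) / 2) + 1 := by omega
    have h2 : (((i + j + 1) * (i + j + 2) : ℕ) : ℚ) ≤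
        2 * (((i + j + 1) * (i + j + 2) / 2 : ℕ) : ℚ) + 1 := by exact_mod_cast h1
    push_cast at h2 ⊢
    have hj00 : (0 : ℚ) ≤ (j : ℚ) := Nat.cast_nonneg _
    nlinarith
  have hbig : Module.finrank k (D.B ((i + j : ℕ) : ℤ)) <
      Module.finrank k (D.B (j : ℤ)) + Module.finrank k (A k η ζ ((i + j : ℕ) : ℤ)) := by
    have : (Module.finrank k (D.B ((i + j : ℕ) : ℤ)) : ℚ) <
      Module.finrank k (D.B (j : ℤ)) + Module.finrank k (A k η ζ ((i + j : ℕ) : ℤ)) := by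
      rw [e1, e2]
      refine lt_of_lt_of_le ?_ (add_le_add_right hq _)
      push_cast
      have hjpos : (1 : ℚ) ≤ j := by nlinarith [mul_nonneg hd.le hi0, mul_nonneg (mul_nonneg hd.le hi0) hi0, mul_nonneg hβ0 hi0]
      have hki : 0 ≤ d * i * i + 2 * |β| * i := by positivity
      have h5 : (d * i * i + 2 * |β| * i + 1) * 1 ≤ (j - 2 * (d * i)) * j := by
        apply mul_le_mul (by linarith) hjpos (by norm_num) (by linarith)
      have h6 : -(β * i) ≤ |β| * i := by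
        have := neg_le_abs β
        nlinarith
      nlinarith
    exact_mod_cast this
  -- the intersection
  haveI := D.fin ((i + j : ℕ) : ℤ)
  haveI := D.fin (j : ℤ)
  have hAB : A k η ζ ((i + j : ℕ) : ℤ) ≤ D.B ((i + j : ℕ) : ℤ) := A_le_B hP _
  have hSB : sm a (D.B (j : ℤ)) ≤ D.B ((i + j : ℕ) : ℤ) := by
    rintro _ ⟨b, hb, rfl⟩
    push_cast
    exact D.mul_mem ha hb
  haveI : FiniteDimensional k (A k η ζ ((i + j : ℕ) : ℤ)) := Submodule.finiteDimensional_of_le hAB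
  haveI : FiniteDimensional k (sm a (D.B (j : ℤ))) := Submodule.finiteDimensional_of_le hSB
  have hinj : Function.Injective (Algebra.lsmul k k L a) := by
    intro x y hxy
    exact mul_left_cancel₀ h0 hxy
  have hS : Module.finrank k (sm a (D.B (j : ℤ))) = Module.finrank k (D.B (j : ℤ)) :=
    (LinearEquiv.finrank_eq (Submodule.equivMapOfInjective _ hinj _)).symm
  have h7 := Submodule.finrank_sup_add_finrank_inf_eq (sm a (D.B (j : ℤ)))
    (A k η ζ ((i + j : ℕ) : ℤ))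
  have h8 : Module.finrank k ↥(sm a (D.B (j : ℤ)) ⊔ A k η ζ ((i + j : ℕ) : ℤ)) ≤
      Module.finrank k (D.B ((i + j : ℕ) : ℤ)) := Submodule.finrank_mono (sup_le hSB hAB)
  have h9 : sm a (D.B (j : ℤ)) ⊓ A k η ζ ((i + j : ℕ) : ℤ) ≠ ⊥ := by
    intro h
    rw [h, finrank_bot, hS] at h7
    omega
  obtain ⟨c, hc, hc0⟩ := Submodule.exists_mem_ne_zero_of_ne_bot h9
  obtain ⟨⟨b, hb, rfl⟩, hc2⟩ := hc
  refine ⟨j, b, hb, ?_, hc2⟩
  rintro rfl
  exact hc0 (map_zero _)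

end

end R169.C0
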