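import Crest.Agent.R169.C0Basic

/-!
# Row 169, C0, piece C0_TF: `gr_I M` is torsion free over `P`.

`IBas.tf`: `w = theta m j v + I^(j+1)M` (`surj`), `tq i a • theta m j v = theta m (i+j) (a v)` (`tq_mul`;
`A_j ≤ B_j`: `A_le_B`), `tq i a • I^(j+1)M ≤ I^(j+1+i)M` (`IM_tq`), so `theta m (i+j) (a v) ∈ I^(j+i+1)M`,
so `a v = 0` (`inj`, `A_mul_mem`), `v = 0`, `w ∈ I^(j+1)M`.
`IBas.tf'`: for `n ≤ 0` trivial (`IM_nonpos`); else induction on `j : ℕ`: `j ≤ n → w ∈ I^j M`
(`tq i a • w ∈ I^(n+i) M ≤ I^(j+i+1) M` for `j < n`).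
-/

set_option autoImplicit false

namespace R169.C0

open Polynomial

section
variable {k L : Type} [Field k] [Field L] [Algebra k L] {D : GD k L} {η ζ : L} {hP : Par D η ζ}
variable {M : Type} [AddCommGroup M] [Module (T D) M] [Module k M] [IsScalarTower k (T D) M]

private theorem tq_theta {N : ℕ} {m : Fin N → M} {i j : ℕ} {a : L} {v : Fin N → L}
    (ha : a ∈ D.B i) (hv : ∀ l, v l ∈ D.B j) :
    tq D i a • theta D m j v = theta D m (i + j) (fun l => a * v l) := by
  unfold theta
  rw [Finset.smul_sum]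
  refine Finset.sum_congr rfl fun l _ => ?_
  rw [smul_smul, tq_mul ha (hv l)]

theorem IBas.tf {N : ℕ} {m : Fin N → M} (hm : IBas D hP m) {i : ℕ} {a : L} (ha : a ∈ A k η ζ i)
    (h0 : a ≠ 0) (j : ℕ) (w : M) (hw : w ∈ IM D hP M j) (h : tq D i a • w ∈ IM D hP M (j + i + 1)) :
    w ∈ IM D hP M (j + 1) := by
  obtain ⟨v, hv, hw'⟩ := hm.surj j w hw
  have h1 := IM_tq (hP := hP) ha hw'
  have h2 : tq D i a • theta D m j v ∈ IM D hP M (j + i + 1) := by
    have h3 : tq D i a • theta D m j v =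
        tq D i a • w - tq D i a • (w - theta D m j v) := by
      rw [smul_sub, sub_sub_cancel]
    rw [h3]
    refine Submodule.sub_mem _ h ?_
    have h4 : (j : ℤ) + 1 + i = j + i + 1 := by ring
    rw [← h4]
    exact h1
  rw [tq_theta (A_le_B hP _ ha) (fun l => A_le_B hP _ (hv l))] at h2
  have h5 := hm.inj (i + j) (fun l => a * v l) (fun l => by
    push_cast
    exact A_mul_mem ha (hv l)) (by
      have h6 : (((i + j : ℕ) : ℤ) + 1) = (j : ℤ) + i + 1 := by push_cast; ring
      rw [h6]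
      exact h2)
  have h7 : v = 0 := by
    funext l
    have := congrFun h5 l
    exact (mul_eq_zero.1 this).resolve_left h0
  rw [h7] at hw'
  have h8 : theta D m j (0 : Fin N → L) = 0 := by
    unfold theta
    refine Finset.sum_eq_zero fun l _ => ?_
    rw [Pi.zero_apply, tq_zero, zero_smul]
  rwa [h8, sub_zero] at hw'

theorem IBas.tf' {N : ℕ} {m : Fin N → M} (hm : IBas D hP m) {i : ℕ} {a : L} (ha : a ∈ A k η ζ i)
    (h0 : a ≠ 0) (n : ℤ) (w : M) (h : tq D i a • w ∈ IM D hP M (n + i)) : w ∈ IM D hP M n := by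
  rcases le_or_gt n 0 with hn | hn
  · rw [IM_nonpos hn]
    trivial
  · have key : ∀ j : ℕ, (j : ℤ) ≤ n → w ∈ IM D hP M j := by
      intro j
      induction j with
      | zero =>
        intro _
        rw [IM_nonpos (by simp)]
        trivial
      | succ j ih =>
        intro hj
        have hj' : (j : ℤ) + 1 ≤ n := by exact_mod_cast hj
        have h1 := hm.tf ha h0 j w (ih (by omega)) (IM_anti (by omega) h)
        exact_mod_cast h1
    have h1 := key n.toNat (by omega)
    rwa [Int.toNat_of_nonneg hn.le] at h1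

end

end R169.C0
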