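import Crest.Agent.R169.C0Filt
import Crest.Agent.R169.C0Tf
import Crest.Agent.R169.C0MulA

/-!
# Row 169, C0, piece C0_SAT: a filtration with torsion free `gr`.

`F' n = {w | ∃ i, ∃ a ∈ A_i, a ≠ 0 ∧ tq i a • w ∈ F (n + i)}`: a `T`-submodule (an additive subgroup:
for two elements multiply the certificates, `tq_mul`, `A_mul_mem`; stable under `tq j b`: commute,
`F.smul`, `anti`; then `smul_mem_of_tq`).  `F n ≤ F' n` (`i = 0`, `a = 1`); `F' n ≤ I^(n-c) M` by
`IBas.tf'` (with `n - c` for `n`).  `anti`, `smul` clear.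
`tf`: if `tq i a • w ∈ F' (n+i+1)` (`a ∈ B_i`) then `tq j b • tq i a • w ∈ F (n+i+1+j)` with `0 ≠ b ∈ A_j`,
and by `exists_mul_mem_A` some `0 ≠ b' ∈ B_l` with `a b' ∈ A_(i+l)`, so `(b a b') w ∈ F (n+1+(j+i+l))`.
-/

set_option autoImplicit false

namespace R169.C0

open Polynomial

section
variable {k L : Type} [Field k] [Field L] [Algebra k L] {D : GD k L} {η ζ : L} {hP : Par D η ζ}
variable {M : Type} [AddCommGroup M] [Module (T D) M] [Module k M] [IsScalarTower k (T D) M]

private theorem anti_add {F : ℤ → Submodule (T D) M} (h : ∀ n, F (n + 1) ≤ F n) (n : ℤ) (i : ℕ) :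
    F (n + i) ≤ F n := by
  induction i with
  | zero => simp
  | succ i ih =>
    have := h (n + i)
    refine le_trans ?_ ih
    have e : n + ((i + 1 : ℕ) : ℤ) = n + i + 1 := by push_cast; ring
    rw [e]; exact this

private def satG (hP : Par D η ζ) (F : ℤ → Submodule (T D) M) (hF : Filt D hP F) (n : ℤ) :
    AddSubgroup M where
  carrier := {w | ∃ i : ℕ, ∃ a ∈ A k η ζ (i : ℤ), a ≠ 0 ∧ tq D i a • w ∈ F (n + i)}
  add_mem' := by
    rintro w1 w2 ⟨i, a, ha, ha0, h1⟩ ⟨j, b, hb, hb0, h2⟩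
    refine ⟨i + j, a * b, ?_, mul_ne_zero ha0 hb0, ?_⟩
    · push_cast; exact A_mul_mem ha hb
    · rw [← tq_mul (A_le_B hP _ ha) (A_le_B hP _ hb), smul_add]
      refine Submodule.add_mem _ ?_ ?_
      · rw [mul_comm, mul_smul]
        have := hF.smul j b (A_le_B hP _ hb) _ _ h1
        have e : n + ((i + j : ℕ) : ℤ) = n + i + j := by push_cast; ring
        rw [e]; exact this
      · rw [mul_smul]
        have := hF.smul i a (A_le_B hP _ ha) _ _ h2
        have e : n + ((i + j : ℕ) : ℤ) = n + j + i := by push_cast; ring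
        rw [e]; exact this
  zero_mem' := by
    refine ⟨0, 1, Submodule.subset_span ⟨0, 0, by simp, by simp⟩, one_ne_zero, ?_⟩
    rw [smul_zero]; exact Submodule.zero_mem _
  neg_mem' := by
    rintro w ⟨i, a, ha, ha0, h1⟩
    exact ⟨i, a, ha, ha0, by rw [smul_neg]; exact Submodule.neg_mem _ h1⟩

private theorem satG_smul (hP : Par D η ζ) (F : ℤ → Submodule (T D) M) (hF : Filt D hP F) (n : ℤ)
    (j : ℕ) (b : L) (hb : b ∈ D.B j) (w : M) (hw : w ∈ satG hP F hF n) :
    tq D j b • w ∈ satG hP F hF (n + j) := by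
  obtain ⟨i, a, ha, ha0, h1⟩ := hw
  refine ⟨i, a, ha, ha0, ?_⟩
  rw [← mul_smul, mul_comm, mul_smul]
  have := hF.smul j b hb _ _ h1
  have e : n + (j : ℤ) + i = n + i + j := by ring
  rw [e]; exact this

private theorem satG_anti (hP : Par D η ζ) (F : ℤ → Submodule (T D) M) (hF : Filt D hP F) (n : ℤ)
    (i : ℕ) (w : M) (hw : w ∈ satG hP F hF (n + i)) : w ∈ satG hP F hF n := by
  obtain ⟨j, a, ha, ha0, h1⟩ := hw
  refine ⟨j, a, ha, ha0, anti_add hF.anti (n + j) i ?_⟩
  have e : n + (j : ℤ) + i = n + i + j := by ring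
  rw [e]; exact h1

private def satF (hP : Par D η ζ) (F : ℤ → Submodule (T D) M) (hF : Filt D hP F) (n : ℤ) :
    Submodule (T D) M where
  carrier := satG hP F hF n
  add_mem' := fun h1 h2 => (satG hP F hF n).add_mem h1 h2
  zero_mem' := (satG hP F hF n).zero_mem
  smul_mem' := by
    intro f w hw
    exact smul_mem_of_tq (satG hP F hF n) (fun i a ha w hw =>
      satG_anti hP F hF n i _ (satG_smul hP F hF n i a ha w hw)) f w hw

private theorem mem_satF {hP : Par D η ζ} {F : ℤ → Submodule (T D) M} {hF : Filt D hP F} {n : ℤ} {w : M} :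
    w ∈ satF hP F hF n ↔ ∃ i : ℕ, ∃ a ∈ A k η ζ (i : ℤ), a ≠ 0 ∧ tq D i a • w ∈ F (n + i) := Iff.rfl

theorem exists_filtT {N : ℕ} {m : Fin N → M} (hm : IBas D hP m) {F : ℤ → Submodule (T D) M}
    (hF : Filt D hP F) : ∃ F' : ℤ → Submodule (T D) M, FiltT D hP F' := by
  refine ⟨satF hP F hF, ⟨⟨?_, ?_, ?_⟩, ?_⟩⟩
  · intro n w hw
    exact satG_anti hP F hF n 1 w (by push_cast; exact hw)
  · intro i a ha n w hw
    exact satG_smul hP F hF n i a ha w hw
  · obtain ⟨c, hc⟩ := hF.comm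
    refine ⟨c, fun n => ⟨?_, ?_⟩⟩
    · intro w hw
      rw [mem_satF]
      refine ⟨0, 1, Submodule.subset_span ⟨0, 0, by simp, by simp⟩, one_ne_zero, ?_⟩
      exact Submodule.smul_mem _ _ (by
        have := (hc n).1 hw
        simpa using this)
    · intro w hw
      rw [mem_satF] at hw
      obtain ⟨i, a, ha, ha0, h1⟩ := hw
      refine hm.tf' ha ha0 (n - c) w ?_
      have := (hc (n + i)).2 h1
      have e : n - (c : ℤ) + i = n + i - c := by ring
      rw [e]; exact this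
  · intro i a ha ha0 n w _ hw
    rw [mem_satF] at hw ⊢
    obtain ⟨j, b, hb, hb0, h1⟩ := hw
    obtain ⟨l, b', hb', hb'0, h2⟩ := exists_mul_mem_A hP ha ha0
    refine ⟨j + (i + l), b * (a * b'), ?_, mul_ne_zero hb0 (mul_ne_zero ha0 hb'0), ?_⟩
    · have := A_mul_mem hb h2
      have e : ((j + (i + l) : ℕ) : ℤ) = (j : ℤ) + ((i + l : ℕ) : ℤ) := by push_cast; ring
      rw [e]; exact this
    · rw [← tq_mul (A_le_B hP _ hb) (A_le_B hP _ h2), ← tq_mul ha hb']
      have e1 : tq D j b * (tq D i a * tq D l b') = tq D l b' * (tq D j b * tq D i a) := by ring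
      rw [e1, mul_smul, mul_smul]
      have := hF.smul l b' hb' _ _ h1
      have e : n + 1 + ((j + (i + l) : ℕ) : ℤ) = n + i + 1 + j + l := by push_cast; ring
      rw [e]; exact this

end

end R169.C0
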