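import Crest.Agent.R169.C0Ibas
import Crest.Agent.R169.C0Sat
import Crest.Agent.R169.C0Max
import Crest.Agent.R169.C0DehomOf
import Crest.Agent.R169.C0Lat
import Crest.Agent.R169.C0ModifRd
import Crest.Agent.R169.C0C1

/-!
# Row 169, module 1 (C0): the final theorem `no_qreg'` (C5 + C6), helper57.
-/

set_option autoImplicit false

namespace R169.C0

open Polynomial

section
variable {k L : Type} [Field k] [Field L] [Algebra k L] {D : GD k L} {η ζ : L} {hP : Par D η ζ}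
variable {M : Type} [AddCommGroup M] [Module (T D) M] [Module k M] [IsScalarTower k (T D) M]

theorem FHP.unique {F : ℤ → Submodule (T D) M} {N β γ N' β' γ' : ℚ} (h : FHP D F N β γ)
    (h' : FHP D F N' β' γ') : N = N' ∧ β = β' ∧ γ = γ' := by
  obtain ⟨n0, h⟩ := h
  obtain ⟨n1, h'⟩ := h'
  have key : ∀ n : ℤ, max n0 n1 ≤ n →
      N / 2 * (n : ℚ) ^ 2 - β * n + γ = N' / 2 * (n : ℚ) ^ 2 - β' * n + γ' := fun n hn => by
    rw [← h n (le_trans (le_max_left _ _) hn), ← h' n (le_trans (le_max_right _ _) hn)]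
  set n := max n0 n1 with hn
  have e0 := key n le_rfl
  have e1 := key (n + 1) (by omega)
  have e2 := key (n + 2) (by omega)
  push_cast at e1 e2
  have hN : N = N' := by linarith
  subst hN
  have hβ : β = β' := by linarith
  subst hβ
  exact ⟨rfl, rfl, by linarith⟩

theorem sat_top {W : Type} [AddCommGroup W] [Module k W] [Module L W] [IsScalarTower k L W]
    (E : ℤ → Submodule k W) : sat E (⊤ : Submodule L W) = E := by
  funext n
  unfold sat
  simp

theorem hasHP_sat_bot {W : Type} [AddCommGroup W] [Module k W] [Module L W] [IsScalarTower k L W]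
    (E : ℤ → Submodule k W) : HasHP (sat E (⊥ : Submodule L W)) 0 0 0 := by
  refine ⟨0, fun n _ => ?_⟩
  have : sat E (⊥ : Submodule L W) n = ⊥ := by
    unfold sat
    simp
  rw [this]
  simp

/-- a minimal filtration -/
theorem exists_min_filt {N : ℕ} (hN : 0 < N) {m : Fin N → M} (hm : IBas D hP m) :
    ∃ (F : ℤ → Submodule (T D) M) (β γ : ℚ), FiltT D hP F ∧ FHP D F N β γ ∧
      - (N : ℚ) / 8 ≤ γ - β ^ 2 / (2 * N) ∧
      ∀ (F' : ℤ → Submodule (T D) M) (β' γ' : ℚ), FiltT D hP F' → FHP D F' N β' γ' →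
        γ - β ^ 2 / (2 * N) ≤ γ' - β' ^ 2 / (2 * N) := by
  have hN' : (0 : ℚ) < N := by exact_mod_cast hN
  obtain ⟨F0, hF0⟩ := exists_filt M hP
  obtain ⟨F1, hF1⟩ := exists_filtT hm hF0
  let S : Set ℚ := {c | ∃ (F : ℤ → Submodule (T D) M) (β γ : ℚ), FiltT D hP F ∧ FHP D F N β γ ∧
    c = γ - β ^ 2 / (2 * N)}
  have hall : ∀ F : ℤ → Submodule (T D) M, FiltT D hP F → ∀ β γ : ℚ, FHP D F N β γ →
      (∃ z : ℤ, (N : ℚ) / 2 - β = z) ∧ (∃ z : ℤ, γ = z) ∧ - (N : ℚ) / 8 ≤ γ - β ^ 2 / (2 * N) := by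
    intro F hF β γ h
    obtain ⟨β', γ', h1, h2, h3, h4⟩ := lemmaL hN hm hF.toFilt
    obtain ⟨_, rfl, rfl⟩ := h.unique h1
    exact ⟨h2, h3, h4⟩
  obtain ⟨c0, ⟨F, β, γ, hF, hH, rfl⟩, hmin⟩ := exists_min_disc S
    (by
      obtain ⟨β, γ, h1, _⟩ := lemmaL hN hm hF1.toFilt
      exact ⟨_, F1, β, γ, hF1, h1, rfl⟩)
    (1 / (8 * N : ℚ)) (by positivity)
    (by
      rintro c ⟨F, β, γ, hF, hH, rfl⟩
      obtain ⟨⟨z, hz⟩, h3, _⟩ := hall F hF β γ hH
      refine c_disc N hN β γ ⟨N - 2 * z, ?_⟩ h3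
      push_cast
      linarith)
    (- (N : ℚ) / 8)
    (by
      rintro c ⟨F, β, γ, hF, hH, rfl⟩
      exact (hall F hF β γ hH).2.2)
  refine ⟨F, β, γ, hF, hH, (hall F hF β γ hH).2.2, fun F' β' γ' hF' hH' => ?_⟩
  exact hmin _ ⟨F', β', γ', hF', hH', rfl⟩

end

theorem no_qreg' {k L : Type} [Field k] [Field L] [Algebra k L]
    (D : GD k L) {η ζ : L} (hP : Par D η ζ) (hBR : BR D η ζ) {dB βB γB : ℚ}
    (hB : HasHP D.B dB βB γB) (hc : γB - βB ^ 2 / (2 * dB) < - dB / 4)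
    (M : Type) [AddCommGroup M] [Module (T D) M] [Module k M] [IsScalarTower k (T D) M]
    (hq : QReg (xyz D hP) M)
    (hfin : FiniteDimensional k (M ⧸ (Ixyz D hP • (⊤ : Submodule (T D) M)).restrictScalars k))
    (hne : Ixyz D hP • (⊤ : Submodule (T D) M) ≠ ⊤) : False := by
  obtain ⟨N, hN, m, hm⟩ := exists_ibas hq hfin hne
  have hN' : (0 : ℚ) < N := by exact_mod_cast hN
  obtain ⟨F, β, γ, hF, hH, hlow, hmin⟩ := exists_min_filt hN hm
  obtain ⟨r, n0, e, he, hex⟩ := exists_max hN hm hF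
  obtain ⟨δ, hspan⟩ := dehom_of_rel hF he hex
  have hE : IsLat D η ζ δ.E := δ.isLat hm hF
  have hHE : HasHP δ.E N β γ := δ.hasHP hH
  obtain ⟨hd, hNr⟩ := hE.rank hP hB hHE
  rw [hspan, finrank_top] at hNr
  have hr : (0 : ℚ) < Module.finrank L (Fin r → L) := by
    by_contra h
    have : (Module.finrank L (Fin r → L) : ℚ) = 0 :=
      le_antisymm (not_lt.1 h) (by positivity)
    rw [this, mul_zero] at hNr
    linarith
  -- the gap inequality
  have hgap : ∀ V : Submodule L (Fin r → L), V ≠ ⊥ → V ≠ ⊤ → ∀ N1 β1 γ1 N2 β2 γ2 : ℚ,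
      HasHP (sat δ.E V) N1 β1 γ1 → HasHP (quo δ.E V) N2 β2 γ2 →
      (β / N - 1 / 2 ≤ β1 / N1 ∧ β2 / N2 ≤ β / N + 1 / 2) ∧ 0 < N1 ∧ 0 < N2 := by
    intro V hV0 hV1 N1 β1 γ1 N2 β2 γ2 h1 h2
    obtain ⟨hNs, hβs, hγs⟩ := HasHP.sub_quo hE.fin hHE h1 h2
    have hsat := hE.sat hP V
    have hquo := hE.quo V
    obtain ⟨_, hN1⟩ := hsat.rank hP hB h1
    obtain ⟨_, hN2⟩ := hquo.rank hP hB h2
    rw [lspan_sat hE hspan] at hN1
    rw [lspan_quo hspan, finrank_top] at hN2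
    have hp1 : 0 < N1 := by
      rw [hN1]
      have : 0 < Module.finrank L V := Module.finrank_pos_iff.2 (Submodule.nontrivial_iff_ne_bot.2 hV0)
      positivity
    have hp2 : 0 < N2 := by
      rw [hN2]
      have : Nontrivial ((Fin r → L) ⧸ V) := Submodule.Quotient.nontrivial_iff.2 hV1
      have : 0 < Module.finrank L ((Fin r → L) ⧸ V) := Module.finrank_pos
      positivity
    have hmod := modif_FHP hF (fun n => hF.toFilt.rfin hm n) δ V h1 h2
    rw [← hNs, ← hβs, ← hγs] at hmod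
    have hle := hmin _ _ _ (modif_filtT hF δ V) hmod
    have hg := modif_gap N1 β1 γ1 N2 β2 γ2 hp1 hp2 (by
      rw [← hNs, ← hβs, ← hγs]
      exact hle)
    have ha := avg_lemma N1 β1 N2 β2 hp1 hp2 hg
    rw [← hNs, ← hβs] at ha
    exact ⟨ha, hp1, hp2⟩
  have h1 := C1 D hP hBR hB hE hspan (β / N)
    (by
      intro V hV N1 β1 γ1 h1
      by_cases hVt : V = ⊤
      · subst hVt
        rw [sat_top] at h1
        obtain ⟨rfl, rfl, rfl⟩ := HasHP.unique h1 hHE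
        have : β1 / N * N = β1 := by field_simp
        nlinarith
      · obtain ⟨N2, β2, γ2, h2, _⟩ := ((hE.quo V).toPLat hP).hasHP
        obtain ⟨⟨h3, _⟩, hp1, _⟩ := hgap V hV hVt _ _ _ _ _ _ h1 h2
        rw [le_div_iff₀ hp1] at h3
        exact h3)
    (by
      intro V hV N2 β2 γ2 h2
      by_cases hVb : V = ⊥
      · subst hVb
        obtain ⟨hNs, hβs, _⟩ := HasHP.sub_quo hE.fin hHE (hasHP_sat_bot δ.E) h2
        have e1 : N2 = N := by linarith
        have e2 : β2 = β := by linarith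
        subst e1 e2
        have : β2 / N * N = β2 := by field_simp
        nlinarith
      · obtain ⟨N1, β1, γ1, h1, _⟩ := ((hE.sat hP V).toPLat hP).hasHP
        obtain ⟨⟨_, h3⟩, _, hp2⟩ := hgap V hVb hV _ _ _ _ _ _ h1 h2
        rw [div_le_iff₀ hp2] at h3
        exact h3) hHE
  have e1 : (N : ℚ) / 2 * (β / N) ^ 2 - β * (β / N) + γ = γ - β ^ 2 / (2 * N) := by
    field_simp
    ring
  rw [e1] at h1
  have h2 := c0_final dB N (Module.finrank L (Fin r → L)) (γB - βB ^ 2 / (2 * dB)) hd hr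
    (by rw [hNr]; ring) (hlow.trans h1)
  linarith

end R169.C0
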