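import Crest.Agent.R169.C0Basic

/-!
# Row 169, C0, piece C0_MODIF: the modification `F'^n = {w ∈ F^n : π_n w ∈ V}`.

`mem_modif`: the set is an additive subgroup stable under all `tq i a` (`i = 0`: scalars `tq_k`; `i > 0`:
`tq i a • w ∈ F (n+i) ≤ F (n+1)`, `π n` kills it), so it is a `T`-submodule (`smul_mem_of_tq`), so
equal to the span.
`modif_filtT`: `F^(n+1) ≤ F'^n ≤ F^n`; `comm` with `c + 1`; `smul`: `π (n+i) (tq i a • w) = a • π n w`;
`tf`: `w ∈ F'^n`, `tq i a • w ∈ F'^(n+i+1) ≤ F^(n+i+1)` gives `w ∈ F^(n+1)` (`tf`), and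
`a • π (n+1) w = π (n+1+i) (tq i a • w) ∈ V`, `a ≠ 0`, so `π (n+1) w ∈ V`.
-/

set_option autoImplicit false

namespace R169.C0

open Polynomial

section
variable {k L : Type} [Field k] [Field L] [Algebra k L] {D : GD k L} {η ζ : L} {hP : Par D η ζ}
variable {M : Type} [AddCommGroup M] [Module (T D) M] [Module k M] [IsScalarTower k (T D) M]
variable {F : ℤ → Submodule (T D) M} {r : ℕ}

/-- elements of `F (n + 1)` are killed -/
private theorem c0m_of_succ (hF : FiltT D hP F) (δ : Dehom D F r) (V : Submodule L (Fin r → L))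
    {n : ℤ} {w : M} (hw : w ∈ F (n + 1)) : ∃ h : w ∈ F n, δ.π n ⟨w, h⟩ ∈ V := by
  refine ⟨hF.anti n hw, ?_⟩
  have h : δ.π n ⟨w, hF.anti n hw⟩ = 0 := (δ.ker n _).2 hw
  rw [h]
  exact Submodule.zero_mem _

private theorem c0m_le (hF : FiltT D hP F) {n : ℤ} (i : ℕ) : F (n + i) ≤ F n := by
  induction i with
  | zero => simp
  | succ i ih =>
    refine le_trans ?_ ih
    have := hF.anti (n + i)
    push_cast
    rwa [← add_assoc]

theorem mem_modif (hF : FiltT D hP F) (δ : Dehom D F r) (V : Submodule L (Fin r → L)) (n : ℤ) (w : M) :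
    w ∈ modif δ V n ↔ ∃ h : w ∈ F n, δ.π n ⟨w, h⟩ ∈ V := by
  constructor
  · intro hw
    let S : AddSubgroup M :=
      { carrier := {w | ∃ h : w ∈ F n, δ.π n ⟨w, h⟩ ∈ V}
        zero_mem' := by
          refine ⟨Submodule.zero_mem _, ?_⟩
          have : (⟨0, Submodule.zero_mem _⟩ : F n) = 0 := rfl
          rw [this, map_zero]
          exact Submodule.zero_mem _
        add_mem' := by
          rintro a b ⟨ha, ha'⟩ ⟨hb, hb'⟩
          refine ⟨Submodule.add_mem _ ha hb, ?_⟩
          have : (⟨a + b, Submodule.add_mem _ ha hb⟩ : F n) = ⟨a, ha⟩ + ⟨b, hb⟩ := rfl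
          rw [this, map_add]
          exact Submodule.add_mem _ ha' hb'
        neg_mem' := by
          rintro a ⟨ha, ha'⟩
          refine ⟨Submodule.neg_mem _ ha, ?_⟩
          have : (⟨-a, Submodule.neg_mem _ ha⟩ : F n) = (-1 : k) • ⟨a, ha⟩ := by
            apply Subtype.ext
            change -a = (-1 : k) • a
            rw [neg_one_smul]
          rw [this, map_smul, neg_one_smul]
          exact Submodule.neg_mem _ ha' }
    have hS : ∀ (i : ℕ) (a : L), a ∈ D.B i → ∀ w ∈ S, tq D i a • w ∈ S := by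
      intro i a ha w hw
      obtain ⟨h, h'⟩ : ∃ h : w ∈ F n, δ.π n ⟨w, h⟩ ∈ V := hw
      rcases Nat.eq_zero_or_pos i with h0 | h0
      · subst h0
        obtain ⟨c, _, hc⟩ := tq_k (M := M) (by simpa using ha)
        rw [hc w]
        refine ⟨Submodule.smul_of_tower_mem _ c h, ?_⟩
        have : (⟨c • w, Submodule.smul_of_tower_mem _ c h⟩ : F n) = c • ⟨w, h⟩ := rfl
        rw [this, map_smul]
        exact Submodule.smul_of_tower_mem _ c h'
      · refine c0m_of_succ hF δ V ?_
        obtain ⟨j, rfl⟩ : ∃ j, i = j + 1 := ⟨i - 1, by omega⟩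
        have h1 := hF.smul (j + 1) a ha n w h
        have e : n + ((j + 1 : ℕ) : ℤ) = n + 1 + j := by push_cast; ring
        rw [e] at h1
        exact c0m_le hF j h1
    have hmem : w ∈ S := by
      unfold modif at hw
      induction hw using Submodule.span_induction with
      | mem x hx => exact hx
      | zero => exact S.zero_mem
      | add x y _ _ hx hy => exact S.add_mem hx hy
      | smul f x _ hx => exact smul_mem_of_tq S hS f x hx
    exact hmem
  · intro h
    exact Submodule.subset_span h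

theorem modif_filtT (hF : FiltT D hP F) (δ : Dehom D F r) (V : Submodule L (Fin r → L)) :
    FiltT D hP (modif δ V) := by
  have hup : ∀ n, F (n + 1) ≤ modif δ V n := fun n w hw =>
    (mem_modif hF δ V n w).2 (c0m_of_succ hF δ V hw)
  have hdown : ∀ n, modif δ V n ≤ F n := fun n w hw => ((mem_modif hF δ V n w).1 hw).1
  refine { anti := fun n => (hdown (n + 1)).trans (hup n), smul := ?_, comm := ?_, tf := ?_ }
  · intro i a ha n w hw
    obtain ⟨h, h'⟩ := (mem_modif hF δ V n w).1 hw
    refine (mem_modif hF δ V _ _).2 ⟨hF.smul i a ha n w h, ?_⟩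
    rw [δ.smul n i a ha ⟨w, h⟩ ⟨tq D i a • w, hF.smul i a ha n w h⟩ rfl]
    exact Submodule.smul_mem _ _ h'
  · obtain ⟨c, hc⟩ := hF.comm
    refine ⟨c + 1, fun n => ⟨?_, ?_⟩⟩
    · have e : n + ((c + 1 : ℕ) : ℤ) = n + 1 + c := by push_cast; ring
      rw [e]
      exact (hc (n + 1)).1.trans (hup n)
    · refine ((hdown n).trans (hc n).2).trans (IM_anti ?_)
      push_cast
      linarith
  · intro i a ha ha0 n w hw haw
    have e : n + i + 1 = n + 1 + i := by ring
    have h1 : w ∈ F (n + 1) := hF.tf i a ha ha0 n w (hdown n hw) (hdown _ haw)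
    rw [e] at haw
    obtain ⟨h, h'⟩ := (mem_modif hF δ V _ _).1 haw
    refine (mem_modif hF δ V _ _).2 ⟨h1, ?_⟩
    rw [δ.smul (n + 1) i a ha ⟨w, h1⟩ ⟨tq D i a • w, h⟩ rfl] at h'
    exact (Submodule.smul_mem_iff _ ha0).1 h'

end

end R169.C0
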