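import Crest.Agent.R169.C0Dehom

/-!
# Row 169, C0, piece C0_REL: `Rel` is an `L`-linear functional relation.

All by multiplying the two relations with homogeneous elements (`tq_mul`, `Filt.smul`), and `FiltT.tf`,
`Ind`.  E.g. `Rel.add`: from `(j,j',b)` for `(w,v)` and `(i,i',c)` for `(w',v')` take
`(j+i, j'+i, b c)`: note `n + (j+i) = n0 + (j'+i) = n0 + (i'+j)`, `b c v = c (b v) ∈ B_(i+j')`,
`b c v' = b (c v') ∈ B_(j+i')`.
`Rel.zero_left`: `w ∈ F (n+1)`: `∑ tq j' (b v i) • e i ∈ F (n+j+1)`, so `b v = 0` by `Ind`.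
`Rel.zero_right`: `tq j b • w ∈ F (n+j+1)`, `tf`.
-/

set_option autoImplicit false

namespace R169.C0

open Polynomial

section
variable {k L : Type} [Field k] [Field L] [Algebra k L] {D : GD k L} {η ζ : L} {hP : Par D η ζ}
variable {M : Type} [AddCommGroup M] [Module (T D) M] [Module k M] [IsScalarTower k (T D) M]
variable {F : ℤ → Submodule (T D) M} {n0 : ℤ} {r : ℕ} {e : Fin r → M}

omit [Module k M] [IsScalarTower k (T D) M] in
private theorem anti' (hF : FiltT D hP F) : Antitone F := antitone_int_of_succ_le hF.anti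

omit [Module k M] [IsScalarTower k (T D) M] in
/-- multiplying a relation with a homogeneous element -/
private theorem rel_mult (hF : FiltT D hP F) {n : ℤ} {w : M} {v : Fin r → L} {j j' : ℕ} {b : L}
    (hb : b ∈ D.B j) (hbv : ∀ l, b * v l ∈ D.B j')
    (h : tq D j b • w - ∑ l, tq D j' (b * v l) • e l ∈ F (n + j + 1)) {i : ℕ} {c : L}
    (hc : c ∈ D.B i) :
    (∀ l, b * c * v l ∈ D.B ((j' + i : ℕ) : ℤ)) ∧
    tq D (j + i) (b * c) • w - ∑ l, tq D (j' + i) (b * c * v l) • e l ∈
      F (n + ((j + i : ℕ) : ℤ) + 1) := by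
  have e1 : ∀ l, b * c * v l = b * v l * c := fun l => by ring
  refine ⟨fun l => ?_, ?_⟩
  · rw [e1 l]
    push_cast
    exact D.mul_mem (hbv l) hc
  · have h1 := hF.smul i c hc _ _ h
    have h2 : tq D (j + i) (b * c) • w - ∑ l, tq D (j' + i) (b * c * v l) • e l =
        tq D i c • (tq D j b • w - ∑ l, tq D j' (b * v l) • e l) := by
      rw [smul_sub, Finset.smul_sum, ← mul_smul, mul_comm (tq D i c), tq_mul hb hc]
      congr 1
      refine Finset.sum_congr rfl fun l _ => ?_
      rw [← mul_smul, mul_comm (tq D i c), tq_mul (hbv l) hc, e1 l]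
    rw [h2]
    have h3 : n + ((j + i : ℕ) : ℤ) + 1 = n + j + 1 + i := by push_cast; ring
    rw [h3]
    exact h1

theorem Rel.add (hF : FiltT D hP F) (he : Ind D F n0 e) {n : ℤ} {w w' : M} {v v' : Fin r → L}
    (h : Rel D F n0 e n w v) (h' : Rel D F n0 e n w' v') : Rel D F n0 e n (w + w') (v + v') := by
  obtain ⟨j, j', b, hj, hb, hb0, hbv, hw⟩ := h
  obtain ⟨i, i', c, hi, hc, hc0, hcv, hw'⟩ := h'
  obtain ⟨h1, h2⟩ := rel_mult hF hb hbv hw hc
  obtain ⟨h3, h4⟩ := rel_mult hF hc hcv hw' hb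
  have e1 : i' + j = j' + i := by omega
  rw [mul_comm c b] at h3 h4
  rw [e1] at h3 h4
  rw [add_comm i j] at h4
  refine ⟨j + i, j' + i, b * c, by push_cast; omega, by push_cast; exact D.mul_mem hb hc,
    mul_ne_zero hb0 hc0, fun l => ?_, ?_⟩
  · rw [Pi.add_apply, mul_add]
    exact Submodule.add_mem _ (h1 l) (h3 l)
  · have e2 : tq D (j + i) (b * c) • (w + w') - ∑ l, tq D (j' + i) (b * c * (v + v') l) • e l =
        (tq D (j + i) (b * c) • w - ∑ l, tq D (j' + i) (b * c * v l) • e l) +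
        (tq D (j + i) (b * c) • w' - ∑ l, tq D (j' + i) (b * c * v' l) • e l) := by
      have e3 : ∑ l, tq D (j' + i) (b * c * (v + v') l) • e l =
          ∑ l, tq D (j' + i) (b * c * v l) • e l + ∑ l, tq D (j' + i) (b * c * v' l) • e l := by
        rw [← Finset.sum_add_distrib]
        refine Finset.sum_congr rfl fun l _ => ?_
        rw [Pi.add_apply, mul_add, tq_add (h1 l) (h3 l), add_smul]
      rw [e3, smul_add]
      abel
    rw [e2]
    exact Submodule.add_mem _ h2 h4

theorem Rel.smul (hF : FiltT D hP F) (he : Ind D F n0 e) {n : ℤ} {w : M} {v : Fin r → L}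
    (h : Rel D F n0 e n w v) {i : ℕ} {a : L} (ha : a ∈ D.B i) :
    Rel D F n0 e (n + i) (tq D i a • w) (a • v) := by
  obtain ⟨j, j', b, hj, hb, hb0, hbv, hw⟩ := h
  have e1 : ∀ l, b * (a • v) l = b * v l * a := fun l => by
    rw [Pi.smul_apply, smul_eq_mul]; ring
  refine ⟨j, j' + i, b, by push_cast; omega, hb, hb0, fun l => ?_, ?_⟩
  · rw [e1 l]
    push_cast
    exact D.mul_mem (hbv l) ha
  · have h1 := hF.smul i a ha _ _ hw
    have h2 : tq D j b • tq D i a • w - ∑ l, tq D (j' + i) (b * (a • v) l) • e l =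
        tq D i a • (tq D j b • w - ∑ l, tq D j' (b * v l) • e l) := by
      rw [smul_sub, Finset.smul_sum, smul_comm (tq D j b)]
      congr 1
      refine Finset.sum_congr rfl fun l _ => ?_
      rw [← mul_smul, mul_comm (tq D i a), tq_mul (hbv l) ha, e1 l]
    rw [h2]
    have h3 : n + i + j + 1 = n + j + 1 + i := by ring
    rw [h3]
    exact h1

theorem Rel.smulk (hF : FiltT D hP F) {n : ℤ} {w : M} {v : Fin r → L}
    (h : Rel D F n0 e n w v) (c : k) : Rel D F n0 e n (c • w) (c • v) := by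
  obtain ⟨j, j', b, hj, hb, hb0, hbv, hw⟩ := h
  have e1 : ∀ l, b * (c • v) l = c • (b * v l) := fun l => by
    rw [Pi.smul_apply, mul_smul_comm]
  refine ⟨j, j', b, hj, hb, hb0, fun l => ?_, ?_⟩
  · rw [e1 l]
    exact Submodule.smul_mem _ c (hbv l)
  · have h2 : tq D j b • c • w - ∑ l, tq D j' (b * (c • v) l) • e l =
        c • (tq D j b • w - ∑ l, tq D j' (b * v l) • e l) := by
      rw [smul_sub, Finset.smul_sum, smul_algebra_smul_comm]
      congr 1
      refine Finset.sum_congr rfl fun l _ => ?_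
      rw [e1 l, tq_smul c (hbv l), smul_assoc]
    rw [h2]
    exact Submodule.smul_of_tower_mem _ c hw

theorem Rel.zero_left (hF : FiltT D hP F) (he : Ind D F n0 e) {n : ℤ} {w : M} {v : Fin r → L}
    (h : Rel D F n0 e n w v) (hw : w ∈ F (n + 1)) : v = 0 := by
  obtain ⟨j, j', b, hj, hb, hb0, hbv, hw'⟩ := h
  have h1 := hF.smul j b hb _ _ hw
  have h2 : n + 1 + (j : ℤ) = n + j + 1 := by ring
  rw [h2] at h1
  have h3 := Submodule.sub_mem _ h1 hw'
  rw [sub_sub_cancel] at h3
  have h4 : n + (j : ℤ) + 1 = n0 + j' + 1 := by rw [hj]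
  rw [h4] at h3
  have h5 := he.2 j' (fun l => b * v l) hbv h3
  funext l
  have h6 := congrFun h5 l
  simp only [Pi.zero_apply] at h6 ⊢
  exact (mul_eq_zero.1 h6).resolve_left hb0

theorem Rel.zero_right (hF : FiltT D hP F) {n : ℤ} {w : M} (hw : w ∈ F n)
    (h : Rel D F n0 e n w 0) : w ∈ F (n + 1) := by
  obtain ⟨j, j', b, hj, hb, hb0, hbv, hw'⟩ := h
  have h1 : ∑ l, tq D j' (b * (0 : Fin r → L) l) • e l = 0 := by
    refine Finset.sum_eq_zero fun l _ => ?_
    rw [Pi.zero_apply, mul_zero, tq_zero, zero_smul]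
  rw [h1, sub_zero] at hw'
  exact hF.tf j b hb hb0 n w hw hw'

/-- `e i` has coordinates the `i`-th unit vector -/
theorem Rel.self (hF : FiltT D hP F) (he : Ind D F n0 e) (i : Fin r) :
    Rel D F n0 e n0 (e i) (Pi.single i 1) := by
  have h1 : (1 : L) ∈ D.B ((0 : ℕ) : ℤ) := by
    rw [Nat.cast_zero, D.zero]
    exact Submodule.mem_span_singleton_self _
  refine ⟨0, 0, 1, rfl, h1, one_ne_zero, fun l => ?_, ?_⟩
  · rw [one_mul]
    by_cases hl : l = i
    · subst hl
      rw [Pi.single_eq_same]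
      exact h1
    · rw [Pi.single_eq_of_ne hl]
      exact Submodule.zero_mem _
  · have h2 : ∑ l, tq D 0 (1 * (Pi.single i 1 : Fin r → L) l) • e l = tq D 0 1 • e i := by
      rw [Finset.sum_eq_single i]
      · rw [Pi.single_eq_same, one_mul]
      · intro l _ hl
        rw [Pi.single_eq_of_ne hl, mul_zero, tq_zero, zero_smul]
      · intro h
        exact absurd (Finset.mem_univ _) h
    rw [h2, sub_self]
    exact Submodule.zero_mem _

end

end R169.C0
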