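import Crest.Agent.R169.C0Basic

/-!
# Row 169, C0, piece C0_TI: `T_i ⊂ I^(i - n1)`.

`n1 :=` a natural number `≥` the `n1` of `Par.gen`.  Induction on `i ≥ n1`:
`a ∈ B_(i+1) = B_i + η B_i + ζ B_i`, so `tq (i+1) a = tq 1 1 * tq i b0 + tq 1 η * tq i b1 + tq 1 ζ * tq i b2`
(`tq_mul`, `tq_add`), and `tq 1 1, tq 1 η, tq 1 ζ ∈ I` (`tq_mem_pow` or directly).
-/

set_option autoImplicit false

namespace R169.C0

open Polynomial

section
variable {k L : Type} [Field k] [Field L] [Algebra k L] {D : GD k L} {η ζ : L} (hP : Par D η ζ)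

theorem exists_tq_pow : ∃ n1 : ℕ, ∀ (i : ℕ) (a : L), a ∈ D.B i → tq D i a ∈ (Ixyz D hP) ^ (i - n1) := by
  obtain ⟨n1, hn1⟩ := hP.gen
  refine ⟨n1.toNat, fun i => ?_⟩
  have hx : tq D 1 1 ∈ Ixyz D hP :=
    Ideal.subset_span ⟨0, by rw [tq_eq (D := D) (i := 1) (by exact_mod_cast D.one_mem)]; rfl⟩
  have hy : tq D 1 η ∈ Ixyz D hP :=
    Ideal.subset_span ⟨1, by rw [tq_eq (D := D) (i := 1) (by exact_mod_cast hP.hη)]; rfl⟩
  have hz : tq D 1 ζ ∈ Ixyz D hP :=
    Ideal.subset_span ⟨2, by rw [tq_eq (D := D) (i := 1) (by exact_mod_cast hP.hζ)]; rfl⟩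
  induction i with
  | zero => intro a _; rw [Nat.zero_sub, pow_zero, Ideal.one_eq_top]; exact Submodule.mem_top
  | succ i ih =>
    intro a ha
    rcases Nat.lt_or_ge i n1.toNat with h | h
    · rw [Nat.sub_eq_zero_of_le (by omega), pow_zero, Ideal.one_eq_top]; exact Submodule.mem_top
    · have h1 : n1 ≤ (i : ℤ) := by omega
      have ha' : a ∈ D.B ((i : ℤ) + 1) := by exact_mod_cast ha
      have h2 := hn1 i h1 ha'
      obtain ⟨u, hu, z', hz', rfl⟩ := Submodule.mem_sup.1 h2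
      obtain ⟨b0, hb0, y', hy', rfl⟩ := Submodule.mem_sup.1 hu
      obtain ⟨b1, hb1, rfl⟩ := hy'
      obtain ⟨b2, hb2, rfl⟩ := hz'
      have e : i + 1 - n1.toNat = 1 + (i - n1.toNat) := by omega
      have g : ∀ l b : L, l ∈ D.B ((1 : ℕ) : ℤ) → tq D 1 l ∈ Ixyz D hP → b ∈ D.B i →
          (l * b ∈ D.B ((i + 1 : ℕ) : ℤ) ∧
            tq D (i + 1) (l * b) ∈ Ixyz D hP ^ (i + 1 - n1.toNat)) := by
        intro l b hl hl' hb
        have h3 := tq_mul (D := D) (i := 1) (j := i) hl hb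
        have h4 : l * b ∈ D.B ((1 + i : ℕ) : ℤ) := by
          push_cast
          exact D.mul_mem (by exact_mod_cast hl) hb
        rw [Nat.add_comm 1 i] at h3 h4
        refine ⟨h4, ?_⟩
        rw [← h3, e, pow_add, pow_one]
        exact Ideal.mul_mem_mul hl' (ih b hb)
      have g0 := g 1 b0 (by exact_mod_cast D.one_mem) hx hb0
      have g1 := g η b1 (by exact_mod_cast hP.hη) hy hb1
      have g2 := g ζ b2 (by exact_mod_cast hP.hζ) hz hb2
      rw [one_mul] at g0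
      have e1 : (Algebra.lsmul k k L η) b1 = η * b1 := rfl
      have e2 : (Algebra.lsmul k k L ζ) b2 = ζ * b2 := rfl
      rw [e1, e2, tq_add (Submodule.add_mem _ g0.1 g1.1) g2.1, tq_add g0.1 g1.1]
      exact Ideal.add_mem _ (Ideal.add_mem _ g0.2 g1.2) g2.2

end

end R169.C0
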