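import Crest.Agent.R169.CPDefs

/-!
# Row 169, module 2a (CP): piece CPA1 (architect helper27). Statement = interface, keep it.
Definitions in CPDefs.lean; imported sorries (LatAPI, other pieces) may be used.
-/

set_option autoImplicit false

namespace R169.CP

open Module

variable {k L : Type} [Field k] [Field L] [Algebra k L] {D : GD k L} {η ζ : L} {p r : ℕ}

/-- Linear independence is preserved by the coordinatewise Frobenius.
Proof: `v` linearly independent, so there is an `L`-linear map `(Fin r → L) → (ι → L)` with
`v i ↦ e_i` (`LinearMap.exists_leftInverse_of_injective` or `Basis.extend`); apply Frobenius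
(`frobenius L p : L →+* L`) to its matrix `M`: `FM (pw (v i)) = e_i`. -/
theorem linInd_pw {p r : ℕ} [Fact p.Prime] [CharP L p] {ι : Type} [Fintype ι] [DecidableEq ι]
    {v : ι → Fin r → L} (hv : LinearIndependent L v) :
    LinearIndependent L (fun i => pw p (v i)) := by
  -- a dual family
  obtain ⟨N, hN⟩ : ∃ N : ι → Fin r → L, ∀ i i', ∑ j, v i j * N i' j = if i = i' then 1 else 0 := by
    have hker : LinearMap.ker (Fintype.linearCombination L v) = ⊥ := by
      rw [LinearMap.ker_eq_bot']
      intro c hc
      rw [Fintype.linearCombination_apply] at hc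
      funext i
      exact (Fintype.linearIndependent_iff.mp hv) c hc i
    obtain ⟨g, hg⟩ := LinearMap.exists_leftInverse_of_injective _ hker
    refine ⟨fun i' j => g (Pi.single j 1) i', ?_⟩
    intro i i'
    have h1 : g (v i) = Pi.single i 1 := by
      have := LinearMap.congr_fun hg (Pi.single i 1)
      simpa [Fintype.linearCombination_apply, Pi.single_apply] using this
    have h2 : v i = ∑ j, v i j • (Pi.single j 1 : Fin r → L) := by
      funext j
      simp [Finset.sum_apply, Pi.single_apply]
    have h3 : g (v i) i' = ∑ j, v i j * g (Pi.single j 1) i' := by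
      conv_lhs => rw [h2]
      simp [map_sum, Finset.sum_apply]
    rw [← h3, h1, Pi.single_apply]
    by_cases h : i = i'
    · subst h; simp
    · rw [if_neg h, if_neg (Ne.symm h)]
  have hN' : ∀ i i', ∑ j, v i j ^ p * N i' j ^ p = if i = i' then 1 else 0 := by
    intro i i'
    have h1 := congrArg (frobenius L p) (hN i i')
    rw [map_sum] at h1
    simp only [frobenius_def, mul_pow] at h1
    rw [h1]
    split_ifs
    · exact one_pow p
    · exact zero_pow (Fact.out : p.Prime).ne_zero
  rw [Fintype.linearIndependent_iff]
  intro c hc i'
  have h1 : ∑ j, (∑ i, c i • pw p (v i)) j * N i' j ^ p = 0 := by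
    rw [hc]; simp
  have h2 : ∑ j, (∑ i, c i • pw p (v i)) j * N i' j ^ p = c i' := by
    calc ∑ j, (∑ i, c i • pw p (v i)) j * N i' j ^ p
        = ∑ j, ∑ i, c i * (v i j ^ p * N i' j ^ p) := by
          refine Finset.sum_congr rfl fun j _ => ?_
          rw [Finset.sum_apply, Finset.sum_mul]
          refine Finset.sum_congr rfl fun i _ => ?_
          simp only [Pi.smul_apply, smul_eq_mul, pw, mul_assoc]
      _ = ∑ i, c i * ∑ j, v i j ^ p * N i' j ^ p := by
          rw [Finset.sum_comm]
          refine Finset.sum_congr rfl fun i _ => ?_
          rw [Finset.mul_sum]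
      _ = c i' := by
          simp only [hN']
          simp
  rw [← h2, h1]

theorem finrank_FV {p r : ℕ} [Fact p.Prime] [CharP L p] (V : Submodule L (Fin r → L)) :
    finrank L (FV p V) = finrank L V := by
  classical
  set b := Module.finBasis L V with hb
  have hli : LinearIndependent L (fun i => ((b i : V) : Fin r → L)) :=
    b.linearIndependent.map' V.subtype (Submodule.ker_subtype V)
  have hli' := linInd_pw (p := p) hli
  have hspan : FV p V = Submodule.span L (Set.range fun i => pw p ((b i : V) : Fin r → L)) := by
    apply le_antisymm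
    · unfold FV
      rw [Submodule.span_le]
      rintro _ ⟨w, hw, rfl⟩
      have h1 : (w : Fin r → L) = ∑ i, (b.repr ⟨w, hw⟩ i) • ((b i : V) : Fin r → L) := by
        have := congrArg V.subtype (b.sum_repr ⟨w, hw⟩)
        rw [map_sum] at this
        simp only [map_smul, Submodule.subtype_apply] at this
        exact this.symm
      have h2 : pw p w = ∑ i, (b.repr ⟨w, hw⟩ i) ^ p • pw p ((b i : V) : Fin r → L) := by
        funext j
        have h3 := congrFun h1 j
        have h4 := congrArg (frobenius L p) h3
        rw [Finset.sum_apply, map_sum] at h4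
        simp only [frobenius_def, Pi.smul_apply, smul_eq_mul, mul_pow] at h4
        rw [Finset.sum_apply]
        simpa only [pw, Pi.smul_apply, smul_eq_mul] using h4
      rw [SetLike.mem_coe, h2]
      exact Submodule.sum_mem _ fun i _ =>
        Submodule.smul_mem _ _ (Submodule.subset_span ⟨i, rfl⟩)
    · rw [Submodule.span_le]
      rintro _ ⟨i, rfl⟩
      exact Submodule.subset_span ⟨_, (b i).2, rfl⟩
  rw [hspan, finrank_span_eq_card hli', Fintype.card_fin]

end R169.CP
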