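import Crest.Agent.R169.CPDefs

/-!
# Row 169, module 2a (CP): piece CPA2 (architect helper27). Statement = interface, keep it.
Definitions in CPDefs.lean; imported sorries (LatAPI, other pieces) may be used.
-/

set_option autoImplicit false

namespace R169.CP

open Module

variable {k L : Type} [Field k] [Field L] [Algebra k L] {D : GD k L} {η ζ : L} {p r : ℕ}

/-- (Cartier descent) a subspace stable under `D1, D2` is a Frobenius twist.
Proof: it is spanned by its vectors with all coordinates in `{l | D1 l = 0 ∧ D2 l = 0}`: strong
induction on the size of the support of `v ∈ U`: choose `u ∈ U`, `u ≠ 0`, `supp u ⊆ supp v`, of minimal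
support and `u j = 1` for some `j` (scale); then `cw D1 u, cw D2 u ∈ U` have smaller support, so they
are `0`; `v - v j • u` has smaller support.  All coordinates of such vectors are `p`-th powers, so
`u = pw p u'`; `V := span {u'}` over all `u' ` with `pw p u' ∈ U`; `U = FV p V` since
`pw p (Σ l_j u'_j) = Σ l_j^p pw p u'_j` (characteristic `p`). -/
theorem descent {p r : ℕ} [Fact p.Prime] [CharP L p] (D1 D2 : Derivation k L L)
    (hker : ∀ l, D1 l = 0 → D2 l = 0 → ∃ l', l = l' ^ p) (U : Submodule L (Fin r → L))
    (h1 : ∀ w ∈ U, cw D1 w ∈ U) (h2 : ∀ w ∈ U, cw D2 w ∈ U) :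
    ∃ V : Submodule L (Fin r → L), U = FV p V := by
  classical
  have hp : p.Prime := Fact.out
  -- `U` is spanned by its constant vectors
  have key : ∀ n : ℕ, ∀ v ∈ U, (Finset.univ.filter fun j => v j ≠ 0).card = n →
      v ∈ Submodule.span L {u | u ∈ U ∧ ∀ j, D1 (u j) = 0 ∧ D2 (u j) = 0} := by
    intro n
    induction n using Nat.strong_induction_on with
    | _ n ih =>
      intro v hv hn
      by_cases hv0 : v = 0
      · rw [hv0]; exact Submodule.zero_mem _
      -- minimal support
      have hex : ∃ m : ℕ, ∃ u ∈ U, u ≠ 0 ∧ (∀ j, u j ≠ 0 → v j ≠ 0) ∧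
          (Finset.univ.filter fun j => u j ≠ 0).card = m := ⟨_, v, hv, hv0, fun _ h => h, rfl⟩
      obtain ⟨u, hu, hu0, huv, hum⟩ := Nat.find_spec hex
      have hmin : ∀ w ∈ U, (∀ j, w j ≠ 0 → v j ≠ 0) →
          (Finset.univ.filter fun j => w j ≠ 0).card <
            (Finset.univ.filter fun j => u j ≠ 0).card → w = 0 := by
        intro w hw hwv hlt
        by_contra hw0
        rw [hum] at hlt
        exact Nat.find_min hex hlt ⟨w, hw, hw0, hwv, rfl⟩
      obtain ⟨j, hj⟩ : ∃ j, u j ≠ 0 := by
        by_contra hcon
        push Not at hcon
        exact hu0 (funext hcon)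
      -- scaled vector
      set e : Fin r → L := (u j)⁻¹ • u with he
      have heU : e ∈ U := Submodule.smul_mem _ _ hu
      have hej : e j = 1 := by
        rw [he, Pi.smul_apply, smul_eq_mul, inv_mul_cancel₀ hj]
      have hesupp : ∀ i, e i ≠ 0 ↔ u i ≠ 0 := by
        intro i
        rw [he, Pi.smul_apply, smul_eq_mul]
        constructor
        · intro h h0
          exact h (by rw [h0, mul_zero])
        · intro h
          exact mul_ne_zero (inv_ne_zero hj) h
      have hder : ∀ δ : Derivation k L L, (∀ w ∈ U, cw δ w ∈ U) → cw δ e = 0 := by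
        intro δ hδ
        have hzero : ∀ i, cw δ e i ≠ 0 → u i ≠ 0 := by
          intro i hi h0
          apply hi
          have : e i = 0 := by
            by_contra h
            exact (hesupp i).1 h h0
          unfold cw
          rw [this, map_zero]
        refine hmin _ (hδ e heU) (fun i hi => huv i (hzero i hi)) ?_
        apply Finset.card_lt_card
        rw [Finset.ssubset_iff_of_subset]
        · refine ⟨j, by simp [hj], ?_⟩
          rw [Finset.mem_filter, not_and]
          intro _ h
          apply h
          unfold cw
          rw [hej]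
          exact δ.map_one_eq_zero
        · intro i hi
          rw [Finset.mem_filter] at hi ⊢
          exact ⟨hi.1, hzero i hi.2⟩
      have hemem : e ∈ Submodule.span L {u | u ∈ U ∧ ∀ j, D1 (u j) = 0 ∧ D2 (u j) = 0} := by
        apply Submodule.subset_span
        exact ⟨heU, fun i => ⟨congrFun (hder D1 h1) i, congrFun (hder D2 h2) i⟩⟩
      have hsmall : v - v j • e ∈
          Submodule.span L {u | u ∈ U ∧ ∀ j, D1 (u j) = 0 ∧ D2 (u j) = 0} := by
        refine ih _ ?_ _ (Submodule.sub_mem _ hv (Submodule.smul_mem _ _ heU)) rfl
        rw [← hn]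
        apply Finset.card_lt_card
        rw [Finset.ssubset_iff_of_subset]
        · refine ⟨j, ?_, ?_⟩
          · rw [Finset.mem_filter]
            exact ⟨Finset.mem_univ _, huv j hj⟩
          · rw [Finset.mem_filter, not_and]
            intro _ h
            apply h
            rw [Pi.sub_apply, Pi.smul_apply, smul_eq_mul, hej, mul_one, sub_self]
        · intro i hi
          rw [Finset.mem_filter] at hi ⊢
          refine ⟨hi.1, ?_⟩
          intro h0
          apply hi.2
          have : e i = 0 := by
            by_contra h
            exact huv i ((hesupp i).1 h) h0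
          rw [Pi.sub_apply, Pi.smul_apply, smul_eq_mul, h0, this, mul_zero, sub_zero]
      have hsum : v = (v - v j • e) + v j • e := by rw [sub_add_cancel]
      rw [hsum]
      exact Submodule.add_mem _ hsmall (Submodule.smul_mem _ _ hemem)
  refine ⟨{ carrier := {w | pw p w ∈ U}
            add_mem' := ?_
            zero_mem' := ?_
            smul_mem' := ?_ }, ?_⟩
  · intro a b ha hb
    have : pw p (a + b) = pw p a + pw p b := by
      funext i
      exact add_pow_char (a i) (b i) p
    change pw p (a + b) ∈ U
    rw [this]
    exact Submodule.add_mem _ ha hb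
  · have : pw p (0 : Fin r → L) = 0 := by
      funext i
      exact zero_pow hp.ne_zero
    change pw p (0 : Fin r → L) ∈ U
    rw [this]
    exact Submodule.zero_mem _
  · intro c a ha
    have : pw p (c • a) = c ^ p • pw p a := by
      funext i
      exact mul_pow c (a i) p
    change pw p (c • a) ∈ U
    rw [this]
    exact Submodule.smul_mem _ _ ha
  · apply le_antisymm
    · intro v hv
      refine Submodule.span_mono ?_ (key _ v hv rfl)
      rintro u ⟨huU, hu⟩
      choose f hf using fun j => hker (u j) (hu j).1 (hu j).2
      have hpf : pw p f = u := by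
        funext j
        exact (hf j).symm
      refine ⟨f, ?_, hpf⟩
      change pw p f ∈ U
      rw [hpf]
      exact huU
    · unfold FV
      rw [Submodule.span_le]
      rintro _ ⟨w, hw, rfl⟩
      exact hw

end R169.CP
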