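import Crest.Agent.R169.CPDefs

/-!
# Row 169, module 2a (CP): piece CPA3 (architect helper27). Statement = interface, keep it.
Definitions in CPDefs.lean; imported sorries (LatAPI, other pieces) may be used.
-/

set_option autoImplicit false

namespace R169.CP

open Module

variable {k L : Type} [Field k] [Field L] [Algebra k L] {D : GD k L} {η ζ : L} {p r : ℕ}

namespace CPA3aux

/-- the vector together with its iterated derivatives of order `≤ i` -/
def S {r : ℕ} (D1 D2 : Derivation k L L) (w : Fin r → L) : ℕ → Set (Fin r → L)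
  | 0 => {w}
  | i + 1 => S D1 D2 w i ∪ cw D1 '' S D1 D2 w i ∪ cw D2 '' S D1 D2 w i

theorem cw_add {r : ℕ} (δ : Derivation k L L) (u v : Fin r → L) :
    cw δ (u + v) = cw δ u + cw δ v := by
  funext j; simp [cw]

theorem cw_zero {r : ℕ} (δ : Derivation k L L) : cw δ (0 : Fin r → L) = 0 := by
  funext j; simp [cw]

theorem cw_smul {r : ℕ} (δ : Derivation k L L) (c : L) (u : Fin r → L) :
    cw δ (c • u) = δ c • u + c • cw δ u := by
  funext j
  simp only [cw, Pi.smul_apply, Pi.add_apply, smul_eq_mul, Derivation.leibniz]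
  ring

theorem S_mono {r : ℕ} (D1 D2 : Derivation k L L) (w : Fin r → L) (i : ℕ) :
    S D1 D2 w i ⊆ S D1 D2 w (i + 1) := fun _ h => Or.inl (Or.inl h)

theorem w_mem {r : ℕ} (D1 D2 : Derivation k L L) (w : Fin r → L) (i : ℕ) : w ∈ S D1 D2 w i := by
  induction i with
  | zero => exact rfl
  | succ i ih => exact S_mono _ _ _ _ ih

theorem stable_of_eq {r : ℕ} (D1 D2 δ : Derivation k L L) (w : Fin r → L) (i : ℕ)
    (h : Submodule.span L (S D1 D2 w (i + 1)) = Submodule.span L (S D1 D2 w i))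
    (hδ : cw δ '' S D1 D2 w i ⊆ S D1 D2 w (i + 1)) :
    ∀ u ∈ Submodule.span L (S D1 D2 w i), cw δ u ∈ Submodule.span L (S D1 D2 w i) := by
  intro u hu
  induction hu using Submodule.span_induction with
  | mem x hx =>
    rw [← h]
    exact Submodule.subset_span (hδ ⟨x, hx, rfl⟩)
  | zero => rw [cw_zero]; exact Submodule.zero_mem _
  | add x y _ _ hx hy => rw [cw_add]; exact Submodule.add_mem _ hx hy
  | smul c x hx0 hx =>
    rw [cw_smul]
    exact Submodule.add_mem _ (Submodule.smul_mem _ _ hx0) (Submodule.smul_mem _ _ hx)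

theorem G_mono {r : ℕ} (G : ℤ → Submodule k (Fin r → L)) (mono : ∀ n, G n ≤ G (n + 1)) {a b : ℤ}
    (h : a ≤ b) : G a ≤ G b := by
  obtain ⟨c, rfl⟩ := Int.le.dest h
  induction c with
  | zero => simp
  | succ c ih =>
    refine (ih (by omega)).trans ?_
    have := mono (a + (c : ℤ))
    push_cast
    rwa [← add_assoc]

theorem exists_eq {r : ℕ} (D1 D2 : Derivation k L L) (w : Fin r → L) (hw0 : w ≠ 0) :
    ∃ i : ℕ, i < r ∧ Submodule.span L (S D1 D2 w (i + 1)) = Submodule.span L (S D1 D2 w i) := by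
  by_contra hcon
  push Not at hcon
  have hlt : ∀ i, i < r → Submodule.span L (S D1 D2 w i) < Submodule.span L (S D1 D2 w (i + 1)) :=
    fun i hi => lt_of_le_of_ne (Submodule.span_mono (S_mono _ _ _ _)) (hcon i hi).symm
  have hrank : ∀ i, i ≤ r → i + 1 ≤ finrank L (Submodule.span L (S D1 D2 w i)) := by
    intro i
    induction i with
    | zero =>
      intro _
      have : Submodule.span L (S D1 D2 w 0) ≠ ⊥ := by
        intro h
        have h1 : w ∈ Submodule.span L (S D1 D2 w 0) := Submodule.subset_span (w_mem _ _ _ _)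
        rw [h] at h1
        exact hw0 ((Submodule.mem_bot L).1 h1)
      have h2 := Submodule.one_le_finrank_iff.2 this
      omega
    | succ i ih =>
      intro hi
      have h1 := ih (by omega)
      have h2 := Submodule.finrank_lt_finrank_of_lt (hlt i (by omega))
      omega
  have h1 := hrank r le_rfl
  have h2 := Submodule.finrank_le (Submodule.span L (S D1 D2 w r))
  rw [finrank_fin_fun] at h2
  omega

end CPA3aux

/-- the smallest stable subspace containing `w ≠ 0` is spanned by iterated derivatives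
of order `≤ r - 1`.  Proof: `S 0 = {w}`, `S (i+1) = S i ∪ cw D1 '' S i ∪ cw D2 '' S i`, `U_i = span L (S i)`.
If `U_{i+1} = U_i` then `U_i` is stable (Leibniz).  `finrank U_0 = 1`; if none of `U_0, ..., U_{r-2}` is
stable then `finrank U_{r-1} ≥ r`, so `U_{r-1} = ⊤`.  `S i ⊆ G (n + i C0)`. -/
theorem stable_span {r : ℕ} (D1 D2 : Derivation k L L) {C0 : ℤ} (hC0 : 0 ≤ C0)
    (G : ℤ → Submodule k (Fin r → L)) (mono : ∀ n, G n ≤ G (n + 1))
    (hG : ∀ n w, w ∈ G n → cw D1 w ∈ G (n + C0) ∧ cw D2 w ∈ G (n + C0)) (n : ℤ) (w : Fin r → L)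
    (hw : w ∈ G n) (hw0 : w ≠ 0) :
    ∃ U : Submodule L (Fin r → L), w ∈ U ∧ (∀ u ∈ U, cw D1 u ∈ U) ∧ (∀ u ∈ U, cw D2 u ∈ U) ∧
      Submodule.span L ((U : Set (Fin r → L)) ∩ G (n + (r - 1) * C0)) = U := by
  have hS : ∀ i : ℕ, ∀ v ∈ CPA3aux.S D1 D2 w i, v ∈ G (n + i * C0) := by
    intro i
    induction i with
    | zero =>
      intro v hv
      have : v = w := hv
      rw [this]
      simpa using hw
    | succ i ih =>
      have he : n + ((i + 1 : ℕ) : ℤ) * C0 = n + i * C0 + C0 := by push_cast; ring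
      rintro v ((hv | ⟨u, hu, rfl⟩) | ⟨u, hu, rfl⟩)
      · rw [he]
        exact CPA3aux.G_mono G mono (by linarith) (ih v hv)
      · rw [he]
        exact (hG _ u (ih u hu)).1
      · rw [he]
        exact (hG _ u (ih u hu)).2
  obtain ⟨i, hi, heq⟩ := CPA3aux.exists_eq D1 D2 w hw0
  refine ⟨Submodule.span L (CPA3aux.S D1 D2 w i), Submodule.subset_span (CPA3aux.w_mem _ _ _ _),
    CPA3aux.stable_of_eq D1 D2 D1 w i heq (fun _ h => Or.inl (Or.inr h)),
    CPA3aux.stable_of_eq D1 D2 D2 w i heq (fun _ h => Or.inr h), ?_⟩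
  apply le_antisymm
  · exact Submodule.span_le.2 fun x hx => hx.1
  · refine Submodule.span_mono fun x hx => ⟨Submodule.subset_span hx, ?_⟩
    refine CPA3aux.G_mono G mono ?_ (hS i x hx)
    have : (i : ℤ) ≤ (r : ℤ) - 1 := by omega
    have := mul_le_mul_of_nonneg_right this hC0
    linarith

end R169.CP
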