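import Crest.Agent.R169.CPDefs

/-!
# Row 169, module 2a (CP): piece CPA4 (architect helper27). Statement = interface, keep it.
Definitions in CPDefs.lean; imported sorries (LatAPI, other pieces) may be used.
-/

set_option autoImplicit false

namespace R169.CP

open Module

variable {k L : Type} [Field k] [Field L] [Algebra k L] {D : GD k L} {η ζ : L} {p r : ℕ}

/-- the orthogonal of a stable subspace is stable and has the complementary dimension
(`dotProduct` is a perfect pairing on `Fin r → L`). -/
theorem orth_stable {r : ℕ} (D1 : Derivation k L L) (U : Submodule L (Fin r → L))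
    (h1 : ∀ w ∈ U, cw D1 w ∈ U) (w : Fin r → L) (hw : ∀ u ∈ U, u ⬝ᵥ w = 0) :
    ∀ u ∈ U, u ⬝ᵥ cw D1 w = 0 := by
  intro u hu
  have h2 : D1 (u ⬝ᵥ w) = u ⬝ᵥ cw D1 w + cw D1 u ⬝ᵥ w := by
    unfold dotProduct cw
    rw [map_sum, ← Finset.sum_add_distrib]
    refine Finset.sum_congr rfl fun j _ => ?_
    rw [Derivation.leibniz, smul_eq_mul, smul_eq_mul, mul_comm (w j)]
  rw [hw u hu, map_zero, hw _ (h1 u hu), add_zero] at h2
  exact h2.symm

theorem finrank_orth {r : ℕ} (U : Submodule L (Fin r → L)) :
    finrank L (orth U) + finrank L U = r := by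
  classical
  have hB : (Matrix.toBilin' (1 : Matrix (Fin r) (Fin r) L)).Nondegenerate :=
    LinearMap.BilinForm.nondegenerate_toBilin'_iff_det_ne_zero.mpr (by simp)
  have h1 := LinearMap.BilinForm.finrank_orthogonal hB U
  have h2 : LinearMap.BilinForm.orthogonal (Matrix.toBilin' (1 : Matrix (Fin r) (Fin r) L)) U =
      orth U := by
    ext w
    rw [LinearMap.BilinForm.mem_orthogonal_iff]
    refine forall₂_congr fun u _ => ?_
    rw [Matrix.toBilin'_apply', Matrix.one_mulVec]
  rw [h2, finrank_fin_fun] at h1
  have h3 : finrank L U ≤ r := by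
    have := Submodule.finrank_le U
    rwa [finrank_fin_fun] at this
  omega

end R169.CP
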