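import Crest.Agent.R169.CPDefs
import Crest.Agent.R169.LatAPI

/-!
# Row 169, module 2a (CP): piece CPB1 (architect helper27). Statement = interface, keep it.
Definitions in CPDefs.lean; imported sorries (LatAPI, other pieces) may be used.
-/

set_option autoImplicit false

namespace R169.CP

open Module

variable {k L : Type} [Field k] [Field L] [Algebra k L] {D : GD k L} {η ζ : L} {p r : ℕ}

/-- `B` is closed under powers -/
theorem pow_mem_B (D : GD k L) {i : ℤ} {a : L} (ha : a ∈ D.B i) (m : ℕ) : a ^ m ∈ D.B (m * i) := by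
  induction m with
  | zero =>
    rw [pow_zero, Nat.cast_zero, zero_mul, D.zero]
    exact Submodule.mem_span_singleton_self _
  | succ m ih =>
    rw [pow_succ]
    have h := D.mul_mem ih ha
    have e : ((m + 1 : ℕ) : ℤ) * i = m * i + i := by push_cast; ring
    rw [e]; exact h

theorem B_mono_le (D : GD k L) {m n : ℤ} (h : m ≤ n) : D.B m ≤ D.B n := by
  induction n, h using Int.le_induction with
  | base => exact le_rfl
  | succ n _ ih => exact ih.trans (D.mono n)

theorem mem_Bpow {n : ℤ} {w : Fin r → L} : w ∈ Bpow D r n ↔ ∀ j, w j ∈ D.B n := by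
  simp [Bpow, Submodule.mem_pi]

/-- `Bpow D r n ≃ Fin r → D.B n` -/
def bpowEquiv (D : GD k L) (r : ℕ) (n : ℤ) : Bpow D r n ≃ₗ[k] (Fin r → D.B n) where
  toFun w j := ⟨w.1 j, mem_Bpow.1 w.2 j⟩
  map_add' _ _ := rfl
  map_smul' _ _ := rfl
  invFun v := ⟨fun j => (v j).1, mem_Bpow.2 fun j => (v j).2⟩
  left_inv _ := rfl
  right_inv _ := rfl

theorem isLat_Bpow (hP : Par D η ζ) (r : ℕ) : IsLat D η ζ (Bpow D r) := by
  refine ⟨?_, ?_, ?_, ?_⟩
  · intro i n a w ha hw
    rw [mem_Bpow] at hw ⊢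
    intro j
    exact D.mul_mem ha (hw j)
  · intro n
    haveI := D.fin n
    exact Module.Finite.equiv (bpowEquiv D r n).symm
  · refine ⟨0, fun n hn => ?_⟩
    rw [eq_bot_iff]
    intro w hw
    rw [mem_Bpow] at hw
    rw [Submodule.mem_bot]
    funext j
    have h := hw j
    rw [D.neg n hn, Submodule.mem_bot] at h
    exact h
  · obtain ⟨n1, h1⟩ := hP.gen
    refine ⟨n1, fun n hn w hw => ?_⟩
    rw [mem_Bpow] at hw
    have h2 : ∀ j, ∃ a ∈ D.B n, ∃ b ∈ D.B n, ∃ c ∈ D.B n, w j = a + η * b + ζ * c := by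
      intro j
      have h := h1 n hn (hw j)
      obtain ⟨x, hx, y, hy, hxy⟩ := Submodule.mem_sup.1 h
      obtain ⟨a, ha, z, hz, haz⟩ := Submodule.mem_sup.1 hx
      obtain ⟨b, hb, rfl⟩ := Submodule.mem_map.1 hz
      obtain ⟨c, hc, rfl⟩ := Submodule.mem_map.1 hy
      refine ⟨a, ha, b, hb, c, hc, ?_⟩
      rw [← hxy, ← haz]
      rfl
    choose a ha b hb c hc habc using h2
    have e : w = a + η • b + ζ • c := by
      funext j; rw [habc j]; rfl
    rw [e]
    refine Submodule.add_mem _ (Submodule.add_mem _ ?_ ?_) ?_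
    · exact Submodule.mem_sup_left (Submodule.mem_sup_left (mem_Bpow.2 ha))
    · refine Submodule.mem_sup_left (Submodule.mem_sup_right ?_)
      exact Submodule.mem_map.2 ⟨b, mem_Bpow.2 hb, rfl⟩
    · refine Submodule.mem_sup_right ?_
      exact Submodule.mem_map.2 ⟨c, mem_Bpow.2 hc, rfl⟩

/-- `Bpow D r n ≃ Fin r → D.B n`. -/
theorem finrank_Bpow (D : GD k L) (r : ℕ) (n : ℤ) :
    finrank k (Bpow D r n) = r * finrank k (D.B n) := by
  haveI := D.fin n
  rw [(bpowEquiv D r n).finrank_eq, Module.finrank_pi_fintype]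
  simp

/-- `Bpow` spans. -/
theorem lspan_Bpow (D : GD k L) (r : ℕ) : lspan L (Bpow D r) = ⊤ := by
  rw [eq_top_iff, lspan]
  intro w _
  rw [← Finset.univ_sum_single w]
  refine Submodule.sum_mem _ fun j _ => ?_
  have h1 : (Pi.single j (w j) : Fin r → L) = w j • Pi.single j 1 := by
    rw [← Pi.single_smul, smul_eq_mul, mul_one]
  rw [h1]
  refine Submodule.smul_mem _ _ (Submodule.subset_span (Set.mem_iUnion.2 ⟨1, ?_⟩))
  refine mem_Bpow.2 fun i => ?_
  by_cases h : i = j
  · subst h; rw [Pi.single_eq_same]; exact D.one_mem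
  · rw [Pi.single_eq_of_ne h]; exact Submodule.zero_mem _

end R169.CP
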