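import Crest.Agent.R169.CPB1

/-!
# Row 169, module 2a (CP): piece CPB2 (architect helper27). Statement = interface, keep it.
Definitions in CPDefs.lean; imported sorries (LatAPI, other pieces) may be used.
-/

set_option autoImplicit false

namespace R169.CP

open Module

variable {k L : Type} [Field k] [Field L] [Algebra k L] {D : GD k L} {η ζ : L} {p r : ℕ}

/-- generators of `Fr` -/
theorem pw_mem_Fr {E : ℤ → Submodule k (Fin r → L)} {i : ℤ} {e : Fin r → L} (he : e ∈ E i) :
    pw p e ∈ Fr D p E (p * i) := by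
  refine Submodule.subset_span ⟨i, e, 1, he, ?_, ?_⟩
  · rw [sub_self, D.zero]
    exact Submodule.mem_span_singleton_self 1
  · rw [one_smul]
    rfl

/-- `Fr D p E` is `B`-stable -/
theorem stab_Fr (E : ℤ → Submodule k (Fin r → L)) : Stab D (Fr D p E) := by
  intro i n a w ha hw
  unfold Fr at hw
  induction hw using Submodule.span_induction with
  | mem w hw =>
    obtain ⟨i0, e, b, he, hb, rfl⟩ := hw
    refine Submodule.subset_span ⟨i0, e, a * b, he, ?_, ?_⟩
    · have h := D.mul_mem ha hb
      have h2 : i + (n - p * i0) = i + n - p * i0 := by ring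
      rw [h2] at h
      exact h
    · rw [smul_smul]
  | zero =>
    rw [smul_zero]
    exact Submodule.zero_mem _
  | add x y _ _ hx hy =>
    rw [smul_add]
    exact Submodule.add_mem _ hx hy
  | smul c x _ hx =>
    rw [smul_comm]
    exact Submodule.smul_mem _ c hx

theorem Fr_le_Bpow {E : ℤ → Submodule k (Fin r → L)} (hE : ∀ n, E n ≤ Bpow D r n) (n : ℤ) :
    Fr D p E n ≤ Bpow D r n := by
  unfold Fr
  rw [Submodule.span_le]
  rintro w ⟨i, e, b, he, hb, rfl⟩
  have he' := hE i he
  unfold Bpow at he' ⊢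
  rw [Submodule.mem_pi] at he'
  refine Submodule.mem_pi.2 fun j _ => ?_
  have h1 := he' j (Set.mem_univ j)
  have h2 := D.mul_mem hb (pow_mem_B D h1 p)
  have h3 : n - p * i + p * i = n := by ring
  rw [h3] at h2
  exact h2

/-- (`IsLat.sub` with `isLat_Bpow`) -/
theorem isLat_Fr (hP : Par D η ζ) {E : ℤ → Submodule k (Fin r → L)}
    (hE : ∀ n, E n ≤ Bpow D r n) : IsLat D η ζ (Fr D p E) :=
  IsLat.sub hP (isLat_Bpow hP r) (Fr_le_Bpow hE) (stab_Fr E)

end R169.CP
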