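import Crest.Agent.R169.CPA1
import Crest.Agent.R169.CPB2

/-!
# Row 169, module 2a (CP): piece CPB3 (architect helper27). Statement = interface, keep it.
Definitions in CPDefs.lean; imported sorries (LatAPI, other pieces) may be used.
-/

set_option autoImplicit false

namespace R169.CP

open Module

variable {k L : Type} [Field k] [Field L] [Algebra k L] {D : GD k L} {η ζ : L} {p r : ℕ}

/-- the span of `Fr E` is the Frobenius twist of the span of `E`: `⊆` is clear; `⊇`: for
`v = Σ l_j e_j`, `pw p v = Σ l_j^p pw p e_j` (char `p`). -/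
theorem lspan_Fr [Fact p.Prime] [CharP L p] (E : ℤ → Submodule k (Fin r → L)) :
    lspan L (Fr D p E) = FV p (lspan L E) := by
  have hp : p ≠ 0 := (Fact.out : p.Prime).ne_zero
  refine le_antisymm ?_ ?_
  · refine Submodule.span_le.2 ?_
    intro w hw
    obtain ⟨n, hn⟩ := Set.mem_iUnion.1 hw
    have h1 : Fr D p E n ≤ (FV p (lspan L E)).restrictScalars k := by
      refine Submodule.span_le.2 ?_
      rintro w ⟨i, e, b, he, _, rfl⟩
      have h2 : (fun j => e j ^ p) ∈ FV p (lspan L E) :=
        Submodule.subset_span ⟨e, Submodule.subset_span (Set.mem_iUnion.2 ⟨i, he⟩), rfl⟩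
      exact Submodule.smul_mem _ b h2
    exact h1 hn
  · refine Submodule.span_le.2 ?_
    rintro _ ⟨v, hv, rfl⟩
    have hv' : v ∈ lspan L E := hv
    unfold lspan at hv'
    refine Submodule.span_induction (p := fun v _ => pw p v ∈ lspan L (Fr D p E))
      ?_ ?_ ?_ ?_ hv'
    · intro e he
      obtain ⟨i, hi⟩ := Set.mem_iUnion.1 he
      exact Submodule.subset_span (Set.mem_iUnion.2 ⟨p * i, pw_mem_Fr hi⟩)
    · have h0 : pw p (0 : Fin r → L) = 0 := by
        funext j; simp [pw, hp]
      rw [h0]
      exact Submodule.zero_mem _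
    · intro a b _ _ ha hb
      have h0 : pw p (a + b) = pw p a + pw p b := by
        funext j; simp [pw, add_pow_char]
      rw [h0]
      exact Submodule.add_mem _ ha hb
    · intro c a _ ha
      have h0 : pw p (c • a) = c ^ p • pw p a := by
        funext j; simp [pw, mul_pow]
      rw [h0]
      exact Submodule.smul_mem _ _ ha

theorem FV_top [Fact p.Prime] [CharP L p] : FV p (⊤ : Submodule L (Fin r → L)) = ⊤ := by
  classical
  have hp : p ≠ 0 := (Fact.out : p.Prime).ne_zero
  rw [eq_top_iff]
  intro x _
  rw [pi_eq_sum_univ' x]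
  refine Submodule.sum_mem _ fun i _ => Submodule.smul_mem _ _ ?_
  refine Submodule.subset_span ⟨Pi.single i 1, Submodule.mem_top, ?_⟩
  funext j
  simp only [pw]
  by_cases h : j = i
  · subst h; simp
  · simp [Pi.single_eq_of_ne h, hp]

end R169.CP
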