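import Crest.Agent.R169.CPB2

/-!
# Row 169, module 2a (CP): piece CPB4 (architect helper27). Statement = interface, keep it.
Definitions in CPDefs.lean; imported sorries (LatAPI, other pieces) may be used.
-/

set_option autoImplicit false

namespace R169.CP

open Module

variable {k L : Type} [Field k] [Field L] [Algebra k L] {D : GD k L} {η ζ : L} {p r : ℕ}

namespace B4

theorem der_pow [CharP L p] (δ : Derivation k L L) (x : L) : δ (x ^ p) = 0 := by
  rw [Derivation.leibniz_pow, ← Nat.cast_smul_eq_nsmul L, CharP.cast_eq_zero, zero_smul]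

theorem der_pow_mul [CharP L p] (δ : Derivation k L L) (x y : L) : δ (x ^ p * y) = x ^ p * δ y := by
  rw [Derivation.leibniz, der_pow, smul_zero, add_zero, smul_eq_mul]

theorem cw_add (δ : Derivation k L L) (v w : Fin r → L) : cw δ (v + w) = cw δ v + cw δ w := by
  funext j; simp [cw]

theorem cw_zero (δ : Derivation k L L) : cw δ (0 : Fin r → L) = 0 := by
  funext j; simp [cw]

theorem cw_smul (δ : Derivation k L L) (c : k) (w : Fin r → L) : cw δ (c • w) = c • cw δ w := by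
  funext j; simp [cw]

theorem cw_pow_smul [CharP L p] (δ : Derivation k L L) (x : L) (w : Fin r → L) :
    cw δ (x ^ p • w) = x ^ p • cw δ w := by
  funext j
  show δ (x ^ p * w j) = x ^ p * δ (w j)
  exact der_pow_mul δ x (w j)

end B4

/-- derivations on `Fr E`: `D1 (b e^p) = D1 b • e^p` (`Derivation.leibniz`,
`Derivation.leibniz_pow`, `CharP.cast_eq_zero`). -/
theorem Fr_deriv [CharP L p] (δ : Derivation k L L) {C0 : ℤ}
    (hδ : ∀ n b, b ∈ D.B n → δ b ∈ D.B (n + C0)) (E : ℤ → Submodule k (Fin r → L)) {n : ℤ}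
    {w : Fin r → L} (hw : w ∈ Fr D p E n) : cw δ w ∈ Fr D p E (n + C0) := by
  unfold Fr at hw
  induction hw using Submodule.span_induction with
  | mem x hx =>
    obtain ⟨i, e, b, he, hb, rfl⟩ := hx
    refine Submodule.subset_span ⟨i, e, δ b, he, ?_, ?_⟩
    · have := hδ _ _ hb
      rw [show n + C0 - p * i = n - p * i + C0 by ring]
      exact this
    · funext j
      show δ (b * e j ^ p) = δ b * e j ^ p
      rw [mul_comm b, B4.der_pow_mul, mul_comm]
  | zero => rw [B4.cw_zero]; exact Submodule.zero_mem _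
  | add x y _ _ hx hy => rw [B4.cw_add]; exact Submodule.add_mem _ hx hy
  | smul c x _ hx => rw [B4.cw_smul]; exact Submodule.smul_mem _ c hx

/-- derivations on the reflexive hull of a `B`-stable family `Φ` with derivations:
for `π`, `F • w ∈ Φ (n + s)` gives `F^p • w ∈ Φ (n + p s)` and `cw δ (F^p • w) = F^p • cw δ w`
(`F^p` homogeneous of degree `p s`, `ev (F^p) = (ev F)^p`, `π ∤ F^p`, `ev F ∈ A s ≤ B s`). -/
theorem hull_deriv [Fact p.Prime] [CharP L p] (hP : Par D η ζ) (δ : Derivation k L L) {C0 : ℤ}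
    {Φ : ℤ → Submodule k (Fin r → L)} (hΦ : IsLat D η ζ Φ)
    (hδ : ∀ n w, w ∈ Φ n → cw δ w ∈ Φ (n + C0)) {n : ℤ} {w : Fin r → L}
    (hw : w ∈ hull η ζ Φ n) : cw δ w ∈ hull η ζ Φ (n + C0) := by
  have hpl := hΦ.toPLat hP
  rw [mem_hull hpl] at hw ⊢
  intro π hπ
  obtain ⟨s, F, hF, hd, hm⟩ := hw π hπ
  have hp := (Fact.out : p.Prime).one_le
  refine ⟨s * p, F ^ p, hF.pow p, fun h => hd (hπ.dvd_of_dvd_pow h), ?_⟩
  have hev : ev η ζ (F ^ p) = (ev η ζ F) ^ p := by unfold ev; rw [map_pow]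
  rw [hev, ← B4.cw_pow_smul]
  have h1 : (ev η ζ F) ^ p • w ∈ Φ (n + ((s * p : ℕ) : ℤ)) := by
    have h2 : (ev η ζ F) ^ (p - 1) ∈ D.B (((p - 1 : ℕ) : ℤ) * s) :=
      pow_mem_B D (A_le_B hP _ (ev_mem_A hF)) (p - 1)
    have h3 := hΦ.smul_mem h2 hm
    rw [smul_smul, ← pow_succ, Nat.sub_add_cancel hp] at h3
    have h4 : (((p - 1 : ℕ) : ℤ) * s + (n + s)) = n + ((s * p : ℕ) : ℤ) := by
      push_cast [Nat.cast_sub hp]
      ring
    rwa [h4] at h3
  have h5 := hδ _ _ h1
  rwa [show n + ((s * p : ℕ) : ℤ) + C0 = n + C0 + ((s * p : ℕ) : ℤ) by ring] at h5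

end R169.CP
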