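import Crest.Agent.R169.CPDefs

/-!
# Row 169, module 2a (CP): piece CPC1 (architect helper27). Statement = interface, keep it.
Definitions in CPDefs.lean; imported sorries (LatAPI, other pieces) may be used.
-/

set_option autoImplicit false

namespace R169.CP

open Module

variable {k L : Type} [Field k] [Field L] [Algebra k L] {D : GD k L} {η ζ : L} {p r : ℕ}

/-- every subspace is the kernel of a surjection onto some `Fin r2 → L`
(`W ⧸ V ≃ Fin (finrank) → L`). -/
theorem exists_proj (V : Submodule L (Fin r → L)) :
    ∃ (r2 : ℕ) (q : (Fin r → L) →ₗ[L] (Fin r2 → L)), Function.Surjective q ∧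
      LinearMap.ker q = V := by
  let e : ((Fin r → L) ⧸ V) ≃ₗ[L] (Fin (finrank L ((Fin r → L) ⧸ V)) → L) :=
    LinearEquiv.ofFinrankEq _ _ (by rw [Module.finrank_fin_fun])
  refine ⟨finrank L ((Fin r → L) ⧸ V), e.toLinearMap.comp V.mkQ, ?_, ?_⟩
  · rw [LinearMap.coe_comp]
    exact e.surjective.comp V.mkQ_surjective
  · rw [LinearEquiv.ker_comp, Submodule.ker_mkQ]

/-- the dimension of the image of a `k`-subspace depends only on the kernel -/
theorem finrank_map_of_ker {W W1 W2 : Type} [AddCommGroup W] [Module k W] [AddCommGroup W1]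
    [Module k W1] [AddCommGroup W2] [Module k W2] (S : Submodule k W) (f : W →ₗ[k] W1)
    (g : W →ₗ[k] W2) (h : LinearMap.ker f = LinearMap.ker g) :
    finrank k (S.map f) = finrank k (S.map g) := by
  have hf : S.map f = LinearMap.range (f.domRestrict S) := (LinearMap.range_domRestrict S f).symm
  have hg : S.map g = LinearMap.range (g.domRestrict S) := (LinearMap.range_domRestrict S g).symm
  have hk : LinearMap.ker (f.domRestrict S) = LinearMap.ker (g.domRestrict S) := by
    ext x
    simp only [LinearMap.mem_ker, LinearMap.domRestrict_apply]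
    rw [← LinearMap.mem_ker, h, LinearMap.mem_ker]
  rw [hf, hg]
  exact (((f.domRestrict S).quotKerEquivRange.symm.trans (Submodule.quotEquivOfEq _ _ hk)).trans
    (g.domRestrict S).quotKerEquivRange).finrank_eq

end R169.CP
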