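import Crest.Agent.R169.CPA1

/-!
# Row 169, module 2a (CP): piece CPC2 (architect helper27). Statement = interface, keep it.
Definitions in CPDefs.lean; imported sorries (LatAPI, other pieces) may be used.
-/

set_option autoImplicit false

namespace R169.CP

open Module

variable {k L : Type} [Field k] [Field L] [Algebra k L] {D : GD k L} {η ζ : L} {p r : ℕ}

/-- Frobenius twist of a linear map: matrix of `p`-th powers.  The kernel: `FV p (ker q)`
is contained in `ker q'` and the dimensions agree (`finrank_FV`, `q'` surjective since the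
Frobenius twist of a right inverse of `q` is a right inverse of `q'`). -/
theorem exists_twist [Fact p.Prime] [CharP L p] {r2 : ℕ} (q : (Fin r → L) →ₗ[L] (Fin r2 → L))
    (hq : Function.Surjective q) :
    ∃ q' : (Fin r → L) →ₗ[L] (Fin r2 → L), (∀ w, q' (pw p w) = pw p (q w)) ∧
      Function.Surjective q' ∧ LinearMap.ker q' = FV p (LinearMap.ker q) := by
  classical
  set M : Matrix (Fin r2) (Fin r) L := LinearMap.toMatrix' q with hM
  have hqM : ∀ w, q w = M.mulVec w := fun w => by
    rw [hM, LinearMap.toMatrix'_mulVec]
  set q' : (Fin r → L) →ₗ[L] (Fin r2 → L) := Matrix.toLin' (M.map (frobenius L p)) with hq'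
  have h1 : ∀ w, q' (pw p w) = pw p (q w) := by
    intro w
    rw [hq', Matrix.toLin'_apply, hqM]
    funext i
    simp only [Matrix.mulVec, dotProduct, pw, Matrix.map_apply]
    rw [← frobenius_def (R := L) p, map_sum]
    refine Finset.sum_congr rfl fun j _ => ?_
    rw [map_mul, frobenius_def, frobenius_def]
  have h2 : Function.Surjective q' := by
    obtain ⟨g, hg⟩ := q.exists_rightInverse_of_surjective (LinearMap.range_eq_top.2 hq)
    have hMN : M * LinearMap.toMatrix' g = 1 := by
      rw [hM, ← LinearMap.toMatrix'_comp, hg, LinearMap.toMatrix'_id]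
    have hMN' : (M.map (frobenius L p)) * ((LinearMap.toMatrix' g).map (frobenius L p)) = 1 := by
      rw [← Matrix.map_mul, hMN, Matrix.map_one _ (map_zero _) (map_one _)]
    intro y
    refine ⟨((LinearMap.toMatrix' g).map (frobenius L p)).mulVec y, ?_⟩
    rw [hq', Matrix.toLin'_apply, Matrix.mulVec_mulVec, hMN', Matrix.one_mulVec]
  refine ⟨q', h1, h2, ?_⟩
  have hle : FV p (LinearMap.ker q) ≤ LinearMap.ker q' := by
    unfold FV
    rw [Submodule.span_le]
    rintro _ ⟨w, hw, rfl⟩
    have hw' : q w = 0 := hw
    show q' (pw p w) = 0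
    rw [h1, hw']
    funext i
    simp [pw, (Fact.out : p.Prime).ne_zero]
  refine (Submodule.eq_of_le_of_finrank_eq hle ?_).symm
  rw [finrank_FV]
  have e1 := LinearMap.finrank_range_add_finrank_ker q
  have e2 := LinearMap.finrank_range_add_finrank_ker q'
  rw [LinearMap.range_eq_top.2 hq, finrank_top] at e1
  rw [LinearMap.range_eq_top.2 h2, finrank_top] at e2
  omega

end R169.CP
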