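import Crest.Agent.R169.CPDefs

/-!
# Row 169, module 2a (CP): piece CPC3 (architect helper27). Statement = interface, keep it.
Definitions in CPDefs.lean; imported sorries (LatAPI, other pieces) may be used.
-/

set_option autoImplicit false

namespace R169.CP

open Module

variable {k L : Type} [Field k] [Field L] [Algebra k L] {D : GD k L} {η ζ : L} {p r : ℕ}

theorem map_Fr {r2 : ℕ} (q q' : (Fin r → L) →ₗ[L] (Fin r2 → L))
    (hqq : ∀ w, q' (pw p w) = pw p (q w)) (E : ℤ → Submodule k (Fin r → L)) (n : ℤ) :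
    (Fr D p E n).map (q'.restrictScalars k) =
      Fr D p (fun n => (E n).map (q.restrictScalars k)) n := by
  unfold Fr
  rw [Submodule.map_span]
  congr 1
  ext w
  constructor
  · rintro ⟨_, ⟨i, e, b, he, hb, rfl⟩, rfl⟩
    refine ⟨i, q e, b, ⟨e, he, rfl⟩, hb, ?_⟩
    have h1 : q' (b • pw p e) = b • pw p (q e) := by
      rw [LinearMap.map_smul, hqq]
    exact h1
  · rintro ⟨i, _, b, ⟨e, he, rfl⟩, hb, rfl⟩
    refine ⟨b • (fun j => e j ^ p), ⟨i, e, b, he, hb, rfl⟩, ?_⟩
    have h1 : q' (b • pw p e) = b • pw p (q e) := by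
      rw [LinearMap.map_smul, hqq]
    exact h1

end R169.CP
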