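import Crest.Agent.R169.CPB3
import Crest.Agent.R169.CPC1
import Crest.Agent.R169.CPC2
import Crest.Agent.R169.CPC3

/-!
# Row 169, module 2a (CP): piece CPC4 (architect helper27). Statement = interface, keep it.
Definitions in CPDefs.lean; imported sorries (LatAPI, other pieces) may be used.
-/

set_option autoImplicit false

namespace R169.CP

open Module

variable {k L : Type} [Field k] [Field L] [Algebra k L] {D : GD k L} {η ζ : L} {p r : ℕ}

/-- (P1 for quotients) the invariants of the quotients of `Fr E` by twisted subspaces.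
Proof: `exists_proj`, `E'' n = (E n).map q` is a lattice (`IsLat.map`) with `lspan = ⊤`, `HasHP E'' N2 β2 γ2`
by `finrank_map_of_ker`; `FrobFormula` for `E''` (`r2 > 0` since `V ≠ ⊤`); `exists_twist`, `map_Fr`,
`finrank_map_of_ker` again. `β'/N2 - bB = p (β2/N2 - bB)` and `N2 ≠ 0` (`IsLat.rank`). -/
theorem quo_Fr [Fact p.Prime] [CharP L p] (hP : Par D η ζ) (hF : FrobFormula D η ζ p)
    {dB βB γB : ℚ} (hB : HasHP D.B dB βB γB)
    {E : ℤ → Submodule k (Fin r → L)} (hE : IsLat D η ζ E) (hs : lspan L E = ⊤)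
    (V : Submodule L (Fin r → L)) (hV : V ≠ ⊤) {N2 β2 γ2 : ℚ} (h2 : HasHP (quo E V) N2 β2 γ2) :
    0 < N2 ∧ ∃ γ' : ℚ, HasHP (quo (Fr D p E) (FV p V)) N2
      (p * β2 + (1 - p) * (βB / dB) * N2) γ' := by
  obtain ⟨r2, q, hq, hker⟩ := exists_proj V
  have hr2 : 0 < r2 := by
    rcases Nat.eq_zero_or_pos r2 with h0 | h0
    · subst h0
      exfalso
      apply hV
      rw [← hker]
      ext w
      simp only [LinearMap.mem_ker, Submodule.mem_top, iff_true]
      exact Subsingleton.elim _ _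
    · exact h0
  have hkerk : LinearMap.ker (q.restrictScalars k) = LinearMap.ker (V.mkQ.restrictScalars k) := by
    ext w
    simp only [LinearMap.mem_ker, LinearMap.coe_restrictScalars]
    rw [← LinearMap.mem_ker, hker, Submodule.mkQ_apply, Submodule.Quotient.mk_eq_zero]
  have hE2 : IsLat D η ζ (fun n => (E n).map (q.restrictScalars k)) := hE.map q
  have hs2 : lspan L (fun n => (E n).map (q.restrictScalars k)) = ⊤ := by
    have h1 : (⋃ n, (((E n).map (q.restrictScalars k) : Submodule k (Fin r2 → L)) :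
        Set (Fin r2 → L))) = q '' (⋃ n, (E n : Set (Fin r → L))) := by
      rw [Set.image_iUnion]
      rfl
    unfold lspan
    rw [h1, Submodule.span_image]
    have h2 : Submodule.span L (⋃ n, (E n : Set (Fin r → L))) = ⊤ := hs
    rw [h2, Submodule.map_top, LinearMap.range_eq_top]
    exact hq
  have hh : HasHP (fun n => (E n).map (q.restrictScalars k)) N2 β2 γ2 := by
    obtain ⟨n0, hn0⟩ := h2
    refine ⟨n0, fun n hn => ?_⟩
    rw [← hn0 n hn]
    congr 1
    exact finrank_map_of_ker (E n) (q.restrictScalars k) (V.mkQ.restrictScalars k) hkerk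
  obtain ⟨hd, hN⟩ := IsLat.rank hP hB hE2 hh
  have hN2 : 0 < N2 := by
    rw [hN, hs2, finrank_top, Module.finrank_fin_fun]
    have : (0 : ℚ) < (r2 : ℚ) := by exact_mod_cast hr2
    positivity
  refine ⟨hN2, ?_⟩
  obtain ⟨β', γ', hF1, hF2, -⟩ := hF dB βB γB hB r2 _ hr2 hE2 hs2 N2 β2 γ2 hh
  obtain ⟨q', hqq, hq', hker'⟩ := exists_twist (p := p) q hq
  have hβ : β' = p * β2 + (1 - p) * (βB / dB) * N2 := by
    have h3 : β' / N2 = p * (β2 / N2 - βB / dB) + βB / dB := by linarith
    rw [div_eq_iff hN2.ne'] at h3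
    rw [h3]
    have h4 : β2 / N2 * N2 = β2 := div_mul_cancel₀ _ hN2.ne'
    linear_combination (p : ℚ) * h4
  refine ⟨γ', ?_⟩
  rw [← hβ]
  obtain ⟨n0, hn0⟩ := hF1
  refine ⟨n0, fun n hn => ?_⟩
  rw [← hn0 n hn]
  congr 1
  have hkerk' : LinearMap.ker ((FV p V).mkQ.restrictScalars k) =
      LinearMap.ker (q'.restrictScalars k) := by
    ext w
    simp only [LinearMap.mem_ker, LinearMap.coe_restrictScalars]
    rw [Submodule.mkQ_apply, Submodule.Quotient.mk_eq_zero, ← LinearMap.mem_ker, hker', hker]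
  rw [← map_Fr q q' hqq E n]
  exact finrank_map_of_ker (Fr D p E n) ((FV p V).mkQ.restrictScalars k)
    (q'.restrictScalars k) hkerk'

end R169.CP
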