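import Crest.Agent.R169.CPC4

/-!
# Row 169, module 2a (CP): piece CPC5 (architect helper27). Statement = interface, keep it.
Definitions in CPDefs.lean; imported sorries (LatAPI, other pieces) may be used.
-/

set_option autoImplicit false

namespace R169.CP

open Module

variable {k L : Type} [Field k] [Field L] [Algebra k L] {D : GD k L} {η ζ : L} {p r : ℕ}

/-- (P1 for subspaces) by subtraction: `finrank_sat_add_quo` for `E` and for `Fr E`
(`Fr E` finite dimensional by `isLat_Fr`), `quo_Fr`, and `FrobFormula` for `E`.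
For `V = ⊤` use `FV_top` and `FrobFormula` directly. `N1 > 0`. -/
theorem sat_Fr [Fact p.Prime] [CharP L p] (hP : Par D η ζ) (hF : FrobFormula D η ζ p)
    {dB βB γB : ℚ} (hB : HasHP D.B dB βB γB)
    {E : ℤ → Submodule k (Fin r → L)} (hE : IsLat D η ζ E) (hs : lspan L E = ⊤)
    (hle : ∀ n, E n ≤ Bpow D r n)
    (V : Submodule L (Fin r → L)) (hV : V ≠ ⊥) {N1 β1 γ1 : ℚ} (h1 : HasHP (sat E V) N1 β1 γ1) :
    0 < N1 ∧ ∃ γ' : ℚ, HasHP (sat (Fr D p E) (FV p V)) N1
      (p * β1 + (1 - p) * (βB / dB) * N1) γ' := by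
  have hfinE : ∀ n, FiniteDimensional k (E n) := hE.fin
  -- `r > 0`
  have hr : 0 < r := by
    rcases Nat.eq_zero_or_pos r with h0 | h0
    · exfalso
      apply hV
      subst h0
      exact (Submodule.eq_bot_iff V).2 fun x _ => Subsingleton.elim _ _
    · exact h0
  have hV0 : 0 < Module.finrank L V := by
    rw [Nat.pos_iff_ne_zero]
    intro h0
    exact hV (Submodule.finrank_eq_zero.1 h0)
  -- `N1 > 0`
  have hsat : IsLat D η ζ (sat E V) := hE.sat hP V
  obtain ⟨hd, hN1⟩ := hsat.rank hP hB h1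
  rw [lspan_sat hE hs] at hN1
  have hN1pos : 0 < N1 := by
    rw [hN1]
    exact mul_pos hd (by exact_mod_cast hV0)
  refine ⟨hN1pos, ?_⟩
  -- invariants of `E` and of `Fr E`
  obtain ⟨N, β, γ, hEHP, -, -⟩ := (hE.toPLat hP).hasHP
  obtain ⟨-, hN⟩ := hE.rank hP hB hEHP
  rw [hs, finrank_top] at hN
  have hNpos : (0 : ℚ) < N := by
    rw [hN]
    refine mul_pos hd ?_
    have : Module.finrank L (Fin r → L) = r := by simp
    rw [this]
    exact_mod_cast hr
  obtain ⟨β', γ', hFr, hb, -⟩ := hF dB βB γB hB r E hr hE hs N β γ hEHP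
  have hβ' : β' = p * β + (1 - p) * (βB / dB) * N := by
    have hN0 : (N : ℚ) ≠ 0 := hNpos.ne'
    have h2 : β' / N = p * (β / N - βB / dB) + βB / dB := by linarith
    have h3 : β' = (p * (β / N - βB / dB) + βB / dB) * N := by
      rw [← h2]; field_simp
    rw [h3]
    field_simp
    ring
  by_cases hVt : V = ⊤
  · subst hVt
    have e1 : sat E (⊤ : Submodule L (Fin r → L)) = E := by
      funext n
      unfold sat
      rw [Submodule.restrictScalars_top, inf_top_eq]
    have e2 : sat (Fr D p E) (FV p (⊤ : Submodule L (Fin r → L))) = Fr D p E := by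
      funext n
      unfold sat
      rw [FV_top, Submodule.restrictScalars_top, inf_top_eq]
    rw [e1] at h1
    rw [e2]
    obtain ⟨a1, a2, -⟩ := h1.unique hEHP
    refine ⟨γ', ?_⟩
    rw [a1, a2, ← hβ']
    exact hFr
  · have hquo : IsLat D η ζ (quo E V) := hE.quo V
    obtain ⟨N2, β2, γ2, h2, -, -⟩ := (hquo.toPLat hP).hasHP
    obtain ⟨s1, s2, -⟩ := HasHP.sub_quo hfinE hEHP h1 h2
    obtain ⟨-, γ2', h2'⟩ := quo_Fr hP hF hB hE hs V hVt h2
    have hfinFr : ∀ n, FiniteDimensional k (Fr D p E n) := (isLat_Fr hP hle).fin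
    refine ⟨γ' - γ2', ?_⟩
    obtain ⟨n0, hn0⟩ := hFr
    obtain ⟨n2, hn2⟩ := h2'
    refine ⟨max n0 n2, fun n hn => ?_⟩
    have t1 := hn0 n (le_trans (le_max_left _ _) hn)
    have t2 := hn2 n (le_trans (le_max_right _ _) hn)
    have t3 := finrank_sat_add_quo (Fr D p E) hfinFr (FV p V) n
    have t4 : (Module.finrank k (Fr D p E n) : ℚ) = Module.finrank k (sat (Fr D p E) (FV p V) n) +
        Module.finrank k (quo (Fr D p E) (FV p V) n) := by exact_mod_cast t3
    have t5 : (Module.finrank k (sat (Fr D p E) (FV p V) n) : ℚ) =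
        (N / 2 * n ^ 2 - β' * n + γ') - (N2 / 2 * n ^ 2 - (p * β2 + (1 - p) * (βB / dB) * N2) * n + γ2') := by
      rw [← t1, ← t2, t4]; ring
    rw [t5, hβ', s1, s2]
    ring

end R169.CP
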