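import Crest.Agent.R169.CPC5

/-!
# Row 169, module 2a (CP): piece CPC6 (architect helper27). Statement = interface, keep it.
Definitions in CPDefs.lean; imported sorries (LatAPI, other pieces) may be used.
-/

set_option autoImplicit false

namespace R169.CP

open Module

variable {k L : Type} [Field k] [Field L] [Algebra k L] {D : GD k L} {η ζ : L} {p r : ℕ}

/-- slopes of subspaces of the hull: with `b = β / N`,
`b (G ∩ FV V) ≥ p (b - bB) + bB`.  Proof: `sat_Fr`; `sat (hull Φ) U` and `sat Φ U` have the same `N, β`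
(`HasHP.beta_eq_of_bdd` with the constant of `hull_bdd`, since
`sat (hull Φ) U n / sat Φ U n` embeds in `hull Φ n / Φ n`); semistability of `E`. -/
theorem sat_hull [Fact p.Prime] [CharP L p] (hP : Par D η ζ) (hF : FrobFormula D η ζ p)
    {dB βB γB : ℚ} (hB : HasHP D.B dB βB γB)
    {E : ℤ → Submodule k (Fin r → L)} (hE : IsLat D η ζ E) (hs : lspan L E = ⊤)
    (hle : ∀ n, E n ≤ Bpow D r n) {N β γ : ℚ} (hh : HasHP E N β γ) (hss : Semistable L E N β)
    (V : Submodule L (Fin r → L)) (hV : V ≠ ⊥) {N' β' γ' : ℚ}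
    (h' : HasHP (sat (hull η ζ (Fr D p E)) (FV p V)) N' β' γ') :
    0 < N' ∧ (p * (β / N - βB / dB) + βB / dB) * N' ≤ β' := by
  have hΦ : IsLat D η ζ (Fr D p E) := isLat_Fr hP hle
  have hH : IsLat D η ζ (hull η ζ (Fr D p E)) := hΦ.hull hP
  have hΦP : IsPLat η ζ (Fr D p E) := hΦ.toPLat hP
  obtain ⟨N1, β1, γ1, h1, -, -⟩ := ((hE.sat hP V).toPLat hP).hasHP
  obtain ⟨hN1, γ2, h2⟩ := sat_Fr hP hF hB hE hs hle V hV h1
  obtain ⟨C, hC⟩ := hull_bdd hP hΦ
  -- comparison of the invariants
  have hcmp := HasHP.beta_eq_of_bdd (E := sat (hull η ζ (Fr D p E)) (FV p V))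
    (E' := sat (Fr D p E) (FV p V))
    (fun n => inf_le_inf_right _ (le_hull hΦP n)) (hH.sat hP (FV p V)).fin C
    (fun n => by
      have hfin1 : FiniteDimensional k (hull η ζ (Fr D p E) n) := hH.fin n
      have hfin2 : FiniteDimensional k (Fr D p E n) := hΦ.fin n
      have hfin3 : FiniteDimensional k (sat (hull η ζ (Fr D p E)) (FV p V) n) :=
        (hH.sat hP (FV p V)).fin n
      have e1 := Submodule.finrank_sup_add_finrank_inf_eq
        (sat (hull η ζ (Fr D p E)) (FV p V) n) (Fr D p E n)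
      have e2 : sat (hull η ζ (Fr D p E)) (FV p V) n ⊔ Fr D p E n ≤ hull η ζ (Fr D p E) n :=
        sup_le inf_le_left (le_hull hΦP n)
      have e3 : sat (hull η ζ (Fr D p E)) (FV p V) n ⊓ Fr D p E n ≤
          sat (Fr D p E) (FV p V) n := fun w hw => ⟨hw.2, hw.1.2⟩
      have e4 := Submodule.finrank_mono e2
      have hfin4 : FiniteDimensional k (sat (Fr D p E) (FV p V) n) :=
        (hΦ.sat hP (FV p V)).fin n
      have e5 := Submodule.finrank_mono e3
      have e6 := hC n
      omega) h' h2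
  obtain ⟨hN, hβ⟩ := hcmp
  have hrank := hE.rank hP hB hh
  rw [hs, finrank_top, Module.finrank_fin_fun] at hrank
  have hr : 0 < r := by
    rcases Nat.eq_zero_or_pos r with h0 | h0
    · exfalso
      subst h0
      exact hV (Subsingleton.elim _ _)
    · exact h0
  have hNpos : 0 < N := by
    rw [hrank.2]
    have : (0 : ℚ) < r := by exact_mod_cast hr
    exact mul_pos hrank.1 this
  have hss1 := hss V hV _ _ _ h1
  rw [hN, hβ]
  refine ⟨hN1, ?_⟩
  have hp : (0 : ℚ) ≤ p := Nat.cast_nonneg p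
  have h5 : β / N * N1 ≤ β1 := by
    rw [div_mul_eq_mul_div, div_le_iff₀ hNpos]
    exact hss1
  have h6 := mul_le_mul_of_nonneg_left h5 hp
  nlinarith [h6]

end R169.CP
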