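import Crest.Agent.R169.CPC5

/-!
# Row 169, module 2a (CP): piece CPC7 (architect helper27). Statement = interface, keep it.
Definitions in CPDefs.lean; imported sorries (LatAPI, other pieces) may be used.
-/

set_option autoImplicit false

namespace R169.CP

open Module

variable {k L : Type} [Field k] [Field L] [Algebra k L] {D : GD k L} {η ζ : L} {p r : ℕ}

/-- slopes of quotients of the hull: `b (G / G ∩ FV V) ≤ p (b - bB) + bB`. Same proof with
`quo_Fr`; `quo (hull Φ) U n / quo Φ U n` is a quotient of `hull Φ n / Φ n`;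
`β2 N ≤ β N2` from `β1 N ≥ β N1` and additivity (if `V = ⊥` trivial). -/
theorem quo_hull [Fact p.Prime] [CharP L p] (hP : Par D η ζ) (hF : FrobFormula D η ζ p)
    {dB βB γB : ℚ} (hB : HasHP D.B dB βB γB)
    {E : ℤ → Submodule k (Fin r → L)} (hE : IsLat D η ζ E) (hs : lspan L E = ⊤)
    (hle : ∀ n, E n ≤ Bpow D r n) {N β γ : ℚ} (hh : HasHP E N β γ) (hss : Semistable L E N β)
    (V : Submodule L (Fin r → L)) (hV : V ≠ ⊤) {N' β' γ' : ℚ}
    (h' : HasHP (quo (hull η ζ (Fr D p E)) (FV p V)) N' β' γ') :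
    0 < N' ∧ β' ≤ (p * (β / N - βB / dB) + βB / dB) * N' := by
  have hΦ : IsLat D η ζ (Fr D p E) := isLat_Fr hP hle
  have hH : IsLat D η ζ (hull η ζ (Fr D p E)) := IsLat.hull hP hΦ
  -- the invariants of the sub and of the quotient of `E`
  obtain ⟨N2, β2, γ2, h2, -, -⟩ := ((hE.quo V).toPLat hP).hasHP
  obtain ⟨N1, β1, γ1, h1, -, -⟩ := ((hE.sat hP V).toPLat hP).hasHP
  obtain ⟨e1, e2, -⟩ := HasHP.sub_quo hE.fin hh h1 h2
  obtain ⟨hN2, γ2', h2'⟩ := quo_Fr hP hF hB hE hs V hV h2
  -- the hull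
  obtain ⟨C, hC⟩ := hull_bdd hP hΦ
  have hqle : ∀ n, quo (Fr D p E) (FV p V) n ≤ quo (hull η ζ (Fr D p E)) (FV p V) n :=
    fun n => Submodule.map_mono (le_hull (hΦ.toPLat hP) n)
  have hqC : ∀ n, finrank k (quo (hull η ζ (Fr D p E)) (FV p V) n) ≤
      finrank k (quo (Fr D p E) (FV p V) n) + C := by
    intro n
    have a1 := finrank_sat_add_quo (hull η ζ (Fr D p E)) hH.fin (FV p V) n
    have a2 := finrank_sat_add_quo (Fr D p E) hΦ.fin (FV p V) n
    have a3 := hC n
    have a4 : finrank k (sat (Fr D p E) (FV p V) n) ≤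
        finrank k (sat (hull η ζ (Fr D p E)) (FV p V) n) := by
      have hfin : FiniteDimensional k (sat (hull η ζ (Fr D p E)) (FV p V) n) := by
        have := hH.fin n
        exact Submodule.finiteDimensional_of_le
          (inf_le_left : sat (hull η ζ (Fr D p E)) (FV p V) n ≤ hull η ζ (Fr D p E) n)
      exact Submodule.finrank_mono (inf_le_inf_right _ (le_hull (hΦ.toPLat hP) n))
    omega
  obtain ⟨f1, f2⟩ := HasHP.beta_eq_of_bdd hqle (hH.quo (FV p V)).fin C hqC h' h2'
  rw [f1, f2]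
  refine ⟨hN2, ?_⟩
  have hN1 : (0 : ℚ) ≤ N1 := Nat.cast_nonneg N1
  have hN : 0 < N := by rw [e1]; linarith
  -- semistability
  have key : β2 * N ≤ β * N2 := by
    by_cases hb : V = ⊥
    · have hz : HasHP (sat E V) 0 0 0 := by
        refine ⟨0, fun n _ => ?_⟩
        have : sat E V n = ⊥ := by
          rw [hb, eq_bot_iff]
          intro x hx
          exact hx.2
        rw [this, finrank_bot]
        simp
      obtain ⟨g1, g2, -⟩ := HasHP.unique h1 hz
      rw [g1, zero_add] at e1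
      rw [g2, zero_add] at e2
      rw [e1, e2]
    · have := hss V hb N1 β1 γ1 h1
      have k1 : (N1 : ℚ) = N - N2 := by linarith
      have k2 : β1 = β - β2 := by linarith
      rw [k1, k2] at this
      linarith
  have hp : (0 : ℚ) ≤ p := Nat.cast_nonneg p
  have key2 : β2 ≤ β / N * N2 := by
    rw [div_mul_eq_mul_div, le_div_iff₀ hN]
    exact key
  have key3 := mul_le_mul_of_nonneg_left key2 hp
  calc (p : ℚ) * β2 + (1 - p) * (βB / dB) * N2 ≤
        p * (β / N * N2) + (1 - p) * (βB / dB) * N2 := by linarith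
    _ = (p * (β / N - βB / dB) + βB / dB) * N2 := by ring

end R169.CP
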