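import Crest.Agent.R169.CPDefs

/-!
# Row 169, module 2a (CP): piece CPD1 (architect helper27). Statement = interface, keep it.
Definitions in CPDefs.lean; imported sorries (LatAPI, other pieces) may be used.
-/

set_option autoImplicit false

namespace R169.CP

open Module

variable {k L : Type} [Field k] [Field L] [Algebra k L] {D : GD k L} {η ζ : L} {p r : ℕ}

private theorem coef_le {a K : ℚ} {n1 : ℤ} (h : ∀ n : ℤ, n1 ≤ n → a * n ≤ K) : a ≤ 0 := by
  by_contra hcon
  push Not at hcon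
  obtain ⟨m, hm⟩ := exists_int_gt (K / a)
  have h1 := h (max n1 m) (le_max_left _ _)
  have h2 : (m : ℚ) ≤ ((max n1 m : ℤ) : ℚ) := by exact_mod_cast le_max_right n1 m
  have h3 : K < a * m := by
    rw [div_lt_iff₀ hcon] at hm
    linarith
  have h4 : a * (m : ℚ) ≤ a * ((max n1 m : ℤ) : ℚ) := mul_le_mul_of_nonneg_left h2 hcon.le
  linarith

/-- comparison of `β` from an inequality of dimensions:
`s dim B_{n-c} ≤ dim S_n` for large `n` and `HasHP S (s dB) β' γ'` give `β' ≤ s (βB + dB c)`. -/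
theorem beta_le_of_free {W : Type} [AddCommGroup W] [Module k W] {dB βB γB : ℚ}
    (hB : HasHP D.B dB βB γB) (S : ℤ → Submodule k W) {s : ℕ} {c : ℤ} {β' γ' : ℚ}
    (hS : HasHP S (s * dB) β' γ')
    (h : ∀ n, s * finrank k (D.B (n - c)) ≤ finrank k (S n)) : β' ≤ s * (βB + dB * c) := by
  obtain ⟨n0, h0⟩ := hB
  obtain ⟨n1, h1⟩ := hS
  have key : β' - s * (βB + dB * c) ≤ 0 := by
    refine coef_le (K := γ' - s * (dB / 2 * c ^ 2 + βB * c + γB)) (n1 := max (n0 + c) n1) ?_
    intro n hn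
    have e0 := h0 (n - c) (by have := le_trans (le_max_left _ _) hn; omega)
    have e1 := h1 n (le_trans (le_max_right _ _) hn)
    have e2 : ((s * finrank k (D.B (n - c)) : ℕ) : ℚ) ≤ (finrank k (S n) : ℕ) := by
      exact_mod_cast h n
    rw [Nat.cast_mul, e0, e1] at e2
    push_cast at e2
    linarith
  linarith

/-- the other direction: `dim S_n ≤ s dim B_{n+c}` gives `s (βB - dB c) ≤ β'`. -/
theorem free_le_beta {W : Type} [AddCommGroup W] [Module k W] {dB βB γB : ℚ}
    (hB : HasHP D.B dB βB γB) (S : ℤ → Submodule k W) {s : ℕ} {c : ℤ} {β' γ' : ℚ}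
    (hS : HasHP S (s * dB) β' γ')
    (h : ∀ n, finrank k (S n) ≤ s * finrank k (D.B (n + c))) : s * (βB - dB * c) ≤ β' := by
  obtain ⟨n0, h0⟩ := hB
  obtain ⟨n1, h1⟩ := hS
  have key : s * (βB - dB * c) - β' ≤ 0 := by
    refine coef_le (K := s * (dB / 2 * c ^ 2 - βB * c + γB) - γ') (n1 := max (n0 - c) n1) ?_
    intro n hn
    have e0 := h0 (n + c) (by have := le_trans (le_max_left _ _) hn; omega)
    have e1 := h1 n (le_trans (le_max_right _ _) hn)
    have e2 : ((finrank k (S n) : ℕ) : ℚ) ≤ ((s * finrank k (D.B (n + c)) : ℕ) : ℚ) := by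
      exact_mod_cast h n
    rw [Nat.cast_mul, e0, e1] at e2
    push_cast at e2
    linarith
  linarith

end R169.CP
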