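import Crest.Agent.R169.CPB1

/-!
# Row 169, module 2a (CP): piece CPD2 (architect helper27). Statement = interface, keep it.
Definitions in CPDefs.lean; imported sorries (LatAPI, other pieces) may be used.
-/

set_option autoImplicit false

namespace R169.CP

open Module

variable {k L : Type} [Field k] [Field L] [Algebra k L] {D : GD k L} {η ζ : L} {p r : ℕ}

/-- a subspace `U` spanned by vectors of `G c` contains a free lattice:
`finrank U * dim B_{n-c} ≤ dim (G ∩ U)_n`.  Choose a basis `w_i` of `U` in `U ∩ G c`
(`exists_linearIndependent`), the map `(b_i) ↦ Σ b_i w_i` is injective. -/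
theorem free_in_sat {G : ℤ → Submodule k (Fin r → L)} (hG : IsLat D η ζ G)
    (U : Submodule L (Fin r → L)) {c : ℤ}
    (hU : Submodule.span L ((U : Set (Fin r → L)) ∩ G c) = U) (n : ℤ) :
    finrank L U * finrank k (D.B (n - c)) ≤ finrank k (sat G U n) := by
  classical
  obtain ⟨b, hbs, hspan, hli⟩ := exists_linearIndependent L ((U : Set (Fin r → L)) ∩ G c)
  haveI : Fintype b := hli.setFinite.fintype
  have hcard : finrank L U = Fintype.card b := by
    rw [← hU, ← hspan, finrank_span_set_eq_card hli, Set.toFinset_card]
  haveI := hG.fin n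
  haveI := D.fin (n - c)
  have hle : sat G U n ≤ G n := inf_le_left
  haveI : FiniteDimensional k (sat G U n) := Submodule.finiteDimensional_of_le hle
  have hmem : ∀ β : b → D.B (n - c), ∑ w, ((β w : L)) • (w : Fin r → L) ∈ sat G U n := by
    intro β
    refine Submodule.sum_mem _ fun w _ => ?_
    have h1 : (β w : L) • (w : Fin r → L) ∈ G (n - c + c) := hG.smul_mem (β w).2 (hbs w.2).2
    rw [sub_add_cancel] at h1
    exact ⟨h1, U.smul_mem _ (hbs w.2).1⟩
  let f : (b → D.B (n - c)) →ₗ[k] sat G U n :=
    { toFun := fun β => ⟨∑ w, ((β w : L)) • (w : Fin r → L), hmem β⟩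
      map_add' := by
        intro x y
        apply Subtype.ext
        simp only [Pi.add_apply, Submodule.coe_add, add_smul, Finset.sum_add_distrib]
      map_smul' := by
        intro a x
        apply Subtype.ext
        simp only [Pi.smul_apply, Submodule.coe_smul, smul_assoc, Finset.smul_sum,
          RingHom.id_apply] }
  have hf : Function.Injective f := by
    intro x y hxy
    have h1 : ∑ w, ((x w : L)) • (w : Fin r → L) = ∑ w, ((y w : L)) • (w : Fin r → L) :=
      congrArg Subtype.val hxy
    have h2 : ∑ w, ((x w : L) - (y w : L)) • (w : Fin r → L) = 0 := by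
      simp only [sub_smul, Finset.sum_sub_distrib, h1, sub_self]
    have h3 := Fintype.linearIndependent_iff.1 hli _ h2
    funext w
    exact Subtype.ext (sub_eq_zero.1 (h3 w))
  have h4 := LinearMap.finrank_le_finrank_of_injective hf
  rw [Module.finrank_pi_fintype] at h4
  simp only [Finset.sum_const, Finset.card_univ, smul_eq_mul] at h4
  rw [hcard]
  exact h4

end R169.CP
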