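import Crest.Agent.R169.CPA2
import Crest.Agent.R169.CPA3
import Crest.Agent.R169.CPB4
import Crest.Agent.R169.CPC6
import Crest.Agent.R169.CPD1
import Crest.Agent.R169.CPD2

/-!
# Row 169, module 2a (CP): piece CPD3 (architect helper27). Statement = interface, keep it.
Definitions in CPDefs.lean; imported sorries (LatAPI, other pieces) may be used.
-/

set_option autoImplicit false

namespace R169.CP

open Module

variable {k L : Type} [Field k] [Field L] [Algebra k L] {D : GD k L} {η ζ : L} {p r : ℕ}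

/-- (P4) if `0 ≠ w ∈ G n` then `n ≥ p (b - bB) - (r - 1) C0`.
Proof: `stable_span` for `G` (`hull_deriv`, `Fr_deriv`, `IsLat.mono`), `descent`: `U = FV p V`, `V ≠ ⊥`;
`free_in_sat` with `c = n + (r-1) C0`; `HasHP (sat G U) (finrank U * dB) ..` by `IsLat.sat`, `IsLat.rank`,
`lspan_sat` (`lspan G = ⊤` from `lspan_Fr`, `FV_top`, `le_hull`); `beta_le_of_free`, `sat_hull`. -/
theorem hull_vanish [Fact p.Prime] [CharP L p] (hP : Par D η ζ) (hF : FrobFormula D η ζ p)
    {dB βB γB : ℚ} (hB : HasHP D.B dB βB γB) {C0 : ℤ} (hC0 : 0 ≤ C0) (hD : DerCond D p C0)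
    {E : ℤ → Submodule k (Fin r → L)} (hE : IsLat D η ζ E) (hs : lspan L E = ⊤)
    (hle : ∀ n, E n ≤ Bpow D r n) {N β γ : ℚ} (hh : HasHP E N β γ) (hss : Semistable L E N β)
    {n : ℤ} {w : Fin r → L} (hw : w ∈ hull η ζ (Fr D p E) n) (hw0 : w ≠ 0) :
    p * (β / N - βB / dB) - (r - 1) * C0 ≤ (n : ℚ) := by
  obtain ⟨D1, D2, hder, hker⟩ := hD
  have hΦ : IsLat D η ζ (Fr D p E) := isLat_Fr hP hle
  have hG : IsLat D η ζ (hull η ζ (Fr D p E)) := hΦ.hull hP
  have hGd : ∀ n w, w ∈ hull η ζ (Fr D p E) n → cw D1 w ∈ hull η ζ (Fr D p E) (n + C0) ∧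
      cw D2 w ∈ hull η ζ (Fr D p E) (n + C0) := by
    intro n w hw
    exact ⟨hull_deriv hP D1 hΦ (fun n w hw => Fr_deriv D1 (fun n b hb => (hder n b hb).1) E hw) hw,
      hull_deriv hP D2 hΦ (fun n w hw => Fr_deriv D2 (fun n b hb => (hder n b hb).2) E hw) hw⟩
  obtain ⟨U, hwU, h1, h2, hspan⟩ := stable_span D1 D2 hC0 (hull η ζ (Fr D p E))
    (fun n => hG.mono n) hGd n w hw hw0
  obtain ⟨V, hV⟩ := descent (p := p) D1 D2 hker U h1 h2
  have hV0 : V ≠ ⊥ := by
    rintro rfl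
    have hbot : FV p (⊥ : Submodule L (Fin r → L)) = ⊥ := by
      unfold FV
      rw [Submodule.span_eq_bot]
      rintro x ⟨y, hy, rfl⟩
      have hy0 : y = 0 := by simpa using hy
      subst hy0
      funext j
      show (0 : L) ^ p = 0
      exact zero_pow (Fact.out : p.Prime).ne_zero
    rw [hV, hbot] at hwU
    exact hw0 (by simpa using hwU)
  have hspG : lspan L (hull η ζ (Fr D p E)) = ⊤ := by
    have h3 : lspan L (Fr D p E) = ⊤ := by rw [lspan_Fr, hs, FV_top]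
    rw [eq_top_iff, ← h3]
    unfold lspan
    refine Submodule.span_mono ?_
    refine Set.iUnion_mono fun i => ?_
    exact le_hull (hΦ.toPLat hP) i
  have hsat : IsLat D η ζ (sat (hull η ζ (Fr D p E)) U) := hG.sat hP U
  obtain ⟨N', β', γ', hS, -⟩ := (hsat.toPLat hP).hasHP
  obtain ⟨hdB, hrank⟩ := hsat.rank hP hB hS
  rw [lspan_sat hG hspG] at hrank
  have hS2 : HasHP (sat (hull η ζ (Fr D p E)) U) (finrank L U * dB) β' γ' := by
    rw [mul_comm, ← hrank]; exact hS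
  have hS3 : HasHP (sat (hull η ζ (Fr D p E)) (FV p V)) (N' : ℚ) β' γ' := by
    rw [← hV]; exact hS
  obtain ⟨hN', hle1⟩ := sat_hull hP hF hB hE hs hle hh hss V hV0 hS3
  have hle2 := beta_le_of_free hB (sat (hull η ζ (Fr D p E)) U) hS2
    (fun m => free_in_sat hG U hspan m)
  have hs0 : (0 : ℚ) < (finrank L U : ℚ) := by
    rw [hrank] at hN'
    exact pos_of_mul_pos_right hN' hdB.le
  rw [hrank] at hle1
  have h4 : (p * (β / N - βB / dB) + βB / dB) * (dB * (finrank L U : ℚ)) ≤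
      (finrank L U : ℚ) * (βB + dB * ((n + ((r : ℤ) - 1) * C0 : ℤ) : ℚ)) := hle1.trans hle2
  have h5 : (finrank L U : ℚ) * (βB + dB * ((n + ((r : ℤ) - 1) * C0 : ℤ) : ℚ)) =
      (βB / dB + ((n + ((r : ℤ) - 1) * C0 : ℤ) : ℚ)) * (dB * (finrank L U : ℚ)) := by
    field_simp
  rw [h5] at h4
  have h6 := le_of_mul_le_mul_right h4 (mul_pos hdB hs0)
  push_cast at h6
  linarith

end R169.CP
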