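import Crest.Agent.R169.CPB1

/-!
# Row 169, module 2a (CP): piece CPD4 (architect helper27). Statement = interface, keep it.
Definitions in CPDefs.lean; imported sorries (LatAPI, other pieces) may be used.
-/

set_option autoImplicit false

namespace R169.CP

open Module

variable {k L : Type} [Field k] [Field L] [Algebra k L] {D : GD k L} {η ζ : L} {p r : ℕ}

/-- derivations on functionals: `cw δ ψ ⬝ᵥ w = δ (ψ ⬝ᵥ w) - ψ ⬝ᵥ cw δ w`. -/
theorem dualB_deriv (δ : Derivation k L L) {C0 : ℤ}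
    (hδ : ∀ n b, b ∈ D.B n → δ b ∈ D.B (n + C0)) {G : ℤ → Submodule k (Fin r → L)}
    (hG : ∀ n w, w ∈ G n → cw δ w ∈ G (n + C0)) {j : ℤ} {ψ : Fin r → L}
    (hψ : ψ ∈ dualB D G j) : cw δ ψ ∈ dualB D G (j + C0) := by
  intro i w hw
  have h1 : δ (ψ ⬝ᵥ w) ∈ D.B (i + (j + C0)) := by
    have := hδ _ _ (hψ i w hw)
    rwa [add_assoc] at this
  have h2 : ψ ⬝ᵥ cw δ w ∈ D.B (i + (j + C0)) := by
    have := hψ _ _ (hG i w hw)
    rwa [show i + C0 + j = i + (j + C0) by ring] at this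
  have h3 : cw δ ψ ⬝ᵥ w = δ (ψ ⬝ᵥ w) - ψ ⬝ᵥ cw δ w := by
    unfold dotProduct cw
    rw [map_sum, ← Finset.sum_sub_distrib]
    refine Finset.sum_congr rfl fun x _ => ?_
    rw [Derivation.leibniz, smul_eq_mul, smul_eq_mul]
    ring
  rw [h3]
  exact Submodule.sub_mem _ h1 h2

theorem dualB_mono (G : ℤ → Submodule k (Fin r → L)) (j : ℤ) :
    dualB D G j ≤ dualB D G (j + 1) := by
  intro ψ hψ i w hw
  have h := GD.mono D (i + j) (hψ i w hw)
  rwa [add_assoc] at h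

end R169.CP
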