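import Crest.Agent.R169.CPB1

/-!
# Row 169, module 2a (CP): piece CPD5 (architect helper27). Statement = interface, keep it.
Definitions in CPDefs.lean; imported sorries (LatAPI, other pieces) may be used.
-/

set_option autoImplicit false

namespace R169.CP

open Module

variable {k L : Type} [Field k] [Field L] [Algebra k L] {D : GD k L} {η ζ : L} {p r : ℕ}

/-- `U'` a subspace of functionals spanned by elements of `dualB D G c`:
`dim (G / G ∩ orth U')_n ≤ finrank U' * dim B_{n+c}`.
Choose a basis `ψ_a` of `U'` in `dualB D G c`; `w ↦ (ψ_a ⬝ᵥ w)_a` maps `G n` to `(B_{n+c})^{finrank U'}`, with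
kernel `G n ∩ orth U'`. -/
theorem quo_orth_le {G : ℤ → Submodule k (Fin r → L)} (hG : IsLat D η ζ G)
    (U' : Submodule L (Fin r → L)) {c : ℤ}
    (hU : Submodule.span L ((U' : Set (Fin r → L)) ∩ dualB D G c) = U') (n : ℤ) :
    finrank k (quo G (orth U') n) ≤ finrank L U' * finrank k (D.B (n + c)) := by
  classical
  obtain ⟨b, hbs, hbspan, hbli⟩ :=
    exists_linearIndependent L ((U' : Set (Fin r → L)) ∩ dualB D G c)
  have hbfin : b.Finite := hbli.setFinite
  have _ : Fintype b := hbfin.fintype
  have hbU : Submodule.span L b = U' := hbspan.trans hU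
  have hcard : finrank L U' = Fintype.card b := by
    have h1 := finrank_span_eq_card hbli
    rw [Subtype.range_coe, hbU] at h1
    exact h1
  -- the evaluation map
  let Φ : (Fin r → L) →ₗ[L] (b → L) :=
    { toFun := fun w i => (i : Fin r → L) ⬝ᵥ w
      map_add' := fun w w' => by funext i; exact dotProduct_add _ _ _
      map_smul' := fun a w => by funext i; exact dotProduct_smul _ _ _ }
  have hker : LinearMap.ker Φ = orth U' := by
    ext w
    rw [LinearMap.mem_ker]
    constructor
    · intro hw u hu
      rw [← hbU] at hu
      induction hu using Submodule.span_induction with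
      | mem u hu => exact congrFun hw ⟨u, hu⟩
      | zero => exact zero_dotProduct w
      | add u v _ _ hu hv => rw [add_dotProduct, hu, hv, add_zero]
      | smul a u _ hu => rw [smul_dotProduct, hu, smul_zero]
    · intro hw
      funext i
      exact hw i (hbs i.2).1
  let lift : ((Fin r → L) ⧸ orth U') →ₗ[L] (b → L) := (orth U').liftQ Φ hker.ge
  have hlift : Function.Injective lift := by
    rw [← LinearMap.ker_eq_bot]
    exact Submodule.ker_liftQ_eq_bot _ _ _ hker.le
  have hval : ∀ x ∈ quo G (orth U') n, ∀ i : b, lift x i ∈ D.B (n + c) := by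
    rintro x ⟨w, hw, rfl⟩ i
    have h1 : lift ((orth U').mkQ w) = Φ w := Submodule.liftQ_apply _ _ _
    change lift ((orth U').mkQ w) i ∈ D.B (n + c)
    rw [h1]
    exact (hbs i.2).2 n w hw
  let g : quo G (orth U') n →ₗ[k] (b → D.B (n + c)) :=
    { toFun := fun x i => ⟨lift x i, hval x x.2 i⟩
      map_add' := fun x y => by
        funext i
        apply Subtype.ext
        change lift ((x : (Fin r → L) ⧸ orth U') + y) i = lift x i + lift y i
        rw [map_add]; rfl
      map_smul' := fun a x => by
        funext i
        apply Subtype.ext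
        change lift (a • (x : (Fin r → L) ⧸ orth U')) i = a • lift x i
        have h2 : lift (a • (x : (Fin r → L) ⧸ orth U')) = a • lift x :=
          (lift.restrictScalars k).map_smul a x
        rw [h2]; rfl }
  have hg : Function.Injective g := by
    intro x y hxy
    apply Subtype.ext
    apply hlift
    funext i
    exact congrArg Subtype.val (congrFun hxy i)
  have _ := D.fin (n + c)
  calc finrank k (quo G (orth U') n) ≤ finrank k (b → D.B (n + c)) :=
        LinearMap.finrank_le_finrank_of_injective hg
    _ = finrank L U' * finrank k (D.B (n + c)) := by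
        rw [Module.finrank_pi_fintype, Finset.sum_const, Finset.card_univ, smul_eq_mul, hcard]

end R169.CP
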