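import Crest.Agent.R169.CPA2
import Crest.Agent.R169.CPA3
import Crest.Agent.R169.CPA4
import Crest.Agent.R169.CPB4
import Crest.Agent.R169.CPC7
import Crest.Agent.R169.CPD1
import Crest.Agent.R169.CPD4
import Crest.Agent.R169.CPD5
import Crest.Agent.R169.CPB3

/-!
# Row 169, module 2a (CP): piece CPD6 (architect helper27). Statement = interface, keep it.
Definitions in CPDefs.lean; imported sorries (LatAPI, other pieces) may be used.
-/

set_option autoImplicit false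

namespace R169.CP

open Module

variable {k L : Type} [Field k] [Field L] [Algebra k L] {D : GD k L} {η ζ : L} {p r : ℕ}

/-- (P5) if `0 ≠ ψ ∈ dualB D G j` then `-j ≤ p (b - bB) + (r - 1) C0`.
Proof: `stable_span` for the family `dualB D G` (`dualB_deriv`, `dualB_mono`): `U'`; `U = orth U'` is stable
(`orth_stable`), `U ≠ ⊤`; `descent`: `U = FV p V`, `V ≠ ⊤` (`FV_top`); `quo_orth_le`, `free_le_beta`
(`N' = (r - finrank U) dB`, `finrank_orth`), `quo_hull`. -/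
theorem dual_vanish [Fact p.Prime] [CharP L p] (hP : Par D η ζ) (hF : FrobFormula D η ζ p)
    {dB βB γB : ℚ} (hB : HasHP D.B dB βB γB) {C0 : ℤ} (hC0 : 0 ≤ C0) (hD : DerCond D p C0)
    {E : ℤ → Submodule k (Fin r → L)} (hE : IsLat D η ζ E) (hs : lspan L E = ⊤)
    (hle : ∀ n, E n ≤ Bpow D r n) {N β γ : ℚ} (hh : HasHP E N β γ) (hss : Semistable L E N β)
    {j : ℤ} {ψ : Fin r → L} (hψ : ψ ∈ dualB D (hull η ζ (Fr D p E)) j) (hψ0 : ψ ≠ 0) :
    -(j : ℚ) ≤ p * (β / N - βB / dB) + (r - 1) * C0 := by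
  obtain ⟨D1, D2, hD12, hker⟩ := hD
  have hΦ : IsLat D η ζ (Fr D p E) := isLat_Fr hP hle
  have hG : IsLat D η ζ (hull η ζ (Fr D p E)) := hΦ.hull hP
  have hδ1 : ∀ n b, b ∈ D.B n → D1 b ∈ D.B (n + C0) := fun n b hb => (hD12 n b hb).1
  have hδ2 : ∀ n b, b ∈ D.B n → D2 b ∈ D.B (n + C0) := fun n b hb => (hD12 n b hb).2
  have hG1 : ∀ n w, w ∈ hull η ζ (Fr D p E) n → cw D1 w ∈ hull η ζ (Fr D p E) (n + C0) :=
    fun n w hw => hull_deriv hP D1 hΦ (fun n w hw => Fr_deriv D1 hδ1 E hw) hw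
  have hG2 : ∀ n w, w ∈ hull η ζ (Fr D p E) n → cw D2 w ∈ hull η ζ (Fr D p E) (n + C0) :=
    fun n w hw => hull_deriv hP D2 hΦ (fun n w hw => Fr_deriv D2 hδ2 E hw) hw
  obtain ⟨U', hψU, hU1, hU2, hUs⟩ := stable_span D1 D2 hC0
    (fun j => dualB D (hull η ζ (Fr D p E)) j) (fun j => dualB_mono _ j)
    (fun n w hw => ⟨dualB_deriv D1 hδ1 hG1 hw, dualB_deriv D2 hδ2 hG2 hw⟩) j ψ hψ hψ0
  have ho1 : ∀ w ∈ orth U', cw D1 w ∈ orth U' := fun w hw => orth_stable D1 U' hU1 w hw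
  have ho2 : ∀ w ∈ orth U', cw D2 w ∈ orth U' := fun w hw => orth_stable D2 U' hU2 w hw
  obtain ⟨V, hV⟩ := descent D1 D2 hker (orth U') ho1 ho2
  have hfU : 0 < finrank L U' := by
    rw [Module.finrank_pos_iff_exists_ne_zero]
    exact ⟨⟨ψ, hψU⟩, fun h => hψ0 (congrArg Subtype.val h)⟩
  have hfo := finrank_orth U'
  have hVtop : V ≠ ⊤ := by
    intro hVt
    rw [hVt, FV_top] at hV
    rw [hV, finrank_top, Module.finrank_fin_fun] at hfo
    omega
  have hlG : lspan L (hull η ζ (Fr D p E)) = ⊤ := by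
    have h1 : lspan L (Fr D p E) = ⊤ := by rw [lspan_Fr, hs, FV_top]
    rw [eq_top_iff, ← h1]
    refine Submodule.span_mono (Set.iUnion_mono fun n => ?_)
    exact le_hull (hΦ.toPLat hP) n
  have hQ : IsLat D η ζ (quo (hull η ζ (Fr D p E)) (orth U')) := hG.quo _
  obtain ⟨N', β', γ', hQh, -, -⟩ := (hQ.toPLat hP).hasHP
  obtain ⟨hd0, hN'⟩ := hQ.rank hP hB hQh
  have hfq : finrank L (lspan L (quo (hull η ζ (Fr D p E)) (orth U'))) = finrank L U' := by
    rw [lspan_quo hlG, finrank_top]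
    have h1 := Submodule.finrank_quotient_add_finrank (orth U')
    rw [Module.finrank_fin_fun] at h1
    omega
  rw [hfq] at hN'
  have hN'' : (N' : ℚ) = (finrank L U' : ℚ) * dB := by rw [hN']; ring
  have hQh2 := hQh
  rw [hN''] at hQh2
  have h1 := free_le_beta hB _ hQh2 (quo_orth_le hG U' hUs)
  rw [hV] at hQh
  obtain ⟨hN0, h2⟩ := quo_hull hP hF hB hE hs hle hh hss V hVtop hQh
  rw [hN''] at h2
  have hs0 : (0 : ℚ) < (finrank L U' : ℚ) := by exact_mod_cast hfU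
  have h3 : (finrank L U' : ℚ) * (βB - dB * ((j + (r - 1) * C0 : ℤ) : ℚ)) ≤
      (finrank L U' : ℚ) * ((p * (β / N - βB / dB) + βB / dB) * dB) := by
    refine h1.trans (h2.trans (le_of_eq (by ring)))
  have h4 := le_of_mul_le_mul_left h3 hs0
  have h5 : (p * (β / N - βB / dB) + βB / dB) * dB = (p * (β / N - βB / dB)) * dB + βB := by
    field_simp
  rw [h5] at h4
  have h6 : dB * (-((j + (r - 1) * C0 : ℤ) : ℚ)) ≤ dB * (p * (β / N - βB / dB)) := by linarith
  have h7 := le_of_mul_le_mul_left h6 hd0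
  push_cast at h7
  linarith

end R169.CP
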