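import Crest.Agent.R169.Defs2

/-!
# Row 169, module 2a (CP): definitions (architect helper27)

`cw δ w` = coordinatewise derivation, `pw p w` = coordinatewise `p`-th power, `FV p V` = `L`-span of
the `p`-th powers of the vectors of `V`, `orth U` = orthogonal of a subspace, `dualB D G j` = functionals
(as vectors) mapping `G i` to `B (i + j)`.
-/

set_option autoImplicit false

namespace R169.CP

open Module

variable {k L : Type} [Field k] [Field L] [Algebra k L]

/-- coordinatewise derivation -/
def cw {r : ℕ} (δ : Derivation k L L) (w : Fin r → L) : Fin r → L := fun j => δ (w j)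

/-- coordinatewise `p`-th power -/
def pw {r : ℕ} (p : ℕ) (w : Fin r → L) : Fin r → L := fun j => w j ^ p

/-- Frobenius twist of a subspace -/
def FV {r : ℕ} (p : ℕ) (V : Submodule L (Fin r → L)) : Submodule L (Fin r → L) :=
  Submodule.span L (pw p '' (V : Set (Fin r → L)))

/-- the orthogonal of a subspace -/
def orth {r : ℕ} (U : Submodule L (Fin r → L)) : Submodule L (Fin r → L) where
  carrier := {w | ∀ u ∈ U, u ⬝ᵥ w = 0}
  add_mem' := by
    intro a b ha hb u hu
    rw [dotProduct_add, ha u hu, hb u hu, add_zero]
  zero_mem' := by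
    intro u _
    exact dotProduct_zero u
  smul_mem' := by
    intro c a ha u hu
    rw [dotProduct_smul, ha u hu, smul_zero]

/-- `B`-functionals on `G` of degree `j`, as vectors -/
def dualB {r : ℕ} (D : GD k L) (G : ℤ → Submodule k (Fin r → L)) (j : ℤ) :
    Submodule k (Fin r → L) where
  carrier := {ψ | ∀ i w, w ∈ G i → ψ ⬝ᵥ w ∈ D.B (i + j)}
  add_mem' := by
    intro a b ha hb i w hw
    rw [add_dotProduct]
    exact Submodule.add_mem _ (ha i w hw) (hb i w hw)
  zero_mem' := by
    intro i w _
    rw [zero_dotProduct]
    exact Submodule.zero_mem _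
  smul_mem' := by
    intro c a ha i w hw
    rw [smul_dotProduct]
    exact Submodule.smul_mem _ c (ha i w hw)

end R169.CP
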