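import Crest.Agent.R169.CPB2

/-!
# Row 169, module 2a (CP): piece CPE1 (architect helper27). Statement = interface, keep it.
Definitions in CPDefs.lean; imported sorries (LatAPI, other pieces) may be used.
-/

set_option autoImplicit false

namespace R169.CP

open Module

variable {k L : Type} [Field k] [Field L] [Algebra k L] {D : GD k L} {η ζ : L} {p r : ℕ}

/-- the hull of `Fr E` stays inside `Bpow` (`isRefl_Bpow`, `Fr_le_Bpow`, `mem_hull`). -/
theorem hull_le_Bpow (hP : Par D η ζ) (hr : IsRefl (k := k) η ζ D.B)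
    {E : ℤ → Submodule k (Fin r → L)} (hle : ∀ n, E n ≤ Bpow D r n) (n : ℤ) :
    hull η ζ (Fr D p E) n ≤ Bpow D r n := by
  refine Submodule.span_le.2 ?_
  intro w hw
  refine isRefl_Bpow hr r n w ?_
  intro π hπ
  obtain ⟨s, F, hF, hπF, hw'⟩ := hw π hπ
  exact ⟨s, F, hF, hπF, Fr_le_Bpow hle _ hw'⟩

end R169.CP
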