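import Crest.Agent.R169.CPB1

/-!
# Row 169, module 2a (CP): piece CPE2a (architect helper27). Statement = interface, keep it.
Definitions in CPDefs.lean; imported sorries (LatAPI, other pieces) may be used.
-/

set_option autoImplicit false

namespace R169.CP

open Module

variable {k L : Type} [Field k] [Field L] [Algebra k L] {D : GD k L} {η ζ : L} {p r : ℕ}

omit [Algebra k L] in
theorem exists_mult_nat (n0 : ℤ) (m : ℤ) (d β γ : ℚ) : ∃ t : ℕ, n0 ≤ (t : ℤ) ∧ n0 ≤ (t : ℤ) - m ∧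
    d / 2 * ((t : ℤ) : ℚ) ^ 2 - β * ((t : ℤ) : ℚ) + γ <
      (d / 2 * (((t : ℤ) - m : ℤ) : ℚ) ^ 2 - β * (((t : ℤ) - m : ℤ) : ℚ) + γ) +
        ((t : ℚ) + 1) * ((t : ℚ) + 2) / 2 := by
  obtain ⟨N, hN⟩ := exists_nat_ge (2 * (|d * m| + |d / 2 * (m : ℚ) ^ 2 + β * m|) + 1)
  refine ⟨N + n0.natAbs + m.natAbs, by omega, by omega, ?_⟩
  set t : ℕ := N + n0.natAbs + m.natAbs with ht
  have h1 : (N : ℚ) ≤ (t : ℚ) := by exact_mod_cast (by omega : N ≤ t)
  have h2 : 2 * (|d * m| + |d / 2 * (m : ℚ) ^ 2 + β * m|) + 1 ≤ (t : ℚ) := hN.trans h1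
  have h3 := neg_abs_le (d / 2 * (m : ℚ) ^ 2 + β * m)
  have h4 := le_abs_self (d * m)
  have h5 := abs_nonneg (d * m)
  have h6 := abs_nonneg (d / 2 * (m : ℚ) ^ 2 + β * m)
  have h7 : (1 : ℚ) ≤ (t : ℚ) := by linarith
  push_cast
  nlinarith [mul_le_mul_of_nonneg_right h2 (by linarith : (0 : ℚ) ≤ (t : ℚ)),
    mul_le_mul_of_nonneg_right h4 (by linarith : (0 : ℚ) ≤ (t : ℚ)),
    mul_le_mul_of_nonneg_left h7 h6]

/-- every nonzero `b ∈ B m` divides (in `B`) a nonzero element of some `A t`.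
Proof by dimensions: for large `n` the subspaces `A n` and `b • B (n - m)` of `B n` have
`dim A n + dim B (n - m) > dim B n` (`finrank_A`: quadratic growth; `HasHP` of `B`:
`dim B n - dim B (n - m) = O(n)`), so they intersect (`Submodule.finrank_add_finrank_le_..` /
`Submodule.finrank_sup_add_finrank_inf_eq`). `A_le_B`. -/
theorem exists_mult (hP : Par D η ζ) {dB βB γB : ℚ} (hB : HasHP D.B dB βB γB) {m : ℤ} {b : L}
    (hb : b ∈ D.B m) (hb0 : b ≠ 0) :
    ∃ (t : ℕ) (c : L), c ∈ D.B (t - m) ∧ b * c ∈ A k η ζ t ∧ b * c ≠ 0 := by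
  obtain ⟨n0, h0⟩ := hB
  obtain ⟨t, ht1, ht2, ht3⟩ := exists_mult_nat n0 m dB βB γB
  have e1 := h0 _ ht1
  have e2 := h0 _ ht2
  rw [← e1, ← e2] at ht3
  have e3 : (finrank k (A k η ζ (t : ℤ)) : ℚ) = ((t : ℚ) + 1) * ((t : ℚ) + 2) / 2 := by
    rw [finrank_A hP.indep]
    simp only [Int.natCast_nonneg, if_true, Int.toNat_natCast]
    have h1 : 2 ∣ (t + 1) * (t + 2) := (Nat.even_mul_succ_self (t + 1)).two_dvd
    rw [Nat.cast_div h1 (by norm_num)]
    push_cast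
    ring
  rw [← e3] at ht3
  have := D.fin (t : ℤ)
  have := D.fin ((t : ℤ) - m)
  have hle : A k η ζ (t : ℤ) ≤ D.B t := A_le_B hP _
  have hle2 : sm b (D.B ((t : ℤ) - m)) ≤ D.B t := by
    rintro _ ⟨c, hc, rfl⟩
    have := D.mul_mem hb hc
    rw [show m + ((t : ℤ) - m) = t by ring] at this
    simpa [Algebra.lsmul_coe] using this
  have : FiniteDimensional k (A k η ζ (t : ℤ)) := Submodule.finiteDimensional_of_le hle
  have : FiniteDimensional k (sm b (D.B ((t : ℤ) - m))) := Submodule.finiteDimensional_of_le hle2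
  have hinj : Function.Injective (Algebra.lsmul k k L b) := by
    intro x y hxy
    exact mul_left_cancel₀ hb0 (by simpa [Algebra.lsmul_coe] using hxy)
  have e4 : finrank k (sm b (D.B ((t : ℤ) - m))) = finrank k (D.B ((t : ℤ) - m)) :=
    (LinearEquiv.finrank_eq (Submodule.equivMapOfInjective _ hinj _)).symm
  have e5 := Submodule.finrank_sup_add_finrank_inf_eq (A k η ζ (t : ℤ)) (sm b (D.B ((t : ℤ) - m)))
  have e6 : finrank k (A k η ζ (t : ℤ) ⊔ sm b (D.B ((t : ℤ) - m)) : Submodule k L) ≤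
      finrank k (D.B t) := Submodule.finrank_mono (sup_le hle hle2)
  have e7 : finrank k (D.B t) < finrank k (D.B ((t : ℤ) - m)) + finrank k (A k η ζ (t : ℤ)) := by
    exact_mod_cast ht3
  have e8 : 0 < finrank k (A k η ζ (t : ℤ) ⊓ sm b (D.B ((t : ℤ) - m)) : Submodule k L) := by
    omega
  have e9 : (A k η ζ (t : ℤ) ⊓ sm b (D.B ((t : ℤ) - m)) : Submodule k L) ≠ ⊥ := by
    intro h
    rw [h, finrank_bot] at e8
    exact lt_irrefl _ e8
  obtain ⟨x, hx, hx0⟩ := Submodule.exists_mem_ne_zero_of_ne_bot e9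
  obtain ⟨hxA, c, hc, hcx⟩ := hx
  have : b * c = x := by simpa [Algebra.lsmul_coe] using hcx
  exact ⟨t, c, hc, by rw [this]; exact hxA, by rw [this]; exact hx0⟩

end R169.CP
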