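import Crest.Agent.R169.CPE2a

/-!
# Row 169, module 2a (CP): piece CPE2b (architect helper27). Statement = interface, keep it.
Definitions in CPDefs.lean; imported sorries (LatAPI, other pieces) may be used.
-/

set_option autoImplicit false

namespace R169.CP

open Module

variable {k L : Type} [Field k] [Field L] [Algebra k L] {D : GD k L} {η ζ : L} {p r : ℕ}

private theorem mono_le {E : ℤ → Submodule k (Fin r → L)} (hE : IsLat D η ζ E) {m n : ℤ}
    (h : m ≤ n) : E m ≤ E n :=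
  monotone_int_of_le_succ (f := E) (fun n => hE.mono n) h

private theorem one_mem_A : (1 : L) ∈ A k η ζ ((0 : ℕ) : ℤ) := by
  refine Submodule.subset_span ⟨0, 0, by simp, by simp⟩

private theorem exists_one (hP : Par D η ζ) {dB βB γB : ℚ} (hB : HasHP D.B dB βB γB)
    {E : ℤ → Submodule k (Fin r → L)} (hE : IsLat D η ζ E) (hs : lspan L E = ⊤)
    (v : Fin r → L) : ∃ (T : ℕ) (d : L) (S : ℤ), d ∈ A k η ζ (T : ℤ) ∧ d ≠ 0 ∧ d • v ∈ E S := by
  have hv : v ∈ lspan L E := by rw [hs]; exact Submodule.mem_top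
  unfold lspan at hv
  induction hv using Submodule.span_induction with
  | mem x hx =>
    obtain ⟨n, hn⟩ := Set.mem_iUnion.1 hx
    exact ⟨0, 1, n, one_mem_A, one_ne_zero, by rw [one_smul]; exact hn⟩
  | zero => exact ⟨0, 1, 0, one_mem_A, one_ne_zero, by rw [smul_zero]; exact Submodule.zero_mem _⟩
  | add x y _ _ hx hy =>
    obtain ⟨T1, d1, S1, h1, h1', h1''⟩ := hx
    obtain ⟨T2, d2, S2, h2, h2', h2''⟩ := hy
    refine ⟨T1 + T2, d1 * d2, max (T2 + S1) (T1 + S2), ?_, mul_ne_zero h1' h2', ?_⟩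
    · rw [Nat.cast_add]
      exact A_mul_mem h1 h2
    · rw [smul_add]
      refine Submodule.add_mem _ ?_ ?_
      · rw [mul_comm, mul_smul]
        exact mono_le hE (le_max_left _ _) (hE.smul_mem (A_le_B hP _ h2) h1'')
      · rw [mul_smul]
        exact mono_le hE (le_max_right _ _) (hE.smul_mem (A_le_B hP _ h1) h2'')
  | smul l x _ hx =>
    obtain ⟨T, d, S, h1, h1', h1''⟩ := hx
    obtain ⟨n, a, ha, b, hb, hb0, rfl⟩ := D.frac l
    obtain ⟨t, c, hc, hbc, hbc0⟩ := exists_mult hP hB hb hb0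
    refine ⟨T + t, d * (b * c), (t - n + n) + S, ?_, mul_ne_zero h1' hbc0, ?_⟩
    · rw [Nat.cast_add]
      exact A_mul_mem h1 hbc
    · have e : (d * (b * c)) • (a / b) • x = (c * a) • (d • x) := by
        rw [smul_smul, smul_smul]
        congr 1
        field_simp
      rw [e]
      exact hE.smul_mem (D.mul_mem hc ha) h1''

private theorem exists_fin (hP : Par D η ζ) {dB βB γB : ℚ} (hB : HasHP D.B dB βB γB)
    {E : ℤ → Submodule k (Fin r → L)} (hE : IsLat D η ζ E) (hs : lspan L E = ⊤)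
    (e : Fin r → Fin r → L) (s : Finset (Fin r)) :
    ∃ (T : ℕ) (d : L) (S : ℤ), d ∈ A k η ζ (T : ℤ) ∧ d ≠ 0 ∧ ∀ j ∈ s, d • e j ∈ E S := by
  classical
  induction s using Finset.induction_on with
  | empty => exact ⟨0, 1, 0, one_mem_A, one_ne_zero, fun j hj => absurd hj (Finset.notMem_empty j)⟩
  | insert j s _ ih =>
    obtain ⟨T1, d1, S1, h1, h1', h1''⟩ := ih
    obtain ⟨T2, d2, S2, h2, h2', h2''⟩ := exists_one hP hB hE hs (e j)
    refine ⟨T1 + T2, d1 * d2, max (T2 + S1) (T1 + S2), ?_, mul_ne_zero h1' h2', ?_⟩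
    · rw [Nat.cast_add]
      exact A_mul_mem h1 h2
    · intro i hi
      rcases Finset.mem_insert.1 hi with rfl | hi
      · rw [mul_smul]
        exact mono_le hE (le_max_right _ _) (hE.smul_mem (A_le_B hP _ h1) h2'')
      · rw [mul_comm, mul_smul]
        exact mono_le hE (le_max_left _ _) (hE.smul_mem (A_le_B hP _ h2) (h1'' i hi))

/-- a lattice spanning `L^r` contains a multiple of `Bpow`.  Proof: each standard vector
`ε_j` is `Σ l_i e_i` with `e_i ∈ E (n_i)`; `l_i = a_i / b_i` (`GD.frac`); by `exists_mult` there are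
`c_i ∈ B` with `0 ≠ δ_i = b_i c_i ∈ A t_i`, so `δ_i l_i = a_i c_i ∈ B`. `δ` := product of all `δ_i` (all `i, j`);
`δ ε_j ∈ E S` for some `S`; `δ = ev F`, `F` homogeneous of degree `t` (`mem_A_iff`); multiply `F` by `X 0 ^ M`
(`ev (X 0) = 1`) so that its degree is `≥ S` and use `IsLat.mono`. Finally `w = Σ w_j ε_j`, `w_j ∈ B n`. -/
theorem exists_delta (hP : Par D η ζ) {dB βB γB : ℚ} (hB : HasHP D.B dB βB γB)
    {E : ℤ → Submodule k (Fin r → L)} (hE : IsLat D η ζ E) (hs : lspan L E = ⊤) :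
    ∃ (s : ℕ) (δ : MvPolynomial (Fin 3) k), δ.IsHomogeneous s ∧ δ ≠ 0 ∧
      ∀ n w, w ∈ Bpow D r n → ev η ζ δ • w ∈ E (n + s) := by
  classical
  obtain ⟨T, d, S, hd, hd0, hdS⟩ := exists_fin hP hB hE hs (fun j => Pi.single j 1) Finset.univ
  obtain ⟨F, hF, hFd⟩ := (mem_A_iff T d).1 hd
  have hev : ev η ζ (MvPolynomial.X 0 ^ S.toNat * F : MvPolynomial (Fin 3) k) = d := by
    unfold ev at hFd ⊢
    rw [map_mul, map_pow, MvPolynomial.aeval_X, hFd]
    simp
  refine ⟨S.toNat + T, MvPolynomial.X 0 ^ S.toNat * F, ?_, ?_, ?_⟩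
  · have h1 : (MvPolynomial.X 0 ^ S.toNat : MvPolynomial (Fin 3) k).IsHomogeneous S.toNat := by
      have := (MvPolynomial.isHomogeneous_X k (0 : Fin 3)).pow S.toNat
      rwa [one_mul] at this
    exact h1.mul hF
  · refine mul_ne_zero (pow_ne_zero _ (MvPolynomial.X_ne_zero _)) ?_
    rintro rfl
    apply hd0
    rw [← hFd]
    unfold ev
    rw [map_zero]
  · intro n w hw
    rw [hev]
    have hw' : ∀ j, w j ∈ D.B n := fun j => (Submodule.mem_pi.1 hw) j (Set.mem_univ j)
    have hsum : d • w = ∑ j, w j • (d • (Pi.single j 1 : Fin r → L)) := by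
      funext i
      rw [Finset.sum_apply]
      simp only [Pi.smul_apply, smul_eq_mul, Pi.single_apply]
      rw [Finset.sum_eq_single i]
      · rw [if_pos rfl, mul_one, mul_comm]
      · intro j _ hj
        rw [if_neg hj.symm, mul_zero, mul_zero]
      · intro h
        exact absurd (Finset.mem_univ i) h
    rw [hsum]
    refine Submodule.sum_mem _ fun j _ => ?_
    refine mono_le hE ?_ (hE.smul_mem (hw' j) (hdS j (Finset.mem_univ j)))
    have := Int.self_le_toNat S
    push_cast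
    omega

end R169.CP
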