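import Crest.Agent.R169.CPB2

/-!
# Row 169, module 2a (CP): piece CPE3 (architect helper27). Statement = interface, keep it.
Definitions in CPDefs.lean; imported sorries (LatAPI, other pieces) may be used.
-/

set_option autoImplicit false

namespace R169.CP

open Module

variable {k L : Type} [Field k] [Field L] [Algebra k L] {D : GD k L} {η ζ : L} {p r : ℕ}

/-- `δ^p Bpow ⊆ Fr E`: `w = Σ_j w_j e_j`, `δ e_j ∈ E s`, so `pw p (δ e_j) = δ^p e_j ∈ Fr (p s)`,
and `w_j ∈ B n`. -/
theorem delta_pow [Fact p.Prime] {E : ℤ → Submodule k (Fin r → L)} {s : ℕ}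
    {δ : MvPolynomial (Fin 3) k}
    (hδ : ∀ n w, w ∈ Bpow D r n → ev η ζ δ • w ∈ E (n + s)) (n : ℤ) (w : Fin r → L)
    (hw : w ∈ Bpow D r n) : ev η ζ (δ ^ p) • w ∈ Fr D p E (n + (p * s : ℕ)) := by
  have hp : p ≠ 0 := (Fact.out : p.Prime).ne_zero
  have hev : ev η ζ (δ ^ p) = (ev η ζ δ) ^ p := by
    unfold ev
    exact map_pow _ _ _
  have hw' : ∀ j, w j ∈ D.B n := by
    intro j
    unfold Bpow at hw
    rw [Submodule.mem_pi] at hw
    exact hw j (Set.mem_univ j)
  have h1 : ∀ j : Fin r, (Pi.single j (1 : L) : Fin r → L) ∈ Bpow D r 0 := by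
    intro j
    unfold Bpow
    rw [Submodule.mem_pi]
    intro i _
    by_cases h : i = j
    · subst h
      rw [Pi.single_eq_same, D.zero]
      exact Submodule.mem_span_singleton_self 1
    · rw [Pi.single_eq_of_ne h]
      exact Submodule.zero_mem _
  have h2 : ∀ j : Fin r, pw p (ev η ζ δ • (Pi.single j (1 : L) : Fin r → L)) ∈
      Fr D p E ((p * s : ℕ) : ℤ) := by
    intro j
    have h := pw_mem_Fr (D := D) (p := p) (hδ 0 _ (h1 j))
    have e : (p : ℤ) * (0 + (s : ℤ)) = ((p * s : ℕ) : ℤ) := by push_cast; ring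
    rw [e] at h
    exact h
  have h3 : ev η ζ (δ ^ p) • w =
      ∑ j, w j • pw p (ev η ζ δ • (Pi.single j (1 : L) : Fin r → L)) := by
    rw [hev]
    funext i
    rw [Finset.sum_apply, Finset.sum_eq_single i]
    · simp only [Pi.smul_apply, smul_eq_mul, pw, Pi.single_eq_same, mul_one]
      ring
    · intro j _ hji
      simp only [Pi.smul_apply, smul_eq_mul, pw]
      rw [Pi.single_eq_of_ne (Ne.symm hji), mul_zero, zero_pow hp, mul_zero]
    · intro h
      exact absurd (Finset.mem_univ i) h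
  rw [h3]
  refine Submodule.sum_mem _ fun j _ => ?_
  exact stab_Fr E (hw' j) (h2 j)

end R169.CP
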