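import Crest.Agent.R169.CPB1

/-!
# Row 169, module 2a (CP): piece CPE4 (architect helper27). Statement = interface, keep it.
Definitions in CPDefs.lean; imported sorries (LatAPI, other pieces) may be used.
-/

set_option autoImplicit false

namespace R169.CP

open Module

variable {k L : Type} [Field k] [Field L] [Algebra k L] {D : GD k L} {η ζ : L} {p r : ℕ}

private theorem cpe4_mem_Bpow (D : GD k L) (r : ℕ) (n : ℤ) (w : Fin r → L) :
    w ∈ Bpow D r n ↔ ∀ j, w j ∈ D.B n := by
  unfold Bpow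
  simp [Submodule.mem_pi]

private theorem cpe4_fin (D : GD k L) (r : ℕ) (n : ℤ) : FiniteDimensional k (Bpow D r n) := by
  have := D.fin n
  let f : Bpow D r n →ₗ[k] (Fin r → D.B n) := LinearMap.pi fun j =>
    ((LinearMap.proj j).comp (Bpow D r n).subtype).codRestrict (D.B n)
      (fun w => (cpe4_mem_Bpow D r n _).1 w.2 j)
  refine FiniteDimensional.of_injective f ?_
  intro a b hab
  apply Subtype.ext
  funext j
  have h := congrFun hab j
  exact congrArg Subtype.val h

/-- growth of a family inside `Bpow` with a regular linear form.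
`ℓ • G (n-1) ⊆ G n` and `G n ∩ ℓ U (n-1) = ℓ G (n-1)`:
`dim G_n - dim G_{n-1} ≤ dim Bpow_n - dim Bpow_{n-1}` (the map `G n / ℓ G (n-1) → Bpow n / ℓ Bpow (n-1)`
is injective). -/
theorem growth {G : ℤ → Submodule k (Fin r → L)} (hG : IsLat D η ζ G)
    (hle : ∀ n, G n ≤ Bpow D r n) {ℓ : L} (hℓ0 : ℓ ≠ 0) (hℓ : ℓ ∈ D.B 1) (n : ℤ)
    (hreg : ∀ w, w ∈ Bpow D r (n - 1) → ℓ • w ∈ G n → w ∈ G (n - 1)) :
    finrank k (G n) + r * finrank k (D.B (n - 1)) ≤
      finrank k (G (n - 1)) + r * finrank k (D.B n) := by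
  have f1 := hG.fin n
  have f2 := hG.fin (n - 1)
  have f3 := cpe4_fin D r n
  have f4 := cpe4_fin D r (n - 1)
  let μ : (Fin r → L) →ₗ[k] (Fin r → L) := Algebra.lsmul k k (Fin r → L) ℓ
  have hμ : ∀ w, μ w = ℓ • w := fun w => rfl
  have hinj : Function.Injective μ := by
    intro a b hab
    rw [hμ, hμ] at hab
    exact smul_right_injective _ hℓ0 hab
  set S : Submodule k (Fin r → L) := (Bpow D r (n - 1)).map μ with hS
  have hSfin : finrank k S = finrank k (Bpow D r (n - 1)) :=
    (LinearEquiv.finrank_eq (Submodule.equivMapOfInjective μ hinj (Bpow D r (n - 1)))).symm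
  have hGfin : finrank k ((G (n - 1)).map μ) = finrank k (G (n - 1)) :=
    (LinearEquiv.finrank_eq (Submodule.equivMapOfInjective μ hinj (G (n - 1)))).symm
  have hSle : S ≤ Bpow D r n := by
    rintro _ ⟨w, hw, rfl⟩
    rw [cpe4_mem_Bpow]
    intro j
    have hj := (cpe4_mem_Bpow D r (n - 1) w).1 hw j
    have := D.mul_mem hℓ hj
    rw [show (1 : ℤ) + (n - 1) = n from by ring] at this
    exact this
  have hinf : G n ⊓ S ≤ (G (n - 1)).map μ := by
    rintro _ ⟨hx, w, hw, rfl⟩
    exact ⟨w, hreg w hw hx, rfl⟩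
  have hsup : G n ⊔ S ≤ Bpow D r n := sup_le (hle n) hSle
  have e1 := Submodule.finrank_sup_add_finrank_inf_eq (G n) S
  have e2 := Submodule.finrank_mono hinf
  have e3 := Submodule.finrank_mono hsup
  rw [finrank_Bpow] at e3
  rw [finrank_Bpow] at hSfin
  omega

end R169.CP
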