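import Crest.Agent.R169.CPDefs

/-!
# Row 169, module 2a (CP): piece CPE5 (architect helper27). Statement = interface, keep it.
Definitions in CPDefs.lean; imported sorries (LatAPI, other pieces) may be used.
-/

set_option autoImplicit false

namespace R169.CP

open Module

variable {k L : Type} [Field k] [Field L] [Algebra k L] {D : GD k L} {η ζ : L} {p r : ℕ}

/-- summation: `dim G_n ≤ (number of integers in [m, n]) * r C1 (n + 1)` if `G_i = 0` for
`i < m`. -/
theorem dim_bound {W : Type} [AddCommGroup W] [Module k W] (G : ℤ → Submodule k W) (C : ℕ)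
    (h : ∀ n : ℤ, 0 ≤ n → finrank k (G n) ≤ finrank k (G (n - 1)) + C * (n.toNat + 1))
    (h0 : ∀ n : ℤ, n < 0 → finrank k (G n) = 0)
    (m : ℤ) (hm : ∀ n, n < m → finrank k (G n) = 0) (n : ℤ) :
    finrank k (G n) ≤ (n + 1 - m).toNat * (C * (n.toNat + 1)) := by
  have key : ∀ a : ℕ, finrank k (G (m - 1 + a)) ≤ a * (C * ((m - 1 + a).toNat + 1)) := by
    intro a
    induction a with
    | zero =>
      have : finrank k (G (m - 1 + (0 : ℕ))) = 0 := hm _ (by push_cast; omega)
      rw [this]
      exact Nat.zero_le _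
    | succ a ih =>
      by_cases hneg : m - 1 + ((a + 1 : ℕ) : ℤ) < 0
      · rw [h0 _ hneg]
        exact Nat.zero_le _
      · have h1 := h (m - 1 + ((a + 1 : ℕ) : ℤ)) (by omega)
        have e : m - 1 + ((a + 1 : ℕ) : ℤ) - 1 = m - 1 + (a : ℤ) := by push_cast; ring
        rw [e] at h1
        have h2 : (m - 1 + (a : ℤ)).toNat ≤ (m - 1 + ((a + 1 : ℕ) : ℤ)).toNat :=
          Int.toNat_le_toNat (by push_cast; omega)
        set b := (m - 1 + ((a + 1 : ℕ) : ℤ)).toNat with hb
        calc finrank k (G (m - 1 + ((a + 1 : ℕ) : ℤ))) ≤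
            finrank k (G (m - 1 + (a : ℤ))) + C * (b + 1) := h1
          _ ≤ a * (C * ((m - 1 + (a : ℤ)).toNat + 1)) + C * (b + 1) := Nat.add_le_add_right ih _
          _ ≤ a * (C * (b + 1)) + C * (b + 1) := by gcongr
          _ = (a + 1) * (C * (b + 1)) := by ring
  by_cases hnm : n < m
  · rw [hm n hnm]
    exact Nat.zero_le _
  · have h3 := key (n + 1 - m).toNat
    have e : m - 1 + (((n + 1 - m).toNat : ℕ) : ℤ) = n := by
      rw [Int.toNat_of_nonneg (by omega)]; ring
    rw [e] at h3
    exact h3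

end R169.CP
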