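import Crest.Agent.R169.CPD3
import Crest.Agent.R169.CPD6
import Crest.Agent.R169.CPE1
import Crest.Agent.R169.CPE2b
import Crest.Agent.R169.CPE3
import Crest.Agent.R169.CPE4
import Crest.Agent.R169.CPE5

/-!
# Row 169, module 2a (CP): piece CPE6 (architect helper27). Statement = interface, keep it.
Definitions in CPDefs.lean; imported sorries (LatAPI, other pieces) may be used.
-/

set_option autoImplicit false

namespace R169.CP

open Module

variable {k L : Type} [Field k] [Field L] [Algebra k L] {D : GD k L} {η ζ : L} {p r : ℕ}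

/-- an `L`-linear functional as a vector -/
def vecOf (ψ : (Fin r → L) →ₗ[L] L) : Fin r → L := fun j => ψ (Pi.single j 1)

theorem vecOf_dot (ψ : (Fin r → L) →ₗ[L] L) (w : Fin r → L) : vecOf ψ ⬝ᵥ w = ψ w := by
  have h1 : w = ∑ j, w j • (Pi.single j (1 : L) : Fin r → L) := by
    funext i
    simp [Finset.sum_apply, Pi.single_apply]
  conv_rhs => rw [h1]
  rw [map_sum]
  unfold dotProduct vecOf
  refine Finset.sum_congr rfl (fun j _ => ?_)
  rw [map_smul, smul_eq_mul, mul_comm]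

theorem lspan_hull_Fr [Fact p.Prime] [CharP L p] (hP : Par D η ζ)
    {E : ℤ → Submodule k (Fin r → L)} (hs : lspan L E = ⊤) (hle : ∀ n, E n ≤ Bpow D r n) :
    lspan L (hull η ζ (Fr D p E)) = ⊤ := by
  have h1 : lspan L (Fr D p E) = ⊤ := by rw [lspan_Fr, hs, FV_top]
  rw [eq_top_iff, ← h1]
  unfold lspan
  apply Submodule.span_mono
  apply Set.iUnion_mono
  intro n
  exact le_hull ((isLat_Fr (p := p) hP hle).toPLat hP) n

/-- the inequality for `G = hull (Fr E)` at one degree `n`. -/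
theorem main_step [Fact p.Prime] [CharP L p] [IsAlgClosed k] (hP : Par D η ζ)
    (hF : FrobFormula D η ζ p)
    {dB βB γB : ℚ} (hB : HasHP D.B dB βB γB) (hr : IsRefl (k := k) η ζ D.B)
    {C0 : ℤ} (hC0 : 0 ≤ C0) (hD : DerCond D p C0) {C1 : ℕ}
    (hC1 : ∀ n : ℤ, 0 ≤ n → finrank k (D.B n) ≤ finrank k (D.B (n - 1)) + C1 * (n.toNat + 1))
    {s : ℤ} (hS : LinShift D η ζ s)
    {E : ℤ → Submodule k (Fin r → L)} (hE : IsLat D η ζ E) (hs : lspan L E = ⊤)
    (hle : ∀ n, E n ≤ Bpow D r n) {N β γ : ℚ} (hh : HasHP E N β γ) (hss : Semistable L E N β)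
    (hr0 : 0 < r) (n m : ℤ)
    (hn : p * (β / N - βB / dB) + (r - 1) * C0 + s - 3 < (n : ℚ))
    (hm : (m : ℚ) - 1 < p * (β / N - βB / dB) - (r - 1) * C0) :
    (p : ℚ) ^ 2 * ((γ - β ^ 2 / (2 * N)) - r * (γB - βB ^ 2 / (2 * dB))) +
      r * (γB - βB ^ 2 / (2 * dB)) ≤ (n + 1 - m).toNat * ((r * C1) * (n.toNat + 1)) := by
  classical
  have : Infinite k := IsAlgClosed.instInfinite
  set G : ℤ → Submodule k (Fin r → L) := hull η ζ (Fr D p E) with hG
  have hFr : IsLat D η ζ (Fr D p E) := isLat_Fr hP hle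
  have hGl : IsLat D η ζ G := hFr.hull hP
  have hGr : IsRefl (k := k) η ζ G := isRefl_hull hP hFr
  have hGd : Dep2 η G := IsRefl.dep2 hP.indep (hGl.toPLat hP) hGr
  have hGs : lspan L G = ⊤ := lspan_hull_Fr hP hs hle
  obtain ⟨hd0, hN⟩ := IsLat.rank hP hB hE hh
  rw [hs, finrank_top, finrank_fin_fun] at hN
  have hN0 : 0 < N := by
    rw [hN]
    have : (0 : ℚ) < r := by exact_mod_cast hr0
    positivity
  obtain ⟨β', γ', hh', hb', hc'⟩ := hF dB βB γB hB r E hr0 hE hs N β γ hh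
  obtain ⟨γ'', hγ, hhG⟩ := HasHP.hull hP hFr hh'
  -- duality
  have hdual : N / 2 * (n : ℚ) ^ 2 - β' * n + γ'' ≤ finrank k (G n) := by
    refine duality_zero hP.indep (hGl.toPLat hP) hGd hhG n ?_
    intro φ hφ
    by_contra hcon
    push Not at hcon
    obtain ⟨m', w', hw', hφw⟩ := hcon
    obtain ⟨ψ, ⟨w1, _, hw1⟩, hψ⟩ := hS r ⊤ G hGl hGs (-n - 3) φ hφ ⟨w', Submodule.mem_top, hφw⟩
    have hψm : vecOf ψ ∈ dualB D G (-n - 3 + s) := by
      intro i w hw
      rw [vecOf_dot]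
      have := hψ i w hw
      rwa [add_assoc] at this
    have hψ0 : vecOf ψ ≠ 0 := by
      intro h0
      apply hw1
      rw [← vecOf_dot, h0, zero_dotProduct]
    have h1 := dual_vanish hP hF hB hC0 hD hE hs hle hh hss hψm hψ0
    push_cast at h1
    linarith
  -- growth
  have hGle : ∀ n, G n ≤ Bpow D r n := hull_le_Bpow hP hr hle
  obtain ⟨s', δ, hδh, hδ0, hδ⟩ := exists_delta hP hB hE hs
  obtain ⟨ℓ, hℓ0, hℓ1, hℓ⟩ := exists_linear_form hP.indep (δ := δ ^ p) (s := p * s')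
    (by rw [mul_comm]; exact hδh.pow p) (pow_ne_zero p hδ0) hGr (Bpow D r) (by
      intro n w hw
      exact le_hull (hFr.toPLat hP) _ (delta_pow hδ n w hw))
  have hgrow : ∀ n : ℤ, 0 ≤ n → finrank k (G n) ≤ finrank k (G (n - 1)) + (r * C1) * (n.toNat + 1) := by
    intro n hn0
    have h1 := growth hGl hGle hℓ0 (A_le_B hP 1 hℓ1) n (hℓ n)
    have h2 := Nat.mul_le_mul_left r (hC1 n hn0)
    have h3 : r * (finrank k (D.B (n - 1)) + C1 * (n.toNat + 1)) =
      r * finrank k (D.B (n - 1)) + (r * C1) * (n.toNat + 1) := by ring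
    omega
  have hneg : ∀ n : ℤ, n < 0 → finrank k (G n) = 0 := by
    intro n hn0
    have h1 : G n = ⊥ := by
      rw [eq_bot_iff]
      intro w hw
      have h2 := hGle n hw
      rw [Submodule.mem_bot]
      funext j
      have h3 := (Submodule.mem_pi.1 h2) j (Set.mem_univ j)
      rw [D.neg n hn0, Submodule.mem_bot] at h3
      exact h3
    rw [h1, finrank_bot]
  have hlow : ∀ n', n' < m → finrank k (G n') = 0 := by
    intro n' hn'
    have h1 : G n' = ⊥ := by
      rw [eq_bot_iff]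
      intro w hw
      rw [Submodule.mem_bot]
      by_contra hw0
      have h2 := hull_vanish hP hF hB hC0 hD hE hs hle hh hss hw hw0
      have h3 : (n' : ℚ) ≤ (m : ℚ) - 1 := by
        have : n' ≤ m - 1 := by omega
        exact_mod_cast this
      linarith
    rw [h1, finrank_bot]
  have hdim := dim_bound G (r * C1) hgrow hneg m hlow n
  have hdimq : (finrank k (G n) : ℚ) ≤ (n + 1 - m).toNat * ((r * C1) * (n.toNat + 1)) := by
    exact_mod_cast hdim
  -- conclusion
  have h1 : γ' - β' ^ 2 / (2 * N) ≤ N / 2 * (n : ℚ) ^ 2 - β' * n + γ'' := by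
    have h2 : N / 2 * (n : ℚ) ^ 2 - β' * n + β' ^ 2 / (2 * N) = N / 2 * ((n : ℚ) - β' / N) ^ 2 := by
      field_simp
      ring
    have h3 : 0 ≤ N / 2 * ((n : ℚ) - β' / N) ^ 2 := by positivity
    linarith
  linarith

end R169.CP
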