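import Crest.Agent.R169.CPE6

/-!
# Row 169, module 2a (CP): CPf. The theorem `charP_bound` (architect helper27)
-/

set_option autoImplicit false

namespace R169.CP

open Module

namespace CPFAux

variable {k L : Type} [Field k] [Field L] [Algebra k L]

theorem B_succ (D : GD k L) (n : ℤ) : D.B n ≤ D.B (n + 1) := by
  intro a ha
  have := D.mul_mem ha D.one_mem
  rwa [mul_one] at this

theorem B_mono (D : GD k L) {i j : ℤ} (h : i ≤ j) : D.B i ≤ D.B j := by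
  induction j, h using Int.leInduction with
  | base => exact le_rfl
  | succ j _ ih => exact ih.trans (B_succ D j)

theorem derCond_mono (D : GD k L) {p : ℕ} {C C' : ℤ} (h : C ≤ C') (hD : DerCond D p C) :
    DerCond D p C' := by
  obtain ⟨D1, D2, h1, h2⟩ := hD
  refine ⟨D1, D2, fun n b hb => ?_, h2⟩
  obtain ⟨h3, h4⟩ := h1 n b hb
  exact ⟨B_mono D (by omega) h3, B_mono D (by omega) h4⟩

/-- the arithmetic -/
theorem arith (r : ℕ) (C : ℤ) (hC : 0 ≤ C) (s : ℤ) (C1 : ℕ) (X cB d : ℚ) (hr : 0 < r) (p : ℕ)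
    (hp : 0 < p)
    (h : ∀ n m : ℤ, p * d + (r - 1) * C + s - 3 < (n : ℚ) → (m : ℚ) - 1 < p * d - (r - 1) * C →
      (p : ℚ) ^ 2 * X + r * cB ≤ (n + 1 - m).toNat * ((r * C1) * (n.toNat + 1))) :
    X * p ≤ (2 * ((r : ℚ) - 1) * C + |(s : ℚ)| + 1) * ((r * C1) * (|d| + ((r : ℚ) - 1) * C + |(s : ℚ)| + 2)) +
      |r * cB| := by
  have hp1 : (1 : ℚ) ≤ p := by exact_mod_cast hp
  have hr1 : (0 : ℚ) ≤ (r : ℚ) - 1 := by
    have : (1 : ℚ) ≤ r := by exact_mod_cast hr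
    linarith
  have hCq : (0 : ℚ) ≤ C := by exact_mod_cast hC
  have hrC : (0 : ℚ) ≤ ((r : ℚ) - 1) * C := mul_nonneg hr1 hCq
  have hs0 : (0 : ℚ) ≤ |(s : ℚ)| := abs_nonneg _
  have hs1 : (s : ℚ) ≤ |(s : ℚ)| := le_abs_self _
  have hd0 : (0 : ℚ) ≤ |d| := abs_nonneg _
  have hd1 : d ≤ |d| := le_abs_self _
  set n : ℤ := ⌊(p : ℚ) * d + ((r : ℚ) - 1) * C + s - 3⌋ + 1 with hn
  set m : ℤ := ⌈(p : ℚ) * d - ((r : ℚ) - 1) * C⌉ with hm
  have h1 := h n m (by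
    rw [hn]; push_cast
    exact Int.lt_floor_add_one _) (by
    rw [hm]
    have := Int.ceil_lt_add_one ((p : ℚ) * d - ((r : ℚ) - 1) * C)
    linarith)
  have hnle : (n : ℚ) ≤ (p : ℚ) * d + ((r : ℚ) - 1) * C + s - 3 + 1 := by
    rw [hn]; push_cast
    have := Int.floor_le ((p : ℚ) * d + ((r : ℚ) - 1) * C + s - 3)
    linarith
  have hmge : (p : ℚ) * d - ((r : ℚ) - 1) * C ≤ m := Int.le_ceil _
  have toNat_le : ∀ (z : ℤ) (K : ℚ), 0 ≤ K → (z : ℚ) ≤ K → ((z.toNat : ℕ) : ℚ) ≤ K := by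
    intro z K hK hz
    rcases le_total 0 z with h0 | h0
    · have : ((z.toNat : ℕ) : ℚ) = (z : ℚ) := by
        have h2 : ((z.toNat : ℕ) : ℤ) = z := Int.toNat_of_nonneg h0
        exact_mod_cast congrArg (fun t : ℤ => (t : ℚ)) h2
      rw [this]; exact hz
    · rw [Int.toNat_of_nonpos h0]; simpa using hK
  have e1 : (((n + 1 - m).toNat : ℕ) : ℚ) ≤ 2 * ((r : ℚ) - 1) * C + |(s : ℚ)| + 1 := by
    apply toNat_le
    · linarith
    · push_cast; linarith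
  have e2 : ((n.toNat : ℕ) : ℚ) + 1 ≤ (|d| + ((r : ℚ) - 1) * C + |(s : ℚ)| + 2) * p := by
    have h3 : ((n.toNat : ℕ) : ℚ) ≤ (|d| + ((r : ℚ) - 1) * C + |(s : ℚ)| + 2) * p - 1 := by
      apply toNat_le
      · nlinarith [mul_nonneg hd0 (by linarith : (0 : ℚ) ≤ p)]
      · refine hnle.trans ?_
        have a1 : (p : ℚ) * d ≤ |d| * p := by nlinarith
        have a2 : (0 : ℚ) ≤ (((r : ℚ) - 1) * C + |(s : ℚ)| + 2) * (p - 1) :=
          mul_nonneg (by linarith) (by linarith)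
        nlinarith
    linarith
  have hrc1 : (0 : ℚ) ≤ (r : ℚ) * C1 := by positivity
  have h4 : (((n + 1 - m).toNat : ℕ) : ℚ) * ((r * C1) * (((n.toNat : ℕ) : ℚ) + 1)) ≤
      (2 * ((r : ℚ) - 1) * C + |(s : ℚ)| + 1) *
        ((r * C1) * ((|d| + ((r : ℚ) - 1) * C + |(s : ℚ)| + 2) * p)) := by
    apply mul_le_mul e1 (mul_le_mul_of_nonneg_left e2 hrc1)
    · positivity
    · linarith
  have h5 := h1.trans h4
  have hpos : (0 : ℚ) < p := by linarith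
  have h6 : (X * p) * p ≤ ((2 * ((r : ℚ) - 1) * C + |(s : ℚ)| + 1) *
      ((r * C1) * (|d| + ((r : ℚ) - 1) * C + |(s : ℚ)| + 2)) + |r * cB|) * p := by
    have h7 : -(r * cB) ≤ |r * cB| * p := by
      have := neg_le_abs ((r : ℚ) * cB)
      have h8 : |r * cB| ≤ |r * cB| * p := by
        nlinarith [abs_nonneg ((r : ℚ) * cB)]
      linarith
    nlinarith
  exact le_of_mul_le_mul_right h6 hpos

end CPFAux

open CPFAux in
/-- From `main_step` with `C0' = max C0 0`, `θ = p (b - bB)`,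
`n = ⌊θ + (r-1) C0' + s - 3⌋ + 1`, `m = ⌈θ - (r-1) C0'⌉`:
`(n + 1 - m).toNat ≤ K1 := 2 (r-1) C0' + |s| + 1` and `n.toNat + 1 ≤ K2 p`,
`K2 := |b - bB| + (r-1) C0' + |s| + 2`, so `p^2 X + r cB ≤ K1 r C1 K2 p` and
`p X ≤ K1 r C1 K2 + |r cB|`. -/
theorem charP_bound (r : ℕ) (hr : 0 < r) (C0 s : ℤ) (C1 : ℕ) (N β γ dB βB γB : ℚ) :
    ∃ A : ℚ, ∀ (p : ℕ) [Fact p.Prime] (k L : Type) [Field k] [Field L] [Algebra k L]
      [IsAlgClosed k] [CharP k p] (D : GD k L) (η ζ : L), Par D η ζ →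
      HasHP D.B dB βB γB → IsRefl (k := k) η ζ D.B → DerCond D p C0 →
      (∀ n : ℤ, 0 ≤ n → Module.finrank k (D.B n) ≤ Module.finrank k (D.B (n - 1)) + C1 * (n.toNat + 1)) →
      LinShift D η ζ s → FrobFormula D η ζ p →
      ∀ E : ℤ → Submodule k (Fin r → L), IsLat D η ζ E → lspan L E = ⊤ → (∀ n, E n ≤ Bpow D r n) →
        IsRefl (k := k) η ζ E → HasHP E N β γ → Semistable L E N β →
        ((γ - β ^ 2 / (2 * N)) - r * (γB - βB ^ 2 / (2 * dB))) * p ≤ A := by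
  refine ⟨(2 * ((r : ℚ) - 1) * ((max C0 0 : ℤ) : ℚ) + |(s : ℚ)| + 1) *
    ((r * C1) * (|β / N - βB / dB| + ((r : ℚ) - 1) * ((max C0 0 : ℤ) : ℚ) + |(s : ℚ)| + 2)) +
      |r * (γB - βB ^ 2 / (2 * dB))|, ?_⟩
  intro p _ k L _ _ _ _ _ D η ζ hP hB hrB hD hC1 hS hF E hE hs hle _ hh hss
  haveI : CharP L p := charP_of_injective_algebraMap (algebraMap k L).injective p
  have hD' : DerCond D p (max C0 0) := derCond_mono D (le_max_left _ _) hD
  refine arith r (max C0 0) (le_max_right _ _) s C1 _ (γB - βB ^ 2 / (2 * dB)) (β / N - βB / dB)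
    hr p (Fact.out : p.Prime).pos ?_
  intro n m hn hm
  exact main_step hP hF hB hrB (le_max_right _ _) hD' hC1 hS hE hs hle hh hss hr n m hn hm

end R169.CP
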