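import Mathlib

/-!
# Row 169, FIN part C, piece CC1: regular sequences of `M / x M` (Rees).

`R` noetherian local, `M` finitely generated, `rs` regular of length `n + 1` in `m`, `x ∈ m` regular on `M`.
`ModuleCat.exists_isRegular_tfae m (n+1) (ModuleCat.of R M)`, `4 → 1`: `Ext N M i = 0` for `i ≤ n`, every `N` with support
in `V(m)`.  Long exact sequence of `hx.smulShortComplex_shortExact` (see the proof of
`ModuleCat.exists_isRegular_of_exists_subsingleton_ext` in Mathlib/RingTheory/Depth/Rees.lean, `h_ext'`):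
`Ext N (M/xM) i = 0` for `i < n`.  Then `1 → 4` for `M / x M`.  `m • ⊤ < ⊤` by Nakayama
(`Submodule.top_ne_ideal_smul_of_le_jacobson_annihilator`), `QuotSMulTop x M` nontrivial
(`nontrivial_quotSMulTop_of_mem_maximalIdeal`).
-/

set_option autoImplicit false

namespace R169

open RingTheory.Sequence IsLocalRing

private theorem smul_top_lt {R : Type} [CommRing R] [IsLocalRing R]
    {M : Type} [AddCommGroup M] [Module R M] [Module.Finite R M] [Nontrivial M] :
    (maximalIdeal R) • (⊤ : Submodule R M) < ⊤ := by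
  rw [lt_top_iff_ne_top]
  refine (Submodule.top_ne_ideal_smul_of_le_jacobson_annihilator ?_).symm
  exact IsLocalRing.maximalIdeal_le_jacobson _

section
open LinearMap RingTheory.Sequence Ideal CategoryTheory Abelian Limits Pointwise IsSMulRegular

private theorem ext_quot {R : Type} [CommRing R] [IsNoetherianRing R] (N M : ModuleCat.{0} R)
    {x : R} (hx : IsSMulRegular M x) (n : ℕ)
    (h_ext : ∀ i < n + 1, Subsingleton (Ext N M i)) :
    ∀ i < n, Subsingleton (Ext N (ModuleCat.of R (QuotSMulTop x M)) i) := by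
  intro i hi
  have zero1 := AddCommGrpCat.isZero_of_iff_subsingleton.mpr (h_ext i (by omega))
  have zero2 := AddCommGrpCat.isZero_of_iff_subsingleton.mpr (h_ext (i + 1) (by omega))
  exact AddCommGrpCat.subsingleton_of_isZero <| ShortComplex.Exact.isZero_of_both_zeros
    ((Ext.covariant_sequence_exact₃' N hx.smulShortComplex_shortExact) i (i + 1) rfl)
    (zero1.eq_zero_of_src _) (zero2.eq_zero_of_tgt _)

private theorem main_cat {R : Type} [CommRing R] [IsLocalRing R] [IsNoetherianRing R]
    (M : ModuleCat.{0} R) [Module.Finite R M] (n : ℕ) (rs : List R)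
    (hrs : rs.length = n + 1) (hm : ∀ r ∈ rs, r ∈ maximalIdeal R) (h : IsRegular M rs) (x : R)
    (hreg : IsSMulRegular M x)
    (hM : (maximalIdeal R) • (⊤ : Submodule R M) < ⊤)
    (hQ : (maximalIdeal R) • (⊤ : Submodule R (QuotSMulTop x M)) < ⊤) :
    ∃ rs' : List R, rs'.length = n ∧ (∀ r ∈ rs', r ∈ maximalIdeal R) ∧
      IsRegular (QuotSMulTop x M) rs' := by
  have h4 : ∃ rs : List R, rs.length = n + 1 ∧ (∀ r ∈ rs, r ∈ maximalIdeal R) ∧
      RingTheory.Sequence.IsRegular M rs := ⟨rs, hrs, hm, h⟩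
  have h2 : ∀ i < n + 1, Subsingleton
      (Ext (ModuleCat.of R (Shrink.{0} (R ⧸ maximalIdeal R))) M i) :=
    ((ModuleCat.exists_isRegular_tfae (maximalIdeal R) (n + 1) M hM).out 3 1).mp h4
  have h3 := ext_quot _ M hreg n h2
  exact ((ModuleCat.exists_isRegular_tfae (maximalIdeal R) n
    (ModuleCat.of R (QuotSMulTop x M)) hQ).out 1 3).mp h3

end

theorem exists_isRegular_quot {R : Type} [CommRing R] [IsLocalRing R] [IsNoetherianRing R]
    {M : Type} [AddCommGroup M] [Module R M] [Module.Finite R M] {n : ℕ} {rs : List R}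
    (hrs : rs.length = n + 1) (hm : ∀ r ∈ rs, r ∈ maximalIdeal R) (h : IsRegular M rs) {x : R}
    (hx : x ∈ maximalIdeal R) (hreg : IsSMulRegular M x) :
    ∃ rs' : List R, rs'.length = n ∧ (∀ r ∈ rs', r ∈ maximalIdeal R) ∧
      IsRegular (QuotSMulTop x M) rs' := by
  have nt : Nontrivial M := by
    by_contra hM
    rw [not_nontrivial_iff_subsingleton] at hM
    exact h.top_ne_smul (Subsingleton.elim _ _)
  have ntQ : Nontrivial (QuotSMulTop x M) := nontrivial_quotSMulTop_of_mem_maximalIdeal M hx
  exact main_cat (ModuleCat.of R M) n rs hrs hm h x hreg smul_top_lt smul_top_lt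

end R169
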