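import Mathlib

/-!
# Row 169, FIN part C, piece CC2: associated primes of `M / a M`.

`R` noetherian local, `M` finitely generated, `p ∈ Ass M`, `a ∈ m` regular on `M`.
`N = {w ∈ M : p w = 0} ≠ 0` (finitely generated).  `N ∩ a M = a N`: if `a w' ∈ N` then `a (r w') = 0` for `r ∈ p`, so
`r w' = 0`.  Nakayama: `N ≠ a N`, take `w ∈ N \ a N`; its image `w̄` in `M / a M` is nonzero and killed by `p` and `a`.
The module `R w̄ ≠ 0` has an associated prime `q` (`exists_le_isAssociatedPrime_of_isNoetherianRing`: `q ≥ ann w̄ ∋ p, a`),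
which is associated to `M / a M`.
-/

set_option autoImplicit false

namespace R169

open IsLocalRing
open scoped Pointwise

theorem exists_ass_quot {R : Type} [CommRing R] [IsLocalRing R] [IsNoetherianRing R]
    {M : Type} [AddCommGroup M] [Module R M] [Module.Finite R M] {p : Ideal R}
    (hp : p ∈ associatedPrimes R M) {a : R} (ha : a ∈ maximalIdeal R) (hreg : IsSMulRegular M a) :
    ∃ q ∈ associatedPrimes R (QuotSMulTop a M), p ≤ q ∧ a ∈ q := by
  have hp' : IsAssociatedPrime p M := hp
  obtain ⟨hpr, x, hx⟩ := isAssociatedPrime_iff.1 hp'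
  have hmem : ∀ r, r ∈ p ↔ r • x = 0 := by
    intro r
    rw [hx, Submodule.mem_colon_singleton, Submodule.mem_bot]
  have hx0 : x ≠ 0 := by
    rintro rfl
    exact hpr.ne_top ((Ideal.eq_top_iff_one p).2 ((hmem 1).2 (smul_zero _)))
  let N : Submodule R M :=
    { carrier := {w | ∀ r ∈ p, r • w = 0}
      add_mem' := by
        intro u v hu hv r hr
        rw [smul_add, hu r hr, hv r hr, add_zero]
      zero_mem' := fun r _ => smul_zero r
      smul_mem' := by
        intro c u hu r hr
        rw [smul_comm, hu r hr, smul_zero] }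
  have hxN : x ∈ N := fun r hr => (hmem r).1 hr
  obtain ⟨w, hwN, hw⟩ : ∃ w ∈ N, w ∉ a • (⊤ : Submodule R M) := by
    by_contra hcon
    push Not at hcon
    have hle : N ≤ maximalIdeal R • N := by
      intro w hw
      obtain ⟨w', -, rfl⟩ := (Submodule.mem_smul_pointwise_iff_exists w a ⊤).1 (hcon w hw)
      have hw' : w' ∈ N := by
        intro r hr
        have h1 : r • a • w' = 0 := hw r hr
        rw [smul_comm] at h1
        exact hreg (by simpa using h1)
      exact Submodule.smul_mem_smul ha hw'
    have hN : N = ⊥ := Submodule.eq_bot_of_le_smul_of_le_jacobson_bot (maximalIdeal R) N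
      (IsNoetherian.noetherian N) hle (IsLocalRing.maximalIdeal_le_jacobson _)
    rw [hN] at hxN
    exact hx0 ((Submodule.mem_bot R).1 hxN)
  have hw0 : (Submodule.Quotient.mk w : QuotSMulTop a M) ≠ 0 := by
    intro h
    exact hw ((Submodule.Quotient.mk_eq_zero _).1 h)
  obtain ⟨q, hq, hle⟩ := exists_le_isAssociatedPrime_of_isNoetherianRing R _ hw0
  refine ⟨q, hq, fun r hr => hle ?_, hle ?_⟩
  · rw [Submodule.mem_colon_singleton, Submodule.mem_bot, ← Submodule.Quotient.mk_smul,
      hwN r hr]
    rfl
  · rw [Submodule.mem_colon_singleton, Submodule.mem_bot, ← Submodule.Quotient.mk_smul,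
      Submodule.Quotient.mk_eq_zero]
    exact Submodule.smul_mem_pointwise_smul w a ⊤ trivial

end R169
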