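import Mathlib

/-!
# Row 169, FIN part C, piece CC3: dimension bound.

`R` noetherian local, `ys` in `m`, `p` prime, `m` is the only prime containing `p` and `ys`: every chain of primes
starting at `p` has length `≤ ys.length`.
(1) For every finitely generated `M`: `supportDim R M ≤ supportDim R (M ⧸ ofList ys • ⊤) + ys.length`: induction on `ys`
as in `Module.supportDim_add_length_eq_supportDim_of_isRegular` (Mathlib/RingTheory/KrullDimension/Regular.lean) with
`Module.supportDim_le_supportDim_quotSMulTop_succ`.
(2) `M = R ⧸ p`: the support of `M ⧸ ofList ys • ⊤` is contained in `{m}`, so its `supportDim ≤ 0`; a chain of primes from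
`p` is a chain in the support of `R ⧸ p` (`Module.support_eq_zeroLocus`, annihilator `= p`).
-/

set_option autoImplicit false

namespace R169

open IsLocalRing

theorem supportDim_le_add {R : Type} [CommRing R] [IsLocalRing R] [IsNoetherianRing R] :
    ∀ (ys : List R), (∀ y ∈ ys, y ∈ maximalIdeal R) → ∀ (M : Type) [AddCommGroup M] [Module R M]
      [Module.Finite R M], Module.supportDim R M ≤
        Module.supportDim R (M ⧸ (Ideal.ofList ys • (⊤ : Submodule R M))) + ys.length := by
  intro ys
  induction ys with
  | nil =>
    intro _ M _ _ _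
    rw [Ideal.ofList_nil, Submodule.bot_smul]
    simpa using (Module.supportDim_eq_of_equiv (Submodule.quotEquivOfEqBot (⊥ : Submodule R M) rfl)).ge
  | cons x rs ih =>
    intro hy M _ _ _
    have hx : x ∈ maximalIdeal R := hy x List.mem_cons_self
    have h1 := Module.supportDim_le_supportDim_quotSMulTop_succ (M := M) hx
    have h2 := ih (fun y hy' => hy y (List.mem_cons_of_mem _ hy')) (QuotSMulTop x M)
    rw [Module.supportDim_eq_of_equiv
      (Submodule.quotOfListConsSMulTopEquivQuotSMulTopInner M x rs)]
    calc Module.supportDim R M ≤ Module.supportDim R (QuotSMulTop x M) + 1 := h1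
      _ ≤ (Module.supportDim R (QuotSMulTop x M ⧸
            (Ideal.ofList rs • (⊤ : Submodule R (QuotSMulTop x M)))) + rs.length) + 1 :=
          add_le_add h2 le_rfl
      _ = _ := by rw [List.length_cons, Nat.cast_add, Nat.cast_one, add_assoc]

theorem chain_le {R : Type} [CommRing R] [IsLocalRing R] [IsNoetherianRing R]
    (p : PrimeSpectrum R) {ys : List R} (hy : ∀ y ∈ ys, y ∈ maximalIdeal R)
    (h : ∀ q : Ideal R, q.IsPrime → p.asIdeal ≤ q → (∀ y ∈ ys, y ∈ q) → q = maximalIdeal R)
    (l : LTSeries (PrimeSpectrum R)) (hl : l.head = p) : l.length ≤ ys.length := by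
  have h1 := supportDim_le_add ys hy (R ⧸ p.asIdeal)
  have h2 : (l.length : WithBot ℕ∞) ≤ Module.supportDim R (R ⧸ p.asIdeal) := by
    have hmem : ∀ i, l i ∈ Module.support R (R ⧸ p.asIdeal) := by
      intro i
      rw [Module.mem_support_iff_of_finite, Ideal.annihilator_quotient]
      have : l.head ≤ l i := l.head_le i
      rw [hl] at this
      exact this
    let l' : LTSeries (Module.support R (R ⧸ p.asIdeal)) :=
      { length := l.length
        toFun := fun i => ⟨l i, hmem i⟩
        step := fun i => l.step i }
    exact Order.LTSeries.length_le_krullDim l'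
  have h3 : Module.supportDim R ((R ⧸ p.asIdeal) ⧸
      (Ideal.ofList ys • (⊤ : Submodule R (R ⧸ p.asIdeal)))) ≤ 0 := by
    have hs : Subsingleton (Module.support R ((R ⧸ p.asIdeal) ⧸
        (Ideal.ofList ys • (⊤ : Submodule R (R ⧸ p.asIdeal))))) := by
      have key : ∀ q : PrimeSpectrum R, q ∈ Module.support R ((R ⧸ p.asIdeal) ⧸
          (Ideal.ofList ys • (⊤ : Submodule R (R ⧸ p.asIdeal)))) →
          q.asIdeal = maximalIdeal R := by
        intro q hq
        rw [Module.mem_support_iff_of_finite] at hq
        apply h q.asIdeal q.2
        · refine le_trans ?_ hq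
          intro r hr
          rw [Module.mem_annihilator]
          intro m
          obtain ⟨m, rfl⟩ := Submodule.Quotient.mk_surjective _ m
          rw [← Submodule.Quotient.mk_smul]
          have : r • m = 0 := by
            have h5 : r ∈ Module.annihilator R (R ⧸ p.asIdeal) := by
              rw [Ideal.annihilator_quotient]; exact hr
            exact Module.mem_annihilator.1 h5 m
          rw [this, Submodule.Quotient.mk_zero]
        · intro y hy'
          apply hq
          rw [Module.mem_annihilator]
          intro m
          obtain ⟨m, rfl⟩ := Submodule.Quotient.mk_surjective _ m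
          rw [← Submodule.Quotient.mk_smul, Submodule.Quotient.mk_eq_zero]
          exact Submodule.smul_mem_smul (Ideal.subset_span hy') Submodule.mem_top
      refine ⟨fun a b => ?_⟩
      apply Subtype.ext
      apply PrimeSpectrum.ext
      rw [key a.1 a.2, key b.1 b.2]
    exact Order.krullDim_nonpos_of_subsingleton
  have h4 : (l.length : WithBot ℕ∞) ≤ ys.length := by
    refine (h2.trans h1).trans ?_
    calc _ ≤ (0 : WithBot ℕ∞) + ys.length := add_le_add h3 le_rfl
      _ = _ := zero_add _
  exact_mod_cast h4

end R169
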