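import Crest.Agent.R169.Defs2

/-!
# Row 169, module FIN, part C (helper45): definitions

`hform x j m = ∑_{|a| = j} x^a m_a`, `QR x M` = quasi-regularity (general number of elements).
`QR` for `n = 3` is definitionally `QReg`.
-/

set_option autoImplicit false

namespace R169

section
variable {R : Type} [CommRing R] {M : Type} [AddCommGroup M] [Module R M] {n : ℕ}

/-- homogeneous form of degree `j` in `x` with coefficients `m a ∈ M` -/
def hform (x : Fin n → R) (j : ℕ) (m : (Fin n → ℕ) → M) : M :=
  ∑ a ∈ Finset.Nat.antidiagonalTuple n j, (∏ i, x i ^ a i) • m a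

/-- `I^j M`, `I = (x_1, …, x_n)` -/
def IMx (x : Fin n → R) (M : Type) [AddCommGroup M] [Module R M] (j : ℕ) : Submodule R M :=
  (Ideal.span (Set.range x)) ^ j • (⊤ : Submodule R M)

/-- quasi-regularity -/
def QR (x : Fin n → R) (M : Type) [AddCommGroup M] [Module R M] : Prop :=
  ∀ (j : ℕ) (m : (Fin n → ℕ) → M), hform x j m ∈ IMx x M (j + 1) →
    ∀ a ∈ Finset.Nat.antidiagonalTuple n j, m a ∈ IMx x M 1

theorem QR_iff_QReg (x : Fin 3 → R) : QR x M ↔ QReg x M := by
  unfold QR QReg hform IMx
  simp only [pow_one]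

end

end R169
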