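import Crest.Agent.R169.CmDefs

/-!
# Row 169, FIN part C, piece CQ1: forms of degree `j`.

Membership in `Finset.Nat.antidiagonalTuple n j` is `∑ i, a i = j` (`Finset.Nat.mem_antidiagonalTuple`).
* `hform_zero`: the only tuple is `0`.
* `hform_split`: split the sum over `a` with `a 0 = 0` (`a = Fin.cons 0 a'`) and `a 0 ≥ 1`
  (`a = Fin.cons (b 0 + 1) (Fin.tail b)`, `b` of degree `j`).
* `hform_mem`: each monomial of degree `j` is in `I^j`.
* `exists_hform`: `I^(j+1) M = I (I^j M)`, induction on `j`; `x i • hform x j m = hform x (j+1) m'` with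
  `m' b = if 1 ≤ b i then m (Function.update b i (b i - 1)) else 0`; the set of forms is closed under `+`, `r •`.
-/

set_option autoImplicit false

namespace R169

section
variable {R : Type} [CommRing R] {M : Type} [AddCommGroup M] [Module R M] {n : ℕ}

theorem hform_zero (x : Fin n → R) (m : (Fin n → ℕ) → M) : hform x 0 m = m 0 := by
  unfold hform
  rw [Finset.Nat.antidiagonalTuple_zero_right, Finset.sum_singleton]
  simp

theorem hform_add (x : Fin n → R) (j : ℕ) (m m' : (Fin n → ℕ) → M) :
    hform x j (fun a => m a + m' a) = hform x j m + hform x j m' := by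
  simp [hform, Finset.sum_add_distrib]

theorem hform_smul (x : Fin n → R) (j : ℕ) (r : R) (m : (Fin n → ℕ) → M) :
    hform x j (fun a => r • m a) = r • hform x j m := by
  simp only [hform, Finset.smul_sum]
  exact Finset.sum_congr rfl fun a _ => smul_comm _ _ _

/-- degree `j + 1`: terms without / with `x 0` -/
theorem hform_split (x : Fin (n + 1) → R) (j : ℕ) (m : (Fin (n + 1) → ℕ) → M) :
    hform x (j + 1) m = hform (fun i : Fin n => x i.succ) (j + 1) (fun a => m (Fin.cons 0 a)) +
      x 0 • hform x j (fun b => m (Fin.cons (b 0 + 1) (Fin.tail b))) := by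
  classical
  unfold hform
  rw [← Finset.sum_filter_add_sum_filter_not (Finset.Nat.antidiagonalTuple (n + 1) (j + 1))
    (fun a => a 0 = 0)]
  congr 1
  · refine Finset.sum_nbij' (fun a => Fin.tail a) (fun a => Fin.cons 0 a) ?_ ?_ ?_ ?_ ?_
    · intro a ha
      rw [Finset.mem_filter, Finset.Nat.mem_antidiagonalTuple, Fin.sum_univ_succ] at ha
      rw [Finset.Nat.mem_antidiagonalTuple]
      have h1 := ha.1
      rw [ha.2, zero_add] at h1
      exact h1
    · intro a ha
      rw [Finset.Nat.mem_antidiagonalTuple] at ha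
      rw [Finset.mem_filter, Finset.Nat.mem_antidiagonalTuple, Fin.sum_univ_succ]
      simp only [Fin.cons_zero, Fin.cons_succ, zero_add, and_true]
      exact ha
    · intro a ha
      rw [Finset.mem_filter] at ha
      have h1 : Fin.cons (α := fun _ => ℕ) (a 0) (Fin.tail a) = a := Fin.cons_self_tail a
      rw [ha.2] at h1
      exact h1
    · intro a _
      exact Fin.tail_cons _ _
    · intro a ha
      rw [Finset.mem_filter] at ha
      have h1 : Fin.cons (α := fun _ => ℕ) (a 0) (Fin.tail a) = a := Fin.cons_self_tail a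
      rw [ha.2] at h1
      change _ = (∏ i : Fin n, x i.succ ^ a i.succ) • m (Fin.cons 0 (Fin.tail a))
      rw [h1, Fin.prod_univ_succ, ha.2, pow_zero, one_mul]
  · rw [Finset.smul_sum]
    refine Finset.sum_nbij' (fun a => Fin.cons (a 0 - 1) (Fin.tail a))
      (fun b => Fin.cons (b 0 + 1) (Fin.tail b)) ?_ ?_ ?_ ?_ ?_
    · intro a ha
      rw [Finset.mem_filter, Finset.Nat.mem_antidiagonalTuple, Fin.sum_univ_succ] at ha
      rw [Finset.Nat.mem_antidiagonalTuple, Fin.sum_univ_succ]
      simp only [Fin.cons_zero, Fin.cons_succ]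
      have h1 := ha.1
      have h2 := ha.2
      change a 0 - 1 + ∑ i : Fin n, a i.succ = j
      omega
    · intro b hb
      rw [Finset.Nat.mem_antidiagonalTuple, Fin.sum_univ_succ] at hb
      rw [Finset.mem_filter, Finset.Nat.mem_antidiagonalTuple, Fin.sum_univ_succ]
      simp only [Fin.cons_zero, Fin.cons_succ]
      refine ⟨?_, by omega⟩
      change b 0 + 1 + ∑ i : Fin n, b i.succ = j + 1
      omega
    · intro a ha
      rw [Finset.mem_filter] at ha
      simp only [Fin.cons_zero, Fin.tail_cons]
      rw [Nat.sub_add_cancel (Nat.pos_of_ne_zero ha.2)]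
      exact Fin.cons_self_tail a
    · intro b _
      simp only [Fin.cons_zero, Fin.tail_cons, Nat.add_sub_cancel]
      exact Fin.cons_self_tail b
    · intro a ha
      rw [Finset.mem_filter] at ha
      simp only [Fin.cons_zero, Fin.tail_cons]
      rw [Nat.sub_add_cancel (Nat.pos_of_ne_zero ha.2)]
      have h1 : Fin.cons (α := fun _ => ℕ) (a 0) (Fin.tail a) = a := Fin.cons_self_tail a
      rw [h1, Fin.prod_univ_succ, Fin.prod_univ_succ, smul_smul]
      simp only [Fin.cons_zero, Fin.cons_succ]
      congr 1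
      rw [← mul_assoc, ← pow_succ', Nat.sub_add_cancel (Nat.pos_of_ne_zero ha.2)]
      rfl

/-- coefficients in `I^l M` give an element of `I^(j+l) M` -/
theorem hform_mem (x : Fin n → R) (j l : ℕ) (m : (Fin n → ℕ) → M)
    (hm : ∀ a ∈ Finset.Nat.antidiagonalTuple n j, m a ∈ IMx x M l) : hform x j m ∈ IMx x M (j + l) := by
  unfold hform
  refine Submodule.sum_mem _ fun a ha => ?_
  have h1 : ∏ i, x i ^ a i ∈ (Ideal.span (Set.range x)) ^ j := by
    have h2 : ∏ i, x i ^ a i ∈ ∏ i, (Ideal.span (Set.range x)) ^ a i :=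
      Ideal.prod_mem_prod fun i _ => Ideal.pow_mem_pow (Ideal.subset_span (Set.mem_range_self i)) _
    rwa [Finset.prod_pow_eq_pow_sum, Finset.Nat.mem_antidiagonalTuple.1 ha] at h2
  have h3 := Submodule.smul_mem_smul h1 (hm a ha)
  unfold IMx at h3 ⊢
  rwa [pow_add, Submodule.mul_smul]

private theorem sum_update_aux (a : Fin n → ℕ) (i : Fin n) (c : ℕ) :
    ∑ k, Function.update a i c k + a i = ∑ k, a k + c := by
  classical
  rw [Finset.sum_update_of_mem (Finset.mem_univ i),
    ← Finset.add_sum_erase Finset.univ a (Finset.mem_univ i), Finset.sdiff_singleton_eq_erase]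
  omega

private theorem smul_hform (x : Fin n → R) (j : ℕ) (i : Fin n) (m : (Fin n → ℕ) → M) :
    x i • hform x j m = hform x (j + 1)
      (fun b => if 1 ≤ b i then m (Function.update b i (b i - 1)) else 0) := by
  classical
  unfold hform
  rw [Finset.smul_sum]
  simp only [smul_ite, smul_zero]
  rw [← Finset.sum_filter]
  refine Finset.sum_bij' (fun a _ => Function.update a i (a i + 1))
    (fun b _ => Function.update b i (b i - 1)) ?_ ?_ ?_ ?_ ?_
  · intro a ha
    rw [Finset.Nat.mem_antidiagonalTuple] at ha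
    rw [Finset.mem_filter, Finset.Nat.mem_antidiagonalTuple]
    have := sum_update_aux a i (a i + 1)
    exact ⟨by omega, by rw [Function.update_self]; omega⟩
  · intro b hb
    rw [Finset.mem_filter, Finset.Nat.mem_antidiagonalTuple] at hb
    rw [Finset.Nat.mem_antidiagonalTuple]
    have := sum_update_aux b i (b i - 1)
    omega
  · intro a _
    simp
  · intro b hb
    rw [Finset.mem_filter] at hb
    have h1 : b i - 1 + 1 = b i := by omega
    simp [h1]
  · intro a _
    rw [← smul_assoc]
    congr 1
    · rw [smul_eq_mul, ← Finset.mul_prod_erase Finset.univ _ (Finset.mem_univ i),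
        ← Finset.mul_prod_erase Finset.univ
          (fun k => x k ^ (Function.update a i (a i + 1)) k) (Finset.mem_univ i),
        Function.update_self, pow_succ]
      have h2 : ∏ k ∈ Finset.univ.erase i, x k ^ (Function.update a i (a i + 1)) k =
          ∏ k ∈ Finset.univ.erase i, x k ^ a k :=
        Finset.prod_congr rfl fun k hk => by
          rw [Function.update_of_ne (Finset.ne_of_mem_erase hk)]
      rw [h2]
      ring
    · simp

theorem exists_hform (x : Fin n → R) (j : ℕ) {u : M} (hu : u ∈ IMx x M j) :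
    ∃ m : (Fin n → ℕ) → M, u = hform x j m := by
  induction j generalizing u with
  | zero => exact ⟨fun _ => u, (hform_zero x (fun _ => u)).symm⟩
  | succ j ih =>
    unfold IMx at hu
    rw [pow_succ', Submodule.mul_smul] at hu
    refine Submodule.smul_induction_on hu ?_ ?_
    · intro r hr v hv
      obtain ⟨m, rfl⟩ := ih hv
      refine Submodule.span_induction (p := fun r _ => ∃ m', r • hform x j m = hform x (j + 1) m')
        ?_ ?_ ?_ ?_ hr
      · rintro _ ⟨i, rfl⟩
        exact ⟨_, smul_hform x j i m⟩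
      · refine ⟨fun _ => 0, ?_⟩
        simp [hform]
      · rintro a b _ _ ⟨m1, h1⟩ ⟨m2, h2⟩
        exact ⟨fun a => m1 a + m2 a, by rw [hform_add, add_smul, h1, h2]⟩
      · rintro c a _ ⟨m1, h1⟩
        exact ⟨fun a => c • m1 a, by rw [hform_smul, smul_assoc, h1]⟩
    · rintro a b ⟨m1, h1⟩ ⟨m2, h2⟩
      exact ⟨fun a => m1 a + m2 a, by rw [hform_add, h1, h2]⟩

theorem IMx_zero (x : Fin n → R) : IMx x M 0 = ⊤ := by
  simp [IMx]

theorem IMx_anti (x : Fin n → R) {i j : ℕ} (h : i ≤ j) : IMx x M j ≤ IMx x M i :=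
  Submodule.smul_mono_left (Ideal.pow_le_pow_right h)

end

end R169
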