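import Crest.Agent.R169.CmQ1

/-!
# Row 169, FIN part C, piece CQ2: passage to `M / x_0 M`.

`x = (x_0, x')`, `N = QuotSMulTop (x 0) M = M ⧸ x 0 • ⊤`.
* `mkQ_hform`: clear.
* `mkQ_mem`: `u = hform x j m` (`exists_hform`); `j = 0` trivial; `j = i + 1`: `hform_split`, the second term dies in `N`,
  the first is a form in `x'`, use `hform_mem`.
* `mem_of_mkQ_mem`: `I' N = map mkQ (I' M)` (`Submodule.map_smul''`), so `w ∈ I' M + x_0 M ⊆ I M`.
* `span_tail_le`: `I' ≤ I`.
-/

set_option autoImplicit false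

namespace R169

open scoped Pointwise

section
variable {R : Type} [CommRing R] {M : Type} [AddCommGroup M] [Module R M] {n : ℕ}

/-- the projection `M → M / r M` -/
def qm (r : R) : M →ₗ[R] QuotSMulTop r M := Submodule.mkQ _

theorem qm_eq_zero_iff (r : R) (w : M) : qm r w = 0 ↔ ∃ v : M, w = r • v := by
  unfold qm
  rw [Submodule.mkQ_apply, Submodule.Quotient.mk_eq_zero, Submodule.mem_smul_pointwise_iff_exists]
  constructor
  · rintro ⟨v, -, hv⟩
    exact ⟨v, hv.symm⟩
  · rintro ⟨v, hv⟩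
    exact ⟨v, Submodule.mem_top, hv.symm⟩

theorem qm_hform (r : R) (x : Fin n → R) (j : ℕ) (m : (Fin n → ℕ) → M) :
    qm r (hform x j m) = hform x j (fun a => qm r (m a)) := by
  unfold hform
  rw [map_sum]
  refine Finset.sum_congr rfl fun a _ => ?_
  rw [map_smul]

theorem qm_mem (x : Fin (n + 1) → R) (j : ℕ) {u : M} (hu : u ∈ IMx x M j) :
    qm (x 0) u ∈ IMx (fun i : Fin n => x i.succ) (QuotSMulTop (x 0) M) j := by
  obtain ⟨m, rfl⟩ := exists_hform x j hu
  cases j with
  | zero =>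
    rw [IMx_zero]
    exact Submodule.mem_top
  | succ j =>
    rw [hform_split, map_add, (qm_eq_zero_iff (x 0) _).2 ⟨_, rfl⟩, add_zero, qm_hform]
    refine hform_mem (fun i : Fin n => x i.succ) (j + 1) 0 _ fun a _ => ?_
    rw [IMx_zero]
    exact Submodule.mem_top

private theorem cq2_span_tail_le (x : Fin (n + 1) → R) :
    Ideal.span (Set.range fun i : Fin n => x i.succ) ≤ Ideal.span (Set.range x) := by
  apply Ideal.span_mono
  rintro _ ⟨i, rfl⟩
  exact ⟨i.succ, rfl⟩

theorem mem_of_qm_mem (x : Fin (n + 1) → R) {w : M}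
    (hw : qm (x 0) w ∈ IMx (fun i : Fin n => x i.succ) (QuotSMulTop (x 0) M) 1) : w ∈ IMx x M 1 := by
  unfold IMx at hw ⊢
  rw [pow_one] at hw ⊢
  have hsurj : Function.Surjective (qm (M := M) (x 0)) := Submodule.mkQ_surjective _
  have htop : (⊤ : Submodule R (QuotSMulTop (x 0) M)) = Submodule.map (qm (x 0)) ⊤ := by
    rw [Submodule.map_top, LinearMap.range_eq_top.2 hsurj]
  rw [htop, ← Submodule.map_smul''] at hw
  obtain ⟨v, hv, hvw⟩ := hw
  have h0 : qm (x 0) (w - v) = 0 := by rw [map_sub, hvw, sub_self]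
  obtain ⟨u, hu⟩ := (qm_eq_zero_iff (x 0) _).1 h0
  have hsum : w = v + x 0 • u := by rw [← hu]; abel
  rw [hsum]
  refine Submodule.add_mem _ (Submodule.smul_mono_left (cq2_span_tail_le x) hv) ?_
  exact Submodule.smul_mem_smul (Ideal.subset_span ⟨0, rfl⟩) Submodule.mem_top

/-- forms in the variables `x'` with coefficients in `I^l M` -/
theorem hform_tail_mem (x : Fin (n + 1) → R) (j l : ℕ) (m : (Fin n → ℕ) → M)
    (hm : ∀ a ∈ Finset.Nat.antidiagonalTuple n j, m a ∈ IMx x M l) :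
    hform (fun i : Fin n => x i.succ) j m ∈ IMx x M (j + l) := by
  unfold hform
  refine Submodule.sum_mem _ fun a ha => ?_
  have h1 : ∏ i, x i.succ ^ a i ∈ Ideal.span (Set.range x) ^ j := by
    have h2 : ∏ i, x i.succ ^ a i ∈ ∏ i : Fin n, Ideal.span (Set.range x) ^ a i := by
      refine Ideal.prod_mem_prod fun i _ => ?_
      have h3 : x i.succ ∈ Ideal.span (Set.range x) := Ideal.subset_span ⟨i.succ, rfl⟩
      exact Ideal.pow_mem_pow h3 _
    rwa [Finset.prod_pow_eq_pow_sum, Finset.Nat.mem_antidiagonalTuple.1 ha] at h2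
  have h3 := Submodule.smul_mem_smul h1 (hm a ha)
  unfold IMx at h3 ⊢
  rwa [pow_add, mul_smul]

end

end R169
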