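import Crest.Agent.R169.CmQ2

/-!
# Row 169, FIN part C, piece CQ3: `x_0 m ∈ I^(j+1) M → m ∈ I^j M`.

`N = M / x_0 M`, `x'` quasi-regular on `N`, `x_0` regular on `M`.
* `colon_step`: `x_0 w ∈ I^(k+1) M` ⟹ `∃ v ∈ I^k M, x_0 (w - v) ∈ I^(k+2) M`:
  `x_0 w = hform x (k+1) c = hform x' (k+1) c' + x_0 • v` (`exists_hform`, `hform_split`), `v ∈ I^k M` (`hform_mem`, `l = 0`).
  `qm (hform x' (k+1) c') = qm (x_0 (w - v)) = 0`, so by `QR x' N` (with `0 ∈ I'^(k+2) N`) `qm (c' a) ∈ I' N`,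
  `c' a ∈ I M` (`mem_of_qm_mem`), `hform_tail_mem` with `l = 1`.
* `colon_approx`: by induction on `i`: `∃ u ∈ I^j M, x_0 (m - u) ∈ I^(j+1+i) M`.
* `colon`: Artin–Rees `Ideal.exists_pow_inf_eq_pow_smul I (x_0 • ⊤)`: there is `c` with
  `I^n M ⊓ x_0 M = I^(n-c) (I^c M ⊓ x_0 M) ≤ x_0 • I^(n-c) M`; take `n = j + 1 + c` (or larger); `x_0` regular.
-/

set_option autoImplicit false

namespace R169

open scoped Pointwise

section
variable {R : Type} [CommRing R] {M : Type} [AddCommGroup M] [Module R M] {n : ℕ}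

theorem colon_step (x : Fin (n + 1) → R)
    (hQ : QR (fun i : Fin n => x i.succ) (QuotSMulTop (x 0) M)) (k : ℕ) {w : M}
    (hw : x 0 • w ∈ IMx x M (k + 1)) : ∃ v ∈ IMx x M k, x 0 • (w - v) ∈ IMx x M (k + 2) := by
  obtain ⟨c, hc⟩ := exists_hform x (k + 1) hw
  rw [hform_split] at hc
  set v : M := hform x k (fun b => c (Fin.cons (b 0 + 1) (Fin.tail b))) with hv
  have hvk : v ∈ IMx x M k := by
    have := hform_mem x k 0 (fun b => c (Fin.cons (b 0 + 1) (Fin.tail b))) (fun a _ => by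
      rw [IMx_zero]; trivial)
    simpa using this
  have e1 : x 0 • (w - v) = hform (fun i : Fin n => x i.succ) (k + 1) (fun a => c (Fin.cons 0 a)) := by
    rw [smul_sub, hc, add_sub_cancel_right]
  refine ⟨v, hvk, ?_⟩
  rw [e1]
  have e2 : hform (fun i : Fin n => x i.succ) (k + 1)
      (fun a => qm (x 0) (c (Fin.cons 0 a))) = 0 := by
    rw [← qm_hform, ← e1]
    exact (qm_eq_zero_iff _ _).2 ⟨_, rfl⟩
  have h3 := hQ (k + 1) (fun a => qm (x 0) (c (Fin.cons 0 a))) (by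
    rw [e2]; exact Submodule.zero_mem _)
  exact hform_tail_mem x (k + 1) 1 _ (fun a ha => mem_of_qm_mem x (h3 a ha))

theorem colon_approx (x : Fin (n + 1) → R)
    (hQ : QR (fun i : Fin n => x i.succ) (QuotSMulTop (x 0) M)) (j i : ℕ) {w : M}
    (hw : x 0 • w ∈ IMx x M (j + 1)) : ∃ u ∈ IMx x M j, x 0 • (w - u) ∈ IMx x M (j + 1 + i) := by
  induction i with
  | zero => exact ⟨0, Submodule.zero_mem _, by simpa using hw⟩
  | succ i ih =>
    obtain ⟨u, hu, hu2⟩ := ih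
    obtain ⟨v, hv, hv2⟩ := colon_step x hQ (j + i) (w := w - u) (by
      rwa [show j + i + 1 = j + 1 + i by omega])
    refine ⟨u + v, Submodule.add_mem _ hu (IMx_anti x (by omega) hv), ?_⟩
    rw [← sub_sub, show j + 1 + (i + 1) = j + i + 2 by omega]
    exact hv2

theorem artin_rees [IsNoetherianRing R] [Module.Finite R M] (x : Fin (n + 1) → R)
    (hreg : IsSMulRegular M (x 0)) :
    ∃ c : ℕ, ∀ (j : ℕ) (w : M), x 0 • w ∈ IMx x M (j + c) → w ∈ IMx x M j := by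
  obtain ⟨c, hc⟩ := Ideal.exists_pow_inf_eq_pow_smul (Ideal.span (Set.range x))
    (LinearMap.range (LinearMap.lsmul R M (x 0)))
  refine ⟨c, fun j w hw => ?_⟩
  have h1 := hc (j + c) (by omega)
  have h2 : x 0 • w ∈ (Ideal.span (Set.range x)) ^ (j + c) • (⊤ : Submodule R M) ⊓
      LinearMap.range (LinearMap.lsmul R M (x 0)) := ⟨hw, w, rfl⟩
  rw [h1, Nat.add_sub_cancel] at h2
  have h3 : x 0 • w ∈ (Ideal.span (Set.range x)) ^ j • LinearMap.range (LinearMap.lsmul R M (x 0)) :=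
    Submodule.smul_mono le_rfl inf_le_right h2
  rw [LinearMap.range_eq_map, ← Submodule.map_smul''] at h3
  obtain ⟨w', hw', e⟩ := h3
  have e2 : w' = w := hreg e
  rw [← e2]
  exact hw'

theorem colon [IsNoetherianRing R] [Module.Finite R M] (x : Fin (n + 1) → R)
    (hreg : IsSMulRegular M (x 0))
    (hQ : QR (fun i : Fin n => x i.succ) (QuotSMulTop (x 0) M)) (j : ℕ) {w : M}
    (hw : x 0 • w ∈ IMx x M (j + 1)) : w ∈ IMx x M j := by
  obtain ⟨c, hc⟩ := artin_rees (M := M) x hreg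
  obtain ⟨u, hu, hu'⟩ := colon_approx x hQ j c hw
  have h1 : w - u ∈ IMx x M j :=
    hc j _ (IMx_anti x (by omega) hu')
  have h2 := Submodule.add_mem _ h1 hu
  rwa [sub_add_cancel] at h2

end

end R169
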