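import Crest.Agent.R169.CmQ3

/-!
# Row 169, FIN part C, piece CQ4: regular sequences are quasi-regular.
-/

set_option autoImplicit false

namespace R169

open scoped Pointwise
open RingTheory.Sequence

section
variable {R : Type} [CommRing R] {M : Type} [AddCommGroup M] [Module R M] {n : ℕ}

theorem QR_nil (x : Fin 0 → R) : QR x M := by
  intro j m hm a ha
  rw [Finset.Nat.mem_antidiagonalTuple] at ha
  have hj : j = 0 := by rw [← ha]; exact (Finset.sum_eq_zero fun i _ => i.elim0)
  subst hj
  rw [hform_zero] at hm
  have : a = 0 := Subsingleton.elim _ _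
  rw [this]
  exact hm

theorem QR_cons [IsNoetherianRing R] [Module.Finite R M] (x : Fin (n + 1) → R)
    (hreg : IsSMulRegular M (x 0))
    (hQ : QR (fun i : Fin n => x i.succ) (QuotSMulTop (x 0) M)) : QR x M := by
  intro j
  induction j with
  | zero =>
    intro m hm a ha
    rw [hform_zero] at hm
    rw [Finset.Nat.mem_antidiagonalTuple] at ha
    have : a = 0 := by
      funext i
      exact (Finset.sum_eq_zero_iff.1 ha) i (Finset.mem_univ i)
    rw [this]
    exact hm
  | succ j ih =>
    intro m hm
    have hm0 := hm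
    rw [hform_split] at hm
    have hq := qm_mem x (j + 1 + 1) hm
    rw [map_add, map_smul, qm_hform] at hq
    have hz : x 0 • qm (x 0) (hform x j fun b => m (Fin.cons (b 0 + 1) (Fin.tail b))) = 0 := by
      rw [← map_smul]
      exact (qm_eq_zero_iff _ _).2 ⟨_, rfl⟩
    rw [hz, add_zero] at hq
    have h1 : ∀ b ∈ Finset.Nat.antidiagonalTuple n (j + 1), m (Fin.cons 0 b) ∈ IMx x M 1 :=
      fun b hb => mem_of_qm_mem x (hQ (j + 1) _ hq b hb)
    have h2 := hform_tail_mem x (j + 1) 1 (fun a => m (Fin.cons 0 a)) h1
    have h3 : x 0 • (hform x j fun b => m (Fin.cons (b 0 + 1) (Fin.tail b))) ∈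
        IMx x M ((j + 1) + 1) := by
      have := Submodule.sub_mem _ hm h2
      rwa [add_sub_cancel_left] at this
    have h4 := colon x hreg hQ (j + 1) h3
    have h5 := ih _ h4
    intro a ha
    rw [Finset.Nat.mem_antidiagonalTuple, Fin.sum_univ_succ] at ha
    rcases Nat.eq_zero_or_pos (a 0) with h0 | h0
    · have h6 : a = Fin.cons 0 (Fin.tail a) := by
        rw [← h0, Fin.cons_self_tail]
      rw [h6]
      apply h1
      rw [Finset.Nat.mem_antidiagonalTuple]
      rw [h0, zero_add] at ha
      exact ha
    · obtain ⟨c, hc⟩ : ∃ c, a 0 = c + 1 := ⟨a 0 - 1, by omega⟩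
      have h6 := h5 (Fin.cons c (Fin.tail a)) (by
        rw [Finset.Nat.mem_antidiagonalTuple, Fin.sum_univ_succ]
        simp only [Fin.cons_zero, Fin.cons_succ]
        have h7 : ∑ i : Fin n, a i.succ = ∑ i : Fin n, Fin.tail a i := rfl
        rw [← h7]
        omega)
      rw [Fin.cons_zero, Fin.tail_cons, ← hc, Fin.cons_self_tail] at h6
      exact h6

/-- a regular sequence is quasi-regular -/
theorem QR_of_isWeaklyRegular [IsNoetherianRing R] : ∀ (n : ℕ) (M : Type) [AddCommGroup M] [Module R M]
    [Module.Finite R M] (x : Fin n → R), IsWeaklyRegular M (List.ofFn x) → QR x M := by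
  intro n
  induction n with
  | zero =>
    intro M _ _ _ x _
    exact QR_nil x
  | succ n ih =>
    intro M _ _ _ x h
    rw [List.ofFn_succ, isWeaklyRegular_cons_iff] at h
    exact QR_cons x h.1 (ih _ _ h.2)

theorem QReg_of_isWeaklyRegular [IsNoetherianRing R] [Module.Finite R M] (x : Fin 3 → R)
    (h : IsWeaklyRegular M (List.ofFn x)) : QReg x M :=
  (QR_iff_QReg x).1 (QR_of_isWeaklyRegular 3 M x h)

/-- restriction of scalars: `M` is an `R`-module and a `T`-module, `T → R` -/
theorem QReg_restrict {T : Type} [CommRing T] [Algebra T R] [Module T M] [IsScalarTower T R M]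
    (x : Fin 3 → T) (h : QReg (fun i => algebraMap T R (x i)) M) : QReg x M := by
  have hmap : (Ideal.span (Set.range x)).map (algebraMap T R) =
      Ideal.span (Set.range fun i => algebraMap T R (x i)) := by
    rw [Ideal.map_span, ← Set.range_comp]
    rfl
  have hle : ∀ (i : ℕ) (w : M), w ∈ (Ideal.span (Set.range x)) ^ i • (⊤ : Submodule T M) →
      w ∈ (Ideal.span (Set.range fun i => algebraMap T R (x i))) ^ i • (⊤ : Submodule R M) := by
    intro i w hw
    refine Submodule.smul_induction_on hw ?_ ?_
    · intro r hr w' _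
      rw [← IsScalarTower.algebraMap_smul R r w']
      refine Submodule.smul_mem_smul ?_ trivial
      rw [← hmap, ← Ideal.map_pow]
      exact Ideal.mem_map_of_mem _ hr
    · intro a b ha hb
      exact Submodule.add_mem _ ha hb
  have hge : ∀ w : M, w ∈ (Ideal.span (Set.range fun i => algebraMap T R (x i))) •
      (⊤ : Submodule R M) → w ∈ (Ideal.span (Set.range x)) • (⊤ : Submodule T M) := by
    intro w hw
    refine Submodule.smul_induction_on hw ?_ ?_
    · intro r hr w' _
      revert w'
      refine Submodule.span_induction ?_ ?_ ?_ ?_ hr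
      · rintro _ ⟨i, rfl⟩ w' _
        show algebraMap T R (x i) • w' ∈ _
        rw [IsScalarTower.algebraMap_smul R (x i) w']
        exact Submodule.smul_mem_smul (Ideal.subset_span ⟨i, rfl⟩) trivial
      · intro w' _
        rw [zero_smul]
        exact Submodule.zero_mem _
      · intro a b _ _ ha hb w' hw'
        rw [add_smul]
        exact Submodule.add_mem _ (ha w' hw') (hb w' hw')
      · intro s a _ ha w' _
        rw [smul_eq_mul, mul_comm, mul_smul]
        exact ha (s • w') trivial
    · intro a b ha hb
      exact Submodule.add_mem _ ha hb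
  intro j m hm a ha
  apply hge
  refine h j m ?_ a ha
  have h1 := hle (j + 1) _ hm
  have e : ∑ a ∈ Finset.Nat.antidiagonalTuple 3 j, (∏ i, algebraMap T R (x i) ^ a i) • m a =
      ∑ a ∈ Finset.Nat.antidiagonalTuple 3 j, (∏ i, x i ^ a i) • m a := by
    refine Finset.sum_congr rfl fun a _ => ?_
    rw [← IsScalarTower.algebraMap_smul R (∏ i, x i ^ a i) (m a), map_prod]
    simp only [map_pow]
  rw [e]
  exact h1

end

end R169
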