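import Crest.Agent.R169.CmC1
import Crest.Agent.R169.CmC2
import Crest.Agent.R169.CmC3

/-!
# Row 169, FIN part C: systems of parameters are regular on maximal Cohen–Macaulay modules.
-/

set_option autoImplicit false

namespace R169

open RingTheory.Sequence IsLocalRing

variable {R : Type} [CommRing R] [IsLocalRing R] [IsNoetherianRing R]

/-- a chain of primes above every associated prime -/
theorem exists_chain : ∀ (rs : List R), (∀ r ∈ rs, r ∈ maximalIdeal R) →
    ∀ (M : Type) [AddCommGroup M] [Module R M] [Module.Finite R M], IsRegular M rs →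
    ∀ p : Ideal R, ∀ hp : p ∈ associatedPrimes R M, ∃ l : LTSeries (PrimeSpectrum R),
      l.length = rs.length ∧ l.head = ⟨p, hp.isPrime⟩ := by
  intro rs
  induction rs with
  | nil =>
    intro _ M _ _ _ _ p hp
    exact ⟨RelSeries.singleton _ ⟨p, hp.isPrime⟩, rfl, rfl⟩
  | cons a rs ih =>
    intro hm M _ _ _ h p hp
    obtain ⟨h1, h2⟩ := (isRegular_cons_iff M a rs).1 h
    have ha := hm a List.mem_cons_self
    obtain ⟨q, hq, hpq, haq⟩ := exists_ass_quot hp ha h1
    obtain ⟨l, hl, hl'⟩ := ih (fun r hr => hm r (List.mem_cons_of_mem _ hr)) _ h2 q hq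
    have hap : a ∉ p := fun hap => by
      have h3 : a ∈ (⋃ q ∈ associatedPrimes R M, (q : Set R)) := Set.mem_biUnion hp hap
      rw [biUnion_associatedPrimes_eq_compl_regular] at h3
      exact h3 h1
    have hlt : (⟨p, hp.isPrime⟩ : PrimeSpectrum R) < l.head := by
      rw [hl']
      refine lt_of_le_of_ne hpq fun e => hap ?_
      have : p = q := congrArg PrimeSpectrum.asIdeal e
      rw [this]
      exact haq
    exact ⟨l.cons ⟨p, hp.isPrime⟩ hlt, by simp [hl], RelSeries.head_cons _ _ _⟩

/-- main induction -/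
theorem isRegular_of_support : ∀ (n : ℕ) (xs : List R), xs.length = n →
    (∀ x ∈ xs, x ∈ maximalIdeal R) → ∀ (M : Type) [AddCommGroup M] [Module R M] [Module.Finite R M],
    (∀ q : Ideal R, q.IsPrime → Module.annihilator R M ≤ q → (∀ x ∈ xs, x ∈ q) →
      q = maximalIdeal R) →
    ∀ rs : List R, rs.length = n → (∀ r ∈ rs, r ∈ maximalIdeal R) → IsRegular M rs →
    IsRegular M xs := by
  intro n
  induction n with
  | zero =>
    intro xs hxs _ M _ _ _ _ rs hrs _ h
    rw [List.length_eq_zero_iff] at hxs hrs
    rw [hxs, ← hrs]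
    exact h
  | succ n ih =>
    intro xs hxs hxm M _ _ _ hs rs hrs hrm h
    obtain ⟨x, ys, rfl⟩ := List.exists_cons_of_length_eq_add_one hxs
    rw [List.length_cons, Nat.add_right_cancel_iff] at hxs
    have hx := hxm x List.mem_cons_self
    have hym : ∀ y ∈ ys, y ∈ maximalIdeal R := fun y hy => hxm y (List.mem_cons_of_mem _ hy)
    -- `x` is not in any associated prime
    have hx' : ∀ p ∈ associatedPrimes R M, x ∉ p := by
      intro p hp hxp
      obtain ⟨l, hl, hl'⟩ := exists_chain rs hrm M h p hp
      have hann : Module.annihilator R M ≤ p := by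
        rw [← Submodule.annihilator_top]
        exact hp.annihilator_le
      have h1 := chain_le ⟨p, hp.isPrime⟩ hym (fun q hq hpq hyq => hs q hq
        (hann.trans hpq) (by
          intro y hy
          rcases List.mem_cons.1 hy with rfl | hy
          · exact hpq hxp
          · exact hyq y hy)) l hl'
      omega
    have hreg : IsSMulRegular M x := by
      by_contra hc
      have h3 : x ∈ (⋃ q ∈ associatedPrimes R M, (q : Set R)) := by
        rw [biUnion_associatedPrimes_eq_compl_regular]
        exact hc
      obtain ⟨q, hq, hxq⟩ := Set.mem_iUnion₂.1 h3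
      exact hx' q hq hxq
    obtain ⟨rs', h1, h2, h3⟩ := exists_isRegular_quot hrs hrm h hx hreg
    rw [isRegular_cons_iff]
    refine ⟨hreg, ih ys hxs hym _ ?_ rs' h1 h2 h3⟩
    intro q hq hann hyq
    refine hs q hq (le_trans ?_ hann) ?_
    · exact (Submodule.mkQ _).annihilator_le_of_surjective (Submodule.mkQ_surjective _)
    · intro y hy
      rcases List.mem_cons.1 hy with rfl | hy
      · refine hann ?_
        rw [Module.mem_annihilator]
        intro w
        obtain ⟨v, rfl⟩ := Submodule.mkQ_surjective _ w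
        rw [← map_smul, Submodule.mkQ_apply, Submodule.Quotient.mk_eq_zero]
        exact Submodule.smul_mem_pointwise_smul _ _ _ trivial
      · exact hyq y hy

/-- the form used in FIN -/
theorem isRegular_of_pow_le {M : Type} [AddCommGroup M] [Module R M] [Module.Finite R M] (n : ℕ)
    (rs xs : List R) (hrs : rs.length = n) (hxs : xs.length = n)
    (hrm : ∀ r ∈ rs, r ∈ maximalIdeal R) (hxm : ∀ x ∈ xs, x ∈ maximalIdeal R)
    (hN : ∃ N : ℕ, maximalIdeal R ^ N ≤ Ideal.ofList xs) (h : IsRegular M rs) : IsRegular M xs := by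
  refine isRegular_of_support n xs hxs hxm M ?_ rs hrs hrm h
  intro q hq _ hxq
  obtain ⟨N, hN⟩ := hN
  refine le_antisymm (IsLocalRing.le_maximalIdeal hq.ne_top) ?_
  exact hq.le_of_pow_le (hN.trans (Ideal.span_le.2 hxq))

end R169
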