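import Mathlib

/-!
# Row 169: definitions (interface of all modules)

Everything is "dehomogenised": a graded domain `R = ⊕ R_n` with `x ∈ R_1` is the increasing family
`B n = R_n / x^n` of finite dimensional `k`-subspaces of the field `L = K(X)`.
A graded torsion free `R`-module is an increasing family `E : ℤ → Submodule k W`, `W` an `L`-vector space.
The polynomial ring `P = k[x,y,z] ⊂ R` is given by `η = y/x`, `ζ = z/x` in `B 1`;
`P_n` is `A k η ζ n` = polynomials in `η, ζ` of degree `≤ n`.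
-/

set_option autoImplicit false

namespace R169

section defs

variable {k L : Type} [Field k] [Field L] [Algebra k L]
variable {W : Type} [AddCommGroup W] [Module k W] [Module L W] [IsScalarTower k L W]

/-- multiplication by `l : L` applied to a `k`-subspace -/
def sm (l : L) (S : Submodule k W) : Submodule k W := S.map (Algebra.lsmul k k W l)

/-- `P_n`: polynomials of degree `≤ n` in `η, ζ`. -/
def A (k : Type) {L : Type} [Field k] [Field L] [Algebra k L] (η ζ : L) (n : ℤ) : Submodule k L :=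
  Submodule.span k {l | ∃ a b : ℕ, (a : ℤ) + b ≤ n ∧ l = η ^ a * ζ ^ b}

/-- graded ring datum -/
structure GD (k L : Type) [Field k] [Field L] [Algebra k L] where
  B : ℤ → Submodule k L
  neg : ∀ n, n < 0 → B n = ⊥
  zero : B 0 = Submodule.span k {1}
  one_mem : (1 : L) ∈ B 1
  mul_mem : ∀ {i j : ℤ} {a b : L}, a ∈ B i → b ∈ B j → a * b ∈ B (i + j)
  fin : ∀ n, FiniteDimensional k (B n)
  frac : ∀ l : L, ∃ n, ∃ a ∈ B n, ∃ b ∈ B n, b ≠ 0 ∧ l = a / b

/-- `x, y = ηx, z = ζx` are homogeneous parameters of degree one -/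
structure Par (D : GD k L) (η ζ : L) : Prop where
  hη : η ∈ D.B 1
  hζ : ζ ∈ D.B 1
  indep : AlgebraicIndependent k ![η, ζ]
  gen : ∃ n1 : ℤ, ∀ n, n1 ≤ n → D.B (n + 1) ≤ D.B n ⊔ sm η (D.B n) ⊔ sm ζ (D.B n)

/-- a graded finitely generated torsion free `P`-module -/
structure IsPLat (η ζ : L) (E : ℤ → Submodule k W) : Prop where
  mono : ∀ n, E n ≤ E (n + 1)
  smη : ∀ n, sm η (E n) ≤ E (n + 1)
  smζ : ∀ n, sm ζ (E n) ≤ E (n + 1)
  fin : ∀ n, FiniteDimensional k (E n)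
  bdd : ∃ n0 : ℤ, ∀ n, n < n0 → E n = ⊥
  gen : ∃ n1 : ℤ, ∀ n, n1 ≤ n → E (n + 1) ≤ E n ⊔ sm η (E n) ⊔ sm ζ (E n)

/-- a graded finitely generated torsion free `R`-module -/
structure IsLat (D : GD k L) (η ζ : L) (E : ℤ → Submodule k W) : Prop where
  smul_mem : ∀ {i n : ℤ} {a : L} {w : W}, a ∈ D.B i → w ∈ E n → a • w ∈ E (i + n)
  fin : ∀ n, FiniteDimensional k (E n)
  bdd : ∃ n0 : ℤ, ∀ n, n < n0 → E n = ⊥
  gen : ∃ n1 : ℤ, ∀ n, n1 ≤ n → E (n + 1) ≤ E n ⊔ sm η (E n) ⊔ sm ζ (E n)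

/-- a `B`-stable family (not nec. finitely generated) -/
def Stab (D : GD k L) (E : ℤ → Submodule k W) : Prop :=
  ∀ {i n : ℤ} {a : L} {w : W}, a ∈ D.B i → w ∈ E n → a • w ∈ E (i + n)

/-- `dim E_n = N/2 n^2 - β n + γ` for `n ≫ 0` -/
def HasHP (E : ℤ → Submodule k W) (N β γ : ℚ) : Prop :=
  ∃ n0 : ℤ, ∀ n, n0 ≤ n → (Module.finrank k (E n) : ℚ) = N / 2 * n ^ 2 - β * n + γ

/-- the `L`-span of a family -/
def lspan (L : Type) [Field L] [Algebra k L] [Module L W] [IsScalarTower k L W]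
    (E : ℤ → Submodule k W) : Submodule L W := Submodule.span L (⋃ n, (E n : Set W))

/-- saturated submodule cut out by an `L`-subspace -/
def sat (E : ℤ → Submodule k W) (V : Submodule L W) (n : ℤ) : Submodule k W :=
  E n ⊓ V.restrictScalars k

/-- the corresponding quotient -/
def quo (E : ℤ → Submodule k W) (V : Submodule L W) (n : ℤ) : Submodule k (W ⧸ V) :=
  (E n).map (V.mkQ.restrictScalars k)

/-- semistability (slope = `b = β/N`, the smaller the more sections). `N β` = the invariants of `E`. -/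
def Semistable (L : Type) [Field L] [Algebra k L] [Module L W] [IsScalarTower k L W]
    (E : ℤ → Submodule k W) (N β : ℚ) : Prop :=
  ∀ V : Submodule L W, V ≠ ⊥ → ∀ N' β' γ' : ℚ, HasHP (sat E V) N' β' γ' → β * N' ≤ β' * N

/-- evaluation of a (homogeneous) polynomial in `x,y,z` at `(1,η,ζ)` -/
noncomputable def ev (η ζ : L) (F : MvPolynomial (Fin 3) k) : L := MvPolynomial.aeval ![1, η, ζ] F

/-- reflexive hull over `P`: `w` lies in `E_n` after localisation at every height one prime of `P` -/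
def Refl (η ζ : L) (E : ℤ → Submodule k W) (n : ℤ) (w : W) : Prop :=
  ∀ π : MvPolynomial (Fin 3) k, Prime π → ∃ (s : ℕ) (F : MvPolynomial (Fin 3) k),
    F.IsHomogeneous s ∧ ¬ π ∣ F ∧ ev η ζ F • w ∈ E (n + s)

/-- `E` is reflexive (over `P`) -/
def IsRefl (η ζ : L) (E : ℤ → Submodule k W) : Prop :=
  ∀ n w, Refl (k := k) η ζ E n w → w ∈ E n

/-- `(x,y)` is a regular sequence on `E` -/
def Dep2 (η : L) (E : ℤ → Submodule k W) : Prop :=
  ∀ n w, w ∈ E n → η • w ∈ E n → w ∈ E (n - 1)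

/-- `B^r ⊂ L^r` -/
def Bpow (D : GD k L) (r : ℕ) (n : ℤ) : Submodule k (Fin r → L) :=
  Submodule.pi Set.univ (fun _ => D.B n)

/-- Frobenius pull-back of a lattice in `L^r` (char `p`). -/
def Fr (D : GD k L) (p : ℕ) {r : ℕ} (E : ℤ → Submodule k (Fin r → L)) (n : ℤ) :
    Submodule k (Fin r → L) :=
  Submodule.span k {w | ∃ (i : ℤ) (e : Fin r → L) (b : L), e ∈ E i ∧ b ∈ D.B (n - p * i) ∧
    w = b • (fun j => e j ^ p)}

/-- the exact Frobenius formula (a): `b' - b_B = p (b - b_B)`, `c' - r c_B = p² (c - r c_B)`,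
    `b = β/N`, `c = γ - β²/(2N)`. -/
def FrobFormula (D : GD k L) (η ζ : L) (p : ℕ) : Prop :=
  ∀ (dB βB γB : ℚ), HasHP D.B dB βB γB →
  ∀ (r : ℕ) (E : ℤ → Submodule k (Fin r → L)), 0 < r → IsLat D η ζ E → lspan L E = ⊤ →
  ∀ (N β γ : ℚ), HasHP E N β γ → ∃ β' γ' : ℚ, HasHP (Fr D p E) N β' γ' ∧
    β' / N - βB / dB = p * (β / N - βB / dB) ∧
    (γ' - β' ^ 2 / (2 * N)) - r * (γB - βB ^ 2 / (2 * dB)) =
      p ^ 2 * ((γ - β ^ 2 / (2 * N)) - r * (γB - βB ^ 2 / (2 * dB)))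

end defs

end R169
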