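import Crest.Agent.R169.Defs

/-!
# Row 169: further definitions: graded primes, charts, symmetry, integral forms, the graded ring `T`
and the quasi-regular modules.
-/

set_option autoImplicit false

namespace R169

section defs2

variable {k L : Type} [Field k] [Field L] [Algebra k L]
variable {W : Type} [AddCommGroup W] [Module k W] [Module L W] [IsScalarTower k L W]

/-- graded ideal of `R` -/
structure GIdeal (D : GD k L) (I : ℤ → Submodule k L) : Prop where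
  le : ∀ n, I n ≤ D.B n
  smul_mem : ∀ {i n : ℤ} {a w : L}, a ∈ D.B i → w ∈ I n → a * w ∈ I (i + n)

/-- graded prime ideal (`(a,i)` = homogeneous element `a x^i` of degree `i`) -/
structure GPrime (D : GD k L) (I : ℤ → Submodule k L) : Prop where
  ideal : GIdeal D I
  one_not_mem : (1 : L) ∉ I 0
  mem_or : ∀ {i j : ℤ} {a b : L}, a ∈ D.B i → b ∈ D.B j → a * b ∈ I (i + j) → a ∈ I i ∨ b ∈ I j

/-- a "curve" prime: `dim (B/I)_n = e n + f` eventually with `e > 0` -/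
def IsCurve (D : GD k L) (I : ℤ → Submodule k L) : Prop :=
  GPrime D I ∧ ∃ e f : ℚ, 0 < e ∧ ∃ n0 : ℤ, ∀ n, n0 ≤ n →
    (Module.finrank k (D.B n) : ℚ) - Module.finrank k (I n) = e * n + f

/-- `p`-basis charts: finitely many `h ∈ B m` (nonzero, `m > 0`) generating `B_+` up to radical, such that the
chart ring `B[1/h]_0 = {b / h^j : b ∈ B (j m)}` has a `p`-basis `u, v`. -/
def chart (D : GD k L) (h : L) (m : ℤ) : Set L := {l | ∃ (j : ℕ) (b : L), b ∈ D.B (j * m) ∧ l = b / h ^ j}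

/-- `u, v` is a `p`-basis of the subset (subring) `S` of `L` -/
def IsPBasis (p : ℕ) (S : Set L) (u v : L) : Prop :=
  u ∈ S ∧ v ∈ S ∧
  (∀ f ∈ S, ∃ g : Fin p → Fin p → L, (∀ i j, g i j ∈ S) ∧
    f = ∑ i, ∑ j, g i j ^ p * u ^ (i : ℕ) * v ^ (j : ℕ)) ∧
  (∀ g : Fin p → Fin p → L, ∑ i, ∑ j, g i j ^ p * u ^ (i : ℕ) * v ^ (j : ℕ) = 0 → ∀ i j, g i j = 0)

/-- degree `c` part of the chart `B[1/h]_c = {l : h^j l ∈ B (j m + c)}` -/
def chartDeg (D : GD k L) (h : L) (m c : ℤ) : Set L := {l | ∃ j : ℕ, h ^ j * l ∈ D.B (j * m + c)}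

/-- charts with `p`-basis; each chart also has a unit `ε` of degree one -/
def PCharts (D : GD k L) (p : ℕ) : Prop :=
  ∃ (ι : Type) (_ : Fintype ι) (h : ι → L) (m : ι → ℤ) (u v ε : ι → L),
    (∀ i, h i ≠ 0 ∧ 0 < m i ∧ h i ∈ D.B (m i) ∧ IsPBasis p (chart D (h i) (m i)) (u i) (v i) ∧
      ε i ≠ 0 ∧ ε i ∈ chartDeg D (h i) (m i) 1 ∧ (ε i)⁻¹ ∈ chartDeg D (h i) (m i) (-1)) ∧
    ∃ J : ℤ, ∀ n, J ≤ n → D.B n ≤ ⨆ i, sm (h i) (D.B (n - m i))

/-- a symmetry of the graded ring: a `k`-automorphism of `L` with `γ (B n) = τ^n B n`. -/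
structure Sym (D : GD k L) where
  γ : L ≃ₐ[k] L
  τ : L
  τ_ne : τ ≠ 0
  map_B : ∀ (n : ℤ) (b : L), b ∈ D.B n ↔ τ ^ (-n) * γ b ∈ D.B n

/-- image of a graded ideal under a symmetry -/
def Sym.act {D : GD k L} (g : Sym D) (I : ℤ → Submodule k L) (n : ℤ) : Submodule k L :=
  (I n).map ((Algebra.lsmul k k L (g.τ ^ (-n))) ∘ₗ g.γ.toLinearMap)

/-- the condition on curve primes from which `λ = 0` follows (F8).
`TB` = the set of "type B" primes. -/
def CurveCond (D : GD k L) : Prop :=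
  ∃ TB : (ℤ → Submodule k L) → Prop,
    (∀ I J, IsCurve D I → IsCurve D J → TB I → TB J → ∃ g : Sym D, ∀ n, J n = g.act I n) ∧
    (∃ (s : ℤ) (f : L), 0 < s ∧ f ∈ D.B s ∧ f ≠ 0 ∧ ∀ I, IsCurve D I → f ∈ I s → TB I) ∧
    (∀ I, IsCurve D I → ¬ TB I → ∃ (s : ℤ) (f : L), 0 < s ∧ f ∈ I s ∧ f ≠ 0 ∧
      ∀ J, IsCurve D J → f ∈ J s → TB J ∨ ∃ g : Sym D, ∀ n, J n = g.act I n)

/-- derivations with uniform shift `C0`; common kernel = `p`-th powers -/
def DerCond (D : GD k L) (p : ℕ) (C0 : ℤ) : Prop :=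
  ∃ D1 D2 : Derivation k L L,
    (∀ n b, b ∈ D.B n → D1 b ∈ D.B (n + C0) ∧ D2 b ∈ D.B (n + C0)) ∧
    (∀ l, D1 l = 0 → D2 l = 0 → ∃ l', l = l' ^ p)

/-- integral form: bases of the `B n` with integer structure constants `m` (independent of the field) -/
structure IForm (S : ℤ → Type) [∀ n, Fintype (S n)] (one : S 1)
    (m : ∀ i j : ℤ, S i → S j → S (i + j) → ℤ) (D : GD k L) where
  bas : ∀ n, Module.Basis (S n) k (D.B n)
  one_eq : (bas 1 one : L) = 1
  mul_eq : ∀ (i j : ℤ) (a : S i) (b : S j), (bas i a : L) * (bas j b : L) =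
    ∑ c, ((m i j a b c : ℤ) : k) • (bas (i + j) c : L)

/-- uniform linearisation constant (L8) -/
def LinShift (D : GD k L) (η ζ : L) (s : ℤ) : Prop :=
  ∀ (r : ℕ) (V : Submodule L (Fin r → L)) (G : ℤ → Submodule k (Fin r → L)), IsLat D η ζ G → lspan L G = V →
  ∀ (j : ℤ) (φ : (Fin r → L) →ₗ[IntermediateField.adjoin k ({η, ζ} : Set L)] L),
    (∀ n w, w ∈ G n → φ w ∈ A k η ζ (n + j)) → (∃ w ∈ V, φ w ≠ 0) →
    ∃ ψ : (Fin r → L) →ₗ[L] L, (∃ w ∈ V, ψ w ≠ 0) ∧ ∀ n w, w ∈ G n → ψ w ∈ D.B (n + j + s)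

end defs2

/-! ### the graded ring `T = ⊕ B_n t^n ⊂ L[t]` and quasi-regular modules -/

section T
open Polynomial
variable {k L : Type} [Field k] [Field L] [Algebra k L]

/-- the graded ring `T = {f ∈ L[t] : coeff_n f ∈ B n}` -/
def T (D : GD k L) : Subalgebra k L[X] where
  carrier := {f | ∀ n : ℕ, f.coeff n ∈ D.B n}
  mul_mem' := by
    intro f g hf hg n
    rw [coeff_mul]
    refine Submodule.sum_mem _ ?_
    rintro ⟨i, j⟩ hij
    rw [Finset.HasAntidiagonal.mem_antidiagonal] at hij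
    have := D.mul_mem (hf i) (hg j)
    have e : (n : ℤ) = (i : ℤ) + j := by rw [← hij]; push_cast; ring
    rw [e]; exact this
  add_mem' := by
    intro f g hf hg n
    rw [coeff_add]; exact Submodule.add_mem _ (hf n) (hg n)
  algebraMap_mem' := by
    intro c n
    rw [Polynomial.algebraMap_apply, coeff_C]
    split_ifs with h
    · subst h
      simp only [Nat.cast_zero, D.zero]
      rw [Algebra.algebraMap_eq_smul_one]
      exact Submodule.smul_mem _ _ (Submodule.mem_span_singleton_self _)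
    · exact Submodule.zero_mem _

/-- homogeneous element `a t^n` of `T` -/
noncomputable def tm (D : GD k L) (n : ℕ) (a : L) (ha : a ∈ D.B n) : T D :=
  ⟨monomial n a, by
    intro m
    rw [coeff_monomial]
    split_ifs with h
    · subst h; exact ha
    · exact Submodule.zero_mem _⟩

/-- the ideal `I = (x,y,z) T` -/
noncomputable def xyz (D : GD k L) {η ζ : L} (h : Par D η ζ) : Fin 3 → T D :=
  ![tm D 1 1 D.one_mem, tm D 1 η h.hη, tm D 1 ζ h.hζ]

noncomputable def Ixyz (D : GD k L) {η ζ : L} (h : Par D η ζ) : Ideal (T D) :=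
  Ideal.span (Set.range (xyz D h))

/-- quasi-regularity of `x,y,z` on `M` -/
def QReg {R : Type} [CommRing R] (x : Fin 3 → R) (M : Type) [AddCommGroup M] [Module R M] : Prop :=
  ∀ (j : ℕ) (m : (Fin 3 → ℕ) → M),
    (∑ a ∈ Finset.Nat.antidiagonalTuple 3 j, (∏ i, x i ^ a i) • m a ∈
      (Ideal.span (Set.range x)) ^ (j + 1) • (⊤ : Submodule R M)) →
    ∀ a ∈ Finset.Nat.antidiagonalTuple 3 j, m a ∈ (Ideal.span (Set.range x)) • (⊤ : Submodule R M)

end T

end R169
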