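import Crest.Agent.R169.LatAPI

/-!
# Row 169: primes, `K_p`, (BR), the data of the ultraproduct field
-/

set_option autoImplicit false

namespace R169

/-- primes -/
abbrev PP : Type := {p : ℕ // p.Prime}

instance factPP (p : PP) : Fact p.1.Prime := ⟨p.2⟩

/-- the fields `K_p` -/
abbrev Kp (p : PP) : Type := AlgebraicClosure (ZMod p.1)

/-- The Bogomolov type inequality (BR) for `D` -/
def BR {k L : Type} [Field k] [Field L] [Algebra k L] (D : GD k L) (η ζ : L) : Prop :=
  ∀ (dB βB γB : ℚ), HasHP D.B dB βB γB →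
  ∀ (r : ℕ) (E : ℤ → Submodule k (Fin r → L)), 0 < r → IsLat D η ζ E → lspan L E = ⊤ →
  ∀ (N β γ : ℚ), HasHP E N β γ → Semistable L E N β →
    γ - β ^ 2 / (2 * N) ≤ r * (γB - βB ^ 2 / (2 * dB))

/-- the ultraproduct field of the `Kp` along a hyperfilter -/
structure UData where
  K : Type
  [fld : Field K]
  [alg : IsAlgClosed K]
  [ch : CharZero K]
  iso : ℂ ≃+* K

/-- `R` is generated in degree one (over `k`) -/
def Gen1 {k L : Type} [Field k] [Field L] [Algebra k L] (D : GD k L) : Prop :=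
  ∀ n : ℤ, 0 ≤ n → D.B (n + 1) ≤ D.B 1 * D.B n

end R169
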