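import Crest.Agent.R169.ExLift

/-!
# Row 169, module EX, piece EX_ALPHA (0.7 h)

`exists_alpha`: `q'_i = w_i q_i` satisfies `Rel` (`w_i^7 = 1`), `mon q' a = (∏ w_i^{a_i}) mon q a`
(units times an independent family: `LinearIndependent.units_smul`) so `hom_of_indep` gives `ψ_w : L →ₐ L`;
`ψ_w ∘ ψ_w' = ψ_{ww'}`, `ψ_1 = id` by `hom_ext`; build the monoid hom (`AlgEquiv.ofAlgHom ψ_w ψ_{w⁻¹}`).
-/

set_option autoImplicit false

namespace R169

namespace Ex

variable {k L : Type} [Field k] [Field L] [Algebra k L]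

noncomputable instance instFintypeRoots (k : Type) [Field k] : Fintype (rootsOfUnity 7 k) := Fintype.ofFinite _

theorem QD.exists_alpha (Q : QD k L) :
    ∃ α : (ZMod 5 → rootsOfUnity 7 k) →* (L ≃ₐ[k] L),
      ∀ w i, α w (Q.q i) = ((w i : kˣ) : k) • Q.q i := by
  have hw : ∀ (w : ZMod 5 → rootsOfUnity 7 k) (i : ZMod 5), ((w i : kˣ) : k) ^ 7 = 1 := by
    intro w i
    have h1 := (w i).2
    rw [mem_rootsOfUnity] at h1
    have h2 := congrArg (fun u : kˣ => (u : k)) h1
    simpa using h2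
  have hex : ∀ w : ZMod 5 → rootsOfUnity 7 k, ∃ ψ : L →ₐ[k] L,
      ∀ i, ψ (Q.q i) = ((w i : kˣ) : k) • Q.q i := by
    intro w
    refine Q.hom_of_indep (fun i => ((w i : kˣ) : k) • Q.q i) ?_ ?_
    · intro i
      simp only [smul_pow, hw, one_smul]
      exact Q.rel i
    · have h1 : (fun a : {a : Ev // Std a} => mon (fun i => ((w i : kˣ) : k) • Q.q i) a.1) =
          (fun a : {a : Ev // Std a} => (∏ i, (w i : kˣ) ^ a.1 i : kˣ)) • fun a : {a : Ev // Std a} => mon Q.q a.1 := by
        funext a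
        show mon (fun i => ((w i : kˣ) : k) • Q.q i) a.1 =
          (∏ i, (w i : kˣ) ^ a.1 i : kˣ) • mon Q.q a.1
        unfold mon
        rw [Units.smul_def, Units.coe_prod, Algebra.smul_def, map_prod, ← Finset.prod_mul_distrib]
        refine Finset.prod_congr rfl fun i _ => ?_
        rw [smul_pow, Algebra.smul_def, Units.val_pow_eq_pow_val]
      rw [h1]
      exact Q.indep.units_smul (fun a => ∏ i, (w i : kˣ) ^ a.1 i)
  choose ψ hψ using hex
  have hmul : ∀ w w', (ψ w).comp (ψ w') = ψ (w * w') := by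
    intro w w'
    apply Q.hom_ext
    intro i
    rw [AlgHom.comp_apply, hψ, map_smul, hψ, hψ, smul_smul]
    congr 1
    simp [mul_comm]
  have hone : ψ 1 = AlgHom.id k L := by
    apply Q.hom_ext
    intro i
    rw [hψ]
    simp
  let α : (ZMod 5 → rootsOfUnity 7 k) →* (L ≃ₐ[k] L) :=
    { toFun := fun w => AlgEquiv.ofAlgHom (ψ w) (ψ w⁻¹)
        (by rw [hmul, mul_inv_cancel, hone]) (by rw [hmul, inv_mul_cancel, hone])
      map_one' := by
        ext x
        show ψ 1 x = x
        rw [hone]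
        rfl
      map_mul' := by
        intro w w'
        ext x
        show ψ (w * w') x = ψ w (ψ w' x)
        rw [← hmul]
        rfl }
  exact ⟨α, fun w i => hψ w i⟩

/-- the action of `μ_7^5` -/
noncomputable def QD.alpha (Q : QD k L) : (ZMod 5 → rootsOfUnity 7 k) →* (L ≃ₐ[k] L) :=
  Q.exists_alpha.choose

theorem QD.alpha_q (Q : QD k L) (w : ZMod 5 → rootsOfUnity 7 k) (i : ZMod 5) :
    Q.alpha w (Q.q i) = ((w i : kˣ) : k) • Q.q i := Q.exists_alpha.choose_spec w i

end Ex

end R169
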