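import Crest.Agent.R169.ExSym

/-!
# Row 169, module EX, piece EX_CHSYM (0.6 h): charts and symmetries (general `D`)

`b / (img g m h)^j` with `b ∈ B(jm)`: `b = img g (jm) b0`, `img g (jm) b0 / (img g m h)^j = γ(b0 / h^j)`.
-/

set_option autoImplicit false

namespace R169

namespace Ex

variable {k L : Type} [Field k] [Field L] [Algebra k L]

section general
variable {D : GD k L}

private theorem img_pow_cs (g : Sym D) (h : L) (m : ℤ) (j : ℕ) :
    (img g m h) ^ j = img g (j * m) (h ^ j) := by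
  unfold img
  rw [mul_pow, map_pow]
  congr 1
  rw [← zpow_natCast, ← zpow_mul]
  congr 1
  ring

private theorem img_div_cs (g : Sym D) (h b : L) (m : ℤ) (j : ℕ) :
    img g (j * m) b / (img g m h) ^ j = g.γ (b / h ^ j) := by
  rw [img_pow_cs]
  unfold img
  rw [map_div₀, mul_div_mul_left _ _ (zpow_ne_zero _ g.τ_ne)]

theorem chart_img (g : Sym D) (h : L) (m : ℤ) : chart D (img g m h) m = g.γ '' chart D h m := by
  ext l
  constructor
  · rintro ⟨j, b, hb, rfl⟩
    refine ⟨img (sinv g) (j * m) b / h ^ j, ⟨j, _, (img_mem _ _ _).2 hb, rfl⟩, ?_⟩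
    rw [← img_div_cs, img_inv']
  · rintro ⟨_, ⟨j, b, hb, rfl⟩, rfl⟩
    exact ⟨j, img g (j * m) b, (img_mem _ _ _).2 hb, (img_div_cs g h b m j).symm⟩

theorem chartDeg_img (g : Sym D) (h : L) (m c : ℤ) (l : L) :
    l ∈ chartDeg D (img g m h) m c ↔ ∃ l0 ∈ chartDeg D h m c, l = img g c l0 := by
  constructor
  · rintro ⟨j, hj⟩
    refine ⟨img (sinv g) c l, ⟨j, ?_⟩, (img_inv' g c l).symm⟩
    rw [img_pow_cs, ← img_inv' g c l, ← img_add, img_mem] at hj
    exact hj
  · rintro ⟨l0, ⟨j, hj⟩, rfl⟩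
    refine ⟨j, ?_⟩
    rw [img_pow_cs, ← img_add, img_mem]
    exact hj

theorem pbasis_image (p : ℕ) (g : L ≃ₐ[k] L) (S : Set L) (u v : L) (h : IsPBasis p S u v) :
    IsPBasis p (g '' S) (g u) (g v) := by
  obtain ⟨hu, hv, hspan, hind⟩ := h
  refine ⟨⟨u, hu, rfl⟩, ⟨v, hv, rfl⟩, ?_, ?_⟩
  · rintro _ ⟨f, hf, rfl⟩
    obtain ⟨G, hG, hfG⟩ := hspan f hf
    refine ⟨fun i j => g (G i j), fun i j => ⟨G i j, hG i j, rfl⟩, ?_⟩
    rw [hfG, map_sum]
    refine Finset.sum_congr rfl fun i _ => ?_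
    rw [map_sum]
    refine Finset.sum_congr rfl fun j _ => ?_
    rw [map_mul, map_mul, map_pow, map_pow, map_pow]
  · intro G hG i j
    have h1 : ∑ i, ∑ j, (g.symm (G i j)) ^ p * u ^ (i : ℕ) * v ^ (j : ℕ) = 0 := by
      apply g.injective
      rw [map_zero, ← hG, map_sum]
      refine Finset.sum_congr rfl fun i _ => ?_
      rw [map_sum]
      refine Finset.sum_congr rfl fun j _ => ?_
      rw [map_mul, map_mul, map_pow, map_pow, map_pow, AlgEquiv.apply_symm_apply]
    have h2 := hind _ h1 i j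
    rw [← g.apply_symm_apply (G i j), h2, map_zero]
end general

end Ex

end R169
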