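import Crest.Agent.R169.ExPent

/-!
# Row 169, module EX, piece EX_COMB (0.8 h): fractional 2-factors

The ten numbers `m = (a_0..a_4; n - λ_0(a), .., n - λ_4(a))` are the exponents of the ten edges of `K_5`
(`a_0..a_4` = 13, 14, 24, 25, 35; `n - λ_i`, `i = 0..4` = 34, 12, 45, 23, 15).  Every vertex star has sum `2n`, every
triangle has sum `n + (opposite edge) ≥ n`.  If `n ≥ 6K`, the set `S = {e : m_e ≥ 2K}` meets the ten triangles
(index lists with 5 + i for `n - λ_i`): [6,0,8],[6,1,2],[6,9,3],[0,1,5],[0,9,4],[1,9,7],[8,2,5],[8,3,4],[2,3,7],[5,4,7] and the five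
stars [0,1,6,9],[2,3,6,8],[0,4,5,8],[1,2,5,7],[3,4,7,9] (omega).
Boolean lemma (checked by computer, prove it by `decide` over `2^10` cases): such an `S` contains the support of one of the 22
two-factors `fac F` (support of the ten exponents `(F_i; 1 - λ_i(F))`, all exponents `≤ 2`).
Then `a' = a - K F`.
-/

set_option autoImplicit false

namespace R169

namespace Ex

variable {k L : Type} [Field k] [Field L] [Algebra k L]

/-- the ten "triangle times double edge" 2-factors: `q_i` and `q_i^2 q_{i+2} q_{i+3}` -/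
inductive TI where
  | one (i : ZMod 5) : TI
  | two (i : ZMod 5) : TI
  deriving Fintype, DecidableEq

def tri : TI → Ev
  | .one i => fun j => if j = i then 1 else 0
  | .two i => fun j => if j = i then 2 else if j = i + 2 ∨ j = i + 3 then 1 else 0

def fac : PI ⊕ TI → Ev
  | .inl j => pent j
  | .inr j => tri j

/-- Boolean hypothesis: the set meets all triangles and stars -/
private def okB (t0 t1 t2 t3 t4 u0 u1 u2 u3 u4 : Bool) : Bool :=
  (t0 || u1 || u3) && (u0 || t0 || t1) && (t0 || t1 || u1 || u4) && (t1 || u2 || u4) && (u1 || t1 || t2) && (t1 || t2 || u2 || u0) && (t2 || u3 || u0) && (u2 || t2 || t3) && (t2 || t3 || u3 || u1) && (t3 || u4 || u1) && (u3 || t3 || t4) && (t3 || t4 || u4 || u2) && (t4 || u0 || u2) && (u4 || t4 || t0) && (t4 || t0 || u0 || u3)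

/-- choice of the 2-factor -/
private def cov (t0 t1 t2 t3 t4 u0 u1 u2 u3 u4 : Bool) : Option (PI ⊕ TI) :=
  if u0 && u1 && u2 && u3 && u4 then some (.inl .x) else
  if t0 && t2 && u2 && u3 && u4 then some (.inl (.two 0)) else
  if t1 && t3 && u0 && u3 && u4 then some (.inl (.two 1)) else
  if t2 && t4 && u0 && u1 && u4 then some (.inl (.two 2)) else
  if t0 && t3 && u0 && u1 && u2 then some (.inl (.two 3)) else
  if t1 && t4 && u1 && u2 && u3 then some (.inl (.two 4)) else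
  if t0 && t1 && t3 && u2 && u3 then some (.inl (.three 0)) else
  if t1 && t2 && t4 && u3 && u4 then some (.inl (.three 1)) else
  if t0 && t2 && t3 && u0 && u4 then some (.inl (.three 2)) else
  if t1 && t3 && t4 && u0 && u1 then some (.inl (.three 3)) else
  if t0 && t2 && t4 && u1 && u2 then some (.inl (.three 4)) else
  if t0 && t1 && t2 && t3 && t4 then some (.inl .g) else
  if t0 && u1 && u2 && u3 then some (.inr (.one 0)) else
  if t1 && u2 && u3 && u4 then some (.inr (.one 1)) else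
  if t2 && u0 && u3 && u4 then some (.inr (.one 2)) else
  if t3 && u0 && u1 && u4 then some (.inr (.one 3)) else
  if t4 && u0 && u1 && u2 then some (.inr (.one 4)) else
  if t0 && t2 && t3 && u2 then some (.inr (.two 0)) else
  if t1 && t3 && t4 && u3 then some (.inr (.two 1)) else
  if t0 && t2 && t4 && u4 then some (.inr (.two 2)) else
  if t0 && t1 && t3 && u0 then some (.inr (.two 3)) else
  if t1 && t2 && t4 && u1 then some (.inr (.two 4)) else none

private theorem cov_some : ∀ t0 t1 t2 t3 t4 u0 u1 u2 u3 u4 : Bool,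
    okB t0 t1 t2 t3 t4 u0 u1 u2 u3 u4 = true →
    (cov t0 t1 t2 t3 t4 u0 u1 u2 u3 u4).isSome = true := by
  decide +kernel

/-- Boolean check of a factor -/
private def chkB (t0 t1 t2 t3 t4 u0 u1 u2 u3 u4 : Bool) (F : PI ⊕ TI) : Bool :=
  (t0 || (fac F 0 == 0)) && (t1 || (fac F 1 == 0)) && (t2 || (fac F 2 == 0)) && (t3 || (fac F 3 == 0)) &&
  (t4 || (fac F 4 == 0)) &&
  (u0 || (lam (fac F) 0 == 1)) && (u1 || (lam (fac F) 1 == 1)) && (u2 || (lam (fac F) 2 == 1)) &&
  (u3 || (lam (fac F) 3 == 1)) && (u4 || (lam (fac F) 4 == 1))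

private theorem cov_chk : ∀ t0 t1 t2 t3 t4 u0 u1 u2 u3 u4 : Bool,
    (cov t0 t1 t2 t3 t4 u0 u1 u2 u3 u4).all (chkB t0 t1 t2 t3 t4 u0 u1 u2 u3 u4) = true := by
  decide +kernel

private theorem fac_bd : ∀ (F : PI ⊕ TI) (i : ZMod 5), fac F i ≤ 2 ∧ -1 ≤ lam (fac F) i := by
  decide +kernel

theorem exists_factor (K : ℕ) (n : ℤ) (hn : 6 * (K : ℤ) ≤ n) (a : Ev) (h : ∀ i, lam a i ≤ n) :
    ∃ F : PI ⊕ TI, ∃ a' : Ev, (∀ i, a i = K * fac F i + a' i) ∧ ∀ i, lam a' i ≤ n - K := by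
  have hl0 : lam a 0 = (a 0 : ℤ) + a 1 - a 3 := rfl
  have hl1 : lam a 1 = (a 1 : ℤ) + a 2 - a 4 := rfl
  have hl2 : lam a 2 = (a 2 : ℤ) + a 3 - a 0 := rfl
  have hl3 : lam a 3 = (a 3 : ℤ) + a 4 - a 1 := rfl
  have hl4 : lam a 4 = (a 4 : ℤ) + a 0 - a 2 := rfl
  have h0 := h 0
  have h1 := h 1
  have h2 := h 2
  have h3 := h 3
  have h4 := h 4
  have hok : okB (decide (2 * K ≤ a 0)) (decide (2 * K ≤ a 1)) (decide (2 * K ≤ a 2)) (decide (2 * K ≤ a 3))
      (decide (2 * K ≤ a 4)) (decide (2 * (K : ℤ) ≤ n - lam a 0)) (decide (2 * (K : ℤ) ≤ n - lam a 1))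
      (decide (2 * (K : ℤ) ≤ n - lam a 2)) (decide (2 * (K : ℤ) ≤ n - lam a 3))
      (decide (2 * (K : ℤ) ≤ n - lam a 4)) = true := by
    unfold okB
    simp only [Bool.and_eq_true, Bool.or_eq_true, decide_eq_true_eq]
    rw [hl0] at h0 ⊢
    rw [hl1] at h1 ⊢
    rw [hl2] at h2 ⊢
    rw [hl3] at h3 ⊢
    rw [hl4] at h4 ⊢
    omega
  obtain ⟨F, hF⟩ := Option.isSome_iff_exists.1 (cov_some _ _ _ _ _ _ _ _ _ _ hok)
  have hc := cov_chk (decide (2 * K ≤ a 0)) (decide (2 * K ≤ a 1)) (decide (2 * K ≤ a 2)) (decide (2 * K ≤ a 3))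
      (decide (2 * K ≤ a 4)) (decide (2 * (K : ℤ) ≤ n - lam a 0)) (decide (2 * (K : ℤ) ≤ n - lam a 1))
      (decide (2 * (K : ℤ) ≤ n - lam a 2)) (decide (2 * (K : ℤ) ≤ n - lam a 3))
      (decide (2 * (K : ℤ) ≤ n - lam a 4))
  rw [hF, Option.all_some] at hc
  unfold chkB at hc
  simp only [Bool.and_eq_true, Bool.or_eq_true, decide_eq_true_eq, beq_iff_eq] at hc
  obtain ⟨⟨⟨⟨⟨⟨⟨⟨⟨ht0, ht1⟩, ht2⟩, ht3⟩, ht4⟩, hu0⟩, hu1⟩, hu2⟩, hu3⟩, hu4⟩ := hc
  have hZ : ∀ i : ZMod 5, i = 0 ∨ i = 1 ∨ i = 2 ∨ i = 3 ∨ i = 4 := by decide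
  have ht : ∀ i : ZMod 5, 2 * K ≤ a i ∨ fac F i = 0 := by
    intro i
    rcases hZ i with rfl | rfl | rfl | rfl | rfl
    · exact ht0
    · exact ht1
    · exact ht2
    · exact ht3
    · exact ht4
  have hu : ∀ i : ZMod 5, 2 * (K : ℤ) ≤ n - lam a i ∨ lam (fac F) i = 1 := by
    intro i
    rcases hZ i with rfl | rfl | rfl | rfl | rfl
    · exact hu0
    · exact hu1
    · exact hu2
    · exact hu3
    · exact hu4
  have hle : ∀ i, K * fac F i ≤ a i := by
    intro i
    rcases ht i with hi | hi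
    · refine le_trans ?_ hi
      rw [mul_comm 2 K]
      exact Nat.mul_le_mul_left K (fac_bd F i).1
    · rw [hi, mul_zero]
      exact Nat.zero_le _
  have ha : ∀ i, a i = K * fac F i + (a i - K * fac F i) := fun i => by
    have := hle i
    omega
  refine ⟨F, fun i => a i - K * fac F i, ha, fun i => ?_⟩
  have hlam : lam (fun i => a i - K * fac F i) i = lam a i - K * lam (fac F) i := by
    have e : ∀ j, ((a j - K * fac F j : ℕ) : ℤ) = (a j : ℤ) - K * fac F j := fun j => by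
      rw [Nat.cast_sub (hle j), Nat.cast_mul]
    unfold lam
    rw [e i, e (i + 1), e (i + 3)]
    ring
  rw [hlam]
  rcases hu i with hi | hi
  · have h5 := (fac_bd F i).2
    have h6 : (K : ℤ) * (-1) ≤ K * lam (fac F) i := mul_le_mul_of_nonneg_left h5 (Int.natCast_nonneg K)
    linarith
  · rw [hi, mul_one]
    have := h i
    linarith

end Ex

end R169
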