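import Crest.Agent.R169.ExCov1
import Crest.Agent.R169.ExComb

/-!
# Row 169, module EX, piece EX_COV2 (1 h): the covering

`H n = ∑_{j, r} (img (G j) 2 (hh r)) B_{n-2}` is a graded ideal (`H_mul`).  `pent_pow`: apply `img (G j) N` to `cov1`
(`img g N (h b) = img g 2 h * img g (N-2) b`, `img_add`), `img g N 1 = (img g 1 1)^N`.  `tri_pow`: `q_i^7 = (q_{i-1}q_{i+1})^7 - 1^7` and
`(q_i^2q_{i+2}q_{i+3})^7 = (q_0q_1q_2q_3q_4)^7 - (q_iq_{i+2}q_{i+3})^7` (from `a_{i+1}a_{i-1} = 1 + a_i`; `q_iq_{i+2}q_{i+3} = pent (three (i+2))`):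
`W^7 = u - v`, `u = P^7`, `v = P'^7`; `(u - v)^{2N}` = sum of terms divisible by `u^N` or `v^N` (`Commute.add_pow`), so `W^{14N} ∈ H (14N)`.
`cov`: `exists_factor` with `K = 14N`: `q^a = (fac F)^K q^{a'}`.
-/

set_option autoImplicit false

namespace R169

namespace Ex

variable {k L : Type} [Field k] [Field L] [Algebra k L]

/-- the ideal generated by the chart elements -/
noncomputable def QD.H (Q : QD k L) (G : PI → Sym Q.D) (n : ℤ) : Submodule k L :=
  ⨆ p : PI × ZMod 5, sm (img (G p.1) 2 (Q.hh p.2)) (Q.Bn (n - 2))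

section covaux

/-- the summands of `H` -/
theorem QD.H_gen (Q : QD k L) (G : PI → Sym Q.D) (p : PI × ZMod 5) {n : ℤ} {b : L}
    (hb : b ∈ Q.Bn (n - 2)) : img (G p.1) 2 (Q.hh p.2) * b ∈ Q.H G n :=
  Submodule.mem_iSup_of_mem p ⟨b, hb, rfl⟩

end covaux

theorem QD.H_mul (Q : QD k L) (G : PI → Sym Q.D) {i n : ℤ} {a w : L} (ha : a ∈ Q.Bn i)
    (hw : w ∈ Q.H G n) : a * w ∈ Q.H G (i + n) := by
  unfold QD.H at hw
  induction hw using Submodule.iSup_induction' with
  | mem p x hx =>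
    obtain ⟨b, hb, rfl⟩ := hx
    have h1 : a * b ∈ Q.Bn ((i + n) - 2) := by
      have := Q.mul_mem ha hb
      rwa [← add_sub_assoc] at this
    have h2 := Q.H_gen G p h1
    have e : a * (Algebra.lsmul k k L (img (G p.1) 2 (Q.hh p.2))) b =
        img (G p.1) 2 (Q.hh p.2) * (a * b) := by
      show a * (img (G p.1) 2 (Q.hh p.2) * b) = _
      ring
    rw [e]; exact h2
  | zero => rw [mul_zero]; exact Submodule.zero_mem _
  | add x y _ _ hx hy => rw [mul_add]; exact Submodule.add_mem _ hx hy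

private theorem cov2_pow_mem (Q : QD k L) {i : ℤ} {a : L} (ha : a ∈ Q.Bn i) (m : ℕ) :
    a ^ m ∈ Q.Bn (m * i) := by
  induction m with
  | zero =>
    rw [pow_zero, Nat.cast_zero, zero_mul, Q.zero]
    exact Submodule.mem_span_singleton_self _
  | succ m ih =>
    have := Q.mul_mem ih ha
    rw [pow_succ]
    have e : ((m + 1 : ℕ) : ℤ) * i = m * i + i := by push_cast; ring
    rw [e]; exact this

private theorem cov2_pow_mem_one (Q : QD k L) {a : L} (ha : a ∈ Q.Bn 1) (m : ℕ) :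
    a ^ m ∈ Q.Bn m := by
  have := cov2_pow_mem Q ha m
  rwa [mul_one] at this

private theorem cov2_pent_mem (Q : QD k L) (j : PI) : mon Q.q (pent j) ∈ Q.Bn 1 :=
  Submodule.subset_span ⟨pent j, lam_pent j, rfl⟩

private theorem cov2_img_pow {D : GD k L} (g : Sym D) (n : ℤ) (b : L) (m : ℕ) :
    img g (m * n) (b ^ m) = (img g n b) ^ m := by
  unfold img
  rw [map_pow, mul_pow, ← zpow_natCast (g.τ ^ (-n)) m, ← zpow_mul]
  congr 2
  ring

private theorem cov2_img_sum {D : GD k L} (g : Sym D) (n : ℤ) {ι : Type} (s : Finset ι)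
    (b : ι → L) : img g n (∑ i ∈ s, b i) = ∑ i ∈ s, img g n (b i) := by
  unfold img
  rw [map_sum, Finset.mul_sum]

theorem QD.pent_pow (Q : QD k L) (G : PI → Sym Q.D)
    (hG : ∀ j, ∃ ε : k, ε ≠ 0 ∧ img (G j) 1 1 = ε • mon Q.q (pent j)) :
    ∃ N : ℕ, ∀ j, mon Q.q (pent j) ^ N ∈ Q.H G N := by
  obtain ⟨N, b, hN, hb, h1⟩ := Q.cov1
  refine ⟨N, fun j => ?_⟩
  obtain ⟨ε, hε, he⟩ := hG j
  have h2 : img (G j) (N : ℤ) 1 = ε ^ N • mon Q.q (pent j) ^ N := by
    have := cov2_img_pow (G j) 1 1 N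
    rw [one_pow, mul_one, he, smul_pow] at this
    exact this
  have h3 : img (G j) (N : ℤ) 1 ∈ Q.H G N := by
    rw [h1, cov2_img_sum]
    refine Submodule.sum_mem _ fun r _ => ?_
    have e : (N : ℤ) = 2 + ((N : ℤ) - 2) := by ring
    have h4 : img (G j) (N : ℤ) (Q.hh r * b r) =
        img (G j) 2 (Q.hh r) * img (G j) ((N : ℤ) - 2) (b r) := by
      rw [← img_add, ← e]
    rw [h4]
    exact Q.H_gen G (j, r) ((img_mem (G j) _ _).2 (hb r))
  rw [h2] at h3
  have h5 := Submodule.smul_mem _ (ε ^ N)⁻¹ h3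
  rwa [smul_smul, inv_mul_cancel₀ (pow_ne_zero _ hε), one_smul] at h5

/-- a monomial of degree `≥ 2N` in two pentagons is in `H` -/
private theorem cov2_two (Q : QD k L) (G : PI → Sym Q.D) (N : ℕ)
    (hN : ∀ j, mon Q.q (pent j) ^ N ∈ Q.H G N) (j j' : PI) (a b : ℕ) (h : 2 * N ≤ a + b) :
    mon Q.q (pent j) ^ a * mon Q.q (pent j') ^ b ∈ Q.H G (a + b) := by
  have key : ∀ (j j' : PI) (a b : ℕ), N ≤ a →
      mon Q.q (pent j) ^ a * mon Q.q (pent j') ^ b ∈ Q.H G (a + b) := by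
    intro j j' a b h
    obtain ⟨c, rfl⟩ := Nat.exists_eq_add_of_le h
    have h1 := Q.mul_mem (cov2_pow_mem_one Q (cov2_pent_mem Q j) c)
      (cov2_pow_mem_one Q (cov2_pent_mem Q j') b)
    have h2 := Q.H_mul G h1 (hN j)
    have e1 : mon Q.q (pent j) ^ (N + c) * mon Q.q (pent j') ^ b =
        mon Q.q (pent j) ^ c * mon Q.q (pent j') ^ b * mon Q.q (pent j) ^ N := by
      rw [pow_add]; ring
    have e2 : ((N + c : ℕ) : ℤ) + b = c + b + N := by push_cast; ring
    rw [e1, e2]; exact h2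
  rcases le_total N a with h1 | h1
  · exact key j j' a b h1
  · rw [mul_comm, add_comm (a : ℤ)]
    exact key j' j b a (by omega)

/-- `W^7 = P^7 - P'^7` -/
private theorem cov2_rel (Q : QD k L) (j : TI) : ∃ p p' : PI,
    mon Q.q (tri j) ^ 7 = mon Q.q (pent p) ^ 7 - mon Q.q (pent p') ^ 7 := by
  have hone : ∀ i : ZMod 5, Q.q (i - 1) ^ 7 * Q.q (i + 1) ^ 7 = 1 + Q.q i ^ 7 := Q.rel
  cases j with
  | one i =>
    refine ⟨.two (i - 1), .x, ?_⟩
    have e1 : mon Q.q (tri (.one i)) = Q.q i := by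
      have : tri (.one i) = Pi.single i 1 := by
        funext j; simp [tri, Pi.single_apply]
      rw [this, mon_single, pow_one]
    have e2 : mon Q.q (pent (.two (i - 1))) = Q.q (i - 1) * Q.q (i + 1) := by
      have : pent (.two (i - 1)) = Pi.single (i - 1) 1 + Pi.single (i + 1) 1 := by
        clear e1; revert i; decide
      rw [this, mon_add, mon_single, mon_single, pow_one, pow_one]
    have e3 : mon Q.q (pent .x) = 1 := mon_zero Q.q
    rw [e1, e2, e3, mul_pow, hone i]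
    ring
  | two i =>
    refine ⟨.g, .three (i + 2), ?_⟩
    have e1 : mon Q.q (tri (.two i)) = Q.q i ^ 2 * Q.q (i + 2) * Q.q (i + 3) := by
      have : tri (.two i) = Pi.single i 2 + Pi.single (i + 2) 1 + Pi.single (i + 3) 1 := by
        revert i; decide
      rw [this, mon_add, mon_add, mon_single, mon_single, mon_single, pow_one, pow_one]
    have e2 : mon Q.q (pent .g) =
        Q.q i * Q.q (i + 2) * Q.q (i + 3) * (Q.q (i - 1) * Q.q (i + 1)) := by
      have : pent .g = Pi.single i 1 + Pi.single (i + 2) 1 + Pi.single (i + 3) 1 +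
          (Pi.single (i - 1) 1 + Pi.single (i + 1) 1) := by
        clear e1; revert i; decide
      rw [this, mon_add, mon_add, mon_add, mon_add, mon_single, mon_single, mon_single, mon_single,
        mon_single, pow_one, pow_one, pow_one, pow_one, pow_one]
    have e3 : mon Q.q (pent (.three (i + 2))) = Q.q i * Q.q (i + 2) * Q.q (i + 3) := by
      have : pent (.three (i + 2)) = Pi.single i 1 + Pi.single (i + 2) 1 + Pi.single (i + 3) 1 := by
        clear e1 e2; revert i; decide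
      rw [this, mon_add, mon_add, mon_single, mon_single, mon_single, pow_one, pow_one, pow_one]
    rw [e1, e2, e3, mul_pow _ (Q.q (i - 1) * Q.q (i + 1)), mul_pow (Q.q (i - 1)), hone i]
    ring

theorem QD.tri_pow (Q : QD k L) (G : PI → Sym Q.D) (N : ℕ)
    (hN : ∀ j, mon Q.q (pent j) ^ N ∈ Q.H G N) (j : TI) :
    mon Q.q (tri j) ^ (14 * N) ∈ Q.H G (14 * N) := by
  obtain ⟨p, p', hp⟩ := cov2_rel Q j
  have e : mon Q.q (tri j) ^ (14 * N) = (mon Q.q (pent p) ^ 7 + -(mon Q.q (pent p') ^ 7)) ^ (2 * N) := by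
    rw [← sub_eq_add_neg, ← hp, ← pow_mul]
    congr 1
    ring
  rw [e, add_pow]
  refine Submodule.sum_mem _ fun m hm => ?_
  have hm' : m ≤ 2 * N := by
    rw [Finset.mem_range] at hm
    omega
  have h1 := cov2_two Q G N hN p p' (7 * m) (7 * (2 * N - m)) (by omega)
  have e2 : ((7 * m : ℕ) : ℤ) + ((7 * (2 * N - m) : ℕ) : ℤ) = 14 * N := by
    push_cast [hm']
    ring
  rw [e2] at h1
  have h2 := zsmul_mem h1 ((-1) ^ (2 * N - m) * ((2 * N).choose m : ℤ))
  have e3 : (mon Q.q (pent p) ^ 7) ^ m * (-(mon Q.q (pent p') ^ 7)) ^ (2 * N - m) *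
      ((2 * N).choose m : L) = ((-1) ^ (2 * N - m) * ((2 * N).choose m : ℤ)) •
        (mon Q.q (pent p) ^ (7 * m) * mon Q.q (pent p') ^ (7 * (2 * N - m))) := by
    rw [zsmul_eq_mul, neg_pow (mon Q.q (pent p') ^ 7), ← pow_mul, ← pow_mul]
    push_cast
    ring
  rw [e3]
  exact h2

theorem QD.cov (Q : QD k L) (G : PI → Sym Q.D)
    (hG : ∀ j, ∃ ε : k, ε ≠ 0 ∧ img (G j) 1 1 = ε • mon Q.q (pent j)) :
    ∃ J : ℤ, ∀ n, J ≤ n → Q.Bn n ≤ Q.H G n := by
  obtain ⟨N, hN⟩ := Q.pent_pow G hG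
  refine ⟨6 * ((14 * N : ℕ) : ℤ), fun n hn => Submodule.span_le.2 ?_⟩
  rintro l ⟨a, ha, rfl⟩
  obtain ⟨F, a', h1, h2⟩ := exists_factor (14 * N) n hn a ha
  have e1 : mon Q.q a = mon Q.q a' * mon Q.q (fac F) ^ (14 * N) := by
    have : a = a' + (14 * N) • fac F := by
      funext i
      rw [h1 i]
      simp [add_comm]
    rw [this, mon_add]
    congr 1
    unfold mon
    rw [← Finset.prod_pow]
    refine Finset.prod_congr rfl fun i _ => ?_
    rw [← pow_mul, Pi.smul_apply, smul_eq_mul, mul_comm]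
  have h3 : mon Q.q a' ∈ Q.Bn (n - ((14 * N : ℕ) : ℤ)) := Submodule.subset_span ⟨a', h2, rfl⟩
  have h4 : mon Q.q (fac F) ^ (14 * N) ∈ Q.H G ((14 * N : ℕ) : ℤ) := by
    rcases F with j | j
    · have h5 := cov2_two Q G N hN j j (14 * N) 0 (by omega)
      simpa [fac] using h5
    · have h5 := Q.tri_pow G N hN j
      simpa [fac] using h5
  have h5 := Q.H_mul G h3 h4
  rw [sub_add_cancel] at h5
  show mon Q.q a ∈ Q.H G n
  rw [e1]
  exact h5

end Ex

end R169
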