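import Crest.Agent.R169.ExPB2
import Crest.Agent.R169.ExCov2
import Crest.Agent.R169.ExChartSym

/-!
# Row 169, module EX, piece EX_CHARTS (0.6 h): `PCharts Q.D p`

`exists_pent` gives `G : PI → Sym Q.D` (choice).  Index `PI × ZMod 5`, symmetry `s = smul' (G j) (R r)`, `R r` = `r`-th power of `ρ`
(`(R r).γ q_i = q_{i+r}`, `τ = 1`), `h = img s 2 (hh 0) = img (G j) 2 (hh r)`, `m = 2`, `u = s.γ q_0`, `v = s.γ q_2`,
`ε = img s 1 1` (`1 ∈ chartDeg D (hh 0) 2 1` with `j = 0`; `1 ∈ chartDeg .. (-1)` with `j = 1`, `hh 0 ∈ B_1`).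
-/

set_option autoImplicit false

namespace R169

namespace Ex

variable {k L : Type} [Field k] [Field L] [Algebra k L]

theorem charts_q_ne (Q : QD k L) (i : ZMod 5) : Q.q i ≠ 0 := by
  intro h
  have h1 : ∀ i j : ZMod 5, Std (Pi.single i 1) := by
    intro i _
    unfold Std
    intro j
    by_cases hj : j - 1 = i
    · right
      have : j + 1 ≠ i := by
        intro h2
        have h3 : (2 : ZMod 5) = 0 := by
          have : j + 1 - (j - 1) = 0 := by rw [h2, hj, sub_self]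
          ring_nf at this
          exact this
        exact absurd h3 (by decide)
      rw [Pi.single_eq_of_ne this]
      norm_num
    · left
      rw [Pi.single_eq_of_ne hj]
      norm_num
  have h2 := Q.indep.ne_zero (⟨Pi.single i 1, h1 i i⟩ : {a : Ev // Std a})
  apply h2
  show mon Q.q (Pi.single i 1) = 0
  unfold mon
  apply Finset.prod_eq_zero (Finset.mem_univ i)
  rw [Pi.single_eq_same, pow_one, h]

theorem charts_hh_ne (Q : QD k L) (r : ZMod 5) : Q.hh r ≠ 0 :=
  mul_ne_zero (mul_ne_zero (charts_q_ne Q _) (charts_q_ne Q _)) (charts_q_ne Q _)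

theorem charts_pbasis (Q : QD k L) (p : ℕ) [Fact p.Prime] [CharP k p] [IsAlgClosed k] (hp : p ≠ 7)
    (r : ZMod 5) : IsPBasis p (chart Q.D (Q.hh r) 2) (Q.q r) (Q.q (r + 2)) := by
  obtain ⟨g, hg, hτ⟩ := Q.exists_symRho
  have h1 : ∀ n : ℕ, IsPBasis p (chart Q.D (Q.hh (n : ZMod 5)) 2) (Q.q (n : ZMod 5))
      (Q.q ((n : ZMod 5) + 2)) := by
    intro n
    induction n with
    | zero =>
      rw [Nat.cast_zero, zero_add]
      exact Q.pbasis_chart p hp
    | succ n ih =>
      have h2 : Q.hh ((n + 1 : ℕ) : ZMod 5) = img g 2 (Q.hh (n : ZMod 5)) := by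
        unfold img QD.hh
        rw [hτ, one_zpow, one_mul, hg, map_mul, map_mul, Q.rho_q, Q.rho_q, Q.rho_q]
        push_cast
        congr 1
        · congr 1
          congr 1
          ring
        · congr 1
          ring
      have h3 := pbasis_image p g.γ _ _ _ ih
      rw [hg, Q.rho_q, Q.rho_q] at h3
      rw [h2, chart_img, hg]
      have e1 : ((n + 1 : ℕ) : ZMod 5) = (n : ZMod 5) + 1 := by push_cast; ring
      have e2 : (n : ZMod 5) + 1 + 2 = (n : ZMod 5) + 2 + 1 := by ring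
      rw [e1, e2]
      exact h3
  have := h1 r.val
  rwa [ZMod.natCast_zmod_val] at this

theorem QD.pcharts (Q : QD k L) (p : ℕ) [Fact p.Prime] [CharP k p] [IsAlgClosed k] (hp : p ≠ 7) :
    PCharts Q.D p := by
  choose G hG using Q.exists_pent
  refine ⟨PI × ZMod 5, inferInstance, fun j => img (G j.1) 2 (Q.hh j.2), fun _ => 2,
    fun j => (G j.1).γ (Q.q j.2), fun j => (G j.1).γ (Q.q (j.2 + 2)),
    fun j => img (G j.1) 1 1, ?_, ?_⟩
  · rintro ⟨j, r⟩
    have hh1 : Q.hh r ∈ Q.D.B 1 := Q.hh_mem r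
    refine ⟨?_, by norm_num, ?_, ?_, ?_, ?_, ?_⟩
    · refine mul_ne_zero (zpow_ne_zero _ (G j).τ_ne) ?_
      simpa using charts_hh_ne Q r
    · show img (G j) 2 (Q.hh r) ∈ Q.D.B 2
      rw [img_mem]
      exact Q.mono (by norm_num) (Q.hh_mem r)
    · show IsPBasis p (chart Q.D (img (G j) 2 (Q.hh r)) 2) _ _
      rw [chart_img]
      exact pbasis_image p (G j).γ _ _ _ (charts_pbasis Q p hp r)
    · refine mul_ne_zero (zpow_ne_zero _ (G j).τ_ne) ?_
      simp
    · show img (G j) 1 1 ∈ chartDeg Q.D (img (G j) 2 (Q.hh r)) 2 1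
      rw [chartDeg_img]
      refine ⟨1, ⟨0, ?_⟩, rfl⟩
      simpa using Q.D.one_mem
    · show (img (G j) 1 1)⁻¹ ∈ chartDeg Q.D (img (G j) 2 (Q.hh r)) 2 (-1)
      rw [chartDeg_img]
      refine ⟨1, ⟨1, ?_⟩, ?_⟩
      · rw [pow_one, mul_one]
        have e : ((1 : ℕ) : ℤ) * 2 + -1 = 1 := by norm_num
        rw [e]
        exact hh1
      · unfold img
        simp
  · obtain ⟨J, hJ⟩ := Q.cov G hG
    exact ⟨J, fun n hn => hJ n hn⟩

end Ex

end R169
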