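import Crest.Agent.R169.ExMult

/-!
# Row 169, module EX: cluster monomials in the `a_i` are linearly independent over `k` (helper71).
-/

set_option autoImplicit false

namespace R169.Ex

open Polynomial

section clus

variable {k : Type} [Field k]

/-- exponents of cluster monomials -/
def Clus (μ : ZMod 5 → ℕ) : Prop := ∀ i, μ (i - 1) = 0 ∨ μ (i + 1) = 0

theorem lead_pP (N : ℕ) (μ : ZMod 5 → ℕ) : (pP (k := k) N μ).leadingCoeff =
    X ^ (N + μ 0 - μ 2 - μ 3) * (X + C 1) ^ μ 3 * X ^ μ 4 := by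
  unfold pP
  have h0 : (pD k).leadingCoeff = X := by
    unfold pD
    have : (C X * X - 1 : A2 k) = C X * X + C (-1) := by simp [sub_eq_add_neg]
    rw [this, leadingCoeff_linear X_ne_zero]
  have h1 : (pS k).leadingCoeff = 1 := leadingCoeff_X
  have h2 : (pS1 k).leadingCoeff = 1 := leadingCoeff_X_add_C 1
  have h3 : (pT1 k).leadingCoeff = X + C 1 := leadingCoeff_C _
  have h4 : (pT k).leadingCoeff = X := leadingCoeff_C _
  simp only [leadingCoeff_mul, leadingCoeff_pow, h0, h1, h2, h3, h4, one_pow, mul_one]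

theorem lead_pP_monic (N : ℕ) (μ : ZMod 5 → ℕ) : (pP (k := k) N μ).leadingCoeff.Monic := by
  rw [lead_pP]
  exact ((monic_X_pow _).mul ((monic_X_add_C 1).pow _)).mul (monic_X_pow _)

theorem lead_pP_natDegree (N : ℕ) (μ : ZMod 5 → ℕ) : (pP (k := k) N μ).leadingCoeff.natDegree =
    (N + μ 0 - μ 2 - μ 3) + μ 3 + μ 4 := by
  rw [lead_pP, Monic.natDegree_mul ((monic_X_pow _).mul ((monic_X_add_C 1).pow _)) (monic_X_pow _),
    Monic.natDegree_mul (monic_X_pow _) ((monic_X_add_C 1).pow _), natDegree_X_pow, natDegree_X_pow,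
    (monic_X_add_C (1 : k)).natDegree_pow, natDegree_X_add_C, mul_one]

/-- top coefficient of a combination of polynomials with distinct top exponents -/
theorem top_coeff {ι : Type} (s : Finset ι) (h : ι → k) (P : ι → A2 k)
    (hmon : ∀ i ∈ s, (P i).leadingCoeff.Monic)
    (hinj : ∀ i ∈ s, ∀ j ∈ s, (P i).natDegree = (P j).natDegree →
      (P i).leadingCoeff.natDegree = (P j).leadingCoeff.natDegree → i = j)
    (hne : ∃ i ∈ s, h i ≠ 0) :
    ∃ i ∈ s, h i ≠ 0 ∧ (∀ j ∈ s, h j ≠ 0 → (P j).natDegree ≤ (P i).natDegree) ∧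
      ((∑ j ∈ s, C (C (h j)) * P j).coeff (P i).natDegree).coeff (P i).leadingCoeff.natDegree =
        h i := by
  classical
  obtain ⟨i0, hi0, hh0⟩ := hne
  have hs' : (s.filter fun i => h i ≠ 0).Nonempty := ⟨i0, Finset.mem_filter.2 ⟨hi0, hh0⟩⟩
  obtain ⟨i, hi, hmax⟩ := Finset.exists_max_image (s.filter fun i => h i ≠ 0)
    (fun i => toLex ((P i).natDegree, (P i).leadingCoeff.natDegree)) hs'
  rw [Finset.mem_filter] at hi
  refine ⟨i, hi.1, hi.2, ?_, ?_⟩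
  · intro j hj hhj
    have := hmax j (Finset.mem_filter.2 ⟨hj, hhj⟩)
    rw [Prod.Lex.le_iff] at this
    rcases this with h1 | h1
    · exact le_of_lt h1
    · exact le_of_eq h1.1
  · rw [finsetSum_coeff, finsetSum_coeff]
    rw [Finset.sum_eq_single i]
    · rw [coeff_C_mul, coeff_C_mul, coeff_natDegree, coeff_natDegree, (hmon i hi.1).leadingCoeff,
        mul_one]
    · intro j hj hne
      rw [coeff_C_mul, coeff_C_mul]
      by_cases hhj : h j = 0
      · rw [hhj, zero_mul]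
      have := hmax j (Finset.mem_filter.2 ⟨hj, hhj⟩)
      rw [Prod.Lex.le_iff] at this
      rcases this with h1 | h1
      · have h1' : (P j).natDegree < (P i).natDegree := h1
        rw [coeff_eq_zero_of_natDegree_lt h1', coeff_zero, mul_zero]
      · have h2 : (P j).natDegree = (P i).natDegree := h1.1
        have h3 : (P j).leadingCoeff.natDegree ≤ (P i).leadingCoeff.natDegree := h1.2
        have h4 : (P j).leadingCoeff.natDegree < (P i).leadingCoeff.natDegree :=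
          lt_of_le_of_ne h3 fun e => hne (hinj j hj i hi.1 h2 e)
        rw [← h2, coeff_natDegree, coeff_eq_zero_of_natDegree_lt h4, mul_zero]
    · intro hi'
      exact absurd hi.1 hi'

/-- a cluster exponent is determined by `(λ_0, λ_4)` -/
theorem clus_val {μ : ZMod 5 → ℕ} (h : Clus μ) {x y : ℤ} (hx : x = μ 0 + μ 1 - μ 3)
    (hy : y = μ 0 + μ 4 - μ 2) :
    (μ 0 : ℤ) = max 0 (min x y) ∧ (μ 1 : ℤ) = max 0 (x - max 0 y) ∧ (μ 2 : ℤ) = max 0 (-y) ∧
      (μ 3 : ℤ) = max 0 (-x) ∧ (μ 4 : ℤ) = max 0 (y - max 0 x) := by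
  have a0 : μ 4 = 0 ∨ μ 1 = 0 := h 0
  have a1 : μ 0 = 0 ∨ μ 2 = 0 := h 1
  have a2 : μ 1 = 0 ∨ μ 3 = 0 := h 2
  have a3 : μ 2 = 0 ∨ μ 4 = 0 := h 3
  have a4 : μ 3 = 0 ∨ μ 0 = 0 := h 4
  rcases a0 with a0 | a0 <;> rcases a1 with a1 | a1 <;> rcases a2 with a2 | a2 <;>
      rcases a3 with a3 | a3 <;> rcases a4 with a4 | a4 <;> omega

theorem clus_inj {μ μ' : ZMod 5 → ℕ} (h : Clus μ) (h' : Clus μ') {N : ℕ}
    (hN : μ 2 + μ 3 ≤ N) (hN' : μ' 2 + μ' 3 ≤ N)
    (e1 : (N + μ 0 - μ 2 - μ 3) + μ 1 + μ 2 = (N + μ' 0 - μ' 2 - μ' 3) + μ' 1 + μ' 2)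
    (e2 : (N + μ 0 - μ 2 - μ 3) + μ 3 + μ 4 = (N + μ' 0 - μ' 2 - μ' 3) + μ' 3 + μ' 4) : μ = μ' := by
  obtain ⟨x, hx⟩ : ∃ x : ℤ, x = μ 0 + μ 1 - μ 3 := ⟨_, rfl⟩
  obtain ⟨y, hy⟩ : ∃ y : ℤ, y = μ 0 + μ 4 - μ 2 := ⟨_, rfl⟩
  have hx' : x = μ' 0 + μ' 1 - μ' 3 := by omega
  have hy' : y = μ' 0 + μ' 4 - μ' 2 := by omega
  obtain ⟨k0, k1, k2, k3, k4⟩ := clus_val h hx hy
  obtain ⟨l0, l1, l2, l3, l4⟩ := clus_val h' hx' hy'
  funext i
  fin_cases i
  · exact Nat.cast_injective (k0.trans l0.symm)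
  · exact Nat.cast_injective (k1.trans l1.symm)
  · exact Nat.cast_injective (k2.trans l2.symm)
  · exact Nat.cast_injective (k3.trans l3.symm)
  · exact Nat.cast_injective (k4.trans l4.symm)

/-- top coefficient of a combination of cluster monomials -/
theorem clus_top (s : Finset (ZMod 5 → ℕ)) (hs : ∀ μ ∈ s, Clus μ) (h : (ZMod 5 → ℕ) → k) (N : ℕ)
    (hN : ∀ μ ∈ s, μ 2 + μ 3 ≤ N) (hne : ∃ μ ∈ s, h μ ≠ 0) :
    ∃ μ ∈ s, h μ ≠ 0 ∧ (∀ ν ∈ s, h ν ≠ 0 → (pP (k := k) N ν).natDegree ≤ (pP (k := k) N μ).natDegree) ∧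
      (∑ ν ∈ s, C (C (h ν)) * pP N ν).natDegree = (pP (k := k) N μ).natDegree ∧
      (∑ ν ∈ s, C (C (h ν)) * pP (k := k) N ν) ≠ 0 := by
  obtain ⟨μ, hμ, hh, hmax, hc⟩ := top_coeff s h (fun μ => pP N μ) (fun μ _ => lead_pP_monic N μ)
    (fun μ hμ ν hν e1 e2 => by
      rw [natDegree_pP, natDegree_pP] at e1
      rw [lead_pP_natDegree, lead_pP_natDegree] at e2
      exact clus_inj (hs μ hμ) (hs ν hν) (hN μ hμ) (hN ν hν) e1 e2) hne
  refine ⟨μ, hμ, hh, hmax, le_antisymm ?_ ?_, ?_⟩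
  · refine natDegree_sum_le_of_forall_le _ _ fun ν hν => ?_
    by_cases h0 : h ν = 0
    · rw [h0]; simp
    · exact (natDegree_C_mul_le _ _).trans (hmax ν hν h0)
  · refine le_natDegree_of_ne_zero fun h0 => hh ?_
    rw [← hc, h0, coeff_zero]
  · intro h0
    apply hh
    rw [← hc, h0, coeff_zero, coeff_zero]

/-- cluster monomials are linearly independent -/
theorem clus_indep : LinearIndependent k (fun μ : {μ : ZMod 5 → ℕ // Clus μ} => ∏ i, aF k i ^ μ.1 i) := by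
  classical
  rw [linearIndependent_iff']
  intro s g hg μ0 hμ0
  by_contra hne
  set N : ℕ := s.sup fun μ => μ.1 2 + μ.1 3 with hNdef
  set s' : Finset (ZMod 5 → ℕ) := s.map (Function.Embedding.subtype _) with hs'
  set h : (ZMod 5 → ℕ) → k := fun μ => if hμ : Clus μ then g ⟨μ, hμ⟩ else 0 with hh
  have hsub : ∀ μ ∈ s', Clus μ := by
    intro μ hμ
    rw [hs', Finset.mem_map] at hμ
    obtain ⟨ν, _, rfl⟩ := hμ
    exact ν.2
  have hN : ∀ μ ∈ s', μ 2 + μ 3 ≤ N := by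
    intro μ hμ
    rw [hs', Finset.mem_map] at hμ
    obtain ⟨ν, hν, rfl⟩ := hμ
    exact Finset.le_sup (f := fun μ : {μ : ZMod 5 → ℕ // Clus μ} => μ.1 2 + μ.1 3) hν
  have hgne : ∃ μ ∈ s', h μ ≠ 0 := by
    refine ⟨μ0.1, ?_, ?_⟩
    · rw [hs', Finset.mem_map]
      exact ⟨μ0, hμ0, rfl⟩
    · simp only [hh]
      rw [dif_pos μ0.2]
      exact hne
  obtain ⟨_, _, _, _, _, hnz⟩ := clus_top s' hsub h N hN hgne
  apply hnz
  apply IsFractionRing.injective (A2 k) (F1 k)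
  rw [map_zero, map_sum, hs', Finset.sum_map]
  have : ∀ μ ∈ s, algebraMap (A2 k) (F1 k) (C (C (h ((Function.Embedding.subtype _) μ))) *
      pP N ((Function.Embedding.subtype _) μ)) =
      algebraMap (A2 k) (F1 k) (pD k) ^ N * (g μ • ∏ i, aF k i ^ μ.1 i) := by
    intro μ hμ
    have e1 : h μ.1 = g μ := by simp only [hh]; rw [dif_pos μ.2]
    have e2 : μ.1 2 + μ.1 3 ≤ N := Finset.le_sup (f := fun μ : {μ : ZMod 5 → ℕ // Clus μ} => μ.1 2 + μ.1 3) hμ
    show algebraMap (A2 k) (F1 k) (C (C (h μ.1)) * pP N μ.1) = _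
    rw [map_mul, map_pP e2, e1, Algebra.smul_def]
    have e3 : algebraMap (A2 k) (F1 k) (C (C (g μ))) = algebraMap k (F1 k) (g μ) := by
      rw [IsScalarTower.algebraMap_apply k (A2 k) (F1 k)]
      rfl
    rw [e3]
    ring
  rw [Finset.sum_congr rfl this, ← Finset.mul_sum, hg, mul_zero]

end clus

end R169.Ex
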