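import Crest.Agent.R169.ExCount4

/-!
# Row 169, module EX, Hilbert polynomial (proof plan: header of ExCountD.lean)
-/

set_option autoImplicit false

namespace R169

namespace Ex

variable {k L : Type} [Field k] [Field L] [Algebra k L]

theorem QD.hp (Q : QD k L) : HasHP Q.D.B 1715 (8575 / 2) 4802 := by
  refine ⟨100, fun n hn => ?_⟩
  show (Module.finrank k (Q.Bn n) : ℚ) = _
  rw [Q.finrank_Bn]
  have h := card_SE n hn
  have h' : ((Nat.card (SE n) : ℤ) : ℚ) * 2 = 1715 * n ^ 2 - 8575 * n + 9604 := by exact_mod_cast h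
  push_cast at h'
  linarith

/-- growth of the Hilbert function with a constant independent of the field -/
theorem growth : ∃ C1 : ℕ, ∀ (k L : Type) [Field k] [Field L] [Algebra k L] (Q : QD k L) (n : ℤ),
    0 ≤ n → Module.finrank k (Q.D.B n) ≤ Module.finrank k (Q.D.B (n - 1)) + C1 * (n.toNat + 1) := by
  obtain ⟨C1, h⟩ := card_growth
  refine ⟨C1, fun k L _ _ _ Q n hn => ?_⟩
  show Module.finrank k (Q.Bn n) ≤ Module.finrank k (Q.Bn (n - 1)) + C1 * (n.toNat + 1)
  rw [Q.finrank_Bn, Q.finrank_Bn]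
  exact h n hn

end Ex

end R169
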