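import Crest.Agent.R169.ExCountD

/-!
# Row 169, module EX, COUNT_1 (proof plan: header of ExCountD.lean)
-/

set_option autoImplicit false

namespace R169

namespace Ex

/-- partial sums of `1 + min (U - α) b` -/
theorem cnt_sum (U b A : ℕ) (hA : A ≤ U) :
    (2 * ∑ α ∈ Finset.range A, ((1 + min (U - (α + 1)) b : ℕ) : ℤ)) =
      2 * A * (1 + U) - A * (A + 1) - (((U - b : ℕ) : ℤ) * (((U - b : ℕ) : ℤ) - 1) -
        ((U - b - A : ℕ) : ℤ) * (((U - b - A : ℕ) : ℤ) - 1)) := by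
  induction A with
  | zero => simp
  | succ A ih =>
    rw [Finset.sum_range_succ, mul_add, ih (by omega)]
    by_cases hV : U - b - A = 0
    · have h1 : U - b - (A + 1) = 0 := by omega
      have h2 : min (U - (A + 1)) b = U - (A + 1) := by omega
      rw [hV, h1, h2]
      have h3 : ((1 + (U - (A + 1)) : ℕ) : ℤ) = U - A := by omega
      rw [h3]
      push_cast
      ring
    · have h2 : min (U - (A + 1)) b = b := by omega
      have h4 : ((U - b - A : ℕ) : ℤ) = U - b - A := by omega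
      have h5 : ((U - b - (A + 1) : ℕ) : ℤ) = U - b - A - 1 := by omega
      rw [h2, h4, h5]
      push_cast
      ring

/-- pairs `(α, β)`, `1 ≤ α ≤ min U a`, `β ≤ min (U - α) b` -/
def PF (U a b : ℕ) : Finset (ℕ × ℕ) :=
  (Finset.Icc 1 (min U a) ×ˢ Finset.range (U + 1)).filter fun p => p.1 + p.2 ≤ U ∧ p.2 ≤ b

theorem mem_PF {U a b : ℕ} {p : ℕ × ℕ} :
    p ∈ PF U a b ↔ 1 ≤ p.1 ∧ p.1 + p.2 ≤ U ∧ p.1 ≤ a ∧ p.2 ≤ b := by
  unfold PF
  simp only [Finset.mem_filter, Finset.mem_product, Finset.mem_Icc, Finset.mem_range]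
  omega

theorem card_PF_sum (U a b : ℕ) :
    (PF U a b).card = ∑ α ∈ Finset.range (min U a), (1 + min (U - (α + 1)) b) := by
  have h1 : (PF U a b).card = ((Finset.range (min U a)).sigma
      (fun α => Finset.range (1 + min (U - (α + 1)) b))).card := by
    symm
    refine Finset.card_bij (fun x _ => (x.1 + 1, x.2)) ?_ ?_ ?_
    · rintro ⟨α, β⟩ hx
      rw [Finset.mem_sigma, Finset.mem_range, Finset.mem_range] at hx
      rw [mem_PF]
      simp only at hx ⊢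
      omega
    · rintro ⟨α, β⟩ _ ⟨α', β'⟩ _ h
      simp only [Prod.mk.injEq, add_left_inj] at h
      obtain ⟨rfl, rfl⟩ := h
      rfl
    · rintro ⟨α, β⟩ hx
      rw [mem_PF] at hx
      simp only at hx
      refine ⟨⟨α - 1, β⟩, ?_, ?_⟩
      · rw [Finset.mem_sigma, Finset.mem_range, Finset.mem_range]
        simp only
        omega
      · simp only [Prod.mk.injEq, and_true]
        omega
  rw [h1, Finset.card_sigma]
  simp

theorem card_PF (U a b : ℕ) (h : U ≤ a + b) :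
    (2 * ((PF U a b).card : ℤ)) = U + (U : ℤ) ^ 2 - ((U - a : ℕ) : ℤ) - ((U - a : ℕ) : ℤ) ^ 2 +
      ((U - b : ℕ) : ℤ) - ((U - b : ℕ) : ℤ) ^ 2 := by
  rw [card_PF_sum]
  have h1 := cnt_sum U b (min U a) (by omega)
  push_cast at h1 ⊢
  rw [h1]
  have h2 : U - b - min U a = 0 := by omega
  rw [h2]
  have h3 : ((min U a : ℕ) : ℤ) = U - ((U - a : ℕ) : ℤ) := by omega
  have h4 : (min (U : ℤ) (a : ℤ)) = U - ((U - a : ℕ) : ℤ) := by rw [← h3]; push_cast; rfl
  rw [h4]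
  push_cast
  ring

/-- the vector `α e_j + β e_{j+1}` -/
def vv (j : ZMod 5) (p : ℕ × ℕ) : Ev := fun i => if i = j then p.1 else if i = j + 1 then p.2 else 0

theorem z5a : ∀ j : ZMod 5, j + 1 ≠ j ∧ j + 2 ≠ j ∧ j + 3 ≠ j ∧ j + 4 ≠ j ∧ j + 2 ≠ j + 1 ∧
    j + 3 ≠ j + 1 ∧ j + 4 ≠ j + 1 := by decide

theorem z5b : ∀ j : ZMod 5, j + 1 + 1 = j + 2 ∧ j + 2 + 1 = j + 3 ∧ j + 3 + 1 = j + 4 ∧
    j + 4 + 1 = j ∧ j + 1 + 3 = j + 4 ∧ j + 2 + 3 = j ∧ j + 3 + 3 = j + 1 ∧ j + 4 + 3 = j + 2 ∧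
    j - 1 = j + 4 ∧ j + 4 + 4 = j + 3 ∧ j + 1 + 4 = j := by decide

theorem z5c : ∀ i j : ZMod 5, i = j ∨ i = j + 1 ∨ i = j + 2 ∨ i = j + 3 ∨ i = j + 4 := by decide

theorem z5d : ∀ i : ZMod 5, i + 1 - 1 = i ∧ i + 1 + 1 = i + 2 ∧ i + 4 + 2 = i + 1 ∧ i + 3 + 2 = i ∧
    i + 2 + 2 = i + 4 := by decide

theorem vv0 (j : ZMod 5) (p : ℕ × ℕ) : vv j p j = p.1 := by simp [vv]

theorem vv1 (j : ZMod 5) (p : ℕ × ℕ) : vv j p (j + 1) = p.2 := by
  unfold vv
  rw [if_neg (z5a j).1, if_pos rfl]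

theorem vv2 (j : ZMod 5) (p : ℕ × ℕ) : vv j p (j + 2) = 0 := by
  unfold vv
  rw [if_neg (z5a j).2.1, if_neg (z5a j).2.2.2.2.1]

theorem vv3 (j : ZMod 5) (p : ℕ × ℕ) : vv j p (j + 3) = 0 := by
  unfold vv
  rw [if_neg (z5a j).2.2.1, if_neg (z5a j).2.2.2.2.2.1]

theorem vv4 (j : ZMod 5) (p : ℕ × ℕ) : vv j p (j + 4) = 0 := by
  unfold vv
  rw [if_neg (z5a j).2.2.2.1, if_neg (z5a j).2.2.2.2.2.2]

theorem lam_vv (j : ZMod 5) (p : ℕ × ℕ) : lam (vv j p) j = p.1 + p.2 ∧ lam (vv j p) (j + 1) = p.2 ∧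
    lam (vv j p) (j + 2) = -p.1 ∧ lam (vv j p) (j + 3) = -p.2 ∧ lam (vv j p) (j + 4) = p.1 := by
  obtain ⟨b1, b2, b3, b4, b5, b6, b7, b8, _, _, _⟩ := z5b j
  unfold lam
  rw [b1, b2, b3, b4, b5, b6, b7, b8, vv0, vv1, vv2, vv3, vv4]
  simp

theorem clusE_iff (μ : Ev) : ClusE μ ↔ ∀ i, μ i = 0 ∨ μ (i + 2) = 0 := by
  unfold ClusE
  constructor
  · intro h i
    have h1 := h (i + 1)
    rwa [(z5d i).1, (z5d i).2.1] at h1
  · intro h i
    have h1 := h (i + 4)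
    rw [(z5d i).2.2.1] at h1
    rwa [(z5b i).2.2.2.2.2.2.2.2.1]

theorem clusE_vv (j : ZMod 5) (p : ℕ × ℕ) : ClusE (vv j p) := by
  rw [clusE_iff]
  intro i
  rcases z5c i j with rfl | rfl | rfl | rfl | rfl
  · right; exact vv2 _ _
  · right
    have : j + 1 + 2 = j + 3 := by
      rw [← (z5b (j + 1)).1, (z5b j).1, (z5b j).2.1]
    rw [this]
    exact vv3 _ _
  · left; exact vv2 _ _
  · left; exact vv3 _ _
  · left; exact vv4 _ _

variable (u : ZMod 5 → ℕ)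

/-- the bijection -/
def FF5 : Option (Σ j : ZMod 5, {p : ℕ × ℕ // p ∈ PF (u j) (u (j + 4)) (u (j + 1))}) →
    {μ : Ev // ClusE μ ∧ ∀ i, lam μ i ≤ (u i : ℤ)}
  | none => ⟨fun _ => 0, fun _ => Or.inl rfl, fun i => by simp [lam]⟩
  | some ⟨j, p⟩ => ⟨vv j p.1, clusE_vv j p.1, fun i => by
      have hp := mem_PF.1 p.2
      obtain ⟨l0, l1, l2, l3, l4⟩ := lam_vv j p.1
      rcases z5c i j with rfl | rfl | rfl | rfl | rfl
      · rw [l0]; omega
      · rw [l1]; omega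
      · rw [l2]; omega
      · rw [l3]; omega
      · rw [l4]; omega⟩

theorem FF5_bij : Function.Bijective (FF5 u) := by
  constructor
  · intro x y hxy
    have key : ∀ (j : ZMod 5) (p : ℕ × ℕ), p ∈ PF (u j) (u (j + 4)) (u (j + 1)) →
        ∀ (j' : ZMod 5) (p' : ℕ × ℕ), p' ∈ PF (u j') (u (j' + 4)) (u (j' + 1)) →
        vv j p = vv j' p' → j = j' := by
      intro j p hp j' p' hp' h
      have e1 := (mem_PF.1 hp).1
      have e2 := (mem_PF.1 hp').1
      have e3 := congrFun h j'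
      rw [vv0] at e3
      have e4 := congrFun h (j' + 4)
      rw [vv4] at e4
      rcases z5c j' j with h1 | h1 | h1 | h1 | h1
      · exact h1.symm
      · rw [h1, (z5b j).2.2.2.2.2.2.2.2.2.2, vv0] at e4
        omega
      · rw [h1, vv2] at e3; omega
      · rw [h1, vv3] at e3; omega
      · rw [h1, vv4] at e3; omega
    rcases x with _ | ⟨j, p, hp⟩
    · rcases y with _ | ⟨j', p', hp'⟩
      · rfl
      · have h1 := congrFun (congrArg Subtype.val hxy) j'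
        have h2 : (0 : ℕ) = vv j' p' j' := h1
        rw [vv0] at h2
        have := (mem_PF.1 hp').1
        omega
    · rcases y with _ | ⟨j', p', hp'⟩
      · have h1 := congrFun (congrArg Subtype.val hxy) j
        have h2 : vv j p j = (0 : ℕ) := h1
        rw [vv0] at h2
        have := (mem_PF.1 hp).1
        omega
      · have h1 : vv j p = vv j' p' := congrArg Subtype.val hxy
        have h2 := key j p hp j' p' hp' h1
        subst h2
        have h3 := congrFun h1 j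
        have h4 := congrFun h1 (j + 1)
        rw [vv0, vv0] at h3
        rw [vv1, vv1] at h4
        have h5 : p = p' := Prod.ext h3 h4
        subst h5
        rfl
  · rintro ⟨μ, hμ, hl⟩
    by_cases h0 : ∀ i, μ i = 0
    · refine ⟨none, Subtype.ext ?_⟩
      funext i
      exact (h0 i).symm
    · push Not at h0
      obtain ⟨j0, hj0⟩ := h0
      rw [clusE_iff] at hμ
      have hex : ∃ j, μ j ≠ 0 ∧ μ (j + 4) = 0 := by
        by_cases h4 : μ (j0 + 4) = 0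
        · exact ⟨j0, hj0, h4⟩
        · refine ⟨j0 + 4, h4, ?_⟩
          rw [(z5b j0).2.2.2.2.2.2.2.2.2.1]
          have h3 := hμ (j0 + 3)
          rw [(z5d j0).2.2.2.1] at h3
          rcases h3 with h3 | h3
          · exact h3
          · exact absurd h3 hj0
      obtain ⟨j, hj, hj4⟩ := hex
      have hj2 : μ (j + 2) = 0 := (hμ j).resolve_left hj
      have hj3 : μ (j + 3) = 0 := by
        have h3 := hμ (j + 3)
        rw [(z5d j).2.2.2.1] at h3
        exact h3.resolve_right hj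
      have hv : μ = vv j (μ j, μ (j + 1)) := by
        funext i
        rcases z5c i j with rfl | rfl | rfl | rfl | rfl
        · rw [vv0]
        · rw [vv1]
        · rw [vv2, hj2]
        · rw [vv3, hj3]
        · rw [vv4, hj4]
      obtain ⟨l0, l1, l2, l3, l4⟩ := lam_vv j (μ j, μ (j + 1))
      rw [← hv] at l0 l1 l2 l3 l4
      have m0 := hl j
      have m1 := hl (j + 1)
      have m4 := hl (j + 4)
      rw [l0] at m0
      rw [l1] at m1
      rw [l4] at m4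
      simp only at m0 m1 m4
      refine ⟨some ⟨j, (μ j, μ (j + 1)), ?_⟩, Subtype.ext hv.symm⟩
      rw [mem_PF]
      simp only
      omega

theorem cnt_nat (h1 : ∀ i, u i ≤ u (i - 1) + u (i + 1)) :
    (Nat.card {μ : Ev // ClusE μ ∧ ∀ i, lam μ i ≤ (u i : ℤ)} : ℤ) = hu (fun i => (u i : ℤ)) := by
  rw [← Nat.card_congr (Equiv.ofBijective (FF5 u) (FF5_bij u)), Nat.card_eq_fintype_card,
    Fintype.card_option, Fintype.card_sigma]
  simp only [Fintype.card_coe]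
  have h2 : (2 * ∑ j : ZMod 5, ((PF (u j) (u (j + 4)) (u (j + 1))).card : ℤ)) =
      ∑ i, (u i : ℤ) - ∑ i, (u i : ℤ) ^ 2 + 2 * ∑ i, (u i : ℤ) * (u (i + 1)) := by
    rw [Finset.mul_sum]
    have h3 : ∀ j : ZMod 5, (2 * ((PF (u j) (u (j + 4)) (u (j + 1))).card : ℤ)) =
        (u j + (u j : ℤ) ^ 2) - (((u j - u (j + 4) : ℕ) : ℤ) + ((u j - u (j + 4) : ℕ) : ℤ) ^ 2) +
        (((u j - u (j + 1) : ℕ) : ℤ) - ((u j - u (j + 1) : ℕ) : ℤ) ^ 2) := by
      intro j
      rw [card_PF]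
      · ring
      · have := h1 j
        rwa [(z5b j).2.2.2.2.2.2.2.2.1] at this
    rw [Finset.sum_congr rfl fun j _ => h3 j, Finset.sum_add_distrib, Finset.sum_sub_distrib]
    have h4 : ∑ j : ZMod 5, (((u j - u (j + 4) : ℕ) : ℤ) + ((u j - u (j + 4) : ℕ) : ℤ) ^ 2) =
        ∑ j : ZMod 5, (((u (j + 1) - u j : ℕ) : ℤ) + ((u (j + 1) - u j : ℕ) : ℤ) ^ 2) := by
      symm
      refine Fintype.sum_equiv (Equiv.addRight (1 : ZMod 5)) _ _ ?_
      intro j
      simp only [Equiv.coe_addRight]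
      rw [(z5b j).2.2.2.2.2.2.2.2.2.2]
    rw [h4, ← Finset.sum_sub_distrib, ← Finset.sum_add_distrib]
    have h5 : ∀ j : ZMod 5, ((u j + (u j : ℤ) ^ 2) -
        (((u (j + 1) - u j : ℕ) : ℤ) + ((u (j + 1) - u j : ℕ) : ℤ) ^ 2) +
        (((u j - u (j + 1) : ℕ) : ℤ) - ((u j - u (j + 1) : ℕ) : ℤ) ^ 2)) =
        (2 * (u j : ℤ) - u (j + 1)) - (u (j + 1) : ℤ) ^ 2 + 2 * ((u j : ℤ) * u (j + 1)) := by
      intro j
      rcases le_total (u j) (u (j + 1)) with h | h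
      · have e1 : u j - u (j + 1) = 0 := by omega
        have e2 : ((u (j + 1) - u j : ℕ) : ℤ) = u (j + 1) - u j := by omega
        rw [e1, e2]
        push_cast
        ring
      · have e1 : u (j + 1) - u j = 0 := by omega
        have e2 : ((u j - u (j + 1) : ℕ) : ℤ) = u j - u (j + 1) := by omega
        rw [e1, e2]
        push_cast
        ring
    rw [Finset.sum_congr rfl fun j _ => h5 j, Finset.sum_add_distrib, Finset.sum_sub_distrib,
      Finset.sum_sub_distrib, ← Finset.mul_sum, ← Finset.mul_sum]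
    have h6 : ∑ j : ZMod 5, (u (j + 1) : ℤ) = ∑ j : ZMod 5, (u j : ℤ) :=
      Fintype.sum_equiv (Equiv.addRight (1 : ZMod 5)) _ _ fun j => rfl
    have h7 : ∑ j : ZMod 5, (u (j + 1) : ℤ) ^ 2 = ∑ j : ZMod 5, (u j : ℤ) ^ 2 :=
      Fintype.sum_equiv (Equiv.addRight (1 : ZMod 5)) _ _ fun j => rfl
    rw [h6, h7]
    ring
  unfold hu
  push_cast
  omega

/-- COUNT_1 -/
theorem card_clus (u : ZMod 5 → ℤ) (h0 : ∀ i, 0 ≤ u i) (h1 : ∀ i, u i ≤ u (i - 1) + u (i + 1)) :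
    (Nat.card {μ : Ev // ClusE μ ∧ ∀ i, lam μ i ≤ u i} : ℤ) = hu u := by
  obtain ⟨v, rfl⟩ : ∃ v : ZMod 5 → ℕ, u = fun i => (v i : ℤ) :=
    ⟨fun i => (u i).toNat, funext fun i => (Int.toNat_of_nonneg (h0 i)).symm⟩
  refine cnt_nat v fun i => ?_
  have h2 : (v i : ℤ) ≤ v (i - 1) + v (i + 1) := h1 i
  exact_mod_cast h2

end Ex

end R169
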