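import Crest.Agent.R169.ExCountD

/-!
# Row 169, module EX, COUNT_2 (proof plan: header of ExCountD.lean)
-/

set_option autoImplicit false

namespace R169

namespace Ex

/-- recombination -/
def comb (c : ZMod 5 → Fin 7) (μ : Ev) : Ev := fun i => 7 * μ i + (c i : ℕ)

theorem lam_comb (c : ZMod 5 → Fin 7) (μ : Ev) (i : ZMod 5) :
    lam (comb c μ) i = 7 * lam μ i + lam (cE c) i := by
  unfold lam comb cE
  push_cast
  ring

theorem comb_lt (c : ZMod 5 → Fin 7) (μ : Ev) (i : ZMod 5) : comb c μ i < 7 ↔ μ i = 0 := by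
  unfold comb
  have := (c i).2
  omega

theorem std_comb (c : ZMod 5 → Fin 7) (μ : Ev) : Std (comb c μ) ↔ ClusE μ := by
  unfold Std ClusE
  simp only [comb_lt]

theorem lam_comb_le (c : ZMod 5 → Fin 7) (μ : Ev) (n : ℤ) (i : ZMod 5) :
    lam (comb c μ) i ≤ n ↔ lam μ i ≤ (n - lam (cE c) i) / 7 := by
  rw [lam_comb]
  omega

/-- COUNT_2: `a ↦ (a mod 7, a div 7)` -/
theorem card_SE_sum (n : ℤ) : Nat.card (SE n) =
    ∑ c : ZMod 5 → Fin 7, Nat.card {μ : Ev // ClusE μ ∧ ∀ i, lam μ i ≤ (n - lam (cE c) i) / 7} := by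
  let F : (Σ c : ZMod 5 → Fin 7, {μ : Ev // ClusE μ ∧ ∀ i, lam μ i ≤ (n - lam (cE c) i) / 7}) →
      SE n := fun x => ⟨comb x.1 x.2.1, (std_comb _ _).2 x.2.2.1,
        fun i => (lam_comb_le _ _ _ _).2 (x.2.2.2 i)⟩
  have hF : Function.Bijective F := by
    constructor
    · rintro ⟨c, μ, hμ⟩ ⟨c', μ', hμ'⟩ h
      have h1 : comb c μ = comb c' μ' := congrArg Subtype.val h
      have h2 : c = c' := by
        funext i
        have h3 : 7 * μ i + (c i : ℕ) = 7 * μ' i + (c' i : ℕ) := congrFun h1 i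
        have := (c i).2
        have := (c' i).2
        exact Fin.ext (by omega)
      subst h2
      have h3 : μ = μ' := by
        funext i
        have h3 : 7 * μ i + (c i : ℕ) = 7 * μ' i + (c i : ℕ) := congrFun h1 i
        omega
      subst h3
      rfl
    · rintro ⟨a, ha, hn⟩
      obtain ⟨c, hc⟩ : ∃ c : ZMod 5 → Fin 7, ∀ i, (c i : ℕ) = a i % 7 :=
        ⟨fun i => ⟨a i % 7, Nat.mod_lt _ (by norm_num)⟩, fun i => rfl⟩
      have h1 : comb c (fun i => a i / 7) = a := by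
        funext i
        unfold comb
        rw [hc]
        exact Nat.div_add_mod (a i) 7
      refine ⟨⟨c, fun i => a i / 7, (std_comb c _).1 (by rw [h1]; exact ha), fun i =>
        (lam_comb_le c _ _ i).1 (by rw [h1]; exact hn i)⟩, ?_⟩
      exact Subtype.ext h1
  have hfin : Finite (Σ c : ZMod 5 → Fin 7,
      {μ : Ev // ClusE μ ∧ ∀ i, lam μ i ≤ (n - lam (cE c) i) / 7}) :=
    Finite.of_injective F hF.1
  have hfin' : ∀ c : ZMod 5 → Fin 7,
      Finite {μ : Ev // ClusE μ ∧ ∀ i, lam μ i ≤ (n - lam (cE c) i) / 7} := fun c =>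
    Finite.of_injective (Sigma.mk (β := fun c : ZMod 5 → Fin 7 =>
      {μ : Ev // ClusE μ ∧ ∀ i, lam μ i ≤ (n - lam (cE c) i) / 7}) c) sigma_mk_injective
  rw [← Nat.card_congr (Equiv.ofBijective F hF), Nat.card_sigma]

end Ex

end R169
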