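import Crest.Agent.R169.ExCountD

/-!
# Row 169, module EX, COUNT_3 (proof plan: header of ExCountD.lean)
-/

set_option autoImplicit false

namespace R169

namespace Ex

namespace ExC3

theorem G_small : ∀ R : Fin 7, ∑ p : Fin 7 × Fin 7, (((R : ℕ) : ℤ) - ((p.1 : ℕ) : ℤ) +
    ((p.2 : ℕ) : ℤ)) / 7 = 7 * ((R : ℕ) : ℤ) - 21 := by
  decide +kernel

theorem S2_small : ∀ R : Fin 7, ∑ b : Fin 7, ∑ p : Fin 7 × Fin 7, ((((R : ℕ) : ℤ) -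
    ((b : ℕ) : ℤ) - ((p.1 : ℕ) : ℤ) + ((p.2 : ℕ) : ℤ)) / 7) ^ 2 =
    7 * ((R : ℕ) : ℤ) ^ 2 - 84 * ((R : ℕ) : ℤ) + 364 := by
  decide +kernel

theorem S1_small : ∀ R : Fin 7, ∑ b : Fin 7, ∑ p : Fin 7 × Fin 7, ((((R : ℕ) : ℤ) -
    ((b : ℕ) : ℤ) - ((p.1 : ℕ) : ℤ) + ((p.2 : ℕ) : ℤ)) / 7) =
    49 * ((R : ℕ) : ℤ) - 294 := by
  decide +kernel

theorem exists_QR (m : ℤ) : ∃ (Q : ℤ) (R : Fin 7), m = ((R : ℕ) : ℤ) + 7 * Q := by
  refine ⟨m / 7, ⟨(m % 7).toNat, by omega⟩, ?_⟩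
  simp only
  omega

theorem G (m : ℤ) : ∑ p : Fin 7 × Fin 7, (m - ((p.1 : ℕ) : ℤ) + ((p.2 : ℕ) : ℤ)) / 7 =
    7 * m - 21 := by
  obtain ⟨Q, R, rfl⟩ := exists_QR m
  have h : ∀ p : Fin 7 × Fin 7, (((R : ℕ) : ℤ) + 7 * Q - ((p.1 : ℕ) : ℤ) + ((p.2 : ℕ) : ℤ)) / 7 =
      (((R : ℕ) : ℤ) - ((p.1 : ℕ) : ℤ) + ((p.2 : ℕ) : ℤ)) / 7 + Q := by
    intro p
    rw [← Int.add_mul_ediv_left _ _ (by norm_num : (7 : ℤ) ≠ 0)]
    congr 1
    ring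
  simp only [h, Finset.sum_add_distrib, G_small]
  simp
  ring

theorem S1 (m : ℤ) : ∑ b : Fin 7, ∑ p : Fin 7 × Fin 7, (m - ((b : ℕ) : ℤ) - ((p.1 : ℕ) : ℤ) +
    ((p.2 : ℕ) : ℤ)) / 7 = 49 * m - 294 := by
  simp only [G]
  simp [Fin.sum_univ_succ]
  ring

theorem S2 (m : ℤ) : ∑ b : Fin 7, ∑ p : Fin 7 × Fin 7, ((m - ((b : ℕ) : ℤ) - ((p.1 : ℕ) : ℤ) +
    ((p.2 : ℕ) : ℤ)) / 7) ^ 2 = 7 * m ^ 2 - 84 * m + 364 := by
  obtain ⟨Q, R, rfl⟩ := exists_QR m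
  have h : ∀ (b : Fin 7) (p : Fin 7 × Fin 7),
      (((R : ℕ) : ℤ) + 7 * Q - ((b : ℕ) : ℤ) - ((p.1 : ℕ) : ℤ) + ((p.2 : ℕ) : ℤ)) / 7 =
      (((R : ℕ) : ℤ) - ((b : ℕ) : ℤ) - ((p.1 : ℕ) : ℤ) + ((p.2 : ℕ) : ℤ)) / 7 + Q := by
    intro b p
    rw [← Int.add_mul_ediv_left _ _ (by norm_num : (7 : ℤ) ≠ 0)]
    congr 1
    ring
  simp only [h, add_sq, Finset.sum_add_distrib, S2_small]
  have h1 := S1_small R
  simp only [← Finset.sum_mul, ← Finset.mul_sum, h1]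
  simp
  ring

/-- coordinates -/
def eqv : (ZMod 5 → Fin 7) ≃ Fin 7 × (Fin 7 × Fin 7) × (Fin 7 × Fin 7) where
  toFun c := (c 1, (c 0, c 3), (c 2, c 4))
  invFun p := fun i : ZMod 5 => (![p.2.1.1, p.1, p.2.2.1, p.2.1.2, p.2.2.2] : Fin 5 → Fin 7) i
  left_inv c := by
    funext i
    fin_cases i <;> rfl
  right_inv p := rfl

/-- the numbers `u i` -/
def uu (n : ℤ) (c : ZMod 5 → Fin 7) (i : ZMod 5) : ℤ := (n - lam (cE c) i) / 7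

theorem uu_shift (n : ℤ) (c : ZMod 5 → Fin 7) (i j : ZMod 5) :
    uu n c (j + i) = uu n (fun l => c (l + i)) j := by
  unfold uu lam cE
  simp only [add_right_comm j i]

theorem sum_shift (n : ℤ) (i : ZMod 5) (F : ℤ → ℤ → ℤ) :
    ∑ c : ZMod 5 → Fin 7, F (uu n c i) (uu n c (i + 1)) =
      ∑ c : ZMod 5 → Fin 7, F (uu n c 0) (uu n c 1) := by
  have h : ∀ c : ZMod 5 → Fin 7, F (uu n c i) (uu n c (i + 1)) =
      (fun c => F (uu n c 0) (uu n c 1))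
        ((((Equiv.addRight i).symm).arrowCongr (Equiv.refl (Fin 7))) c) := by
    intro c
    have h0 := uu_shift n c i 0
    have h1 := uu_shift n c i 1
    rw [zero_add] at h0
    rw [add_comm] at h1
    rw [h0, h1]
    rfl
  rw [Finset.sum_congr rfl fun c _ => h c]
  exact Equiv.sum_comp _ (fun c => F (uu n c 0) (uu n c 1))

/-- the functional -/
def Ph (x y : ℤ) : ℤ := x - x ^ 2 + 2 * (x * y)

theorem hu_two (u : ZMod 5 → ℤ) : hu u * 2 = 2 + ∑ i, Ph (u i) (u (i + 1)) := by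
  unfold hu Ph
  have hd : (2 : ℤ) ∣ ∑ i, u i - ∑ i, u i ^ 2 + 2 * ∑ i, u i * u (i + 1) := by
    refine dvd_add ?_ (Dvd.intro _ rfl)
    rw [← Finset.sum_sub_distrib]
    refine Finset.dvd_sum fun i _ => ?_
    have h := (Int.even_mul_succ_self (u i - 1)).two_dvd
    have e : u i - u i ^ 2 = -((u i - 1) * (u i - 1 + 1)) := by ring
    rw [e]
    exact (dvd_neg).2 h
  rw [add_mul, Int.ediv_mul_cancel hd, Finset.sum_add_distrib, Finset.sum_sub_distrib,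
    Finset.mul_sum, one_mul]

theorem sum_Ph (n : ℤ) : ∑ c : ZMod 5 → Fin 7, Ph (uu n c 0) (uu n c 1) =
    49 * (49 * n - 294) - 49 * (7 * n ^ 2 - 84 * n + 364) +
      2 * ∑ b : Fin 7, (7 * (n - ((b : ℕ) : ℤ)) - 21) ^ 2 := by
  let Aa : Fin 7 → Fin 7 × Fin 7 → ℤ := fun b p =>
    (n - ((b : ℕ) : ℤ) - ((p.1 : ℕ) : ℤ) + ((p.2 : ℕ) : ℤ)) / 7
  have h : ∀ c : ZMod 5 → Fin 7, Ph (uu n c 0) (uu n c 1) =
      (fun x : Fin 7 × (Fin 7 × Fin 7) × (Fin 7 × Fin 7) => Ph (Aa x.1 x.2.1) (Aa x.1 x.2.2))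
        (eqv c) := by
    intro c
    have h0 : uu n c 0 = Aa (c 1) (c 0, c 3) := by
      unfold uu lam cE
      simp only [Aa, zero_add]
      congr 1
      ring
    have h1 : uu n c 1 = Aa (c 1) (c 2, c 4) := by
      unfold uu lam cE
      have e1 : (1 : ZMod 5) + 1 = 2 := by decide
      have e2 : (1 : ZMod 5) + 3 = 4 := by decide
      simp only [Aa, e1, e2]
      congr 1
      ring
    rw [h0, h1]
    rfl
  rw [Finset.sum_congr rfl fun c _ => h c, Equiv.sum_comp eqv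
    (fun x : Fin 7 × (Fin 7 × Fin 7) × (Fin 7 × Fin 7) => Ph (Aa x.1 x.2.1) (Aa x.1 x.2.2)),
    Fintype.sum_prod_type]
  have h2 : ∀ b : Fin 7, ∑ y : (Fin 7 × Fin 7) × (Fin 7 × Fin 7), Ph (Aa b y.1) (Aa b y.2) =
      49 * ∑ p, Aa b p - 49 * ∑ p, Aa b p ^ 2 + 2 * (7 * (n - ((b : ℕ) : ℤ)) - 21) ^ 2 := by
    intro b
    rw [Fintype.sum_prod_type]
    have h3 : ∑ p, Aa b p = 7 * (n - ((b : ℕ) : ℤ)) - 21 := G (n - ((b : ℕ) : ℤ))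
    unfold Ph
    simp only [Finset.sum_add_distrib, Finset.sum_sub_distrib, ← Finset.mul_sum,
      ← Finset.sum_mul, Finset.sum_const, Finset.card_univ, Fintype.card_prod, Fintype.card_fin,
      nsmul_eq_mul, h3]
    push_cast
    ring
  simp only [h2, Finset.sum_add_distrib, Finset.sum_sub_distrib, ← Finset.mul_sum]
  have h4 : ∑ b : Fin 7, ∑ p, Aa b p = 49 * n - 294 := S1 n
  have h5 : ∑ b : Fin 7, ∑ p, Aa b p ^ 2 = 7 * n ^ 2 - 84 * n + 364 := S2 n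
  rw [h4, h5]

end ExC3

/-- COUNT_3 (true for all integers `n`, checked numerically) -/
theorem sum_quad (n : ℤ) : (∑ c : ZMod 5 → Fin 7, hu (fun i => (n - lam (cE c) i) / 7)) * 2 =
    1715 * n ^ 2 - 8575 * n + 9604 := by
  have h : ∀ c : ZMod 5 → Fin 7, hu (fun i => (n - lam (cE c) i) / 7) * 2 =
      2 + ∑ i, ExC3.Ph (ExC3.uu n c i) (ExC3.uu n c (i + 1)) := fun c => ExC3.hu_two _
  rw [Finset.sum_mul, Finset.sum_congr rfl fun c _ => h c, Finset.sum_add_distrib,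
    Finset.sum_comm, Finset.sum_congr rfl fun i _ => ExC3.sum_shift n i ExC3.Ph,
    ExC3.sum_Ph]
  simp only [Finset.sum_const, Finset.card_univ, Fintype.card_pi, Finset.prod_const, ZMod.card,
    Fintype.card_fin, nsmul_eq_mul]
  simp [Fin.sum_univ_succ]
  ring

end Ex

end R169
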