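import Crest.Agent.R169.ExCount1
import Crest.Agent.R169.ExCount2
import Crest.Agent.R169.ExCount3

/-!
# Row 169, module EX, COUNT_4 (proof plan: header of ExCountD.lean)
-/

set_option autoImplicit false

namespace R169

namespace Ex

private theorem lam_cE (c : ZMod 5 → Fin 7) (i : ZMod 5) : -6 ≤ lam (cE c) i ∧ lam (cE c) i ≤ 12 := by
  have h : ∀ j, (c j : ℕ) ≤ 6 := fun j => Nat.lt_succ_iff.1 (c j).2
  unfold lam cE
  have h1 := h i
  have h2 := h (i + 1)
  have h3 := h (i - 1)
  have h4 := h (i + 2)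
  have h5 := h (i - 2)
  have h6 := h (i + 3)
  constructor <;> omega

/-- for `n ≥ 100` the hypotheses of `card_clus` hold with `u i = (n - lam c i) / 7` (`-6 ≤ lam c i ≤ 12`) -/
theorem card_SE (n : ℤ) (hn : 100 ≤ n) :
    (Nat.card (SE n) : ℤ) * 2 = 1715 * n ^ 2 - 8575 * n + 9604 := by
  rw [← sum_quad]
  have e : (Nat.card (SE n) : ℤ) = ∑ c : ZMod 5 → Fin 7, hu (fun i => (n - lam (cE c) i) / 7) := by
    refine (congrArg (fun x : ℕ => (x : ℤ)) (card_SE_sum n)).trans ?_
    refine (Nat.cast_sum _ _).trans ?_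
    refine Finset.sum_congr rfl fun c _ => ?_
    refine card_clus (fun i => (n - lam (cE c) i) / 7) (fun i => ?_) (fun i => ?_)
    · have h1 := lam_cE c i
      show 0 ≤ (n - lam (cE c) i) / 7
      omega
    · have h1 := lam_cE c i
      have h2 := lam_cE c (i - 1)
      have h3 := lam_cE c (i + 1)
      show (n - lam (cE c) i) / 7 ≤ (n - lam (cE c) (i - 1)) / 7 + (n - lam (cE c) (i + 1)) / 7
      omega
  exact congrArg (fun x : ℤ => x * 2) e

/-- `card (SE n) ≤ card (SE (n-1)) + C1 (n+1)`: for `n > 100` from `card_SE`, for `n ≤ 100` by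
`card (SE n) ≤ card (SE 100)`. -/
theorem card_growth : ∃ C1 : ℕ, ∀ n : ℤ, 0 ≤ n →
    Nat.card (SE n) ≤ Nat.card (SE (n - 1)) + C1 * (n.toNat + 1) := by
  refine ⟨1715 + Nat.card (SE 100), fun n hn => ?_⟩
  rcases le_or_gt n 100 with h | h
  · have h1 : Nat.card (SE n) ≤ Nat.card (SE 100) := by
      refine Nat.card_le_card_of_injective
        (fun a : SE n => (⟨a.1, a.2.1, fun i => (a.2.2 i).trans h⟩ : SE 100)) ?_
      intro a b hab
      exact Subtype.ext (congrArg (fun x : SE 100 => x.1) hab)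
    calc Nat.card (SE n) ≤ Nat.card (SE 100) * 1 := by rw [mul_one]; exact h1
      _ ≤ (1715 + Nat.card (SE 100)) * (n.toNat + 1) :=
          Nat.mul_le_mul (Nat.le_add_left _ _) (Nat.le_add_left _ _)
      _ ≤ _ := Nat.le_add_left _ _
  · have h1 := card_SE n h.le
    have h2 := card_SE (n - 1) (by omega)
    have h3 : (Nat.card (SE n) : ℤ) ≤ Nat.card (SE (n - 1)) + 1715 * (n + 1) := by
      nlinarith
    have h4 : (Nat.card (SE n) : ℤ) ≤
        ((Nat.card (SE (n - 1)) + (1715 + Nat.card (SE 100)) * (n.toNat + 1) : ℕ) : ℤ) := by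
      push_cast
      rw [Int.toNat_of_nonneg hn]
      have h5 : 0 ≤ (Nat.card (SE 100) : ℤ) * (n + 1) := by positivity
      nlinarith
    exact_mod_cast h4

end Ex

end R169
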