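import Crest.Agent.R169.ExGD

/-!
# Row 169, module EX: the Hilbert function of the example (architect helper71). Definitions.

`SE n` = standard exponents of level `≤ n`.  Write `a = 7 μ + c`, `c ∈ [0,7)^5`, `μ` a cluster exponent
(`Clus`: `μ (i-1) = 0 ∨ μ (i+1) = 0`); `lam a i = 7 lam μ i + lam c i`; so the condition is
`lam μ i ≤ u i` with `u i = (n - lam c i) / 7` (floor).

* `card_clus`: for `u` with `u i ≥ 0`, `u (i-1) + u (i+1) ≥ u i`:
  `#{μ : Clus μ, lam μ i ≤ u i} = 1 + (Σ u - Σ u² + 2 Σ u_i u_{i+1}) / 2`.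
  Proof: `μ = 0`; `μ = α e_i`, `α ≥ 1`: `lam = α` at `i, i-1`, `-α` at `i+2`: `min (u i) (u (i-1))` of them;
  `μ = α e_i + β e_{i+1}`, `α β ≥ 1`: `lam = α+β` at `i`, `α` at `i-1`, `β` at `i+1`, `≤ 0` at the others:
  number `C(u_i,2) - C((u_i-u_{i-1})⁺,2) - C((u_i-u_{i+1})⁺,2)` (triangle minus two disjoint corners).
* `sum_quad`: `Σ_c [..]` with `u i = (n - lam c i)/7`. For fixed other coordinates
  `Σ_{x<7} (m - x)/7 = m - 6` (floor division; omega), `Σ_{x,y<7} ((m-x-y)/7)²` is a quadratic polynomial after one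
  more summation: with `F(m) = Σ_{x,y,z<7} ((m-x-y-z)/7)^2` one has `F = 7 (m-9)^2 + const` — compute by writing
  `m = 7 Q + R`, `(7Q + s)/7 = Q + s/7`.
-/

set_option autoImplicit false

namespace R169

namespace Ex

/-- cluster exponents -/
def ClusE (μ : Ev) : Prop := ∀ i, μ (i - 1) = 0 ∨ μ (i + 1) = 0

/-- standard exponents of level `≤ n` -/
def SE (n : ℤ) : Type := {a : Ev // Std a ∧ ∀ i, lam a i ≤ n}

instance finite_SE (n : ℤ) : Finite (SE n) :=
  Set.Finite.subset (finite_exp n) (fun _ h => h.2)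

noncomputable instance fintype_SE (n : ℤ) : Fintype (SE n) := Fintype.ofFinite _

/-- the number `h(u)` -/
def hu (u : ZMod 5 → ℤ) : ℤ := 1 + (∑ i, u i - ∑ i, u i ^ 2 + 2 * ∑ i, u i * u (i + 1)) / 2

/-- small exponents -/
def cE (c : ZMod 5 → Fin 7) : Ev := fun i => (c i : ℕ)

variable {k L : Type} [Field k] [Field L] [Algebra k L]

/-- the standard monomials of level `≤ n` form a basis of `B_n` -/
noncomputable def QD.bas (Q : QD k L) (n : ℤ) : Module.Basis (SE n) k (Q.Bn n) :=
  Module.Basis.mk (v := fun a : SE n => (⟨mon Q.q a.1, Q.mon_mem a.2.2⟩ : Q.Bn n))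
    (by
      have h := Q.indep.comp (fun a : SE n => (⟨a.1, a.2.1⟩ : {a : Ev // Std a}))
        (fun a b hab => Subtype.ext (congrArg (fun x : {a : Ev // Std a} => x.1) hab))
      exact LinearIndependent.of_comp (Q.Bn n).subtype h)
    (by
      rintro ⟨x, hx⟩ _
      have hx' := hx
      rw [Q.Bn_std] at hx'
      induction hx' using Submodule.span_induction with
      | mem y hy =>
        obtain ⟨a, hs, ha, rfl⟩ := hy
        exact Submodule.subset_span ⟨⟨a, hs, ha⟩, rfl⟩
      | zero => exact Submodule.zero_mem _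
      | add y z hy hz ihy ihz =>
        have hy' : y ∈ Q.Bn n := by rw [Q.Bn_std]; exact hy
        have hz' : z ∈ Q.Bn n := by rw [Q.Bn_std]; exact hz
        exact Submodule.add_mem _ (ihy hy' trivial) (ihz hz' trivial)
      | smul c y hy ihy =>
        have hy' : y ∈ Q.Bn n := by rw [Q.Bn_std]; exact hy
        exact Submodule.smul_mem _ c (ihy hy' trivial))

theorem QD.bas_apply (Q : QD k L) (n : ℤ) (a : SE n) : (Q.bas n a : L) = mon Q.q a.1 := by
  unfold QD.bas
  rw [Module.Basis.mk_apply]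

theorem QD.finrank_Bn (Q : QD k L) (n : ℤ) : Module.finrank k (Q.Bn n) = Nat.card (SE n) := by
  rw [Module.finrank_eq_card_basis (Q.bas n), Nat.card_eq_fintype_card]

end Ex

end R169
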