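import Crest.Agent.R169.ExGD

/-!
# Row 169, module EX, piece EX_COV1 (0.7 h): partition of unity on `x ≠ 0`

`x_i = q_i^7`; modulo the products `x_{r+1}x_{r+3}x_{r+4} = 1 + x_{r+3} + x_{r+4}` all `x_i` are equal to one `x` with
`2x = -1`, and `x^2 = 1 + x` gives `1 = 2`, so the five products generate the unit ideal of `k[q]`.
(`QD.mon_mem`, with implicit arguments, is in `ExGD`.)
-/

set_option autoImplicit false

namespace R169

namespace Ex

/-- the five chart monomials generate the unit ideal -/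
theorem cov_ideal {S : Type} [CommRing S] (q : ZMod 5 → S) (hq : Rel q) (J : Ideal S)
    (h : ∀ r, q (r + 1) * q (r + 3) * q (r + 4) ∈ J) : (1 : S) ∈ J := by
  have hT : ∀ r, q (r + 1) ^ 7 * q (r + 3) ^ 7 * q (r + 4) ^ 7 ∈ J := fun r => by
    have := J.mul_mem_right ((q (r + 1) * q (r + 3) * q (r + 4)) ^ 6) (h r)
    have e : q (r + 1) ^ 7 * q (r + 3) ^ 7 * q (r + 4) ^ 7 =
      q (r + 1) * q (r + 3) * q (r + 4) * (q (r + 1) * q (r + 3) * q (r + 4)) ^ 6 := by ring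
    rw [e]; exact this
  have r0 : q 4 ^ 7 * q 1 ^ 7 = 1 + q 0 ^ 7 := hq 0
  have r1 : q 0 ^ 7 * q 2 ^ 7 = 1 + q 1 ^ 7 := hq 1
  have r2 : q 1 ^ 7 * q 3 ^ 7 = 1 + q 2 ^ 7 := hq 2
  have r3 : q 2 ^ 7 * q 4 ^ 7 = 1 + q 3 ^ 7 := hq 3
  have r4 : q 3 ^ 7 * q 0 ^ 7 = 1 + q 4 ^ 7 := hq 4
  have t0 : q 1 ^ 7 * q 3 ^ 7 * q 4 ^ 7 ∈ J := hT 0
  have t1 : q 2 ^ 7 * q 4 ^ 7 * q 0 ^ 7 ∈ J := hT 1
  have t2 : q 3 ^ 7 * q 0 ^ 7 * q 1 ^ 7 ∈ J := hT 2
  have t3 : q 4 ^ 7 * q 1 ^ 7 * q 2 ^ 7 ∈ J := hT 3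
  have t4 : q 0 ^ 7 * q 2 ^ 7 * q 3 ^ 7 ∈ J := hT 4
  generalize q 0 ^ 7 = x0 at *
  generalize q 1 ^ 7 = x1 at *
  generalize q 2 ^ 7 = x2 at *
  generalize q 3 ^ 7 = x3 at *
  generalize q 4 ^ 7 = x4 at *
  have e0 : 1 + x3 + x4 ∈ J := by
    have : 1 + x3 + x4 = x1 * x3 * x4 := by linear_combination -r2 * x4 - r3
    rw [this]; exact t0
  have e1 : 1 + x4 + x0 ∈ J := by
    have : 1 + x4 + x0 = x2 * x4 * x0 := by linear_combination -r3 * x0 - r4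
    rw [this]; exact t1
  have e2 : 1 + x0 + x1 ∈ J := by
    have : 1 + x0 + x1 = x3 * x0 * x1 := by linear_combination -r4 * x1 - r0
    rw [this]; exact t2
  have e3 : 1 + x1 + x2 ∈ J := by
    have : 1 + x1 + x2 = x4 * x1 * x2 := by linear_combination -r0 * x2 - r1
    rw [this]; exact t3
  have e4 : 1 + x2 + x3 ∈ J := by
    have : 1 + x2 + x3 = x0 * x2 * x3 := by linear_combination -r1 * x3 - r2
    rw [this]; exact t4
  have d1 : x3 - x0 ∈ J := by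
    have := J.sub_mem e0 e1
    have e : x3 - x0 = 1 + x3 + x4 - (1 + x4 + x0) := by ring
    rw [e]; exact this
  have d2 : x4 - x1 ∈ J := by
    have := J.sub_mem e1 e2
    have e : x4 - x1 = 1 + x4 + x0 - (1 + x0 + x1) := by ring
    rw [e]; exact this
  have d3 : x1 - x3 ∈ J := by
    have := J.sub_mem e3 e4
    have e : x1 - x3 = 1 + x1 + x2 - (1 + x2 + x3) := by ring
    rw [e]; exact this
  have d4 : x4 - x0 ∈ J := by
    have := J.add_mem (J.add_mem d2 d3) d1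
    have e : x4 - x0 = x4 - x1 + (x1 - x3) + (x3 - x0) := by ring
    rw [e]; exact this
  have d5 : 2 * x0 + 1 ∈ J := by
    have := J.sub_mem e1 d4
    have e : 2 * x0 + 1 = 1 + x4 + x0 - (x4 - x0) := by ring
    rw [e]; exact this
  have f : (1 : S) = (2 * x0 + 1) * (2 * x0 + 1) - 4 * (2 * x0 + 1) + 4 * x0 * (x3 - x0) - 4 * (x4 - x0) := by
    linear_combination -4 * r4
  rw [f]
  exact J.sub_mem (J.add_mem (J.sub_mem (J.mul_mem_left _ d5) (J.mul_mem_left _ d5)) (J.mul_mem_left _ d1))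
    (J.mul_mem_left _ d4)

variable {k L : Type} [Field k] [Field L] [Algebra k L]

/-- the chart monomial `q_{r+1}q_{r+3}q_{r+4}` (all diagonals except `q_r`, `q_{r+2}`) -/
def QD.hh (Q : QD k L) (r : ZMod 5) : L := Q.q (r + 1) * Q.q (r + 3) * Q.q (r + 4)

theorem QD.hh_mem (Q : QD k L) (r : ZMod 5) : Q.hh r ∈ Q.Bn 1 := by
  have h : ∀ r j : ZMod 5,
      lam (Pi.single (r + 1) 1 + Pi.single (r + 3) 1 + Pi.single (r + 4) 1) j ≤ 1 := by decide
  have := Q.mon_mem (h r)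
  rwa [mon_add, mon_add, mon_single, mon_single, mon_single, pow_one, pow_one, pow_one] at this

theorem QD.q_mem_BU (Q : QD k L) (i : ZMod 5) : Q.q i ∈ Q.BU :=
  Algebra.subset_adjoin ⟨i, rfl⟩

theorem QD.cov1 (Q : QD k L) : ∃ N : ℕ, ∃ b : ZMod 5 → L, 2 ≤ N ∧ (∀ r, b r ∈ Q.Bn (N - 2)) ∧
    1 = ∑ r, Q.hh r * b r := by
  let q' : ZMod 5 → Q.BU := fun i => ⟨Q.q i, Q.q_mem_BU i⟩
  have hq' : Rel q' := fun i => Subtype.ext (Q.rel i)
  let g : ZMod 5 → Q.BU := fun r => q' (r + 1) * q' (r + 3) * q' (r + 4)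
  have h1 : (1 : Q.BU) ∈ Ideal.span (Set.range g) :=
    cov_ideal q' hq' _ fun r => Ideal.subset_span ⟨r, rfl⟩
  obtain ⟨c, hc⟩ := Ideal.mem_span_range_iff_exists_fun.1 h1
  have h2 : ∀ r, ∃ n : ℕ, (c r : L) ∈ Q.Bn n := fun r => (Q.mem_BU _).1 (c r).2
  choose n hn using h2
  refine ⟨2 + ∑ r, n r, fun r => c r, by omega, fun r => Q.mono ?_ (hn r), ?_⟩
  · have : n r ≤ ∑ r, n r := Finset.single_le_sum (f := n) (fun _ _ => Nat.zero_le _) (Finset.mem_univ r)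
    push_cast
    have h3 : (n r : ℤ) ≤ ((∑ r, n r : ℕ) : ℤ) := by exact_mod_cast this
    push_cast at h3
    omega
  · have h4 := congrArg (fun z : Q.BU => (z : L)) hc
    simp only [AddSubmonoidClass.coe_finsetSum, MulMemClass.coe_mul, OneMemClass.coe_one] at h4
    rw [← h4]
    exact Finset.sum_congr rfl fun r _ => mul_comm _ _

end Ex

end R169
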