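import Crest.Agent.R169.ExLift

/-!
# Row 169, module EX, piece EX_CUR0 (0.7 h): graded primes not containing `x` and primes of `k[q]`

`one_notin`: induction (`1 * 1 ∈ I (1 + n)`).  `primeU`: `P = {b | ∃ n, b ∈ I n}`; if `b ∈ B_n ∩ I_m`: for `m ≤ n` multiply by `1 ∈ B_{n-m}`; for `m > n`
`1 * b ∈ I ((m-n) + n)` gives `b ∈ I n` (`mem_or`, `one_notin`).  (`n < 0`: `B_n = 0`.)
`not_const`: if all `q_i ≡ c_i` mod `P` then every `b ∈ k[q]` is constant mod `P`, so `dim B_n - dim I_n ≤ 1` for all `n ≥ 0`, against `IsCurve`.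
-/

set_option autoImplicit false

namespace R169

namespace Ex

variable {k L : Type} [Field k] [Field L] [Algebra k L]

theorem QD.one_mem' (Q : QD k L) (n : ℤ) (hn : 0 ≤ n) : (1 : L) ∈ Q.Bn n := by
  rw [← mon_zero Q.q]
  exact Q.mon_mem fun i => by rw [lam_zero]; exact hn

theorem QD.I_up (Q : QD k L) {I : ℤ → Submodule k L} (hI : GIdeal Q.D I) {m n : ℤ} (h : m ≤ n)
    {b : L} (hb : b ∈ I m) : b ∈ I n := by
  have := hI.smul_mem (a := 1) (w := b) (Q.one_mem' (n - m) (by omega)) hb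
  rwa [one_mul, sub_add_cancel] at this

theorem QD.one_notin (Q : QD k L) {I : ℤ → Submodule k L} (hI : GPrime Q.D I) (h1 : (1 : L) ∉ I 1) (n : ℕ) :
    (1 : L) ∉ I n := by
  induction n with
  | zero =>
    rw [Nat.cast_zero]
    exact hI.one_not_mem
  | succ n ih =>
    intro h
    have h2 : (1 : L) * 1 ∈ I (1 + n) := by
      rw [mul_one]
      have e : ((n + 1 : ℕ) : ℤ) = 1 + n := by push_cast; ring
      rwa [e] at h
    rcases hI.mem_or (a := 1) (b := 1) Q.one_mem (Q.one_mem' n (Int.natCast_nonneg n)) h2 with h3 | h3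
    · exact h1 h3
    · exact ih h3

/-- `P` is the prime of `k[q]` corresponding to the graded prime `I` -/
def QD.Corr (Q : QD k L) (I : ℤ → Submodule k L) (P : Ideal Q.BU) : Prop :=
  ∀ (n : ℤ) (b : Q.BU), (b : L) ∈ Q.Bn n → ((b : L) ∈ I n ↔ b ∈ P)

theorem QD.primeU (Q : QD k L) {I : ℤ → Submodule k L} (hI : GPrime Q.D I) (h1 : (1 : L) ∉ I 1) :
    ∃ P : Ideal Q.BU, P.IsPrime ∧ Q.Corr I P := by
  have h1' : ∀ m : ℤ, (1 : L) ∉ I m := by
    intro m hm
    rcases lt_or_ge m 0 with hm0 | hm0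
    · have h2 : (1 : L) ∈ Q.Bn m := hI.ideal.le m hm
      rw [Q.neg m hm0, Submodule.mem_bot] at h2
      exact one_ne_zero h2
    · obtain ⟨n, rfl⟩ := Int.eq_ofNat_of_zero_le hm0
      exact Q.one_notin hI h1 n hm
  have hcorr : ∀ (n : ℤ) (b : L), b ∈ Q.Bn n → (b ∈ I n ↔ ∃ m : ℤ, b ∈ I m) := by
    intro n b hb
    refine ⟨fun h => ⟨n, h⟩, ?_⟩
    rintro ⟨m, hm⟩
    rcases le_total m n with hmn | hmn
    · exact Q.I_up hI.ideal hmn hm
    · have h2 : (1 : L) * b ∈ I ((m - n) + n) := by rwa [one_mul, sub_add_cancel]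
      rcases hI.mem_or (a := 1) (b := b) (Q.one_mem' (m - n) (by omega)) hb h2 with h3 | h3
      · exact absurd h3 (h1' _)
      · exact h3
  refine ⟨{ carrier := {b : Q.BU | ∃ m : ℤ, (b : L) ∈ I m}
            add_mem' := ?_
            zero_mem' := ⟨0, (I 0).zero_mem⟩
            smul_mem' := ?_ }, ?_, ?_⟩
  · rintro a b ⟨m, hm⟩ ⟨m', hm'⟩
    exact ⟨max m m', (I (max m m')).add_mem (Q.I_up hI.ideal (le_max_left _ _) hm)
      (Q.I_up hI.ideal (le_max_right _ _) hm')⟩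
  · rintro c b ⟨m, hm⟩
    obtain ⟨j, hj⟩ := (Q.mem_BU c).1 c.2
    exact ⟨j + m, hI.ideal.smul_mem (a := (c : L)) (w := (b : L)) hj hm⟩
  · refine ⟨?_, ?_⟩
    · rw [Ideal.ne_top_iff_one]
      rintro ⟨m, hm⟩
      exact h1' m hm
    · rintro a b ⟨m, hm⟩
      obtain ⟨i, hi⟩ := (Q.mem_BU a).1 a.2
      obtain ⟨j, hj⟩ := (Q.mem_BU b).1 b.2
      have h2 : (a : L) * b ∈ I (i + j) := (hcorr _ _ (Q.mul_mem hi hj)).2 ⟨m, hm⟩
      rcases hI.mem_or (a := (a : L)) (b := (b : L)) hi hj h2 with h3 | h3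
      · exact Or.inl ⟨_, h3⟩
      · exact Or.inr ⟨_, h3⟩
  · intro n b hb
    exact hcorr n b hb

theorem QD.not_const (Q : QD k L) {I : ℤ → Submodule k L} (hI : IsCurve Q.D I) {P : Ideal Q.BU}
    (hP : Q.Corr I P) (c : ZMod 5 → k) : ¬ ∀ i, Q.qU i - algebraMap k Q.BU (c i) ∈ P := by
  intro hc
  have key : ∀ (x : L) (hx : x ∈ Q.BU), ∃ d : k, (⟨x, hx⟩ : Q.BU) - algebraMap k Q.BU d ∈ P := by
    intro x hx
    have hx' := hx
    unfold QD.BU at hx'
    induction hx' using Algebra.adjoin_induction with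
    | mem x hx1 =>
      obtain ⟨i, rfl⟩ := hx1
      exact ⟨c i, hc i⟩
    | algebraMap r =>
      refine ⟨r, ?_⟩
      have e : (⟨algebraMap k L r, hx⟩ : Q.BU) - algebraMap k Q.BU r = 0 := by
        rw [sub_eq_zero]
        rfl
      rw [e]
      exact P.zero_mem
    | add x y hx1 hy1 ihx ihy =>
      obtain ⟨d, hd⟩ := ihx hx1
      obtain ⟨d', hd'⟩ := ihy hy1
      refine ⟨d + d', ?_⟩
      have := P.add_mem hd hd'
      have e : (⟨x + y, hx⟩ : Q.BU) - algebraMap k Q.BU (d + d') =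
          (⟨x, hx1⟩ : Q.BU) - algebraMap k Q.BU d + ((⟨y, hy1⟩ : Q.BU) - algebraMap k Q.BU d') := by
        rw [map_add]
        have e2 : (⟨x + y, hx⟩ : Q.BU) = (⟨x, hx1⟩ : Q.BU) + ⟨y, hy1⟩ := rfl
        rw [e2]
        ring
      rw [e]
      exact this
    | mul x y hx1 hy1 ihx ihy =>
      obtain ⟨d, hd⟩ := ihx hx1
      obtain ⟨d', hd'⟩ := ihy hy1
      refine ⟨d * d', ?_⟩
      have := P.add_mem (P.mul_mem_right (⟨y, hy1⟩ : Q.BU) hd)
        (P.mul_mem_left (algebraMap k Q.BU d) hd')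
      have e : (⟨x * y, hx⟩ : Q.BU) - algebraMap k Q.BU (d * d') =
          ((⟨x, hx1⟩ : Q.BU) - algebraMap k Q.BU d) * (⟨y, hy1⟩ : Q.BU) +
          algebraMap k Q.BU d * ((⟨y, hy1⟩ : Q.BU) - algebraMap k Q.BU d') := by
        rw [map_mul]
        have e2 : (⟨x * y, hx⟩ : Q.BU) = (⟨x, hx1⟩ : Q.BU) * ⟨y, hy1⟩ := rfl
        rw [e2]
        ring
      rw [e]
      exact this
  have hdim : ∀ n : ℕ, Module.finrank k (Q.Bn n) ≤ Module.finrank k (I n) + 1 := by
    intro n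
    have := Q.fin n
    have h1 : Q.Bn n ≤ I n ⊔ Submodule.span k {(1 : L)} := by
      intro b hb
      have hbU : b ∈ Q.BU := (Q.mem_BU b).2 ⟨n, hb⟩
      obtain ⟨d, hd⟩ := key b hbU
      have h2 : (((⟨b, hbU⟩ : Q.BU) - algebraMap k Q.BU d : Q.BU) : L) ∈ Q.Bn n := by
        show b - algebraMap k L d ∈ Q.Bn n
        refine Submodule.sub_mem _ hb ?_
        rw [Algebra.algebraMap_eq_smul_one]
        exact Submodule.smul_mem _ _ (Q.one_mem' n (Int.natCast_nonneg n))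
      have h3 : b - algebraMap k L d ∈ I n := (hP n _ h2).2 hd
      have h4 : b = (b - algebraMap k L d) + d • (1 : L) := by
        rw [← Algebra.algebraMap_eq_smul_one]
        ring
      rw [h4]
      exact Submodule.add_mem_sup h3 (Submodule.smul_mem _ _ (Submodule.mem_span_singleton_self _))
    have hle : I n ≤ Q.Bn n := hI.1.ideal.le n
    have : FiniteDimensional k (I n) := Submodule.finiteDimensional_of_le hle
    refine (Submodule.finrank_mono h1).trans ?_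
    refine (Submodule.finrank_add_le_finrank_add_finrank _ _).trans ?_
    rw [finrank_span_singleton (one_ne_zero : (1 : L) ≠ 0)]
  obtain ⟨-, e, f, he, n0, hn0⟩ := hI
  obtain ⟨N, hN⟩ := exists_nat_gt ((1 - f) / e)
  have hn : n0 ≤ ((max n0.toNat N : ℕ) : ℤ) := by
    have h5 : n0.toNat ≤ max n0.toNat N := le_max_left _ _
    have h6 : n0 ≤ n0.toNat := Int.self_le_toNat n0
    omega
  have h1 := hn0 _ hn
  have h2 : (Module.finrank k (Q.D.B ((max n0.toNat N : ℕ) : ℤ)) : ℚ) ≤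
      Module.finrank k (I ((max n0.toNat N : ℕ) : ℤ)) + 1 := by
    exact_mod_cast hdim (max n0.toNat N)
  have h3 : (N : ℚ) ≤ (((max n0.toNat N : ℕ) : ℤ) : ℚ) := by
    exact_mod_cast le_max_right n0.toNat N
  have h4 : 1 - f < e * N := by
    rw [div_lt_iff₀ he] at hN
    linarith
  have h5 : e * N ≤ e * (((max n0.toNat N : ℕ) : ℤ) : ℚ) := mul_le_mul_of_nonneg_left h3 he.le
  linarith

end Ex

end R169
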