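import Crest.Agent.R169.ExCur0

/-!
# Row 169, module EX, piece EX_CUR1 (0.7 h): when everything is constant modulo a prime

`P` prime of `k[q]`, `k` alg. closed.  If `A ≠ 0` and `A(y) ∈ P` then `y - β ∈ P` for a root `β` (`A` splits).  If `q_i^7 - α ∈ P` then `q_i - c ∈ P`.
`const_of_q0`: `q_0 ∈ P`, `a_2 ≡ β`: `a_1 ≡ a_4 ≡ -1`, `a_3 ≡ -(1+β)` (`Q.rel`).
`const_of_alg`: `a_0 ≡ α ≠ 0`, `a_1 ≡ β ≠ 0`; `a_2 ≡ (1+β)/α`, `a_4 ≡ (1+α)/β`, `a_3 ≡ (1+a_2)/β`.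
-/

set_option autoImplicit false

namespace R169

namespace Ex

variable {k L : Type} [Field k] [Field L] [Algebra k L]

private theorem cur1_root [IsAlgClosed k] {S : Type} [CommRing S] [IsDomain S] [Algebra k S] (y : S)
    (A : Polynomial k) (hA : A ≠ 0) (h : Polynomial.aeval y A = 0) : ∃ β : k, y = algebraMap k S β := by
  rw [(IsAlgClosed.splits A).eq_prod_roots] at h
  rw [map_mul, Polynomial.aeval_C, map_multiset_prod, mul_eq_zero] at h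
  rcases h with h | h
  · exfalso
    rw [map_eq_zero_iff _ (algebraMap k S).injective, Polynomial.leadingCoeff_eq_zero] at h
    exact hA h
  · rw [Multiset.prod_eq_zero_iff, Multiset.map_map, Multiset.mem_map] at h
    obtain ⟨β, -, hβ⟩ := h
    refine ⟨β, ?_⟩
    simp only [Function.comp_apply, map_sub, Polynomial.aeval_X, Polynomial.aeval_C] at hβ
    exact sub_eq_zero.1 hβ

private theorem cur1_pow [IsAlgClosed k] {S : Type} [CommRing S] [IsDomain S] [Algebra k S] (y : S)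
    (α : k) (h : y ^ 7 = algebraMap k S α) : ∃ c : k, y = algebraMap k S c := by
  refine cur1_root y (Polynomial.X ^ 7 - Polynomial.C α)
    (Polynomial.X_pow_sub_C_ne_zero (by norm_num) α) ?_
  rw [map_sub, map_pow, Polynomial.aeval_X, Polynomial.aeval_C, h, sub_self]

private theorem cur1_fin (Q : QD k L) [IsAlgClosed k] (P : Ideal Q.BU) [P.IsPrime]
    (h : ∀ i, ∃ α : k, (Ideal.Quotient.mk P (Q.qU i)) ^ 7 = algebraMap k (Q.BU ⧸ P) α) :
    ∃ c : ZMod 5 → k, ∀ i, Q.qU i - algebraMap k Q.BU (c i) ∈ P := by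
  have h1 : ∀ i, ∃ c : k, Ideal.Quotient.mk P (Q.qU i) = algebraMap k (Q.BU ⧸ P) c := fun i => by
    obtain ⟨α, hα⟩ := h i
    exact cur1_pow _ α hα
  choose c hc using h1
  refine ⟨c, fun i => ?_⟩
  rw [← Ideal.Quotient.eq_zero_iff_mem, map_sub, hc i]
  exact sub_self _

private theorem cur1_rel (Q : QD k L) (P : Ideal Q.BU) (i j l : ZMod 5) (h1 : i - 1 = j) (h2 : i + 1 = l) :
    (Ideal.Quotient.mk P (Q.qU j)) ^ 7 * (Ideal.Quotient.mk P (Q.qU l)) ^ 7 =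
      1 + (Ideal.Quotient.mk P (Q.qU i)) ^ 7 := by
  subst h1 h2
  have h3 : Q.qU (i - 1) ^ 7 * Q.qU (i + 1) ^ 7 = 1 + Q.qU i ^ 7 := Subtype.ext (Q.rel i)
  rw [← map_pow, ← map_pow, ← map_mul, h3, map_add, map_one, map_pow]

theorem QD.const_of_q0 (Q : QD k L) [IsAlgClosed k] (P : Ideal Q.BU) [P.IsPrime] (h0 : Q.qU 0 ∈ P)
    (A : Polynomial k) (hA : A ≠ 0) (h : Polynomial.aeval (Q.qU 2 ^ 7) A ∈ P) :
    ∃ c : ZMod 5 → k, ∀ i, Q.qU i - algebraMap k Q.BU (c i) ∈ P := by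
  have h2 : Polynomial.aeval ((Ideal.Quotient.mk P (Q.qU 2)) ^ 7) A = 0 := by
    rw [← Ideal.Quotient.eq_zero_iff_mem] at h
    rw [← h, ← map_pow]
    exact Polynomial.aeval_algHom_apply (Ideal.Quotient.mkₐ k P) (Q.qU 2 ^ 7) A
  obtain ⟨β, hβ⟩ := cur1_root _ A hA h2
  have r0 := cur1_rel Q P 0 4 1 (by decide) (by decide)
  have r1 := cur1_rel Q P 1 0 2 (by decide) (by decide)
  have r2 := cur1_rel Q P 2 1 3 (by decide) (by decide)
  have r4 := cur1_rel Q P 4 3 0 (by decide) (by decide)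
  have hz : Ideal.Quotient.mk P (Q.qU 0) = 0 := Ideal.Quotient.eq_zero_iff_mem.2 h0
  rw [hz] at r1 r4
  have e1 : (Ideal.Quotient.mk P (Q.qU 1)) ^ 7 = -1 := by linear_combination -r1
  have e4 : (Ideal.Quotient.mk P (Q.qU 4)) ^ 7 = -1 := by linear_combination -r4
  have e3 : (Ideal.Quotient.mk P (Q.qU 3)) ^ 7 = -(1 + algebraMap k (Q.BU ⧸ P) β) := by
    rw [e1, hβ] at r2
    linear_combination -r2
  apply cur1_fin Q P
  intro i
  fin_cases i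
  · exact ⟨0, by rw [map_zero]; show (Ideal.Quotient.mk P (Q.qU 0)) ^ 7 = 0; rw [hz]; ring⟩
  · exact ⟨-1, by rw [map_neg, map_one]; exact e1⟩
  · exact ⟨β, hβ⟩
  · exact ⟨-(1 + β), by rw [map_neg, map_add, map_one]; exact e3⟩
  · exact ⟨-1, by rw [map_neg, map_one]; exact e4⟩

theorem QD.const_of_alg (Q : QD k L) [IsAlgClosed k] (P : Ideal Q.BU) [P.IsPrime] (hq : ∀ i, Q.qU i ∉ P)
    (A A' : Polynomial k) (hA : A ≠ 0) (hA' : A' ≠ 0) (h : Polynomial.aeval (Q.qU 0 ^ 7) A ∈ P)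
    (h' : Polynomial.aeval (Q.qU 1 ^ 7) A' ∈ P) :
    ∃ c : ZMod 5 → k, ∀ i, Q.qU i - algebraMap k Q.BU (c i) ∈ P := by
  have h2 : Polynomial.aeval ((Ideal.Quotient.mk P (Q.qU 0)) ^ 7) A = 0 := by
    rw [← Ideal.Quotient.eq_zero_iff_mem] at h
    rw [← h, ← map_pow]
    exact Polynomial.aeval_algHom_apply (Ideal.Quotient.mkₐ k P) (Q.qU 0 ^ 7) A
  have h3 : Polynomial.aeval ((Ideal.Quotient.mk P (Q.qU 1)) ^ 7) A' = 0 := by
    rw [← Ideal.Quotient.eq_zero_iff_mem] at h'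
    rw [← h', ← map_pow]
    exact Polynomial.aeval_algHom_apply (Ideal.Quotient.mkₐ k P) (Q.qU 1 ^ 7) A'
  obtain ⟨α, hα⟩ := cur1_root _ A hA h2
  obtain ⟨β, hβ⟩ := cur1_root _ A' hA' h3
  have hne : ∀ i, (Ideal.Quotient.mk P (Q.qU i)) ^ 7 ≠ 0 := by
    intro i h4
    exact hq i (Ideal.Quotient.eq_zero_iff_mem.1 (pow_eq_zero_iff (by norm_num) |>.1 h4))
  have hα0 : α ≠ 0 := by
    rintro rfl
    rw [map_zero] at hα
    exact hne 0 hα
  have hβ0 : β ≠ 0 := by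
    rintro rfl
    rw [map_zero] at hβ
    exact hne 1 hβ
  have r0 := cur1_rel Q P 0 4 1 (by decide) (by decide)
  have r1 := cur1_rel Q P 1 0 2 (by decide) (by decide)
  have r2 := cur1_rel Q P 2 1 3 (by decide) (by decide)
  have iα : algebraMap k (Q.BU ⧸ P) α⁻¹ * algebraMap k (Q.BU ⧸ P) α = 1 := by
    rw [← map_mul, inv_mul_cancel₀ hα0, map_one]
  have iβ : algebraMap k (Q.BU ⧸ P) β⁻¹ * algebraMap k (Q.BU ⧸ P) β = 1 := by
    rw [← map_mul, inv_mul_cancel₀ hβ0, map_one]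
  rw [hα, hβ] at r0 r1
  rw [hβ] at r2
  have e2 : (Ideal.Quotient.mk P (Q.qU 2)) ^ 7 = algebraMap k (Q.BU ⧸ P) (α⁻¹ * (1 + β)) := by
    rw [map_mul, map_add, map_one]
    linear_combination -(Ideal.Quotient.mk P (Q.qU 2)) ^ 7 * iα +
      algebraMap k (Q.BU ⧸ P) α⁻¹ * r1
  have e4 : (Ideal.Quotient.mk P (Q.qU 4)) ^ 7 = algebraMap k (Q.BU ⧸ P) (β⁻¹ * (1 + α)) := by
    rw [map_mul, map_add, map_one]
    linear_combination -(Ideal.Quotient.mk P (Q.qU 4)) ^ 7 * iβ +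
      algebraMap k (Q.BU ⧸ P) β⁻¹ * r0
  have e3 : (Ideal.Quotient.mk P (Q.qU 3)) ^ 7 =
      algebraMap k (Q.BU ⧸ P) (β⁻¹ * (1 + α⁻¹ * (1 + β))) := by
    rw [map_mul, map_add, map_one, ← e2]
    linear_combination -(Ideal.Quotient.mk P (Q.qU 3)) ^ 7 * iβ +
      algebraMap k (Q.BU ⧸ P) β⁻¹ * r2
  apply cur1_fin Q P
  intro i
  fin_cases i
  · exact ⟨_, hα⟩
  · exact ⟨_, hβ⟩
  · exact ⟨_, e2⟩
  · exact ⟨_, e3⟩
  · exact ⟨_, e4⟩

end Ex

end R169
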