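import Crest.Agent.R169.ExKum

/-!
# Row 169, module EX, piece EX_CUR2 (0.9 h): primes of `k[q]` over the same prime of `O(U)` are conjugate under `μ_7^5`

The finite group `μ_7^5` acts on `k[q]` (`alpha`), invariants = `O(U)` (`inv_OU`; elements of `O(U)` are fixed: `alpha_F1`, `OU_le_F1`).  Either build a
`MulSemiringAction` and use `Algebra.IsInvariant.exists_smul_of_under_eq` (Mathlib.RingTheory.Invariant), or directly: for `b ∈ P` the norm
`∏_w α_w b` lies in `P ∩ O(U)`, so some `α_w b ∈ P'`: `P ⊂ ⋃_w α_w⁻¹ P'`, prime avoidance (`Ideal.subset_union_prime`) gives `P ⊂ α_w⁻¹P'`, and equality by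
the same argument in the other direction (finite group: `P ⊂ γP' ⊂ γγ'P ⊂ ...`, or incomparability for the integral extension).
-/

set_option autoImplicit false

namespace R169

namespace Ex

variable {k L : Type} [Field k] [Field L] [Algebra k L]

private theorem alpha_mem_BU (Q : QD k L) (w : ZMod 5 → rootsOfUnity 7 k) {b : L} (hb : b ∈ Q.BU) :
    Q.alpha w b ∈ Q.BU := by
  unfold QD.BU at hb ⊢
  induction hb using Algebra.adjoin_induction with
  | mem x hx =>
    obtain ⟨i, rfl⟩ := hx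
    rw [Q.alpha_q]
    exact Subalgebra.smul_mem _ (Algebra.subset_adjoin (Set.mem_range_self i)) _
  | algebraMap r =>
    rw [AlgEquiv.commutes]
    exact Subalgebra.algebraMap_mem _ r
  | add x y _ _ hx hy =>
    rw [map_add]
    exact Subalgebra.add_mem _ hx hy
  | mul x y _ _ hx hy =>
    rw [map_mul]
    exact Subalgebra.mul_mem _ hx hy

/-- `α_w` on `k[q]` -/
private noncomputable def bet (Q : QD k L) (w : ZMod 5 → rootsOfUnity 7 k) : Q.BU →ₐ[k] Q.BU :=
  AlgHom.codRestrict (((Q.alpha w : L ≃ₐ[k] L) : L →ₐ[k] L).comp Q.BU.val) Q.BU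
    fun b => alpha_mem_BU Q w b.2

private theorem bet_val (Q : QD k L) (w : ZMod 5 → rootsOfUnity 7 k) (b : Q.BU) :
    ((bet Q w b : Q.BU) : L) = Q.alpha w b := rfl

private theorem bet_mul (Q : QD k L) (v w : ZMod 5 → rootsOfUnity 7 k) (b : Q.BU) :
    bet Q (v * w) b = bet Q v (bet Q w b) := by
  apply Subtype.ext
  rw [bet_val, bet_val, bet_val, map_mul]
  rfl

private theorem bet_one (Q : QD k L) (b : Q.BU) : bet Q 1 b = b := by
  apply Subtype.ext
  rw [bet_val, map_one]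
  rfl

private theorem conj_le (Q : QD k L) [IsAlgClosed k] (h7 : (7 : k) ≠ 0) (P P' : Ideal Q.BU)
    [P.IsPrime] [P'.IsPrime] (h : ∀ b : Q.BU, (b : L) ∈ Q.OU → (b ∈ P ↔ b ∈ P')) :
    ∃ w : ZMod 5 → rootsOfUnity 7 k, ∀ b ∈ P, bet Q w b ∈ P' := by
  classical
  have h1 : ((P : Set Q.BU)) ⊆ ⋃ w ∈ ((Finset.univ : Finset (ZMod 5 → rootsOfUnity 7 k)) :
      Set (ZMod 5 → rootsOfUnity 7 k)), (Ideal.comap (bet Q w) P' : Set Q.BU) := by
    intro b hb
    have hN : (∏ w : ZMod 5 → rootsOfUnity 7 k, bet Q w b) ∈ P := by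
      rw [← Finset.mul_prod_erase Finset.univ _ (Finset.mem_univ (1 : ZMod 5 → rootsOfUnity 7 k)),
        bet_one]
      exact P.mul_mem_right _ hb
    have hOU : ((∏ w : ZMod 5 → rootsOfUnity 7 k, bet Q w b : Q.BU) : L) ∈ Q.OU := by
      refine Q.inv_OU h7 _ (Subtype.mem _) fun v => ?_
      rw [← bet_val, map_prod]
      congr 1
      refine Fintype.prod_equiv (Equiv.mulLeft v) _ _ fun w => ?_
      rw [Equiv.coe_mulLeft, bet_mul]
    have hN' := (h _ hOU).1 hN
    rw [Ideal.IsPrime.prod_mem_iff] at hN'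
    obtain ⟨w, -, hw⟩ := hN'
    exact Set.mem_iUnion₂.2 ⟨w, Finset.mem_coe.2 (Finset.mem_univ w), hw⟩
  rw [Ideal.subset_union_prime 1 1 (fun w _ _ _ => Ideal.comap_isPrime (bet Q w) P')] at h1
  obtain ⟨w, -, hw⟩ := h1
  exact ⟨w, fun b hb => hw hb⟩

theorem QD.conj (Q : QD k L) [IsAlgClosed k] (h7 : (7 : k) ≠ 0) (P P' : Ideal Q.BU) [P.IsPrime] [P'.IsPrime]
    (h : ∀ b : Q.BU, (b : L) ∈ Q.OU → (b ∈ P ↔ b ∈ P')) :
    ∃ w : ZMod 5 → rootsOfUnity 7 k, ∀ b b' : Q.BU, (b' : L) = Q.alpha w b → (b ∈ P ↔ b' ∈ P') := by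
  obtain ⟨w, hw⟩ := conj_le Q h7 P P' h
  obtain ⟨w', hw'⟩ := conj_le Q h7 P' P fun b hb => (h b hb).symm
  have hv : ∀ n : ℕ, ∀ b ∈ P, bet Q ((w' * w) ^ n) b ∈ P := by
    intro n
    induction n with
    | zero =>
      intro b hb
      rwa [pow_zero, bet_one]
    | succ n ih =>
      intro b hb
      rw [pow_succ, bet_mul, bet_mul]
      exact ih _ (hw' _ (hw b hb))
  refine ⟨w, fun b b' hbb' => ?_⟩
  have e : b' = bet Q w b := Subtype.ext hbb'
  rw [e]
  refine ⟨hw b, fun hb => ?_⟩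
  have h1 : bet Q (w' * w) b ∈ P := by
    rw [bet_mul]
    exact hw' _ hb
  have h2 := hv (Fintype.card (ZMod 5 → rootsOfUnity 7 k) - 1) _ h1
  rw [← bet_mul, ← pow_succ, Nat.sub_add_cancel Fintype.card_pos, pow_card_eq_one, bet_one] at h2
  exact h2

end Ex

end R169
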