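import Crest.Agent.R169.ExLift

/-!
# Row 169, module EX, piece EX_RHO (0.5 h)

`exists_rho`: `q'_i = q_{i+1}` satisfies `Rel`; the standard monomials are permuted (`mon q' a = mon q (a ∘ (· - 1))`,
`Std` is invariant), so `hom_of_indep`; the same for `q'_i = q_{i-1}` gives the inverse (`hom_ext`).
-/

set_option autoImplicit false

namespace R169

namespace Ex

variable {k L : Type} [Field k] [Field L] [Algebra k L]

private theorem mon_shift {S : Type} [CommSemiring S] (q : ZMod 5 → S) (c : ZMod 5) (a : Ev) :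
    mon (fun i => q (i + c)) a = mon q (fun j => a (j - c)) := by
  unfold mon
  rw [← Equiv.prod_comp (Equiv.addRight c) (fun j => q j ^ a (j - c))]
  refine Finset.prod_congr rfl fun i _ => ?_
  rw [Equiv.coe_addRight, add_sub_cancel_right]

private theorem std_shift {a : Ev} (h : Std a) (c : ZMod 5) : Std (fun j => a (j - c)) := by
  intro i
  have h1 := h (i - c)
  rw [show i - c - 1 = i - 1 - c by ring, show i - c + 1 = i + 1 - c by ring] at h1
  exact h1

private theorem exists_shift (Q : QD k L) (c : ZMod 5) :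
    ∃ ψ : L →ₐ[k] L, ∀ i, ψ (Q.q i) = Q.q (i + c) := by
  refine Q.hom_of_indep (fun i => Q.q (i + c)) ?_ ?_
  · intro i
    have h1 := Q.rel (i + c)
    rw [show i + c - 1 = i - 1 + c by ring, show i + c + 1 = i + 1 + c by ring] at h1
    exact h1
  · let e : {a : Ev // Std a} → {a : Ev // Std a} := fun a => ⟨fun j => a.1 (j - c), std_shift a.2 c⟩
    have he : Function.Injective e := by
      intro a b hab
      apply Subtype.ext
      funext j
      have h1 := congrFun (congrArg Subtype.val hab) (j + c)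
      have h2 : a.1 (j + c - c) = b.1 (j + c - c) := h1
      rwa [add_sub_cancel_right] at h2
    have h1 := Q.indep.comp e he
    have h2 : (fun a : {a : Ev // Std a} => mon (fun i => Q.q (i + c)) a.1) =
        (fun a : {a : Ev // Std a} => mon Q.q a.1) ∘ e := by
      funext a
      exact mon_shift Q.q c a.1
    rw [h2]
    exact h1

theorem QD.exists_rho (Q : QD k L) : ∃ ρ : L ≃ₐ[k] L, ∀ i, ρ (Q.q i) = Q.q (i + 1) := by
  obtain ⟨ψ, hψ⟩ := exists_shift Q 1
  obtain ⟨φ, hφ⟩ := exists_shift Q (-1)
  refine ⟨AlgEquiv.ofAlgHom ψ φ ?_ ?_, fun i => ?_⟩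
  · refine Q.hom_ext _ _ fun i => ?_
    rw [AlgHom.comp_apply, hφ, hψ, neg_add_cancel_right, AlgHom.id_apply]
  · refine Q.hom_ext _ _ fun i => ?_
    rw [AlgHom.comp_apply, hψ, hφ, add_neg_cancel_right, AlgHom.id_apply]
  · exact hψ i

/-- rotation -/
noncomputable def QD.rho (Q : QD k L) : L ≃ₐ[k] L := Q.exists_rho.choose

theorem QD.rho_q (Q : QD k L) (i : ZMod 5) : Q.rho (Q.q i) = Q.q (i + 1) := Q.exists_rho.choose_spec i

end Ex

end R169
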