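import Crest.Agent.R169.ExLift

/-!
# Row 169, module EX, piece EX_SIGMA (1 h)

`exists_sigma`: substitution `q ↦ sq` (transposition (12) of S_5).  `Rel Q.sq`: `7` is odd, `field_simp`
from `Q.rel` (five cases, e.g. `i = 0`: `(-a_4/(a_0a_3))(-a_0a_2) = a_2a_4/a_3 = 1 + 1/a_3`).
Injectivity of `φ : k[q] → L` (`lift`): for `a` with `λ(a) ≤ n` (`n : ℕ`)
`(q_0 q_3)^n φ(q^a) = (-1)^{a_1+a_2+a_4} q^{sa n a}`, and `(q_0q_3)^n φ(q^{sa n a}) = (-1)^{..} q^a`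
(`sa n (sa n a) = a`, `λ(sa n a) = (λ_0, λ_1, λ_2, n - a_0, n - a_3) ≤ n`); hence for `f ∈ B_n`,
`g := (q_0q_3)^n φ(f) ∈ B_n` and `(q_0q_3)^n φ(g) = f` (linear in `f`, check on monomials, span induction):
`φ(f) = 0 → g = 0 → f = 0`.  Then `extend`, and `σ ∘ σ = id` by `hom_ext`.
-/

set_option autoImplicit false

namespace R169

namespace Ex

variable {k L : Type} [Field k] [Field L] [Algebra k L]

/-- action of the transposition on the exponents of `B_n` (all entries are natural numbers if `λ(a) ≤ n`) -/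
def sa (n : ℕ) (a : Ev) : Ev := fun i =>
  if i = 0 then ((n : ℤ) - lam a 3).toNat else if i = 1 then a 2 else if i = 2 then a 1
  else if i = 3 then ((n : ℤ) - lam a 4).toNat else a 4

theorem sa_0 (n : ℕ) (a : Ev) : sa n a 0 = ((n : ℤ) - lam a 3).toNat := rfl
theorem sa_1 (n : ℕ) (a : Ev) : sa n a 1 = a 2 := rfl
theorem sa_2 (n : ℕ) (a : Ev) : sa n a 2 = a 1 := rfl
theorem sa_3 (n : ℕ) (a : Ev) : sa n a 3 = ((n : ℤ) - lam a 4).toNat := rfl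
theorem sa_4 (n : ℕ) (a : Ev) : sa n a 4 = a 4 := rfl

theorem lam_sa (n : ℕ) (a : Ev) (h : ∀ i, lam a i ≤ n) :
    lam (sa n a) 0 = lam a 0 ∧ lam (sa n a) 1 = lam a 1 ∧ lam (sa n a) 2 = lam a 2 ∧
      lam (sa n a) 3 = n - a 0 ∧ lam (sa n a) 4 = n - a 3 := by
  have h3 := h 3
  have h4 := h 4
  simp only [lam0, lam1, lam2, lam3, lam4, sa_0, sa_1, sa_2, sa_3, sa_4] at *
  refine ⟨?_, ?_, ?_, ?_, ?_⟩ <;> omega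

theorem lam_sa_le (n : ℕ) (a : Ev) (h : ∀ i, lam a i ≤ n) (i : ZMod 5) : lam (sa n a) i ≤ n := by
  obtain ⟨h0, h1, h2, h3, h4⟩ := lam_sa n a h
  revert i
  rw [forall5]
  refine ⟨?_, ?_, ?_, ?_, ?_⟩
  · rw [h0]; exact h 0
  · rw [h1]; exact h 1
  · rw [h2]; exact h 2
  · rw [h3]; omega
  · rw [h4]; omega

theorem sa_sa (n : ℕ) (a : Ev) (h : ∀ i, lam a i ≤ n) : sa n (sa n a) = a := by
  obtain ⟨h0, h1, h2, h3, h4⟩ := lam_sa n a h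
  funext i
  revert i
  rw [forall5]
  refine ⟨?_, ?_, ?_, ?_, ?_⟩
  · rw [sa_0, h3]; omega
  · rw [sa_1, sa_2]
  · rw [sa_2, sa_1]
  · rw [sa_3, h4]; omega
  · rw [sa_4, sa_4]

/-- images of the `q i` under the transposition (12) -/
noncomputable def QD.sq (Q : QD k L) : ZMod 5 → L := fun i =>
  if i = 0 then (Q.q 3)⁻¹ else if i = 1 then -(Q.q 0 * Q.q 2) else if i = 2 then -(Q.q 1 * Q.q 3)
  else if i = 3 then (Q.q 0)⁻¹ else -(Q.q 4 * (Q.q 0 * Q.q 3)⁻¹)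

theorem QD.sq0 (Q : QD k L) : Q.sq 0 = (Q.q 3)⁻¹ := rfl
theorem QD.sq1 (Q : QD k L) : Q.sq 1 = -(Q.q 0 * Q.q 2) := rfl
theorem QD.sq2 (Q : QD k L) : Q.sq 2 = -(Q.q 1 * Q.q 3) := rfl
theorem QD.sq3 (Q : QD k L) : Q.sq 3 = (Q.q 0)⁻¹ := rfl
theorem QD.sq4 (Q : QD k L) : Q.sq 4 = -(Q.q 4 * (Q.q 0 * Q.q 3)⁻¹) := rfl

theorem QD.rel_sq (Q : QD k L) : Rel Q.sq := by
  have q0 := Q.q_ne 0
  have q3 := Q.q_ne 3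
  have r0 : Q.q 4 ^ 7 * Q.q 1 ^ 7 = 1 + Q.q 0 ^ 7 := Q.rel 0
  have r1 : Q.q 0 ^ 7 * Q.q 2 ^ 7 = 1 + Q.q 1 ^ 7 := Q.rel 1
  have r2 : Q.q 1 ^ 7 * Q.q 3 ^ 7 = 1 + Q.q 2 ^ 7 := Q.rel 2
  have r3 : Q.q 2 ^ 7 * Q.q 4 ^ 7 = 1 + Q.q 3 ^ 7 := Q.rel 3
  have r4 : Q.q 3 ^ 7 * Q.q 0 ^ 7 = 1 + Q.q 4 ^ 7 := Q.rel 4
  unfold Rel
  rw [forall5]
  refine ⟨?_, ?_, ?_, ?_, ?_⟩
  · show Q.sq 4 ^ 7 * Q.sq 1 ^ 7 = 1 + Q.sq 0 ^ 7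
    rw [Q.sq4, Q.sq1, Q.sq0]
    have e : (-(Q.q 4 * (Q.q 0 * Q.q 3)⁻¹)) ^ 7 * (-(Q.q 0 * Q.q 2)) ^ 7 =
        (Q.q 2 ^ 7 * Q.q 4 ^ 7) * ((Q.q 3)⁻¹) ^ 7 := by
      field_simp
    rw [e, r3]
    field_simp
    ring
  · show Q.sq 0 ^ 7 * Q.sq 2 ^ 7 = 1 + Q.sq 1 ^ 7
    rw [Q.sq0, Q.sq2, Q.sq1]
    have e : ((Q.q 3)⁻¹) ^ 7 * (-(Q.q 1 * Q.q 3)) ^ 7 = - Q.q 1 ^ 7 := by
      field_simp
    have e2 : (-(Q.q 0 * Q.q 2)) ^ 7 = - (Q.q 0 ^ 7 * Q.q 2 ^ 7) := by ring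
    rw [e, e2, r1]
    ring
  · show Q.sq 1 ^ 7 * Q.sq 3 ^ 7 = 1 + Q.sq 2 ^ 7
    rw [Q.sq1, Q.sq3, Q.sq2]
    have e : (-(Q.q 0 * Q.q 2)) ^ 7 * ((Q.q 0)⁻¹) ^ 7 = - Q.q 2 ^ 7 := by
      field_simp
    have e2 : (-(Q.q 1 * Q.q 3)) ^ 7 = - (Q.q 1 ^ 7 * Q.q 3 ^ 7) := by ring
    rw [e, e2, r2]
    ring
  · show Q.sq 2 ^ 7 * Q.sq 4 ^ 7 = 1 + Q.sq 3 ^ 7
    rw [Q.sq2, Q.sq4, Q.sq3]
    have e : (-(Q.q 1 * Q.q 3)) ^ 7 * (-(Q.q 4 * (Q.q 0 * Q.q 3)⁻¹)) ^ 7 =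
        (Q.q 4 ^ 7 * Q.q 1 ^ 7) * ((Q.q 0)⁻¹) ^ 7 := by
      field_simp
    rw [e, r0]
    field_simp
    ring
  · show Q.sq 3 ^ 7 * Q.sq 0 ^ 7 = 1 + Q.sq 4 ^ 7
    rw [Q.sq3, Q.sq0, Q.sq4]
    have e2 : (-(Q.q 4 * (Q.q 0 * Q.q 3)⁻¹)) ^ 7 = - (Q.q 4 ^ 7 * ((Q.q 0 * Q.q 3)⁻¹) ^ 7) := by ring
    have e3 : Q.q 4 ^ 7 = Q.q 3 ^ 7 * Q.q 0 ^ 7 - 1 := by linear_combination -r4
    rw [e2, e3]
    field_simp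
    ring

theorem QD.mon_sq (Q : QD k L) (n : ℕ) (a : Ev) (h : ∀ i, lam a i ≤ n) :
    (Q.q 0 * Q.q 3) ^ n * mon Q.sq a = (-1) ^ (a 1 + a 2 + a 4) * mon Q.q (sa n a) := by
  have q0 := Q.q_ne 0
  have q3 := Q.q_ne 3
  have h3 := h 3
  have h4 := h 4
  rw [lam3] at h3
  rw [lam4] at h4
  have s0 : sa n a 0 + (a 3 + a 4) = n + a 1 := by rw [sa_0, lam3]; omega
  have s3 : sa n a 3 + (a 4 + a 0) = n + a 2 := by rw [sa_3, lam4]; omega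
  rw [mon_five, mon_five, sa_1, sa_2, sa_4, Q.sq0, Q.sq1, Q.sq2, Q.sq3, Q.sq4]
  generalize sa n a 0 = s at s0 ⊢
  generalize sa n a 3 = t at s3 ⊢
  have e0 : Q.q 0 ^ s * (Q.q 0 ^ a 3 * Q.q 0 ^ a 4) = Q.q 0 ^ n * Q.q 0 ^ a 1 := by
    rw [← pow_add, ← pow_add, ← pow_add, s0]
  have e3 : Q.q 3 ^ t * (Q.q 3 ^ a 4 * Q.q 3 ^ a 0) = Q.q 3 ^ n * Q.q 3 ^ a 2 := by
    rw [← pow_add, ← pow_add, ← pow_add, s3]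
  have hne : Q.q 0 ^ a 3 * Q.q 0 ^ a 4 * (Q.q 3 ^ a 4 * Q.q 3 ^ a 0) ≠ 0 :=
    mul_ne_zero (mul_ne_zero (pow_ne_zero _ q0) (pow_ne_zero _ q0))
      (mul_ne_zero (pow_ne_zero _ q3) (pow_ne_zero _ q3))
  apply mul_right_cancel₀ hne
  have i0 : (Q.q 3)⁻¹ ^ a 0 * Q.q 3 ^ a 0 = 1 := by rw [← mul_pow, inv_mul_cancel₀ q3, one_pow]
  have i3 : (Q.q 0)⁻¹ ^ a 3 * Q.q 0 ^ a 3 = 1 := by rw [← mul_pow, inv_mul_cancel₀ q0, one_pow]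
  have i4 : ((Q.q 0 * Q.q 3)⁻¹) ^ a 4 * (Q.q 0 ^ a 4 * Q.q 3 ^ a 4) = 1 := by
    rw [← mul_pow, ← mul_pow, inv_mul_cancel₀ (mul_ne_zero q0 q3), one_pow]
  have n1 : (-(Q.q 0 * Q.q 2)) ^ a 1 = (-1) ^ a 1 * (Q.q 0 ^ a 1 * Q.q 2 ^ a 1) := by
    rw [neg_pow, mul_pow]
  have n2 : (-(Q.q 1 * Q.q 3)) ^ a 2 = (-1) ^ a 2 * (Q.q 1 ^ a 2 * Q.q 3 ^ a 2) := by
    rw [neg_pow, mul_pow]
  have n4 : (-(Q.q 4 * (Q.q 0 * Q.q 3)⁻¹)) ^ a 4 =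
      (-1) ^ a 4 * (Q.q 4 ^ a 4 * ((Q.q 0 * Q.q 3)⁻¹) ^ a 4) := by
    rw [neg_pow, mul_pow]
  rw [n1, n2, n4, mul_pow (Q.q 0) (Q.q 3) n, pow_add, pow_add]
  calc _ = (-1) ^ a 1 * (-1) ^ a 2 * (-1) ^ a 4 * Q.q 2 ^ a 1 * Q.q 1 ^ a 2 * Q.q 4 ^ a 4 *
        (Q.q 0 ^ n * Q.q 0 ^ a 1) * (Q.q 3 ^ n * Q.q 3 ^ a 2) *
        ((Q.q 3)⁻¹ ^ a 0 * Q.q 3 ^ a 0) * ((Q.q 0)⁻¹ ^ a 3 * Q.q 0 ^ a 3) *
        (((Q.q 0 * Q.q 3)⁻¹) ^ a 4 * (Q.q 0 ^ a 4 * Q.q 3 ^ a 4)) := by ring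
    _ = (-1) ^ a 1 * (-1) ^ a 2 * (-1) ^ a 4 * Q.q 2 ^ a 1 * Q.q 1 ^ a 2 * Q.q 4 ^ a 4 *
        (Q.q 0 ^ s * (Q.q 0 ^ a 3 * Q.q 0 ^ a 4)) * (Q.q 3 ^ t * (Q.q 3 ^ a 4 * Q.q 3 ^ a 0)) := by
          rw [i0, i3, i4, e0, e3]; ring
    _ = _ := by ring

theorem QD.mon_mem_BU (Q : QD k L) (a : Ev) : mon Q.q a ∈ Q.BU := by
  unfold mon
  exact Subalgebra.prod_mem _ fun i _ =>
    Subalgebra.pow_mem _ (Algebra.subset_adjoin (Set.mem_range_self i)) _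

theorem QD.lift_mon (Q : QD k L) {S : Type} [CommRing S] [Algebra k S] (q' : ZMod 5 → S)
    (φ : Q.BU →ₐ[k] S) (h : ∀ i, φ (Q.qU i) = q' i) (a : Ev) :
    φ ⟨mon Q.q a, Q.mon_mem_BU a⟩ = mon q' a := by
  have e : (⟨mon Q.q a, Q.mon_mem_BU a⟩ : Q.BU) = ∏ i, Q.qU i ^ a i := by
    apply Subtype.ext
    simp [mon, QD.qU]
  rw [e, map_prod]
  simp only [map_pow, h]
  rfl

theorem QD.exists_sigma (Q : QD k L) : ∃ σ : L ≃ₐ[k] L, ∀ i, σ (Q.q i) = Q.sq i := by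
  obtain ⟨φ, hφ⟩ := Q.lift Q.sq Q.rel_sq
  have hφm := Q.lift_mon Q.sq φ hφ
  have q0 := Q.q_ne 0
  have q3 := Q.q_ne 3
  have key : ∀ (n : ℕ) (f : L), f ∈ Q.Bn n → ∃ (hf : f ∈ Q.BU) (g : L) (hg : g ∈ Q.BU),
      (Q.q 0 * Q.q 3) ^ n * φ ⟨f, hf⟩ = g ∧ (Q.q 0 * Q.q 3) ^ n * φ ⟨g, hg⟩ = f := by
    intro n f hf
    unfold QD.Bn at hf
    induction hf using Submodule.span_induction with
    | mem x hx =>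
      obtain ⟨a, ha, rfl⟩ := hx
      have hc : ((-1 : L)) ^ (a 1 + a 2 + a 4) = algebraMap k L ((-1) ^ (a 1 + a 2 + a 4)) := by
        simp
      have hmem : (-1 : L) ^ (a 1 + a 2 + a 4) * mon Q.q (sa n a) ∈ Q.BU := by
        rw [hc]
        exact Subalgebra.mul_mem _ (Subalgebra.algebraMap_mem _ _) (Q.mon_mem_BU _)
      refine ⟨Q.mon_mem_BU a, (-1) ^ (a 1 + a 2 + a 4) * mon Q.q (sa n a), hmem, ?_, ?_⟩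
      · rw [hφm, Q.mon_sq n a ha]
      · have e1 : (⟨(-1) ^ (a 1 + a 2 + a 4) * mon Q.q (sa n a), hmem⟩ : Q.BU) =
            (-1) ^ (a 1 + a 2 + a 4) * ⟨mon Q.q (sa n a), Q.mon_mem_BU _⟩ := by
          apply Subtype.ext
          simp
        have h1 := Q.mon_sq n (sa n a) (lam_sa_le n a ha)
        rw [sa_sa n a ha, sa_1, sa_2, sa_4] at h1
        rw [e1, map_mul, map_pow, map_neg, map_one, hφm, mul_left_comm, h1, ← mul_assoc,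
          ← pow_add]
        have h2 : a 1 + a 2 + a 4 + (a 2 + a 1 + a 4) = 2 * (a 1 + a 2 + a 4) := by ring
        rw [h2, pow_mul, neg_one_sq, one_pow, one_mul]
    | zero => exact ⟨Subalgebra.zero_mem _, 0, Subalgebra.zero_mem _, by
        have : (⟨0, Subalgebra.zero_mem _⟩ : Q.BU) = 0 := rfl
        simp [this], by
        have : (⟨0, Subalgebra.zero_mem _⟩ : Q.BU) = 0 := rfl
        simp [this]⟩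
    | add x y _ _ hx hy =>
      obtain ⟨hx1, g1, hg1, h1, h1'⟩ := hx
      obtain ⟨hx2, g2, hg2, h2, h2'⟩ := hy
      refine ⟨Subalgebra.add_mem _ hx1 hx2, g1 + g2, Subalgebra.add_mem _ hg1 hg2, ?_, ?_⟩
      · have e : (⟨x + y, Subalgebra.add_mem _ hx1 hx2⟩ : Q.BU) = ⟨x, hx1⟩ + ⟨y, hx2⟩ := rfl
        rw [e, map_add, mul_add, h1, h2]
      · have e : (⟨g1 + g2, Subalgebra.add_mem _ hg1 hg2⟩ : Q.BU) = ⟨g1, hg1⟩ + ⟨g2, hg2⟩ := rfl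
        rw [e, map_add, mul_add, h1', h2']
    | smul c x _ hx =>
      obtain ⟨hx1, g1, hg1, h1, h1'⟩ := hx
      refine ⟨Subalgebra.smul_mem _ hx1 c, c • g1, Subalgebra.smul_mem _ hg1 c, ?_, ?_⟩
      · have e : (⟨c • x, Subalgebra.smul_mem _ hx1 c⟩ : Q.BU) = c • ⟨x, hx1⟩ := rfl
        rw [e, map_smul, mul_smul_comm, h1]
      · have e : (⟨c • g1, Subalgebra.smul_mem _ hg1 c⟩ : Q.BU) = c • ⟨g1, hg1⟩ := rfl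
        rw [e, map_smul, mul_smul_comm, h1']
  have hinj : Function.Injective φ := by
    rw [injective_iff_map_eq_zero]
    rintro ⟨f, hf⟩ h0
    obtain ⟨n, hn⟩ := (Q.mem_BU f).1 hf
    obtain ⟨hf', g, hg, h1, h2⟩ := key n f hn
    rw [h0, mul_zero] at h1
    subst h1
    have e : (⟨0, hg⟩ : Q.BU) = 0 := rfl
    rw [e, map_zero, mul_zero] at h2
    apply Subtype.ext
    exact h2.symm
  obtain ⟨ψ, hψ⟩ := Q.extend φ hinj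
  have hψq : ∀ i, ψ (Q.q i) = Q.sq i := fun i => (hψ (Q.qU i)).trans (hφ i)
  have hcomp : ψ.comp ψ = AlgHom.id k L := by
    apply Q.hom_ext
    rw [forall5]
    simp only [AlgHom.comp_apply, AlgHom.id_apply, hψq]
    refine ⟨?_, ?_, ?_, ?_, ?_⟩
    · rw [Q.sq0, map_inv₀, hψq, Q.sq3, inv_inv]
    · rw [Q.sq1, map_neg, map_mul, hψq, hψq, Q.sq0, Q.sq2]
      field_simp
    · rw [Q.sq2, map_neg, map_mul, hψq, hψq, Q.sq1, Q.sq3]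
      field_simp
    · rw [Q.sq3, map_inv₀, hψq, Q.sq0, inv_inv]
    · rw [Q.sq4, map_neg, map_mul, map_inv₀, map_mul, hψq, hψq, hψq, Q.sq4, Q.sq0, Q.sq3]
      field_simp
  exact ⟨AlgEquiv.ofAlgHom ψ ψ hcomp hcomp, hψq⟩

/-- the transposition (12) -/
noncomputable def QD.sigma (Q : QD k L) : L ≃ₐ[k] L := Q.exists_sigma.choose

theorem QD.sigma_q (Q : QD k L) (i : ZMod 5) : Q.sigma (Q.q i) = Q.sq i := Q.exists_sigma.choose_spec i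

theorem QD.sigma_mon (Q : QD k L) (n : ℕ) (a : Ev) (h : ∀ i, lam a i ≤ n) :
    (Q.q 0 * Q.q 3) ^ n * Q.sigma (mon Q.q a) = (-1) ^ (a 1 + a 2 + a 4) * mon Q.q (sa n a) := by
  have e : Q.sigma (mon Q.q a) = mon Q.sq a := by
    unfold mon
    rw [map_prod]
    simp only [map_pow, Q.sigma_q]
  rw [e]
  exact Q.mon_sq n a h

end Ex

end R169
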