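import Crest.Agent.R169.Defs2

/-!
# Row 169, module EX, piece EX_SYM (0.7 h): the group of symmetries (general `D`)

`b ∈ B n ↔ τ^{-n} γ(b) ∈ B n`.  `mul g h`: `γ = g.γ ∘ h.γ`, `τ = g.γ(h.τ) g.τ`.  `inv g`: `γ = g.γ⁻¹`,
`τ = g.γ⁻¹(g.τ⁻¹)`.  `mem_act`: element form of `Sym.act`.
-/

set_option autoImplicit false

namespace R169

namespace Ex

variable {k L : Type} [Field k] [Field L] [Algebra k L]

section general

variable {D : GD k L}

/-- image of a degree `n` element -/
noncomputable def img (g : Sym D) (n : ℤ) (b : L) : L := g.τ ^ (-n) * g.γ b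

def sone (D : GD k L) : Sym D where
  γ := AlgEquiv.refl
  τ := 1
  τ_ne := one_ne_zero
  map_B := by intro n b; simp

noncomputable def smul' (g h : Sym D) : Sym D where
  γ := h.γ.trans g.γ
  τ := g.γ h.τ * g.τ
  τ_ne := mul_ne_zero (by simpa using h.τ_ne) g.τ_ne
  map_B := by
    intro n b
    rw [h.map_B n b, g.map_B n, map_mul, map_zpow₀, mul_zpow, AlgEquiv.trans_apply]
    rw [← mul_assoc, mul_comm (g.τ ^ (-n))]

noncomputable def sinv (g : Sym D) : Sym D where
  γ := g.γ.symm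
  τ := g.γ.symm (g.τ⁻¹)
  τ_ne := by simpa using g.τ_ne
  map_B := by
    intro n b
    rw [g.map_B n (g.γ.symm g.τ⁻¹ ^ (-n) * g.γ.symm b), map_mul, map_zpow₀, AlgEquiv.apply_symm_apply,
      AlgEquiv.apply_symm_apply, ← mul_assoc, ← mul_zpow, mul_inv_cancel₀ g.τ_ne, one_zpow, one_mul]

theorem img_one (n : ℤ) (b : L) : img (sone D) n b = b := by
  simp [img, sone]

theorem img_mul (g h : Sym D) (n : ℤ) (b : L) : img (smul' g h) n b = img g n (img h n b) := by
  simp only [img, smul']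
  rw [map_mul, map_zpow₀, mul_zpow, AlgEquiv.trans_apply]
  rw [← mul_assoc, mul_comm (g.τ ^ (-n))]

theorem img_inv (g : Sym D) (n : ℤ) (b : L) : img (sinv g) n (img g n b) = b := by
  simp only [img, sinv]
  rw [map_mul, map_zpow₀, AlgEquiv.symm_apply_apply, ← mul_assoc, ← mul_zpow, ← map_mul,
    inv_mul_cancel₀ g.τ_ne, map_one, one_zpow, one_mul]

theorem img_inv' (g : Sym D) (n : ℤ) (b : L) : img g n (img (sinv g) n b) = b := by
  simp only [img, sinv]
  rw [map_mul, map_zpow₀, AlgEquiv.apply_symm_apply, AlgEquiv.apply_symm_apply, ← mul_assoc,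
    ← mul_zpow, mul_inv_cancel₀ g.τ_ne, one_zpow, one_mul]

theorem img_mem (g : Sym D) (n : ℤ) (b : L) : img g n b ∈ D.B n ↔ b ∈ D.B n := (g.map_B n b).symm

theorem img_add (g : Sym D) (m n : ℤ) (a b : L) : img g (m + n) (a * b) = img g m a * img g n b := by
  simp only [img]
  rw [map_mul, neg_add, zpow_add₀ g.τ_ne]
  ring

theorem mem_act_iff (g : Sym D) (I : ℤ → Submodule k L) (n : ℤ) (b : L) :
    b ∈ g.act I n ↔ ∃ c ∈ I n, img g n c = b := by
  simp only [Sym.act, Submodule.mem_map]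
  rfl

theorem mem_act (g : Sym D) (I : ℤ → Submodule k L) (n : ℤ) (b : L) :
    b ∈ g.act I n ↔ img (sinv g) n b ∈ I n := by
  rw [mem_act_iff]
  constructor
  · rintro ⟨c, hc, rfl⟩
    rwa [img_inv]
  · intro h
    exact ⟨_, h, img_inv' g n b⟩

theorem img_mem_act (g : Sym D) (I : ℤ → Submodule k L) (n : ℤ) (b : L) :
    img g n b ∈ g.act I n ↔ b ∈ I n := by
  rw [mem_act, img_inv]

theorem act_mul (g h : Sym D) (I : ℤ → Submodule k L) (n : ℤ) :
    (smul' g h).act I n = g.act (h.act I) n := by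
  ext b
  rw [mem_act_iff, mem_act_iff]
  constructor
  · rintro ⟨c, hc, rfl⟩
    exact ⟨img h n c, (img_mem_act h I n c).2 hc, (img_mul g h n c).symm⟩
  · rintro ⟨c, hc, rfl⟩
    obtain ⟨d, hd, rfl⟩ := (mem_act_iff h I n c).1 hc
    exact ⟨d, hd, img_mul g h n d⟩

theorem act_inv (g : Sym D) (I : ℤ → Submodule k L) (n : ℤ) : (sinv g).act (g.act I) n = I n := by
  ext b
  rw [mem_act_iff]
  constructor
  · rintro ⟨c, hc, rfl⟩
    exact (mem_act g I n c).1 hc
  · intro hb
    exact ⟨img g n b, (img_mem_act g I n b).2 hb, img_inv g n b⟩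

theorem act_inv' (g : Sym D) (I : ℤ → Submodule k L) (n : ℤ) : g.act ((sinv g).act I) n = I n := by
  ext b
  rw [mem_act, img_mem_act]

/-- curve primes are preserved (dimensions: `img g n` is a `k`-linear bijection of `B n`, `I n`) -/
theorem IsCurve.act (g : Sym D) {I : ℤ → Submodule k L} (h : IsCurve D I) : IsCurve D (g.act I) := by
  obtain ⟨hp, e, f, he, n0, hn0⟩ := h
  refine ⟨⟨⟨?_, ?_⟩, ?_, ?_⟩, e, f, he, n0, ?_⟩
  · intro n b hb
    obtain ⟨c, hc, rfl⟩ := (mem_act_iff g I n b).1 hb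
    exact (img_mem g n c).2 (hp.ideal.le n hc)
  · intro i n a w ha hw
    rw [mem_act, img_add]
    exact hp.ideal.smul_mem ((img_mem (sinv g) i a).2 ha) ((mem_act g I n w).1 hw)
  · rw [mem_act]
    have : img (sinv g) 0 (1 : L) = 1 := by simp [img]
    rw [this]
    exact hp.one_not_mem
  · intro i j a b ha hb hab
    rw [mem_act, img_add] at hab
    rw [mem_act, mem_act]
    exact hp.mem_or ((img_mem (sinv g) i a).2 ha) ((img_mem (sinv g) j b).2 hb) hab
  · intro n hn
    rw [← hn0 n hn]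
    congr 2
    have hinj : Function.Injective ((Algebra.lsmul k k L (g.τ ^ (-n))) ∘ₗ g.γ.toLinearMap) := by
      intro a b hab
      have h1 : img g n a = img g n b := hab
      rw [← img_inv g n a, h1, img_inv]
    exact (LinearEquiv.finrank_eq (Submodule.equivMapOfInjective _ hinj (I n))).symm

end general

end Ex

end R169
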