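import Crest.Agent.R169.ExAlpha
import Crest.Agent.R169.ExRho
import Crest.Agent.R169.ExSigma
import Crest.Agent.R169.ExSym

/-!
# Row 169, module EX, piece EX_SYMS (0.6 h): the symmetries `α_w`, `ρ`, `σ` of `Q.D`

`α_w`, `ρ` with `τ = 1` (they map monomials with `λ ≤ n` to (multiples of) such monomials; the converse with the inverse);
`σ` with `τ = (q_0q_3)⁻¹` (`sigma_mon`; converse: `(q_0q_3)^n σ(·)` is an involution of `B_n`:
`σ((q_0q_3)^n σ b) = (q_0q_3)^{-n} b`).  For `n < 0` both sides mean `b = 0`.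
-/

set_option autoImplicit false

namespace R169

namespace Ex

variable {k L : Type} [Field k] [Field L] [Algebra k L]

private theorem map_mon' (γ : L ≃ₐ[k] L) (q : ZMod 5 → L) (a : Ev) :
    γ (mon q a) = mon (fun i => γ (q i)) a := by
  unfold mon
  rw [map_prod]
  exact Finset.prod_congr rfl fun i _ => map_pow _ _ _

/-- a `k`-linear map which maps the monomials of `B n` into `B n` -/
private theorem map_Bn_le (Q : QD k L) (n : ℤ) (f : L →ₗ[k] L)
    (h : ∀ a : Ev, (∀ i, lam a i ≤ n) → f (mon Q.q a) ∈ Q.Bn n) {b : L} (hb : b ∈ Q.Bn n) :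
    f b ∈ Q.Bn n := by
  have h1 : Q.Bn n ≤ (Q.Bn n).comap f := by
    refine Submodule.span_le.2 ?_
    rintro l ⟨a, ha, rfl⟩
    exact h a ha
  exact h1 hb

private theorem alpha_mem (Q : QD k L) (w : ZMod 5 → rootsOfUnity 7 k) (n : ℤ) {b : L}
    (hb : b ∈ Q.Bn n) : Q.alpha w b ∈ Q.Bn n := by
  refine map_Bn_le Q n (Q.alpha w).toLinearMap ?_ hb
  intro a ha
  change Q.alpha w (mon Q.q a) ∈ Q.Bn n
  rw [map_mon']
  have e : mon (fun i => Q.alpha w (Q.q i)) a =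
      (∏ i, (((w i : kˣ) : k)) ^ a i) • mon Q.q a := by
    unfold mon
    rw [Algebra.smul_def, map_prod, ← Finset.prod_mul_distrib]
    refine Finset.prod_congr rfl fun i _ => ?_
    simp only [Q.alpha_q]
    rw [Algebra.smul_def, mul_pow, map_pow]
  rw [e]
  exact Submodule.smul_mem _ _ (Q.mon_mem ha)

theorem QD.exists_symAlpha (Q : QD k L) (w : ZMod 5 → rootsOfUnity 7 k) :
    ∃ g : Sym Q.D, g.γ = Q.alpha w ∧ g.τ = 1 := by
  refine ⟨⟨Q.alpha w, 1, one_ne_zero, fun n b => ?_⟩, rfl, rfl⟩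
  rw [one_zpow, one_mul]
  change b ∈ Q.Bn n ↔ Q.alpha w b ∈ Q.Bn n
  refine ⟨fun h => alpha_mem Q w n h, fun h => ?_⟩
  have h1 := alpha_mem Q w⁻¹ n h
  have h2 : Q.alpha w⁻¹ (Q.alpha w b) = b := by
    rw [← AlgEquiv.mul_apply, ← map_mul, inv_mul_cancel, map_one, AlgEquiv.one_apply]
  rwa [h2] at h1

theorem QD.exists_symRho (Q : QD k L) : ∃ g : Sym Q.D, g.γ = Q.rho ∧ g.τ = 1 := by
  refine ⟨⟨Q.rho, 1, one_ne_zero, fun n b => ?_⟩, rfl, rfl⟩
  rw [one_zpow, one_mul]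
  change b ∈ Q.Bn n ↔ Q.rho b ∈ Q.Bn n
  have hsymm : ∀ i, Q.rho.symm (Q.q i) = Q.q (i - 1) := by
    intro i
    rw [AlgEquiv.symm_apply_eq, Q.rho_q, sub_add_cancel]
  constructor
  · intro h
    refine map_Bn_le Q n Q.rho.toLinearMap ?_ h
    intro a ha
    change Q.rho (mon Q.q a) ∈ Q.Bn n
    rw [map_mon']
    have e : mon (fun i => Q.rho (Q.q i)) a = mon Q.q (fun i => a (i - 1)) := by
      unfold mon
      rw [← Equiv.prod_comp (Equiv.addRight (1 : ZMod 5)) (fun i => Q.q i ^ a (i - 1))]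
      refine Finset.prod_congr rfl fun i _ => ?_
      simp only [Q.rho_q]
      simp
    rw [e]
    refine Q.mon_mem fun i => ?_
    have h1 := ha (i - 1)
    unfold lam at h1 ⊢
    have e1 : i - 1 + 1 = i + 1 - 1 := by ring
    have e2 : i - 1 + 3 = i + 3 - 1 := by ring
    rw [e1, e2] at h1
    exact h1
  · intro h
    have h1 : Q.rho.symm (Q.rho b) ∈ Q.Bn n := by
      refine map_Bn_le Q n Q.rho.symm.toLinearMap ?_ h
      intro a ha
      change Q.rho.symm (mon Q.q a) ∈ Q.Bn n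
      rw [map_mon']
      have e : mon (fun i => Q.rho.symm (Q.q i)) a = mon Q.q (fun i => a (i + 1)) := by
        unfold mon
        rw [← Equiv.prod_comp (Equiv.subRight (1 : ZMod 5)) (fun i => Q.q i ^ a (i + 1))]
        refine Finset.prod_congr rfl fun i _ => ?_
        simp only [hsymm]
        simp
      rw [e]
      refine Q.mon_mem fun i => ?_
      have h1 := ha (i + 1)
      unfold lam at h1 ⊢
      have e2 : i + 1 + 3 = i + 3 + 1 := by ring
      rw [e2] at h1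
      exact h1
    rwa [AlgEquiv.symm_apply_apply] at h1

private theorem sigma_sigma (Q : QD k L) (b : L) : Q.sigma (Q.sigma b) = b := by
  have h : (Q.sigma.toAlgHom.comp Q.sigma.toAlgHom : L →ₐ[k] L) = AlgHom.id k L := by
    refine Q.hom_ext _ _ fun i => ?_
    change Q.sigma (Q.sigma (Q.q i)) = Q.q i
    have h0 := Q.q_ne 0
    have h3 := Q.q_ne 3
    rw [Q.sigma_q]
    have hi : i = 0 ∨ i = 1 ∨ i = 2 ∨ i = 3 ∨ i = 4 := by revert i; decide
    have e0 : Q.sigma (Q.q 0) = (Q.q 3)⁻¹ := by rw [Q.sigma_q]; simp [QD.sq]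
    have e1 : Q.sigma (Q.q 1) = -(Q.q 0 * Q.q 2) := by
      rw [Q.sigma_q]; unfold QD.sq; rw [if_neg (by decide), if_pos rfl]
    have e2 : Q.sigma (Q.q 2) = -(Q.q 1 * Q.q 3) := by
      rw [Q.sigma_q]; unfold QD.sq; rw [if_neg (by decide), if_neg (by decide), if_pos rfl]
    have e3 : Q.sigma (Q.q 3) = (Q.q 0)⁻¹ := by
      rw [Q.sigma_q]; unfold QD.sq
      rw [if_neg (by decide), if_neg (by decide), if_neg (by decide), if_pos rfl]
    have e4 : Q.sigma (Q.q 4) = -(Q.q 4 * (Q.q 0 * Q.q 3)⁻¹) := by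
      rw [Q.sigma_q]; unfold QD.sq
      rw [if_neg (by decide), if_neg (by decide), if_neg (by decide), if_neg (by decide)]
    rcases hi with rfl | rfl | rfl | rfl | rfl
    · rw [← Q.sigma_q, e0, map_inv₀, e3, inv_inv]
    · rw [← Q.sigma_q, e1, map_neg, map_mul, e0, e2]
      field_simp
    · rw [← Q.sigma_q, e2, map_neg, map_mul, e1, e3]
      field_simp
    · rw [← Q.sigma_q, e3, map_inv₀, e0, inv_inv]
    · rw [← Q.sigma_q, e4, map_neg, map_mul, map_inv₀, map_mul, e4, e0, e3]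
      field_simp
  exact DFunLike.congr_fun h b

theorem QD.exists_symSigma (Q : QD k L) : ∃ g : Sym Q.D, g.γ = Q.sigma ∧ g.τ = (Q.q 0 * Q.q 3)⁻¹ := by
  have h03 : Q.q 0 * Q.q 3 ≠ 0 := mul_ne_zero (Q.q_ne 0) (Q.q_ne 3)
  refine ⟨⟨Q.sigma, (Q.q 0 * Q.q 3)⁻¹, inv_ne_zero h03, fun n b => ?_⟩, rfl, rfl⟩
  rw [inv_zpow, zpow_neg, inv_inv]
  change b ∈ Q.Bn n ↔ (Q.q 0 * Q.q 3) ^ n * Q.sigma b ∈ Q.Bn n
  rcases lt_or_ge n 0 with hn | hn
  · rw [Q.neg n hn, Submodule.mem_bot, Submodule.mem_bot, mul_eq_zero]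
    constructor
    · rintro rfl
      exact Or.inr (map_zero _)
    · rintro (h | h)
      · exact absurd h (zpow_ne_zero _ h03)
      · exact (map_eq_zero_iff _ Q.sigma.injective).1 h
  · lift n to ℕ using hn
    rw [zpow_natCast]
    have key : ∀ b : L, b ∈ Q.Bn n → (Q.q 0 * Q.q 3) ^ n * Q.sigma b ∈ Q.Bn n := by
      intro b hb
      refine map_Bn_le Q n ((LinearMap.mulLeft k ((Q.q 0 * Q.q 3) ^ n)) ∘ₗ Q.sigma.toLinearMap) ?_ hb
      intro a ha
      change (Q.q 0 * Q.q 3) ^ n * Q.sigma (mon Q.q a) ∈ Q.Bn n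
      rw [Q.sigma_mon n a ha]
      have hm := Q.mon_mem (lam_sa_le n a ha)
      rcases neg_one_pow_eq_or L (a 1 + a 2 + a 4) with h | h
      · rw [h, one_mul]; exact hm
      · rw [h, neg_one_mul]; exact Submodule.neg_mem _ hm
    refine ⟨key b, fun h => ?_⟩
    have h1 := key _ h
    have h2 : (Q.q 0 * Q.q 3) ^ n * Q.sigma ((Q.q 0 * Q.q 3) ^ n * Q.sigma b) = b := by
      have e0 : Q.sigma (Q.q 0) = (Q.q 3)⁻¹ := by rw [Q.sigma_q]; simp [QD.sq]
      have e3 : Q.sigma (Q.q 3) = (Q.q 0)⁻¹ := by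
        rw [Q.sigma_q]; unfold QD.sq
        rw [if_neg (by decide), if_neg (by decide), if_neg (by decide), if_pos rfl]
      rw [map_mul, map_pow, map_mul, e0, e3, sigma_sigma, ← mul_assoc, ← mul_pow]
      have e : Q.q 0 * Q.q 3 * ((Q.q 3)⁻¹ * (Q.q 0)⁻¹) = 1 := by
        have h0 := Q.q_ne 0
        have h3 := Q.q_ne 3
        field_simp
      rw [e, one_pow, one_mul]
    rwa [h2] at h1

end Ex

end R169
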