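import Crest.Agent.R169.ExCur1
import Crest.Agent.R169.ExCur2
import Crest.Agent.R169.ExSyms

/-!
# Row 169, module EX, piece EX_CUR3 (0.8 h): curve primes containing `q_0`, not `x`

`act_of_conj`: if `P ↔ I`, `P' ↔ J` (`Corr`) and `α_w P = P'` then `J n = (symAlpha w).act I n`.
`ou_q0`: `b ∈ O(U)`, `b = A(a_2) + a_0 h` (`OU_mod` with `i = 0`), `a_0 ∈ P`: `b ∈ P ↔ A(a_2) ∈ P ↔ A = 0` (`const_of_q0`, `not_const`).  So the contraction of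
`P` to `O(U)` is `a_0 O(U)` for all such `I`, and `conj` applies: `tb_conj`.
-/

set_option autoImplicit false

namespace R169

namespace Ex

variable {k L : Type} [Field k] [Field L] [Algebra k L]

private theorem Bn_le_BU' (Q : QD k L) {n : ℤ} {x : L} (h : x ∈ Q.Bn n) : x ∈ Q.BU := by
  rcases lt_or_ge n 0 with hn | hn
  · rw [Q.neg n hn, Submodule.mem_bot] at h
    rw [h]
    exact Q.BU.zero_mem
  · lift n to ℕ using hn
    exact (Q.mem_BU x).2 ⟨n, h⟩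

theorem QD.act_of_conj (Q : QD k L) {I J : ℤ → Submodule k L} (hI : GPrime Q.D I) (hJ : GPrime Q.D J)
    {P P' : Ideal Q.BU} (hP : Q.Corr I P) (hP' : Q.Corr J P') (w : ZMod 5 → rootsOfUnity 7 k)
    (h : ∀ b b' : Q.BU, (b' : L) = Q.alpha w b → (b ∈ P ↔ b' ∈ P')) :
    ∃ g : Sym Q.D, ∀ n, J n = g.act I n := by
  obtain ⟨g, hg, hτ⟩ := Q.exists_symAlpha w
  refine ⟨g, fun n => ?_⟩
  have hact : ∀ x, x ∈ g.act I n ↔ ∃ y ∈ I n, Q.alpha w y = x := by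
    intro x
    unfold Sym.act
    rw [Submodule.mem_map]
    have : ∀ y : L, ((Algebra.lsmul k k L (g.τ ^ (-n))) ∘ₗ g.γ.toLinearMap) y = Q.alpha w y := by
      intro y
      change (g.τ ^ (-n)) • (g.γ y) = Q.alpha w y
      rw [hτ, hg, one_zpow, one_smul]
    simp only [this]
  have hB : ∀ y : L, y ∈ Q.Bn n ↔ Q.alpha w y ∈ Q.Bn n := by
    intro y
    have h1 := g.map_B n y
    rw [hτ, hg, one_zpow, one_mul] at h1
    exact h1
  have key : ∀ y : L, y ∈ Q.Bn n → (y ∈ I n ↔ Q.alpha w y ∈ J n) := by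
    intro y hy
    have hy' := (hB y).1 hy
    have h1 := hP n ⟨y, Bn_le_BU' Q hy⟩ hy
    have h2 := hP' n ⟨Q.alpha w y, Bn_le_BU' Q hy'⟩ hy'
    have h3 := h ⟨y, Bn_le_BU' Q hy⟩ ⟨Q.alpha w y, Bn_le_BU' Q hy'⟩ rfl
    exact h1.trans (h3.trans h2.symm)
  ext x
  rw [hact]
  constructor
  · intro hx
    have hxB : x ∈ Q.Bn n := hJ.ideal.le n hx
    have e : Q.alpha w ((Q.alpha w).symm x) = x := AlgEquiv.apply_symm_apply _ _
    have hyB : (Q.alpha w).symm x ∈ Q.Bn n := by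
      rw [hB, e]
      exact hxB
    refine ⟨(Q.alpha w).symm x, (key _ hyB).2 ?_, e⟩
    rw [e]
    exact hx
  · rintro ⟨y, hy, rfl⟩
    exact (key y (hI.ideal.le n hy)).1 hy

theorem QD.ou_q0 (Q : QD k L) [IsAlgClosed k] {I : ℤ → Submodule k L} (hI : IsCurve Q.D I) {P : Ideal Q.BU}
    [P.IsPrime] (hP : Q.Corr I P) (h0 : Q.qU 0 ∈ P) (b : Q.BU) (hb : (b : L) ∈ Q.OU) :
    b ∈ P ↔ ∃ h ∈ Q.OU, (b : L) = Q.av 0 * h := by
  have ha0 : ∀ h : L, ∀ hh : h ∈ Q.OU, (Q.qU 0 ^ 7 * ⟨h, Q.OU_le_BU hh⟩ : Q.BU) ∈ P := fun h hh =>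
    P.mul_mem_right _ (P.pow_mem_of_mem h0 7 (by norm_num))
  constructor
  · intro hbP
    obtain ⟨A, h, hh, he⟩ := Q.OU_mod 0 b hb
    by_cases hA : A = 0
    · refine ⟨h, hh, ?_⟩
      rw [he, hA, map_zero, zero_add]
    · exfalso
      have h1 : Polynomial.aeval (Q.qU 2 ^ 7) A = b - Q.qU 0 ^ 7 * ⟨h, Q.OU_le_BU hh⟩ := by
        apply Subtype.ext
        rw [Subalgebra.coe_sub, Subalgebra.coe_mul, Polynomial.aeval_subalgebra_coe]
        change Polynomial.aeval (Q.q 2 ^ 7) A = (b : L) - Q.av 0 * h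
        rw [he]
        have e2 : (0 : ZMod 5) + 2 = 2 := by decide
        rw [e2]
        unfold QD.av
        ring
      obtain ⟨c, hc⟩ := Q.const_of_q0 P h0 A hA (by
        rw [h1]
        exact P.sub_mem hbP (ha0 h hh))
      exact Q.not_const hI hP c hc
  · rintro ⟨h, hh, he⟩
    have e : b = Q.qU 0 ^ 7 * ⟨h, Q.OU_le_BU hh⟩ := Subtype.ext he
    rw [e]
    exact ha0 h hh

theorem QD.tb_conj (Q : QD k L) [IsAlgClosed k] (h7 : (7 : k) ≠ 0) {I J : ℤ → Submodule k L}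
    (hI : IsCurve Q.D I) (hJ : IsCurve Q.D J) (h1 : (1 : L) ∉ I 1) (h1' : (1 : L) ∉ J 1)
    (h0 : Q.q 0 ∈ I 1) (h0' : Q.q 0 ∈ J 1) : ∃ g : Sym Q.D, ∀ n, J n = g.act I n := by
  obtain ⟨P, hPp, hP⟩ := Q.primeU hI.1 h1
  obtain ⟨P', hPp', hP'⟩ := Q.primeU hJ.1 h1'
  have hq : Q.qU 0 ∈ P := (hP 1 (Q.qU 0) (Q.q_mem 0)).1 h0
  have hq' : Q.qU 0 ∈ P' := (hP' 1 (Q.qU 0) (Q.q_mem 0)).1 h0'
  obtain ⟨w, hw⟩ := Q.conj h7 P P' fun b hb =>
    (Q.ou_q0 hI hP hq b hb).trans (Q.ou_q0 hJ hP' hq' b hb).symm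
  exact Q.act_of_conj hI.1 hJ.1 hP hP' w hw

end Ex

end R169
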