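import Mathlib

/-!
# Row 169, module EX, piece EX_ELIM (0.7 h): elimination in `k[X][Y]` (pure algebra)

`exists_elim`: `f` irreducible, `f ∤ g`.  If `deg_Y f = 0` (`f = C f0`): take `A = f0`.  Otherwise `f` is primitive and irreducible in `k(X)[Y]` (Gauss:
`Polynomial.IsPrimitive.irreducible_iff_irreducible_map_fraction_map`), does not divide `g` there (Gauss), so coprime:
`uf + vg = 1` in `k(X)[Y]`; clear denominators.  `exists_elim'`: the same with the roles of the variables exchanged (`Polynomial.Bivariate.swap`).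
`exists_irr`: a non-zero element of a prime ideal of the UFD `k[X][Y]` has an irreducible factor in the ideal.
-/

set_option autoImplicit false

namespace R169

namespace Ex

variable {k L : Type} [Field k] [Field L] [Algebra k L]

open Polynomial in
theorem exists_elim (f g : k[X][X]) (hf : Irreducible f) (hg : ¬ f ∣ g) :
    ∃ A : k[X], A ≠ 0 ∧ Polynomial.C A ∈ Ideal.span {f, g} := by
  classical
  by_cases h0 : f.natDegree = 0
  · obtain ⟨A, hA⟩ := natDegree_eq_zero.1 h0
    refine ⟨A, ?_, ?_⟩
    · rintro rfl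
      rw [C_0] at hA
      exact hf.ne_zero hA.symm
    · rw [hA]
      exact Ideal.subset_span (by simp)
  · let K := FractionRing k[X]
    letI : NormalizedGCDMonoid k[X] := Classical.choice inferInstance
    have hfp : f.IsPrimitive := hf.isPrimitive h0
    have hfi : Irreducible (f.map (algebraMap k[X] K)) :=
      (hfp.irreducible_iff_irreducible_map_fraction_map (K := K)).1 hf
    have hg0 : g ≠ 0 := by rintro rfl; exact hg (dvd_zero f)
    have hinj : Function.Injective (algebraMap k[X] K) := IsFractionRing.injective _ _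
    have hnd : ¬ f.map (algebraMap k[X] K) ∣ g.map (algebraMap k[X] K) := fun hd =>
      hg (hfp.dvd_of_fraction_map_dvd_fraction_map hd)
    obtain ⟨u, v, huv⟩ := hfi.coprime_iff_not_dvd.2 hnd
    obtain ⟨b1, hb1', hb1⟩ := IsLocalization.integerNormalization_spec (nonZeroDivisors k[X]) u
    obtain ⟨b2, hb2', hb2⟩ := IsLocalization.integerNormalization_spec (nonZeroDivisors k[X]) v
    refine ⟨(b1 : k[X]) * b2, mul_ne_zero (nonZeroDivisors.ne_zero hb1')
      (nonZeroDivisors.ne_zero hb2'), ?_⟩
    have key : C ((b1 : k[X]) * b2) =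
        (C (b2 : k[X]) * IsLocalization.integerNormalization (nonZeroDivisors k[X]) u) * f +
        (C (b1 : k[X]) * IsLocalization.integerNormalization (nonZeroDivisors k[X]) v) * g := by
      apply map_injective _ hinj
      rw [Polynomial.map_add, Polynomial.map_mul, Polynomial.map_mul, Polynomial.map_mul,
        Polynomial.map_mul, hb1, hb2, map_C, map_C, map_C, map_mul, C_mul]
      have e1 : ∀ (b : k[X]) (q : K[X]), b • q = C (algebraMap k[X] K b) * q := by
        intro b q
        rw [← smul_eq_C_mul, algebraMap_smul]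
      rw [e1, e1]
      calc C (algebraMap k[X] K (b1 : k[X])) * C (algebraMap k[X] K (b2 : k[X]))
          = C (algebraMap k[X] K (b1 : k[X])) * C (algebraMap k[X] K (b2 : k[X])) *
            (u * f.map (algebraMap k[X] K) + v * g.map (algebraMap k[X] K)) := by
              rw [huv, mul_one]
        _ = _ := by ring
    rw [key]
    exact Ideal.add_mem _ (Ideal.mul_mem_left _ _ (Ideal.subset_span (by simp)))
      (Ideal.mul_mem_left _ _ (Ideal.subset_span (by simp)))

open Polynomial in
theorem exists_elim' (f g : k[X][X]) (hf : Irreducible f) (hg : ¬ f ∣ g) :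
    ∃ A : k[X], A ≠ 0 ∧ A.map (Polynomial.C : k →+* k[X]) ∈ Ideal.span {f, g} := by
  let sw : k[X][X] ≃ₐ[k] k[X][X] := Bivariate.swap
  have h1 : Irreducible (sw f) := (MulEquiv.irreducible_iff sw).2 hf
  have h2 : ¬ sw f ∣ sw g := by
    intro h
    exact hg ((map_dvd_iff sw).1 h)
  obtain ⟨A, hA, hA'⟩ := exists_elim (sw f) (sw g) h1 h2
  refine ⟨A, hA, ?_⟩
  rw [Ideal.mem_span_pair] at hA' ⊢
  obtain ⟨a, b, hab⟩ := hA'
  refine ⟨sw a, sw b, ?_⟩
  have h3 : ∀ x : k[X][X], sw (sw x) = x := fun x => Bivariate.swap_swap_apply x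
  rw [← Bivariate.swap_C, ← hab]
  show _ = sw (a * sw f + b * sw g)
  rw [map_add, map_mul, map_mul, h3, h3]

open Polynomial in
theorem exists_irr (P : Ideal k[X][X]) [P.IsPrime] (g : k[X][X]) (hg : g ≠ 0) (h : g ∈ P) :
    ∃ f, Irreducible f ∧ f ∈ P := by
  have hP : P ≠ ⊥ := by
    rintro rfl
    exact hg (by simpa using h)
  obtain ⟨x, hx, hp⟩ := Ideal.IsPrime.exists_mem_prime_of_ne_bot ‹P.IsPrime› hP
  exact ⟨x, hp.irreducible, hx⟩

end Ex

end R169
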