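import Crest.Agent.R169.ExCur3
import Crest.Agent.R169.ExElim

/-!
# Row 169, module EX, piece EX_CUR4 (1 h): curve primes containing neither `x` nor any `q_i`

`ne_zero`: `dim B_n ≥ (n+1)(n+2)/2` (standard monomials `q_0^s q_1^t`, `s + t ≤ n`), so `I ≠ 0` and `P ≠ 0`.  A non-zero element of `P` gives a non-zero element of
`P ∩ O(U)` (norm over `μ_7^5`, or constant coefficient of an integral equation), then of `P ∩ k[a_0,a_1]` (`(a_0a_1)^m b ∈ k[a_0,a_1]`).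
`a_gen`: `Θ : k[X][Y] → k[q]`, `X ↦ a_0`, `Y ↦ a_1` (injective, `av_indep 0`).  `exists_irr` for `Θ⁻¹ P`: irreducible `F` with `f = Θ F ∈ P`.  For a curve prime `J`
(prime `P'`, no `q_i`) with `f ∈ P'`: `Θ⁻¹ P' = (F)`: otherwise `exists_elim`, `exists_elim'` and `const_of_alg`, `not_const` give a contradiction.  So
`P` and `P'` have the same contraction `(F)` to `k[a_0,a_1]`, hence to `O(U)` (`b ∈ O(U)`: `b ∈ P ↔ (a_0a_1)^m b ∈ P`); `conj`, `act_of_conj`.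
`s > 0` with `f ∈ B_s` exists (`mem_BU`).
-/

set_option autoImplicit false

namespace R169

namespace Ex

variable {k L : Type} [Field k] [Field L] [Algebra k L]

theorem QD.loc01 (Q : QD k L) (b : L) (hb : b ∈ Q.OU) :
    ∃ m : ℕ, (Q.av 0 * Q.av 1) ^ m * b ∈ Algebra.adjoin k {Q.av 0, Q.av 1} := by
  set R := Algebra.adjoin k {Q.av 0, Q.av 1} with hR
  have m0 : Q.av 0 ∈ R := Algebra.subset_adjoin (by simp)
  have m1 : Q.av 1 ∈ R := Algebra.subset_adjoin (by simp)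
  have r1 : Q.av 0 * Q.av 2 = 1 + Q.av 1 := Q.av_rel 1
  have r0 : Q.av 4 * Q.av 1 = 1 + Q.av 0 := Q.av_rel 0
  have r2 : Q.av 1 * Q.av 3 = 1 + Q.av 2 := Q.av_rel 2
  have h2 : Q.av 0 * Q.av 2 ∈ R := by rw [r1]; exact R.add_mem R.one_mem m1
  have h4 : Q.av 4 * Q.av 1 ∈ R := by rw [r0]; exact R.add_mem R.one_mem m0
  have h3 : Q.av 0 * (Q.av 1 * Q.av 3) ∈ R := by
    rw [r2, mul_add, mul_one]; exact R.add_mem m0 h2
  have m01 : Q.av 0 * Q.av 1 ∈ R := R.mul_mem m0 m1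
  have hgen : ∀ j, (Q.av 0 * Q.av 1) ^ 1 * Q.av j ∈ R := by
    rw [forall5 (p := fun j => (Q.av 0 * Q.av 1) ^ 1 * Q.av j ∈ R)]
    simp only [pow_one]
    refine ⟨R.mul_mem m01 m0, R.mul_mem m01 m1, ?_, ?_, ?_⟩
    · have e : Q.av 0 * Q.av 1 * Q.av 2 = Q.av 1 * (Q.av 0 * Q.av 2) := by ring
      rw [e]; exact R.mul_mem m1 h2
    · have e : Q.av 0 * Q.av 1 * Q.av 3 = Q.av 0 * (Q.av 1 * Q.av 3) := by ring
      rw [e]; exact h3
    · have e : Q.av 0 * Q.av 1 * Q.av 4 = Q.av 0 * (Q.av 4 * Q.av 1) := by ring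
      rw [e]; exact R.mul_mem m0 h4
  unfold QD.OU at hb
  induction hb using Algebra.adjoin_induction with
  | mem x hx =>
    obtain ⟨j, rfl⟩ := hx
    exact ⟨1, hgen j⟩
  | algebraMap r => exact ⟨0, by rw [pow_zero, one_mul]; exact R.algebraMap_mem r⟩
  | add x y _ _ hx hy =>
    obtain ⟨a, ha⟩ := hx
    obtain ⟨b, hb⟩ := hy
    refine ⟨a + b, ?_⟩
    have e : (Q.av 0 * Q.av 1) ^ (a + b) * (x + y) =
        (Q.av 0 * Q.av 1) ^ b * ((Q.av 0 * Q.av 1) ^ a * x) +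
        (Q.av 0 * Q.av 1) ^ a * ((Q.av 0 * Q.av 1) ^ b * y) := by ring
    rw [e]
    exact R.add_mem (R.mul_mem (R.pow_mem m01 _) ha) (R.mul_mem (R.pow_mem m01 _) hb)
  | mul x y _ _ hx hy =>
    obtain ⟨a, ha⟩ := hx
    obtain ⟨b, hb⟩ := hy
    refine ⟨a + b, ?_⟩
    have e : (Q.av 0 * Q.av 1) ^ (a + b) * (x * y) =
        ((Q.av 0 * Q.av 1) ^ a * x) * ((Q.av 0 * Q.av 1) ^ b * y) := by ring
    rw [e]
    exact R.mul_mem ha hb

private def cur4E (s t : ℕ) : Ev := Pi.single 0 s + Pi.single 1 t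

private theorem cur4E0 (s t : ℕ) : cur4E s t 0 = s := by
  unfold cur4E
  rw [Pi.add_apply, Pi.single_eq_same, Pi.single_eq_of_ne (by decide), add_zero]

private theorem cur4E1 (s t : ℕ) : cur4E s t 1 = t := by
  unfold cur4E
  rw [Pi.add_apply, Pi.single_eq_same, Pi.single_eq_of_ne (by decide), zero_add]

private theorem cur4E2 (s t : ℕ) : cur4E s t 2 = 0 := by
  unfold cur4E
  rw [Pi.add_apply, Pi.single_eq_of_ne (by decide), Pi.single_eq_of_ne (by decide), add_zero]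

private theorem cur4E3 (s t : ℕ) : cur4E s t 3 = 0 := by
  unfold cur4E
  rw [Pi.add_apply, Pi.single_eq_of_ne (by decide), Pi.single_eq_of_ne (by decide), add_zero]

private theorem cur4E4 (s t : ℕ) : cur4E s t 4 = 0 := by
  unfold cur4E
  rw [Pi.add_apply, Pi.single_eq_of_ne (by decide), Pi.single_eq_of_ne (by decide), add_zero]

private theorem cur4E_std (s t : ℕ) : Std (cur4E s t) := by
  rw [std_iff, cur4E0, cur4E1, cur4E2, cur4E3, cur4E4]
  omega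

private theorem cur4E_lam (s t m : ℕ) (hs : s ≤ m) (ht : t ≤ m) (i : ZMod 5) :
    lam (cur4E s t) i ≤ ((2 * m : ℕ) : ℤ) := by
  revert i
  rw [forall5, lam0, lam1, lam2, lam3, lam4, cur4E0, cur4E1, cur4E2, cur4E3, cur4E4]
  refine ⟨?_, ?_, ?_, ?_, ?_⟩ <;> push_cast <;> omega

/-- enough standard monomials -/
private theorem cur4_dim (Q : QD k L) (m : ℕ) :
    (m + 1) * (m + 1) ≤ Module.finrank k (Q.Bn ((2 * m : ℕ) : ℤ)) := by
  have hfin : FiniteDimensional k (Q.Bn ((2 * m : ℕ) : ℤ)) := Q.fin _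
  let E : Fin (m + 1) × Fin (m + 1) → {a : Ev // Std a} := fun x => ⟨cur4E x.1 x.2, cur4E_std _ _⟩
  have hE : Function.Injective E := by
    rintro ⟨s, t⟩ ⟨s', t'⟩ h
    have h0 := congrArg (fun a : {a : Ev // Std a} => a.1 0) h
    have h1 := congrArg (fun a : {a : Ev // Std a} => a.1 1) h
    simp only [E, cur4E0, cur4E1] at h0 h1
    exact Prod.ext (Fin.ext h0) (Fin.ext h1)
  let v : Fin (m + 1) × Fin (m + 1) → Q.Bn ((2 * m : ℕ) : ℤ) := fun x =>
    ⟨mon Q.q (cur4E x.1 x.2), Q.mon_mem fun i => cur4E_lam _ _ m (by omega) (by omega) i⟩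
  have hv : LinearIndependent k v := by
    refine LinearIndependent.of_comp (Submodule.subtype _) ?_
    exact Q.indep.comp E hE
  have := hv.fintype_card_le_finrank
  simpa using this

theorem QD.ne_zero (Q : QD k L) {I : ℤ → Submodule k L} (hI : IsCurve Q.D I) {P : Ideal Q.BU}
    (hP : Q.Corr I P) : P ≠ ⊥ := by
  intro h0
  obtain ⟨hprime, e, f, he, n0, hn⟩ := hI
  have hI0 : ∀ n, I n = ⊥ := by
    intro n
    rw [Submodule.eq_bot_iff]
    intro b hb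
    have hbB : b ∈ Q.Bn n := hprime.ideal.le n hb
    rcases lt_or_ge n 0 with hn | hn
    · rw [Q.neg n hn] at hbB
      exact (Submodule.mem_bot k).1 hbB
    · lift n to ℕ using hn
      have hbU : b ∈ Q.BU := (Q.mem_BU b).2 ⟨n, hbB⟩
      have h1 := (hP n ⟨b, hbU⟩ hbB).1 hb
      rw [h0] at h1
      exact congrArg Subtype.val (Ideal.mem_bot.1 h1)
  have hlow : ∀ m : ℕ, n0 ≤ 2 * m → ((m : ℚ) + 1) * (m + 1) ≤ e * (2 * m) + f := by
    intro m hm
    have h1 := hn ((2 * m : ℕ) : ℤ) (by push_cast; exact hm)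
    rw [hI0, finrank_bot] at h1
    have h2 : (Module.finrank k (Q.D.B ((2 * m : ℕ) : ℤ)) : ℚ) = e * (2 * m) + f := by
      have hc : (((2 * m : ℕ) : ℤ) : ℚ) = 2 * m := by push_cast; ring
      rw [hc, Nat.cast_zero, sub_zero] at h1
      exact h1
    rw [← h2]
    have h3 := cur4_dim Q m
    have h4 : (((m + 1) * (m + 1) : ℕ) : ℚ) ≤ (Module.finrank k (Q.Bn ((2 * m : ℕ) : ℤ)) : ℚ) :=
      Nat.cast_le.2 h3
    push_cast at h4
    exact_mod_cast h4
  obtain ⟨N, hN⟩ := exists_nat_gt (2 * e + |f|)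
  have h1 := hlow (N + n0.toNat) (by push_cast; omega)
  have h2 : f ≤ |f| := le_abs_self f
  have h3 : 0 ≤ |f| := abs_nonneg f
  set M : ℚ := ((N + n0.toNat : ℕ) : ℚ) with hM
  have h4 : (N : ℚ) ≤ M := by rw [hM]; exact_mod_cast Nat.le_add_right _ _
  have h5 : 0 ≤ M := le_trans (Nat.cast_nonneg N) h4
  nlinarith

section theta

open Polynomial

/-- `k[X][Y] → k[q]`, `X ↦ a_0`, `Y ↦ a_1` -/
private noncomputable def thU (Q : QD k L) : k[X][X] →ₐ[k] Q.BU :=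
  aevalAeval (Q.qU 0 ^ 7) (Q.qU 1 ^ 7)

private noncomputable def thL (Q : QD k L) : k[X][X] →ₐ[k] L := aevalAeval (Q.av 0) (Q.av 1)

private theorem thU_C (Q : QD k L) (A : k[X]) : thU Q (C A) = aeval (Q.qU 0 ^ 7) A :=
  aevalAeval_C _ _ _

private theorem thU_map (Q : QD k L) (A : k[X]) :
    thU Q (A.map (C : k →+* k[X])) = aeval (Q.qU 1 ^ 7) A := by
  unfold thU
  rw [← Bivariate.swap_C, Bivariate.aevalAeval_swap, aevalAeval_C]

private theorem thU_coe (Q : QD k L) (G : k[X][X]) : ((thU Q G : Q.BU) : L) = thL Q G := by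
  have h : Q.BU.val.comp (thU Q) = thL Q := by
    apply (aevalAevalEquiv k L).symm.injective
    simp only [aevalAevalEquiv_symm_apply, thU, thL]
    refine Prod.ext ?_ ?_
    · simp only [AlgHom.comp_apply, aevalAeval_X]
      rfl
    · simp only [AlgHom.comp_apply, aevalAeval_Y]
      rfl
  exact DFunLike.congr_fun h G

private theorem thL_inj (Q : QD k L) : Function.Injective (thL Q) := by
  have h : thL Q = (MvPolynomial.aeval ![Q.av 0, Q.av (0 + 1)]).comp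
      (Bivariate.equivMvPolynomial k).toAlgHom := by
    apply (aevalAevalEquiv k L).symm.injective
    simp only [aevalAevalEquiv_symm_apply, thL]
    refine Prod.ext ?_ ?_
    · simp
    · simp
  rw [h]
  have h1 : Function.Injective (MvPolynomial.aeval (R := k) ![Q.av 0, Q.av (0 + 1)]) :=
    Q.av_indep 0
  exact h1.comp (Bivariate.equivMvPolynomial k).injective

private theorem thL_range (Q : QD k L) {x : L} (hx : x ∈ Algebra.adjoin k {Q.av 0, Q.av 1}) :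
    ∃ G, thL Q G = x := by
  have h : Algebra.adjoin k {Q.av 0, Q.av 1} ≤ (thL Q).range := by
    refine Algebra.adjoin_le ?_
    rintro y hy
    rcases hy with rfl | rfl
    · exact ⟨C X, aevalAeval_X _ _⟩
    · exact ⟨X, aevalAeval_Y _ _⟩
  exact h hx

/-- contraction of a curve prime containing no `q_i` to `k[a_0, a_1]` -/
private theorem contr (Q : QD k L) [IsAlgClosed k] {J : ℤ → Submodule k L} (hJ : IsCurve Q.D J)
    {P : Ideal Q.BU} [P.IsPrime] (hP : Q.Corr J P) (hq : ∀ i, Q.qU i ∉ P) (F : k[X][X])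
    (hF : Irreducible F) (hFP : thU Q F ∈ P) (G : k[X][X]) : thU Q G ∈ P ↔ F ∣ G := by
  constructor
  · intro hG
    by_contra hd
    have hle : Ideal.span {F, G} ≤ P.comap (thU Q).toRingHom := by
      rw [Ideal.span_le]
      rintro x hx
      rcases hx with rfl | rfl
      · exact hFP
      · exact hG
    obtain ⟨A, hA, hA1⟩ := exists_elim F G hF hd
    obtain ⟨A', hA', hA1'⟩ := exists_elim' F G hF hd
    have h1 : thU Q (C A) ∈ P := hle hA1
    have h2 : thU Q (A'.map (C : k →+* k[X])) ∈ P := hle hA1'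
    rw [thU_C] at h1
    rw [thU_map] at h2
    obtain ⟨c, hc⟩ := Q.const_of_alg P hq A A' hA hA' h1 h2
    exact Q.not_const hJ hP c hc
  · rintro ⟨H, rfl⟩
    rw [map_mul]
    exact P.mul_mem_right _ hFP

end theta

private theorem alpha_BU (Q : QD k L) (w : ZMod 5 → rootsOfUnity 7 k) {b : L} (hb : b ∈ Q.BU) :
    Q.alpha w b ∈ Q.BU := by
  have h : Q.BU ≤ Q.BU.comap (Q.alpha w).toAlgHom := by
    unfold QD.BU
    refine Algebra.adjoin_le ?_
    rintro _ ⟨i, rfl⟩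
    show Q.alpha w (Q.q i) ∈ Q.BU
    rw [Q.alpha_q]
    exact Q.BU.smul_mem (Algebra.subset_adjoin ⟨i, rfl⟩) _
  exact h hb

/-- nonzero element of `P ∩ O(U)` -/
private theorem cur4_norm (Q : QD k L) [IsAlgClosed k] (h7 : (7 : k) ≠ 0) {P : Ideal Q.BU}
    (hP : P ≠ ⊥) : ∃ b ∈ P, b ≠ 0 ∧ (b : L) ∈ Q.OU := by
  classical
  obtain ⟨b, hb, hb0⟩ := Submodule.exists_mem_ne_zero_of_ne_bot hP
  have hb0' : (b : L) ≠ 0 := fun h => hb0 (Subtype.ext h)
  let N : Q.BU := ∏ w : ZMod 5 → rootsOfUnity 7 k, ⟨Q.alpha w b, alpha_BU Q w b.2⟩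
  have hN : (N : L) = ∏ w : ZMod 5 → rootsOfUnity 7 k, Q.alpha w b := by
    simp only [N]
    exact map_prod Q.BU.val _ _
  refine ⟨N, ?_, ?_, ?_⟩
  · have h1 : (⟨Q.alpha 1 b, alpha_BU Q 1 b.2⟩ : Q.BU) = b := by
      apply Subtype.ext
      show Q.alpha 1 b = b
      rw [map_one]
      rfl
    have h2 : (⟨Q.alpha 1 b, alpha_BU Q 1 b.2⟩ : Q.BU) ∣ N :=
      Finset.dvd_prod_of_mem (fun w : ZMod 5 → rootsOfUnity 7 k =>
        (⟨Q.alpha w b, alpha_BU Q w b.2⟩ : Q.BU)) (Finset.mem_univ 1)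
    rw [h1] at h2
    exact P.mem_of_dvd h2 hb
  · intro h
    have h1 : (N : L) = 0 := by rw [h]; rfl
    rw [hN, Finset.prod_eq_zero_iff] at h1
    obtain ⟨w, -, hw⟩ := h1
    exact hb0' ((map_eq_zero_iff _ (Q.alpha w).injective).1 hw)
  · refine Q.inv_OU h7 _ N.2 fun v => ?_
    rw [hN, map_prod]
    rw [← Equiv.prod_comp (Equiv.mulLeft v) (fun w => Q.alpha w (b : L))]
    refine Finset.prod_congr rfl fun w _ => ?_
    show Q.alpha v (Q.alpha w b) = Q.alpha (v * w) b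
    rw [map_mul]
    rfl

private theorem cur4_qU (Q : QD k L) {J : ℤ → Submodule k L} {P : Ideal Q.BU} (hP : Q.Corr J P)
    (hq : ∀ i, Q.q i ∉ J 1) (i : ZMod 5) : Q.qU i ∉ P :=
  fun h => hq i ((hP 1 (Q.qU i) (Q.q_mem i)).2 h)

theorem QD.a_gen (Q : QD k L) [IsAlgClosed k] (h7 : (7 : k) ≠ 0) {I : ℤ → Submodule k L}
    (hI : IsCurve Q.D I) (h1 : (1 : L) ∉ I 1) (hq : ∀ i, Q.q i ∉ I 1) :
    ∃ (s : ℤ) (f : L), 0 < s ∧ f ∈ I s ∧ f ≠ 0 ∧ ∀ J, IsCurve Q.D J → (1 : L) ∉ J 1 → (∀ i, Q.q i ∉ J 1) →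
      f ∈ J s → ∃ g : Sym Q.D, ∀ n, J n = g.act I n := by
  obtain ⟨P, hPp, hP⟩ := Q.primeU hI.1 h1
  have hqP := cur4_qU Q hP hq
  -- the pull back
  have hcoe : ∀ (m : ℕ) (b : Q.BU) (G : Polynomial (Polynomial k)),
      thL Q G = (Q.av 0 * Q.av 1) ^ m * (b : L) →
      thU Q G = (Q.qU 0 ^ 7 * Q.qU 1 ^ 7) ^ m * b := by
    intro m b G hG
    apply Subtype.ext
    rw [thU_coe, hG]
    rfl
  have hmemiff : ∀ (P' : Ideal Q.BU) (_ : P'.IsPrime) (_ : ∀ i, Q.qU i ∉ P') (m : ℕ) (b : Q.BU),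
      b ∈ P' ↔ (Q.qU 0 ^ 7 * Q.qU 1 ^ 7) ^ m * b ∈ P' := by
    intro P' hP' hq' m b
    constructor
    · intro h
      exact P'.mul_mem_left _ h
    · intro h
      rcases hP'.mem_or_mem h with h | h
      · exfalso
        rcases hP'.mem_or_mem (hP'.mem_of_pow_mem _ h) with h | h
        · exact hq' 0 (hP'.mem_of_pow_mem _ h)
        · exact hq' 1 (hP'.mem_of_pow_mem _ h)
      · exact h
  obtain ⟨F, hF, hFP⟩ : ∃ F, Irreducible F ∧ thU Q F ∈ P := by
    obtain ⟨b, hb, hb0, hbO⟩ := cur4_norm Q h7 (Q.ne_zero hI hP)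
    obtain ⟨m, hm⟩ := Q.loc01 b hbO
    obtain ⟨G, hG⟩ := thL_range Q hm
    have hG' := hcoe m b G hG
    have hGP : thU Q G ∈ P := by
      rw [hG']
      exact P.mul_mem_left _ hb
    have hG0 : G ≠ 0 := by
      rintro rfl
      rw [map_zero] at hG
      have h01 : Q.av 0 * Q.av 1 ≠ 0 :=
        mul_ne_zero (pow_ne_zero _ (Q.q_ne 0)) (pow_ne_zero _ (Q.q_ne 1))
      have := (mul_eq_zero.1 hG.symm).resolve_left (pow_ne_zero _ h01)
      exact hb0 (Subtype.ext this)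
    have hprime : (P.comap (thU Q).toRingHom).IsPrime := Ideal.comap_isPrime _ _
    exact exists_irr (P.comap (thU Q).toRingHom) G hG0 hGP
  obtain ⟨n, hn⟩ := (Q.mem_BU _).1 (thU Q F).2
  have hn' : ((thU Q F : Q.BU) : L) ∈ Q.Bn ((n : ℤ) + 1) := Q.mono (by omega) hn
  refine ⟨(n : ℤ) + 1, ((thU Q F : Q.BU) : L), by positivity,
    (hP _ (thU Q F) hn').2 hFP, ?_, ?_⟩
  · rw [thU_coe]
    exact fun h => hF.ne_zero ((map_eq_zero_iff _ (thL_inj Q)).1 h)
  · intro J hJ h1J hqJ hfJ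
    obtain ⟨P', hP'p, hP'⟩ := Q.primeU hJ.1 h1J
    have hqP' := cur4_qU Q hP' hqJ
    have hFP' : thU Q F ∈ P' := (hP' _ (thU Q F) hn').1 hfJ
    obtain ⟨w, hw⟩ := Q.conj h7 P P' (by
      intro b hb
      obtain ⟨m, hm⟩ := Q.loc01 b hb
      obtain ⟨G, hG⟩ := thL_range Q hm
      have hG' := hcoe m b G hG
      rw [hmemiff P hPp hqP m b, hmemiff P' hP'p hqP' m b, ← hG',
        contr Q hI hP hqP F hF hFP G, contr Q hJ hP' hqP' F hF hFP' G])
    exact Q.act_of_conj hI.1 hJ.1 hP hP' w hw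

end Ex

end R169
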