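import Crest.Agent.R169.ExPent2
import Crest.Agent.R169.ExComb
import Crest.Agent.R169.ExCov1

/-!
# Row 169, module EX, piece EX_CUR5 (0.9 h): type B primes

`TB I`: some image of `I` contains `q_0` and not `x = 1`.
`exists_notin`: some pentagon is not in `I 1`: otherwise all `mon (pent j) ∈ I 1`, and `W^7 = P^7 - P'^7` (see `ExCov2`) gives `mon (tri j) ∈ I 1` (primality), so by
`exists_factor` (`K = 1`) `B_n = I_n` for `n ≥ 6`, against `IsCurve`.
`tb_of_q`: `1 ∉ I 1`, `q_i ∈ I 1`: apply the symmetry `ρ^{-i}` (`exists_symRho`, `smul'`).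
`tb_of_one`: `1 ∈ I 1`; take `j` with `mon (pent j) ∉ I 1`, `g` from `exists_pent2 j`, `h = sinv g`: `1 ∉ (h.act I) 1` (`mem_act`, `img (sinv (sinv g)) = img g`), and
`img h 1 1 = ε mon (pent j') ∈ (h.act I) 1`, so `j' ≠ x` and (primality, `q_i ∈ B_1`, `1 ∈ B_1`, `1 ∉ I' 1`) some `q_i ∈ (h.act I) 1`; `tb_of_q`.
-/

set_option autoImplicit false

namespace R169

namespace Ex

variable {k L : Type} [Field k] [Field L] [Algebra k L]

/-- type B primes -/
def QD.TB (Q : QD k L) (I : ℤ → Submodule k L) : Prop :=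
  ∃ g : Sym Q.D, (1 : L) ∉ (g.act I) 1 ∧ Q.q 0 ∈ (g.act I) 1

section cur5aux

private theorem cur5_pow_B (Q : QD k L) {b : L} (hb : b ∈ Q.Bn 1) (m : ℕ) : b ^ m ∈ Q.Bn m := by
  induction m with
  | zero =>
    rw [pow_zero, Nat.cast_zero, Q.zero]
    exact Submodule.mem_span_singleton_self _
  | succ m ih =>
    rw [pow_succ, Nat.cast_succ]
    exact Q.mul_mem ih hb

private theorem cur5_pow_or (Q : QD k L) {I : ℤ → Submodule k L} (hp : GPrime Q.D I) {b : L}
    (hb : b ∈ Q.Bn 1) (m : ℕ) (h : b ^ m ∈ I m) : b ∈ I 1 := by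
  induction m with
  | zero =>
    rw [pow_zero, Nat.cast_zero] at h
    exact absurd h hp.one_not_mem
  | succ m ih =>
    rw [pow_succ, Nat.cast_succ] at h
    rcases hp.mem_or (show b ^ m ∈ Q.D.B m from cur5_pow_B Q hb m) (show b ∈ Q.D.B 1 from hb) h
      with h1 | h1
    · exact ih h1
    · exact h1

private theorem cur5_pow_mem (Q : QD k L) {I : ℤ → Submodule k L} (hp : GPrime Q.D I) {b : L}
    (hb : b ∈ Q.Bn 1) (hI : b ∈ I 1) (m : ℕ) : b ^ (m + 1) ∈ I ((m : ℤ) + 1) := by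
  rw [pow_succ]
  exact hp.ideal.smul_mem (show b ^ m ∈ Q.D.B m from cur5_pow_B Q hb m) hI

private theorem cur5_up (Q : QD k L) {I : ℤ → Submodule k L} (hp : GPrime Q.D I) {b : L} {n : ℤ}
    (h : b ∈ I n) (m : ℕ) : b ∈ I ((m : ℤ) + n) := by
  have h1 : (1 : L) ∈ Q.D.B m := by
    have := cur5_pow_B Q Q.one_mem m
    rwa [one_pow] at this
  have := hp.ideal.smul_mem h1 h
  rwa [one_mul] at this

private theorem cur5_prod (Q : QD k L) {I : ℤ → Submodule k L} (hp : GPrime Q.D I)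
    (a : Ev) (s : Finset (ZMod 5)) :
    (∏ i ∈ s, Q.q i ^ a i) ∈ Q.Bn ((∑ i ∈ s, a i : ℕ) : ℤ) ∧
    ((∏ i ∈ s, Q.q i ^ a i) ∈ I ((∑ i ∈ s, a i : ℕ) : ℤ) → ∃ i, Q.q i ∈ I 1) := by
  classical
  induction s using Finset.induction_on with
  | empty =>
    rw [Finset.prod_empty, Finset.sum_empty, Nat.cast_zero, Q.zero]
    exact ⟨Submodule.mem_span_singleton_self _, fun h => absurd h hp.one_not_mem⟩
  | insert j s hj ih =>
    rw [Finset.prod_insert hj, Finset.sum_insert hj, Nat.cast_add]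
    have hB := cur5_pow_B Q (Q.q_mem j) (a j)
    refine ⟨Q.mul_mem hB ih.1, fun h => ?_⟩
    rcases hp.mem_or (show Q.q j ^ a j ∈ Q.D.B (a j) from hB)
      (show _ ∈ Q.D.B ((∑ i ∈ s, a i : ℕ) : ℤ) from ih.1) h with h1 | h1
    · exact ⟨j, cur5_pow_or Q hp (Q.q_mem j) _ h1⟩
    · exact ih.2 h1

private theorem cur5_mon_or (Q : QD k L) {I : ℤ → Submodule k L} (hp : GPrime Q.D I)
    (a : Ev) (h : mon Q.q a ∈ I 1) : (∃ i, Q.q i ∈ I 1) ∨ (1 : L) ∈ I 1 := by
  have h1 := cur5_up Q hp h (∑ i, a i)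
  obtain ⟨h2, h3⟩ := cur5_prod Q hp a Finset.univ
  have h4 : (∏ i, Q.q i ^ a i) * 1 ∈ I (((∑ i, a i : ℕ) : ℤ) + 1) := by
    rw [mul_one]
    exact h1
  rcases hp.mem_or (show _ ∈ Q.D.B ((∑ i, a i : ℕ) : ℤ) from h2)
    (show (1 : L) ∈ Q.D.B 1 from Q.one_mem) h4 with h5 | h5
  · exact Or.inl (h3 h5)
  · exact Or.inr h5

private theorem cur5_lam_tri (j : TI) (i : ZMod 5) : lam (tri j) i ≤ 1 := by
  have h1 : ∀ i' i : ZMod 5, lam (tri (.one i')) i ≤ 1 := by decide
  have h2 : ∀ i' i : ZMod 5, lam (tri (.two i')) i ≤ 1 := by decide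
  cases j with
  | one i' => exact h1 i' i
  | two i' => exact h2 i' i

/-- `W^7 = P^7 - P'^7` -/
private theorem cur5_rel (Q : QD k L) (j : TI) : ∃ p p' : PI,
    mon Q.q (tri j) ^ 7 = mon Q.q (pent p) ^ 7 - mon Q.q (pent p') ^ 7 := by
  have hone : ∀ i : ZMod 5, Q.q (i - 1) ^ 7 * Q.q (i + 1) ^ 7 = 1 + Q.q i ^ 7 := Q.rel
  cases j with
  | one i =>
    refine ⟨.two (i - 1), .x, ?_⟩
    have e1 : mon Q.q (tri (.one i)) = Q.q i := by
      have : tri (.one i) = Pi.single i 1 := by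
        funext j; simp [tri, Pi.single_apply]
      rw [this, mon_single, pow_one]
    have e2 : mon Q.q (pent (.two (i - 1))) = Q.q (i - 1) * Q.q (i + 1) := by
      have : pent (.two (i - 1)) = Pi.single (i - 1) 1 + Pi.single (i + 1) 1 := by
        clear e1; revert i; decide
      rw [this, mon_add, mon_single, mon_single, pow_one, pow_one]
    have e3 : mon Q.q (pent .x) = 1 := mon_zero Q.q
    rw [e1, e2, e3, mul_pow, hone i]
    ring
  | two i =>
    refine ⟨.g, .three (i + 2), ?_⟩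
    have e1 : mon Q.q (tri (.two i)) = Q.q i ^ 2 * Q.q (i + 2) * Q.q (i + 3) := by
      have : tri (.two i) = Pi.single i 2 + Pi.single (i + 2) 1 + Pi.single (i + 3) 1 := by
        revert i; decide
      rw [this, mon_add, mon_add, mon_single, mon_single, mon_single, pow_one, pow_one]
    have e2 : mon Q.q (pent .g) =
        Q.q i * Q.q (i + 2) * Q.q (i + 3) * (Q.q (i - 1) * Q.q (i + 1)) := by
      have : pent .g = Pi.single i 1 + Pi.single (i + 2) 1 + Pi.single (i + 3) 1 +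
          (Pi.single (i - 1) 1 + Pi.single (i + 1) 1) := by
        clear e1; revert i; decide
      rw [this, mon_add, mon_add, mon_add, mon_add, mon_single, mon_single, mon_single, mon_single,
        mon_single, pow_one, pow_one, pow_one, pow_one, pow_one]
    have e3 : mon Q.q (pent (.three (i + 2))) = Q.q i * Q.q (i + 2) * Q.q (i + 3) := by
      have : pent (.three (i + 2)) = Pi.single i 1 + Pi.single (i + 2) 1 + Pi.single (i + 3) 1 := by
        clear e1 e2; revert i; decide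
      rw [this, mon_add, mon_add, mon_single, mon_single, mon_single, pow_one, pow_one, pow_one]
    rw [e1, e2, e3, mul_pow _ (Q.q (i - 1) * Q.q (i + 1)), mul_pow (Q.q (i - 1)), hone i]
    ring

private theorem cur5_rot (Q : QD k L) (m : ℕ) : ∃ g : Sym Q.D,
    (∀ j, img g 1 (Q.q j) = Q.q (j + m)) ∧ img g 1 1 = 1 := by
  induction m with
  | zero =>
    refine ⟨sone Q.D, fun j => ?_, img_one _ _⟩
    rw [img_one, Nat.cast_zero, add_zero]
  | succ m ih =>
    obtain ⟨g, hg, hg1⟩ := ih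
    obtain ⟨r, hr, hr1⟩ := Q.exists_symRho
    refine ⟨smul' r g, fun j => ?_, ?_⟩
    · rw [img_mul, hg]
      unfold img
      rw [hr, hr1, one_zpow, one_mul, Q.rho_q, Nat.cast_succ, add_assoc]
    · rw [img_mul, hg1]
      unfold img
      rw [hr, hr1, one_zpow, one_mul, map_one]

end cur5aux

theorem QD.exists_notin (Q : QD k L) {I : ℤ → Submodule k L} (hI : IsCurve Q.D I) :
    ∃ j, mon Q.q (pent j) ∉ I 1 := by
  classical
  by_contra hcon
  push Not at hcon
  obtain ⟨hp, e, f, he, n0, hn0⟩ := hI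
  have hpB : ∀ j, mon Q.q (pent j) ∈ Q.Bn 1 := fun j => Q.mon_mem (lam_pent j)
  have htB : ∀ j, mon Q.q (tri j) ∈ Q.Bn 1 := fun j => Q.mon_mem (cur5_lam_tri j)
  have htri : ∀ j, mon Q.q (tri j) ∈ I 1 := by
    intro j
    obtain ⟨p, p', h⟩ := cur5_rel Q j
    refine cur5_pow_or Q hp (htB j) 7 ?_
    rw [h]
    exact Submodule.sub_mem _ (cur5_pow_mem Q hp (hpB p) (hcon p) 6)
      (cur5_pow_mem Q hp (hpB p') (hcon p') 6)
  have hfac : ∀ F, mon Q.q (fac F) ∈ I 1 := by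
    rintro (j | j)
    · exact hcon j
    · exact htri j
  have hall : ∀ n : ℤ, 6 ≤ n → I n = Q.D.B n := by
    intro n hn
    refine le_antisymm (hp.ideal.le n) ?_
    change Q.Bn n ≤ I n
    refine Submodule.span_le.2 ?_
    rintro l ⟨a, ha, rfl⟩
    obtain ⟨F, a', h1, h2⟩ := exists_factor 1 n (by simpa using hn) a ha
    have h3 : a = a' + fac F := by
      funext i
      rw [h1 i, Pi.add_apply]
      ring
    have h4 : mon Q.q a' ∈ Q.D.B (n - 1) := Q.mon_mem (by simpa using h2)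
    have h5 := hp.ideal.smul_mem h4 (hfac F)
    rw [sub_add_cancel, ← mon_add, ← h3] at h5
    exact h5
  have h1 := hn0 (max n0 6) (le_max_left _ _)
  have h2 := hn0 (max n0 6 + 1) (by have := le_max_left n0 6; omega)
  rw [hall _ (le_max_right _ _), sub_self] at h1
  rw [hall (max n0 6 + 1) (by have := le_max_right n0 6; omega), sub_self] at h2
  push_cast at h1 h2
  have h3 : e = 0 := by linarith
  exact absurd h3 he.ne'


theorem QD.tb_of_q (Q : QD k L) {I : ℤ → Submodule k L} (hI : IsCurve Q.D I) (h1 : (1 : L) ∉ I 1) (i : ZMod 5)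
    (h : Q.q i ∈ I 1) : Q.TB I := by
  obtain ⟨g, hg, hg1⟩ := cur5_rot Q (-i).val
  refine ⟨g, ?_, ?_⟩
  · rw [← hg1, img_mem_act]
    exact h1
  · have h2 := hg i
    rw [ZMod.natCast_zmod_val, add_neg_cancel] at h2
    rw [← h2, img_mem_act]
    exact h


theorem QD.tb_of_one (Q : QD k L) {I : ℤ → Submodule k L} (hI : IsCurve Q.D I) (h : (1 : L) ∈ I 1) : Q.TB I := by
  obtain ⟨j, hj⟩ := Q.exists_notin hI
  obtain ⟨g, ⟨ε, hε, hg⟩, j', ε', hε', hg'⟩ := Q.exists_pent2 j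
  have hI' : IsCurve Q.D ((sinv g).act I) := IsCurve.act (sinv g) hI
  have h1 : (1 : L) ∉ (sinv g).act I 1 := by
    intro hc
    obtain ⟨c, hc1, hc2⟩ := (mem_act_iff (sinv g) I 1 1).1 hc
    have h2 : c = ε • mon Q.q (pent j) := by
      rw [← hg, ← hc2, img_inv']
    rw [h2] at hc1
    have h3 := Submodule.smul_mem _ ε⁻¹ hc1
    rw [smul_smul, inv_mul_cancel₀ hε, one_smul] at h3
    exact hj h3
  have h2 : mon Q.q (pent j') ∈ (sinv g).act I 1 := by
    have h3 := (img_mem_act (sinv g) I 1 1).2 h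
    rw [hg'] at h3
    have h4 := Submodule.smul_mem _ ε'⁻¹ h3
    rwa [smul_smul, inv_mul_cancel₀ hε', one_smul] at h4
  rcases cur5_mon_or Q hI'.1 _ h2 with ⟨i, hi⟩ | h3
  · obtain ⟨g', hg1, hg2⟩ := Q.tb_of_q hI' h1 i hi
    refine ⟨smul' g' (sinv g), ?_, ?_⟩
    · rw [act_mul]
      exact hg1
    · rw [act_mul]
      exact hg2
  · exact absurd h3 h1


end Ex

end R169
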