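import Crest.Agent.R169.ExCur4
import Crest.Agent.R169.ExCur5

/-!
# Row 169, module EX, piece EX_CURVE (0.5 h): `CurveCond Q.D`

`TB := Q.TB`.  (1) `I, J` type B with `g, g'`: `tb_conj` for `g.act I`, `g'.act J` (`IsCurve.act`) gives `h`; `J = (smul' (sinv g') (smul' h g)).act I`
(`act_mul`, `act_inv`).  (2) `s = 1`, `f = 1`: `tb_of_one`.  (3) not type B: `1 ∉ I 1`, `q_i ∉ I 1` (`tb_of_one`, `tb_of_q`); `a_gen`; a curve prime `J ∋ f` which is not
type B satisfies the same conditions.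
-/

set_option autoImplicit false

namespace R169

namespace Ex

variable {k L : Type} [Field k] [Field L] [Algebra k L]

theorem QD.curve (Q : QD k L) [IsAlgClosed k] (h7 : (7 : k) ≠ 0) : CurveCond Q.D := by
  refine ⟨Q.TB, ?_, ?_, ?_⟩
  · rintro I J hI hJ ⟨g, hg1, hg2⟩ ⟨g', hg1', hg2'⟩
    obtain ⟨h, hh⟩ := Q.tb_conj h7 (IsCurve.act g hI) (IsCurve.act g' hJ) hg1 hg1' hg2 hg2'
    refine ⟨smul' (sinv g') (smul' h g), fun n => ?_⟩
    have e1 : g'.act J = h.act (g.act I) := funext hh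
    have e2 : (smul' h g).act I = h.act (g.act I) := funext (act_mul h g I)
    rw [act_mul, e2, ← e1, act_inv]
  · exact ⟨1, 1, one_pos, Q.D.one_mem, one_ne_zero, fun I hI h => Q.tb_of_one hI h⟩
  · intro I hI hTB
    have h1 : (1 : L) ∉ I 1 := fun h => hTB (Q.tb_of_one hI h)
    have hq : ∀ i, Q.q i ∉ I 1 := fun i h => hTB (Q.tb_of_q hI h1 i h)
    obtain ⟨s, f, hs, hf, hf0, hJ⟩ := Q.a_gen h7 hI h1 hq
    refine ⟨s, f, hs, hf, hf0, fun J hJc hfJ => ?_⟩
    by_cases hB : Q.TB J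
    · exact Or.inl hB
    · have h1' : (1 : L) ∉ J 1 := fun h => hB (Q.tb_of_one hJc h)
      exact Or.inr (hJ J hJc h1' (fun i h => hB (Q.tb_of_q hJc h1' i h)) hfJ)

end Ex

end R169
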