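import Crest.Agent.R169.Defs2

/-!
# Row 169, module EX: the example, abstract interface

`QD k L`: a field `L` with elements `q i` (`i ∈ ZMod 5`) satisfying
`q_{i-1}^7 q_{i+1}^7 = 1 + q_i^7`, such that the standard monomials are linearly independent and `L` is
the fraction field of `k[q]`.  All facts about the example are proved for an arbitrary `Q : QD k L`.
-/

set_option autoImplicit false

namespace R169

namespace Ex

/-- exponents -/
abbrev Ev : Type := ZMod 5 → ℕ

/-- `λ_i(a) = a_i + a_{i+1} - a_{i+3}` -/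
def lam (a : Ev) (i : ZMod 5) : ℤ := (a i : ℤ) + a (i + 1) - a (i + 3)

/-- standard exponents -/
def Std (a : Ev) : Prop := ∀ i, a (i - 1) < 7 ∨ a (i + 1) < 7

/-- monomial `q^a` -/
def mon {S : Type} [CommSemiring S] (q : ZMod 5 → S) (a : Ev) : S := ∏ i, q i ^ a i

/-- the relations -/
def Rel {S : Type} [CommSemiring S] (q : ZMod 5 → S) : Prop :=
  ∀ i, q (i - 1) ^ 7 * q (i + 1) ^ 7 = 1 + q i ^ 7

/-- the example data -/
structure QD (k L : Type) [Field k] [Field L] [Algebra k L] where
  q : ZMod 5 → L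
  rel : Rel q
  indep : LinearIndependent k (fun a : {a : Ev // Std a} => mon q a.1)
  frac : ∀ l : L, ∃ f ∈ Algebra.adjoin k (Set.range q), ∃ g ∈ Algebra.adjoin k (Set.range q), g ≠ 0 ∧ l = f / g

variable {k L : Type} [Field k] [Field L] [Algebra k L]

/-- `B_n` -/
def QD.Bn (Q : QD k L) (n : ℤ) : Submodule k L :=
  Submodule.span k {l | ∃ a : Ev, (∀ i, lam a i ≤ n) ∧ l = mon Q.q a}

/-- `k[q]` -/
def QD.BU (Q : QD k L) : Subalgebra k L := Algebra.adjoin k (Set.range Q.q)

end Ex

end R169
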