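import Crest.Agent.R169.ExLift

/-!
# Row 169, module EX, piece EX_DER (0.8 h): derivations of `L`

`exists_der`: a logarithmic derivation `δ q_i = c_i q_i` compatible with the linearised relations
`(c_{i-1}+c_{i+1}) a_{i-1}a_{i+1} = c_i a_i` exists: in `DualNumber L = TrivSqZeroExt L L` the elements
`q'_i = q_i + c_i q_i ε` satisfy `Rel` (`(q_i(1+c_iε))^7 = a_i(1 + 7c_iε)`), `Q.lift` gives `φ : k[q] → L[ε]`,
`fst ∘ φ` = inclusion, so non-zero elements go to units and `φ` extends to `L → L[ε]` (`IsLocalization.lift`/`IsFractionRing`);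
`δ = snd ∘ φ`.
`exists_der1`: `c = (1, (1+a_1)/a_1, 0, -(1+a_1)/a_1, -a_0a_3/(a_1a_4))`;
`exists_der2`: `c = (0, (1+a_1)/a_1, 1, -a_2a_4/(a_1a_3), -(1+a_1)/a_1)`; check the five relations with `Q.rel`, `Q.q_ne` (`field_simp`,
`linear_combination`).
-/

set_option autoImplicit false

namespace R169

namespace Ex

variable {k L : Type} [Field k] [Field L] [Algebra k L]

open TrivSqZeroExt in
theorem QD.exists_der (Q : QD k L) (c : ZMod 5 → L)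
    (h : ∀ i, (c (i - 1) + c (i + 1)) * (Q.q (i - 1) ^ 7 * Q.q (i + 1) ^ 7) = c i * Q.q i ^ 7) :
    ∃ δ : Derivation k L L, ∀ i, δ (Q.q i) = c i * Q.q i := by
  obtain ⟨q', hf, hs⟩ : ∃ q' : ZMod 5 → DualNumber L, (∀ i, (q' i).fst = Q.q i) ∧
      (∀ i, (q' i).snd = c i * Q.q i) :=
    ⟨fun i => inl (Q.q i) + inr (c i * Q.q i), fun i => by simp, fun i => by simp⟩
  have hrel : Rel q' := by
    intro i
    refine TrivSqZeroExt.ext ?_ ?_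
    · rw [fst_mul, fst_pow, fst_pow, fst_add, fst_one, fst_pow, hf, hf, hf]
      exact Q.rel i
    · rw [snd_mul, snd_add, snd_one, snd_pow, snd_pow, snd_pow, fst_pow, fst_pow, hf, hf, hf, hs, hs,
        hs]
      simp only [smul_eq_mul, MulOpposite.smul_eq_mul_unop, MulOpposite.unop_op, nsmul_eq_mul]
      have h1 := h i
      simp only [Nat.pred_succ]
      push_cast
      linear_combination 7 * h1
  obtain ⟨φ, hφ⟩ := Q.lift q' hrel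
  have hfst : ∀ b : Q.BU, (φ b).fst = (b : L) := by
    have e : (fstHom k L L).comp φ = Q.BU.val := by
      apply AlgHom.adjoin_ext
      rintro x ⟨i, rfl⟩
      have h2 := hφ i
      show (φ (Q.qU i)).fst = Q.q i
      rw [h2, hf]
    intro b
    have h3 := congrArg (fun f => f b) e
    exact h3
  have := Q.fracRing
  have hunit : ∀ y : nonZeroDivisors Q.BU, IsUnit (φ y) := by
    intro y
    rw [isUnit_iff_isUnit_fst, hfst, isUnit_iff_ne_zero]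
    intro h0
    have h4 : (y : Q.BU) = 0 := by
      apply Subtype.ext
      exact h0
    exact nonZeroDivisors.ne_zero y.2 h4
  set ψ : L →ₐ[k] DualNumber L := IsLocalization.liftAlgHom (M := nonZeroDivisors Q.BU) (S := L)
    (f := φ) hunit with hψ
  have hψb : ∀ b : Q.BU, ψ (b : L) = φ b := by
    intro b
    rw [hψ, IsLocalization.liftAlgHom_apply]
    exact IsLocalization.lift_eq _ b
  have hid : (fstHom k L L).comp ψ = AlgHom.id k L := by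
    apply Q.hom_ext
    intro i
    show (ψ (Q.q i)).fst = Q.q i
    have h5 := hψb (Q.qU i)
    have h6 : ((Q.qU i : Q.BU) : L) = Q.q i := rfl
    rw [h6] at h5
    rw [h5, hfst]
    rfl
  have hψf : ∀ l : L, (ψ l).fst = l := fun l => congrArg (fun f => f l) hid
  refine ⟨Derivation.mk' ((sndHom L L).restrictScalars k ∘ₗ ψ.toLinearMap) ?_, ?_⟩
  · intro a b
    show (ψ (a * b)).snd = a • (ψ b).snd + b • (ψ a).snd
    rw [map_mul, snd_mul, hψf, hψf]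
    simp [mul_comm]
  · intro i
    show (ψ (Q.q i)).snd = c i * Q.q i
    have h5 := hψb (Q.qU i)
    have h6 : ((Q.qU i : Q.BU) : L) = Q.q i := rfl
    rw [h6] at h5
    rw [h5, hφ, hs]

private theorem z5all : ∀ i : ZMod 5, i = 0 ∨ i = 1 ∨ i = 2 ∨ i = 3 ∨ i = 4 := by decide

theorem QD.exists_der' (Q : QD k L) (c0 c1 c2 c3 c4 : L)
    (h0 : (c4 + c1) * (Q.q 4 ^ 7 * Q.q 1 ^ 7) = c0 * Q.q 0 ^ 7)
    (h1 : (c0 + c2) * (Q.q 0 ^ 7 * Q.q 2 ^ 7) = c1 * Q.q 1 ^ 7)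
    (h2 : (c1 + c3) * (Q.q 1 ^ 7 * Q.q 3 ^ 7) = c2 * Q.q 2 ^ 7)
    (h3 : (c2 + c4) * (Q.q 2 ^ 7 * Q.q 4 ^ 7) = c3 * Q.q 3 ^ 7)
    (h4 : (c3 + c0) * (Q.q 3 ^ 7 * Q.q 0 ^ 7) = c4 * Q.q 4 ^ 7) :
    ∃ δ : Derivation k L L, δ (Q.q 0) = c0 * Q.q 0 ∧ δ (Q.q 1) = c1 * Q.q 1 ∧
      δ (Q.q 2) = c2 * Q.q 2 ∧ δ (Q.q 3) = c3 * Q.q 3 ∧ δ (Q.q 4) = c4 * Q.q 4 := by
  set c : ZMod 5 → L := fun i => if i = 0 then c0 else if i = 1 then c1 else if i = 2 then c2 else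
    if i = 3 then c3 else c4 with hc
  have e0 : c 0 = c0 := by rw [hc]; simp
  have e1 : c 1 = c1 := by
    rw [hc]; beta_reduce
    rw [if_neg (by decide), if_pos rfl]
  have e2 : c 2 = c2 := by
    rw [hc]; beta_reduce
    rw [if_neg (by decide), if_neg (by decide), if_pos rfl]
  have e3 : c 3 = c3 := by
    rw [hc]; beta_reduce
    rw [if_neg (by decide), if_neg (by decide), if_neg (by decide), if_pos rfl]
  have e4 : c 4 = c4 := by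
    rw [hc]; beta_reduce
    rw [if_neg (by decide), if_neg (by decide), if_neg (by decide), if_neg (by decide)]
  have d0 : (0 : ZMod 5) - 1 = 4 ∧ (0 : ZMod 5) + 1 = 1 := by decide
  have d1 : (1 : ZMod 5) - 1 = 0 ∧ (1 : ZMod 5) + 1 = 2 := by decide
  have d2 : (2 : ZMod 5) - 1 = 1 ∧ (2 : ZMod 5) + 1 = 3 := by decide
  have d3 : (3 : ZMod 5) - 1 = 2 ∧ (3 : ZMod 5) + 1 = 4 := by decide
  have d4 : (4 : ZMod 5) - 1 = 3 ∧ (4 : ZMod 5) + 1 = 0 := by decide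
  obtain ⟨δ, hδ⟩ := Q.exists_der c (by
    intro i
    rcases z5all i with rfl | rfl | rfl | rfl | rfl
    · rw [d0.1, d0.2, e0, e1, e4]; exact h0
    · rw [d1.1, d1.2, e0, e1, e2]; exact h1
    · rw [d2.1, d2.2, e1, e2, e3]; exact h2
    · rw [d3.1, d3.2, e2, e3, e4]; exact h3
    · rw [d4.1, d4.2, e0, e3, e4]; exact h4)
  refine ⟨δ, ?_, ?_, ?_, ?_, ?_⟩
  · rw [hδ, e0]
  · rw [hδ, e1]
  · rw [hδ, e2]
  · rw [hδ, e3]
  · rw [hδ, e4]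

private theorem QD.relsP (Q : QD k L) : Q.q 4 ^ 7 * Q.q 1 ^ 7 = 1 + Q.q 0 ^ 7 ∧
    Q.q 0 ^ 7 * Q.q 2 ^ 7 = 1 + Q.q 1 ^ 7 ∧ Q.q 1 ^ 7 * Q.q 3 ^ 7 = 1 + Q.q 2 ^ 7 ∧
    Q.q 2 ^ 7 * Q.q 4 ^ 7 = 1 + Q.q 3 ^ 7 ∧ Q.q 3 ^ 7 * Q.q 0 ^ 7 = 1 + Q.q 4 ^ 7 := by
  have d0 : (0 : ZMod 5) - 1 = 4 ∧ (0 : ZMod 5) + 1 = 1 := by decide
  have d1 : (1 : ZMod 5) - 1 = 0 ∧ (1 : ZMod 5) + 1 = 2 := by decide
  have d2 : (2 : ZMod 5) - 1 = 1 ∧ (2 : ZMod 5) + 1 = 3 := by decide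
  have d3 : (3 : ZMod 5) - 1 = 2 ∧ (3 : ZMod 5) + 1 = 4 := by decide
  have d4 : (4 : ZMod 5) - 1 = 3 ∧ (4 : ZMod 5) + 1 = 0 := by decide
  have r0 := Q.rel 0
  have r1 := Q.rel 1
  have r2 := Q.rel 2
  have r3 := Q.rel 3
  have r4 := Q.rel 4
  rw [d0.1, d0.2] at r0
  rw [d1.1, d1.2] at r1
  rw [d2.1, d2.2] at r2
  rw [d3.1, d3.2] at r3
  rw [d4.1, d4.2] at r4
  exact ⟨r0, r1, r2, r3, r4⟩

theorem QD.exists_der1 (Q : QD k L) : ∃ δ : Derivation k L L, δ (Q.q 0) = Q.q 0 ∧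
    δ (Q.q 1) = (1 + Q.q 1 ^ 7) / Q.q 1 ^ 7 * Q.q 1 ∧ δ (Q.q 2) = 0 ∧
    δ (Q.q 3) = -((1 + Q.q 1 ^ 7) / Q.q 1 ^ 7) * Q.q 3 ∧
    δ (Q.q 4) = -(Q.q 0 ^ 7 * Q.q 3 ^ 7 / (Q.q 1 ^ 7 * Q.q 4 ^ 7)) * Q.q 4 := by
  obtain ⟨r0, r1, r2, r3, r4⟩ := Q.relsP
  have n1 := Q.q_ne 1
  have n4 := Q.q_ne 4
  obtain ⟨δ, h0, h1, h2, h3, h4⟩ := Q.exists_der' 1 ((1 + Q.q 1 ^ 7) / Q.q 1 ^ 7) 0
    (-((1 + Q.q 1 ^ 7) / Q.q 1 ^ 7)) (-(Q.q 0 ^ 7 * Q.q 3 ^ 7 / (Q.q 1 ^ 7 * Q.q 4 ^ 7)))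
    (by
      field_simp
      linear_combination (-Q.q 4 ^ 7) * r1 + Q.q 0 ^ 7 * r3)
    (by
      field_simp
      linear_combination r1)
    (by ring)
    (by
      field_simp
      linear_combination (-Q.q 3 ^ 7) * r1)
    (by
      field_simp
      ring)
  exact ⟨δ, by rw [h0, one_mul], h1, by rw [h2, zero_mul], h3, h4⟩

theorem QD.exists_der2 (Q : QD k L) : ∃ δ : Derivation k L L, δ (Q.q 0) = 0 ∧
    δ (Q.q 1) = (1 + Q.q 1 ^ 7) / Q.q 1 ^ 7 * Q.q 1 ∧ δ (Q.q 2) = Q.q 2 ∧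
    δ (Q.q 3) = -(Q.q 2 ^ 7 * Q.q 4 ^ 7 / (Q.q 1 ^ 7 * Q.q 3 ^ 7)) * Q.q 3 ∧
    δ (Q.q 4) = -((1 + Q.q 1 ^ 7) / Q.q 1 ^ 7) * Q.q 4 := by
  obtain ⟨r0, r1, r2, r3, r4⟩ := Q.relsP
  have n1 := Q.q_ne 1
  have n3 := Q.q_ne 3
  obtain ⟨δ, h0, h1, h2, h3, h4⟩ := Q.exists_der' 0 ((1 + Q.q 1 ^ 7) / Q.q 1 ^ 7) 1
    (-(Q.q 2 ^ 7 * Q.q 4 ^ 7 / (Q.q 1 ^ 7 * Q.q 3 ^ 7))) (-((1 + Q.q 1 ^ 7) / Q.q 1 ^ 7))
    (by ring)
    (by
      field_simp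
      linear_combination r1)
    (by
      field_simp
      linear_combination (-Q.q 3 ^ 7) * r1 + Q.q 2 ^ 7 * r4)
    (by
      field_simp
      ring)
    (by
      field_simp
      linear_combination (-Q.q 4 ^ 7) * r1)
  exact ⟨δ, by rw [h0, zero_mul], h1, by rw [h2, one_mul], h3, h4⟩

end Ex

end R169
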