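import Crest.Agent.R169.ExPB2

/-!
# Row 169, module EX, piece EX_DERC (0.7 h): `DerCond Q.D p 21`

`D_i = a_1a_3a_4 • δ_i` (`δ_i` from `exists_der1/2`).  On `q_i` the multipliers `D q_i / q_i` are
`D1: (a_1a_3a_4, a_3a_4(1+a_1), 0, -a_3a_4(1+a_1), -a_0a_3^2)`, `D2: (0, a_3a_4(1+a_1), a_1a_3a_4, -a_2a_4^2, -a_3a_4(1+a_1))`, all in
`B_21` (sums of products of at most three `a`'s, each a product of 7 `q`'s, `q_i ∈ B_1`, `1 ∈ B_1`), and `D(q^a) = (∑ a_i · mult_i) q^a` (Leibniz).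
Kernel: `pbasis_L`: `l = ∑ g_ij^p q_0^i q_2^j`, `δ1 l = ∑ i g_ij^p q_0^i q_2^j = 0` → `i g_ij = 0`.. by independence (write `i g_ij^p` as a `p`-th power:
`i = i^p` in `char p`), so only `g_00` survives: `l = g_00^p`.
-/

set_option autoImplicit false

namespace R169

namespace Ex

variable {k L : Type} [Field k] [Field L] [Algebra k L]

private theorem der_prod (D : Derivation k L L) (x c : ZMod 5 → L) (h : ∀ i, D (x i) = c i * x i)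
    (s : Finset (ZMod 5)) : D (∏ i ∈ s, x i) = (∑ i ∈ s, c i) * ∏ i ∈ s, x i := by
  classical
  induction s using Finset.induction_on with
  | empty => simp
  | insert a s ha ih =>
    rw [Finset.prod_insert ha, Finset.sum_insert ha, Derivation.leibniz, ih, h a]
    simp only [smul_eq_mul]
    ring

private theorem der_mon (D : Derivation k L L) (q m : ZMod 5 → L) (h : ∀ i, D (q i) = m i * q i)
    (a : Ev) : D (mon q a) = (∑ i, (a i : L) * m i) * mon q a := by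
  refine der_prod D (fun i => q i ^ a i) (fun i => (a i : L) * m i) (fun i => ?_) Finset.univ
  show D (q i ^ a i) = (a i : L) * m i * q i ^ a i
  rw [Derivation.leibniz_pow, h i]
  simp only [smul_eq_mul, nsmul_eq_mul]
  rcases Nat.eq_zero_or_pos (a i) with h0 | h0
  · rw [h0]; simp
  · obtain ⟨n, hn⟩ := Nat.exists_eq_succ_of_ne_zero h0.ne'
    rw [hn, Nat.succ_sub_one, pow_succ]
    ring

private theorem der_Bn (Q : QD k L) (D : Derivation k L L) (m : ZMod 5 → L) (hm : ∀ i, m i ∈ Q.Bn 21)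
    (h : ∀ i, D (Q.q i) = m i * Q.q i) (n : ℤ) (b : L) (hb : b ∈ Q.Bn n) : D b ∈ Q.Bn (n + 21) := by
  have h1 : Q.Bn n ≤ (Q.Bn (n + 21)).comap D.toLinearMap := by
    refine Submodule.span_le.2 ?_
    rintro l ⟨a, ha, rfl⟩
    show D (mon Q.q a) ∈ Q.Bn (n + 21)
    rw [der_mon D Q.q m h a, add_comm n 21]
    refine Q.mul_mem (Submodule.sum_mem _ fun i _ => ?_) (Q.mon_mem ha)
    have : (a i : L) * m i = (a i : k) • m i := by rw [Algebra.smul_def, map_natCast]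
    rw [this]
    exact Submodule.smul_mem _ _ (hm i)
  exact h1 hb

private theorem q_pow_mem (Q : QD k L) (i : ZMod 5) (n : ℕ) : Q.q i ^ n ∈ Q.Bn n := by
  induction n with
  | zero => rw [pow_zero, Nat.cast_zero, Q.zero]; exact Submodule.mem_span_singleton_self _
  | succ n ih => rw [pow_succ, Nat.cast_succ]; exact Q.mul_mem ih (Q.q_mem i)

private theorem a_mem (Q : QD k L) (i : ZMod 5) : Q.q i ^ 7 ∈ Q.Bn 7 := by
  exact_mod_cast q_pow_mem Q i 7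

private theorem a3_mem (Q : QD k L) (i j l : ZMod 5) : Q.q i ^ 7 * Q.q j ^ 7 * Q.q l ^ 7 ∈ Q.Bn 21 := by
  have := Q.mul_mem (Q.mul_mem (a_mem Q i) (a_mem Q j)) (a_mem Q l)
  norm_num at this
  exact this

private theorem a3'_mem (Q : QD k L) (i j l : ZMod 5) : Q.q i ^ 7 * Q.q j ^ 7 * (1 + Q.q l ^ 7) ∈ Q.Bn 21 := by
  have := Q.mul_mem (Q.mul_mem (a_mem Q i) (a_mem Q j))
    (Submodule.add_mem _ (Q.mono (by norm_num) Q.one_mem) (a_mem Q l))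
  norm_num at this
  exact this

private theorem ker_aux (p : ℕ) [Fact p.Prime] [CharP L p] {u v : L} (δ1 δ2 : Derivation k L L)
    (h1 : δ1 u = u) (h2 : δ1 v = 0) (h3 : δ2 u = 0) (h4 : δ2 v = v)
    (hind : ∀ g : Fin p → Fin p → L, ∑ i, ∑ j, g i j ^ p * u ^ (i : ℕ) * v ^ (j : ℕ) = 0 → ∀ i j, g i j = 0)
    (g : Fin p → Fin p → L) (l : L) (hl : l = ∑ i, ∑ j, g i j ^ p * u ^ (i : ℕ) * v ^ (j : ℕ))
    (e1 : δ1 l = 0) (e2 : δ2 l = 0) : ∃ l', l = l' ^ p := by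
  have hp0 : p ≠ 0 := (Fact.out : p.Prime).ne_zero
  have hpL : (p : L) = 0 := CharP.cast_eq_zero L p
  have dpow : ∀ (δ : Derivation k L L) (x : L), δ (x ^ p) = 0 := by
    intro δ x
    rw [Derivation.leibniz_pow, nsmul_eq_mul, hpL, zero_mul]
  have dterm : ∀ (δ : Derivation k L L) (cu cv : L), δ u = cu * u → δ v = cv * v → ∀ (x : L) (i j : ℕ),
      δ (x ^ p * u ^ i * v ^ j) = (i * cu + j * cv) * (x ^ p * u ^ i * v ^ j) := by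
    intro δ cu cv hu hv x i j
    have hpw : ∀ (y c : L), δ y = c * y → ∀ n : ℕ, δ (y ^ n) = n * c * y ^ n := by
      intro y c hy n
      rw [Derivation.leibniz_pow, hy, nsmul_eq_mul, smul_eq_mul]
      rcases Nat.eq_zero_or_pos n with h0 | h0
      · rw [h0]; simp
      · obtain ⟨m, rfl⟩ := Nat.exists_eq_succ_of_ne_zero h0.ne'
        rw [Nat.succ_sub_one, pow_succ]
        ring
    rw [Derivation.leibniz, Derivation.leibniz, dpow, hpw u cu hu, hpw v cv hv]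
    simp only [smul_eq_mul]
    ring
  have key : ∀ i j : Fin p, ((i : ℕ) : L) * g i j = 0 := by
    apply hind (fun i j => ((i : ℕ) : L) * g i j)
    rw [← e1, hl, map_sum]
    refine Finset.sum_congr rfl fun i _ => ?_
    rw [map_sum]
    refine Finset.sum_congr rfl fun j _ => ?_
    rw [dterm δ1 1 0 (by rw [h1, one_mul]) (by rw [h2, zero_mul]) (g i j) i j, mul_pow]
    have : ((i : ℕ) : L) ^ p = ((i : ℕ) : L) := by
      have := map_natCast (frobenius L p) (i : ℕ)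
      rwa [frobenius_def] at this
    rw [this]
    ring
  have key2 : ∀ i j : Fin p, ((j : ℕ) : L) * g i j = 0 := by
    apply hind (fun i j => ((j : ℕ) : L) * g i j)
    rw [← e2, hl, map_sum]
    refine Finset.sum_congr rfl fun i _ => ?_
    rw [map_sum]
    refine Finset.sum_congr rfl fun j _ => ?_
    rw [dterm δ2 0 1 (by rw [h3, zero_mul]) (by rw [h4, one_mul]) (g i j) i j, mul_pow]
    have : ((j : ℕ) : L) ^ p = ((j : ℕ) : L) := by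
      have := map_natCast (frobenius L p) (j : ℕ)
      rwa [frobenius_def] at this
    rw [this]
    ring
  have cne : ∀ i : Fin p, (i : ℕ) ≠ 0 → ((i : ℕ) : L) ≠ 0 := by
    intro i hi h0
    have := (CharP.cast_eq_zero_iff L p i).1 h0
    exact hi (Nat.eq_zero_of_dvd_of_lt this i.2)
  have hpos : 0 < p := Nat.pos_of_ne_zero hp0
  refine ⟨g ⟨0, hpos⟩ ⟨0, hpos⟩, ?_⟩
  rw [hl, Finset.sum_eq_single (⟨0, hpos⟩ : Fin p), Finset.sum_eq_single (⟨0, hpos⟩ : Fin p)]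
  · simp
  · intro j _ hj
    have : g ⟨0, hpos⟩ j = 0 := by
      rcases mul_eq_zero.1 (key2 ⟨0, hpos⟩ j) with h | h
      · exact absurd h (cne j fun h' => hj (Fin.ext h'))
      · exact h
    rw [this, zero_pow hp0]
    ring
  · intro h; exact absurd (Finset.mem_univ _) h
  · intro i _ hi
    refine Finset.sum_eq_zero fun j _ => ?_
    have : g i j = 0 := by
      rcases mul_eq_zero.1 (key i j) with h | h
      · exact absurd h (cne i fun h' => hi (Fin.ext h'))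
      · exact h
    rw [this, zero_pow hp0]
    ring
  · intro h; exact absurd (Finset.mem_univ _) h

theorem QD.dercond (Q : QD k L) (p : ℕ) [Fact p.Prime] [CharP k p] [IsAlgClosed k] (hp : p ≠ 7) :
    DerCond Q.D p 21 := by
  haveI : CharP L p := charP_of_injective_algebraMap (algebraMap k L).injective p
  obtain ⟨δ1, a0, a1, a2, a3, a4⟩ := Q.exists_der1
  obtain ⟨δ2, b0, b1, b2, b3, b4⟩ := Q.exists_der2
  have q1 := Q.q_ne 1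
  have q3 := Q.q_ne 3
  have q4 := Q.q_ne 4
  have hM : Q.q 1 ^ 7 * Q.q 3 ^ 7 * Q.q 4 ^ 7 ≠ 0 :=
    mul_ne_zero (mul_ne_zero (pow_ne_zero _ q1) (pow_ne_zero _ q3)) (pow_ne_zero _ q4)
  refine ⟨(Q.q 1 ^ 7 * Q.q 3 ^ 7 * Q.q 4 ^ 7) • δ1, (Q.q 1 ^ 7 * Q.q 3 ^ 7 * Q.q 4 ^ 7) • δ2, ?_, ?_⟩
  · intro n b hb
    refine ⟨?_, ?_⟩
    · refine der_Bn Q _ ![Q.q 1 ^ 7 * Q.q 3 ^ 7 * Q.q 4 ^ 7, Q.q 3 ^ 7 * Q.q 4 ^ 7 * (1 + Q.q 1 ^ 7), 0,
        -(Q.q 3 ^ 7 * Q.q 4 ^ 7 * (1 + Q.q 1 ^ 7)), -(Q.q 0 ^ 7 * Q.q 3 ^ 7 * Q.q 3 ^ 7)] ?_ ?_ n b hb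
      · rw [forall5]
        exact ⟨a3_mem Q 1 3 4, a3'_mem Q 3 4 1, Submodule.zero_mem _,
          Submodule.neg_mem _ (a3'_mem Q 3 4 1), Submodule.neg_mem _ (a3_mem Q 0 3 3)⟩
      · rw [forall5]
        refine ⟨?_, ?_, ?_, ?_, ?_⟩
        · show (Q.q 1 ^ 7 * Q.q 3 ^ 7 * Q.q 4 ^ 7) • δ1 (Q.q 0) = (Q.q 1 ^ 7 * Q.q 3 ^ 7 * Q.q 4 ^ 7) * Q.q 0
          rw [a0]; rfl
        · show (Q.q 1 ^ 7 * Q.q 3 ^ 7 * Q.q 4 ^ 7) • δ1 (Q.q 1) = (Q.q 3 ^ 7 * Q.q 4 ^ 7 * (1 + Q.q 1 ^ 7)) * Q.q 1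
          rw [a1, smul_eq_mul]; field_simp
        · show (Q.q 1 ^ 7 * Q.q 3 ^ 7 * Q.q 4 ^ 7) • δ1 (Q.q 2) = 0 * Q.q 2
          rw [a2]; simp
        · show (Q.q 1 ^ 7 * Q.q 3 ^ 7 * Q.q 4 ^ 7) • δ1 (Q.q 3) = (-(Q.q 3 ^ 7 * Q.q 4 ^ 7 * (1 + Q.q 1 ^ 7))) * Q.q 3
          rw [a3, smul_eq_mul]; field_simp
        · show (Q.q 1 ^ 7 * Q.q 3 ^ 7 * Q.q 4 ^ 7) • δ1 (Q.q 4) = (-(Q.q 0 ^ 7 * Q.q 3 ^ 7 * Q.q 3 ^ 7)) * Q.q 4
          rw [a4, smul_eq_mul]; field_simp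
    · refine der_Bn Q _ ![0, Q.q 3 ^ 7 * Q.q 4 ^ 7 * (1 + Q.q 1 ^ 7), Q.q 1 ^ 7 * Q.q 3 ^ 7 * Q.q 4 ^ 7,
        -(Q.q 2 ^ 7 * Q.q 4 ^ 7 * Q.q 4 ^ 7), -(Q.q 3 ^ 7 * Q.q 4 ^ 7 * (1 + Q.q 1 ^ 7))] ?_ ?_ n b hb
      · rw [forall5]
        exact ⟨Submodule.zero_mem _, a3'_mem Q 3 4 1, a3_mem Q 1 3 4,
          Submodule.neg_mem _ (a3_mem Q 2 4 4), Submodule.neg_mem _ (a3'_mem Q 3 4 1)⟩
      · rw [forall5]
        refine ⟨?_, ?_, ?_, ?_, ?_⟩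
        · show (Q.q 1 ^ 7 * Q.q 3 ^ 7 * Q.q 4 ^ 7) • δ2 (Q.q 0) = 0 * Q.q 0
          rw [b0]; simp
        · show (Q.q 1 ^ 7 * Q.q 3 ^ 7 * Q.q 4 ^ 7) • δ2 (Q.q 1) = (Q.q 3 ^ 7 * Q.q 4 ^ 7 * (1 + Q.q 1 ^ 7)) * Q.q 1
          rw [b1, smul_eq_mul]; field_simp
        · show (Q.q 1 ^ 7 * Q.q 3 ^ 7 * Q.q 4 ^ 7) • δ2 (Q.q 2) = (Q.q 1 ^ 7 * Q.q 3 ^ 7 * Q.q 4 ^ 7) * Q.q 2
          rw [b2]; rfl
        · show (Q.q 1 ^ 7 * Q.q 3 ^ 7 * Q.q 4 ^ 7) • δ2 (Q.q 3) = (-(Q.q 2 ^ 7 * Q.q 4 ^ 7 * Q.q 4 ^ 7)) * Q.q 3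
          rw [b3, smul_eq_mul]; field_simp
        · show (Q.q 1 ^ 7 * Q.q 3 ^ 7 * Q.q 4 ^ 7) • δ2 (Q.q 4) = (-(Q.q 3 ^ 7 * Q.q 4 ^ 7 * (1 + Q.q 1 ^ 7))) * Q.q 4
          rw [b4, smul_eq_mul]; field_simp
  · intro l hl1 hl2
    have e1 : δ1 l = 0 := (mul_eq_zero.1 (show Q.q 1 ^ 7 * Q.q 3 ^ 7 * Q.q 4 ^ 7 * δ1 l = 0 from hl1)).resolve_left hM
    have e2 : δ2 l = 0 := (mul_eq_zero.1 (show Q.q 1 ^ 7 * Q.q 3 ^ 7 * Q.q 4 ^ 7 * δ2 l = 0 from hl2)).resolve_left hM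
    obtain ⟨-, -, hs, hi⟩ := Q.pbasis_L p hp
    obtain ⟨g, -, hg⟩ := hs l (Set.mem_univ _)
    exact ker_aux p δ1 δ2 a0 a2 b0 b2 hi g l hg e1 e2

end Ex

end R169
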