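import Crest.Agent.R169.ExField

/-!
# Row 169, module EX: evaluation of combinations of monomials; class decomposition (helper71).

`evl q' : (Ev →₀ k) →ₗ[k] S`, `single a x ↦ x • mon q' a`.
`QD.evl_zero`: a relation between monomials of an abstract `Q` holds for every solution `q'` of `Rel`.
-/

set_option autoImplicit false

namespace R169

namespace Ex

section evl

variable {k : Type} [Field k] {S : Type} [CommRing S] [Algebra k S]

/-- evaluation of formal combinations of monomials -/
noncomputable def evl (k : Type) [Field k] {S : Type} [CommRing S] [Algebra k S] (q' : ZMod 5 → S) :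
    (Ev →₀ k) →ₗ[k] S :=
  Finsupp.linearCombination k (fun a => mon q' a)

theorem evl_single (q' : ZMod 5 → S) (a : Ev) (x : k) :
    evl k q' (Finsupp.single a x) = x • mon q' a := by
  unfold evl
  rw [Finsupp.linearCombination_single]

/-- normal form of a monomial with coefficients in `k` -/
noncomputable def redk (k : Type) [Field k] (a : Ev) : Ev →₀ k :=
  (red a).mapRange (Int.cast : ℤ → k) Int.cast_zero

theorem evl_redk (q' : ZMod 5 → S) (h : Rel q') (a : Ev) : evl k q' (redk k a) = mon q' a := by
  unfold evl redk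
  rw [red_eval a q' h, Finsupp.linearCombination_apply, Finsupp.sum_mapRange_index]
  · refine Finsupp.sum_congr fun b _ => ?_
    rw [Algebra.smul_def, map_intCast]
  · intro b
    rw [zero_smul]

theorem redk_mem (a : Ev) : redk k a ∈ Finsupp.supported k k {a : Ev | Std a} := by
  rw [Finsupp.mem_supported]
  intro b hb
  have hb' : b ∈ (redk k a).support := hb
  unfold redk at hb'
  exact red_std (Finsupp.support_mapRange hb')

/-- linear extension of the normal form -/
noncomputable def nf (k : Type) [Field k] : (Ev →₀ k) →ₗ[k] (Ev →₀ k) :=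
  Finsupp.linearCombination k (redk k)

theorem evl_nf (q' : ZMod 5 → S) (h : Rel q') (G : Ev →₀ k) : evl k q' (nf k G) = evl k q' G := by
  induction G using Finsupp.induction_linear with
  | zero => simp
  | add f g hf hg => rw [map_add, map_add, map_add, hf, hg]
  | single a x =>
    unfold nf
    rw [Finsupp.linearCombination_single, map_smul, evl_redk q' h, evl_single]

theorem nf_mem (G : Ev →₀ k) : nf k G ∈ Finsupp.supported k k {a : Ev | Std a} := by
  unfold nf
  rw [Finsupp.linearCombination_apply]
  exact Submodule.sum_mem _ fun a _ => Submodule.smul_mem _ _ (redk_mem a)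

variable {L : Type} [Field L] [Algebra k L]

/-- relations of an abstract `Q` hold everywhere -/
theorem QD.evl_zero (Q : QD k L) (q' : ZMod 5 → S) (h : Rel q') (G : Ev →₀ k)
    (h0 : evl k Q.q G = 0) : evl k q' G = 0 := by
  have h1 : LinearIndepOn k (fun a : Ev => mon Q.q a) {a : Ev | Std a} := Q.indep
  rw [linearIndepOn_iff] at h1
  have h2 : nf k G = 0 := h1 _ (nf_mem G) (by
    have := evl_nf Q.q Q.rel G
    rw [h0] at this
    exact this)
  rw [← evl_nf q' h, h2, map_zero]

end evl

/-- rotation of exponents -/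
def rot (e : ZMod 5) (a : Ev) : Ev := fun i => a (i + e)

theorem lam_rot (e : ZMod 5) (a : Ev) (i : ZMod 5) : lam (rot e a) i = lam a (i + e) := by
  unfold lam rot
  rw [show i + 1 + e = i + e + 1 by ring, show i + 3 + e = i + e + 3 by ring]

theorem std_rot {e : ZMod 5} {a : Ev} (h : Std a) : Std (rot e a) := by
  intro i
  have := h (i + e)
  unfold rot
  rwa [show i - 1 + e = i + e - 1 by ring, show i + 1 + e = i + e + 1 by ring]

theorem mon_rot {S : Type} [CommSemiring S] (q : ZMod 5 → S) (e : ZMod 5) (a : Ev) :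
    mon (fun i => q (i - e)) a = mon q (rot e a) := by
  unfold mon rot
  rw [← (Equiv.subRight e).prod_comp fun j => q j ^ a (j + e)]
  refine Finset.prod_congr rfl fun i _ => ?_
  simp

theorem rel_rot {S : Type} [CommSemiring S] {q : ZMod 5 → S} (h : Rel q) (e : ZMod 5) :
    Rel (fun i => q (i - e)) := by
  intro i
  have := h (i - e)
  rwa [show i - e - 1 = i - 1 - e by ring, show i - e + 1 = i + 1 - e by ring] at this

section om

variable {k : Type} [Field k]

/-- residues and quotients mod 7 -/
def r7 (a : Ev) : ZMod 5 → Fin 7 := fun i => ⟨a i % 7, Nat.mod_lt _ (by norm_num)⟩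
def d7 (a : Ev) : Ev := fun i => a i / 7

theorem d7_clus {a : Ev} (h : Std a) : Clus (d7 a) := by
  intro i
  rcases h i with h | h
  · left; exact Nat.div_eq_of_lt h
  · right; exact Nat.div_eq_of_lt h

theorem mon_r7_d7 (h7 : (7 : k) ≠ 0) (a : Ev) :
    mon (qOm k h7) a = (∏ i, aF k i ^ d7 a i) • ∏ i, qOm k h7 i ^ (r7 a i : ℕ) := by
  rw [Algebra.smul_def, map_prod, ← Finset.prod_mul_distrib]
  unfold mon d7 r7
  refine Finset.prod_congr rfl fun i _ => ?_
  rw [map_pow, ← qOm_pow k h7 i, ← pow_mul, ← pow_add, Nat.div_add_mod]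

/-- class decomposition of a relation in `Om` -/
theorem class_zero [IsAlgClosed k] (h7 : (7 : k) ≠ 0) (G : Ev →₀ k) (h0 : evl k (qOm k h7) G = 0)
    (c : ZMod 5 → Fin 7) :
    ∑ a ∈ G.support.filter (fun a => r7 a = c), (G a) • (∏ i, aF k i ^ d7 a i : F1 k) = 0 := by
  classical
  have h1 := kummer_indep (qOm k h7) (aF k) (qOm_pow k h7) aF_ne root_unity_mem aF_indep
  rw [Fintype.linearIndependent_iff] at h1
  refine h1 (fun c => ∑ a ∈ G.support.filter (fun a => r7 a = c),
    (G a) • (∏ i, aF k i ^ d7 a i : F1 k)) ?_ c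
  have h2 : evl k (qOm k h7) G = ∑ a ∈ G.support, (G a) • mon (qOm k h7) a := by
    unfold evl
    rw [Finsupp.linearCombination_apply]
    rfl
  rw [← h0, h2, ← Finset.sum_fiberwise_of_maps_to (s := G.support) (t := Finset.univ) (g := r7)
    (fun _ _ => Finset.mem_univ _)]
  refine Finset.sum_congr rfl fun c _ => ?_
  rw [Finset.sum_smul]
  refine Finset.sum_congr rfl fun a ha => ?_
  rw [Finset.mem_filter] at ha
  rw [mon_r7_d7, ha.2, smul_assoc]

end om

end Ex

end R169
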