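import Mathlib

/-!
# Row 169, module EX: Kummer independence of monomials in 7th roots (helper71).
-/

set_option autoImplicit false

namespace R169.Ex

section kummer

variable {F Ω : Type} [Field F] [Field Ω] [Algebra F Ω]

/-- `σ ↦ σ m / m` is multiplicative when `m ^ 7 ∈ F` and the 7th roots of unity are in `F`. -/
noncomputable def kchar (hμ : ∀ z : Ω, z ^ 7 = 1 → z ∈ (algebraMap F Ω).range) (m : Ω) (hm : m ≠ 0)
    (h7 : m ^ 7 ∈ (algebraMap F Ω).range) : (Ω ≃ₐ[F] Ω) →* Ω where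
  toFun σ := σ m / m
  map_one' := by simp [hm]
  map_mul' σ τ := by
    have hτ : (τ m / m) ^ 7 = 1 := by
      obtain ⟨x, hx⟩ := h7
      rw [div_pow, ← map_pow, ← hx, AlgEquiv.commutes, div_self]
      rw [hx]; exact pow_ne_zero _ hm
    obtain ⟨z, hz⟩ := hμ _ hτ
    have h1 : τ m = algebraMap F Ω z * m := by
      rw [hz]; field_simp
    rw [AlgEquiv.mul_apply, h1, map_mul, AlgEquiv.commutes]
    field_simp

theorem kummer_indep [IsGalois F Ω] {ι : Type} [Fintype ι] (q : ι → Ω) (a : ι → F)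
    (hq : ∀ i, q i ^ 7 = algebraMap F Ω (a i)) (ha : ∀ i, a i ≠ 0)
    (hμ : ∀ z : Ω, z ^ 7 = 1 → z ∈ (algebraMap F Ω).range)
    (hind : ∀ c c' : ι → Fin 7, ∀ b : F,
      ∏ i, a i ^ (c i : ℕ) = b ^ 7 * ∏ i, a i ^ (c' i : ℕ) → c = c') :
    LinearIndependent F (fun c : ι → Fin 7 => ∏ i, q i ^ (c i : ℕ)) := by
  have hq0 : ∀ i, q i ≠ 0 := by
    intro i h0
    have := hq i
    rw [h0] at this
    rw [zero_pow (by norm_num)] at this
    exact ha i ((map_eq_zero (algebraMap F Ω)).1 this.symm)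
  have hm0 : ∀ c : ι → Fin 7, (∏ i, q i ^ (c i : ℕ)) ≠ 0 := fun c =>
    Finset.prod_ne_zero_iff.2 fun i _ => pow_ne_zero _ (hq0 i)
  have hm7 : ∀ c : ι → Fin 7, (∏ i, q i ^ (c i : ℕ)) ^ 7 = algebraMap F Ω (∏ i, a i ^ (c i : ℕ)) := by
    intro c
    rw [← Finset.prod_pow, map_prod]
    refine Finset.prod_congr rfl fun i _ => ?_
    rw [← pow_mul, mul_comm, pow_mul, hq i, map_pow]
  have h7r : ∀ c : ι → Fin 7, (∏ i, q i ^ (c i : ℕ)) ^ 7 ∈ (algebraMap F Ω).range :=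
    fun c => ⟨_, (hm7 c).symm⟩
  set χ : (ι → Fin 7) → ((Ω ≃ₐ[F] Ω) →* Ω) := fun c => kchar hμ _ (hm0 c) (h7r c) with hχ
  have hinj : Function.Injective χ := by
    intro c c' hcc
    have hfix : ∀ σ : Ω ≃ₐ[F] Ω,
        σ ((∏ i, q i ^ (c i : ℕ)) / ∏ i, q i ^ (c' i : ℕ)) =
          (∏ i, q i ^ (c i : ℕ)) / ∏ i, q i ^ (c' i : ℕ) := by
      intro σ
      have h1 : σ (∏ i, q i ^ (c i : ℕ)) / (∏ i, q i ^ (c i : ℕ)) =
          σ (∏ i, q i ^ (c' i : ℕ)) / (∏ i, q i ^ (c' i : ℕ)) := by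
        have := DFunLike.congr_fun hcc σ
        exact this
      have h2 : σ (∏ i, q i ^ (c' i : ℕ)) ≠ 0 := by
        intro h0
        exact hm0 c' ((map_eq_zero σ).1 h0)
      rw [map_div₀]
      rw [div_eq_div_iff (hm0 c) (hm0 c')] at h1
      rw [div_eq_div_iff h2 (hm0 c')]
      rw [h1]; ring
    obtain ⟨b, hb⟩ := (InfiniteGalois.mem_range_algebraMap_iff_fixed _).2 hfix
    have h3 : (∏ i, q i ^ (c i : ℕ)) = algebraMap F Ω b * ∏ i, q i ^ (c' i : ℕ) := by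
      rw [hb, div_mul_cancel₀ _ (hm0 c')]
    have h4 := congrArg (· ^ 7) h3
    simp only [mul_pow, hm7, ← map_pow, ← map_mul] at h4
    exact hind c c' b ((algebraMap F Ω).injective h4)
  have hli : LinearIndependent Ω (fun c : ι → Fin 7 => (χ c : (Ω ≃ₐ[F] Ω) → Ω)) :=
    (linearIndependent_monoidHom (Ω ≃ₐ[F] Ω) Ω).comp χ hinj
  rw [linearIndependent_iff'] at hli ⊢
  intro s g hg c hc
  have key : ∑ c ∈ s, (algebraMap F Ω (g c) * ∏ i, q i ^ (c i : ℕ)) •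
      (χ c : (Ω ≃ₐ[F] Ω) → Ω) = 0 := by
    funext σ
    rw [Finset.sum_apply]
    have h1 := congrArg σ hg
    rw [map_sum, map_zero] at h1
    rw [Pi.zero_apply, ← h1]
    refine Finset.sum_congr rfl fun c _ => ?_
    rw [Pi.smul_apply, smul_eq_mul, Algebra.smul_def, map_mul, AlgEquiv.commutes]
    show algebraMap F Ω (g c) * (∏ i, q i ^ (c i : ℕ)) *
      (σ (∏ i, q i ^ (c i : ℕ)) / (∏ i, q i ^ (c i : ℕ))) = _
    have := hm0 c
    field_simp
  have := hli s _ key c hc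
  rcases mul_eq_zero.1 this with h | h
  · exact (map_eq_zero (algebraMap F Ω)).1 h
  · exact absurd h (hm0 c)

end kummer

end R169.Ex
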