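import Crest.Agent.R169.ExGD
import Crest.Agent.R169.ExClus
import Crest.Agent.R169.ExKummer

/-!
# Row 169, module EX: construction of the field `L` and of `Q : QD k L` (helper71).
-/

set_option autoImplicit false

namespace R169

namespace Ex

section field

variable (k : Type) [Field k]

/-- separable closure of `k(s,t)` -/
abbrev Om : Type := SeparableClosure (F1 k)

theorem exists_roots (h7 : (7 : k) ≠ 0) :
    ∃ q : ZMod 5 → Om k, ∀ i, q i ^ 7 = algebraMap (F1 k) (Om k) (aF k i) := by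
  have h : ((7 : ℕ) : Om k) ≠ 0 := by
    have e : ((7 : ℕ) : Om k) = algebraMap k (Om k) (7 : k) := by
      have := map_natCast (algebraMap k (Om k)) 7
      rw [← this]
      norm_num
    rw [e]
    exact (map_ne_zero (algebraMap k (Om k))).2 h7
  have : NeZero ((7 : ℕ) : Om k) := ⟨h⟩
  exact Classical.skolem.1 fun i => IsSepClosed.exists_pow_nat_eq (algebraMap (F1 k) (Om k) (aF k i)) 7

variable {k}

theorem root_unity_mem [IsAlgClosed k] (z : Om k) (hz : z ^ 7 = 1) :
    z ∈ (algebraMap (F1 k) (Om k)).range := by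
  have hint : IsIntegral k z := by
    refine ⟨Polynomial.X ^ 7 - 1, Polynomial.monic_X_pow_sub_C 1 (by norm_num), ?_⟩
    simp [hz]
  have hdeg : (minpoly k z).degree = 1 :=
    IsAlgClosed.degree_eq_one_of_irreducible k (minpoly.irreducible hint)
  obtain ⟨x, hx⟩ := minpoly.mem_range_of_degree_eq_one k z hdeg
  refine ⟨algebraMap k (F1 k) x, ?_⟩
  rw [← hx, IsScalarTower.algebraMap_apply k (F1 k) (Om k)]

theorem om_indep [IsAlgClosed k] (q : ZMod 5 → Om k)
    (hq : ∀ i, q i ^ 7 = algebraMap (F1 k) (Om k) (aF k i)) :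
    LinearIndependent k (fun a : {a : Ev // Std a} => mon q a.1) := by
  have h1 := kummer_indep q (aF k) hq aF_ne root_unity_mem aF_indep
  have h2 := linearIndependent_smul (clus_indep (k := k)) h1
  have hcl : ∀ a : {a : Ev // Std a}, Clus (fun i => a.1 i / 7) := by
    rintro ⟨a, ha⟩ i
    rcases ha i with h | h
    · left; exact Nat.div_eq_of_lt h
    · right; exact Nat.div_eq_of_lt h
  have h3 := h2.comp (fun a : {a : Ev // Std a} =>
    ((⟨fun i => a.1 i / 7, hcl a⟩ : {μ : ZMod 5 → ℕ // Clus μ}),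
      (fun i => (⟨a.1 i % 7, Nat.mod_lt _ (by norm_num)⟩ : Fin 7)))) (by
    intro a b hab
    have e1 : ∀ i, a.1 i / 7 = b.1 i / 7 := fun i =>
      congrFun (congrArg (fun x : {μ : ZMod 5 → ℕ // Clus μ} => x.1) (congrArg Prod.fst hab)) i
    have e2 : ∀ i, a.1 i % 7 = b.1 i % 7 := fun i =>
      congrArg Fin.val (congrFun (congrArg Prod.snd hab) i)
    apply Subtype.ext
    funext i
    have := e1 i
    have := e2 i
    omega)
  convert h3 using 1
  funext a
  show mon q a.1 = (∏ i, aF k i ^ (a.1 i / 7)) • ∏ i, q i ^ (a.1 i % 7)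
  rw [Algebra.smul_def, map_prod, ← Finset.prod_mul_distrib]
  unfold mon
  refine Finset.prod_congr rfl fun i _ => ?_
  rw [map_pow, ← hq i, ← pow_mul, ← pow_add, Nat.div_add_mod]

variable (k)

/-- the roots `q_i` in `Om k` -/
noncomputable def qOm (h7 : (7 : k) ≠ 0) : ZMod 5 → Om k := (exists_roots k h7).choose

theorem qOm_pow (h7 : (7 : k) ≠ 0) (i : ZMod 5) :
    qOm k h7 i ^ 7 = algebraMap (F1 k) (Om k) (aF k i) := (exists_roots k h7).choose_spec i

theorem qOm_rel (h7 : (7 : k) ≠ 0) : Rel (qOm k h7) := by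
  intro i
  rw [qOm_pow, qOm_pow, qOm_pow, ← map_mul, aF_rel, map_add, map_one]

/-- the field -/
def Lk (h7 : (7 : k) ≠ 0) : Type := IntermediateField.adjoin k (Set.range (qOm k h7))

noncomputable instance (h7 : (7 : k) ≠ 0) : Field (Lk k h7) :=
  inferInstanceAs (Field (IntermediateField.adjoin k (Set.range (qOm k h7))))

noncomputable instance (h7 : (7 : k) ≠ 0) : Algebra k (Lk k h7) :=
  inferInstanceAs (Algebra k (IntermediateField.adjoin k (Set.range (qOm k h7))))

/-- the embedding -/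
noncomputable def LkVal (h7 : (7 : k) ≠ 0) : Lk k h7 →ₐ[k] Om k :=
  (IntermediateField.adjoin k (Set.range (qOm k h7))).val

theorem LkVal_inj (h7 : (7 : k) ≠ 0) : Function.Injective (LkVal k h7) := (LkVal k h7).injective

/-- the elements `q_i` -/
noncomputable def qLk (h7 : (7 : k) ≠ 0) (i : ZMod 5) : Lk k h7 :=
  (⟨qOm k h7 i, IntermediateField.subset_adjoin k _ ⟨i, rfl⟩⟩ :
    IntermediateField.adjoin k (Set.range (qOm k h7)))

theorem LkVal_q (h7 : (7 : k) ≠ 0) (i : ZMod 5) : LkVal k h7 (qLk k h7 i) = qOm k h7 i := rfl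

theorem LkVal_mon (h7 : (7 : k) ≠ 0) (a : Ev) : LkVal k h7 (mon (qLk k h7) a) = mon (qOm k h7) a := by
  unfold mon
  rw [map_prod]
  refine Finset.prod_congr rfl fun i _ => ?_
  rw [map_pow, LkVal_q]

/-- every element of `k[q] ⊂ Om` comes from `k[q] ⊂ L` -/
theorem adjoin_lift (h7 : (7 : k) ≠ 0) {x : Om k}
    (hx : x ∈ Algebra.adjoin k (Set.range (qOm k h7))) :
    ∃ y ∈ Algebra.adjoin k (Set.range (qLk k h7)), LkVal k h7 y = x := by
  have e : (Algebra.adjoin k (Set.range (qLk k h7))).map (LkVal k h7) =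
      Algebra.adjoin k (Set.range (qOm k h7)) := by
    rw [AlgHom.map_adjoin]
    congr 1
    rw [← Set.range_comp]
    rfl
  rw [← e] at hx
  obtain ⟨y, hy, hyx⟩ := hx
  exact ⟨y, hy, hyx⟩

/-- the example over `k` -/
noncomputable def Qk [IsAlgClosed k] (h7 : (7 : k) ≠ 0) : QD k (Lk k h7) where
  q := qLk k h7
  rel := by
    intro i
    apply LkVal_inj
    rw [map_mul, map_pow, map_pow, map_add, map_one, map_pow, LkVal_q, LkVal_q, LkVal_q]
    exact qOm_rel k h7 i
  indep := by
    have h := om_indep (qOm k h7) (qOm_pow k h7)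
    refine LinearIndependent.of_comp (LkVal k h7).toLinearMap ?_
    convert h using 1
    · funext a
      exact LkVal_mon k h7 a.1
    all_goals rfl
  frac := by
    intro l
    have hl : LkVal k h7 l ∈ IntermediateField.adjoin k (Set.range (qOm k h7)) := l.2
    rw [IntermediateField.mem_adjoin_iff_div] at hl
    obtain ⟨r, hr, s, hs, e⟩ := hl
    obtain ⟨f, hf, rfl⟩ := adjoin_lift k h7 hr
    obtain ⟨g, hg, rfl⟩ := adjoin_lift k h7 hs
    by_cases hg0 : g = 0
    · refine ⟨0, Subalgebra.zero_mem _, 1, Subalgebra.one_mem _, one_ne_zero, ?_⟩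
      rw [zero_div]
      apply LkVal_inj
      rw [e, hg0, map_zero, div_zero]
    · refine ⟨f, hf, g, hg, hg0, ?_⟩
      apply LkVal_inj
      rw [e, map_div₀]

end field

end Ex

end R169
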