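import Crest.Agent.R169.ExCountD

/-!
# Row 169, module EX: the integral form (helper71).
-/

set_option autoImplicit false

namespace R169

namespace Ex

/-- the element `1` of level one -/
def oneS : SE 1 := ⟨0, fun _ => Or.inl (by norm_num), fun i => by rw [lam_zero]; norm_num⟩

/-- integer structure constants -/
noncomputable def mS (i j : ℤ) (a : SE i) (b : SE j) (c : SE (i + j)) : ℤ := red (a.1 + b.1) c.1

variable {k L : Type} [Field k] [Field L] [Algebra k L]

theorem QD.bas_one (Q : QD k L) : (Q.bas 1 oneS : L) = 1 := by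
  rw [Q.bas_apply]
  exact mon_zero _

theorem QD.bas_mul (Q : QD k L) (i j : ℤ) (a : SE i) (b : SE j) :
    (Q.bas i a : L) * (Q.bas j b : L) =
      ∑ c, ((mS i j a b c : ℤ) : k) • (Q.bas (i + j) c : L) := by
  classical
  rw [Q.bas_apply, Q.bas_apply, ← mon_add, red_eval (a.1 + b.1) Q.q Q.rel, Finsupp.sum]
  have hsub : (red (a.1 + b.1)).support ⊆
      (Finset.univ : Finset (SE (i + j))).map ⟨fun c => c.1, Subtype.val_injective⟩ := by
    intro c hc
    rw [Finset.mem_map]
    refine ⟨⟨c, red_std hc, fun l => (red_lam hc l).trans ?_⟩, Finset.mem_univ _, rfl⟩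
    rw [lam_add]
    exact add_le_add (a.2.2 l) (b.2.2 l)
  rw [Finset.sum_subset hsub, Finset.sum_map]
  · refine Finset.sum_congr rfl fun c _ => ?_
    rw [Q.bas_apply]
    show ((red (a.1 + b.1) c.1 : ℤ) : L) * mon Q.q c.1 = ((red (a.1 + b.1) c.1 : ℤ) : k) • mon Q.q c.1
    rw [Algebra.smul_def, map_intCast]
  · intro c _ hc
    rw [Finsupp.notMem_support_iff.1 hc]
    simp

/-- the integral form of the example -/
noncomputable def QD.iform (Q : QD k L) : IForm SE oneS mS Q.D where
  bas n := Q.bas n
  one_eq := Q.bas_one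
  mul_eq i j a b := Q.bas_mul i j a b

end Ex

end R169
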