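import Crest.Agent.R169.ExRed

/-!
# Row 169, module EX: straightening and the graded datum `Q.D` (helper71)
-/

set_option autoImplicit false

namespace R169

namespace Ex

/-- straightening with integer coefficients, valid in every commutative ring -/
theorem straighten (a : Ev) : ∃ c : Ev →₀ ℤ, (∀ b ∈ c.support, Std b ∧ ∀ i, lam b i ≤ lam a i) ∧
    ∀ (S : Type) [CommRing S] (q : ZMod 5 → S), Rel q → mon q a = c.sum (fun b x => (x : S) * mon q b) :=
  exists_red _ a rfl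

variable {k L : Type} [Field k] [Field L] [Algebra k L]

theorem QD.mon_mem (Q : QD k L) {n : ℤ} {a : Ev} (h : ∀ i, lam a i ≤ n) : mon Q.q a ∈ Q.Bn n :=
  Submodule.subset_span ⟨a, h, rfl⟩

theorem QD.Bn_std (Q : QD k L) (n : ℤ) : Q.Bn n =
    Submodule.span k {l | ∃ a : Ev, Std a ∧ (∀ i, lam a i ≤ n) ∧ l = mon Q.q a} := by
  apply le_antisymm
  · refine Submodule.span_le.2 ?_
    rintro l ⟨a, ha, rfl⟩
    obtain ⟨c, hc, he⟩ := straighten a
    rw [he L Q.q Q.rel]
    refine Submodule.sum_mem _ fun b hb => ?_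
    have e : ((c b : ℤ) : L) * mon Q.q b = ((c b : ℤ) : k) • mon Q.q b := by
      rw [Algebra.smul_def, map_intCast]
    simp only
    rw [e]
    exact Submodule.smul_mem _ _ (Submodule.subset_span
      ⟨b, (hc b hb).1, fun i => ((hc b hb).2 i).trans (ha i), rfl⟩)
  · refine Submodule.span_mono ?_
    rintro l ⟨a, _, ha, rfl⟩
    exact ⟨a, ha, rfl⟩

theorem sum_le_of_lam {a : Ev} {n : ℤ} (h : ∀ i, lam a i ≤ n) : (∑ i, (a i : ℤ)) ≤ 5 * n := by
  rw [← sum_lam, sum5]
  have := h 0; have := h 1; have := h 2; have := h 3; have := h 4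
  omega

theorem le_of_lam {a : Ev} {n : ℤ} (h : ∀ i, lam a i ≤ n) (i : ZMod 5) : (a i : ℤ) ≤ 5 * n := by
  have h1 := sum_le_of_lam h
  rw [sum5] at h1
  revert i
  rw [forall5]
  refine ⟨?_, ?_, ?_, ?_, ?_⟩ <;> omega

theorem QD.neg (Q : QD k L) (n : ℤ) (h : n < 0) : Q.Bn n = ⊥ := by
  refine Submodule.span_eq_bot.2 ?_
  rintro l ⟨a, ha, rfl⟩
  exfalso
  have h1 := sum_le_of_lam ha
  have h2 : 0 ≤ ∑ i, (a i : ℤ) := Finset.sum_nonneg fun i _ => Int.natCast_nonneg _
  omega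

theorem QD.zero (Q : QD k L) : Q.Bn 0 = Submodule.span k {1} := by
  apply le_antisymm
  · refine Submodule.span_le.2 ?_
    rintro l ⟨a, ha, rfl⟩
    have h0 : a = 0 := by
      funext i
      have := le_of_lam ha i
      simp only [Pi.zero_apply]
      omega
    subst h0
    rw [mon_zero]
    exact Submodule.mem_span_singleton_self _
  · refine Submodule.span_le.2 ?_
    intro l hl
    rw [Set.mem_singleton_iff] at hl
    subst hl
    rw [← mon_zero Q.q]
    exact Q.mon_mem fun i => by rw [lam_zero]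

theorem QD.one_mem (Q : QD k L) : (1 : L) ∈ Q.Bn 1 := by
  rw [← mon_zero Q.q]
  exact Q.mon_mem fun i => by rw [lam_zero]; norm_num

theorem QD.mul_mem (Q : QD k L) {i j : ℤ} {a b : L} (ha : a ∈ Q.Bn i) (hb : b ∈ Q.Bn j) :
    a * b ∈ Q.Bn (i + j) := by
  have h1 : Q.Bn i * Q.Bn j ≤ Q.Bn (i + j) := by
    unfold QD.Bn
    rw [Submodule.span_mul_span]
    refine Submodule.span_mono ?_
    rintro l ⟨x, ⟨a, ha, rfl⟩, y, ⟨b, hb, rfl⟩, rfl⟩
    exact ⟨a + b, fun i => by rw [lam_add]; exact add_le_add (ha i) (hb i), (mon_add _ _ _).symm⟩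
  exact h1 (Submodule.mul_mem_mul ha hb)

theorem finite_exp (n : ℤ) : {a : Ev | ∀ i, lam a i ≤ n}.Finite := by
  refine Set.Finite.subset (Set.finite_Iic (fun _ : ZMod 5 => (5 * n).toNat)) ?_
  intro a ha i
  have := le_of_lam ha i
  show a i ≤ (5 * n).toNat
  omega

theorem QD.fin (Q : QD k L) (n : ℤ) : FiniteDimensional k (Q.Bn n) := by
  unfold QD.Bn
  apply FiniteDimensional.span_of_finite
  refine Set.Finite.subset ((finite_exp n).image fun a => mon Q.q a) ?_
  rintro l ⟨a, ha, rfl⟩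
  exact ⟨a, ha, rfl⟩

theorem QD.mono (Q : QD k L) {m n : ℤ} (h : m ≤ n) : Q.Bn m ≤ Q.Bn n := by
  refine Submodule.span_mono ?_
  rintro l ⟨a, ha, rfl⟩
  exact ⟨a, fun i => (ha i).trans h, rfl⟩

/-- `q_i ∈ B_1` -/
theorem QD.q_mem (Q : QD k L) (i : ZMod 5) : Q.q i ∈ Q.Bn 1 := by
  have h : ∀ i j : ZMod 5, lam (Pi.single i 1) j ≤ 1 := by decide
  have := Q.mon_mem (a := Pi.single i 1) (h i)
  rwa [mon_single, pow_one] at this

/-- `k[q] = ⋃ B_n` -/
theorem QD.mem_BU (Q : QD k L) (l : L) : l ∈ Q.BU ↔ ∃ n : ℕ, l ∈ Q.Bn n := by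
  constructor
  · intro h
    unfold QD.BU at h
    induction h using Algebra.adjoin_induction with
    | mem x hx =>
      obtain ⟨i, rfl⟩ := hx
      exact ⟨1, Q.q_mem i⟩
    | algebraMap r =>
      refine ⟨0, ?_⟩
      rw [Nat.cast_zero, Q.zero, Algebra.algebraMap_eq_smul_one]
      exact Submodule.smul_mem _ _ (Submodule.mem_span_singleton_self _)
    | add x y _ _ hx hy =>
      obtain ⟨m, hm⟩ := hx
      obtain ⟨n, hn⟩ := hy
      refine ⟨max m n, Submodule.add_mem _ (Q.mono ?_ hm) (Q.mono ?_ hn)⟩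
      · exact_mod_cast le_max_left m n
      · exact_mod_cast le_max_right m n
    | mul x y _ _ hx hy =>
      obtain ⟨m, hm⟩ := hx
      obtain ⟨n, hn⟩ := hy
      refine ⟨m + n, ?_⟩
      rw [Nat.cast_add]
      exact Q.mul_mem hm hn
  · rintro ⟨n, h⟩
    have h1 : Q.Bn n ≤ Subalgebra.toSubmodule Q.BU := by
      refine Submodule.span_le.2 ?_
      rintro l ⟨a, _, rfl⟩
      show mon Q.q a ∈ Q.BU
      unfold mon
      exact Subalgebra.prod_mem _ fun i _ =>
        Subalgebra.pow_mem _ (Algebra.subset_adjoin (Set.mem_range_self i)) _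
    exact h1 h

/-- the graded ring datum of the example -/
noncomputable def QD.D (Q : QD k L) : GD k L where
  B := Q.Bn
  neg := Q.neg
  zero := Q.zero
  one_mem := Q.one_mem
  mul_mem := Q.mul_mem
  fin := Q.fin
  frac := by
    intro l
    obtain ⟨f, hf, g, hg, h0, rfl⟩ := Q.frac l
    obtain ⟨m, hm⟩ := (Q.mem_BU f).1 hf
    obtain ⟨n, hn⟩ := (Q.mem_BU g).1 hg
    exact ⟨max m n, f, Q.mono (le_max_left _ _) hm, g, Q.mono (le_max_right _ _) hn, h0, rfl⟩

end Ex

end R169
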