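import Crest.Agent.R169.ExOU1
import Crest.Agent.R169.ExAlpha

/-!
# Row 169, module EX, piece EX_KUM (1 h): Kummer decomposition and averaging

`alpha_F1`: `α_w a_i = a_i`, so `α_w` fixes `F1`.  `kum_exists`: the `F1`-span `S` of the `q^c`, `c ∈ [0,7)^5`, is a subring (`q_i^7 = a_i`), finite
dimensional over `F1`, hence a field, and contains the `q_i`: `S = L`.  Averaging: `∑_w ∏ w_i^{c'_i - c_i} = 7^5 δ_{cc'}`
(`k` alg. closed, `7 ≠ 0`: seven 7th roots of unity) gives `kum`.  `kum_OU`: for `l ∈ k[q]` one can take `f c ∈ O(U)`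
(`q^a = a^{a div 7} q^{a mod 7}`), and the `f c` are unique by the averaging formula.  `inv_OU`: fixed elements of `k[q]` lie in `O(U)`.
-/

set_option autoImplicit false

namespace R169

namespace Ex

variable {k L : Type} [Field k] [Field L] [Algebra k L]

/-- exponent `c ∈ [0,7)^5` as `Ev` -/
def cev (c : ZMod 5 → Fin 7) : Ev := fun i => (c i : ℕ)

/-- the projection to the `c`-component -/
noncomputable def QD.proj (Q : QD k L) (c : ZMod 5 → Fin 7) (l : L) : L :=
  ((7 : k) ^ 5)⁻¹ • ∑ w : ZMod 5 → rootsOfUnity 7 k, (∏ i, ((((w i)⁻¹ : rootsOfUnity 7 k) : kˣ) : k) ^ (c i : ℕ)) • Q.alpha w l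

private theorem kum_w7 (w : rootsOfUnity 7 k) : ((w : kˣ) : k) ^ 7 = 1 := by
  have h := w.2
  rw [mem_rootsOfUnity] at h
  rw [← Units.val_pow_eq_pow_val, h, Units.val_one]

theorem QD.alpha_F1 (Q : QD k L) (w : ZMod 5 → rootsOfUnity 7 k) (f : L) (hf : f ∈ Q.F1) : Q.alpha w f = f := by
  unfold QD.F1 at hf
  induction hf using IntermediateField.adjoin_induction with
  | mem x hx =>
    obtain ⟨i, rfl⟩ := hx
    show Q.alpha w (Q.q i ^ 7) = Q.q i ^ 7
    rw [map_pow, Q.alpha_q, smul_pow, kum_w7, one_smul]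
  | algebraMap x => exact (Q.alpha w).commutes x
  | add x y _ _ hx hy => rw [map_add, hx, hy]
  | inv x _ hx => rw [map_inv₀, hx]
  | mul x y _ _ hx hy => rw [map_mul, hx, hy]

/-! decompositions with coefficients in a subring -/

/-- residues mod 7 -/
private def kum_rc (a : Ev) : ZMod 5 → Fin 7 := fun i => ⟨a i % 7, Nat.mod_lt _ (by norm_num)⟩

private theorem kum_mon (Q : QD k L) (a : Ev) :
    mon Q.q a = (∏ i, Q.av i ^ (a i / 7)) * mon Q.q (cev (kum_rc a)) := by
  unfold mon cev kum_rc QD.av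
  rw [← Finset.prod_mul_distrib]
  refine Finset.prod_congr rfl fun i _ => ?_
  rw [← pow_mul, ← pow_add]
  congr 1
  exact (Nat.div_add_mod (a i) 7).symm

/-- has a decomposition with coefficients in `S` -/
private def KP (Q : QD k L) (S : Subring L) (l : L) : Prop :=
  ∃ f : (ZMod 5 → Fin 7) → L, (∀ c, f c ∈ S) ∧ l = ∑ c, f c * mon Q.q (cev c)

private theorem KP.add {Q : QD k L} {S : Subring L} {l l' : L} (h : KP Q S l) (h' : KP Q S l') :
    KP Q S (l + l') := by
  obtain ⟨f, hf, rfl⟩ := h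
  obtain ⟨g, hg, rfl⟩ := h'
  refine ⟨fun c => f c + g c, fun c => S.add_mem (hf c) (hg c), ?_⟩
  simp only [add_mul, Finset.sum_add_distrib]

private theorem KP.zero {Q : QD k L} {S : Subring L} : KP Q S 0 :=
  ⟨fun _ => 0, fun _ => S.zero_mem, by simp⟩

private theorem KP.mul {Q : QD k L} {S : Subring L} {s l : L} (hs : s ∈ S) (h : KP Q S l) :
    KP Q S (s * l) := by
  obtain ⟨f, hf, rfl⟩ := h
  refine ⟨fun c => s * f c, fun c => S.mul_mem hs (hf c), ?_⟩
  rw [Finset.mul_sum]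
  exact Finset.sum_congr rfl fun c _ => (mul_assoc _ _ _).symm

private theorem KP.mon {Q : QD k L} {S : Subring L} (hS : ∀ i, Q.av i ∈ S) (a : Ev) :
    KP Q S (mon Q.q a) := by
  classical
  refine ⟨fun c => if c = kum_rc a then ∏ i, Q.av i ^ (a i / 7) else 0, ?_, ?_⟩
  · intro c
    dsimp only
    split_ifs
    · exact S.prod_mem fun i _ => S.pow_mem (hS i) _
    · exact S.zero_mem
  · rw [Finset.sum_eq_single (kum_rc a)]
    · dsimp only
      rw [if_pos rfl]
      exact kum_mon Q a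
    · intro c _ hc
      dsimp only
      rw [if_neg hc, zero_mul]
    · intro h
      exact absurd (Finset.mem_univ _) h

private theorem kum_closure (Q : QD k L) {x : L} (hx : x ∈ Submonoid.closure (Set.range Q.q)) :
    ∃ a : Ev, x = mon Q.q a := by
  classical
  induction hx using Submonoid.closure_induction with
  | mem x hx =>
    obtain ⟨i, rfl⟩ := hx
    refine ⟨Pi.single i 1, ?_⟩
    unfold mon
    rw [Finset.prod_eq_single i]
    · simp
    · intro j _ hj
      simp [hj]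
    · simp
  | one => exact ⟨0, by simp [mon]⟩
  | mul x y _ _ hx hy =>
    obtain ⟨a, rfl⟩ := hx
    obtain ⟨b, rfl⟩ := hy
    exact ⟨a + b, by simp [mon, pow_add, Finset.prod_mul_distrib]⟩

theorem QD.kum_exists (Q : QD k L) (l : L) : ∃ f : (ZMod 5 → Fin 7) → L, (∀ c, f c ∈ Q.F1) ∧
    l = ∑ c, f c * mon Q.q (cev c) := by
  have hav : ∀ i, Q.av i ∈ Q.F1 := fun i => IntermediateField.subset_adjoin _ _ ⟨i, rfl⟩
  set AA : Subalgebra Q.F1 L := Algebra.adjoin Q.F1 (Set.range Q.q) with hAA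
  have hint : ∀ i, IsIntegral Q.F1 (Q.q i) := by
    intro i
    refine IsIntegral.of_pow (n := 7) (by norm_num) ?_
    have : Q.q i ^ 7 = algebraMap Q.F1 L ⟨Q.av i, hav i⟩ := rfl
    rw [this]
    exact isIntegral_algebraMap
  have halg : ∀ x ∈ AA, IsIntegral Q.F1 x := by
    have h : AA ≤ integralClosure Q.F1 L := by
      rw [hAA]
      refine Algebra.adjoin_le ?_
      rintro _ ⟨i, rfl⟩
      exact hint i
    exact fun x hx => h hx
  have hqA : ∀ i, Q.q i ∈ AA := fun i => Algebra.subset_adjoin (Set.mem_range_self i)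
  have hBU : Q.BU ≤ AA.restrictScalars k := by
    unfold QD.BU
    refine Algebra.adjoin_le ?_
    rintro _ ⟨i, rfl⟩
    exact (Subalgebra.mem_restrictScalars k (U := AA)).2 (hqA i)
  have hl : l ∈ AA := by
    obtain ⟨f, hf, g, hg, -, rfl⟩ := Q.frac l
    have hf' : f ∈ AA := (Subalgebra.mem_restrictScalars k (U := AA)).1 (hBU hf)
    have hg' : g ∈ AA := (Subalgebra.mem_restrictScalars k (U := AA)).1 (hBU hg)
    rw [div_eq_mul_inv]
    refine AA.mul_mem hf' ?_
    exact (halg g hg').inv_mem hg'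
  have hl2 : l ∈ Submodule.span Q.F1 (Submonoid.closure (Set.range Q.q) : Set L) := by
    rw [← Algebra.adjoin_eq_span]
    exact hl
  have h : KP Q Q.F1.toSubfield.toSubring l := by
    clear hl
    induction hl2 using Submodule.span_induction with
    | mem x hx =>
      obtain ⟨a, rfl⟩ := kum_closure Q hx
      exact KP.mon hav a
    | zero => exact KP.zero
    | add x y _ _ hx hy => exact hx.add hy
    | smul r x _ hx => exact KP.mul r.2 hx
  exact h

theorem QD.kum_BU (Q : QD k L) (l : L) (hl : l ∈ Q.BU) : ∃ f : (ZMod 5 → Fin 7) → L, (∀ c, f c ∈ Q.OU) ∧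
    l = ∑ c, f c * mon Q.q (cev c) := by
  have hl2 : l ∈ Submodule.span k (Submonoid.closure (Set.range Q.q) : Set L) := by
    rw [← Algebra.adjoin_eq_span]
    exact hl
  have h : KP Q Q.OU.toSubring l := by
    clear hl
    induction hl2 using Submodule.span_induction with
    | mem x hx =>
      obtain ⟨a, rfl⟩ := kum_closure Q hx
      exact KP.mon (fun i => Q.av_mem i) a
    | zero => exact KP.zero
    | add x y _ _ hx hy => exact hx.add hy
    | smul r x _ hx =>
      rw [Algebra.smul_def]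
      exact KP.mul (Q.OU.algebraMap_mem r) hx
  exact h

/-! averaging -/

private theorem kum_card [IsAlgClosed k] (h7 : (7 : k) ≠ 0) : Fintype.card (rootsOfUnity 7 k) = 7 := by
  have : NeZero ((7 : ℕ) : k) := ⟨by exact_mod_cast h7⟩
  obtain ⟨ζ, hζ⟩ := HasEnoughRootsOfUnity.exists_primitiveRoot k 7
  rw [← Nat.card_eq_fintype_card]
  exact hζ.card_rootsOfUnity

private theorem kum_char_sum [IsAlgClosed k] (h7 : (7 : k) ≠ 0) (a b : Fin 7) :
    ∑ ζ : rootsOfUnity 7 k, (((ζ⁻¹ : rootsOfUnity 7 k) : kˣ) : k) ^ (a : ℕ) *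
      ((ζ : kˣ) : k) ^ (b : ℕ) = if b = a then 7 else 0 := by
  split_ifs with hab
  · subst hab
    have h1 : ∀ ζ : rootsOfUnity 7 k, (((ζ⁻¹ : rootsOfUnity 7 k) : kˣ) : k) ^ (b : ℕ) *
      ((ζ : kˣ) : k) ^ (b : ℕ) = 1 := by
      intro ζ
      rw [← mul_pow, ← Units.val_mul, ← Subgroup.coe_mul, inv_mul_cancel]
      simp
    simp only [h1, Finset.sum_const, Finset.card_univ, kum_card h7]
    simp
  · have : NeZero ((7 : ℕ) : k) := ⟨by exact_mod_cast h7⟩
    obtain ⟨ζ₀, hζ⟩ := HasEnoughRootsOfUnity.exists_primitiveRoot k 7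
    let f : rootsOfUnity 7 k →* k :=
      { toFun := fun ζ => (((ζ⁻¹ : rootsOfUnity 7 k) : kˣ) : k) ^ (a : ℕ) * ((ζ : kˣ) : k) ^ (b : ℕ)
        map_one' := by simp
        map_mul' := by
          intro x y
          rw [mul_inv, Subgroup.coe_mul, Subgroup.coe_mul, Units.val_mul, Units.val_mul, mul_pow,
            mul_pow]
          ring }
    refine sum_hom_units_eq_zero f ?_
    intro hf
    apply hab
    have h1 := DFunLike.congr_fun hf (rootsOfUnity.mkOfPowEq ζ₀ hζ.pow_eq_one)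
    have h2 : ζ₀ ^ (b : ℕ) = ζ₀ ^ (a : ℕ) := by
      have hz : ζ₀ ≠ 0 := hζ.ne_zero (by norm_num)
      have h3 : (ζ₀⁻¹) ^ (a : ℕ) * ζ₀ ^ (b : ℕ) = 1 := by
        simpa [f, rootsOfUnity.coe_mkOfPowEq] using h1
      rw [inv_pow] at h3
      field_simp at h3
      exact h3
    exact Fin.ext (hζ.pow_inj b.2 a.2 h2)

private theorem kum_alpha_mon (Q : QD k L) (w : ZMod 5 → rootsOfUnity 7 k) (a : Ev) :
    Q.alpha w (mon Q.q a) = (∏ i, ((w i : kˣ) : k) ^ a i) • mon Q.q a := by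
  unfold mon
  rw [map_prod, Algebra.smul_def, map_prod, ← Finset.prod_mul_distrib]
  refine Finset.prod_congr rfl fun i _ => ?_
  rw [map_pow, Q.alpha_q, smul_pow, Algebra.smul_def]

theorem QD.kum_proj (Q : QD k L) [IsAlgClosed k] (h7 : (7 : k) ≠ 0) (f : (ZMod 5 → Fin 7) → L)
    (hf : ∀ c, f c ∈ Q.F1) (c : ZMod 5 → Fin 7) :
    Q.proj c (∑ c, f c * mon Q.q (cev c)) = f c * mon Q.q (cev c) := by
  classical
  unfold QD.proj
  have h1 : ∀ w : ZMod 5 → rootsOfUnity 7 k, Q.alpha w (∑ c, f c * mon Q.q (cev c)) =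
      ∑ c', (∏ i, ((w i : kˣ) : k) ^ (c' i : ℕ)) • (f c' * mon Q.q (cev c')) := by
    intro w
    rw [map_sum]
    refine Finset.sum_congr rfl fun c' _ => ?_
    rw [map_mul, Q.alpha_F1 w _ (hf c'), kum_alpha_mon, mul_smul_comm]
    rfl
  have h2 : ∀ c' : ZMod 5 → Fin 7, (∑ w : ZMod 5 → rootsOfUnity 7 k,
      (∏ i, ((((w i)⁻¹ : rootsOfUnity 7 k) : kˣ) : k) ^ (c i : ℕ)) *
        ∏ i, ((w i : kˣ) : k) ^ (c' i : ℕ)) = if c' = c then (7 : k) ^ 5 else 0 := by
    intro c'
    have h3 : ∏ i : ZMod 5, ∑ ζ : rootsOfUnity 7 k, (((ζ⁻¹ : rootsOfUnity 7 k) : kˣ) : k) ^ (c i : ℕ) *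
        ((ζ : kˣ) : k) ^ (c' i : ℕ) = if c' = c then (7 : k) ^ 5 else 0 := by
      simp only [kum_char_sum h7]
      split_ifs with hc
      · subst hc
        simp [ZMod.card]
      · obtain ⟨i, hi⟩ := Function.ne_iff.1 hc
        exact Finset.prod_eq_zero (Finset.mem_univ i) (if_neg hi)
    rw [← h3, Finset.prod_univ_sum, Fintype.piFinset_univ]
    refine Finset.sum_congr rfl fun w _ => ?_
    rw [← Finset.prod_mul_distrib]
  have h4 : ∑ w : ZMod 5 → rootsOfUnity 7 k,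
      (∏ i, ((((w i)⁻¹ : rootsOfUnity 7 k) : kˣ) : k) ^ (c i : ℕ)) •
        Q.alpha w (∑ c, f c * mon Q.q (cev c)) = (7 : k) ^ 5 • (f c * mon Q.q (cev c)) := by
    simp only [h1, Finset.smul_sum, smul_smul]
    rw [Finset.sum_comm]
    simp only [← Finset.sum_smul, h2, ite_smul, zero_smul, Finset.sum_ite_eq', Finset.mem_univ,
      if_true]
  rw [h4, smul_smul, inv_mul_cancel₀ (pow_ne_zero 5 h7), one_smul]

theorem QD.OU_le_F1 (Q : QD k L) {l : L} (h : l ∈ Q.OU) : l ∈ Q.F1 :=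
  IntermediateField.algebra_adjoin_le_adjoin k _ h

theorem QD.inv_OU (Q : QD k L) [IsAlgClosed k] (h7 : (7 : k) ≠ 0) (l : L) (hl : l ∈ Q.BU)
    (h : ∀ w, Q.alpha w l = l) : l ∈ Q.OU := by
  obtain ⟨f, hf, hfl⟩ := Q.kum_BU l hl
  have h1 := Q.kum_proj h7 f (fun c => Q.OU_le_F1 (hf c)) 0
  rw [← hfl] at h1
  have h2 : Q.proj 0 l = l := by
    unfold QD.proj
    simp only [h, Pi.zero_apply, Fin.coe_ofNat_eq_mod, Nat.zero_mod, pow_zero, Finset.prod_const_one,
      one_smul, Finset.sum_const, Finset.card_univ]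
    have h3 : Fintype.card (ZMod 5 → rootsOfUnity 7 k) = 7 ^ 5 := by
      rw [Fintype.card_fun, kum_card h7, ZMod.card]
    rw [h3, ← Nat.cast_smul_eq_nsmul k, smul_smul, Nat.cast_pow, Nat.cast_ofNat,
      inv_mul_cancel₀ (pow_ne_zero 5 h7), one_smul]
  rw [h2] at h1
  have h4 : mon Q.q (cev 0) = 1 := by simp [mon, cev]
  rw [h4, mul_one] at h1
  rw [h1]
  exact hf 0

end Ex

end R169
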