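import Crest.Agent.R169.ExKum

/-!
# Row 169, module EX, piece EX_STD1 (0.6 h): standard monomials of `O(U)`

`Std1 e`: cluster exponents.  `OU_std`: `f ∈ O(U)` is a combination of the monomials `a^e`; straightening
`a_{i-1} a_{i+1} = 1 + a_i` lowers the total degree, so every `a^e` is a combination of `a^{e'}` with `Std1 e'`
(induction on the total degree).
-/

set_option autoImplicit false

namespace R169

namespace Ex

variable {k L : Type} [Field k] [Field L] [Algebra k L]

/-- cluster exponents -/
def Std1 (e : Ev) : Prop := ∀ i, e (i - 1) = 0 ∨ e (i + 1) = 0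

private theorem mon_add1 {S : Type} [CommSemiring S] (q : ZMod 5 → S) (a b : Ev) :
    mon q (a + b) = mon q a * mon q b := by
  simp only [mon, Pi.add_apply, pow_add, Finset.prod_mul_distrib]

private theorem mon_single1 {S : Type} [CommSemiring S] (q : ZMod 5 → S) (i : ZMod 5) :
    mon q (Pi.single i 1 : Ev) = q i := by
  unfold mon
  rw [Finset.prod_eq_single i]
  · simp
  · intro j _ hj
    simp [Pi.single_apply, hj]
  · intro h
    exact absurd (Finset.mem_univ i) h

private theorem straight (Q : QD k L) (n : ℕ) : ∀ e : Ev, ∑ i, e i = n →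
    mon Q.av e ∈ Submodule.span k (mon Q.av '' {e | Std1 e}) := by
  induction n using Nat.strong_induction_on with
  | _ n ih =>
    intro e he
    by_cases hs : Std1 e
    · exact Submodule.subset_span ⟨e, hs, rfl⟩
    · unfold Std1 at hs
      push Not at hs
      obtain ⟨i, h1, h2⟩ := hs
      have hne : i - 1 ≠ i + 1 := by
        intro h
        have h3 : (2 : ZMod 5) = 0 := by
          have : i + 1 - (i - 1) = 0 := by rw [h]; ring
          calc (2 : ZMod 5) = i + 1 - (i - 1) := by ring
            _ = 0 := this
        exact absurd h3 (by decide)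
      have hle : (Pi.single (i - 1) 1 + Pi.single (i + 1) 1 : Ev) ≤ e := by
        intro j
        simp only [Pi.add_apply, Pi.single_apply]
        by_cases h3 : j = i - 1
        · subst h3
          simp [hne]; omega
        · by_cases h4 : j = i + 1
          · subst h4
            simp [h3]; omega
          · simp [h3, h4]
      set e' : Ev := e - (Pi.single (i - 1) 1 + Pi.single (i + 1) 1) with he'
      have hee : e' + (Pi.single (i - 1) 1 + Pi.single (i + 1) 1) = e := by
        rw [he']
        exact tsub_add_cancel_of_le hle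
      have hsum : ∑ j, e' j + 2 = n := by
        rw [← he, ← hee]
        simp only [Pi.add_apply, Finset.sum_add_distrib]
        simp
      have hmon : mon Q.av e = mon Q.av e' + mon Q.av (e' + Pi.single i 1) := by
        rw [← hee, mon_add1, mon_add1, mon_add1, mon_single1, mon_single1, mon_single1, Q.av_rel i]
        ring
      rw [hmon]
      refine Submodule.add_mem _ (ih (∑ j, e' j) (by omega) e' rfl)
        (ih (∑ j, (e' + Pi.single i 1 : Ev) j) ?_ _ rfl)
      simp only [Pi.add_apply, Finset.sum_add_distrib]
      simp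
      omega

theorem QD.OU_std (Q : QD k L) [IsAlgClosed k] (h7 : (7 : k) ≠ 0) (f : L) (hf : f ∈ Q.OU) :
    ∃ γ : Ev →₀ k, (∀ e ∈ γ.support, Std1 e) ∧ f = γ.sum (fun e x => x • mon Q.av e) := by
  have h1 : f ∈ Submodule.span k (mon Q.av '' {e | Std1 e}) := by
    have h2 : f ∈ Subalgebra.toSubmodule Q.OU := hf
    unfold QD.OU at h2
    rw [Algebra.adjoin_eq_span] at h2
    refine Submodule.span_le.2 ?_ h2
    intro x hx
    have h3 : ∃ e : Ev, x = mon Q.av e := by
      induction hx using Submonoid.closure_induction with
      | mem x hx =>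
        obtain ⟨i, rfl⟩ := hx
        exact ⟨Pi.single i 1, (mon_single1 _ _).symm⟩
      | one => exact ⟨0, by simp [mon]⟩
      | mul x y _ _ hx hy =>
        obtain ⟨a, rfl⟩ := hx
        obtain ⟨b, rfl⟩ := hy
        exact ⟨a + b, (mon_add1 _ _ _).symm⟩
    obtain ⟨e, rfl⟩ := h3
    exact straight Q _ e rfl
  rw [Finsupp.mem_span_image_iff_linearCombination] at h1
  obtain ⟨γ, hγ, hf'⟩ := h1
  refine ⟨γ, fun e he => (Finsupp.mem_supported k γ).1 hγ he, ?_⟩
  rw [← hf', Finsupp.linearCombination_apply]

end Ex

end R169
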