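import Crest.Agent.R169.ExOrd
import Crest.Agent.R169.ExStd1

/-!
# Row 169, module EX, piece EX_LEAD (1 h): leading forms

`f = ∑ γ_e a^e` (`Std1 e`).  `a_3^{λ_0(e)} a^e = (a_0a_3)^{e_0}(a_1a_3)^{e_1}a_2^{e_2}a_4^{e_4}` is a polynomial in `X = a_3` over `Kz` with value
`(1+z)^{e_0+e_1} z^{e_2-e_4-e_0}` (`z = a_2`) at `X = 0`.  Let `M = max λ_0(e)` over the support; the value of `X^M f` at `0` is
`∑_{λ_0(e) = M} γ_e (1+z)^{e_0+e_1} z^{e_2-e_4-e_0}`; for `Std1 e` with `λ_0(e) = M` we have `e_0+e_1 = max(M,0)` and the exponents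
`e_2-e_4-e_0` are distinct (`M ≥ 0`: `e_3 = 0`; `e_2 > 0 → e_0 = e_4 = 0`; `e_4 > 0 → e_1 = e_2 = 0, e_0 = M`; else `-e_0 ∈ [-M,0]`;
`M < 0`: `e_0 = e_1 = 0, e_3 = -M`), so the sum is `≠ 0` (`z` transcendental over `k`).
-/

set_option autoImplicit false

namespace R169

namespace Ex

variable {k L : Type} [Field k] [Field L] [Algebra k L]

private theorem std1_five {e : Ev} (h : Std1 e) : (e 4 = 0 ∨ e 1 = 0) ∧ (e 0 = 0 ∨ e 2 = 0) ∧
    (e 1 = 0 ∨ e 3 = 0) ∧ (e 2 = 0 ∨ e 4 = 0) ∧ (e 3 = 0 ∨ e 0 = 0) :=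
  ⟨h 0, h 1, h 2, h 3, h 4⟩

theorem std1_inj (e e' : Ev) (h : Std1 e) (h' : Std1 e') (h0 : lam e 0 = lam e' 0)
    (h1 : (e 2 : ℤ) - e 4 - e 0 = (e' 2 : ℤ) - e' 4 - e' 0) : e = e' := by
  obtain ⟨a1, a2, a3, a4, a5⟩ := std1_five h
  obtain ⟨b1, b2, b3, b4, b5⟩ := std1_five h'
  rw [lam0, lam0] at h0
  have key : e 0 = e' 0 ∧ e 1 = e' 1 ∧ e 2 = e' 2 ∧ e 3 = e' 3 ∧ e 4 = e' 4 := by
    generalize e 0 = x0 at *
    generalize e 1 = x1 at *
    generalize e 2 = x2 at *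
    generalize e 3 = x3 at *
    generalize e 4 = x4 at *
    generalize e' 0 = y0 at *
    generalize e' 1 = y1 at *
    generalize e' 2 = y2 at *
    generalize e' 3 = y3 at *
    generalize e' 4 = y4 at *
    omega
  funext i
  revert i
  rw [forall5]
  exact key

theorem std1_sum (e e' : Ev) (h : Std1 e) (h' : Std1 e') (h0 : lam e 0 = lam e' 0) : e 0 + e 1 = e' 0 + e' 1 := by
  obtain ⟨a1, a2, a3, a4, a5⟩ := std1_five h
  obtain ⟨b1, b2, b3, b4, b5⟩ := std1_five h'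
  rw [lam0, lam0] at h0
  omega

/-- the generator `a_2` of `Kz` -/
private noncomputable def zK (Q : QD k L) : Q.Kz :=
  ⟨Q.av 2, IntermediateField.mem_adjoin_simple_self k (Q.av 2)⟩

private theorem zK_val (Q : QD k L) : algebraMap Q.Kz L (zK Q) = Q.av 2 := rfl

open Polynomial in
/-- `a_3^{λ_0(e)} a^e` as a polynomial in `a_3` -/
private noncomputable def pe (Q : QD k L) (e : Ev) : Polynomial Q.Kz :=
  (1 + C (zK Q)⁻¹ * (1 + X)) ^ (e 0) * (C (1 + zK Q)) ^ (e 1) * (C (zK Q)) ^ (e 2) *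
    (C (zK Q)⁻¹ * (1 + X)) ^ (e 4)

private theorem av2_trans (Q : QD k L) : Transcendental k (Q.av 2) := by
  have := (Q.av_indep 2).transcendental 0
  simpa using this

private theorem av3_ne (Q : QD k L) : Q.av 3 ≠ 0 := by
  have h : Transcendental k (Q.av 3) := by
    have := (Q.av_indep 3).transcendental 0
    simpa using this
  intro h0
  rw [h0] at h
  exact h isAlgebraic_zero

private theorem aeval_pe (Q : QD k L) (e : Ev) : (Polynomial.aeval (Q.av 3) (pe Q e) : L) =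
    (Q.av 3 * Q.av 0) ^ (e 0) * (Q.av 1 * Q.av 3) ^ (e 1) * Q.av 2 ^ (e 2) * Q.av 4 ^ (e 4) := by
  have hz : Q.av 2 ≠ 0 := by
    intro h0
    have := av2_trans Q
    rw [h0] at this
    exact this isAlgebraic_zero
  have r1 : Q.av 1 * Q.av 3 = 1 + Q.av 2 := Q.av_rel 2
  have r2 : Q.av 2 * Q.av 4 = 1 + Q.av 3 := Q.av_rel 3
  have r3 : Q.av 3 * Q.av 0 = 1 + Q.av 4 := Q.av_rel 4
  have r4 : Q.av 4 = (Q.av 2)⁻¹ * (1 + Q.av 3) := by
    rw [← r2, inv_mul_cancel_left₀ hz]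
  rw [r1, r3]
  unfold pe
  simp only [map_mul, map_pow, map_add, map_one, Polynomial.aeval_C, Polynomial.aeval_X, map_inv₀,
    zK_val]
  rw [← r4]

private theorem key_mon (Q : QD k L) (e : Ev) (s t : ℕ) (h : (s : ℤ) = t + lam e 0) :
    Q.av 3 ^ s * mon Q.av e = Q.av 3 ^ t * (Polynomial.aeval (Q.av 3) (pe Q e) : L) := by
  have hx := av3_ne Q
  rw [aeval_pe, mon_five]
  rw [lam0] at h
  have hs : s + e 3 = t + (e 0 + e 1) := by omega
  apply mul_left_cancel₀ (pow_ne_zero (e 3) hx)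
  calc Q.av 3 ^ e 3 * (Q.av 3 ^ s * (Q.av 0 ^ e 0 * Q.av 1 ^ e 1 * Q.av 2 ^ e 2 * Q.av 3 ^ e 3 *
        Q.av 4 ^ e 4)) = Q.av 3 ^ (s + e 3) * (Q.av 0 ^ e 0 * Q.av 1 ^ e 1 * Q.av 2 ^ e 2 *
        Q.av 3 ^ e 3 * Q.av 4 ^ e 4) := by rw [pow_add]; ring
    _ = Q.av 3 ^ e 3 * (Q.av 3 ^ t * ((Q.av 3 * Q.av 0) ^ e 0 * (Q.av 1 * Q.av 3) ^ e 1 *
        Q.av 2 ^ e 2 * Q.av 4 ^ e 4)) := by
      rw [hs, pow_add, pow_add, mul_pow, mul_pow]; ring

/-- value at `a_3 = 0` -/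
private theorem eval_pe (Q : QD k L) (e : Ev) (T : ℕ) (hT : e 4 + e 0 ≤ T) :
    Q.av 2 ^ T * algebraMap Q.Kz L ((pe Q e).eval 0) =
      (1 + Q.av 2) ^ (e 0 + e 1) * Q.av 2 ^ (T + e 2 - (e 4 + e 0)) := by
  have hz : Q.av 2 ≠ 0 := by
    intro h0
    have := av2_trans Q
    rw [h0] at this
    exact this isAlgebraic_zero
  unfold pe
  simp only [Polynomial.eval_mul, Polynomial.eval_pow, Polynomial.eval_add, Polynomial.eval_one,
    Polynomial.eval_C, Polynomial.eval_X, map_mul, map_pow, map_add, map_one, map_zero, map_inv₀,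
    zK_val, add_zero, mul_one]
  obtain ⟨U, rfl⟩ : ∃ U, T = U + (e 4 + e 0) := ⟨T - (e 4 + e 0), by omega⟩
  have h1 : U + (e 4 + e 0) + e 2 - (e 4 + e 0) = U + e 2 := by omega
  have h2 : (1 + (Q.av 2)⁻¹) * Q.av 2 = 1 + Q.av 2 := by
    rw [add_mul, one_mul, inv_mul_cancel₀ hz, add_comm]
  rw [h1]
  calc Q.av 2 ^ (U + (e 4 + e 0)) * ((1 + (Q.av 2)⁻¹) ^ e 0 * (1 + Q.av 2) ^ e 1 *
        Q.av 2 ^ e 2 * (Q.av 2)⁻¹ ^ e 4) =
        ((1 + (Q.av 2)⁻¹) * Q.av 2) ^ e 0 * (1 + Q.av 2) ^ e 1 * Q.av 2 ^ (U + e 2) *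
          ((Q.av 2)⁻¹ * Q.av 2) ^ e 4 := by
        rw [pow_add, pow_add, pow_add, mul_pow, mul_pow]; ring
    _ = (1 + Q.av 2) ^ (e 0 + e 1) * Q.av 2 ^ (U + e 2) := by
        rw [h2, inv_mul_cancel₀ hz, one_pow, mul_one, ← pow_add]

theorem QD.lead (Q : QD k L) (γ : Ev →₀ k) (hγ : ∀ e ∈ γ.support, Std1 e) (h0 : γ ≠ 0) :
    ∃ e0 ∈ γ.support, (∀ e ∈ γ.support, lam e 0 ≤ lam e0 0) ∧
      Q.OrdX (γ.sum (fun e x => x • mon Q.av e)) (-(lam e0 0)) := by
  classical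
  obtain ⟨e0, he0, hmax⟩ := Finset.exists_max_image γ.support (fun e => lam e 0)
    (Finsupp.support_nonempty_iff.2 h0)
  refine ⟨e0, he0, hmax, ?_⟩
  have hzt := av2_trans Q
  set M := lam e0 0 with hM
  set d := ((M.toNat : ℤ) - M).toNat with hd
  have hdM : (M.toNat : ℤ) = d + M := by omega
  set Qp : Polynomial Q.Kz := ∑ e ∈ γ.support,
    Polynomial.C (algebraMap k Q.Kz (γ e)) * (Polynomial.X ^ (M - lam e 0).toNat * pe Q e) with hQp
  have haev : (Polynomial.aeval (Q.av 3) (Qp * Polynomial.X ^ d) : L) =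
      Q.av 3 ^ M.toNat * γ.sum (fun e x => x • mon Q.av e) := by
    rw [hQp, Finset.sum_mul, map_sum, Finsupp.sum, Finset.mul_sum]
    refine Finset.sum_congr rfl fun e he => ?_
    have h1 := hmax e he
    have h2 := key_mon Q e M.toNat (d + (M - lam e 0).toNat) (by push_cast; omega)
    rw [mul_smul_comm, h2]
    simp only [map_mul, map_pow, Polynomial.aeval_C, Polynomial.aeval_X]
    rw [pow_add, Algebra.smul_def, ← IsScalarTower.algebraMap_apply k Q.Kz L]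
    ring
  -- the value at zero
  set T := ∑ e ∈ γ.support, (e 4 + e 0) with hT
  have hTle : ∀ e ∈ γ.support, e 4 + e 0 ≤ T := fun e he =>
    Finset.single_le_sum (f := fun e : Ev => e 4 + e 0) (fun _ _ => Nat.zero_le _) he
  set S1 := γ.support.filter (fun e => lam e 0 = M) with hS1
  set pz : Polynomial k := ∑ e ∈ S1, Polynomial.C (γ e) * Polynomial.X ^ (T + e 2 - (e 4 + e 0))
    with hpz
  have hval : Q.av 2 ^ T * algebraMap Q.Kz L (Qp.eval 0) =
      (1 + Q.av 2) ^ (e0 0 + e0 1) * Polynomial.aeval (Q.av 2) pz := by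
    rw [hQp, Polynomial.eval_finsetSum, map_sum, Finset.mul_sum, hpz, map_sum, Finset.mul_sum,
      hS1, Finset.sum_filter]
    refine Finset.sum_congr rfl fun e he => ?_
    have h1 := hmax e he
    simp only [Polynomial.eval_mul, Polynomial.eval_C, Polynomial.eval_pow, Polynomial.eval_X,
      map_mul, map_pow, map_zero]
    by_cases hl : lam e 0 = M
    · rw [if_pos hl, hl, sub_self, Int.toNat_zero, pow_zero, one_mul,
        ← IsScalarTower.algebraMap_apply k Q.Kz L, Polynomial.aeval_C, Polynomial.aeval_X,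
        std1_sum e0 e (hγ e0 he0) (hγ e he) (by rw [hl])]
      have h3 := eval_pe Q e T (hTle e he)
      linear_combination (algebraMap k L (γ e)) * h3
    · rw [if_neg hl, zero_pow (by omega), zero_mul, mul_zero, mul_zero]
  have hpz0 : pz ≠ 0 := by
    intro hcon
    have h1 : pz.coeff (T + e0 2 - (e0 4 + e0 0)) = γ e0 := by
      rw [hpz, Polynomial.finsetSum_coeff, Finset.sum_eq_single e0]
      · rw [Polynomial.coeff_C_mul, Polynomial.coeff_X_pow, if_pos rfl, mul_one]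
      · intro e he hne
        rw [hS1, Finset.mem_filter] at he
        rw [Polynomial.coeff_C_mul, Polynomial.coeff_X_pow, if_neg, mul_zero]
        intro hcon
        apply hne
        have t1 := hTle e he.1
        have t2 := hTle e0 he0
        exact std1_inj e e0 (hγ e he.1) (hγ e0 he0) (by rw [he.2]) (by omega)
      · intro hn
        exact absurd (by rw [hS1, Finset.mem_filter]; exact ⟨he0, rfl⟩) hn
    rw [hcon, Polynomial.coeff_zero] at h1
    exact (Finsupp.mem_support_iff.1 he0) h1.symm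
  have hQ0 : Qp.eval 0 ≠ 0 := by
    intro hcon
    rw [hcon, map_zero, mul_zero] at hval
    have h1 : (1 + Q.av 2) ≠ 0 := by
      intro hc
      refine hzt ⟨1 + Polynomial.X, ?_, by simpa using hc⟩
      intro h2
      have := congrArg (Polynomial.coeff · 1) h2
      simp [Polynomial.coeff_one] at this
    have h2 : Polynomial.aeval (Q.av 2) pz ≠ 0 := fun h => hzt ⟨pz, hpz0, h⟩
    exact mul_ne_zero (pow_ne_zero _ h1) h2 hval.symm
  have hQp0 : Qp ≠ 0 := by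
    intro h
    rw [h, Polynomial.eval_zero] at hQ0
    exact hQ0 rfl
  refine ⟨M.toNat, Qp * Polynomial.X ^ d, mul_ne_zero hQp0 (pow_ne_zero _ Polynomial.X_ne_zero),
    haev, ?_⟩
  rw [Polynomial.natTrailingDegree_mul_X_pow hQp0, Polynomial.natTrailingDegree_eq_zero.2
    (Or.inr (by rw [Polynomial.coeff_zero_eq_eval_zero]; exact hQ0)), zero_add]
  omega

end Ex

end R169
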