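import Crest.Agent.R169.ExGD

/-!
# Row 169, module EX: universal property of `k[q]`

Piece EX_LIFT (0.7 h).  `lift`: take `P : MvPolynomial (ZMod 5) k` with `aeval Q.q P = 0`.  Write
`P = ∑ p_a X^a`; by `straighten` (integer coefficients `c_a`, the same in every ring)
`aeval q P = ∑_a p_a ∑_b c_a(b) q^b = ∑_b (∑_a p_a c_a(b)) q^b`, `b` standard, so all `∑_a p_a c_a(b) = 0` by
`Q.indep`; the same formula with `q'` gives `aeval q' P = 0`.  So `aeval q'` factors through
`MvPolynomial / ker (aeval Q.q) ≅ Q.BU`.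
`q_ne`: `q_i` and the other standard monomials are independent.  `fracRing`: from `Q.frac`.  `extend`: `IsFractionRing.lift`.  `hom_ext`: `L` is generated by `q` as a field.
-/

set_option autoImplicit false

namespace R169

namespace Ex

variable {k L : Type} [Field k] [Field L] [Algebra k L]

/-- `q i` as element of `k[q]` -/
def QD.qU (Q : QD k L) (i : ZMod 5) : Q.BU := ⟨Q.q i, Algebra.subset_adjoin ⟨i, rfl⟩⟩

section evE

variable {S : Type} [CommRing S] [Algebra k S]

/-- evaluation of formal combinations of monomials -/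
private noncomputable def evE (k : Type) [Field k] {S : Type} [CommRing S] [Algebra k S]
    (q' : ZMod 5 → S) : (Ev →₀ k) →ₗ[k] S :=
  Finsupp.linearCombination k (fun a => mon q' a)

private noncomputable def redE (k : Type) [Field k] (a : Ev) : Ev →₀ k :=
  (red a).mapRange (Int.cast : ℤ → k) Int.cast_zero

private theorem evE_redE (q' : ZMod 5 → S) (h : Rel q') (a : Ev) :
    evE k q' (redE k a) = mon q' a := by
  unfold evE redE
  rw [red_eval a q' h, Finsupp.linearCombination_apply, Finsupp.sum_mapRange_index]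
  · refine Finsupp.sum_congr fun b _ => ?_
    rw [Algebra.smul_def, map_intCast]
  · intro b
    rw [zero_smul]

private theorem redE_mem (a : Ev) : redE k a ∈ Finsupp.supported k k {a : Ev | Std a} := by
  rw [Finsupp.mem_supported]
  intro b hb
  have hb' : b ∈ (redE k a).support := hb
  unfold redE at hb'
  exact red_std (Finsupp.support_mapRange hb')

private noncomputable def nfE (k : Type) [Field k] : (Ev →₀ k) →ₗ[k] (Ev →₀ k) :=
  Finsupp.linearCombination k (redE k)

private theorem evE_nfE (q' : ZMod 5 → S) (h : Rel q') (G : Ev →₀ k) :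
    evE k q' (nfE k G) = evE k q' G := by
  induction G using Finsupp.induction_linear with
  | zero => simp
  | add f g hf hg => rw [map_add, map_add, map_add, hf, hg]
  | single a x =>
    unfold nfE
    rw [Finsupp.linearCombination_single, map_smul, evE_redE q' h]
    unfold evE
    rw [Finsupp.linearCombination_single]

private theorem nfE_mem (G : Ev →₀ k) : nfE k G ∈ Finsupp.supported k k {a : Ev | Std a} := by
  unfold nfE
  rw [Finsupp.linearCombination_apply]
  exact Submodule.sum_mem _ fun a _ => Submodule.smul_mem _ _ (redE_mem a)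

private theorem evE_zero (Q : QD k L) (q' : ZMod 5 → S) (h : Rel q') (G : Ev →₀ k)
    (h0 : evE k Q.q G = 0) : evE k q' G = 0 := by
  have h1 : LinearIndepOn k (fun a : Ev => mon Q.q a) {a : Ev | Std a} := Q.indep
  rw [linearIndepOn_iff] at h1
  have h2 : nfE k G = 0 := h1 _ (nfE_mem G) (by
    have := evE_nfE Q.q Q.rel G
    rw [h0] at this
    exact this)
  rw [← evE_nfE q' h, h2, map_zero]

private theorem aeval_eq_evE (q' : ZMod 5 → S) (P : MvPolynomial (ZMod 5) k) :
    MvPolynomial.aeval q' P =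
      evE k q' (∑ d ∈ P.support, Finsupp.single (fun i => d i) (P.coeff d)) := by
  rw [MvPolynomial.aeval_def, MvPolynomial.eval₂_eq', map_sum]
  refine Finset.sum_congr rfl fun d _ => ?_
  unfold evE
  rw [Finsupp.linearCombination_single, Algebra.smul_def]
  rfl

end evE

private theorem qU_surj (Q : QD k L) :
    Function.Surjective (MvPolynomial.aeval (R := k) Q.qU : MvPolynomial (ZMod 5) k →ₐ[k] Q.BU) := by
  rintro ⟨x, hx⟩
  have hx' := hx
  unfold QD.BU at hx'
  rw [Algebra.adjoin_range_eq_range_aeval] at hx'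
  obtain ⟨P, hP⟩ := hx'
  refine ⟨P, Subtype.ext ?_⟩
  have h1 : (MvPolynomial.aeval Q.qU P : Q.BU).1 = MvPolynomial.aeval Q.q P := by
    have h2 : Q.BU.val.comp (MvPolynomial.aeval (R := k) Q.qU) = MvPolynomial.aeval (R := k) Q.q := by
      refine MvPolynomial.algHom_ext fun i => ?_
      rw [AlgHom.comp_apply, MvPolynomial.aeval_X, MvPolynomial.aeval_X]
      rfl
    exact DFunLike.congr_fun h2 P
  rw [h1]
  exact hP

theorem QD.lift (Q : QD k L) {S : Type} [CommRing S] [Algebra k S] (q' : ZMod 5 → S) (h : Rel q') :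
    ∃ φ : Q.BU →ₐ[k] S, ∀ i, φ (Q.qU i) = q' i := by
  have hker : RingHom.ker (MvPolynomial.aeval (R := k) Q.qU :
      MvPolynomial (ZMod 5) k →ₐ[k] Q.BU).toRingHom ≤
      RingHom.ker (MvPolynomial.aeval (R := k) q' : MvPolynomial (ZMod 5) k →ₐ[k] S).toRingHom := by
    intro P hP
    rw [RingHom.mem_ker] at hP ⊢
    have hP' : MvPolynomial.aeval Q.qU P = 0 := hP
    show MvPolynomial.aeval q' P = 0
    have h1 : MvPolynomial.aeval Q.q P = 0 := by
      have h2 : Q.BU.val.comp (MvPolynomial.aeval (R := k) Q.qU) =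
          MvPolynomial.aeval (R := k) Q.q := by
        refine MvPolynomial.algHom_ext fun i => ?_
        rw [AlgHom.comp_apply, MvPolynomial.aeval_X, MvPolynomial.aeval_X]
        rfl
      rw [← h2, AlgHom.comp_apply, hP', map_zero]
    rw [aeval_eq_evE] at h1 ⊢
    exact evE_zero Q q' h _ h1
  refine ⟨AlgHom.liftOfSurjective _ (qU_surj Q) (MvPolynomial.aeval (R := k) q') hker, fun i => ?_⟩
  have h3 := AlgHom.liftOfSurjective_apply _ (qU_surj Q) (MvPolynomial.aeval (R := k) q') hker
    (MvPolynomial.X i)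
  rw [MvPolynomial.aeval_X, MvPolynomial.aeval_X] at h3
  exact h3

theorem QD.q_ne (Q : QD k L) (i : ZMod 5) : Q.q i ≠ 0 := by
  have hs : ∀ i : ZMod 5, Std (Pi.single i 1) := by
    intro i j
    left
    rw [Pi.single_apply]
    split_ifs <;> norm_num
  have h1 := Q.indep.ne_zero ⟨Pi.single i 1, hs i⟩
  simp only at h1
  rwa [mon_single, pow_one] at h1

theorem QD.fracRing (Q : QD k L) : IsFractionRing Q.BU L := by
  refine IsFractionRing.of_field Q.BU L fun z => ?_
  obtain ⟨f, hf, g, hg, -, rfl⟩ := Q.frac z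
  exact ⟨⟨f, hf⟩, ⟨g, hg⟩, rfl⟩

/-- an injective hom of `k[q]` into a field extends to `L` -/
theorem QD.extend (Q : QD k L) {M : Type} [Field M] [Algebra k M] (φ : Q.BU →ₐ[k] M)
    (h : Function.Injective φ) : ∃ ψ : L →ₐ[k] M, ∀ b : Q.BU, ψ b = φ b := by
  have := Q.fracRing
  refine ⟨IsFractionRing.liftAlgHom (K := L) h, fun b => ?_⟩
  rw [IsFractionRing.liftAlgHom_apply]
  exact IsFractionRing.lift_algebraMap (K := L) (g := (φ : Q.BU →+* M)) h b

theorem QD.hom_ext (Q : QD k L) {M : Type} [Field M] [Algebra k M] (φ ψ : L →ₐ[k] M)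
    (h : ∀ i, φ (Q.q i) = ψ (Q.q i)) : φ = ψ := by
  have h1 : ∀ x ∈ Q.BU, φ x = ψ x := by
    intro x hx
    unfold QD.BU at hx
    induction hx using Algebra.adjoin_induction with
    | mem x hx =>
      obtain ⟨i, rfl⟩ := hx
      exact h i
    | algebraMap r => rw [AlgHom.commutes, AlgHom.commutes]
    | add x y _ _ hx hy => rw [map_add, map_add, hx, hy]
    | mul x y _ _ hx hy => rw [map_mul, map_mul, hx, hy]
  refine AlgHom.ext fun l => ?_
  obtain ⟨f, hf, g, hg, -, rfl⟩ := Q.frac l
  rw [map_div₀, map_div₀, h1 f hf, h1 g hg]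

/-- if the standard monomials in `q'` are independent, `q ↦ q'` extends to `L`.
(injectivity on `k[q]`: elements of `k[q]` are combinations of standard monomials, `mem_BU`, `Bn_std`) -/
theorem QD.hom_of_indep (Q : QD k L) {M : Type} [Field M] [Algebra k M] (q' : ZMod 5 → M) (h : Rel q')
    (hi : LinearIndependent k (fun a : {a : Ev // Std a} => mon q' a.1)) :
    ∃ ψ : L →ₐ[k] M, ∀ i, ψ (Q.q i) = q' i := by
  obtain ⟨φ, hφ⟩ := Q.lift q' h
  have hmon : ∀ (a : Ev) (hm : mon Q.q a ∈ Q.BU), φ ⟨mon Q.q a, hm⟩ = mon q' a := by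
    intro a hm
    have e : (⟨mon Q.q a, hm⟩ : Q.BU) = mon Q.qU a := by
      apply Subtype.ext
      show mon Q.q a = Q.BU.val (mon Q.qU a)
      unfold mon
      rw [map_prod]
      refine Finset.prod_congr rfl fun i _ => ?_
      rw [map_pow]
      rfl
    rw [e]
    unfold mon
    rw [map_prod]
    refine Finset.prod_congr rfl fun i _ => ?_
    rw [map_pow, hφ]
  have hinj : Function.Injective φ := by
    rw [injective_iff_map_eq_zero]
    rintro ⟨x, hx⟩ h0
    obtain ⟨n, hn⟩ := (Q.mem_BU x).1 hx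
    rw [Q.Bn_std] at hn
    have hn' : x ∈ Submodule.span k (Set.range fun a : {a : Ev // Std a} => mon Q.q a.1) := by
      refine Submodule.span_mono ?_ hn
      rintro l ⟨a, ha, -, rfl⟩
      exact ⟨⟨a, ha⟩, rfl⟩
    obtain ⟨c, hc⟩ := (Finsupp.mem_span_range_iff_exists_finsupp).1 hn'
    have hmem : ∀ a : {a : Ev // Std a}, mon Q.q a.1 ∈ Q.BU := by
      intro a
      unfold mon
      exact Subalgebra.prod_mem _ fun i _ =>
        Subalgebra.pow_mem _ (Algebra.subset_adjoin (Set.mem_range_self i)) _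
    have hx2 : (⟨x, hx⟩ : Q.BU) = c.sum fun a r => r • (⟨mon Q.q a.1, hmem a⟩ : Q.BU) := by
      apply Subtype.ext
      refine hc.symm.trans ?_
      rw [Finsupp.sum, Finsupp.sum]
      simp only [AddSubmonoidClass.coe_finsetSum, Subalgebra.coe_smul]
    have h2 : Finsupp.linearCombination k (fun a : {a : Ev // Std a} => mon q' a.1) c = 0 := by
      rw [Finsupp.linearCombination_apply, ← h0, hx2, Finsupp.sum, Finsupp.sum, map_sum]
      refine Finset.sum_congr rfl fun a _ => ?_
      rw [map_smul, hmon]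
    have h3 : c = 0 := (linearIndependent_iff.1 hi) c h2
    rw [hx2, h3]
    simp
  obtain ⟨ψ, hψ⟩ := Q.extend φ hinj
  refine ⟨ψ, fun i => ?_⟩
  rw [← hφ i, ← hψ (Q.qU i)]
  rfl

end Ex

end R169
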