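import Mathlib

/-!
# Row 169, module EX: the elements `a_i` of `F1 = Frac k[t][s]` (helper71).
`a_1 = s`, `a_4 = t`, `a_0 = s t - 1`, `a_2 = (1 + s) / (s t - 1)`, `a_3 = (1 + t) / (s t - 1)`.
Outer variable `s = X`, inner variable `t`.
-/

set_option autoImplicit false

namespace R169.Ex

open Polynomial

section mult

variable (k : Type) [Field k]

/-- `k[t][s]` -/
abbrev A2 : Type := Polynomial (Polynomial k)
/-- `k(s,t)` -/
abbrev F1 : Type := FractionRing (A2 k)

/-- `s` -/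
noncomputable def pS : A2 k := X
/-- `t` -/
noncomputable def pT : A2 k := C X
/-- `s t - 1` -/
noncomputable def pD : A2 k := C X * X - 1
/-- `1 + s` -/
noncomputable def pS1 : A2 k := X + C 1
/-- `1 + t` -/
noncomputable def pT1 : A2 k := C (X + C 1)

/-- the elements `a_i` -/
noncomputable def aF (i : ZMod 5) : F1 k :=
  if i = 0 then algebraMap (A2 k) (F1 k) (pD k)
  else if i = 1 then algebraMap (A2 k) (F1 k) (pS k)
  else if i = 2 then algebraMap (A2 k) (F1 k) (pS1 k) / algebraMap (A2 k) (F1 k) (pD k)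
  else if i = 3 then algebraMap (A2 k) (F1 k) (pT1 k) / algebraMap (A2 k) (F1 k) (pD k)
  else algebraMap (A2 k) (F1 k) (pT k)

variable {k}

theorem pS_ne : pS k ≠ 0 := X_ne_zero
theorem pT_ne : pT k ≠ 0 := by unfold pT; simp
theorem pS1_ne : pS1 k ≠ 0 := X_add_C_ne_zero 1
theorem pT1_ne : pT1 k ≠ 0 := by
  unfold pT1
  rw [Ne, C_eq_zero]
  exact X_add_C_ne_zero 1
theorem pD_natDegree : (pD k).natDegree = 1 := by
  unfold pD
  have : (C X * X - 1 : A2 k) = C X * X + C (-1) := by simp [sub_eq_add_neg]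
  rw [this]
  exact natDegree_linear X_ne_zero
theorem pD_ne : pD k ≠ 0 := by
  intro h
  have := pD_natDegree (k := k)
  rw [h] at this
  simp at this

theorem aF_zero : aF k 0 = algebraMap (A2 k) (F1 k) (pD k) := rfl
theorem aF_one : aF k 1 = algebraMap (A2 k) (F1 k) (pS k) := rfl
theorem aF_two : aF k 2 = algebraMap (A2 k) (F1 k) (pS1 k) / algebraMap (A2 k) (F1 k) (pD k) := rfl
theorem aF_three : aF k 3 = algebraMap (A2 k) (F1 k) (pT1 k) / algebraMap (A2 k) (F1 k) (pD k) := rfl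
theorem aF_four : aF k 4 = algebraMap (A2 k) (F1 k) (pT k) := rfl

theorem map_ne {x : A2 k} (h : x ≠ 0) : algebraMap (A2 k) (F1 k) x ≠ 0 := by
  intro h0
  exact h ((IsFractionRing.injective (A2 k) (F1 k)) (by rw [h0, map_zero]))

theorem aF_ne (i : ZMod 5) : aF k i ≠ 0 := by
  fin_cases i
  · exact map_ne pD_ne
  · exact map_ne pS_ne
  · exact div_ne_zero (map_ne pS1_ne) (map_ne pD_ne)
  · exact div_ne_zero (map_ne pT1_ne) (map_ne pD_ne)
  · exact map_ne pT_ne

/-- the five relations `a_{i-1} a_{i+1} = 1 + a_i` -/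
theorem aF_rel (i : ZMod 5) : aF k (i - 1) * aF k (i + 1) = 1 + aF k i := by
  have hD : algebraMap (A2 k) (F1 k) (pD k) ≠ 0 := map_ne pD_ne
  have e0 : aF k 4 * aF k 1 = 1 + aF k 0 := by
    rw [aF_four, aF_one, aF_zero, ← map_mul, ← map_one (algebraMap (A2 k) (F1 k)), ← map_add]
    congr 1
    unfold pT pS pD; ring
  have e1 : aF k 0 * aF k 2 = 1 + aF k 1 := by
    rw [aF_zero, aF_two, aF_one, mul_div_cancel₀ _ hD, ← map_one (algebraMap (A2 k) (F1 k)), ← map_add]
    congr 1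
    unfold pS1 pS; simp; ring
  have e4 : aF k 3 * aF k 0 = 1 + aF k 4 := by
    rw [aF_zero, aF_three, aF_four, div_mul_cancel₀ _ hD, ← map_one (algebraMap (A2 k) (F1 k)),
      ← map_add]
    congr 1
    unfold pT1 pT; simp; ring
  have e2 : aF k 1 * aF k 3 = 1 + aF k 2 := by
    rw [aF_one, aF_three, aF_two, ← mul_div_assoc, eq_comm, eq_div_iff hD, add_mul, one_mul,
      div_mul_cancel₀ _ hD, ← map_add, ← map_mul]
    congr 1
    unfold pS pT1 pD pS1; simp; ring
  have e3 : aF k 2 * aF k 4 = 1 + aF k 3 := by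
    rw [aF_two, aF_four, aF_three, div_mul_eq_mul_div, eq_comm, eq_div_iff hD, add_mul, one_mul,
      div_mul_cancel₀ _ hD, ← map_add, ← map_mul]
    congr 1
    unfold pS1 pT pD pT1; simp; ring
  fin_cases i
  · exact e0
  · exact e1
  · exact e2
  · exact e3
  · exact e4

/-- cleared denominators: `(st-1)^N a^μ` -/
noncomputable def pP (N : ℕ) (μ : ZMod 5 → ℕ) : A2 k :=
  pD k ^ (N + μ 0 - μ 2 - μ 3) * pS k ^ μ 1 * pS1 k ^ μ 2 * pT1 k ^ μ 3 * pT k ^ μ 4

theorem map_pP {N : ℕ} {μ : ZMod 5 → ℕ} (h : μ 2 + μ 3 ≤ N) :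
    algebraMap (A2 k) (F1 k) (pP N μ) = algebraMap (A2 k) (F1 k) (pD k) ^ N * ∏ i, aF k i ^ μ i := by
  have hD : algebraMap (A2 k) (F1 k) (pD k) ≠ 0 := map_ne pD_ne
  have hprod : ∏ i, aF k i ^ μ i = aF k 0 ^ μ 0 * aF k 1 ^ μ 1 * aF k 2 ^ μ 2 * aF k 3 ^ μ 3 *
      aF k 4 ^ μ 4 := Fin.prod_univ_five (fun i : Fin 5 => aF k i ^ μ i)
  rw [hprod, aF_zero, aF_one, aF_two, aF_three, aF_four]
  unfold pP
  simp only [map_mul, map_pow]
  obtain ⟨M, hM⟩ : ∃ M, N + μ 0 - μ 2 - μ 3 = M := ⟨_, rfl⟩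
  have hM' : N + μ 0 = M + μ 2 + μ 3 := by omega
  rw [hM]
  have e : algebraMap (A2 k) (F1 k) (pD k) ^ N * (algebraMap (A2 k) (F1 k) (pD k) ^ μ 0) =
      algebraMap (A2 k) (F1 k) (pD k) ^ M * algebraMap (A2 k) (F1 k) (pD k) ^ μ 2 *
        algebraMap (A2 k) (F1 k) (pD k) ^ μ 3 := by
    rw [← pow_add, hM', pow_add, pow_add]
  simp only [div_pow]
  generalize algebraMap (A2 k) (F1 k) (pD k) = d at *
  field_simp
  linear_combination (-(algebraMap (A2 k) (F1 k) (pS k) ^ μ 1 *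
    algebraMap (A2 k) (F1 k) (pS1 k) ^ μ 2 * algebraMap (A2 k) (F1 k) (pT1 k) ^ μ 3 *
    algebraMap (A2 k) (F1 k) (pT k) ^ μ 4)) * e

theorem mult_mul {π x y : A2 k} (hπ : Prime π) (hx : x ≠ 0) (hy : y ≠ 0) :
    multiplicity π (x * y) = multiplicity π x + multiplicity π y :=
  multiplicity_mul hπ (FiniteMultiplicity.of_prime_left hπ (mul_ne_zero hx hy))

theorem mult_pow {π x : A2 k} (hπ : Prime π) (hx : x ≠ 0) (n : ℕ) :
    multiplicity π (x ^ n) = n * multiplicity π x := by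
  induction n with
  | zero =>
    rw [pow_zero, zero_mul]
    exact multiplicity_eq_zero.2 fun h => hπ.not_isUnit (isUnit_of_dvd_one h)
  | succ n ih =>
    rw [pow_succ, mult_mul hπ (pow_ne_zero _ hx) hx, ih]; ring

theorem mult_self {π : A2 k} (hπ : Prime π) : multiplicity π π = 1 := by
  have := multiplicity_pow_self_of_prime hπ 1
  rwa [pow_one] at this

theorem mult_zero {R : Type} [CommRing R] (φ : A2 k →+* R) {π x : A2 k} (hπ : φ π = 0)
    (hx : φ x ≠ 0) : multiplicity π x = 0 := by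
  refine multiplicity_eq_zero.2 fun h => hx ?_
  obtain ⟨y, rfl⟩ := h
  rw [map_mul, hπ, zero_mul]

theorem pP_ne (N : ℕ) (μ : ZMod 5 → ℕ) : pP (k := k) N μ ≠ 0 := by
  unfold pP
  exact mul_ne_zero (mul_ne_zero (mul_ne_zero (mul_ne_zero (pow_ne_zero _ pD_ne)
    (pow_ne_zero _ pS_ne)) (pow_ne_zero _ pS1_ne)) (pow_ne_zero _ pT1_ne)) (pow_ne_zero _ pT_ne)

theorem mult_pP {π : A2 k} (hπ : Prime π) (N : ℕ) (μ : ZMod 5 → ℕ) :
    multiplicity π (pP N μ) = (N + μ 0 - μ 2 - μ 3) * multiplicity π (pD k) +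
      μ 1 * multiplicity π (pS k) + μ 2 * multiplicity π (pS1 k) +
      μ 3 * multiplicity π (pT1 k) + μ 4 * multiplicity π (pT k) := by
  have h0 := pow_ne_zero (N + μ 0 - μ 2 - μ 3) (pD_ne (k := k))
  have h1 := pow_ne_zero (μ 1) (pS_ne (k := k))
  have h2 := pow_ne_zero (μ 2) (pS1_ne (k := k))
  have h3 := pow_ne_zero (μ 3) (pT1_ne (k := k))
  have h4 := pow_ne_zero (μ 4) (pT_ne (k := k))
  unfold pP
  rw [mult_mul hπ (mul_ne_zero (mul_ne_zero (mul_ne_zero h0 h1) h2) h3) h4,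
    mult_mul hπ (mul_ne_zero (mul_ne_zero h0 h1) h2) h3, mult_mul hπ (mul_ne_zero h0 h1) h2,
    mult_mul hπ h0 h1, mult_pow hπ pD_ne, mult_pow hπ pS_ne, mult_pow hπ pS1_ne,
    mult_pow hπ pT1_ne, mult_pow hπ pT_ne]

theorem X_add_one_ne {R : Type} [CommRing R] [Nontrivial R] : (X + C 1 : Polynomial R) ≠ 0 :=
  X_add_C_ne_zero 1

/-- multiplicities of `s` -/
theorem multS : Prime (pS k) ∧ multiplicity (pS k) (pD k) = 0 ∧ multiplicity (pS k) (pS1 k) = 0 ∧
    multiplicity (pS k) (pT1 k) = 0 ∧ multiplicity (pS k) (pT k) = 0 := by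
  have hz : (evalRingHom (0 : Polynomial k)) (pS k) = 0 := by simp [pS]
  refine ⟨prime_X, mult_zero (evalRingHom (0 : Polynomial k)) hz ?_,
    mult_zero (evalRingHom (0 : Polynomial k)) hz ?_,
    mult_zero (evalRingHom (0 : Polynomial k)) hz ?_,
    mult_zero (evalRingHom (0 : Polynomial k)) hz ?_⟩
  · simp [pD]
  · simp [pS1]
  · simpa [pT1] using X_add_one_ne (R := k)
  · simp [pT]

/-- multiplicities of `1 + s` -/
theorem mS1 : Prime (pS1 k) ∧ multiplicity (pS1 k) (pD k) = 0 ∧ multiplicity (pS1 k) (pS k) = 0 ∧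
    multiplicity (pS1 k) (pT1 k) = 0 ∧ multiplicity (pS1 k) (pT k) = 0 := by
  have hz : (evalRingHom (-1 : Polynomial k)) (pS1 k) = 0 := by simp [pS1]
  refine ⟨?_, mult_zero (evalRingHom (-1 : Polynomial k)) hz ?_,
    mult_zero (evalRingHom (-1 : Polynomial k)) hz ?_,
    mult_zero (evalRingHom (-1 : Polynomial k)) hz ?_,
    mult_zero (evalRingHom (-1 : Polynomial k)) hz ?_⟩
  · have := prime_X_sub_C (-1 : Polynomial k)
    have e : (X - C (-1) : A2 k) = pS1 k := by simp [pS1, sub_neg_eq_add]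
    rwa [e] at this
  · intro h
    apply X_add_one_ne (R := k)
    simp only [pD, coe_evalRingHom, eval_sub, eval_mul, eval_C, eval_X, eval_one] at h
    have : (X + C 1 : Polynomial k) = -(X * -1 - 1) := by simp; ring
    rw [this, h, neg_zero]
  · simp [pS]
  · simpa [pT1] using X_add_one_ne (R := k)
  · simp [pT]

/-- multiplicities of `t` -/
theorem mT : Prime (pT k) ∧ multiplicity (pT k) (pD k) = 0 ∧ multiplicity (pT k) (pS k) = 0 ∧
    multiplicity (pT k) (pS1 k) = 0 ∧ multiplicity (pT k) (pT1 k) = 0 := by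
  have hz : (mapRingHom (evalRingHom (0 : k))) (pT k) = 0 := by simp [pT]
  refine ⟨?_, mult_zero (mapRingHom (evalRingHom (0 : k))) hz ?_,
    mult_zero (mapRingHom (evalRingHom (0 : k))) hz ?_,
    mult_zero (mapRingHom (evalRingHom (0 : k))) hz ?_,
    mult_zero (mapRingHom (evalRingHom (0 : k))) hz ?_⟩
  · exact prime_C_iff.2 prime_X
  · simp [pD]
  · simp [pS]
  · simpa [pS1] using X_add_one_ne (R := k)
  · simp [pT1]

/-- multiplicities of `1 + t` -/
theorem mT1 : Prime (pT1 k) ∧ multiplicity (pT1 k) (pD k) = 0 ∧ multiplicity (pT1 k) (pS k) = 0 ∧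
    multiplicity (pT1 k) (pS1 k) = 0 ∧ multiplicity (pT1 k) (pT k) = 0 := by
  have hz : (mapRingHom (evalRingHom (-1 : k))) (pT1 k) = 0 := by simp [pT1]
  refine ⟨?_, mult_zero (mapRingHom (evalRingHom (-1 : k))) hz ?_,
    mult_zero (mapRingHom (evalRingHom (-1 : k))) hz ?_,
    mult_zero (mapRingHom (evalRingHom (-1 : k))) hz ?_,
    mult_zero (mapRingHom (evalRingHom (-1 : k))) hz ?_⟩
  · refine prime_C_iff.2 ?_
    have := prime_X_sub_C (-1 : k)
    have e : (X - C (-1) : Polynomial k) = X + C 1 := by simp [sub_neg_eq_add]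
    rwa [e] at this
  · intro h
    apply X_add_one_ne (R := k)
    simp only [pD, coe_mapRingHom, Polynomial.map_sub, Polynomial.map_mul, map_C, map_X,
      Polynomial.map_one, coe_evalRingHom, eval_X] at h
    have : (X + C 1 : Polynomial k) = -(C (-1) * X - 1) := by simp; ring
    rw [this, h, neg_zero]
  · simp [pS]
  · simpa [pS1] using X_add_one_ne (R := k)
  · simp [pT]

theorem natDegree_pP (N : ℕ) (μ : ZMod 5 → ℕ) :
    (pP (k := k) N μ).natDegree = (N + μ 0 - μ 2 - μ 3) + μ 1 + μ 2 := by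
  have h0 := pow_ne_zero (N + μ 0 - μ 2 - μ 3) (pD_ne (k := k))
  have h1 := pow_ne_zero (μ 1) (pS_ne (k := k))
  have h2 := pow_ne_zero (μ 2) (pS1_ne (k := k))
  have h3 := pow_ne_zero (μ 3) (pT1_ne (k := k))
  have h4 := pow_ne_zero (μ 4) (pT_ne (k := k))
  unfold pP
  rw [natDegree_mul (mul_ne_zero (mul_ne_zero (mul_ne_zero h0 h1) h2) h3) h4,
    natDegree_mul (mul_ne_zero (mul_ne_zero h0 h1) h2) h3, natDegree_mul (mul_ne_zero h0 h1) h2,
    natDegree_mul h0 h1, natDegree_pow, natDegree_pow, natDegree_pow, natDegree_pow, natDegree_pow,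
    pD_natDegree]
  have e1 : (pS k).natDegree = 1 := natDegree_X
  have e2 : (pS1 k).natDegree = 1 := natDegree_X_add_C 1
  have e3 : (pT1 k).natDegree = 0 := natDegree_C _
  have e4 : (pT k).natDegree = 0 := natDegree_C _
  rw [e1, e2, e3, e4]
  ring

/-- four primes and the degree determine the exponents mod 7 -/
theorem aF_indep (c c' : ZMod 5 → Fin 7) (b : F1 k)
    (h : ∏ i, aF k i ^ (c i : ℕ) = b ^ 7 * ∏ i, aF k i ^ (c' i : ℕ)) : c = c' := by
  obtain ⟨n, d, hd, rfl⟩ := IsFractionRing.div_surjective (A := A2 k) b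
  have hd0 : d ≠ 0 := nonZeroDivisors.ne_zero hd
  have hdm : algebraMap (A2 k) (F1 k) d ≠ 0 := map_ne hd0
  set μ : ZMod 5 → ℕ := fun i => (c i : ℕ) with hμ
  set μ' : ZMod 5 → ℕ := fun i => (c' i : ℕ) with hμ'
  have b1 : ∀ i, μ i ≤ 6 := fun i => by have := (c i).isLt; simp only [hμ]; omega
  have b2 : ∀ i, μ' i ≤ 6 := fun i => by have := (c' i).isLt; simp only [hμ']; omega
  have hid : d ^ 7 * pP 12 μ = n ^ 7 * pP 12 μ' := by
    apply IsFractionRing.injective (A2 k) (F1 k)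
    rw [map_mul, map_mul, map_pow, map_pow, map_pP (by have := b1 2; have := b1 3; omega),
      map_pP (by have := b2 2; have := b2 3; omega)]
    rw [div_pow] at h
    have h' : ∏ i, aF k i ^ μ i = algebraMap (A2 k) (F1 k) n ^ 7 / algebraMap (A2 k) (F1 k) d ^ 7 *
      ∏ i, aF k i ^ μ' i := h
    rw [h']
    field_simp
  have hn0 : n ≠ 0 := by
    rintro rfl
    rw [zero_pow (by norm_num), zero_mul] at hid
    exact mul_ne_zero (pow_ne_zero _ hd0) (pP_ne _ _) hid
  have hmult : ∀ π : A2 k, Prime π → 7 * multiplicity π d + multiplicity π (pP 12 μ) =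
      7 * multiplicity π n + multiplicity π (pP 12 μ') := by
    intro π hπ
    have := congrArg (multiplicity π) hid
    rwa [mult_mul hπ (pow_ne_zero _ hd0) (pP_ne _ _), mult_mul hπ (pow_ne_zero _ hn0) (pP_ne _ _),
      mult_pow hπ hd0, mult_pow hπ hn0] at this
  have hdeg : 7 * d.natDegree + (pP (k := k) 12 μ).natDegree =
      7 * n.natDegree + (pP (k := k) 12 μ').natDegree := by
    have := congrArg natDegree hid
    rwa [natDegree_mul (pow_ne_zero _ hd0) (pP_ne _ _), natDegree_mul (pow_ne_zero _ hn0) (pP_ne _ _),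
      natDegree_pow, natDegree_pow] at this
  rw [natDegree_pP, natDegree_pP] at hdeg
  have e1 : μ 1 = μ' 1 := by
    obtain ⟨hp, k0, k2, k3, k4⟩ := multS (k := k)
    have := hmult _ hp
    rw [mult_pP hp, mult_pP hp, k0, k2, k3, k4, mult_self hp] at this
    have := b1 1; have := b2 1
    omega
  have e2 : μ 2 = μ' 2 := by
    obtain ⟨hp, k0, k2, k3, k4⟩ := mS1 (k := k)
    have := hmult _ hp
    rw [mult_pP hp, mult_pP hp, k0, k2, k3, k4, mult_self hp] at this
    have := b1 2; have := b2 2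
    omega
  have e4 : μ 4 = μ' 4 := by
    obtain ⟨hp, k0, k2, k3, k4⟩ := mT (k := k)
    have := hmult _ hp
    rw [mult_pP hp, mult_pP hp, k0, k2, k3, k4, mult_self hp] at this
    have := b1 4; have := b2 4
    omega
  have e3 : μ 3 = μ' 3 := by
    obtain ⟨hp, k0, k2, k3, k4⟩ := mT1 (k := k)
    have := hmult _ hp
    rw [mult_pP hp, mult_pP hp, k0, k2, k3, k4, mult_self hp] at this
    have := b1 3; have := b2 3
    omega
  have e0 : μ 0 = μ' 0 := by
    have := b1 0; have := b2 0; have := b1 2; have := b1 3; have := b2 2; have := b2 3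
    omega
  funext i
  apply Fin.ext
  fin_cases i
  · exact e0
  · exact e1
  · exact e2
  · exact e3
  · exact e4

end mult

end R169.Ex
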