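import Mathlib

/-!
# Row 169, module EX, normality: traces of monomials in 7-th roots (helper57)

`L/K` with basis the monomials `θ^c`, `c ∈ [0,7)^I`, `θ_i^7 = v_i ∈ A`, `A` integrally closed in `K`, `7` a unit
of `A`.  If `f ∈ L` is integral over `A` then `(∏ v_i) f ∈ A[θ]`.
-/

set_option autoImplicit false

namespace R169

namespace Ex

open Finset

section trace

variable {K L I : Type} [Field K] [Field L] [Algebra K L] [Fintype I] [DecidableEq I]

/-- monomials -/
def mo (θ : I → L) (m : I → ℕ) : L := ∏ i, θ i ^ m i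

omit [DecidableEq I] in
theorem mo_add (θ : I → L) (a b : I → ℕ) : mo θ (a + b) = mo θ a * mo θ b := by
  unfold mo
  rw [← Finset.prod_mul_distrib]
  exact Finset.prod_congr rfl fun i _ => pow_add _ _ _

omit [DecidableEq I] in
/-- reduction of exponents mod 7 -/
theorem mo_red {θ : I → L} {u : I → K} (hθ : ∀ i, θ i ^ 7 = algebraMap K L (u i)) (m : I → ℕ) :
    mo θ m = (∏ i, u i ^ (m i / 7)) • mo θ (fun i => m i % 7) := by
  unfold mo
  rw [Algebra.smul_def, map_prod, ← Finset.prod_mul_distrib]
  refine Finset.prod_congr rfl fun i _ => ?_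
  rw [map_pow, ← hθ i, ← pow_mul, ← pow_add]
  congr 1
  show m i = 7 * (m i / 7) + m i % 7
  omega

theorem trace_mo_zero {θ : I → L} {u : I → K} (hθ : ∀ i, θ i ^ 7 = algebraMap K L (u i))
    (B : Module.Basis (I → Fin 7) K L) (hB : ∀ c, B c = mo θ (fun i => (c i : ℕ)))
    {m : I → ℕ} (hm : ¬ ∀ i, 7 ∣ m i) : Algebra.trace K L (mo θ m) = 0 := by
  rw [Algebra.trace_eq_matrix_trace B, Matrix.trace]
  refine Finset.sum_eq_zero fun c _ => ?_
  rw [Matrix.diag_apply, Algebra.leftMulMatrix_eq_repr_mul, hB c, ← mo_add, mo_red hθ]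
  have e : mo θ (fun i => (m + fun i => (c i : ℕ)) i % 7) =
      B (fun i => ⟨(m i + (c i : ℕ)) % 7, Nat.mod_lt _ (by norm_num)⟩) := by
    rw [hB]; rfl
  rw [e, map_smul, Module.Basis.repr_self, Finsupp.smul_single, Finsupp.single_apply, if_neg]
  intro h
  apply hm
  intro i
  have h1 := congrFun h i
  have h2 : (m i + (c i : ℕ)) % 7 = c i := congrArg Fin.val h1
  have h3 := (c i).isLt
  omega

theorem coeff_integral {A : Type} [CommRing A] [Algebra A K] [Algebra A L] [IsScalarTower A K L]
    (hA : ∀ x : K, IsIntegral A x → ∃ r : A, algebraMap A K r = x)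
    {θ : I → L} {v : I → A} (hθ : ∀ i, θ i ^ 7 = algebraMap A L (v i)) (h7 : IsUnit (7 : A))
    (B : Module.Basis (I → Fin 7) K L) (hB : ∀ c, B c = mo θ (fun i => (c i : ℕ)))
    {f : L} (hf : IsIntegral A f) (c : I → Fin 7) :
    ∃ r : A, algebraMap A K r = algebraMap A K (∏ i, v i) * B.repr f c := by
  have hθ' : ∀ i, θ i ^ 7 = algebraMap K L (algebraMap A K (v i)) := fun i => by
    rw [hθ i, IsScalarTower.algebraMap_apply A K L]
  have hint : ∀ i, IsIntegral A (θ i) := fun i =>
    IsIntegral.of_pow (by norm_num : 0 < 7) (by rw [hθ i]; exact isIntegral_algebraMap)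
  have hfin : FiniteDimensional K L := Module.Finite.of_basis B
  set g : L := f * mo θ (fun i => 7 - (c i : ℕ)) with hg
  have hgi : IsIntegral A g := by
    refine hf.mul ?_
    unfold mo
    exact IsIntegral.prod _ fun i _ => (hint i).pow _
  obtain ⟨r, hr⟩ := hA _ (Algebra.isIntegral_trace (L := K) hgi)
  have htr : Algebra.trace K L g =
      algebraMap A K (7 ^ Fintype.card I) * (algebraMap A K (∏ i, v i) * B.repr f c) := by
    have e1 : g = ∑ d, B.repr f d • (mo θ ((fun i => (d i : ℕ)) + fun i => 7 - (c i : ℕ))) := by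
      rw [hg]
      conv_lhs => rw [← B.sum_repr f]
      rw [Finset.sum_mul]
      refine Finset.sum_congr rfl fun d _ => ?_
      rw [smul_mul_assoc, hB d, mo_add]
    rw [e1, map_sum, Finset.sum_eq_single c]
    · have e2 : mo θ ((fun i => (c i : ℕ)) + fun i => 7 - (c i : ℕ)) =
          algebraMap K L (algebraMap A K (∏ i, v i)) := by
        unfold mo
        rw [map_prod, map_prod]
        refine Finset.prod_congr rfl fun i _ => ?_
        rw [← hθ' i]
        congr 1
        simp only [Pi.add_apply]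
        have := (c i).isLt
        omega
      rw [e2, map_smul, Algebra.trace_algebraMap, Module.finrank_eq_card_basis B, smul_eq_mul,
        Fintype.card_fun, Fintype.card_fin, nsmul_eq_mul, map_pow, map_ofNat]
      push_cast
      ring
    · intro d _ hd
      rw [map_smul, trace_mo_zero hθ' B hB, smul_zero]
      intro h
      apply hd
      funext i
      have h1 : 7 ∣ (d i : ℕ) + (7 - (c i : ℕ)) := h i
      have h2 := (c i).isLt
      have h3 := (d i).isLt
      apply Fin.ext
      omega
    · intro h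
      exact absurd (Finset.mem_univ c) h
  obtain ⟨w, hw⟩ := (h7.pow (Fintype.card I)).exists_left_inv
  refine ⟨w * r, ?_⟩
  rw [map_mul, hr, htr, ← mul_assoc, ← map_mul, hw, map_one, one_mul]

/-- if `f` is integral over `A` then `(∏ v_i) f ∈ A[θ]` -/
theorem mul_mem_of_integral {A : Type} [CommRing A] [Algebra A K] [Algebra A L]
    [IsScalarTower A K L]
    (hA : ∀ x : K, IsIntegral A x → ∃ r : A, algebraMap A K r = x)
    {θ : I → L} {v : I → A} (hθ : ∀ i, θ i ^ 7 = algebraMap A L (v i)) (h7 : IsUnit (7 : A))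
    (B : Module.Basis (I → Fin 7) K L) (hB : ∀ c, B c = mo θ (fun i => (c i : ℕ)))
    {f : L} (hf : IsIntegral A f) :
    ∃ r : (I → Fin 7) → A, algebraMap A L (∏ i, v i) * f =
      ∑ c, algebraMap A L (r c) * mo θ (fun i => (c i : ℕ)) := by
  choose r hr using fun c => coeff_integral hA hθ h7 B hB hf c
  refine ⟨r, ?_⟩
  conv_lhs => rw [← B.sum_repr f]
  rw [Finset.mul_sum]
  refine Finset.sum_congr rfl fun c _ => ?_
  rw [IsScalarTower.algebraMap_apply A K L (r c), hr c, map_mul, ← IsScalarTower.algebraMap_apply,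
    Algebra.smul_def, hB c, mul_assoc]

end trace

end Ex

end R169
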