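import Crest.Agent.R169.ExGD

/-!
# Row 169, module EX, explicit parameters (helper71). Definitions.

`η = q_0 q_1 q_2 q_3 q_4`, `ζ = q_0 + q_2 + c q_4` with `c ∈ k`, `c ≠ 0`, `c^7 ≠ 1`.
`J n = B_{n-1} + η B_{n-1} + ζ B_{n-1}` (the ideal `(x, ηx, ζx)` in degree `n`).
-/

set_option autoImplicit false

namespace R169

namespace Ex

variable {k L : Type} [Field k] [Field L] [Algebra k L]

def QD.et (Q : QD k L) : L := Q.q 0 * Q.q 1 * Q.q 2 * Q.q 3 * Q.q 4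
def QD.ze (Q : QD k L) (c : k) : L := Q.q 0 + Q.q 2 + c • Q.q 4

def QD.J (Q : QD k L) (c : k) (n : ℤ) : Submodule k L :=
  Q.Bn (n - 1) ⊔ sm Q.et (Q.Bn (n - 1)) ⊔ sm (Q.ze c) (Q.Bn (n - 1))

theorem QD.et_mem (Q : QD k L) : Q.et ∈ Q.Bn 1 := by
  have h : ∀ j : ZMod 5, lam (fun _ => 1) j ≤ 1 := by decide
  have := Q.mon_mem h
  rw [mon_five] at this
  simpa [QD.et] using this

theorem QD.ze_mem (Q : QD k L) (c : k) : Q.ze c ∈ Q.Bn 1 :=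
  Submodule.add_mem _ (Submodule.add_mem _ (Q.q_mem 0) (Q.q_mem 2)) (Submodule.smul_mem _ _ (Q.q_mem 4))

theorem QD.x_J (Q : QD k L) (c : k) {m n : ℤ} {b : L} (hb : b ∈ Q.Bn m) (h : m ≤ n - 1) : b ∈ Q.J c n :=
  Submodule.mem_sup_left (Submodule.mem_sup_left (Q.mono h hb))

theorem QD.et_J (Q : QD k L) (c : k) {m n : ℤ} {b : L} (hb : b ∈ Q.Bn m) (h : m ≤ n - 1) :
    Q.et * b ∈ Q.J c n :=
  Submodule.mem_sup_left (Submodule.mem_sup_right ⟨b, Q.mono h hb, rfl⟩)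

theorem QD.ze_J (Q : QD k L) (c : k) {m n : ℤ} {b : L} (hb : b ∈ Q.Bn m) (h : m ≤ n - 1) :
    Q.ze c * b ∈ Q.J c n :=
  Submodule.mem_sup_right ⟨b, Q.mono h hb, rfl⟩

/-- `J` is an ideal -/
theorem QD.mul_J (Q : QD k L) (c : k) {m n : ℤ} {a w : L} (ha : a ∈ Q.Bn m) (hw : w ∈ Q.J c n) :
    a * w ∈ Q.J c (m + n) := by
  have key : ∀ b ∈ Q.Bn (n - 1), a * b ∈ Q.Bn (m + n - 1) := fun b hb => by
    have := Q.mul_mem ha hb
    rwa [show m + (n - 1) = m + n - 1 by ring] at this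
  unfold QD.J at hw ⊢
  rw [Submodule.mem_sup] at hw
  obtain ⟨y, hy, z, hz, rfl⟩ := hw
  rw [Submodule.mem_sup] at hy
  obtain ⟨y1, hy1, y2, hy2, rfl⟩ := hy
  obtain ⟨b2, hb2, rfl⟩ := hy2
  obtain ⟨b3, hb3, rfl⟩ := hz
  rw [mul_add, mul_add]
  refine Submodule.add_mem _ (Submodule.add_mem _ ?_ ?_) ?_
  · exact Submodule.mem_sup_left (Submodule.mem_sup_left (key _ hy1))
  · refine Submodule.mem_sup_left (Submodule.mem_sup_right ⟨a * b2, key _ hb2, ?_⟩)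
    show Q.et * (a * b2) = a * (Q.et * b2)
    ring
  · refine Submodule.mem_sup_right ⟨a * b3, key _ hb3, ?_⟩
    show Q.ze c * (a * b3) = a * (Q.ze c * b3)
    ring

/-- membership of a monomial: decidable side condition -/
theorem QD.mon5_mem (Q : QD k L) {n : ℤ} (a0 a1 a2 a3 a4 : ℕ)
    (h0 : (a0 : ℤ) + a1 - a3 ≤ n) (h1 : (a1 : ℤ) + a2 - a4 ≤ n) (h2 : (a2 : ℤ) + a3 - a0 ≤ n)
    (h3 : (a3 : ℤ) + a4 - a1 ≤ n) (h4 : (a4 : ℤ) + a0 - a2 ≤ n) :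
    Q.q 0 ^ a0 * Q.q 1 ^ a1 * Q.q 2 ^ a2 * Q.q 3 ^ a3 * Q.q 4 ^ a4 ∈ Q.Bn n := by
  let a : Ev := fun i : ZMod 5 => if i = 0 then a0 else if i = 1 then a1 else if i = 2 then a2
    else if i = 3 then a3 else a4
  have e : mon Q.q a = Q.q 0 ^ a0 * Q.q 1 ^ a1 * Q.q 2 ^ a2 * Q.q 3 ^ a3 * Q.q 4 ^ a4 := by
    rw [mon_five]; rfl
  rw [← e]
  refine Q.mon_mem ?_
  rw [forall5]
  exact ⟨h0, h1, h2, h3, h4⟩

end Ex

end R169
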