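import Crest.Agent.R169.ExEval
import Crest.Agent.R169.ExParD
import Crest.Agent.R169.ExCountD

/-!
# Row 169, module EX: `g f ∈ B_{n+1} ⇒ f ∈ B_n` for `f ∈ k[q]`, `g = q_0 q_1 q_2 q_3 q_4` (helper71).
-/

set_option autoImplicit false

namespace R169

namespace Ex

open Polynomial

section deg

variable {k : Type} [Field k]

/-- degree comparison in `F1` -/
theorem deg_le (Γ : Ev) (s1 s2 : Finset Ev) (h1 : ∀ μ ∈ s1, Clus μ) (F H : Ev → k)
    (hF : ∀ μ ∈ s1, F μ ≠ 0) (M : ℤ) (hM : ∀ ν ∈ s2, lam ν 0 ≤ M)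
    (e : (∏ i, aF k i ^ Γ i) * ∑ μ ∈ s1, F μ • (∏ i, aF k i ^ μ i : F1 k) =
      ∑ ν ∈ s2, H ν • (∏ i, aF k i ^ ν i : F1 k)) :
    ∀ μ ∈ s1, lam Γ 0 + lam μ 0 ≤ M := by
  classical
  intro μ hμ
  obtain ⟨N, hN⟩ : ∃ N : ℕ, ∀ μ ∈ s1 ∪ s2, μ 2 + μ 3 ≤ N :=
    ⟨(s1 ∪ s2).sup fun μ => μ 2 + μ 3, fun μ hμ =>
      Finset.le_sup (f := fun μ : Ev => μ 2 + μ 3) hμ⟩
  set N1 : ℕ := Γ 2 + Γ 3 with hN1
  have hs1 : ∀ μ ∈ s1, μ 2 + μ 3 ≤ N := fun μ hμ => hN μ (Finset.mem_union_left _ hμ)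
  have hs2 : ∀ μ ∈ s2, μ 2 + μ 3 ≤ N1 + N := fun μ hμ =>
    (hN μ (Finset.mem_union_right _ hμ)).trans (Nat.le_add_left _ _)
  obtain ⟨μ', hμ', _, hmax, hdeg, hne⟩ := clus_top s1 h1 F N hs1 ⟨μ, hμ, hF μ hμ⟩
  have hscal : ∀ (x : k) (y : A2 k), algebraMap (A2 k) (F1 k) (C (C x) * y) =
      x • algebraMap (A2 k) (F1 k) y := by
    intro x y
    rw [map_mul, Algebra.smul_def]
    congr 1
  have hid : pP N1 Γ * ∑ ν ∈ s1, C (C (F ν)) * pP N ν = ∑ ν ∈ s2, C (C (H ν)) * pP (N1 + N) ν := by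
    apply IsFractionRing.injective (A2 k) (F1 k)
    rw [map_mul, map_sum, map_sum, map_pP le_rfl]
    have e1 : ∑ ν ∈ s1, algebraMap (A2 k) (F1 k) (C (C (F ν)) * pP N ν) =
        algebraMap (A2 k) (F1 k) (pD k) ^ N * ∑ μ ∈ s1, F μ • (∏ i, aF k i ^ μ i : F1 k) := by
      rw [Finset.mul_sum]
      refine Finset.sum_congr rfl fun ν hν => ?_
      rw [hscal, map_pP (hs1 ν hν), mul_smul_comm]
    have e2 : ∑ ν ∈ s2, algebraMap (A2 k) (F1 k) (C (C (H ν)) * pP (N1 + N) ν) =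
        algebraMap (A2 k) (F1 k) (pD k) ^ (N1 + N) * ∑ μ ∈ s2, H μ • (∏ i, aF k i ^ μ i : F1 k) := by
      rw [Finset.mul_sum]
      refine Finset.sum_congr rfl fun ν hν => ?_
      rw [hscal, map_pP (hs2 ν hν), mul_smul_comm]
    rw [e1, e2, ← e, pow_add]
    ring
  have hnd : ∀ (N : ℕ) (ν : Ev), ν 2 + ν 3 ≤ N →
      ((pP (k := k) N ν).natDegree : ℤ) = N + lam ν 0 := by
    intro N ν h
    rw [natDegree_pP, lam0]
    omega
  have hL : (pP (k := k) N1 Γ * ∑ ν ∈ s1, C (C (F ν)) * pP N ν).natDegree =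
      (pP (k := k) N1 Γ).natDegree + (pP (k := k) N μ').natDegree := by
    rw [natDegree_mul (pP_ne _ _) hne, hdeg]
  have hR : ((∑ ν ∈ s2, C (C (H ν)) * pP (k := k) (N1 + N) ν).natDegree : ℤ) ≤
      max 0 (N1 + N + M) := by
    have : (∑ ν ∈ s2, C (C (H ν)) * pP (k := k) (N1 + N) ν).natDegree ≤
        (max 0 ((N1 : ℤ) + N + M)).toNat := by
      refine natDegree_sum_le_of_forall_le _ _ fun ν hν => ?_
      refine (natDegree_C_mul_le _ _).trans ?_
      have h1 := hnd (N1 + N) ν (hs2 ν hν)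
      have h2 := hM ν hν
      push_cast at h1
      omega
    omega
  have hne2 : (∑ ν ∈ s2, C (C (H ν)) * pP (k := k) (N1 + N) ν) ≠ 0 := by
    rw [← hid]
    exact mul_ne_zero (pP_ne _ _) hne
  rw [hid] at hL
  rw [hL] at hR
  have k1 := hnd N1 Γ le_rfl
  have k2 := hnd N μ' (hs1 μ' hμ')
  have k3 := hnd N μ (hs1 μ hμ)
  have k4 := hmax μ hμ (hF μ hμ)
  have hpos : 0 ≤ (N1 : ℤ) + N + M := by
    by_contra hneg
    -- then all ν ∈ s2 have negative degree: impossible unless s2 = ∅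
    have : s2 = ∅ := by
      by_contra hs
      obtain ⟨ν, hν⟩ := Finset.nonempty_iff_ne_empty.2 hs
      have h1 := hnd (N1 + N) ν (hs2 ν hν)
      have h2 := hM ν hν
      push_cast at h1
      omega
    rw [this, Finset.sum_empty] at hne2
    exact hne2 rfl
  push_cast at hR
  omega

end deg

/-- `7 μ + c` -/
def combZ (c : ZMod 5 → Fin 7) (μ : Ev) : Ev := fun i => 7 * μ i + (c i : ℕ)

theorem combZ_r7_d7 (a : Ev) : combZ (r7 a) (d7 a) = a := by
  funext i
  unfold combZ r7 d7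
  simp only
  exact Nat.div_add_mod (a i) 7

theorem lam_combZ (c : ZMod 5 → Fin 7) (μ : Ev) (i : ZMod 5) :
    lam (combZ c μ) i = 7 * lam μ i + lam (fun j => (c j : ℕ)) i := by
  unfold lam combZ
  push_cast
  ring

/-- shift by `(1,1,1,1,1)` -/
def sh (a : Ev) : Ev := a + fun _ => 1

theorem lam_one (i : ZMod 5) : lam (fun _ => 1) i = 1 := by revert i; decide

/-- carry -/
def car (c : ZMod 5 → Fin 7) : Ev := fun i => if (c i : ℕ) = 6 then 1 else 0

theorem d7_sh (a : Ev) : d7 (sh a) = d7 a + car (r7 a) := by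
  funext i
  show (a i + 1) / 7 = a i / 7 + (if a i % 7 = 6 then 1 else 0)
  split_ifs <;> omega

theorem r7_sh_iff (a b : Ev) : r7 (sh a) = r7 (sh b) ↔ r7 a = r7 b := by
  constructor
  · intro h
    funext i
    have h1 : (a i + 1) % 7 = (b i + 1) % 7 := congrArg Fin.val (congrFun h i)
    apply Fin.ext
    show a i % 7 = b i % 7
    omega
  · intro h
    funext i
    have h1 : a i % 7 = b i % 7 := congrArg Fin.val (congrFun h i)
    apply Fin.ext
    show (a i + 1) % 7 = (b i + 1) % 7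
    omega

section om

variable {k : Type} [Field k]

/-- class component -/
noncomputable def cl (k : Type) [Field k] (c : ZMod 5 → Fin 7) : (Ev →₀ k) →ₗ[k] F1 k := by
  classical
  exact Finsupp.linearCombination k (fun a => if r7 a = c then (∏ i, aF k i ^ d7 a i : F1 k) else 0)

theorem cl_apply (c : ZMod 5 → Fin 7) (G : Ev →₀ k) :
    cl k c G = ∑ a ∈ G.support.filter (fun a => r7 a = c), (G a) • (∏ i, aF k i ^ d7 a i : F1 k) := by
  classical
  unfold cl
  rw [Finsupp.linearCombination_apply, Finsupp.sum, Finset.sum_filter]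
  refine Finset.sum_congr rfl fun a _ => ?_
  split_ifs
  · rfl
  · rw [smul_zero]

theorem cl_zero [IsAlgClosed k] (h7 : (7 : k) ≠ 0) (G : Ev →₀ k) (h0 : evl k (qOm k h7) G = 0)
    (c : ZMod 5 → Fin 7) : cl k c G = 0 := by
  rw [cl_apply]
  exact class_zero h7 G h0 c

theorem cl_comb (c : ZMod 5 → Fin 7) (G : Ev →₀ k) :
    cl k c G = ∑ μ ∈ (G.support.filter (fun a => r7 a = c)).image d7,
      (G (combZ c μ)) • (∏ i, aF k i ^ μ i : F1 k) := by
  classical
  rw [cl_apply, Finset.sum_image]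
  · refine Finset.sum_congr rfl fun a ha => ?_
    rw [Finset.mem_filter] at ha
    rw [← ha.2, combZ_r7_d7]
  · intro a ha b hb hab
    have ha' := (Finset.mem_filter.1 ha).2
    have hb' := (Finset.mem_filter.1 hb).2
    rw [← combZ_r7_d7 a, ← combZ_r7_d7 b, ha', hb', hab]

theorem cl_sh (a0 : Ev) (F : Ev →₀ k) :
    cl k (r7 (sh a0)) (Finsupp.mapDomain sh F) =
      (∏ i, aF k i ^ car (r7 a0) i) * cl k (r7 a0) F := by
  classical
  induction F using Finsupp.induction_linear with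
  | zero => simp
  | add f g hf hg => rw [Finsupp.mapDomain_add, map_add, map_add, hf, hg, mul_add]
  | single a x =>
    rw [Finsupp.mapDomain_single]
    unfold cl
    rw [Finsupp.linearCombination_single, Finsupp.linearCombination_single]
    by_cases h : r7 a = r7 a0
    · rw [if_pos ((r7_sh_iff a a0).2 h), if_pos h, mul_smul_comm]
      congr 1
      rw [← Finset.prod_mul_distrib]
      refine Finset.prod_congr rfl fun i _ => ?_
      rw [d7_sh, h, ← pow_add]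
      congr 1
      show d7 a i + car (r7 a0) i = _
      ring
    · rw [if_neg (fun h' => h ((r7_sh_iff a a0).1 h')), if_neg h, smul_zero, mul_zero]

theorem om_nzd [IsAlgClosed k] (h7 : (7 : k) ≠ 0) {n : ℤ} (F H : Ev →₀ k)
    (hF : ∀ a ∈ F.support, Std a) (hH : ∀ b ∈ H.support, Std b ∧ lam b 0 ≤ n + 1)
    (e : evl k (qOm k h7) (Finsupp.mapDomain sh F) = evl k (qOm k h7) H) :
    ∀ a ∈ F.support, lam a 0 ≤ n := by
  classical
  intro a0 ha0
  have h1 : cl k (r7 (sh a0)) (Finsupp.mapDomain sh F - H) = 0 :=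
    cl_zero h7 _ (by rw [map_sub, e, sub_self]) _
  rw [map_sub, sub_eq_zero, cl_sh, cl_comb, cl_comb] at h1
  have h2 := deg_le (car (r7 a0)) _ _ (by
      intro μ hμ
      rw [Finset.mem_image] at hμ
      obtain ⟨a, ha, rfl⟩ := hμ
      exact d7_clus (hF a (Finset.mem_filter.1 ha).1)) (fun μ => F (combZ (r7 a0) μ))
    (fun μ => H (combZ (r7 (sh a0)) μ)) (by
      intro μ hμ
      rw [Finset.mem_image] at hμ
      obtain ⟨a, ha, rfl⟩ := hμ
      rw [Finset.mem_filter] at ha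
      rw [← ha.2, combZ_r7_d7]
      exact Finsupp.mem_support_iff.1 ha.1)
    ((n + 1 - lam (fun j => (r7 (sh a0) j : ℕ)) 0) / 7) (by
      intro ν hν
      rw [Finset.mem_image] at hν
      obtain ⟨b, hb, rfl⟩ := hν
      rw [Finset.mem_filter] at hb
      have h3 := (hH b hb.1).2
      rw [← combZ_r7_d7 b, lam_combZ, hb.2] at h3
      omega) h1 (d7 a0) (by
      rw [Finset.mem_image]
      exact ⟨a0, Finset.mem_filter.2 ⟨ha0, rfl⟩, rfl⟩)
  have h4 : lam (sh a0) 0 = 7 * (lam (d7 a0) 0 + lam (car (r7 a0)) 0) +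
      lam (fun j => (r7 (sh a0) j : ℕ)) 0 := by
    rw [← lam_add, ← d7_sh, ← lam_combZ, combZ_r7_d7]
  have h5 : lam (sh a0) 0 = lam a0 0 + 1 := by
    unfold sh
    rw [lam_add, lam_one]
  omega

variable {L : Type} [Field L] [Algebra k L]

theorem QD.exists_std (Q : QD k L) {n : ℤ} {l : L} (h : l ∈ Q.Bn n) :
    ∃ G : Ev →₀ k, (∀ a ∈ G.support, Std a ∧ ∀ i, lam a i ≤ n) ∧ evl k Q.q G = l := by
  have e : {l | ∃ a : Ev, Std a ∧ (∀ i, lam a i ≤ n) ∧ l = mon Q.q a} =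
      (fun a => mon Q.q a) '' {a : Ev | Std a ∧ ∀ i, lam a i ≤ n} := by
    ext x
    constructor
    · rintro ⟨a, hs, ha, rfl⟩
      exact ⟨a, ⟨hs, ha⟩, rfl⟩
    · rintro ⟨a, ⟨hs, ha⟩, rfl⟩
      exact ⟨a, hs, ha, rfl⟩
  rw [Q.Bn_std, e, Finsupp.mem_span_image_iff_linearCombination] at h
  obtain ⟨G, hG, hl⟩ := h
  refine ⟨G, fun a ha => ?_, hl⟩
  exact (Finsupp.mem_supported k G).1 hG ha

theorem evl_mem (Q : QD k L) {n : ℤ} (G : Ev →₀ k) (h : ∀ a ∈ G.support, ∀ i, lam a i ≤ n) :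
    evl k Q.q G ∈ Q.Bn n := by
  unfold evl
  rw [Finsupp.linearCombination_apply]
  exact Submodule.sum_mem _ fun a ha => Submodule.smul_mem _ _ (Q.mon_mem (h a ha))

theorem evl_mapDomain {S : Type} [CommRing S] [Algebra k S] (q' : ZMod 5 → S) (φ : Ev → Ev)
    (G : Ev →₀ k) : evl k q' (Finsupp.mapDomain φ G) =
      Finsupp.linearCombination k (fun a => mon q' (φ a)) G := by
  unfold evl
  rw [Finsupp.linearCombination_mapDomain]
  rfl

theorem mon_sh {S : Type} [CommSemiring S] (q' : ZMod 5 → S) (a : Ev) :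
    mon q' (sh a) = (q' 0 * q' 1 * q' 2 * q' 3 * q' 4) * mon q' a := by
  unfold sh
  rw [mon_add, mon_five q' (fun _ => 1), mul_comm]
  simp

theorem evl_sh {S : Type} [CommRing S] [Algebra k S] (q' : ZMod 5 → S) (G : Ev →₀ k) :
    evl k q' (Finsupp.mapDomain sh G) = (q' 0 * q' 1 * q' 2 * q' 3 * q' 4) * evl k q' G := by
  rw [evl_mapDomain]
  unfold evl
  rw [Finsupp.linearCombination_apply, Finsupp.linearCombination_apply, Finsupp.sum, Finsupp.sum,
    Finset.mul_sum]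
  refine Finset.sum_congr rfl fun a _ => ?_
  rw [mon_sh, mul_smul_comm]

theorem evl_rot {S : Type} [CommRing S] [Algebra k S] (q' : ZMod 5 → S) (e : ZMod 5) (G : Ev →₀ k) :
    evl k q' (Finsupp.mapDomain (rot e) G) = evl k (fun i => q' (i - e)) G := by
  rw [evl_mapDomain]
  unfold evl
  rw [Finsupp.linearCombination_apply, Finsupp.linearCombination_apply]
  refine Finset.sum_congr rfl fun a _ => ?_
  simp only
  rw [mon_rot]

theorem rot_inj (e : ZMod 5) : Function.Injective (rot e) := by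
  intro a b h
  funext i
  have := congrFun h (i - e)
  unfold rot at this
  simpa using this

theorem rot_sh (e : ZMod 5) (a : Ev) : rot e (sh a) = sh (rot e a) := rfl

/-- `g f ∈ B_{n+1} ⇒ f ∈ B_n` -/
theorem QD.nzd [IsAlgClosed k] (h7 : (7 : k) ≠ 0) (Q : QD k L) {f : L} {n : ℤ} (hf : f ∈ Q.BU)
    (h : Q.et * f ∈ Q.Bn (n + 1)) : f ∈ Q.Bn n := by
  classical
  obtain ⟨m, hm⟩ := (Q.mem_BU f).1 hf
  obtain ⟨F, hF, rfl⟩ := Q.exists_std hm
  obtain ⟨H, hH, e⟩ := Q.exists_std h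
  have h0 : evl k Q.q (Finsupp.mapDomain sh F - H) = 0 := by
    rw [map_sub, evl_sh, e]
    unfold QD.et
    exact sub_self _
  refine evl_mem Q F fun a ha j => ?_
  have h1 := Q.evl_zero (fun i => qOm k h7 (i - j)) (rel_rot (qOm_rel k h7) j) _ h0
  rw [← evl_rot, Finsupp.mapDomain_sub, map_sub, sub_eq_zero, ← Finsupp.mapDomain_comp] at h1
  have h2 : (rot j ∘ sh : Ev → Ev) = sh ∘ rot j := rfl
  rw [h2, Finsupp.mapDomain_comp] at h1
  have h3 := om_nzd h7 (n := n) (Finsupp.mapDomain (rot j) F) (Finsupp.mapDomain (rot j) H) (by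
      intro b hb
      rw [Finsupp.mapDomain_support_of_injective (rot_inj j), Finset.mem_image] at hb
      obtain ⟨a, ha, rfl⟩ := hb
      exact std_rot (hF a ha).1) (by
      intro b hb
      rw [Finsupp.mapDomain_support_of_injective (rot_inj j), Finset.mem_image] at hb
      obtain ⟨a, ha, rfl⟩ := hb
      refine ⟨std_rot (hH a ha).1, ?_⟩
      rw [lam_rot, zero_add]
      exact (hH a ha).2 j) h1 (rot j a) (by
      rw [Finsupp.mapDomain_support_of_injective (rot_inj j), Finset.mem_image]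
      exact ⟨a, ha, rfl⟩)
  rwa [lam_rot, zero_add] at h3

end om

end Ex

end R169
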