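import Crest.Agent.R169.Defs2

/-!
# Row 169, module EX, piece EX_NORM1 (1 h): normality of `T D` from homogeneous elements (general `D`)

`F ∈ Frac (T D)` integral over `T D`.  `Frac (T D) ⊂ Frac L[X]`, `L[X]` is integrally closed, so `F = f ∈ L[X]` (integral over `T D`).
`homog`: each `monomial n (coeff f n)` is integral: for `c ∈ kˣ` the automorphism `X ↦ cX` of `L[X]` preserves `T D`, so `f(cX) = ∑ c^n f_n X^n`
is integral; `k` infinite: choose `deg f + 1` distinct `c`, Vandermonde: each `f_nX^n` is a `k`-combination.  Then `f_n ∈ B n` by hypothesis: `f ∈ T D`.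
-/

set_option autoImplicit false

namespace R169

namespace Ex

variable {k L : Type} [Field k] [Field L] [Algebra k L]

/-- a polynomial function with values in a vector space vanishing everywhere has zero coefficients -/
private theorem norm1_vand [Infinite k] {V : Type} [AddCommGroup V] [Module k V] (s : Finset ℕ)
    (v : ℕ → V) (h : ∀ c : k, ∑ m ∈ s, c ^ m • v m = 0) (n : ℕ) (hn : n ∈ s) : v n = 0 := by
  rw [← Module.forall_dual_apply_eq_zero_iff k]
  intro φ
  have h1 : (∑ m ∈ s, Polynomial.monomial m (φ (v m)) : Polynomial k) = 0 := by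
    refine Polynomial.funext fun c => ?_
    have h2 := congrArg φ (h c)
    rw [map_sum, map_zero] at h2
    rw [Polynomial.eval_finset_sum, Polynomial.eval_zero, ← h2]
    refine Finset.sum_congr rfl fun m _ => ?_
    rw [Polynomial.eval_monomial, map_smul, smul_eq_mul, mul_comm]
  have h3 := congrArg (fun q => Polynomial.coeff q n) h1
  simp only [Polynomial.finset_sum_coeff, Polynomial.coeff_monomial, Polynomial.coeff_zero] at h3
  rw [Finset.sum_ite_eq' s n, if_pos hn] at h3
  exact h3

private noncomputable def norm1_sc (c : k) : Polynomial L →+* Polynomial L :=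
  Polynomial.eval₂RingHom Polynomial.C (Polynomial.C (algebraMap k L c) * Polynomial.X)

private theorem norm1_sc_coeff (c : k) (f : Polynomial L) (n : ℕ) :
    (norm1_sc c f).coeff n = c ^ n • f.coeff n := by
  have : norm1_sc c f = f.comp (Polynomial.C (algebraMap k L c) * Polynomial.X) := rfl
  rw [this, Polynomial.comp_C_mul_X_coeff, Algebra.smul_def, map_pow, mul_comm]

private theorem norm1_sc_mem (D : GD k L) (c : k) (f : Polynomial L) (hf : f ∈ T D) :
    norm1_sc c f ∈ T D := by
  intro n
  rw [norm1_sc_coeff]
  exact Submodule.smul_mem _ _ (hf n)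

private theorem norm1_integral_sc (D : GD k L) (c : k) (f : Polynomial L)
    (hf : IsIntegral (T D) f) : IsIntegral (T D) (norm1_sc c f) := by
  refine IsIntegral.map_of_comp_eq
    (((norm1_sc c).comp (T D).val.toRingHom).codRestrict (T D) (fun x => norm1_sc_mem D c x.1 x.2))
    (norm1_sc c) ?_ hf
  rfl

theorem isIntegral_monomial [Infinite k] (D : GD k L) (f : Polynomial L) (hf : IsIntegral (T D) f) (n : ℕ) :
    IsIntegral (T D) (Polynomial.monomial n (f.coeff n)) := by
  classical
  let S : Submodule k (Polynomial L) :=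
    (Subalgebra.toSubmodule (integralClosure (T D) (Polynomial L))).restrictScalars k
  have hS : ∀ g, g ∈ S ↔ IsIntegral (T D) g := fun g => Iff.rfl
  by_cases hn : f.coeff n = 0
  · rw [hn, Polynomial.monomial_zero_right]
    exact isIntegral_zero
  have h1 := norm1_vand (k := k) (V := Polynomial L ⧸ S) f.support
    (fun m => S.mkQ (Polynomial.monomial m (f.coeff m))) ?_ n (Polynomial.mem_support_iff.2 hn)
  · rw [Submodule.mkQ_apply, Submodule.Quotient.mk_eq_zero] at h1
    exact h1
  · intro c
    have h2 : ∑ m ∈ f.support, c ^ m • S.mkQ (Polynomial.monomial m (f.coeff m)) =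
        S.mkQ (norm1_sc c f) := by
      simp only [← map_smul]
      rw [← map_sum]
      congr 1
      ext m
      rw [norm1_sc_coeff, Polynomial.finset_sum_coeff]
      simp only [Polynomial.coeff_smul, Polynomial.coeff_monomial, smul_ite, smul_zero]
      rw [Finset.sum_ite_eq' f.support m (fun m => c ^ m • f.coeff m)]
      split_ifs with h
      · rfl
      · rw [Polynomial.notMem_support_iff.1 h, smul_zero]
    rw [h2, Submodule.mkQ_apply, Submodule.Quotient.mk_eq_zero]
    exact norm1_integral_sc D c f hf

theorem normal_of_homog [Infinite k] (D : GD k L)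
    (h : ∀ (n : ℕ) (f : L), IsIntegral (T D) (Polynomial.monomial n f) → f ∈ D.B n) :
    IsIntegrallyClosed (T D) := by
  have key : ∀ f : Polynomial L, IsIntegral (T D) f → f ∈ T D := fun f hf n =>
    h n _ (isIntegral_monomial D f hf n)
  rw [isIntegrallyClosed_iff (FractionRing (T D))]
  intro x hx
  let M := FractionRing (Polynomial L)
  have hinj : Function.Injective (algebraMap (T D) M) := by
    rw [IsScalarTower.algebraMap_eq (T D) (Polynomial L) M]
    exact (IsFractionRing.injective (Polynomial L) M).comp Subtype.val_injective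
  let ψ : FractionRing (T D) →ₐ[T D] M := IsFractionRing.liftAlgHom (K := FractionRing (T D))
    (g := Algebra.ofId (T D) M) hinj
  have hx1 : IsIntegral (T D) (ψ x) := hx.map ψ
  have hx2 : IsIntegral (Polynomial L) (ψ x) := hx1.tower_top
  obtain ⟨f, hf⟩ := IsIntegrallyClosed.isIntegral_iff.1 hx2
  have hf1 : IsIntegral (T D) f := by
    rw [← hf] at hx1
    exact (isIntegral_algHom_iff (IsScalarTower.toAlgHom (T D) (Polynomial L) M)
      (IsFractionRing.injective (Polynomial L) M)).1 hx1
  refine ⟨⟨f, key f hf1⟩, ?_⟩
  have hψ : Function.Injective ψ := ψ.toRingHom.injective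
  apply hψ
  rw [← hf, AlgHom.commutes]
  rfl

end Ex

end R169
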