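import Crest.Agent.R169.ExOU1

/-!
# Row 169, module EX, piece EX_OU2 (0.6 h): roots

`f ∈ F1`, `c ∈ [0,7)^5`, `f^7 a^c ∈ O(U)`.  `g = f ∏ a_i` has `g^7 = (f^7a^c) ∏ a_i^{7-c_i} ∈ O(U)`, so `g ∈ O(U)` (`OU_normal`), and every
`a_i` divides `g^7`, hence `g` (`OU_prime`); `a_i` pairwise non-associate primes (`OU_not_dvd`), so `∏ a_i` divides `g`: `f ∈ O(U)`.
-/

set_option autoImplicit false

namespace R169

namespace Ex

variable {k L : Type} [Field k] [Field L] [Algebra k L]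

private theorem ou2_av_ne (Q : QD k L) (i : ZMod 5) : Q.av i ≠ 0 := by
  intro h
  have hne : i + 1 ≠ i := by
    intro h'
    have : (1 : ZMod 5) = 0 := by simpa using h'
    exact absurd this (by decide)
  exact Q.OU_not_dvd hne ⟨0, Subalgebra.zero_mem _, by rw [h, mul_zero]⟩

private theorem ou2_pow (Q : QD k L) (i : ZMod 5) {f : L} (hf : f ∈ Q.OU) (n : ℕ) :
    (∃ h ∈ Q.OU, f ^ (n + 1) = Q.av i * h) → ∃ h ∈ Q.OU, f = Q.av i * h := by
  induction n with
  | zero => rintro ⟨h, hh, he⟩; exact ⟨h, hh, by simpa using he⟩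
  | succ n ih =>
    rintro ⟨h, hh, he⟩
    rw [pow_succ'] at he
    rcases Q.OU_prime i hf (Subalgebra.pow_mem _ hf _) hh he with h1 | h1
    · exact h1
    · exact ih h1

private theorem ou2_prod (Q : QD k L) (i : ZMod 5) (s : Finset (ZMod 5)) :
    i ∉ s → ¬ ∃ h ∈ Q.OU, ∏ j ∈ s, Q.av j = Q.av i * h := by
  classical
  induction s using Finset.induction_on with
  | empty =>
    rintro - ⟨h, hh, he⟩
    rw [Finset.prod_empty] at he
    have hne : i ≠ i + 1 := by
      intro h'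
      have : (1 : ZMod 5) = 0 := by simpa using h'.symm
      exact absurd this (by decide)
    refine Q.OU_not_dvd hne ⟨h * Q.av (i + 1), Subalgebra.mul_mem _ hh (Q.av_mem _), ?_⟩
    rw [← mul_assoc, ← he, one_mul]
  | insert j s hj ih =>
    rintro hi ⟨h, hh, he⟩
    rw [Finset.prod_insert hj] at he
    rw [Finset.mem_insert, not_or] at hi
    rcases Q.OU_prime i (Q.av_mem j) (Subalgebra.prod_mem _ fun l _ => Q.av_mem l) hh he with h1 | h1
    · exact Q.OU_not_dvd hi.1 h1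
    · exact ih hi.2 h1

private theorem ou2_dvd (Q : QD k L) {g : L} (hd : ∀ i, ∃ h ∈ Q.OU, g = Q.av i * h)
    (s : Finset (ZMod 5)) (hg : g ∈ Q.OU) : ∃ h ∈ Q.OU, g = (∏ i ∈ s, Q.av i) * h := by
  classical
  induction s using Finset.induction_on with
  | empty => exact ⟨g, hg, by simp⟩
  | insert j s hj ih =>
    obtain ⟨h, hh, he⟩ := ih
    obtain ⟨h2, hh2, he2⟩ := hd j
    rcases Q.OU_prime j (Subalgebra.prod_mem _ fun l _ => Q.av_mem l) hh hh2 (he.symm.trans he2)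
      with h1 | h1
    · exact absurd h1 (ou2_prod Q j s hj)
    · obtain ⟨h3, hh3, rfl⟩ := h1
      refine ⟨h3, hh3, ?_⟩
      rw [Finset.prod_insert hj, he]
      ring

theorem QD.OU_root (Q : QD k L) (f : L) (hf : f ∈ Q.F1) (c : ZMod 5 → Fin 7)
    (h : f ^ 7 * mon Q.av (fun i => (c i : ℕ)) ∈ Q.OU) : f ∈ Q.OU := by
  classical
  set P : L := ∏ i, Q.av i with hP
  have hP0 : P ≠ 0 := Finset.prod_ne_zero_iff.2 fun i _ => ou2_av_ne Q i
  have key : (f * P) ^ 7 = f ^ 7 * mon Q.av (fun i => (c i : ℕ)) * ∏ i, Q.av i ^ (7 - (c i : ℕ)) := by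
    rw [mul_pow, mul_assoc]
    congr 1
    rw [mon, ← Finset.prod_mul_distrib, hP, ← Finset.prod_pow]
    refine Finset.prod_congr rfl fun i _ => ?_
    rw [← pow_add]
    congr 1
    have := (c i).2
    omega
  have hQ7 : (f * P) ^ 7 ∈ Q.OU := by
    rw [key]
    exact Subalgebra.mul_mem _ h (Subalgebra.prod_mem _ fun i _ =>
      Subalgebra.pow_mem _ (Q.av_mem i) _)
  have hF1 : f * P ∈ Q.F1 := by
    refine MulMemClass.mul_mem hf (_root_.prod_mem fun i _ => ?_)
    exact IntermediateField.subset_adjoin k _ ⟨i, rfl⟩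
  have hint : IsIntegral Q.OU (f * P) := by
    refine IsIntegral.of_pow (n := 7) (by norm_num) ?_
    exact isIntegral_algebraMap (R := Q.OU) (A := L) (x := ⟨(f * P) ^ 7, hQ7⟩)
  have hg : f * P ∈ Q.OU := Q.OU_normal _ hF1 hint
  have hd : ∀ i, ∃ h ∈ Q.OU, f * P = Q.av i * h := by
    intro i
    refine ou2_pow Q i hg 6 ⟨f ^ 7 * mon Q.av (fun i => (c i : ℕ)) *
      (Q.av i ^ (6 - (c i : ℕ)) * ∏ j ∈ Finset.univ.erase i, Q.av j ^ (7 - (c j : ℕ))), ?_, ?_⟩
    · exact Subalgebra.mul_mem _ h (Subalgebra.mul_mem _ (Subalgebra.pow_mem _ (Q.av_mem i) _)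
        (Subalgebra.prod_mem _ fun i _ => Subalgebra.pow_mem _ (Q.av_mem i) _))
    · rw [key, ← Finset.mul_prod_erase Finset.univ _ (Finset.mem_univ i)]
      have e : 7 - (c i : ℕ) = (6 - (c i : ℕ)) + 1 := by
        have := (c i).2
        omega
      rw [e, pow_succ']
      ring
  obtain ⟨h', hh', he'⟩ := ou2_dvd Q hd Finset.univ hg
  rw [mul_comm f P] at he'
  have := mul_left_cancel₀ hP0 he'
  rw [this]
  exact hh'

end Ex

end R169
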