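import Crest.Agent.R169.ExOU1

/-!
# Row 169, module EX, piece EX_ORD (0.9 h): the order along `a_3 = 0` in `k(a_2)(a_3)`

`Kz = k(a_2)`, `a_3` is transcendental over `Kz` (`av_indep 2`), `OrdX f m`: `f = X^m · unit` `X`-adically, `X = a_3`.
`ord_mul`: `natTrailingDegree_mul`.  `ord_nonneg`: `F1 = Frac (Kz[a_3])` (`a_4 = (1+a_3)/a_2`, `a_1 = (1+a_2)/a_3`, `a_0 = (1+a_4)/a_3`), `Kz[X]` is a PID, hence
integrally closed: `f = aeval a_3 P`; then `X^s P` and the polynomial in `OrdX` agree (injectivity).  `ord_av`: `a_0 = (1+a_2+a_3)/(a_2a_3)`,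
`a_1 = (1+a_2)/a_3`, `a_4 = (1+a_3)/a_2`.
-/

set_option autoImplicit false

namespace R169

namespace Ex

variable {k L : Type} [Field k] [Field L] [Algebra k L]

/-- `k(a_2)` -/
def QD.Kz (Q : QD k L) : IntermediateField k L := IntermediateField.adjoin k {Q.av 2}

open IntermediateField.algebraAdjoinAdjoin in
theorem QD.trans3 (Q : QD k L) : Function.Injective (Polynomial.aeval (R := Q.Kz) (Q.av 3) : Polynomial Q.Kz →ₐ[Q.Kz] L) := by
  rw [← transcendental_iff_injective]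
  have h1 : Transcendental (Algebra.adjoin k (![Q.av 2, Q.av (2 + 1)] '' {0}))
      ((![Q.av 2, Q.av (2 + 1)] : Fin 2 → L) 1) :=
    (Q.av_indep 2).transcendental_adjoin (s := {0}) (i := 1) (by simp)
  rw [Set.image_singleton] at h1
  have e1 : (![Q.av 2, Q.av (2 + 1)] : Fin 2 → L) 0 = Q.av 2 := rfl
  have e2 : (![Q.av 2, Q.av (2 + 1)] : Fin 2 → L) 1 = Q.av 3 := rfl
  rw [e1, e2] at h1
  intro h2
  apply h1
  exact (IsFractionRing.isAlgebraic_iff (Algebra.adjoin k {Q.av 2})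
    (IntermediateField.adjoin k {Q.av 2}) L).2 h2

/-- `f` has `a_3`-order `m` -/
def QD.OrdX (Q : QD k L) (f : L) (m : ℤ) : Prop :=
  ∃ (s : ℕ) (P : Polynomial Q.Kz), P ≠ 0 ∧ (Polynomial.aeval (Q.av 3) P : L) = Q.av 3 ^ s * f ∧
    (P.natTrailingDegree : ℤ) = s + m

theorem QD.ord_mul (Q : QD k L) {f g : L} {m n : ℤ} (hf : Q.OrdX f m) (hg : Q.OrdX g n) : Q.OrdX (f * g) (m + n) := by
  obtain ⟨s, P, hP, hP1, hP2⟩ := hf
  obtain ⟨t, R, hR, hR1, hR2⟩ := hg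
  refine ⟨s + t, P * R, mul_ne_zero hP hR, ?_, ?_⟩
  · rw [map_mul, hP1, hR1]; ring
  · rw [Polynomial.natTrailingDegree_mul hP hR]
    push_cast
    rw [hP2, hR2]; ring

theorem QD.ord_pow (Q : QD k L) {f : L} {m : ℤ} (hf : Q.OrdX f m) (n : ℕ) : Q.OrdX (f ^ n) (n * m) := by
  induction n with
  | zero =>
    refine ⟨0, 1, one_ne_zero, by simp, ?_⟩
    rw [← Polynomial.C_1, Polynomial.natTrailingDegree_C]; simp
  | succ n ih =>
    have h := Q.ord_mul ih hf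
    have e : ((n + 1 : ℕ) : ℤ) * m = n * m + m := by push_cast; ring
    rw [pow_succ, e]; exact h

theorem QD.ord_unique (Q : QD k L) {f : L} {m n : ℤ} (hf : Q.OrdX f m) (hg : Q.OrdX f n) : m = n := by
  obtain ⟨s, P, hP, hP1, hP2⟩ := hf
  obtain ⟨t, R, hR, hR1, hR2⟩ := hg
  have h1 : Polynomial.X ^ t * P = Polynomial.X ^ s * R := by
    apply Q.trans3
    rw [map_mul, map_mul, hP1, hR1, map_pow, map_pow, Polynomial.aeval_X]; ring
  have h2 := congrArg Polynomial.natTrailingDegree h1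
  rw [Polynomial.natTrailingDegree_mul (pow_ne_zero _ Polynomial.X_ne_zero) hP,
    Polynomial.natTrailingDegree_mul (pow_ne_zero _ Polynomial.X_ne_zero) hR,
    Polynomial.natTrailingDegree_X_pow, Polynomial.natTrailingDegree_X_pow] at h2
  have h3 : (t : ℤ) + P.natTrailingDegree = s + R.natTrailingDegree := by exact_mod_cast h2
  rw [hP2, hR2] at h3
  linarith

private theorem QD.av_ne (Q : QD k L) (i : ZMod 5) : Q.av i ≠ 0 := pow_ne_zero _ (Q.q_ne i)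

private theorem QD.rel2 (Q : QD k L) : Q.av 1 * Q.av 3 = 1 + Q.av 2 := Q.av_rel 2
private theorem QD.rel3 (Q : QD k L) : Q.av 2 * Q.av 4 = 1 + Q.av 3 := Q.av_rel 3
private theorem QD.rel4 (Q : QD k L) : Q.av 3 * Q.av 0 = 1 + Q.av 4 := Q.av_rel 4

private theorem QD.a2_mem (Q : QD k L) : Q.av 2 ∈ Q.Kz :=
  IntermediateField.subset_adjoin _ _ (Set.mem_singleton _)

/-- `a_2` in `Kz` -/
private def QD.a2 (Q : QD k L) : Q.Kz := ⟨Q.av 2, Q.a2_mem⟩

private theorem QD.a2_ne (Q : QD k L) : Q.a2 ≠ 0 := fun h => Q.av_ne 2 (congrArg Subtype.val h)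

private theorem QD.one_add_a2_ne (Q : QD k L) : 1 + Q.a2 ≠ 0 := fun h => by
  have h1 : (1 : L) + Q.av 2 = 0 := congrArg Subtype.val h
  rw [← Q.rel2] at h1
  exact mul_ne_zero (Q.av_ne 1) (Q.av_ne 3) h1

private theorem QD.aeval_C (Q : QD k L) (c : Q.Kz) :
    Polynomial.aeval (Q.av 3) (Polynomial.C c) = (c : L) := by
  rw [Polynomial.aeval_C]; rfl

private theorem ntd_zero {R : Type} [CommRing R] {P : Polynomial R} (h : P.coeff 0 ≠ 0) :
    P ≠ 0 ∧ P.natTrailingDegree = 0 :=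
  ⟨fun h0 => h (by rw [h0, Polynomial.coeff_zero]), Polynomial.natTrailingDegree_eq_zero.2 (Or.inr h)⟩

open IntermediateField.algebraAdjoinAdjoin in
private theorem QD.int_mem (Q : QD k L) {f : L} (hf : f ∈ IntermediateField.adjoin Q.Kz {Q.av 3})
    (hi : IsIntegral (Algebra.adjoin Q.Kz {Q.av 3}) f) : f ∈ Algebra.adjoin Q.Kz {Q.av 3} := by
  let e : Polynomial Q.Kz ≃ₐ[Q.Kz] Algebra.adjoin Q.Kz {Q.av 3} :=
    (AlgEquiv.ofInjective _ Q.trans3).trans
      (Subalgebra.equivOfEq _ _ (Algebra.adjoin_singleton_eq_range_aeval Q.Kz (Q.av 3)).symm)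
  haveI : IsIntegrallyClosed (Algebra.adjoin Q.Kz {Q.av 3}) :=
    IsIntegrallyClosed.of_equiv e.toRingEquiv
  have hi' : IsIntegral (Algebra.adjoin Q.Kz {Q.av 3})
      (⟨f, hf⟩ : IntermediateField.adjoin Q.Kz {Q.av 3}) := by
    rw [← isIntegral_algebraMap_iff (B := L) (algebraMap (IntermediateField.adjoin Q.Kz {Q.av 3}) L).injective]
    exact hi
  obtain ⟨y, hy⟩ := IsIntegrallyClosed.isIntegral_iff.1 hi'
  have h3 : (y : L) = f := congrArg Subtype.val hy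
  rw [← h3]
  exact y.2

theorem QD.ord_nonneg (Q : QD k L) {f : L} {m : ℤ} (hf : Q.OrdX f m) (h1 : f ∈ Q.F1)
    (hi : IsIntegral (Algebra.adjoin Q.Kz {Q.av 3}) f) : 0 ≤ m := by
  obtain ⟨s, P, hP, hP1, hP2⟩ := hf
  -- `F1 ≤ Kz(a_3)`
  have hF : Q.F1 ≤ (IntermediateField.adjoin Q.Kz {Q.av 3}).restrictScalars k := by
    unfold QD.F1
    rw [IntermediateField.adjoin_le_iff]
    have h3 : Q.av 3 ∈ IntermediateField.adjoin Q.Kz {Q.av 3} :=
      IntermediateField.subset_adjoin _ _ (Set.mem_singleton _)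
    have h2 : Q.av 2 ∈ IntermediateField.adjoin Q.Kz {Q.av 3} :=
      (IntermediateField.adjoin Q.Kz {Q.av 3}).algebraMap_mem Q.a2
    have h1 : (1 : L) ∈ IntermediateField.adjoin Q.Kz {Q.av 3} := OneMemClass.one_mem _
    have e4 : Q.av 4 = (1 + Q.av 3) / Q.av 2 := by
      rw [← Q.rel3, mul_div_cancel_left₀ _ (Q.av_ne 2)]
    have h4 : Q.av 4 ∈ IntermediateField.adjoin Q.Kz {Q.av 3} := by
      rw [e4]; exact div_mem (add_mem h1 h3) h2
    have e1 : Q.av 1 = (1 + Q.av 2) / Q.av 3 := by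
      rw [← Q.rel2, mul_div_cancel_right₀ _ (Q.av_ne 3)]
    have h1' : Q.av 1 ∈ IntermediateField.adjoin Q.Kz {Q.av 3} := by
      rw [e1]; exact div_mem (add_mem h1 h2) h3
    have e0 : Q.av 0 = (1 + Q.av 4) / Q.av 3 := by
      rw [← Q.rel4, mul_div_cancel_left₀ _ (Q.av_ne 3)]
    have h0 : Q.av 0 ∈ IntermediateField.adjoin Q.Kz {Q.av 3} := by
      rw [e0]; exact div_mem (add_mem h1 h4) h3
    rintro _ ⟨i, rfl⟩
    change Q.av i ∈ IntermediateField.adjoin Q.Kz {Q.av 3}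
    have hi : i = 0 ∨ i = 1 ∨ i = 2 ∨ i = 3 ∨ i = 4 := by revert i; decide
    rcases hi with rfl | rfl | rfl | rfl | rfl
    · exact h0
    · exact h1'
    · exact h2
    · exact h3
    · exact h4
  have hf' : f ∈ IntermediateField.adjoin Q.Kz {Q.av 3} := hF h1
  -- `f ∈ Kz[a_3]`
  have hmem : f ∈ Algebra.adjoin Q.Kz {Q.av 3} := Q.int_mem hf' hi
  rw [Algebra.adjoin_singleton_eq_range_aeval] at hmem
  obtain ⟨P', hP'⟩ := hmem
  have hP'1 : Polynomial.aeval (Q.av 3) P' = f := hP'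
  have h2 : P = Polynomial.X ^ s * P' := by
    apply Q.trans3
    rw [hP1, map_mul, map_pow, Polynomial.aeval_X, hP'1]
  have hP'0 : P' ≠ 0 := by rintro rfl; rw [mul_zero] at h2; exact hP h2
  rw [h2, Polynomial.natTrailingDegree_mul (pow_ne_zero _ Polynomial.X_ne_zero) hP'0,
    Polynomial.natTrailingDegree_X_pow] at hP2
  push_cast at hP2
  omega

theorem QD.ord_av (Q : QD k L) : Q.OrdX (Q.av 0) (-1) ∧ Q.OrdX (Q.av 1) (-1) ∧ Q.OrdX (Q.av 2) 0 ∧
    Q.OrdX (Q.av 3) 1 ∧ Q.OrdX (Q.av 4) 0 := by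
  have hC2 : (Q.a2 : L) = Q.av 2 := rfl
  have e4 : Q.av 4 = (1 + Q.av 3) / Q.av 2 := by
    rw [← Q.rel3, mul_div_cancel_left₀ _ (Q.av_ne 2)]
  refine ⟨?_, ?_, ?_, ?_, ?_⟩
  · have hc : (Polynomial.C (Q.a2⁻¹) * (Polynomial.C (1 + Q.a2) + Polynomial.X)).coeff 0 ≠ 0 := by
      rw [Polynomial.mul_coeff_zero, Polynomial.coeff_C_zero, Polynomial.coeff_add,
        Polynomial.coeff_C_zero, Polynomial.coeff_X_zero, add_zero]
      exact mul_ne_zero (inv_ne_zero Q.a2_ne) Q.one_add_a2_ne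
    obtain ⟨h1, h2⟩ := ntd_zero hc
    refine ⟨1, _, h1, ?_, by rw [h2]; norm_num⟩
    rw [map_mul, map_add, Q.aeval_C, Q.aeval_C, Polynomial.aeval_X, pow_one, Q.rel4, e4]
    have hne := Q.av_ne 2
    change (Q.av 2)⁻¹ * (1 + Q.av 2 + Q.av 3) = _
    field_simp
    ring
  · have hc : (Polynomial.C (1 + Q.a2)).coeff 0 ≠ 0 := by
      rw [Polynomial.coeff_C_zero]; exact Q.one_add_a2_ne
    obtain ⟨h1, h2⟩ := ntd_zero hc
    refine ⟨1, _, h1, ?_, by rw [h2]; norm_num⟩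
    rw [Q.aeval_C, pow_one, mul_comm, Q.rel2]
    rfl
  · have hc : (Polynomial.C Q.a2).coeff 0 ≠ 0 := by
      rw [Polynomial.coeff_C_zero]; exact Q.a2_ne
    obtain ⟨h1, h2⟩ := ntd_zero hc
    refine ⟨0, _, h1, ?_, by rw [h2]; norm_num⟩
    rw [Q.aeval_C, pow_zero, one_mul, hC2]
  · refine ⟨0, Polynomial.X, Polynomial.X_ne_zero, ?_, ?_⟩
    · rw [Polynomial.aeval_X, pow_zero, one_mul]
    · rw [Polynomial.natTrailingDegree_X]; norm_num
  · have hc : (Polynomial.C (Q.a2⁻¹) * (1 + Polynomial.X)).coeff 0 ≠ 0 := by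
      rw [Polynomial.mul_coeff_zero, Polynomial.coeff_C_zero, Polynomial.coeff_add,
        Polynomial.coeff_one_zero, Polynomial.coeff_X_zero, add_zero, mul_one]
      exact inv_ne_zero Q.a2_ne
    obtain ⟨h1, h2⟩ := ntd_zero hc
    refine ⟨0, _, h1, ?_, by rw [h2]; norm_num⟩
    rw [map_mul, map_add, Q.aeval_C, Polynomial.aeval_X, pow_zero, one_mul, e4, map_one]
    change (Q.av 2)⁻¹ * (1 + Q.av 3) = _
    rw [div_eq_inv_mul]

end Ex

end R169
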