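import Crest.Agent.R169.ExStd1
import Crest.Agent.R169.ExOrd
import Crest.Agent.R169.ExOU2

/-!
# Row 169, module EX, piece EX_NORM2 (1 h): consequences of homogeneous integrality

`hf : IsIntegral (T Q.D) (monomial n f)`.
`hom_BU`: apply `L[X] → L`, `X ↦ 1`: `f` is integral over `k[q]`; `k[q]` is integral over `O(U)`.
`hom_comp`: `α_w` preserves `k[q]`, so all `proj c f = f_c q^c` are integral over `O(U)`; `(f_cq^c)^7 = f_c^7 a^c ∈ F1`, so it is in `O(U)` (`OU_normal`), so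
`f_c ∈ O(U)` (`OU_root`), so `f ∈ k[q]`.
`hom_A0`: `A0 = Kz[a_3]`.  `q_3, q_0q_3, q_1q_3, q_2, q_4` are integral over `A0` (7th powers: `a_3`, `(1+a_2+a_3)/a_2`, `1+a_2`, `a_2`, `(1+a_3)/a_2`), so for
`b ∈ B_m` (`m : ℕ`) `q_3^m b` is integral over `A0` (`q^a q_3^m = (q_0q_3)^{a_0}(q_1q_3)^{a_1}q_2^{a_2}q_4^{a_4}q_3^{m-λ_0(a)}`); apply `L[X] → L`, `X ↦ q_3`:
`q_3^n f` is integral over (the integral closure of `A0`, so over) `A0`.
`hom_A0_comp`: `α_w(q_3^n f) = w_3^n q_3^n α_w f` is integral over `A0` (`α_w` fixes `A0 ⊂ F1`), so `q_3^n f_cq^c` is, so `(q_3^nf_cq^c)^7 = a_3^n f_c^7 a^c` is.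
-/

set_option autoImplicit false

namespace R169

namespace Ex

variable {k L : Type} [Field k] [Field L] [Algebra k L]

namespace ExN2

theorem int_trans {R B S C : Type} [CommRing R] [CommRing B] [Algebra R B] [CommRing S] [CommRing C]
    [Algebra S C] (ψ : B →+* C) (h : ∀ r : R, IsIntegral S (ψ (algebraMap R B r))) {x : B}
    (hx : IsIntegral R x) : IsIntegral S (ψ x) := by
  let φ : R →+* integralClosure S C :=
    { toFun := fun r => ⟨ψ (algebraMap R B r), h r⟩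
      map_one' := Subtype.ext (by simp)
      map_mul' := fun a b => Subtype.ext (by simp)
      map_zero' := Subtype.ext (by simp)
      map_add' := fun a b => Subtype.ext (by simp) }
  have h1 : IsIntegral (integralClosure S C) (ψ x) := by
    refine IsIntegral.map_of_comp_eq φ ψ ?_ hx
    ext r
    rfl
  exact isIntegral_trans (R := S) (A := integralClosure S C) (ψ x) h1

theorem mon_pow7 (Q : QD k L) (c : ZMod 5 → Fin 7) :
    mon Q.q (cev c) ^ 7 = mon Q.av (cev c) := by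
  unfold mon QD.av
  rw [← Finset.prod_pow]
  refine Finset.prod_congr rfl fun i _ => ?_
  rw [← pow_mul, ← pow_mul, mul_comm]

theorem OU_alg (Q : QD k L) (c : k) : algebraMap k L c ∈ Q.OU := Subalgebra.algebraMap_mem _ c

theorem int_OU_of_mem (Q : QD k L) {x : L} (hx : x ∈ Q.OU) : IsIntegral Q.OU x :=
  isIntegral_algebraMap (x := (⟨x, hx⟩ : Q.OU))

theorem int_q (Q : QD k L) (i : ZMod 5) : IsIntegral Q.OU (Q.q i) :=
  IsIntegral.of_pow (n := 7) (by norm_num) (int_OU_of_mem Q (Q.av_mem i))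

theorem int_BU (Q : QD k L) {x : L} (hx : x ∈ Q.BU) : IsIntegral Q.OU x := by
  unfold QD.BU at hx
  induction hx using Algebra.adjoin_induction with
  | mem x hx =>
    obtain ⟨i, rfl⟩ := hx
    exact int_q Q i
  | algebraMap r => exact int_OU_of_mem Q (OU_alg Q r)
  | add x y _ _ hx hy => exact hx.add hy
  | mul x y _ _ hx hy => exact hx.mul hy

theorem int_smul_OU (Q : QD k L) (c : k) {x : L} (hx : IsIntegral Q.OU x) :
    IsIntegral Q.OU (c • x) := by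
  rw [Algebra.smul_def]
  exact (int_OU_of_mem Q (OU_alg Q c)).mul hx

/-- `A0` -/
abbrev A0 (Q : QD k L) : Subalgebra Q.Kz L := Algebra.adjoin Q.Kz {Q.av 3}

theorem Kz_mem_A0 (Q : QD k L) {x : L} (hx : x ∈ Q.Kz) : x ∈ A0 Q :=
  Subalgebra.algebraMap_mem (A0 Q) (⟨x, hx⟩ : Q.Kz)

theorem av3_mem (Q : QD k L) : Q.av 3 ∈ A0 Q := Algebra.subset_adjoin rfl

theorem av2_mem_Kz (Q : QD k L) : Q.av 2 ∈ Q.Kz := IntermediateField.subset_adjoin _ _ rfl

theorem k_mem_Kz (Q : QD k L) (c : k) : algebraMap k L c ∈ Q.Kz := Q.Kz.algebraMap_mem c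

theorem int_of_mem (Q : QD k L) {x : L} (hx : x ∈ A0 Q) : IsIntegral (A0 Q) x :=
  isIntegral_algebraMap (x := (⟨x, hx⟩ : A0 Q))

theorem av_ne (Q : QD k L) (i : ZMod 5) : Q.av i ≠ 0 := pow_ne_zero _ (Q.q_ne i)

theorem av4_mem (Q : QD k L) : Q.av 4 ∈ A0 Q := by
  have h := Q.av_rel 3
  have e1 : (3 : ZMod 5) - 1 = 2 := by decide
  have e2 : (3 : ZMod 5) + 1 = 4 := by decide
  rw [e1, e2] at h
  have h1 : Q.av 4 = (Q.av 2)⁻¹ * (1 + Q.av 3) := by
    rw [← h, inv_mul_cancel_left₀ (av_ne Q 2)]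
  rw [h1]
  exact mul_mem (Kz_mem_A0 Q (inv_mem (av2_mem_Kz Q))) (add_mem (one_mem _) (av3_mem Q))

theorem int_q3 (Q : QD k L) : IsIntegral (A0 Q) (Q.q 3) :=
  IsIntegral.of_pow (n := 7) (by norm_num) (int_of_mem Q (av3_mem Q))

theorem int_q2 (Q : QD k L) : IsIntegral (A0 Q) (Q.q 2) :=
  IsIntegral.of_pow (n := 7) (by norm_num) (int_of_mem Q (Kz_mem_A0 Q (av2_mem_Kz Q)))

theorem int_q4 (Q : QD k L) : IsIntegral (A0 Q) (Q.q 4) :=
  IsIntegral.of_pow (n := 7) (by norm_num) (int_of_mem Q (av4_mem Q))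

theorem int_q03 (Q : QD k L) : IsIntegral (A0 Q) (Q.q 0 * Q.q 3) := by
  refine IsIntegral.of_pow (n := 7) (by norm_num) ?_
  have h := Q.rel 4
  have e1 : (4 : ZMod 5) - 1 = 3 := by decide
  have e2 : (4 : ZMod 5) + 1 = 0 := by decide
  rw [e1, e2] at h
  have h1 : (Q.q 0 * Q.q 3) ^ 7 = 1 + Q.av 4 := by
    rw [mul_pow, mul_comm, h]; rfl
  rw [h1]
  exact int_of_mem Q (add_mem (one_mem _) (av4_mem Q))

theorem int_q13 (Q : QD k L) : IsIntegral (A0 Q) (Q.q 1 * Q.q 3) := by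
  refine IsIntegral.of_pow (n := 7) (by norm_num) ?_
  have h := Q.rel 2
  have e1 : (2 : ZMod 5) - 1 = 1 := by decide
  have e2 : (2 : ZMod 5) + 1 = 3 := by decide
  rw [e1, e2] at h
  have h1 : (Q.q 1 * Q.q 3) ^ 7 = 1 + Q.av 2 := by
    rw [mul_pow, h]; rfl
  rw [h1]
  exact int_of_mem Q (add_mem (one_mem _) (Kz_mem_A0 Q (av2_mem_Kz Q)))

theorem int_smul (Q : QD k L) (c : k) {x : L} (hx : IsIntegral (A0 Q) x) :
    IsIntegral (A0 Q) (c • x) := by
  rw [Algebra.smul_def]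
  exact (int_of_mem Q (Kz_mem_A0 Q (k_mem_Kz Q c))).mul hx

theorem int_B (Q : QD k L) (m : ℕ) {b : L} (hb : b ∈ Q.Bn m) : IsIntegral (A0 Q) (b * Q.q 3 ^ m) := by
  unfold QD.Bn at hb
  induction hb using Submodule.span_induction with
  | mem x hx =>
    obtain ⟨a, ha, rfl⟩ := hx
    have h0 := ha 0
    rw [lam0] at h0
    obtain ⟨d, hd⟩ : ∃ d : ℕ, a 3 + m = a 0 + a 1 + d := ⟨a 3 + m - (a 0 + a 1), by omega⟩
    have e : mon Q.q a * Q.q 3 ^ m = (Q.q 0 * Q.q 3) ^ a 0 * (Q.q 1 * Q.q 3) ^ a 1 *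
        Q.q 2 ^ a 2 * Q.q 4 ^ a 4 * Q.q 3 ^ d := by
      rw [mon_five, mul_pow, mul_pow]
      have e1 : Q.q 0 ^ a 0 * Q.q 1 ^ a 1 * Q.q 2 ^ a 2 * Q.q 3 ^ a 3 * Q.q 4 ^ a 4 * Q.q 3 ^ m =
          Q.q 0 ^ a 0 * Q.q 1 ^ a 1 * Q.q 2 ^ a 2 * Q.q 4 ^ a 4 * Q.q 3 ^ (a 3 + m) := by
        rw [pow_add]; ring
      rw [e1, hd, pow_add, pow_add]
      ring
    rw [e]
    exact ((((int_q03 Q).pow _).mul ((int_q13 Q).pow _)).mul ((int_q2 Q).pow _)).mul
      ((int_q4 Q).pow _) |>.mul ((int_q3 Q).pow _)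
  | zero => rw [zero_mul]; exact isIntegral_zero
  | add x y _ _ hx hy => rw [add_mul]; exact hx.add hy
  | smul c x _ hx => rw [smul_mul_assoc]; exact int_smul Q c hx

theorem A0_le_F1 (Q : QD k L) {x : L} (hx : x ∈ A0 Q) : x ∈ Q.F1 := by
  have hKz : Q.Kz ≤ Q.F1 := by
    unfold QD.Kz
    refine IntermediateField.adjoin_le_iff.2 ?_
    rintro _ rfl
    exact IntermediateField.subset_adjoin _ _ ⟨2, rfl⟩
  induction hx using Algebra.adjoin_induction with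
  | mem x hx =>
    rw [Set.mem_singleton_iff] at hx
    rw [hx]
    exact IntermediateField.subset_adjoin _ _ ⟨3, rfl⟩
  | algebraMap r => exact hKz r.2
  | add x y _ _ hx hy => exact add_mem hx hy
  | mul x y _ _ hx hy => exact mul_mem hx hy

theorem av_mem_F1 (Q : QD k L) (i : ZMod 5) : Q.av i ∈ Q.F1 :=
  IntermediateField.subset_adjoin _ _ ⟨i, rfl⟩

theorem mon_av_mem_F1 (Q : QD k L) (a : Ev) : mon Q.av a ∈ Q.F1 :=
  prod_mem fun i _ => pow_mem (av_mem_F1 Q i) _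

end ExN2

theorem QD.hom_BU (Q : QD k L) (n : ℕ) (f : L) (hf : IsIntegral (T Q.D) (Polynomial.monomial n f)) :
    IsIntegral Q.OU f := by
  have h := ExN2.int_trans (R := T Q.D) (S := Q.OU) (Polynomial.evalRingHom (1 : L)) (fun F => by
    refine ExN2.int_BU Q ?_
    have e : Polynomial.evalRingHom (1 : L) (algebraMap (T Q.D) (Polynomial L) F) =
        ∑ i ∈ (F : Polynomial L).support, (F : Polynomial L).coeff i := by
      change Polynomial.eval 1 (F : Polynomial L) = _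
      rw [Polynomial.eval_eq_sum, Polynomial.sum]
      simp
    rw [e]
    exact Subalgebra.sum_mem _ fun i _ => (Q.mem_BU _).2 ⟨i, F.2 i⟩) hf
  simpa using h

theorem QD.hom_comp (Q : QD k L) [IsAlgClosed k] (h7 : (7 : k) ≠ 0) (n : ℕ) (f : L)
    (hf : IsIntegral (T Q.D) (Polynomial.monomial n f)) :
    ∃ g : (ZMod 5 → Fin 7) → L, (∀ c, g c ∈ Q.OU) ∧ f = ∑ c, g c * mon Q.q (cev c) := by
  obtain ⟨g, hg, hfg⟩ := Q.kum_exists f
  have hint := Q.hom_BU n f hf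
  have halpha : ∀ w, IsIntegral Q.OU (Q.alpha w f) := fun w =>
    ExN2.int_trans (R := Q.OU) (S := Q.OU) (Q.alpha w : L →+* L) (fun r => by
      change IsIntegral Q.OU (Q.alpha w (r : L))
      rw [Q.alpha_F1 w _ (Q.OU_le_F1 r.2)]
      exact ExN2.int_OU_of_mem Q r.2) hint
  refine ⟨g, fun c => ?_, hfg⟩
  have h1 : IsIntegral Q.OU (Q.proj c f) := by
    unfold QD.proj
    exact ExN2.int_smul_OU Q _ (IsIntegral.sum _ fun w _ => ExN2.int_smul_OU Q _ (halpha w))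
  rw [hfg, Q.kum_proj h7 g hg c] at h1
  have h2 : IsIntegral Q.OU (g c ^ 7 * mon Q.av (cev c)) := by
    rw [← ExN2.mon_pow7, ← mul_pow]
    exact h1.pow 7
  have h3 := Q.OU_normal _ (MulMemClass.mul_mem (_root_.pow_mem (hg c) 7) (ExN2.mon_av_mem_F1 Q _)) h2
  exact Q.OU_root (g c) (hg c) c h3

theorem QD.hom_A0 (Q : QD k L) (n : ℕ) (f : L) (hf : IsIntegral (T Q.D) (Polynomial.monomial n f)) :
    IsIntegral (Algebra.adjoin Q.Kz {Q.av 3}) (Q.q 3 ^ n * f) := by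
  have h := ExN2.int_trans (R := T Q.D) (S := ExN2.A0 Q) (Polynomial.evalRingHom (Q.q 3))
    (fun F => by
      have e : Polynomial.evalRingHom (Q.q 3) (algebraMap (T Q.D) (Polynomial L) F) =
          ∑ i ∈ (F : Polynomial L).support, (F : Polynomial L).coeff i * Q.q 3 ^ i := by
        change Polynomial.eval (Q.q 3) (F : Polynomial L) = _
        rw [Polynomial.eval_eq_sum, Polynomial.sum]
      rw [e]
      exact IsIntegral.sum _ fun i _ => ExN2.int_B Q i (F.2 i)) hf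
  rw [Polynomial.coe_evalRingHom, Polynomial.eval_monomial, mul_comm] at h
  exact h

theorem QD.hom_A0_comp (Q : QD k L) [IsAlgClosed k] (h7 : (7 : k) ≠ 0) (n : ℕ) (g : (ZMod 5 → Fin 7) → L)
    (hg : ∀ c, g c ∈ Q.OU)
    (hf : IsIntegral (Algebra.adjoin Q.Kz {Q.av 3}) (Q.q 3 ^ n * ∑ c, g c * mon Q.q (cev c)))
    (c : ZMod 5 → Fin 7) :
    IsIntegral (Algebra.adjoin Q.Kz {Q.av 3}) (Q.av 3 ^ n * (g c ^ 7 * mon Q.av (cev c))) := by
  set f : L := ∑ c, g c * mon Q.q (cev c) with hfdef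
  have hgF : ∀ c, g c ∈ Q.F1 := fun c => Q.OU_le_F1 (hg c)
  have halpha : ∀ w, IsIntegral (ExN2.A0 Q) (Q.q 3 ^ n * Q.alpha w f) := by
    intro w
    have h1 : IsIntegral (ExN2.A0 Q) (Q.alpha w (Q.q 3 ^ n * f)) :=
      ExN2.int_trans (R := ExN2.A0 Q) (S := ExN2.A0 Q) (Q.alpha w : L →+* L) (fun r => by
        change IsIntegral (ExN2.A0 Q) (Q.alpha w (r : L))
        rw [Q.alpha_F1 w _ (ExN2.A0_le_F1 Q r.2)]
        exact ExN2.int_of_mem Q r.2) hf
    rw [map_mul, map_pow, Q.alpha_q, smul_pow, smul_mul_assoc] at h1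
    have hne : (((w 3 : kˣ) : k) ^ n) ≠ 0 := pow_ne_zero _ (Units.ne_zero _)
    have h2 := ExN2.int_smul Q (((w 3 : kˣ) : k) ^ n)⁻¹ h1
    rwa [smul_smul, inv_mul_cancel₀ hne, one_smul] at h2
  have h1 : IsIntegral (ExN2.A0 Q) (Q.q 3 ^ n * Q.proj c f) := by
    unfold QD.proj
    rw [mul_smul_comm, Finset.mul_sum]
    refine ExN2.int_smul Q _ (IsIntegral.sum _ fun w _ => ?_)
    rw [mul_smul_comm]
    exact ExN2.int_smul Q _ (halpha w)
  rw [hfdef, Q.kum_proj h7 g hgF c] at h1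
  have h2 := h1.pow 7
  have e : (Q.q 3 ^ n * (g c * mon Q.q (cev c))) ^ 7 =
      Q.av 3 ^ n * (g c ^ 7 * mon Q.av (cev c)) := by
    rw [mul_pow, mul_pow, ExN2.mon_pow7]
    congr 1
    unfold QD.av
    rw [← pow_mul, ← pow_mul, mul_comm]
  rw [e] at h2
  exact h2

end Ex

end R169
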