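import Crest.Agent.R169.ExNorm1
import Crest.Agent.R169.ExNorm2
import Crest.Agent.R169.ExLead
import Crest.Agent.R169.ExSyms

/-!
# Row 169, module EX, piece EX_NORMAL (0.9 h): `T Q.D` is integrally closed

`level0`: `f = ∑_c g_c q^c` (`hom_comp`), `g_c = ∑ γ_e a^e` (`OU_std`), so `f = ∑ γ_{c,e} q^{c+7e}` and (independence) every `a` in the support of `f` is
`c + 7e` with `e ∈ supp γ_c`, `λ_0(a) = λ_0(c) + 7λ_0(e)`.  `hom_A0_comp`, `lead`, `ord_mul`, `ord_av`, `ord_nonneg`:
`0 ≤ n - 7 λ_0(e0) - λ_0(c)`.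
`hom_mem`: `f = ∑ c_a q^a` standard, all `λ_0(a) ≤ n`; apply `level0` to `ρ^{j} f` (`ρ` preserves `T Q.D`, and `ρ q^a = q^{a shifted}`) to get
`λ_j(a) ≤ n` for all `j`; so `f ∈ B_n`.  `normal`: `normal_of_homog` (`k` alg. closed is infinite).
-/

set_option autoImplicit false

namespace R169

namespace Ex

variable {k L : Type} [Field k] [Field L] [Algebra k L]

/-! ### auxiliary lemmas -/

private theorem mon_av (Q : QD k L) (e : Ev) : mon Q.av e = mon Q.q (7 • e) := by
  unfold mon QD.av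
  refine Finset.prod_congr rfl fun i _ => ?_
  rw [← pow_mul]
  congr 1

private theorem lam_emb (e : Ev) (c : ZMod 5 → Fin 7) (i : ZMod 5) :
    lam (7 • e + cev c) i = 7 * lam e i + lam (cev c) i := by
  rw [lam_add]
  congr 1
  unfold lam
  simp only [Pi.smul_apply, smul_eq_mul]
  push_cast
  ring

private theorem std_emb (e : Ev) (he : Std1 e) (c : ZMod 5 → Fin 7) : Std (7 • e + cev c) := by
  intro i
  have hc : ∀ j, cev c j < 7 := fun j => (c j).2
  rcases he i with h | h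
  · left
    show 7 • e (i - 1) + cev c (i - 1) < 7
    rw [h, smul_zero, zero_add]
    exact hc _
  · right
    show 7 • e (i + 1) + cev c (i + 1) < 7
    rw [h, smul_zero, zero_add]
    exact hc _

private theorem lc_inj (Q : QD k L) {c C : Ev →₀ k} (hc : ∀ a ∈ c.support, Std a)
    (hC : ∀ a ∈ C.support, Std a)
    (h : Finsupp.linearCombination k (mon Q.q) c = Finsupp.linearCombination k (mon Q.q) C) :
    c = C := by
  have h1 : LinearIndepOn k (mon Q.q) {a : Ev | Std a} := Q.indep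
  rw [linearIndepOn_iff] at h1
  have h2 := h1 (c - C) (Submodule.sub_mem _ (fun a ha => hc a ha) (fun a ha => hC a ha)) (by
    rw [map_sub, h, sub_self])
  exact sub_eq_zero.1 h2

private theorem supp_sum {ι : Type} [Fintype ι] (F : ι → Ev →₀ k) {a : Ev}
    (ha : a ∈ (∑ c, F c).support) : ∃ c, a ∈ (F c).support := by
  classical
  rw [Finsupp.mem_support_iff, Finsupp.finsetSum_apply] at ha
  obtain ⟨c, _, hc⟩ := Finset.exists_ne_zero_of_sum_ne_zero ha
  exact ⟨c, Finsupp.mem_support_iff.2 hc⟩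

/-- the decomposition of a homogeneous integral element -/
private theorem decomp (Q : QD k L) [IsAlgClosed k] (h7 : (7 : k) ≠ 0) (n : ℕ) (f : L)
    (hf : IsIntegral (T Q.D) (Polynomial.monomial n f)) :
    ∃ (g : (ZMod 5 → Fin 7) → L) (γ : (ZMod 5 → Fin 7) → Ev →₀ k) (C : Ev →₀ k),
      (∀ c, g c ∈ Q.OU) ∧ f = ∑ c, g c * mon Q.q (cev c) ∧
      (∀ c, ∀ e ∈ (γ c).support, Std1 e) ∧
      (∀ c, g c = (γ c).sum (fun e x => x • mon Q.av e)) ∧
      f = Finsupp.linearCombination k (mon Q.q) C ∧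
      ∀ a ∈ C.support, ∃ c, ∃ e ∈ (γ c).support, a = 7 • e + cev c := by
  classical
  obtain ⟨g, hg, hfg⟩ := Q.hom_comp h7 n f hf
  choose γ hγ hgγ using fun c => Q.OU_std h7 (g c) (hg c)
  refine ⟨g, γ, ∑ c, (γ c).mapDomain (fun e => 7 • e + cev c), hg, hfg, hγ, hgγ, ?_, ?_⟩
  · rw [map_sum]
    conv_lhs => rw [hfg]
    refine Finset.sum_congr rfl fun c _ => ?_
    rw [Finsupp.linearCombination_mapDomain, Finsupp.linearCombination_apply]
    conv_lhs => rw [hgγ c]
    rw [Finsupp.sum, Finsupp.sum, Finset.sum_mul]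
    refine Finset.sum_congr rfl fun e _ => ?_
    rw [Function.comp_apply, mon_add, ← mon_av, smul_mul_assoc]
  · intro a ha
    obtain ⟨c, h2⟩ := supp_sum _ ha
    have h3 := Finsupp.mapDomain_support h2
    rw [Finset.mem_image] at h3
    obtain ⟨e, he, rfl⟩ := h3
    exact ⟨c, e, he, rfl⟩

private theorem ord_mon (Q : QD k L) (c : Ev) : Q.OrdX (mon Q.av c) (-(lam c 0)) := by
  obtain ⟨h0, h1, h2, h3, h4⟩ := Q.ord_av
  rw [mon_five]
  have h := Q.ord_mul (Q.ord_mul (Q.ord_mul (Q.ord_mul (Q.ord_pow h0 (c 0)) (Q.ord_pow h1 (c 1)))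
    (Q.ord_pow h2 (c 2))) (Q.ord_pow h3 (c 3))) (Q.ord_pow h4 (c 4))
  have e : (c 0 : ℤ) * -1 + (c 1 : ℤ) * -1 + (c 2 : ℤ) * 0 + (c 3 : ℤ) * 1 + (c 4 : ℤ) * 0 =
      -(lam c 0) := by
    rw [lam0]
    ring
  rwa [e] at h

theorem QD.level0 (Q : QD k L) [IsAlgClosed k] (h7 : (7 : k) ≠ 0) (n : ℕ) (c : Ev →₀ k)
    (hc : ∀ a ∈ c.support, Std a)
    (hf : IsIntegral (T Q.D) (Polynomial.monomial n (c.sum (fun a x => x • mon Q.q a)))) :
    ∀ a ∈ c.support, lam a 0 ≤ n := by
  classical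
  obtain ⟨g, γ, C, hg, hfg, hγ, hgγ, hC, hCs⟩ := decomp Q h7 n _ hf
  have hcC : c = C := by
    refine lc_inj Q hc ?_ ?_
    · intro a ha
      obtain ⟨c', e, he, rfl⟩ := hCs a ha
      exact std_emb e (hγ c' e he) c'
    · rw [Finsupp.linearCombination_apply]
      exact hC
  intro a ha
  rw [hcC] at ha
  obtain ⟨c', e, he, rfl⟩ := hCs a ha
  have hne : γ c' ≠ 0 := by
    intro h0
    rw [h0] at he
    simp at he
  obtain ⟨e0, _, hmax, hord⟩ := Q.lead (γ c') (hγ c') hne
  rw [← hgγ c'] at hord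
  have hint := Q.hom_A0 n _ hf
  rw [hfg] at hint
  have hint2 := Q.hom_A0_comp h7 n g hg hint c'
  have hord2 := Q.ord_mul (Q.ord_pow Q.ord_av.2.2.2.1 n)
    (Q.ord_mul (Q.ord_pow hord 7) (ord_mon Q (cev c')))
  have hav : ∀ i, Q.av i ∈ Q.F1 := fun i => Q.OU_le_F1 (Q.av_mem i)
  have hmon : mon Q.av (cev c') ∈ Q.F1 := by
    unfold mon
    exact prod_mem fun i _ => pow_mem (hav i) _
  have hmem : Q.av 3 ^ n * (g c' ^ 7 * mon Q.av (cev c')) ∈ Q.F1 :=
    MulMemClass.mul_mem (pow_mem (hav 3) n) (MulMemClass.mul_mem (pow_mem (Q.OU_le_F1 (hg c')) 7) hmon)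
  have h1 := Q.ord_nonneg hord2 hmem hint2
  have h2 := hmax e he
  rw [lam_emb]
  push_cast at h1
  linarith

/-- shift of exponents -/
private def sh (a : Ev) : Ev := fun i => a (i - 1)

private theorem sh_inj : Function.Injective sh := by
  intro a b h
  funext i
  have := congrFun h (i + 1)
  simpa [sh] using this

private theorem lam_sh (a : Ev) (i : ZMod 5) : lam (sh a) i = lam a (i - 1) := by
  unfold lam sh
  have e1 : i + 1 - 1 = i - 1 + 1 := by ring
  have e2 : i + 3 - 1 = i - 1 + 3 := by ring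
  rw [e1, e2]

private theorem std_sh (a : Ev) (h : Std a) : Std (sh a) := by
  intro i
  have h1 := h (i - 1)
  have e1 : i + 1 - 1 = i - 1 + 1 := by ring
  unfold sh
  rw [e1]
  exact h1

private theorem rho_mon (Q : QD k L) (a : Ev) : Q.rho (mon Q.q a) = mon Q.q (sh a) := by
  unfold mon sh
  rw [map_prod]
  simp only [map_pow, Q.rho_q]
  rw [← Equiv.prod_comp (Equiv.addRight (1 : ZMod 5)) (fun i => Q.q i ^ a (i - 1))]
  refine Finset.prod_congr rfl fun i _ => ?_
  simp

private theorem rho_Bn (Q : QD k L) (n : ℤ) (b : L) (hb : b ∈ Q.Bn n) : Q.rho b ∈ Q.Bn n := by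
  unfold QD.Bn at hb
  induction hb using Submodule.span_induction with
  | mem x hx =>
    obtain ⟨a, ha, rfl⟩ := hx
    rw [rho_mon]
    exact Q.mon_mem fun i => by rw [lam_sh]; exact ha _
  | zero => rw [map_zero]; exact Submodule.zero_mem _
  | add x y _ _ hx hy => rw [map_add]; exact Submodule.add_mem _ hx hy
  | smul c x _ hx => rw [map_smul]; exact Submodule.smul_mem _ c hx

private theorem int_rho (Q : QD k L) (n : ℕ) (f : L)
    (hf : IsIntegral (T Q.D) (Polynomial.monomial n f)) :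
    IsIntegral (T Q.D) (Polynomial.monomial n (Q.rho f)) := by
  let ψ : Polynomial L →+* Polynomial L := Polynomial.mapRingHom (Q.rho : L →+* L)
  have hψ : ∀ x : T Q.D, ψ (x : Polynomial L) ∈ T Q.D := by
    intro x m
    show (Polynomial.map (Q.rho : L →+* L) (x : Polynomial L)).coeff m ∈ Q.Bn m
    rw [Polynomial.coeff_map]
    exact rho_Bn Q m _ (x.2 m)
  let φ : T Q.D →+* T Q.D := (ψ.comp (T Q.D).val.toRingHom).codRestrict (T Q.D) hψ
  have h1 := hf.map_of_comp_eq φ ψ (RingHom.ext fun x => rfl)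
  have h2 : ψ (Polynomial.monomial n f) = Polynomial.monomial n (Q.rho f) :=
    Polynomial.map_monomial _
  rwa [h2] at h1

private theorem rho_sum (Q : QD k L) (c : Ev →₀ k) :
    Q.rho (c.sum (fun a x => x • mon Q.q a)) =
      (c.mapDomain sh).sum (fun a x => x • mon Q.q a) := by
  have h1 : (c.mapDomain sh).sum (fun a x => x • mon Q.q a) =
      Finsupp.linearCombination k (mon Q.q) (c.mapDomain sh) :=
    (Finsupp.linearCombination_apply _ _).symm
  rw [h1, Finsupp.linearCombination_mapDomain, Finsupp.linearCombination_apply, Finsupp.sum,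
    Finsupp.sum, map_sum]
  refine Finset.sum_congr rfl fun a _ => ?_
  rw [map_smul, rho_mon, Function.comp_apply]

private theorem level (Q : QD k L) [IsAlgClosed k] (h7 : (7 : k) ≠ 0) (n : ℕ) (m : ℕ) :
    ∀ c : Ev →₀ k, (∀ a ∈ c.support, Std a) →
    IsIntegral (T Q.D) (Polynomial.monomial n (c.sum (fun a x => x • mon Q.q a))) →
    ∀ a ∈ c.support, lam a (-(m : ZMod 5)) ≤ n := by
  classical
  induction m with
  | zero =>
    intro c hc hf a ha
    rw [Nat.cast_zero, neg_zero]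
    exact Q.level0 h7 n c hc hf a ha
  | succ m ih =>
    intro c hc hf a ha
    have h1 := ih (c.mapDomain sh) (by
      intro b hb
      have h3 := Finsupp.mapDomain_support hb
      rw [Finset.mem_image] at h3
      obtain ⟨b', hb', rfl⟩ := h3
      exact std_sh b' (hc b' hb')) (by
      rw [← rho_sum]
      exact int_rho Q n _ hf) (sh a) (by
      rw [Finsupp.mem_support_iff, Finsupp.mapDomain_apply sh_inj]
      exact Finsupp.mem_support_iff.1 ha)
    rw [lam_sh] at h1
    have e : -((m + 1 : ℕ) : ZMod 5) = -(m : ZMod 5) - 1 := by push_cast; ring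
    rw [e]
    exact h1

theorem QD.hom_mem (Q : QD k L) [IsAlgClosed k] (h7 : (7 : k) ≠ 0) (n : ℕ) (f : L)
    (hf : IsIntegral (T Q.D) (Polynomial.monomial n f)) : f ∈ Q.Bn n := by
  classical
  obtain ⟨g, γ, C, hg, hfg, hγ, hgγ, hC, hCs⟩ := decomp Q h7 n _ hf
  have hCstd : ∀ a ∈ C.support, Std a := by
    intro a ha
    obtain ⟨c', e, he, rfl⟩ := hCs a ha
    exact std_emb e (hγ c' e he) c'
  rw [Finsupp.linearCombination_apply] at hC
  rw [hC]
  rw [hC] at hf
  refine Submodule.sum_mem _ fun a ha => Submodule.smul_mem _ _ (Q.mon_mem fun i => ?_)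
  have h1 := level Q h7 n (-i).val C hCstd hf a ha
  rw [ZMod.natCast_zmod_val, neg_neg] at h1
  exact h1

theorem QD.normal (Q : QD k L) [IsAlgClosed k] (h7 : (7 : k) ≠ 0) : IsIntegrallyClosed (T Q.D) := by
  have : Infinite k := IsAlgClosed.instInfinite
  exact normal_of_homog Q.D fun n f hf => Q.hom_mem h7 n f hf

end Ex

end R169
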