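import Crest.Agent.R169.ExLift

/-!
# Row 169, module EX, piece EX_OU0 (0.8 h): `O(U) = k[a_0..a_4]`, `a_i = q_i^7`, modulo `a_i`

`OU_mod`: `O(U) = k[a_{i+2}] + a_i O(U)`: the set of such `f` is closed under `+, *`; generators:
`a_{i+1} = -1 + a_ia_{i+2}`, `a_{i-1} = a_{i+4} = -1 + a_ia_{i+3}`, `a_{i+3} = -1 - a_{i+2} + a_ia_{i+2}a_{i+3}`
(from `a_{i+1}a_{i+3} = 1 + a_{i+2}`).
`OU_mod_inj`: hom `ψ : k[q] → Ω = AlgebraicClosure (RatFunc k)` (`Q.lift`), `q_i ↦ 0`, `q_{i±1} ↦ -1`, `q_{i+2} ↦ X`,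
`q_{i+3} ↦ Y`, `Y^7 = -(1+X^7)` (check `Rel`); `ψ(a_i) = 0`, `ψ(a_{i+2}) = X^7` is transcendental over `k`.
`OU_prime`, `OU_not_dvd` follow: `a_i` is a prime element of `O(U)`, not dividing `a_j`, `j ≠ i` (`a_j ≡ -1, X, -1-X`).
-/

set_option autoImplicit false

namespace R169

namespace Ex

variable {k L : Type} [Field k] [Field L] [Algebra k L]

/-- `a_i = q_i^7` -/
def QD.av (Q : QD k L) (i : ZMod 5) : L := Q.q i ^ 7

/-- `O(U) = k[a_0, .., a_4]` -/
def QD.OU (Q : QD k L) : Subalgebra k L := Algebra.adjoin k (Set.range Q.av)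

theorem QD.av_mem (Q : QD k L) (i : ZMod 5) : Q.av i ∈ Q.OU := Algebra.subset_adjoin ⟨i, rfl⟩

theorem QD.av_rel (Q : QD k L) (i : ZMod 5) : Q.av (i - 1) * Q.av (i + 1) = 1 + Q.av i := Q.rel i

/-- generators modulo `a_i` -/
theorem QD.av_mod (Q : QD k L) (i d : ZMod 5) (hd : d ≠ 0) :
    ∃ P : Polynomial k, P ≠ 0 ∧ ∃ h ∈ Q.OU, Q.av (i + d) = Polynomial.aeval (Q.av (i + 2)) P + Q.av i * h := by
  have r1 : Q.av i * Q.av (i + 2) = 1 + Q.av (i + 1) := by
    have h := Q.av_rel (i + 1)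
    have e1 : i + 1 - 1 = i := by ring
    have e2 : i + 1 + 1 = i + 2 := by ring
    rwa [e1, e2] at h
  have r2 : Q.av (i + 1) * Q.av (i + 3) = 1 + Q.av (i + 2) := by
    have h := Q.av_rel (i + 2)
    have e1 : i + 2 - 1 = i + 1 := by ring
    have e2 : i + 2 + 1 = i + 3 := by ring
    rwa [e1, e2] at h
  have r4 : Q.av (i + 3) * Q.av i = 1 + Q.av (i + 4) := by
    have h := Q.av_rel (i + 4)
    have e1 : i + 4 - 1 = i + 3 := by ring
    have e2 : i + 4 + 1 = i := by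
      rw [add_assoc]
      have : (4 : ZMod 5) + 1 = 0 := by decide
      rw [this, add_zero]
    rwa [e1, e2] at h
  have hd5 : d = 1 ∨ d = 2 ∨ d = 3 ∨ d = 4 := by
    revert d
    decide
  rcases hd5 with rfl | rfl | rfl | rfl
  · refine ⟨-1, neg_ne_zero.2 one_ne_zero, Q.av (i + 2), Q.av_mem _, ?_⟩
    rw [map_neg, map_one, r1]
    ring
  · refine ⟨Polynomial.X, Polynomial.X_ne_zero, 0, Q.OU.zero_mem, ?_⟩
    rw [Polynomial.aeval_X, mul_zero, add_zero]
  · refine ⟨-1 - Polynomial.X, ?_, Q.av (i + 2) * Q.av (i + 3),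
      Q.OU.mul_mem (Q.av_mem _) (Q.av_mem _), ?_⟩
    · intro h
      have := congrArg (fun P => Polynomial.coeff P 1) h
      simp [Polynomial.coeff_one] at this
    · rw [map_sub, map_neg, map_one, Polynomial.aeval_X]
      have r3 : Q.av i * (Q.av (i + 2) * Q.av (i + 3)) = (1 + Q.av (i + 1)) * Q.av (i + 3) := by
        rw [← mul_assoc, r1]
      rw [r3]
      linear_combination (-1 : L) * r2
  · refine ⟨-1, neg_ne_zero.2 one_ne_zero, Q.av (i + 3), Q.av_mem _, ?_⟩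
    rw [map_neg, map_one, mul_comm, r4]
    ring

theorem QD.aeval_mem_OU (Q : QD k L) (i : ZMod 5) (R : Polynomial k) :
    Polynomial.aeval (Q.av i) R ∈ Q.OU := by
  have h1 := Polynomial.aeval_mem_adjoin_singleton k (Q.av i) (p := R)
  have h2 : ({Q.av i} : Set L) ⊆ Set.range Q.av := by
    rw [Set.singleton_subset_iff]
    exact ⟨i, rfl⟩
  exact Algebra.adjoin_mono h2 h1

theorem QD.OU_mod (Q : QD k L) (i : ZMod 5) (f : L) (hf : f ∈ Q.OU) :
    ∃ P : Polynomial k, ∃ h ∈ Q.OU, f = Polynomial.aeval (Q.av (i + 2)) P + Q.av i * h := by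
  unfold QD.OU at hf
  induction hf using Algebra.adjoin_induction with
  | mem x hx =>
    obtain ⟨j, rfl⟩ := hx
    by_cases hj : j = i
    · subst hj
      refine ⟨0, 1, Q.OU.one_mem, ?_⟩
      rw [map_zero, zero_add, mul_one]
    · obtain ⟨P, _, h, hh, he⟩ := Q.av_mod i (j - i) (sub_ne_zero.2 hj)
      rw [add_sub_cancel] at he
      exact ⟨P, h, hh, he⟩
  | algebraMap r =>
    refine ⟨Polynomial.C r, 0, Q.OU.zero_mem, ?_⟩
    rw [Polynomial.aeval_C, mul_zero, add_zero]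
  | add x y _ _ hx hy =>
    obtain ⟨P, h, hh, rfl⟩ := hx
    obtain ⟨P', h', hh', rfl⟩ := hy
    refine ⟨P + P', h + h', Q.OU.add_mem hh hh', ?_⟩
    rw [map_add]
    ring
  | mul x y _ _ hx hy =>
    obtain ⟨P, h, hh, rfl⟩ := hx
    obtain ⟨P', h', hh', rfl⟩ := hy
    have hP : ∀ R : Polynomial k, Polynomial.aeval (Q.av (i + 2)) R ∈ Q.OU := Q.aeval_mem_OU (i + 2)
    refine ⟨P * P', Polynomial.aeval (Q.av (i + 2)) P * h' + h * Polynomial.aeval (Q.av (i + 2)) P' +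
      Q.av i * h * h', ?_, ?_⟩
    · exact Q.OU.add_mem (Q.OU.add_mem (Q.OU.mul_mem (hP P) hh') (Q.OU.mul_mem hh (hP P')))
        (Q.OU.mul_mem (Q.OU.mul_mem (Q.av_mem i) hh) hh')
    · rw [map_mul]
      ring

theorem QD.OU_le_BU (Q : QD k L) : Q.OU ≤ Q.BU := by
  unfold QD.OU
  rw [Algebra.adjoin_le_iff]
  rintro _ ⟨j, rfl⟩
  exact Q.BU.pow_mem (Algebra.subset_adjoin ⟨j, rfl⟩) 7

theorem QD.OU_mod_inj (Q : QD k L) (i : ZMod 5) (P : Polynomial k) (h : L) (hh : h ∈ Q.OU)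
    (he : Polynomial.aeval (Q.av (i + 2)) P = Q.av i * h) : P = 0 := by
  set Ω := AlgebraicClosure (RatFunc k)
  let X : Ω := algebraMap (RatFunc k) Ω RatFunc.X
  obtain ⟨Y, hY⟩ := IsAlgClosed.exists_pow_nat_eq (-(1 + X ^ 7)) (n := 7) (by norm_num)
  let c : ZMod 5 → Ω := fun d => if d = 0 then 0 else if d = 2 then X else if d = 3 then Y else -1
  have c0 : c 0 = 0 := by simp [c]
  have c1 : c 1 = -1 := by
    simp only [c]
    rw [if_neg (by decide), if_neg (by decide), if_neg (by decide)]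
  have c2 : c 2 = X := by
    simp only [c]
    rw [if_neg (by decide)]
    simp
  have c3 : c 3 = Y := by
    simp only [c]
    rw [if_neg (by decide), if_neg (by decide)]
    simp
  have c4 : c 4 = -1 := by
    simp only [c]
    rw [if_neg (by decide), if_neg (by decide), if_neg (by decide)]
  have hc : ∀ d : ZMod 5, c (d - 1) ^ 7 * c (d + 1) ^ 7 = 1 + c d ^ 7 := by
    intro d
    have hd5 : d = 0 ∨ d = 1 ∨ d = 2 ∨ d = 3 ∨ d = 4 := by
      revert d
      decide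
    rcases hd5 with rfl | rfl | rfl | rfl | rfl
    · have e1 : (0 : ZMod 5) - 1 = 4 := by decide
      have e2 : (0 : ZMod 5) + 1 = 1 := by decide
      rw [e1, e2, c0, c1, c4]
      norm_num
    · have e1 : (1 : ZMod 5) - 1 = 0 := by decide
      have e2 : (1 : ZMod 5) + 1 = 2 := by decide
      rw [e1, e2, c0, c1, c2]
      norm_num
    · have e1 : (2 : ZMod 5) - 1 = 1 := by decide
      have e2 : (2 : ZMod 5) + 1 = 3 := by decide
      rw [e1, e2, c1, c2, c3, hY]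
      ring
    · have e1 : (3 : ZMod 5) - 1 = 2 := by decide
      have e2 : (3 : ZMod 5) + 1 = 4 := by decide
      rw [e1, e2, c2, c3, c4, hY]
      ring
    · have e1 : (4 : ZMod 5) - 1 = 3 := by decide
      have e2 : (4 : ZMod 5) + 1 = 0 := by decide
      rw [e1, e2, c3, c4, c0]
      norm_num
  have hrel : Rel (fun j => c (j - i)) := by
    intro j
    have h1 := hc (j - i)
    have e1 : j - i - 1 = j - 1 - i := by ring
    have e2 : j - i + 1 = j + 1 - i := by ring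
    rw [e1, e2] at h1
    exact h1
  obtain ⟨φ, hφ⟩ := Q.lift (fun j => c (j - i)) hrel
  have hmem : ∀ j, Q.av j ∈ Q.BU := fun j => Q.OU_le_BU (Q.av_mem j)
  have hφa : ∀ j, φ ⟨Q.av j, hmem j⟩ = c (j - i) ^ 7 := by
    intro j
    rw [← hφ j, ← map_pow]
    rfl
  have h1 : (Polynomial.aeval (⟨Q.av (i + 2), hmem (i + 2)⟩ : Q.BU) P) =
      ⟨Q.av i, hmem i⟩ * ⟨h, Q.OU_le_BU hh⟩ := by
    apply Subtype.ext
    rw [Polynomial.aeval_subalgebra_coe]
    exact he
  have h2 := congrArg φ h1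
  rw [map_mul, ← Polynomial.aeval_algHom_apply, hφa, hφa, sub_self, c0] at h2
  have e3 : i + 2 - i = 2 := by ring
  rw [e3, c2, zero_pow (by norm_num), zero_mul, ← Polynomial.expand_aeval] at h2
  have h3 : Polynomial.aeval X (Polynomial.expand k 7 P) =
      algebraMap (RatFunc k) Ω (algebraMap (Polynomial k) (RatFunc k) (Polynomial.expand k 7 P)) := by
    change Polynomial.aeval (algebraMap (RatFunc k) Ω RatFunc.X) _ = _
    rw [Polynomial.aeval_algebraMap_apply]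
    congr 1
    rw [← RatFunc.algebraMap_X, Polynomial.aeval_algebraMap_apply, Polynomial.aeval_X_left_apply]
  rw [h3] at h2
  rw [map_eq_zero_iff _ (algebraMap (RatFunc k) Ω).injective,
    map_eq_zero_iff _ (RatFunc.algebraMap_injective k)] at h2
  exact (Polynomial.expand_eq_zero (by norm_num)).1 h2

theorem QD.OU_prime (Q : QD k L) (i : ZMod 5) {f g h : L} (hf : f ∈ Q.OU) (hg : g ∈ Q.OU) (hh : h ∈ Q.OU)
    (he : f * g = Q.av i * h) : (∃ h' ∈ Q.OU, f = Q.av i * h') ∨ ∃ h' ∈ Q.OU, g = Q.av i * h' := by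
  have hP : ∀ R : Polynomial k, Polynomial.aeval (Q.av (i + 2)) R ∈ Q.OU := Q.aeval_mem_OU (i + 2)
  obtain ⟨P, f', hf', rfl⟩ := Q.OU_mod i f hf
  obtain ⟨R, g', hg', rfl⟩ := Q.OU_mod i g hg
  have h1 : Polynomial.aeval (Q.av (i + 2)) (P * R) = Q.av i *
      (h - (Polynomial.aeval (Q.av (i + 2)) P * g' + f' * Polynomial.aeval (Q.av (i + 2)) R +
      Q.av i * f' * g')) := by
    rw [map_mul]
    linear_combination he
  have h2 := Q.OU_mod_inj i (P * R) _ (Q.OU.sub_mem hh (Q.OU.add_mem (Q.OU.add_mem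
    (Q.OU.mul_mem (hP P) hg') (Q.OU.mul_mem hf' (hP R)))
        (Q.OU.mul_mem (Q.OU.mul_mem (Q.av_mem i) hf') hg'))) h1
  rcases mul_eq_zero.1 h2 with h3 | h3
  · left
    refine ⟨f', hf', ?_⟩
    rw [h3, map_zero, zero_add]
  · right
    refine ⟨g', hg', ?_⟩
    rw [h3, map_zero, zero_add]

theorem QD.OU_not_dvd (Q : QD k L) {i j : ZMod 5} (hij : i ≠ j) : ¬ ∃ h ∈ Q.OU, Q.av j = Q.av i * h := by
  rintro ⟨h, hh, he⟩
  obtain ⟨P, hP, h', hh', he'⟩ := Q.av_mod i (j - i) (sub_ne_zero.2 hij.symm)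
  rw [add_sub_cancel] at he'
  apply hP
  apply Q.OU_mod_inj i P (h - h') (Q.OU.sub_mem hh hh')
  rw [mul_sub, ← he, he']
  ring

end Ex

end R169
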