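import Crest.Agent.R169.ExOU0

/-!
# Row 169, module EX, piece EX_OU1 (1 h): `O(U)` is integrally closed in `F1 = k(a_0..a_4)`

`av_indep`: the monomials `a_i^s a_{i+1}^t = q_i^{7s} q_{i+1}^{7t}` are standard.
`av_indep2`: `a_i = a_{i-1}a_{i+1} - 1`, so `k(a_{i-1}, a_{i+1})` contains `a_i`, hence everything (`F1` is algebraic over it); a transcendence
basis of `F1` inside `{a_{i-1}, a_{i+1}}` has two elements (transcendence degree 2 by `av_indep`).
`OU_loc`: `a_{i+2} = (1+a_{i+1})/a_i`, `a_{i+3} = (1+a_{i-1})/a_i`.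
`OU_int_loc`: `f ∈ F1` integral over `O(U)`: some `a_i^m f` is integral over `k[a_{i-1}, a_{i+1}]` (multiply the equation by `a_i^{mr}`),
a polynomial ring (UFD, integrally closed: `MvPolynomial (Fin 2) k`) whose fraction field is `F1`.
`OU_normal`: `a_0^m f =: g ∈ O(U)`, `m` minimal; if `m > 0`: `g^r ∈ a_0 O(U)`, so `g ∈ a_0O(U)` (`OU_prime`), contradiction.
-/

set_option autoImplicit false

namespace R169

namespace Ex

variable {k L : Type} [Field k] [Field L] [Algebra k L]

/-- `F1 = k(a_0, .., a_4)` -/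
def QD.F1 (Q : QD k L) : IntermediateField k L := IntermediateField.adjoin k (Set.range Q.av)

/-- algebraic independence from linear independence of the monomials -/
private theorem algInd_of_linInd {x y : L}
    (h : LinearIndependent k (fun s : Fin 2 →₀ ℕ => x ^ s 0 * y ^ s 1)) :
    AlgebraicIndependent k ![x, y] := by
  classical
  rw [algebraicIndependent_iff]
  intro p hp
  rw [MvPolynomial.aeval_def, MvPolynomial.eval₂_eq'] at hp
  have hp2 : ∑ s ∈ p.support, MvPolynomial.coeff s p • (x ^ s 0 * y ^ s 1) = 0 := by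
    rw [← hp]
    refine Finset.sum_congr rfl fun s _ => ?_
    rw [Fin.prod_univ_two, Algebra.smul_def]
    rfl
  by_contra hne
  obtain ⟨s, hs⟩ := MvPolynomial.support_nonempty.2 hne
  have := linearIndependent_iff'.1 h p.support (fun s => MvPolynomial.coeff s p) hp2 s hs
  exact MvPolynomial.mem_support_iff.1 hs this

private theorem std2 (i : ZMod 5) (m n : ℕ) :
    Std (Pi.single i (7 * m) + Pi.single (i + 1) (7 * n)) := by
  intro j
  have h : ∀ i j : ZMod 5, (j - 1 ≠ i ∧ j - 1 ≠ i + 1) ∨ (j + 1 ≠ i ∧ j + 1 ≠ i + 1) := by decide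
  rcases h i j with ⟨h1, h2⟩ | ⟨h1, h2⟩
  · left
    rw [Pi.add_apply, Pi.single_eq_of_ne h1, Pi.single_eq_of_ne h2]
    norm_num
  · right
    rw [Pi.add_apply, Pi.single_eq_of_ne h1, Pi.single_eq_of_ne h2]
    norm_num

theorem QD.av_indep (Q : QD k L) (i : ZMod 5) : AlgebraicIndependent k ![Q.av i, Q.av (i + 1)] := by
  classical
  apply algInd_of_linInd
  let E : (Fin 2 →₀ ℕ) → {a : Ev // Std a} := fun s =>
    ⟨Pi.single i (7 * s 0) + Pi.single (i + 1) (7 * s 1), std2 i _ _⟩
  have hne : ∀ i : ZMod 5, i ≠ i + 1 := by decide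
  have hE : Function.Injective E := by
    intro s t hst
    have h0 := congrArg (fun a : {a : Ev // Std a} => a.1 i) hst
    have h1 := congrArg (fun a : {a : Ev // Std a} => a.1 (i + 1)) hst
    simp only [E, Pi.add_apply, Pi.single_eq_same, Pi.single_eq_of_ne (hne i),
      Pi.single_eq_of_ne (hne i).symm, add_zero, zero_add] at h0 h1
    ext l
    fin_cases l
    · show s 0 = t 0
      omega
    · show s 1 = t 1
      omega
  have h := Q.indep.comp E hE
  have e : ((fun a : {a : Ev // Std a} => mon Q.q a.1) ∘ E) =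
      fun s : Fin 2 →₀ ℕ => Q.av i ^ s 0 * Q.av (i + 1) ^ s 1 := by
    funext s
    show mon Q.q (Pi.single i (7 * s 0) + Pi.single (i + 1) (7 * s 1)) = _
    rw [mon_add, mon_single, mon_single]
    unfold QD.av
    rw [pow_mul, pow_mul]
  rw [e] at h
  exact h

/-- change of variables `y ↦ 1 + y` -/
private theorem algInd_one_add {x y : L} (h : AlgebraicIndependent k ![x, y]) :
    AlgebraicIndependent k ![x, 1 + y] := by
  rw [algebraicIndependent_iff] at h ⊢
  intro p hp
  let φ : MvPolynomial (Fin 2) k →ₐ[k] MvPolynomial (Fin 2) k :=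
    MvPolynomial.aeval ![MvPolynomial.X 0, 1 + MvPolynomial.X 1]
  let ψ : MvPolynomial (Fin 2) k →ₐ[k] MvPolynomial (Fin 2) k :=
    MvPolynomial.aeval ![MvPolynomial.X 0, MvPolynomial.X 1 - 1]
  have h1 : ∀ q, MvPolynomial.aeval ![x, y] (φ q) = MvPolynomial.aeval ![x, 1 + y] q := by
    intro q
    have : (MvPolynomial.aeval ![x, y]).comp φ = MvPolynomial.aeval (R := k) ![x, 1 + y] := by
      apply MvPolynomial.algHom_ext
      intro l
      fin_cases l <;> simp [φ]
    exact congrArg (fun f : MvPolynomial (Fin 2) k →ₐ[k] L => f q) this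
  have h2 : ∀ q, ψ (φ q) = q := by
    intro q
    have : ψ.comp φ = AlgHom.id k _ := by
      apply MvPolynomial.algHom_ext
      intro l
      fin_cases l <;> simp [φ, ψ]
    exact congrArg (fun f : MvPolynomial (Fin 2) k →ₐ[k] MvPolynomial (Fin 2) k => f q) this
  have h3 := h (φ p) (by rw [h1, hp])
  rw [← h2 p, h3, map_zero]

/-- from `x, z` to `x, z / x` -/
private theorem algInd_div {x w : L} (hx : x ≠ 0) (h : AlgebraicIndependent k ![x, x * w]) :
    AlgebraicIndependent k ![x, w] := by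
  classical
  apply algInd_of_linInd
  rw [linearIndependent_iff']
  intro S g hg s0 hs0
  set N : ℕ := S.sup fun s => s 1 with hN
  have hle : ∀ s ∈ S, s 1 ≤ N := fun s hs => Finset.le_sup (f := fun s : Fin 2 →₀ ℕ => s 1) hs
  let e : (Fin 2 →₀ ℕ) → (Fin 2 →₀ ℕ) := fun s =>
    Finsupp.single 0 (s 0 + N - s 1) + Finsupp.single 1 (s 1)
  have he0 : ∀ s, e s 0 = s 0 + N - s 1 := by
    intro s
    simp [e]
  have he1 : ∀ s, e s 1 = s 1 := by
    intro s
    simp [e]
  have hinj : ∀ s ∈ S, e s = e s0 → s = s0 := by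
    intro s hs hss
    have h0 := congrArg (fun a : Fin 2 →₀ ℕ => a 0) hss
    have h1 := congrArg (fun a : Fin 2 →₀ ℕ => a 1) hss
    simp only [he0, he1] at h0 h1
    have h2 := hle s hs
    ext l
    fin_cases l
    · show s 0 = s0 0
      omega
    · show s 1 = s0 1
      omega
  have hz : MvPolynomial.aeval ![x, x * w] (∑ s ∈ S, MvPolynomial.monomial (e s) (g s)) = 0 := by
    rw [map_sum]
    have h1 : ∀ s ∈ S, MvPolynomial.aeval ![x, x * w] (MvPolynomial.monomial (e s) (g s)) =
        x ^ N * (g s • (x ^ s 0 * w ^ s 1)) := by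
      intro s hs
      have h2 := hle s hs
      rw [MvPolynomial.aeval_monomial, Finsupp.prod_fintype _ _ (fun _ => pow_zero _),
        Fin.prod_univ_two, he0, he1, Algebra.smul_def]
      show algebraMap k L (g s) * (x ^ (s 0 + N - s 1) * (x * w) ^ s 1) = _
      have h3 : x ^ (s 0 + N - s 1) * x ^ s 1 = x ^ N * x ^ s 0 := by
        rw [← pow_add, ← pow_add]
        congr 1
        omega
      rw [mul_pow]
      linear_combination (algebraMap k L (g s) * w ^ s 1) * h3
    rw [Finset.sum_congr rfl h1, ← Finset.mul_sum, hg, mul_zero]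
  have h4 := (algebraicIndependent_iff.1 h) _ hz
  have h5 := congrArg (MvPolynomial.coeff (e s0)) h4
  rw [MvPolynomial.coeff_sum, MvPolynomial.coeff_zero, Finset.sum_eq_single s0] at h5
  · rwa [MvPolynomial.coeff_monomial, if_pos rfl] at h5
  · intro s hs hne
    rw [MvPolynomial.coeff_monomial, if_neg]
    intro hc
    exact hne (hinj s hs hc)
  · intro hc
    exact absurd hs0 hc

private theorem QD.av_ne (Q : QD k L) (i : ZMod 5) : Q.av i ≠ 0 := pow_ne_zero _ (Q.q_ne i)

theorem QD.av_indep2 (Q : QD k L) (i : ZMod 5) : AlgebraicIndependent k ![Q.av (i - 1), Q.av (i + 1)] := by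
  have h1 := Q.av_indep (i - 1)
  rw [sub_add_cancel] at h1
  have h2 := algInd_one_add h1
  rw [← Q.av_rel i] at h2
  exact algInd_div (Q.av_ne _) h2

private theorem av_cases (i j : ZMod 5) : j = i - 1 ∨ j = i + 1 ∨ j = i ∨ j = i + 2 ∨ j = i - 2 := by
  revert i j; decide

private theorem QD.rel2 (Q : QD k L) (i : ZMod 5) : Q.av i * Q.av (i + 2) = 1 + Q.av (i + 1) := by
  have h := Q.av_rel (i + 1)
  rwa [add_sub_cancel_right, add_assoc, one_add_one_eq_two] at h

private theorem QD.rel3 (Q : QD k L) (i : ZMod 5) : Q.av i * Q.av (i - 2) = 1 + Q.av (i - 1) := by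
  have h := Q.av_rel (i - 1)
  rw [sub_add_cancel, sub_sub, one_add_one_eq_two] at h
  rw [mul_comm]
  exact h

theorem QD.OU_loc (Q : QD k L) (i : ZMod 5) (f : L) (hf : f ∈ Q.OU) :
    ∃ m : ℕ, Q.av i ^ m * f ∈ Algebra.adjoin k {Q.av (i - 1), Q.av (i + 1)} := by
  set R := Algebra.adjoin k {Q.av (i - 1), Q.av (i + 1)} with hR
  have m1 : Q.av (i - 1) ∈ R := Algebra.subset_adjoin (by simp)
  have m2 : Q.av (i + 1) ∈ R := Algebra.subset_adjoin (by simp)
  have m0 : Q.av i ∈ R := by
    have e : Q.av i = Q.av (i - 1) * Q.av (i + 1) - 1 := by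
      rw [Q.av_rel]
      ring
    rw [e]
    exact R.sub_mem (R.mul_mem m1 m2) R.one_mem
  have hup : ∀ (m m' : ℕ) (f : L), m ≤ m' → Q.av i ^ m * f ∈ R → Q.av i ^ m' * f ∈ R := by
    intro m m' f hm h
    obtain ⟨c, rfl⟩ := Nat.exists_eq_add_of_le hm
    rw [add_comm, pow_add, mul_assoc]
    exact R.mul_mem (R.pow_mem m0 c) h
  unfold QD.OU at hf
  induction hf using Algebra.adjoin_induction with
  | mem x hx =>
    obtain ⟨j, rfl⟩ := hx
    rcases av_cases i j with rfl | rfl | rfl | rfl | rfl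
    · exact ⟨0, by rw [pow_zero, one_mul]; exact m1⟩
    · exact ⟨0, by rw [pow_zero, one_mul]; exact m2⟩
    · exact ⟨0, by rw [pow_zero, one_mul]; exact m0⟩
    · refine ⟨1, ?_⟩
      rw [pow_one, Q.rel2]
      exact R.add_mem R.one_mem m2
    · refine ⟨1, ?_⟩
      rw [pow_one, Q.rel3]
      exact R.add_mem R.one_mem m1
  | algebraMap c => exact ⟨0, by rw [pow_zero, one_mul]; exact R.algebraMap_mem c⟩
  | add x y _ _ hx hy =>
    obtain ⟨a, ha⟩ := hx
    obtain ⟨b, hb⟩ := hy
    refine ⟨max a b, ?_⟩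
    rw [mul_add]
    exact R.add_mem (hup _ _ _ (le_max_left _ _) ha) (hup _ _ _ (le_max_right _ _) hb)
  | mul x y _ _ hx hy =>
    obtain ⟨a, ha⟩ := hx
    obtain ⟨b, hb⟩ := hy
    refine ⟨a + b, ?_⟩
    have e : Q.av i ^ (a + b) * (x * y) = (Q.av i ^ a * x) * (Q.av i ^ b * y) := by
      rw [pow_add]; ring
    rw [e]
    exact R.mul_mem ha hb

private theorem adj_ic {x y : L} (h : AlgebraicIndependent k ![x, y]) :
    IsIntegrallyClosed (Algebra.adjoin k {x, y}) := by
  have hr : Set.range ![x, y] = {x, y} := by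
    simp [Matrix.range_cons, Set.pair_comm]
  have e := h.aevalEquiv
  rw [hr] at e
  have : UniqueFactorizationMonoid (Algebra.adjoin k {x, y}) :=
    e.toMulEquiv.uniqueFactorizationMonoid inferInstance
  infer_instance

/-- an element of the fraction field integral over an integrally closed subring is in it -/
private theorem mem_of_int (R : Subalgebra k L) [IsIntegrallyClosed R] {g u v : L} (hu : u ∈ R)
    (hv : v ∈ R) (hv0 : v ≠ 0) (hg : g = u / v) (hi : IsIntegral R g) : g ∈ R := by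
  let K := FractionRing R
  have hinj : Function.Injective (algebraMap R L) := Subtype.val_injective
  let φ : K →ₐ[R] L := IsFractionRing.liftAlgHom (g := Algebra.ofId R L) hinj
  have hφ : φ (algebraMap R K ⟨u, hu⟩ / algebraMap R K ⟨v, hv⟩) = g := by
    rw [map_div₀, AlgHom.commutes, AlgHom.commutes, hg]
    rfl
  have h1 : IsIntegral R (algebraMap R K ⟨u, hu⟩ / algebraMap R K ⟨v, hv⟩) := by
    rw [← isIntegral_algHom_iff φ φ.toRingHom.injective, hφ]
    exact hi
  obtain ⟨y, hy⟩ := IsIntegrallyClosed.isIntegral_iff.1 h1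
  have h2 : g = algebraMap R L y := by
    rw [← hφ, ← hy, AlgHom.commutes]
  rw [h2]
  exact y.2

theorem QD.OU_int_loc (Q : QD k L) (i : ZMod 5) (f : L) (hf : f ∈ Q.F1) (hi : IsIntegral Q.OU f) :
    ∃ m : ℕ, Q.av i ^ m * f ∈ Q.OU := by
  classical
  set R := Algebra.adjoin k {Q.av (i - 1), Q.av (i + 1)} with hR
  have hic : IsIntegrallyClosed R := adj_ic (Q.av_indep2 i)
  have hRO : R ≤ Q.OU := by
    refine Algebra.adjoin_le ?_
    rintro x (rfl | rfl)
    · exact Q.av_mem _
    · exact Q.av_mem _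
  have m1 : Q.av (i - 1) ∈ R := Algebra.subset_adjoin (by simp)
  have m2 : Q.av (i + 1) ∈ R := Algebra.subset_adjoin (by simp)
  have m0 : Q.av i ∈ R := by
    have e : Q.av i = Q.av (i - 1) * Q.av (i + 1) - 1 := by
      rw [Q.av_rel]
      ring
    rw [e]
    exact R.sub_mem (R.mul_mem m1 m2) R.one_mem
  have hF : Q.F1 ≤ IntermediateField.adjoin k {Q.av (i - 1), Q.av (i + 1)} := by
    set K := IntermediateField.adjoin k {Q.av (i - 1), Q.av (i + 1)} with hK
    have k1 : Q.av (i - 1) ∈ K := IntermediateField.subset_adjoin _ _ (by simp)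
    have k2 : Q.av (i + 1) ∈ K := IntermediateField.subset_adjoin _ _ (by simp)
    have k0 : Q.av i ∈ K := by
      have e : Q.av i = Q.av (i - 1) * Q.av (i + 1) - 1 := by
        rw [Q.av_rel]
        ring
      rw [e]
      exact K.sub_mem (K.mul_mem k1 k2) K.one_mem
    refine IntermediateField.adjoin_le_iff.2 ?_
    rintro _ ⟨j, rfl⟩
    rcases av_cases i j with rfl | rfl | rfl | rfl | rfl
    · exact k1
    · exact k2
    · exact k0
    · have e : Q.av (i + 2) = (1 + Q.av (i + 1)) / Q.av i := by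
        rw [eq_div_iff (Q.av_ne i), mul_comm, Q.rel2]
      show Q.av (i + 2) ∈ K
      rw [e]
      exact K.div_mem (K.add_mem K.one_mem k2) k0
    · have e : Q.av (i - 2) = (1 + Q.av (i - 1)) / Q.av i := by
        rw [eq_div_iff (Q.av_ne i), mul_comm, Q.rel3]
      show Q.av (i - 2) ∈ K
      rw [e]
      exact K.div_mem (K.add_mem K.one_mem k1) k0
  obtain ⟨u, hu, v, hv, huv⟩ := IntermediateField.mem_adjoin_iff_div.1 (hF hf)
  obtain ⟨p, hp, hpf⟩ := hi
  choose m hm using fun j : ℕ => Q.OU_loc i (p.coeff j : L) (p.coeff j).2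
  set N : ℕ := (Finset.range (p.natDegree + 1)).sup m with hN
  have hNm : ∀ j, j ≤ p.natDegree → Q.av i ^ N * (p.coeff j : L) ∈ R := by
    intro j hj
    have h1 : m j ≤ N := Finset.le_sup (f := m) (Finset.mem_range.2 (by omega))
    obtain ⟨c, hc⟩ := Nat.exists_eq_add_of_le h1
    rw [hc, add_comm, pow_add, mul_assoc]
    exact R.mul_mem (R.pow_mem m0 c) (hm j)
  refine ⟨N, ?_⟩
  by_cases hv0 : v = 0
  · have : f = 0 := by rw [huv, hv0, div_zero]
    rw [this, mul_zero]
    exact Q.OU.zero_mem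
  apply hRO
  have hsN : Q.av i ^ N ∈ Q.OU := Q.OU.pow_mem (Q.av_mem i) N
  refine mem_of_int R (u := Q.av i ^ N * u) (v := v) (R.mul_mem (R.pow_mem m0 N) hu) hv hv0
    (by rw [huv, mul_div_assoc]) ?_
  -- integrality
  set q : Polynomial Q.OU := p.scaleRoots ⟨Q.av i ^ N, hsN⟩ with hq
  have hqm : q.Monic := (Polynomial.monic_scaleRoots_iff _).2 hp
  have hq0 : Polynomial.eval₂ (algebraMap Q.OU L) (Q.av i ^ N * f) q = 0 :=
    Polynomial.scaleRoots_eval₂_eq_zero (algebraMap Q.OU L) (s := ⟨Q.av i ^ N, hsN⟩) hpf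
  have hlift : q.map (algebraMap Q.OU L) ∈ Polynomial.lifts (algebraMap R L) := by
    rw [Polynomial.lifts_iff_coeff_lifts]
    intro n
    rw [Polynomial.coeff_map, hq, Polynomial.coeff_scaleRoots]
    have hval : algebraMap Q.OU L (p.coeff n * ⟨Q.av i ^ N, hsN⟩ ^ (p.natDegree - n)) =
        (p.coeff n : L) * (Q.av i ^ N) ^ (p.natDegree - n) := rfl
    rw [hval]
    have hmem : (p.coeff n : L) * (Q.av i ^ N) ^ (p.natDegree - n) ∈ R := by
      rcases lt_trichotomy n p.natDegree with h | h | h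
      · obtain ⟨c, hc⟩ : ∃ c, p.natDegree - n = c + 1 := ⟨p.natDegree - n - 1, by omega⟩
        rw [hc, pow_succ]
        have h1 := R.mul_mem (R.pow_mem (R.pow_mem m0 N) c) (hNm n h.le)
        have e : (p.coeff n : L) * ((Q.av i ^ N) ^ c * Q.av i ^ N) =
            (Q.av i ^ N) ^ c * (Q.av i ^ N * (p.coeff n : L)) := by ring
        rw [e]
        exact h1
      · have h1 : p.coeff n = 1 := by
          rw [h]
          exact hp
        rw [h1, h, Nat.sub_self, pow_zero, mul_one]
        exact R.one_mem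
      · have h1 : p.coeff n = 0 := Polynomial.coeff_eq_zero_of_natDegree_lt h
        rw [h1]
        show (0 : L) * _ ∈ R
        rw [zero_mul]
        exact R.zero_mem
    exact ⟨⟨_, hmem⟩, rfl⟩
  obtain ⟨q0, hq1, _, hq3⟩ := Polynomial.lifts_and_natDegree_eq_and_monic hlift (hqm.map _)
  refine ⟨q0, hq3, ?_⟩
  rw [← Polynomial.eval_map, hq1, Polynomial.eval_map]
  exact hq0

theorem QD.OU_normal (Q : QD k L) (f : L) (hf : f ∈ Q.F1) (hi : IsIntegral Q.OU f) : f ∈ Q.OU := by
  classical
  have hex := Q.OU_int_loc 0 f hf hi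
  set m := Nat.find hex with hm
  have hmem : Q.av 0 ^ m * f ∈ Q.OU := Nat.find_spec hex
  by_cases hm0 : m = 0
  · rw [hm0, pow_zero, one_mul] at hmem
    exact hmem
  · exfalso
    obtain ⟨m', hm'⟩ := Nat.exists_eq_succ_of_ne_zero hm0
    obtain ⟨p, hp, hpf⟩ := hi
    set g : L := Q.av 0 ^ m * f with hg
    set r := p.natDegree with hr
    have hpow : ∀ n : ℕ, ∀ h ∈ Q.OU, g ^ n = Q.av 0 * h → ∃ h' ∈ Q.OU, g = Q.av 0 * h' := by
      intro n
      induction n with
      | zero =>
        intro h hh he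
        rw [pow_zero] at he
        refine ⟨g * h, Q.OU.mul_mem hmem hh, ?_⟩
        linear_combination g * he
      | succ n ih =>
        intro h hh he
        rw [pow_succ'] at he
        rcases Q.OU_prime 0 hmem (Q.OU.pow_mem hmem n) hh he with h1 | ⟨h', hh', he'⟩
        · exact h1
        · exact ih h' hh' he'
    have hsum : f ^ r = -∑ j ∈ Finset.range r, (p.coeff j : L) * f ^ j := by
      rw [Polynomial.eval₂_eq_sum_range, Finset.sum_range_succ] at hpf
      have h1 : algebraMap Q.OU L (p.coeff p.natDegree) = 1 := by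
        have : p.coeff p.natDegree = 1 := hp
        rw [this, map_one]
      rw [h1, one_mul] at hpf
      have h2 : ∑ j ∈ Finset.range p.natDegree, algebraMap Q.OU L (p.coeff j) * f ^ j =
        ∑ j ∈ Finset.range r, (p.coeff j : L) * f ^ j := rfl
      rw [h2] at hpf
      linear_combination hpf
    have hgr : g ^ r = Q.av 0 * (-∑ j ∈ Finset.range r,
        (p.coeff j : L) * Q.av 0 ^ (m * (r - j) - 1) * g ^ j) := by
      have e1 : g ^ r = (Q.av 0 ^ m) ^ r * f ^ r := by rw [hg, mul_pow]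
      rw [e1, hsum, mul_neg, mul_neg, Finset.mul_sum, Finset.mul_sum]
      congr 1
      refine Finset.sum_congr rfl fun j hj => ?_
      rw [Finset.mem_range] at hj
      have e2 : Q.av 0 * Q.av 0 ^ (m * (r - j) - 1) = Q.av 0 ^ (m * (r - j)) := by
        rw [← pow_succ']
        congr 1
        have : 1 ≤ m * (r - j) := Nat.one_le_iff_ne_zero.2
          (Nat.mul_ne_zero hm0 (by omega))
        omega
      have e3 : (Q.av 0 ^ m) ^ r = Q.av 0 ^ (m * (r - j)) * (Q.av 0 ^ m) ^ j := by
        rw [← pow_mul, ← pow_mul, ← pow_add, ← Nat.mul_add]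
        congr 2
        omega
      rw [e3, ← e2, hg, mul_pow]
      ring
    have hmem2 : (-∑ j ∈ Finset.range r,
        (p.coeff j : L) * Q.av 0 ^ (m * (r - j) - 1) * g ^ j) ∈ Q.OU := by
      refine Q.OU.neg_mem (Q.OU.sum_mem fun j _ => ?_)
      exact Q.OU.mul_mem (Q.OU.mul_mem (p.coeff j).2 (Q.OU.pow_mem (Q.av_mem 0) _))
        (Q.OU.pow_mem hmem j)
    obtain ⟨h', hh', he'⟩ := hpow r _ hmem2 hgr
    have h1 : Q.av 0 ^ m' * f = h' := by
      apply mul_left_cancel₀ (Q.av_ne 0)
      rw [← he', hg, hm', Nat.succ_eq_add_one, pow_succ]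
      ring
    have h2 : m ≤ m' := Nat.find_min' hex (by rw [h1]; exact hh')
    omega

end Ex

end R169
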