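import Crest.Agent.R169.ExDer
import Crest.Agent.R169.ExCov1

/-!
# Row 169, module EX, piece EX_PB: `p`-bases

PB1 (0.7 h) `PBS p R u v` = `{∑ g_ij^p u^i v^j : g_ij ∈ R}` for a subalgebra `R ∋ u, v`, `char k = p`, `k` perfect (alg. closed):
closed under `+`, `*` (`u^{i+i'} = u^p u^{..}`), contains `k` and all `r^p`; closed under inverses inside `R`
(`f⁻¹ = (f⁻¹)^p f^{p-1}`); if `y, y⁻¹ ∈ R` and `y^7 ∈ PBS` then `y, y⁻¹ ∈ PBS` (`7α + pβ = 1`, `y^p ∈ PBS`, zpow).
PB2 (0.6 h) independence: if derivations `δ1, δ2` exist with `δ1 u = u, δ1 v = 0, δ2 u = 0, δ2 v = v`, `u, v ≠ 0`, then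
`∑ g_ij^p u^i v^j = 0 → g = 0`: `δ (g^p) = 0`; `δ1` acts on the `(i,j)` term by the scalar `i`, distinct for `0 ≤ i < p`
(Vandermonde / eigenvectors `Module.End.eigenvectors_linearIndependent`, or: apply `∏_{i' ≠ i} (δ1 - i')`), then `δ2`.
-/

set_option autoImplicit false

namespace R169

namespace Ex

variable {k L : Type} [Field k] [Field L] [Algebra k L]

section PB
variable (p : ℕ) [Fact p.Prime] [CharP k p]

/-- the set of `∑ g_ij^p u^i v^j`, `g_ij ∈ R` -/
def PBS (R : Subalgebra k L) (u v : L) : Set L :=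
  {f | ∃ g : Fin p → Fin p → L, (∀ i j, g i j ∈ R) ∧ f = ∑ i, ∑ j, g i j ^ p * u ^ (i : ℕ) * v ^ (j : ℕ)}

omit [CharP k p] in
/-- monomials with arbitrary exponents -/
theorem PBS_mon (R : Subalgebra k L) {u v : L} (hu : u ∈ R) (hv : v ∈ R) :
    ∀ r ∈ R, ∀ i j : ℕ, r ^ p * u ^ i * v ^ j ∈ PBS p R u v := by
  classical
  have hp : p.Prime := Fact.out
  intro r hr i j
  have hi : i % p < p := Nat.mod_lt _ hp.pos
  have hj : j % p < p := Nat.mod_lt _ hp.pos
  refine ⟨fun s t => if s = ⟨i % p, hi⟩ then (if t = ⟨j % p, hj⟩ then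
    r * u ^ (i / p) * v ^ (j / p) else 0) else 0, ?_, ?_⟩
  · intro s t
    dsimp only
    split_ifs
    · exact R.mul_mem (R.mul_mem hr (R.pow_mem hu _)) (R.pow_mem hv _)
    · exact R.zero_mem
    · exact R.zero_mem
  · rw [Finset.sum_eq_single (⟨i % p, hi⟩ : Fin p), Finset.sum_eq_single (⟨j % p, hj⟩ : Fin p)]
    · simp only [if_true]
      rw [mul_pow, mul_pow, ← pow_mul, ← pow_mul]
      conv_lhs => rw [← Nat.div_add_mod i p, ← Nat.div_add_mod j p, pow_add, pow_add]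
      rw [mul_comm p (i / p), mul_comm p (j / p)]
      ring
    · intro t _ ht
      simp only [if_true, if_neg ht]
      rw [zero_pow hp.ne_zero, zero_mul, zero_mul]
    · intro h
      exact absurd (Finset.mem_univ _) h
    · intro s _ hs
      refine Finset.sum_eq_zero fun t _ => ?_
      simp only [if_neg hs]
      rw [zero_pow hp.ne_zero, zero_mul, zero_mul]
    · intro h
      exact absurd (Finset.mem_univ _) h

omit [CharP k p] in
theorem PBS_add [CharP L p] (R : Subalgebra k L) {u v : L} {f f' : L} (h : f ∈ PBS p R u v)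
    (h' : f' ∈ PBS p R u v) : f + f' ∈ PBS p R u v := by
  obtain ⟨g, hg, rfl⟩ := h
  obtain ⟨g', hg', rfl⟩ := h'
  refine ⟨fun i j => g i j + g' i j, fun i j => R.add_mem (hg i j) (hg' i j), ?_⟩
  rw [← Finset.sum_add_distrib]
  refine Finset.sum_congr rfl fun i _ => ?_
  rw [← Finset.sum_add_distrib]
  refine Finset.sum_congr rfl fun j _ => ?_
  dsimp only
  rw [add_pow_char]
  ring

theorem PBS_subalg [IsAlgClosed k] (R : Subalgebra k L) {u v : L} (hu : u ∈ R) (hv : v ∈ R) :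
    ∃ R' : Subalgebra k L, (R' : Set L) = PBS p R u v ∧ R' ≤ R ∧ (∀ r ∈ R, r ^ p ∈ R') ∧ u ∈ R' ∧ v ∈ R' := by
  have hp : p.Prime := Fact.out
  haveI : CharP L p := charP_of_injective_algebraMap (algebraMap k L).injective p
  have hmon : ∀ r ∈ R, ∀ i j : ℕ, r ^ p * u ^ i * v ^ j ∈ PBS p R u v := PBS_mon p R hu hv
  have hadd : ∀ {f f' : L}, f ∈ PBS p R u v → f' ∈ PBS p R u v → f + f' ∈ PBS p R u v :=
    fun h h' => PBS_add p R h h'
  have hzero : (0 : L) ∈ PBS p R u v := by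
    have := hmon 0 R.zero_mem 0 0
    rwa [zero_pow hp.ne_zero, zero_mul, zero_mul] at this
  have hsum : ∀ {ι : Type} (s : Finset ι) (f : ι → L), (∀ i ∈ s, f i ∈ PBS p R u v) →
      ∑ i ∈ s, f i ∈ PBS p R u v := by
    intro ι s f hf
    classical
    induction s using Finset.induction_on with
    | empty => simpa using hzero
    | insert a s ha ih =>
      rw [Finset.sum_insert ha]
      exact hadd (hf a (Finset.mem_insert_self a s))
        (ih fun i hi => hf i (Finset.mem_insert_of_mem hi))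
  have hmul : ∀ {f f' : L}, f ∈ PBS p R u v → f' ∈ PBS p R u v → f * f' ∈ PBS p R u v := by
    rintro f f' ⟨g, hg, rfl⟩ ⟨g', hg', rfl⟩
    rw [Finset.sum_mul]
    refine hsum _ _ fun i _ => ?_
    rw [Finset.sum_mul]
    refine hsum _ _ fun j _ => ?_
    rw [Finset.mul_sum]
    refine hsum _ _ fun i' _ => ?_
    rw [Finset.mul_sum]
    refine hsum _ _ fun j' _ => ?_
    have e : g i j ^ p * u ^ (i : ℕ) * v ^ (j : ℕ) * (g' i' j' ^ p * u ^ (i' : ℕ) * v ^ (j' : ℕ)) =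
        (g i j * g' i' j') ^ p * u ^ ((i : ℕ) + i') * v ^ ((j : ℕ) + j') := by
      rw [mul_pow, pow_add, pow_add]
      ring
    rw [e]
    exact hmon _ (R.mul_mem (hg i j) (hg' i' j')) _ _
  refine ⟨{ carrier := PBS p R u v
            mul_mem' := hmul
            add_mem' := hadd
            algebraMap_mem' := fun c => ?_ }, rfl, ?_, ?_, ?_, ?_⟩
  · obtain ⟨d, hd⟩ := IsAlgClosed.exists_pow_nat_eq c hp.pos
    have := hmon (algebraMap k L d) (R.algebraMap_mem d) 0 0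
    rwa [pow_zero, pow_zero, mul_one, mul_one, ← map_pow, hd] at this
  · rintro f ⟨g, hg, rfl⟩
    exact R.sum_mem fun i _ => R.sum_mem fun j _ =>
      R.mul_mem (R.mul_mem (R.pow_mem (hg i j) p) (R.pow_mem hu _)) (R.pow_mem hv _)
  · intro r hr
    have := hmon r hr 0 0
    rwa [pow_zero, pow_zero, mul_one, mul_one] at this
  · have := hmon 1 R.one_mem 1 0
    rwa [one_pow, pow_zero, pow_one, mul_one, one_mul] at this
  · have := hmon 1 R.one_mem 0 1
    rwa [one_pow, pow_zero, pow_one, mul_one, one_mul] at this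

theorem mem_of_pow_seven (hp : p ≠ 7) (R R' : Subalgebra k L) (hR : ∀ r ∈ R, r ^ p ∈ R') {y : L} (hy0 : y ≠ 0)
    (hy : y ∈ R) (hy' : y⁻¹ ∈ R) (h7 : y ^ 7 ∈ R') : y ∈ R' ∧ y⁻¹ ∈ R' := by
  have hpp : p.Prime := Fact.out
  have hcop : IsCoprime (7 : ℤ) (p : ℤ) := by
    have h1 : Nat.Coprime 7 p := (Nat.coprime_primes (by norm_num) hpp).2 (Ne.symm hp)
    exact_mod_cast Nat.isCoprime_iff_coprime.2 h1
  obtain ⟨a, b, hab⟩ := hcop
  have hyp : y ^ p ∈ R' := hR y hy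
  have hyp' : (y⁻¹) ^ p ∈ R' := hR _ hy'
  have h7' : (y⁻¹) ^ 7 ∈ R' := by
    have e : (y⁻¹) ^ 7 = ((y⁻¹) ^ p) ^ 7 * (y ^ 7) ^ (p - 1) := by
      obtain ⟨m, rfl⟩ : ∃ m, p = m + 1 := ⟨p - 1, (Nat.sub_add_cancel hpp.pos).symm⟩
      rw [Nat.add_sub_cancel, ← pow_mul, ← pow_mul, inv_pow, inv_pow]
      field_simp
      ring
    rw [e]
    exact R'.mul_mem (R'.pow_mem hyp' _) (R'.pow_mem h7 _)
  have hz : ∀ (x : L), x ∈ R' → x⁻¹ ∈ R' → ∀ n : ℤ, x ^ n ∈ R' := by
    intro x hx hx' n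
    obtain ⟨m, rfl | rfl⟩ := n.eq_nat_or_neg
    · rw [zpow_natCast]
      exact R'.pow_mem hx m
    · rw [zpow_neg, zpow_natCast, ← inv_pow]
      exact R'.pow_mem hx' m
  have h1 : ∀ c : ℤ, y ^ (7 * c) ∈ R' := by
    intro c
    rw [zpow_mul]
    exact hz _ (by exact_mod_cast h7) (by
      have : (y ^ (7 : ℤ))⁻¹ = (y⁻¹) ^ 7 := by
        rw [inv_pow]
        norm_cast
      rw [this]
      exact h7') c
  have h2 : ∀ c : ℤ, y ^ ((p : ℤ) * c) ∈ R' := by
    intro c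
    rw [zpow_mul, zpow_natCast]
    exact hz _ hyp (by rw [← inv_pow]; exact hyp') c
  have h3 : ∀ n : ℤ, y ^ n ∈ R' := by
    intro n
    have e : n = 7 * (a * n) + p * (b * n) := by
      linear_combination (-n) * hab
    rw [e, zpow_add₀ hy0]
    exact R'.mul_mem (h1 _) (h2 _)
  refine ⟨?_, ?_⟩
  · have := h3 1
    rwa [zpow_one] at this
  · have := h3 (-1)
    rwa [zpow_neg_one] at this

omit [Fact p.Prime] [CharP k p] in
/-- eigenvectors of a derivation for distinct eigenvalues -/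
theorem eig_zero [CharP L p] (δ : Derivation k L L) (T : Fin p → L)
    (hT : ∀ i, δ (T i) = ((i : ℕ) : L) * T i) (h : ∑ i, T i = 0) : ∀ i, T i = 0 := by
  haveI : CharP k p := RingHom.charP (algebraMap k L) (algebraMap k L).injective p
  have hinj : Function.Injective (fun i : Fin p => ((i : ℕ) : k)) := by
    intro i j hij
    exact Fin.ext (CharP.natCast_injOn_Iio k p i.2 j.2 hij)
  have h1 := (Module.End.eigenspaces_iSupIndep (R := k) (δ : L →ₗ[k] L)).comp hinj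
  rw [iSupIndep_iff_finsetSum_eq_zero_imp_eq_zero] at h1
  intro i
  refine h1 Finset.univ T (fun i _ => ?_) h i (Finset.mem_univ i)
  rw [Function.comp_apply, Module.End.mem_eigenspace_iff]
  show δ (T i) = _
  rw [hT i, Algebra.smul_def, map_natCast]

omit [CharP k p] in
theorem pbasis_indep [CharP L p] {u v : L} (hu : u ≠ 0) (hv : v ≠ 0) (δ1 δ2 : Derivation k L L)
    (h1 : δ1 u = u) (h2 : δ1 v = 0) (h3 : δ2 u = 0) (h4 : δ2 v = v) (g : Fin p → Fin p → L)
    (h : ∑ i, ∑ j, g i j ^ p * u ^ (i : ℕ) * v ^ (j : ℕ) = 0) : ∀ i j, g i j = 0 := by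
  have hp : p.Prime := Fact.out
  have hpow : ∀ (δ : Derivation k L L) (x : L), δ (x ^ p) = 0 := by
    intro δ x
    rw [Derivation.leibniz_pow, ← Nat.cast_smul_eq_nsmul L, CharP.cast_eq_zero, zero_smul]
  have hpu : ∀ (δ : Derivation k L L) (w : L), δ w = w → ∀ n : ℕ, δ (w ^ n) = (n : L) * w ^ n := by
    intro δ w hw n
    rw [Derivation.leibniz_pow, hw, nsmul_eq_mul, smul_eq_mul]
    rcases n with _ | n
    · simp
    · rw [Nat.add_sub_cancel, ← pow_succ]
  have hp0 : ∀ (δ : Derivation k L L) (w : L), δ w = 0 → ∀ n : ℕ, δ (w ^ n) = 0 := by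
    intro δ w hw n
    rw [Derivation.leibniz_pow, hw, smul_zero, smul_zero]
  have hT1 : ∀ i j, δ1 (g i j ^ p * u ^ (i : ℕ) * v ^ (j : ℕ)) =
      ((i : ℕ) : L) * (g i j ^ p * u ^ (i : ℕ) * v ^ (j : ℕ)) := by
    intro i j
    rw [Derivation.leibniz, Derivation.leibniz, hpow, hpu δ1 u h1, hp0 δ1 v h2]
    simp only [smul_eq_mul, mul_zero]
    ring
  have hT2 : ∀ i j, δ2 (g i j ^ p * u ^ (i : ℕ) * v ^ (j : ℕ)) =
      ((j : ℕ) : L) * (g i j ^ p * u ^ (i : ℕ) * v ^ (j : ℕ)) := by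
    intro i j
    rw [Derivation.leibniz, Derivation.leibniz, hpow, hpu δ2 v h4, hp0 δ2 u h3]
    simp only [smul_eq_mul, mul_zero]
    ring
  have h5 : ∀ i, ∑ j, g i j ^ p * u ^ (i : ℕ) * v ^ (j : ℕ) = 0 := by
    refine eig_zero (k := k) p δ1 _ (fun i => ?_) h
    rw [map_sum, Finset.mul_sum]
    exact Finset.sum_congr rfl fun j _ => hT1 i j
  intro i j
  have h6 : g i j ^ p * u ^ (i : ℕ) * v ^ (j : ℕ) = 0 :=
    eig_zero (k := k) p δ2 (fun j => g i j ^ p * u ^ (i : ℕ) * v ^ (j : ℕ)) (fun j => hT2 i j)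
      (h5 i) j
  have h7 : g i j ^ p = 0 := by
    rcases mul_eq_zero.1 h6 with h | h
    · rcases mul_eq_zero.1 h with h | h
      · exact h
      · exact absurd h (pow_ne_zero _ hu)
    · exact absurd h (pow_ne_zero _ hv)
  exact eq_zero_of_pow_eq_zero h7

end PB

end Ex

end R169
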