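import Crest.Agent.R169.ExPB

/-!
# Row 169, module EX, piece EX_PB2 (0.8 h): the `p`-basis `(q_0, q_2)` of the chart `q_1q_3q_4 ≠ 0`

`R = k[q][1/h]`, `h = hh 0 = q_1q_3q_4`.  `chart_eq`: `chart Q.D h 2 = R` (`b ∈ B_n`: `b = b h^n / h^n`, `b h^n ∈ B_{2n}`, as `h ∈ B_1`).
Spanning: `R' = PBS p R q_0 q_2` is a subalgebra of `R`; `θ_1 = q_1`, `θ_1^7 = (q_0q_2)^7 - 1 ∈ R'`; `θ_2 = q_1q_3`,
`θ_2^7 = 1 + q_2^7 ∈ R'`; `θ_3 = q_1q_4`, `θ_3^7 = 1 + q_0^7 ∈ R'`; all are units of `R`, so `mem_of_pow_seven` gives `θ_i^{±1} ∈ R'`, hence all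
`q_i`, `h⁻¹ ∈ R'`.  Independence: `pbasis_indep` with `exists_der1`, `exists_der2`.
`pbasis_L`: `l = f/g = f g^{p-1} / g^p` with `f, g ∈ R`.
-/

set_option autoImplicit false

namespace R169

namespace Ex

variable {k L : Type} [Field k] [Field L] [Algebra k L]

/-- the coordinate ring of the chart -/
def QD.RC (Q : QD k L) : Subalgebra k L := Algebra.adjoin k (Set.range Q.q ∪ {(Q.hh 0)⁻¹})

private theorem hh_ne (Q : QD k L) (r : ZMod 5) : Q.hh r ≠ 0 :=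
  mul_ne_zero (mul_ne_zero (Q.q_ne _) (Q.q_ne _)) (Q.q_ne _)

private theorem hh_pow_mem (Q : QD k L) (j : ℕ) : Q.hh 0 ^ j ∈ Q.Bn (j * 2) := by
  induction j with
  | zero =>
    rw [pow_zero, Nat.cast_zero, zero_mul, Q.zero]
    exact Submodule.mem_span_singleton_self _
  | succ j ih =>
    rw [pow_succ]
    have h1 := Q.mul_mem ih (Q.mono (by norm_num : (1 : ℤ) ≤ 2) (Q.hh_mem 0))
    have e : ((j + 1 : ℕ) : ℤ) * 2 = j * 2 + 2 := by push_cast; ring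
    rw [e]
    exact h1

private theorem q_mem_RC (Q : QD k L) (i : ZMod 5) : Q.q i ∈ Q.RC :=
  Algebra.subset_adjoin (Or.inl (Set.mem_range_self i))

private theorem hinv_mem_RC (Q : QD k L) : (Q.hh 0)⁻¹ ∈ Q.RC :=
  Algebra.subset_adjoin (Or.inr rfl)

private theorem BU_le_RC (Q : QD k L) : Q.BU ≤ Q.RC :=
  Algebra.adjoin_mono Set.subset_union_left

private theorem one_mem_Bn (Q : QD k L) {n : ℤ} (hn : 0 ≤ n) : (1 : L) ∈ Q.Bn n := by
  refine Q.mono hn ?_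
  rw [Q.zero]
  exact Submodule.mem_span_singleton_self _

theorem QD.chart_eq (Q : QD k L) : chart Q.D (Q.hh 0) 2 = (Q.RC : Set L) := by
  have h0 := hh_ne Q 0
  apply Set.Subset.antisymm
  · rintro l ⟨j, b, hb, rfl⟩
    change b ∈ Q.Bn (j * 2) at hb
    have hb' : b ∈ Q.RC := by
      refine BU_le_RC Q ((Q.mem_BU b).2 ⟨j * 2, ?_⟩)
      push_cast
      exact hb
    rw [div_eq_mul_inv, ← inv_pow]
    exact Q.RC.mul_mem hb' (Q.RC.pow_mem (hinv_mem_RC Q) j)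
  · intro l hl
    change l ∈ Algebra.adjoin k (Set.range Q.q ∪ {(Q.hh 0)⁻¹}) at hl
    induction hl using Algebra.adjoin_induction with
    | mem x hx =>
      rcases hx with ⟨i, rfl⟩ | hx
      · refine ⟨1, Q.q i * Q.hh 0, ?_, ?_⟩
        · have h1 := Q.mul_mem (Q.q_mem i) (Q.hh_mem 0)
          have e : ((1 : ℕ) : ℤ) * 2 = 1 + 1 := by norm_num
          rw [e]
          exact h1
        · rw [pow_one, mul_div_cancel_right₀ _ h0]
      · rw [Set.mem_singleton_iff] at hx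
        subst hx
        refine ⟨1, 1, ?_, ?_⟩
        · exact one_mem_Bn Q (by norm_num)
        · rw [pow_one, one_div]
    | algebraMap r =>
      refine ⟨0, algebraMap k L r, ?_, by rw [pow_zero, div_one]⟩
      rw [Algebra.algebraMap_eq_smul_one]
      exact Submodule.smul_mem _ _ (one_mem_Bn Q (by norm_num))
    | add x y _ _ hx hy =>
      obtain ⟨j, b, hb, rfl⟩ := hx
      obtain ⟨j', b', hb', rfl⟩ := hy
      refine ⟨j + j', b * Q.hh 0 ^ j' + b' * Q.hh 0 ^ j, ?_, ?_⟩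
      · have e1 : ((j + j' : ℕ) : ℤ) * 2 = j * 2 + j' * 2 := by push_cast; ring
        have e2 : ((j + j' : ℕ) : ℤ) * 2 = j' * 2 + j * 2 := by push_cast; ring
        refine Submodule.add_mem _ ?_ ?_
        · rw [e1]
          exact Q.mul_mem hb (hh_pow_mem Q j')
        · rw [e2]
          exact Q.mul_mem hb' (hh_pow_mem Q j)
      · rw [pow_add]
        field_simp
    | mul x y _ _ hx hy =>
      obtain ⟨j, b, hb, rfl⟩ := hx
      obtain ⟨j', b', hb', rfl⟩ := hy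
      refine ⟨j + j', b * b', ?_, ?_⟩
      · have e1 : ((j + j' : ℕ) : ℤ) * 2 = j * 2 + j' * 2 := by push_cast; ring
        rw [e1]
        exact Q.mul_mem hb hb'
      · rw [pow_add, div_mul_div_comm]

private theorem pb_indep (Q : QD k L) (p : ℕ) [Fact p.Prime] [CharP k p]
    (g : Fin p → Fin p → L)
    (h : ∑ i, ∑ j, g i j ^ p * Q.q 0 ^ (i : ℕ) * Q.q 2 ^ (j : ℕ) = 0) : ∀ i j, g i j = 0 := by
  have : CharP L p := charP_of_injective_algebraMap (algebraMap k L).injective p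
  obtain ⟨δ1, h1, -, h2, -⟩ := Q.exists_der1
  obtain ⟨δ2, h3, -, h4, -⟩ := Q.exists_der2
  exact pbasis_indep p (Q.q_ne 0) (Q.q_ne 2) δ1 δ2 h1 h2 h3 h4 g h

private theorem RC_sub_PBS (Q : QD k L) (p : ℕ) [Fact p.Prime] [CharP k p] [IsAlgClosed k] (hp : p ≠ 7)
    {f : L} (hf : f ∈ Q.RC) : f ∈ PBS p Q.RC (Q.q 0) (Q.q 2) := by
  obtain ⟨R', hR', hle, hpow, hu, hv⟩ := PBS_subalg p Q.RC (q_mem_RC Q 0) (q_mem_RC Q 2)
  rw [← hR']
  have hh : Q.hh 0 = Q.q 1 * Q.q 3 * Q.q 4 := by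
    unfold QD.hh; rw [zero_add, zero_add, zero_add]
  have n1 := Q.q_ne 1
  have n3 := Q.q_ne 3
  have n4 := Q.q_ne 4
  have r0 : Q.q 4 ^ 7 * Q.q 1 ^ 7 = 1 + Q.q 0 ^ 7 := Q.rel 0
  have r1 : Q.q 0 ^ 7 * Q.q 2 ^ 7 = 1 + Q.q 1 ^ 7 := Q.rel 1
  have r2 : Q.q 1 ^ 7 * Q.q 3 ^ 7 = 1 + Q.q 2 ^ 7 := Q.rel 2
  have hi := hinv_mem_RC Q
  -- `q_1`
  have a1 := mem_of_pow_seven p hp Q.RC R' hpow n1 (q_mem_RC Q 1) (by
    have e : (Q.q 1)⁻¹ = (Q.hh 0)⁻¹ * (Q.q 3 * Q.q 4) := by rw [hh]; field_simp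
    rw [e]
    exact Q.RC.mul_mem hi (Q.RC.mul_mem (q_mem_RC Q 3) (q_mem_RC Q 4))) (by
    have e : Q.q 1 ^ 7 = (Q.q 0 * Q.q 2) ^ 7 - 1 := by rw [mul_pow, r1]; ring
    rw [e]
    exact R'.sub_mem (R'.pow_mem (R'.mul_mem hu hv) 7) R'.one_mem)
  have a2 := mem_of_pow_seven p hp Q.RC R' hpow (mul_ne_zero n1 n3)
    (Q.RC.mul_mem (q_mem_RC Q 1) (q_mem_RC Q 3)) (by
    have e : (Q.q 1 * Q.q 3)⁻¹ = (Q.hh 0)⁻¹ * Q.q 4 := by rw [hh]; field_simp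
    rw [e]
    exact Q.RC.mul_mem hi (q_mem_RC Q 4)) (by
    rw [mul_pow, r2]
    exact R'.add_mem R'.one_mem (R'.pow_mem hv 7))
  have a3 := mem_of_pow_seven p hp Q.RC R' hpow (mul_ne_zero n1 n4)
    (Q.RC.mul_mem (q_mem_RC Q 1) (q_mem_RC Q 4)) (by
    have e : (Q.q 1 * Q.q 4)⁻¹ = (Q.hh 0)⁻¹ * Q.q 3 := by rw [hh]; field_simp
    rw [e]
    exact Q.RC.mul_mem hi (q_mem_RC Q 3)) (by
    rw [mul_pow, mul_comm, r0]
    exact R'.add_mem R'.one_mem (R'.pow_mem hu 7))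
  have b3 : Q.q 3 ∈ R' := by
    have e : Q.q 3 = (Q.q 1 * Q.q 3) * (Q.q 1)⁻¹ := by field_simp
    rw [e]
    exact R'.mul_mem a2.1 a1.2
  have b4 : Q.q 4 ∈ R' := by
    have e : Q.q 4 = (Q.q 1 * Q.q 4) * (Q.q 1)⁻¹ := by field_simp
    rw [e]
    exact R'.mul_mem a3.1 a1.2
  have bh : (Q.hh 0)⁻¹ ∈ R' := by
    have e : (Q.hh 0)⁻¹ = (Q.q 1 * Q.q 3)⁻¹ * (Q.q 1 * Q.q 4)⁻¹ * Q.q 1 := by
      rw [hh]; field_simp
    rw [e]
    exact R'.mul_mem (R'.mul_mem a2.2 a3.2) a1.1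
  have hall : ∀ i : ZMod 5, Q.q i ∈ R' := by
    intro i
    fin_cases i
    · exact hu
    · exact a1.1
    · exact hv
    · exact b3
    · exact b4
  have hRC : Q.RC ≤ R' := by
    refine Algebra.adjoin_le ?_
    rintro x (⟨i, rfl⟩ | hx)
    · exact hall i
    · rw [Set.mem_singleton_iff] at hx
      subst hx
      exact bh
  exact hRC hf

theorem QD.pbasis_chart (Q : QD k L) (p : ℕ) [Fact p.Prime] [CharP k p] [IsAlgClosed k] (hp : p ≠ 7) :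
    IsPBasis p (chart Q.D (Q.hh 0) 2) (Q.q 0) (Q.q 2) := by
  rw [Q.chart_eq]
  refine ⟨q_mem_RC Q 0, q_mem_RC Q 2, fun f hf => ?_, fun g h => pb_indep Q p g h⟩
  obtain ⟨g, hg, he⟩ := RC_sub_PBS Q p hp hf
  exact ⟨g, hg, he⟩

theorem QD.pbasis_L (Q : QD k L) (p : ℕ) [Fact p.Prime] [CharP k p] [IsAlgClosed k] (hp : p ≠ 7) :
    IsPBasis p (Set.univ : Set L) (Q.q 0) (Q.q 2) := by
  refine ⟨Set.mem_univ _, Set.mem_univ _, fun f _ => ?_, fun g h => pb_indep Q p g h⟩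
  obtain ⟨a, ha, b, hb, hb0, rfl⟩ := Q.frac f
  have ha' : a ∈ Q.RC := BU_le_RC Q ha
  have hb' : b ∈ Q.RC := BU_le_RC Q hb
  obtain ⟨g, hg, he⟩ := RC_sub_PBS Q p hp (Q.RC.mul_mem ha' (Q.RC.pow_mem hb' (p - 1)))
  refine ⟨fun i j => g i j / b, fun _ _ => Set.mem_univ _, ?_⟩
  have hp1 : 1 ≤ p := (Fact.out : p.Prime).one_lt.le
  have h1 : a / b = a * b ^ (p - 1) / b ^ p := by
    have e : b ^ p = b ^ (p - 1) * b := by rw [← pow_succ, Nat.sub_add_cancel hp1]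
    rw [e]
    field_simp
  rw [h1, he, Finset.sum_div]
  refine Finset.sum_congr rfl fun i _ => ?_
  rw [Finset.sum_div]
  refine Finset.sum_congr rfl fun j _ => ?_
  rw [div_pow]
  ring

end Ex

end R169
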