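import Crest.Agent.R169.TRDefs

/-!
# R169_TR2A: `[L : k(η,ζ)] = d`, and algebraic independence from growth.

`finrank_FF`: `B` is a `P`-lattice with `P`-rank `d`: choose `ρ_1..ρ_e ∈ B n0` linearly independent over `F = k(η,ζ)`
(`FF k η ζ`); then `⊕ A(n-n0) ρ_i ⊂ B n` gives `e (n-n0)²/2 ≤ dim B n`, so `e ≤ d` (leading coefficients); hence
`[L:F] =: e` finite (every element of `L` is a quotient of elements of `B`; `B_{n+1} = B_n + ηB_n + ζB_n` for `n ≥ n1`
shows `⋃ B_n ⊂ F·B_{n1}`, finite dimensional over `F`, a domain, so a field, so `= L`). Conversely a common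
denominator `δ ∈ A t` of a basis of `B n1` w.r.t. `ρ` gives `δ B n ⊂ ⊕ A(n+t) ρ_i`, so `dim B n ≤ e·dim A(n+t)`, `d ≤ e`.
(You may use `RhoCert.exists`, `RhoCert.emb`, `EmbA.bound`, `IsPLat.hasHP`, .. of LatAPI if convenient.)

`indep_of_gen`: if `η, ζ` were algebraically dependent, a nonzero polynomial relation of total degree `t`,
homogenised: some monomial `η^i ζ^j` (`i+j=t`, or with `1^{..}`) ... gives `dim (A n) ≤ t (n+1)` for all `n ≥ 0`
(A n is spanned by `η^a ζ^b`, `a+b ≤ n`; the relation, whose leading form w.r.t. a monomial order is `η^i ζ^j x^l`,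
`i+j+l=t`, rewrites it), so `dim B n ≤ dim B n1 · t (n+1)` (from `gen`: `B (n1+j) = A j · B n1`), contradicting
`dim B n ~ d n²/2` with `d > 0`.
-/
set_option autoImplicit false
namespace R169.TR

open scoped Pointwise

variable {k L : Type} [Field k] [Field L] [Algebra k L] {D : GD k L} {η ζ : L}

private theorem A_mem_FF (n : ℤ) {x : L} (hx : x ∈ A k η ζ n) : x ∈ FF k η ζ := by
  unfold A at hx
  have h1 : η ∈ FF k η ζ := IntermediateField.subset_adjoin k _ (by simp)
  have h2 : ζ ∈ FF k η ζ := IntermediateField.subset_adjoin k _ (by simp)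
  induction hx using Submodule.span_induction with
  | mem y hy =>
    obtain ⟨a, b, _, rfl⟩ := hy
    exact mul_mem (pow_mem h1 a) (pow_mem h2 b)
  | zero => exact zero_mem _
  | add y z _ _ hy hz => exact add_mem hy hz
  | smul c y _ hy => exact (FF k η ζ).smul_mem hy

theorem finrank_FF (hP : Par D η ζ) {d βB γB : ℚ} (hB : HasHP D.B d βB γB) :
    FiniteDimensional (FF k η ζ) L ∧ (Module.finrank (FF k η ζ) L : ℚ) = d := by
  obtain ⟨N, β, γ, hN, -, -⟩ := ((isLat_B hP).toPLat hP).hasHP
  obtain ⟨hdN, -, -⟩ := hB.unique hN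
  subst hdN
  obtain ⟨e, t, -, -, ρ, hρB, hli, δ, hδA, hδ0, hδ⟩ := RhoCert.exists hP hN
  -- every element of `B n` is in the span
  have hBS : ∀ n b, b ∈ D.B n → b ∈ Submodule.span (FF k η ζ) (Set.range ρ) := by
    intro n b hb
    obtain ⟨g, hg, hgb⟩ := hδ n b hb
    have h1 : δ * b ∈ Submodule.span (FF k η ζ) (Set.range ρ) := by
      rw [hgb]
      refine Submodule.sum_mem _ fun i _ => ?_
      have h2 : g i * ρ i = (⟨g i, A_mem_FF _ (hg i)⟩ : FF k η ζ) • ρ i := rfl
      rw [h2]
      exact Submodule.smul_mem _ _ (Submodule.subset_span ⟨i, rfl⟩)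
    have h3 : b = (⟨δ, A_mem_FF _ hδA⟩ : FF k η ζ)⁻¹ • (δ * b) := by
      rw [Algebra.smul_def]
      change b = (δ)⁻¹ * (δ * b)
      rw [inv_mul_cancel_left₀ hδ0]
    rw [h3]
    exact Submodule.smul_mem _ _ h1
  have hSle : fspan (k := k) η ζ D.B ≤ Submodule.span (FF k η ζ) (Set.range ρ) := by
    unfold fspan
    rw [Submodule.span_le]
    intro b hb
    obtain ⟨n, hn⟩ := Set.mem_iUnion.1 hb
    exact hBS n b hn
  have : FiniteDimensional (FF k η ζ) (Submodule.span (FF k η ζ) (Set.range ρ)) :=
    FiniteDimensional.span_of_finite _ (Set.finite_range ρ)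
  have : FiniteDimensional (FF k η ζ) (fspan (k := k) η ζ D.B) :=
    Submodule.finiteDimensional_of_le hSle
  have hmul : ∀ i a, a ∈ D.B i → ∀ x ∈ fspan (k := k) η ζ D.B, a * x ∈ fspan (k := k) η ζ D.B := by
    intro i a ha x hx
    unfold fspan at hx
    induction hx using Submodule.span_induction with
    | mem y hy =>
      obtain ⟨n, hn⟩ := Set.mem_iUnion.1 hy
      exact mem_fspan (D.mul_mem ha hn)
    | zero => rw [mul_zero]; exact Submodule.zero_mem _
    | add y z _ _ hy hz => rw [mul_add]; exact Submodule.add_mem _ hy hz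
    | smul c y _ hy => rw [mul_smul_comm]; exact Submodule.smul_mem _ _ hy
  have hinv : ∀ n b, b ∈ D.B n → b ≠ 0 → b⁻¹ ∈ fspan (k := k) η ζ D.B := by
    intro n b hb hb0
    let f : fspan (k := k) η ζ D.B →ₗ[FF k η ζ] fspan (k := k) η ζ D.B :=
      { toFun := fun x => ⟨b * x.1, hmul n b hb x.1 x.2⟩
        map_add' := by intro x y; apply Subtype.ext; exact mul_add _ _ _
        map_smul' := by intro c x; apply Subtype.ext; exact mul_smul_comm _ _ _ }
    have hf : Function.Injective f := by
      intro x y hxy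
      have h1 : b * x.1 = b * y.1 := congrArg Subtype.val hxy
      exact Subtype.ext (mul_left_cancel₀ hb0 h1)
    have hs : Function.Surjective f := LinearMap.surjective_of_injective hf
    obtain ⟨x, hx⟩ := hs ⟨1, mem_fspan D.one_mem⟩
    have h1 : b * x.1 = 1 := congrArg Subtype.val hx
    rw [← eq_inv_of_mul_eq_one_right h1]
    exact x.2
  have htop : Submodule.span (FF k η ζ) (Set.range ρ) = ⊤ := by
    rw [eq_top_iff]
    intro l _
    obtain ⟨n, a, ha, b, hb, hb0, rfl⟩ := D.frac l
    apply hSle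
    rw [div_eq_mul_inv]
    exact hmul n a ha _ (hinv n b hb hb0)
  let bas : Module.Basis (Fin N) (FF k η ζ) L := Module.Basis.mk hli (by rw [htop])
  refine ⟨Module.Basis.finiteDimensional_of_finite bas, ?_⟩
  rw [Module.finrank_eq_card_basis bas, Fintype.card_fin]

/-- dependent `η, ζ`: linear growth of `A` -/
private theorem A_le_of_dep (h : ¬ AlgebraicIndependent k ![η, ζ]) :
    ∃ i j : ℕ, ∀ n : ℕ, A k η ζ n ≤ Submodule.span k
      ((fun t : ℕ × ℕ => η ^ t.1 * ζ ^ t.2) ''
        (((Finset.range i ×ˢ Finset.range (n + 1)) ∪ (Finset.range (n + 1) ×ˢ Finset.range j) :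
          Finset (ℕ × ℕ)) : Set (ℕ × ℕ))) := by
  classical
  rw [algebraicIndependent_iff] at h
  push Not at h
  obtain ⟨F, hF, hF0⟩ := h
  have hsup : F.support.Nonempty := by
    rw [Finset.nonempty_iff_ne_empty]
    intro hc
    exact hF0 (MvPolynomial.support_eq_empty.1 hc)
  -- leading monomial
  obtain ⟨M, hM, hmax⟩ := Finset.exists_max_image F.support
    (fun m : Fin 2 →₀ ℕ => toLex (m 0 + m 1, m 0)) hsup
  have hrel : ∑ m ∈ F.support, MvPolynomial.coeff m F • (η ^ m 0 * ζ ^ m 1) = 0 := by
    rw [MvPolynomial.aeval_def, MvPolynomial.eval₂_eq'] at hF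
    rw [← hF]
    refine Finset.sum_congr rfl fun m _ => ?_
    rw [Algebra.smul_def, Fin.prod_univ_two]
    rfl
  have hcM : MvPolynomial.coeff M F ≠ 0 := MvPolynomial.mem_support_iff.1 hM
  refine ⟨M 0, M 1, fun n => ?_⟩
  -- strong induction on the measure
  have key : ∀ (N a b : ℕ), a + b ≤ n → (a + b) * (n + 1) + a ≤ N → η ^ a * ζ ^ b ∈
      Submodule.span k ((fun t : ℕ × ℕ => η ^ t.1 * ζ ^ t.2) ''
        (((Finset.range (M 0) ×ˢ Finset.range (n + 1)) ∪
          (Finset.range (n + 1) ×ˢ Finset.range (M 1)) : Finset (ℕ × ℕ)) : Set (ℕ × ℕ))) := by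
    intro N
    induction N using Nat.strong_induction_on with
    | _ N ih =>
      intro a b hab hN
      by_cases ha : a < M 0
      · refine Submodule.subset_span ⟨(a, b), ?_, rfl⟩
        simp only [Finset.coe_union, Set.mem_union, Finset.mem_coe, Finset.mem_product,
          Finset.mem_range]
        left; omega
      · by_cases hb : b < M 1
        · refine Submodule.subset_span ⟨(a, b), ?_, rfl⟩
          simp only [Finset.coe_union, Set.mem_union, Finset.mem_coe, Finset.mem_product,
            Finset.mem_range]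
          right; omega
        · push Not at ha hb
          have h1 : η ^ a * ζ ^ b = -((MvPolynomial.coeff M F)⁻¹ •
              ∑ m ∈ F.support.erase M, MvPolynomial.coeff m F •
                (η ^ (a - M 0 + m 0) * ζ ^ (b - M 1 + m 1))) := by
            have h2 : (η ^ (a - M 0) * ζ ^ (b - M 1)) *
                ∑ m ∈ F.support, MvPolynomial.coeff m F • (η ^ m 0 * ζ ^ m 1) = 0 := by
              rw [hrel, mul_zero]
            rw [Finset.mul_sum] at h2
            have h3 : ∀ m ∈ F.support, (η ^ (a - M 0) * ζ ^ (b - M 1)) *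
                (MvPolynomial.coeff m F • (η ^ m 0 * ζ ^ m 1)) =
                MvPolynomial.coeff m F • (η ^ (a - M 0 + m 0) * ζ ^ (b - M 1 + m 1)) := by
              intro m _
              rw [mul_smul_comm, pow_add, pow_add]
              congr 1
              ring
            rw [Finset.sum_congr rfl h3, ← Finset.add_sum_erase _ _ hM,
              Nat.sub_add_cancel ha, Nat.sub_add_cancel hb] at h2
            have h4 := eq_neg_of_add_eq_zero_left h2
            have h5 : η ^ a * ζ ^ b = (MvPolynomial.coeff M F)⁻¹ •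
                (MvPolynomial.coeff M F • (η ^ a * ζ ^ b)) := by
              rw [smul_smul, inv_mul_cancel₀ hcM, one_smul]
            rw [h5, h4, smul_neg]
          rw [h1]
          refine Submodule.neg_mem _ (Submodule.smul_mem _ _ (Submodule.sum_mem _ fun m hm => ?_))
          refine Submodule.smul_mem _ _ ?_
          obtain ⟨hmM, hm2⟩ := Finset.mem_erase.1 hm
          have h6 := hmax m hm2
          rw [Prod.Lex.toLex_le_toLex] at h6
          have h7 : (m 0 + m 1 < M 0 + M 1) ∨ (m 0 + m 1 = M 0 + M 1 ∧ m 0 < M 0) := by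
            rcases h6 with h6 | ⟨h6, h8⟩
            · left; exact h6
            · right
              refine ⟨h6, lt_of_le_of_ne h8 ?_⟩
              intro h9
              apply hmM
              ext x
              fin_cases x
              · exact h9
              · have h6' : m 0 + m 1 = M 0 + M 1 := h6
                have h9' : m 0 = M 0 := h9
                change m 1 = M 1
                omega
          have hmeas : (a - M 0 + m 0 + (b - M 1 + m 1)) * (n + 1) + (a - M 0 + m 0) <
              (a + b) * (n + 1) + a := by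
            rcases h7 with h7 | ⟨h7, h8⟩
            · have h9 : a - M 0 + m 0 + (b - M 1 + m 1) + 1 ≤ a + b := by omega
              have h10 : a - M 0 + m 0 < n + 1 := by omega
              calc (a - M 0 + m 0 + (b - M 1 + m 1)) * (n + 1) + (a - M 0 + m 0)
                  < (a - M 0 + m 0 + (b - M 1 + m 1)) * (n + 1) + (n + 1) := by omega
                _ = (a - M 0 + m 0 + (b - M 1 + m 1) + 1) * (n + 1) := by ring
                _ ≤ (a + b) * (n + 1) := Nat.mul_le_mul_right _ h9
                _ ≤ _ := Nat.le_add_right _ _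
            · have h9 : a - M 0 + m 0 + (b - M 1 + m 1) = a + b := by omega
              rw [h9]
              omega
          exact ih _ (lt_of_lt_of_le hmeas hN) _ _ (by omega) le_rfl
  unfold A
  rw [Submodule.span_le]
  rintro x ⟨a, b, hab, rfl⟩
  exact key _ a b (by omega) le_rfl

theorem indep_of_gen (hη : η ∈ D.B 1) (hζ : ζ ∈ D.B 1) {n1 : ℤ}
    (hgen : ∀ n, n1 ≤ n → D.B (n + 1) ≤ D.B n ⊔ sm η (D.B n) ⊔ sm ζ (D.B n))
    {d βB γB : ℚ} (hd : 0 < d) (hB : HasHP D.B d βB γB) : AlgebraicIndependent k ![η, ζ] := by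
  classical
  by_contra hdep
  obtain ⟨i, j, hA⟩ := A_le_of_dep hdep
  -- `B (N1 + n) ≤ A n * B N1`
  obtain ⟨N1, hN1⟩ : ∃ N1 : ℕ, n1 ≤ N1 := ⟨n1.toNat, Int.self_le_toNat n1⟩
  have hA0 : (1 : L) ∈ A k η ζ (0 : ℕ) := Submodule.subset_span ⟨0, 0, by simp, by simp⟩
  have hstep : ∀ n : ℕ, D.B ((N1 : ℤ) + n) ≤ A k η ζ n * D.B N1 := by
    intro n
    induction n with
    | zero =>
      intro x hx
      rw [Nat.cast_zero, add_zero] at hx
      have h1 := Submodule.mul_mem_mul hA0 hx
      rw [one_mul] at h1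
      exact h1
    | succ n ih =>
      have e : (N1 : ℤ) + ((n + 1 : ℕ) : ℤ) = ((N1 : ℤ) + n) + 1 := by push_cast; ring
      rw [e]
      refine le_trans (hgen _ (by omega)) ?_
      have hmono : A k η ζ (n : ℤ) ≤ A k η ζ ((n + 1 : ℕ) : ℤ) := by
        unfold A
        apply Submodule.span_mono
        rintro x ⟨a, b, hab, rfl⟩
        exact ⟨a, b, by push_cast; omega, rfl⟩
      have hmulA : ∀ (l : L) (a0 b0 : ℕ), a0 + b0 = 1 → l = η ^ a0 * ζ ^ b0 →
          sm l (D.B ((N1 : ℤ) + n)) ≤ A k η ζ ((n + 1 : ℕ) : ℤ) * D.B N1 := by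
        rintro l a0 b0 hab0 rfl x ⟨y, hy, rfl⟩
        have hgen2 : ∀ z ∈ A k η ζ (n : ℤ) * D.B N1,
            (η ^ a0 * ζ ^ b0) * z ∈ A k η ζ ((n + 1 : ℕ) : ℤ) * D.B N1 := by
          intro z hz
          induction hz using Submodule.mul_induction_on' with
          | mem_mul_mem p hp q hq =>
            rw [← mul_assoc]
            refine Submodule.mul_mem_mul ?_ hq
            unfold A at hp ⊢
            induction hp using Submodule.span_induction with
            | mem z hz =>
              obtain ⟨a, b, hab, rfl⟩ := hz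
              refine Submodule.subset_span ⟨a0 + a, b0 + b, by push_cast; omega, ?_⟩
              rw [pow_add, pow_add]; ring
            | zero => rw [mul_zero]; exact Submodule.zero_mem _
            | add y z _ _ hy hz => rw [mul_add]; exact Submodule.add_mem _ hy hz
            | smul c y _ hy => rw [mul_smul_comm]; exact Submodule.smul_mem _ _ hy
          | add p hp q hq h1 h2 => rw [mul_add]; exact Submodule.add_mem _ h1 h2
        exact hgen2 y (ih hy)
      refine sup_le (sup_le ?_ ?_) ?_
      · exact le_trans ih (mul_le_mul' hmono le_rfl)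
      · exact hmulA η 1 0 rfl (by simp)
      · exact hmulA ζ 0 1 rfl (by simp)
  -- dimension bound
  obtain ⟨s, hs⟩ := Module.Finite.iff_fg.1 (D.fin N1)
  have hdim : ∀ n : ℕ, Module.finrank k (D.B ((N1 : ℤ) + n)) ≤ (i + j) * (n + 1) * s.card := by
    intro n
    let G : Finset (ℕ × ℕ) := (Finset.range i ×ˢ Finset.range (n + 1)) ∪
      (Finset.range (n + 1) ×ˢ Finset.range j)
    have h1 : D.B ((N1 : ℤ) + n) ≤ Submodule.span k
        (((G.image (fun t : ℕ × ℕ => η ^ t.1 * ζ ^ t.2)) * s : Finset L) : Set L) := by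
      refine le_trans (hstep n) (le_trans (mul_le_mul' (hA n) le_rfl) ?_)
      rw [← hs, Submodule.span_mul_span, Finset.coe_mul, Finset.coe_image]
    have h2 : Module.finrank k (D.B ((N1 : ℤ) + n)) ≤
        ((G.image (fun t : ℕ × ℕ => η ^ t.1 * ζ ^ t.2)) * s).card :=
      le_trans (Submodule.finrank_mono h1) (finrank_span_finset_le_card _)
    refine h2.trans (Finset.card_mul_le.trans (Nat.mul_le_mul_right _ ?_))
    refine Finset.card_image_le.trans ((Finset.card_union_le _ _).trans ?_)
    rw [Finset.card_product, Finset.card_product, Finset.card_range, Finset.card_range,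
      Finset.card_range]
    apply le_of_eq; ring
  obtain ⟨n0, hn0⟩ := hB
  -- contradiction for large n
  let C : ℚ := ((i + j : ℕ) : ℚ) * s.card
  have hC : 0 ≤ C := by positivity
  obtain ⟨M, hM⟩ := exists_nat_gt (2 * (|βB| + C + |γB| + C + 1) / d)
  let n : ℕ := M + n0.toNat + 1
  have hx := hn0 ((N1 : ℤ) + n) (by
    have := Int.self_le_toNat n0
    simp only [n]; push_cast; omega)
  have hle : (Module.finrank k (D.B ((N1 : ℤ) + n)) : ℚ) ≤ C * (n + 1) := by
    have h1 : (Module.finrank k (D.B ((N1 : ℤ) + n)) : ℚ) ≤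
        (((i + j) * (n + 1) * s.card : ℕ) : ℚ) := by exact_mod_cast hdim n
    refine h1.trans (le_of_eq ?_)
    simp only [C]; push_cast; ring
  rw [hx] at hle
  set x : ℚ := (((N1 : ℤ) + n : ℤ) : ℚ) with hxdef
  have hx1 : 1 ≤ x := by
    rw [hxdef]
    have : (1 : ℤ) ≤ (N1 : ℤ) + n := by simp only [n]; push_cast; omega
    exact_mod_cast this
  have hxM : (M : ℚ) ≤ x := by
    rw [hxdef]
    have : (M : ℤ) ≤ (N1 : ℤ) + n := by simp only [n]; push_cast; omega
    exact_mod_cast this
  have hnx : (n : ℚ) ≤ x := by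
    rw [hxdef]
    have : (n : ℤ) ≤ (N1 : ℤ) + n := by omega
    exact_mod_cast this
  have h3 : 2 * (|βB| + C + |γB| + C + 1) < d * x := by
    rw [div_lt_iff₀ hd] at hM
    nlinarith
  have h4 : (|βB| + C + |γB| + C + 1) * x ≤ d / 2 * x ^ 2 := by
    nlinarith
  have h5 : βB * x ≤ |βB| * x := mul_le_mul_of_nonneg_right (le_abs_self _) (by linarith)
  have h6 : -|γB| ≤ γB := neg_abs_le γB
  have h7 : C * (n + 1) ≤ C * x + C := by nlinarith
  have h8 : |γB| ≤ |γB| * x := by nlinarith [abs_nonneg γB]
  have h9 : C ≤ C * x := by nlinarith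
  nlinarith

end R169.TR
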