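import Crest.Agent.R169.ExPar1
import Crest.Agent.R169.ExCount
import Crest.Agent.R169.TR2A

/-!
# Row 169, module EX, PAR_2: existence of parameters (helper71)

`ex_large`: for a standard `a` with `lam a j ≤ n + 1` and `n ≥ 100`: either `lam a j ≤ n` for all `j`, or there is an `i` with
`14 ≤ a i` and `lam a j - 14 lam e_i j ≤ n + 1 - 14` for all `j` (take `i` with `a i ≥ 26`; the neighbours at
distance two are `≤ 6`). Then `q^a = q_i^14 q^{a - 14 e_i} ∈ J_14 B_{n+1-14} ⊂ J_{n+1}`.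
Independence of `η, ζ`: `R169.TR.indep_of_gen`.
-/

set_option autoImplicit false

namespace R169

namespace Ex

namespace ExLargeAux

theorem e0 : lam (Pi.single 0 14) 0 = 14 ∧ lam (Pi.single 0 14) 1 = 0 ∧ lam (Pi.single 0 14) 2 = -14 ∧
    lam (Pi.single 0 14) 3 = 0 ∧ lam (Pi.single 0 14) 4 = 14 := by decide
theorem e1 : lam (Pi.single 1 14) 1 = 14 ∧ lam (Pi.single 1 14) 2 = 0 ∧ lam (Pi.single 1 14) 3 = -14 ∧
    lam (Pi.single 1 14) 4 = 0 ∧ lam (Pi.single 1 14) 0 = 14 := by decide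
theorem e2 : lam (Pi.single 2 14) 2 = 14 ∧ lam (Pi.single 2 14) 3 = 0 ∧ lam (Pi.single 2 14) 4 = -14 ∧
    lam (Pi.single 2 14) 0 = 0 ∧ lam (Pi.single 2 14) 1 = 14 := by decide
theorem e3 : lam (Pi.single 3 14) 3 = 14 ∧ lam (Pi.single 3 14) 4 = 0 ∧ lam (Pi.single 3 14) 0 = -14 ∧
    lam (Pi.single 3 14) 1 = 0 ∧ lam (Pi.single 3 14) 2 = 14 := by decide
theorem e4 : lam (Pi.single 4 14) 4 = 14 ∧ lam (Pi.single 4 14) 0 = 0 ∧ lam (Pi.single 4 14) 1 = -14 ∧
    lam (Pi.single 4 14) 2 = 0 ∧ lam (Pi.single 4 14) 3 = 14 := by decide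

end ExLargeAux

open ExLargeAux in
theorem ex_large (a : Ev) (hs : Std a) (n : ℤ) (hn : 100 ≤ n) (h : ∀ j, lam a j ≤ n + 1) :
    (∀ j, lam a j ≤ n) ∨ ∃ i, 14 ≤ a i ∧ ∀ j, lam a j - lam (Pi.single i 14) j ≤ n + 1 - 14 := by
  by_cases h1 : ∀ j, lam a j ≤ n
  · exact Or.inl h1
  right
  have hs' := (std_iff a).1 hs
  have hh := forall5.1 h
  have hi : ∃ i, 26 ≤ a i := by
    by_contra hcon
    push Not at hcon
    apply h1
    have c0 := hcon 0
    have c1 := hcon 1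
    have c2 := hcon 2
    have c3 := hcon 3
    have c4 := hcon 4
    rw [forall5, lam0, lam1, lam2, lam3, lam4]
    omega
  clear h1
  rw [lam0, lam1, lam2, lam3, lam4] at hh
  have key : ∀ i : ZMod 5, 26 ≤ a i → ∀ j, lam a j - lam (Pi.single i 14) j ≤ n + 1 - 14 := by
    rw [forall5]
    refine ⟨?_, ?_, ?_, ?_, ?_⟩
    · intro hi
      rw [forall5, lam0 a, lam1 a, lam2 a, lam3 a, lam4 a]
      obtain ⟨a0, a1, a2, a3, a4⟩ := e0
      rw [a0, a1, a2, a3, a4]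
      omega
    · intro hi
      rw [forall5, lam0 a, lam1 a, lam2 a, lam3 a, lam4 a]
      obtain ⟨a0, a1, a2, a3, a4⟩ := e1
      rw [a0, a1, a2, a3, a4]
      omega
    · intro hi
      rw [forall5, lam0 a, lam1 a, lam2 a, lam3 a, lam4 a]
      obtain ⟨a0, a1, a2, a3, a4⟩ := e2
      rw [a0, a1, a2, a3, a4]
      omega
    · intro hi
      rw [forall5, lam0 a, lam1 a, lam2 a, lam3 a, lam4 a]
      obtain ⟨a0, a1, a2, a3, a4⟩ := e3
      rw [a0, a1, a2, a3, a4]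
      omega
    · intro hi
      rw [forall5, lam0 a, lam1 a, lam2 a, lam3 a, lam4 a]
      obtain ⟨a0, a1, a2, a3, a4⟩ := e4
      rw [a0, a1, a2, a3, a4]
      omega
  obtain ⟨i, hi⟩ := hi
  exact ⟨i, by omega, key i hi⟩

variable {k L : Type} [Field k] [Field L] [Algebra k L]

theorem QD.gen (Q : QD k L) (c : k) (hc : c ≠ 0) (hc7 : c ^ 7 ≠ 1) (n : ℤ) (hn : 100 ≤ n) :
    Q.Bn (n + 1) ≤ Q.Bn n ⊔ sm Q.et (Q.Bn n) ⊔ sm (Q.ze c) (Q.Bn n) := by
  have hJ : Q.J c (n + 1) = Q.Bn n ⊔ sm Q.et (Q.Bn n) ⊔ sm (Q.ze c) (Q.Bn n) := by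
    unfold QD.J
    rw [show n + 1 - 1 = n by ring]
  rw [← hJ, Q.Bn_std (n + 1)]
  refine Submodule.span_le.2 ?_
  rintro l ⟨a, hs, ha, rfl⟩
  rcases ex_large a hs n hn ha with h | ⟨i, hi, h⟩
  · exact Q.x_J c (Q.mon_mem h) (by omega)
  · obtain ⟨b, rfl⟩ : ∃ b : Ev, a = b + Pi.single i 14 := by
      refine ⟨fun j => a j - (Pi.single i 14 : Ev) j, ?_⟩
      funext j
      simp only [Pi.add_apply]
      have : (Pi.single i 14 : Ev) j ≤ a j := by
        by_cases hj : j = i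
        · subst hj
          rw [Pi.single_eq_same]
          exact hi
        · rw [Pi.single_eq_of_ne hj]
          exact Nat.zero_le _
      omega
    have hb : mon Q.q b ∈ Q.Bn (n + 1 - 14) := by
      refine Q.mon_mem fun j => ?_
      have := h j
      rw [lam_add] at this
      linarith
    have h1 := Q.mul_J c hb (Q.q_pow_J c hc hc7 i)
    rw [show n + 1 - 14 + 14 = n + 1 by ring] at h1
    show mon Q.q (b + Pi.single i 14) ∈ Q.J c (n + 1)
    rw [mon_add, mon_single]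
    exact h1

theorem QD.par (Q : QD k L) (c : k) (hc : c ≠ 0) (hc7 : c ^ 7 ≠ 1) : Par Q.D Q.et (Q.ze c) := by
  have hgen : ∀ n, (100 : ℤ) ≤ n → Q.D.B (n + 1) ≤ Q.D.B n ⊔ sm Q.et (Q.D.B n) ⊔ sm (Q.ze c) (Q.D.B n) :=
    fun n hn => Q.gen c hc hc7 n hn
  exact ⟨Q.et_mem, Q.ze_mem c, TR.indep_of_gen Q.et_mem (Q.ze_mem c) hgen (by norm_num) Q.hp, ⟨100, hgen⟩⟩

theorem QD.exists_par [Infinite k] (Q : QD k L) : ∃ η ζ : L, Par Q.D η ζ := by
  obtain ⟨c, hc⟩ : ∃ c : k, c ^ 8 ≠ c := by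
    by_contra hcon
    push Not at hcon
    have hp : (Polynomial.X ^ 8 - Polynomial.X : Polynomial k) = 0 := by
      refine Polynomial.funext fun r => ?_
      simp [hcon r]
    have h2 := congrArg (fun p => Polynomial.coeff p 8) hp
    simp [Polynomial.coeff_X] at h2
  refine ⟨_, _, Q.par c ?_ ?_⟩
  · rintro rfl
    apply hc
    norm_num
  · intro h
    apply hc
    rw [pow_succ, h, one_mul]

end Ex

end R169
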