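import Crest.Agent.R169.ExParD

/-!
# Row 169, module EX, PAR_1: `q_i^14 ∈ J_14` (all identities explicit; helper71)

Write `≡` modulo `J` (`mul_J`, `x_J`, `et_J`, `ze_J`; monomials: `mon5_mem`), `u = q 0`, `v = q 4`, `d` = degree.
1. `q_i q_{i+2} ∈ B_1 ⊂ J_2`.
2. `ζ q_2 = q_0 q_2 + q_2² + c q_2 q_4` gives `q_2² ∈ J_2`.
3. `ζ q_0` gives `u² + c u v ∈ J_2` (`q_0 q_2 ∈ J_2`); `ζ q_4` gives `u v + c v² ∈ J_2`.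
4. `b = q_0^3 q_1^6 q_3^6 q_4^3 ∈ B_6`, `η b = q_0^4 q_4^4 q_2 (q_1 q_3)^7 = q_0^4 q_2 q_4^4 (1 + q_2^7)` and
   `q_0^4 q_2^8 q_4^4 ∈ B_4`; so `q_0^4 q_2 q_4^4 = u^3 v^3 Z ∈ J_7`, `Z = q_0 q_2 q_4 ∈ B_1`.
5. `Z^7 = 1 + u^7 + v^7` (from `rel 1`, `rel 0`: `a_0 a_2 a_4 = (1 + a_1) a_4 = a_4 + 1 + a_0`), `Z^6 ∈ B_6`, so
   `u^3 v^3 (1 + u^7 + v^7) ∈ J_13`, `u^3 v^3 ∈ B_6 ⊂ J_13`: `u^10 v^3 + u^3 v^10 ∈ J_13`.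
6. from 3: `u^k v^l ≡ (-c)^k v^{k+l}` mod `J_{k+l}` for `l ≥ 1`; so `c^3 (c^7 - 1) v^13 ∈ J_13`, `v^13 ∈ J_13`.
7. `u^{k+1} ≡ (-c)^k u v^k` mod `J_{k+1}`, so `u^14 ∈ J_14`.  Also `q_2^14`, `v^14 ∈ J_14`.
8. `ζ q_1` times `q_0`: `q_0² q_1 ∈ J_3` (`q_1 q_4, q_0 q_2 ∈ J_2`). `Z_0 = q_0 q_1 q_3`, `Z_0^7 = 1 + q_0^7 + q_1^7`,
   `Z_1 = q_1 q_2 q_4`, `Z_1^7 = 1 + q_1^7 + q_2^7`, `Z_0 Z_1 = η q_1`: so
   `(1 + q_0^7 + q_1^7)(1 + q_1^7 + q_2^7) = (η q_1)^7 ∈ J_14`; all terms but `q_1^14` are in `J_14`.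
9. `ζ q_3` times `q_4`: `c q_3 q_4² ∈ J_3`. `Z_2 = q_2 q_3 q_0`, `Z_2^7 = 1 + q_2^7 + q_3^7`, `Z_3 = q_3 q_4 q_1`,
   `Z_3^7 = 1 + q_3^7 + q_4^7`, `Z_2 Z_3 = η q_3`; same for `q_3^14`.
-/

set_option autoImplicit false

namespace R169

namespace Ex

variable {k L : Type} [Field k] [Field L] [Algebra k L]

section aux

private theorem mulJ (Q : QD k L) (c : k) {m n l : ℤ} {a w : L} (ha : a ∈ Q.Bn m)
    (hw : w ∈ Q.J c n) (h : m + n = l) : a * w ∈ Q.J c l := h ▸ Q.mul_J c ha hw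

private theorem rels (Q : QD k L) :
    (Q.q 4 ^ 7 * Q.q 1 ^ 7 = 1 + Q.q 0 ^ 7) ∧ (Q.q 0 ^ 7 * Q.q 2 ^ 7 = 1 + Q.q 1 ^ 7) ∧
    (Q.q 1 ^ 7 * Q.q 3 ^ 7 = 1 + Q.q 2 ^ 7) ∧ (Q.q 2 ^ 7 * Q.q 4 ^ 7 = 1 + Q.q 3 ^ 7) ∧
    (Q.q 3 ^ 7 * Q.q 0 ^ 7 = 1 + Q.q 4 ^ 7) := by
  refine ⟨Q.rel 0, Q.rel 1, Q.rel 2, Q.rel 3, Q.rel 4⟩

/-- membership of a monomial, equation form -/
private theorem monB (Q : QD k L) {n : ℤ} {x : L} (a0 a1 a2 a3 a4 : ℕ)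
    (hx : x = Q.q 0 ^ a0 * Q.q 1 ^ a1 * Q.q 2 ^ a2 * Q.q 3 ^ a3 * Q.q 4 ^ a4)
    (h0 : (a0 : ℤ) + a1 - a3 ≤ n) (h1 : (a1 : ℤ) + a2 - a4 ≤ n) (h2 : (a2 : ℤ) + a3 - a0 ≤ n)
    (h3 : (a3 : ℤ) + a4 - a1 ≤ n) (h4 : (a4 : ℤ) + a0 - a2 ≤ n) : x ∈ Q.Bn n := by
  rw [hx]
  exact Q.mon5_mem a0 a1 a2 a3 a4 h0 h1 h2 h3 h4

/-- step 2 -/
private theorem J_q2 (Q : QD k L) (c : k) : Q.q 2 ^ 2 ∈ Q.J c 2 := by
  have h1 : Q.ze c * Q.q 2 ∈ Q.J c 2 := Q.ze_J c (Q.q_mem 2) (by norm_num)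
  have h2 : Q.q 0 * Q.q 2 ∈ Q.J c 2 := Q.x_J c (m := 1)
    (monB Q 1 0 1 0 0 (by ring) (by norm_num) (by norm_num) (by norm_num) (by norm_num)
      (by norm_num)) (by norm_num)
  have h3 : Q.q 2 * Q.q 4 ∈ Q.J c 2 := Q.x_J c (m := 1)
    (monB Q 0 0 1 0 1 (by ring) (by norm_num) (by norm_num) (by norm_num) (by norm_num)
      (by norm_num)) (by norm_num)
  have e : Q.q 2 ^ 2 = Q.ze c * Q.q 2 - Q.q 0 * Q.q 2 - c • (Q.q 2 * Q.q 4) := by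
    unfold QD.ze
    simp only [Algebra.smul_def]
    ring
  rw [e]
  exact Submodule.sub_mem _ (Submodule.sub_mem _ h1 h2) (Submodule.smul_mem _ _ h3)

/-- step 3 -/
private theorem J_u (Q : QD k L) (c : k) : Q.q 0 ^ 2 + c • (Q.q 0 * Q.q 4) ∈ Q.J c 2 := by
  have h1 : Q.ze c * Q.q 0 ∈ Q.J c 2 := Q.ze_J c (Q.q_mem 0) (by norm_num)
  have h2 : Q.q 0 * Q.q 2 ∈ Q.J c 2 := Q.x_J c (m := 1)
    (monB Q 1 0 1 0 0 (by ring) (by norm_num) (by norm_num) (by norm_num) (by norm_num)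
      (by norm_num)) (by norm_num)
  have e : Q.q 0 ^ 2 + c • (Q.q 0 * Q.q 4) = Q.ze c * Q.q 0 - Q.q 0 * Q.q 2 := by
    unfold QD.ze
    simp only [Algebra.smul_def]
    ring
  rw [e]
  exact Submodule.sub_mem _ h1 h2

private theorem J_v (Q : QD k L) (c : k) : Q.q 0 * Q.q 4 + c • (Q.q 4 ^ 2) ∈ Q.J c 2 := by
  have h1 : Q.ze c * Q.q 4 ∈ Q.J c 2 := Q.ze_J c (Q.q_mem 4) (by norm_num)
  have h3 : Q.q 2 * Q.q 4 ∈ Q.J c 2 := Q.x_J c (m := 1)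
    (monB Q 0 0 1 0 1 (by ring) (by norm_num) (by norm_num) (by norm_num) (by norm_num)
      (by norm_num)) (by norm_num)
  have e : Q.q 0 * Q.q 4 + c • (Q.q 4 ^ 2) = Q.ze c * Q.q 4 - Q.q 2 * Q.q 4 := by
    unfold QD.ze
    simp only [Algebra.smul_def]
    ring
  rw [e]
  exact Submodule.sub_mem _ h1 h3

/-- step 4 -/
private theorem J_Z (Q : QD k L) (c : k) :
    Q.q 0 ^ 3 * Q.q 4 ^ 3 * (Q.q 0 * Q.q 2 * Q.q 4) ∈ Q.J c 7 := by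
  obtain ⟨_, _, r2, _, _⟩ := rels Q
  have hb : Q.q 0 ^ 3 * Q.q 1 ^ 6 * Q.q 3 ^ 6 * Q.q 4 ^ 3 ∈ Q.Bn 6 :=
    monB Q 3 6 0 6 3 (by ring) (by norm_num) (by norm_num) (by norm_num) (by norm_num)
      (by norm_num)
  have h1 := Q.et_J c hb (n := 7) (by norm_num)
  have h2 : Q.q 0 ^ 4 * Q.q 2 ^ 8 * Q.q 4 ^ 4 ∈ Q.J c 7 := Q.x_J c (m := 4)
    (monB Q 4 0 8 0 4 (by ring) (by norm_num) (by norm_num) (by norm_num) (by norm_num)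
      (by norm_num)) (by norm_num)
  have e : Q.q 0 ^ 3 * Q.q 4 ^ 3 * (Q.q 0 * Q.q 2 * Q.q 4) =
      Q.et * (Q.q 0 ^ 3 * Q.q 1 ^ 6 * Q.q 3 ^ 6 * Q.q 4 ^ 3) -
        Q.q 0 ^ 4 * Q.q 2 ^ 8 * Q.q 4 ^ 4 := by
    unfold QD.et
    linear_combination (-(Q.q 0 ^ 4 * Q.q 2 * Q.q 4 ^ 4)) * r2
  rw [e]
  exact Submodule.sub_mem _ h1 h2

/-- step 5 -/
private theorem J_uv (Q : QD k L) (c : k) :
    Q.q 0 ^ 10 * Q.q 4 ^ 3 + Q.q 0 ^ 3 * Q.q 4 ^ 10 ∈ Q.J c 13 := by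
  obtain ⟨r0, r1, _, _, _⟩ := rels Q
  have h1 : (Q.q 0 * Q.q 2 * Q.q 4) ^ 6 ∈ Q.Bn 6 :=
    monB Q 6 0 6 0 6 (by ring) (by norm_num) (by norm_num) (by norm_num) (by norm_num)
      (by norm_num)
  have h2 := mulJ Q c h1 (J_Z Q c) (l := 13) (by norm_num)
  have h3 : Q.q 0 ^ 3 * Q.q 4 ^ 3 ∈ Q.J c 13 := Q.x_J c (m := 6)
    (monB Q 3 0 0 0 3 (by ring) (by norm_num) (by norm_num) (by norm_num) (by norm_num)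
      (by norm_num)) (by norm_num)
  have e : Q.q 0 ^ 10 * Q.q 4 ^ 3 + Q.q 0 ^ 3 * Q.q 4 ^ 10 =
      (Q.q 0 * Q.q 2 * Q.q 4) ^ 6 * (Q.q 0 ^ 3 * Q.q 4 ^ 3 * (Q.q 0 * Q.q 2 * Q.q 4)) -
        Q.q 0 ^ 3 * Q.q 4 ^ 3 := by
    linear_combination (-(Q.q 0 ^ 3 * Q.q 4 ^ 10)) * r1 - (Q.q 0 ^ 3 * Q.q 4 ^ 3) * r0
  rw [e]
  exact Submodule.sub_mem _ h2 h3

/-- step 6 -/
private theorem J_mix (Q : QD k L) (c : k) (i : ℕ) : ∀ j : ℕ,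
    Q.q 0 ^ i * Q.q 4 ^ (j + 1) - (-c) ^ i • Q.q 4 ^ (i + j + 1) ∈
      Q.J c ((i + j + 1 : ℕ) : ℤ) := by
  induction i with
  | zero =>
    intro j
    have e : Q.q 0 ^ 0 * Q.q 4 ^ (j + 1) - (-c) ^ 0 • Q.q 4 ^ (0 + j + 1) = 0 := by
      rw [zero_add, pow_zero, pow_zero, one_mul, one_smul, sub_self]
    rw [e]
    exact Submodule.zero_mem _
  | succ i ih =>
    intro j
    have h1 : Q.q 0 ^ i * Q.q 4 ^ j ∈ Q.Bn ((i + j : ℕ) : ℤ) :=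
      monB Q i 0 0 0 j (by ring) (by push_cast; omega) (by push_cast; omega) (by push_cast; omega)
        (by push_cast; omega) (by push_cast; omega)
    have h2 := mulJ Q c h1 (J_v Q c) (l := ((i + 1 + j + 1 : ℕ) : ℤ)) (by push_cast; ring)
    have h3 := ih (j + 1)
    have h3' : Q.q 0 ^ i * Q.q 4 ^ (j + 1 + 1) - (-c) ^ i • Q.q 4 ^ (i + 1 + j + 1) ∈
        Q.J c ((i + 1 + j + 1 : ℕ) : ℤ) := by
      have e : i + (j + 1) + 1 = i + 1 + j + 1 := by ring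
      rwa [e] at h3
    have e : Q.q 0 ^ (i + 1) * Q.q 4 ^ (j + 1) - (-c) ^ (i + 1) • Q.q 4 ^ (i + 1 + j + 1) =
        Q.q 0 ^ i * Q.q 4 ^ j * (Q.q 0 * Q.q 4 + c • (Q.q 4 ^ 2)) -
          c • (Q.q 0 ^ i * Q.q 4 ^ (j + 1 + 1) - (-c) ^ i • Q.q 4 ^ (i + 1 + j + 1)) := by
      simp only [Algebra.smul_def, map_pow, map_neg]
      ring
    rw [e]
    exact Submodule.sub_mem _ h2 (Submodule.smul_mem _ _ h3')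

private theorem J_v13 (Q : QD k L) (c : k) (hc : c ≠ 0) (hc7 : c ^ 7 ≠ 1) :
    Q.q 4 ^ 13 ∈ Q.J c 13 := by
  have h1 : Q.q 0 ^ 10 * Q.q 4 ^ 3 - (-c) ^ 10 • Q.q 4 ^ 13 ∈ Q.J c 13 := J_mix Q c 10 2
  have h2 : Q.q 0 ^ 3 * Q.q 4 ^ 10 - (-c) ^ 3 • Q.q 4 ^ 13 ∈ Q.J c 13 := J_mix Q c 3 9
  have h3 := J_uv Q c
  have h4 : (c ^ 3 * (c ^ 7 - 1)) • Q.q 4 ^ 13 ∈ Q.J c 13 := by
    have e : (c ^ 3 * (c ^ 7 - 1)) • Q.q 4 ^ 13 =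
        Q.q 0 ^ 10 * Q.q 4 ^ 3 + Q.q 0 ^ 3 * Q.q 4 ^ 10 -
          (Q.q 0 ^ 10 * Q.q 4 ^ 3 - (-c) ^ 10 • Q.q 4 ^ 13) -
          (Q.q 0 ^ 3 * Q.q 4 ^ 10 - (-c) ^ 3 • Q.q 4 ^ 13) := by
      simp only [Algebra.smul_def, map_pow, map_neg, map_mul, map_sub, map_one]
      ring
    rw [e]
    exact Submodule.sub_mem _ (Submodule.sub_mem _ h3 h1) h2
  exact (Submodule.smul_mem_iff _ (mul_ne_zero (pow_ne_zero _ hc) (sub_ne_zero.2 hc7))).1 h4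

/-- step 7 -/
private theorem J_upow (Q : QD k L) (c : k) (i : ℕ) :
    Q.q 0 ^ (i + 1) - (-c) ^ i • (Q.q 0 * Q.q 4 ^ i) ∈ Q.J c ((i + 1 : ℕ) : ℤ) := by
  induction i with
  | zero =>
    have e : Q.q 0 ^ (0 + 1) - (-c) ^ 0 • (Q.q 0 * Q.q 4 ^ 0) = 0 := by
      rw [zero_add, pow_zero, pow_zero, mul_one, one_smul, pow_one, sub_self]
    rw [e]
    exact Submodule.zero_mem _
  | succ i ih =>
    have h1 : Q.q 0 ^ i ∈ Q.Bn (i : ℤ) :=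
      monB Q i 0 0 0 0 (by ring) (by push_cast; omega) (by push_cast; omega) (by push_cast; omega)
        (by push_cast; omega) (by push_cast; omega)
    have h2 := mulJ Q c h1 (J_u Q c) (l := ((i + 1 + 1 : ℕ) : ℤ)) (by push_cast; ring)
    have h3 := mulJ Q c (Q.q_mem 4) ih (l := ((i + 1 + 1 : ℕ) : ℤ)) (by push_cast; ring)
    have e : Q.q 0 ^ (i + 1 + 1) - (-c) ^ (i + 1) • (Q.q 0 * Q.q 4 ^ (i + 1)) =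
        Q.q 0 ^ i * (Q.q 0 ^ 2 + c • (Q.q 0 * Q.q 4)) -
          c • (Q.q 4 * (Q.q 0 ^ (i + 1) - (-c) ^ i • (Q.q 0 * Q.q 4 ^ i))) := by
      simp only [Algebra.smul_def, map_pow, map_neg]
      ring
    rw [e]
    exact Submodule.sub_mem _ h2 (Submodule.smul_mem _ _ h3)

private theorem J0 (Q : QD k L) (c : k) (hc : c ≠ 0) (hc7 : c ^ 7 ≠ 1) :
    Q.q 0 ^ 14 ∈ Q.J c 14 := by
  have h1 : Q.q 0 ^ 14 - (-c) ^ 13 • (Q.q 0 * Q.q 4 ^ 13) ∈ Q.J c 14 := J_upow Q c 13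
  have h2 := mulJ Q c (Q.q_mem 0) (J_v13 Q c hc hc7) (l := 14) (by norm_num)
  have := Submodule.add_mem _ h1 (Submodule.smul_mem _ ((-c) ^ 13) h2)
  rwa [sub_add_cancel] at this

private theorem J4 (Q : QD k L) (c : k) (hc : c ≠ 0) (hc7 : c ^ 7 ≠ 1) :
    Q.q 4 ^ 14 ∈ Q.J c 14 := by
  have h2 := mulJ Q c (Q.q_mem 4) (J_v13 Q c hc hc7) (l := 14) (by norm_num)
  rwa [← pow_succ'] at h2

private theorem J2 (Q : QD k L) (c : k) : Q.q 2 ^ 14 ∈ Q.J c 14 := by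
  have h1 : Q.q 2 ^ 12 ∈ Q.Bn 12 :=
    monB Q 0 0 12 0 0 (by ring) (by norm_num) (by norm_num) (by norm_num) (by norm_num)
      (by norm_num)
  have h2 := mulJ Q c h1 (J_q2 Q c) (l := 14) (by norm_num)
  rwa [← pow_add] at h2

/-- step 8 -/
private theorem J1 (Q : QD k L) (c : k) : Q.q 1 ^ 14 ∈ Q.J c 14 := by
  obtain ⟨r0, r1, r2, r3, r4⟩ := rels Q
  -- `q_0² q_1 ∈ J_3`
  have hz : Q.q 0 ^ 2 * Q.q 1 ∈ Q.J c 3 := by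
    have h1 : Q.ze c * Q.q 1 ∈ Q.J c 2 := Q.ze_J c (Q.q_mem 1) (by norm_num)
    have h1' := mulJ Q c (Q.q_mem 0) h1 (l := 3) (by norm_num)
    have h2 : Q.q 0 * Q.q 2 ∈ Q.J c 2 := Q.x_J c (m := 1)
      (monB Q 1 0 1 0 0 (by ring) (by norm_num) (by norm_num) (by norm_num) (by norm_num)
        (by norm_num)) (by norm_num)
    have h2' := mulJ Q c (Q.q_mem 1) h2 (l := 3) (by norm_num)
    have h3 : Q.q 1 * Q.q 4 ∈ Q.J c 2 := Q.x_J c (m := 1)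
      (monB Q 0 1 0 0 1 (by ring) (by norm_num) (by norm_num) (by norm_num) (by norm_num)
        (by norm_num)) (by norm_num)
    have h3' := mulJ Q c (Q.q_mem 0) h3 (l := 3) (by norm_num)
    have e : Q.q 0 ^ 2 * Q.q 1 = Q.q 0 * (Q.ze c * Q.q 1) - Q.q 1 * (Q.q 0 * Q.q 2) -
        c • (Q.q 0 * (Q.q 1 * Q.q 4)) := by
      unfold QD.ze
      simp only [Algebra.smul_def]
      ring
    rw [e]
    exact Submodule.sub_mem _ (Submodule.sub_mem _ h1' h2') (Submodule.smul_mem _ _ h3')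
  have t1 : Q.q 0 ^ 5 * Q.q 1 ^ 6 * (Q.q 0 ^ 2 * Q.q 1) ∈ Q.J c 14 :=
    mulJ Q c (m := 11) (monB Q 5 6 0 0 0 (by ring) (by norm_num) (by norm_num) (by norm_num)
      (by norm_num) (by norm_num)) hz (by norm_num)
  have t2 : Q.q 1 ^ 7 * Q.q 2 ^ 5 * Q.q 2 ^ 2 ∈ Q.J c 14 :=
    mulJ Q c (m := 12) (monB Q 0 7 5 0 0 (by ring) (by norm_num) (by norm_num) (by norm_num)
      (by norm_num) (by norm_num)) (J_q2 Q c) (by norm_num)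
  have t3 : Q.et * (Q.q 0 ^ 6 * Q.q 1 ^ 13 * Q.q 2 ^ 6 * Q.q 3 ^ 6 * Q.q 4 ^ 6) ∈ Q.J c 14 :=
    Q.et_J c (m := 13) (monB Q 6 13 6 6 6 (by ring) (by norm_num) (by norm_num) (by norm_num)
      (by norm_num) (by norm_num)) (by norm_num)
  have s0 : (1 : L) ∈ Q.J c 14 := Q.x_J c (m := 0)
    (monB Q 0 0 0 0 0 (by ring) (by norm_num) (by norm_num) (by norm_num) (by norm_num)
      (by norm_num)) (by norm_num)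
  have s1 : Q.q 1 ^ 7 ∈ Q.J c 14 := Q.x_J c (m := 7)
    (monB Q 0 7 0 0 0 (by ring) (by norm_num) (by norm_num) (by norm_num) (by norm_num)
      (by norm_num)) (by norm_num)
  have s2 : Q.q 2 ^ 7 ∈ Q.J c 14 := Q.x_J c (m := 7)
    (monB Q 0 0 7 0 0 (by ring) (by norm_num) (by norm_num) (by norm_num) (by norm_num)
      (by norm_num)) (by norm_num)
  have s3 : Q.q 0 ^ 7 ∈ Q.J c 14 := Q.x_J c (m := 7)
    (monB Q 7 0 0 0 0 (by ring) (by norm_num) (by norm_num) (by norm_num) (by norm_num)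
      (by norm_num)) (by norm_num)
  have s4 : Q.q 0 ^ 7 * Q.q 2 ^ 7 ∈ Q.J c 14 := Q.x_J c (m := 7)
    (monB Q 7 0 7 0 0 (by ring) (by norm_num) (by norm_num) (by norm_num) (by norm_num)
      (by norm_num)) (by norm_num)
  -- `(Z_0 Z_1)^7`
  have z0 : (Q.q 0 * Q.q 1 * Q.q 3) ^ 7 = 1 + Q.q 0 ^ 7 + Q.q 1 ^ 7 := by
    linear_combination Q.q 1 ^ 7 * r4 + r0
  have z1 : (Q.q 1 * Q.q 2 * Q.q 4) ^ 7 = 1 + Q.q 1 ^ 7 + Q.q 2 ^ 7 := by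
    linear_combination Q.q 1 ^ 7 * r3 + r2
  have hprod : Q.et * (Q.q 0 ^ 6 * Q.q 1 ^ 13 * Q.q 2 ^ 6 * Q.q 3 ^ 6 * Q.q 4 ^ 6) =
      (1 + Q.q 0 ^ 7 + Q.q 1 ^ 7) * (1 + Q.q 1 ^ 7 + Q.q 2 ^ 7) := by
    rw [← z0, ← z1]
    unfold QD.et
    ring
  have e : Q.q 1 ^ 14 =
      Q.et * (Q.q 0 ^ 6 * Q.q 1 ^ 13 * Q.q 2 ^ 6 * Q.q 3 ^ 6 * Q.q 4 ^ 6) - 1 -
        Q.q 1 ^ 7 - Q.q 1 ^ 7 - Q.q 2 ^ 7 - Q.q 0 ^ 7 - Q.q 0 ^ 7 * Q.q 2 ^ 7 -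
        Q.q 0 ^ 5 * Q.q 1 ^ 6 * (Q.q 0 ^ 2 * Q.q 1) - Q.q 1 ^ 7 * Q.q 2 ^ 5 * Q.q 2 ^ 2 := by
    rw [hprod]
    ring
  rw [e]
  exact Submodule.sub_mem _ (Submodule.sub_mem _ (Submodule.sub_mem _ (Submodule.sub_mem _
    (Submodule.sub_mem _ (Submodule.sub_mem _ (Submodule.sub_mem _ (Submodule.sub_mem _ t3 s0) s1)
    s1) s2) s3) s4) t1) t2

/-- step 9 -/
private theorem J3 (Q : QD k L) (c : k) (hc : c ≠ 0) : Q.q 3 ^ 14 ∈ Q.J c 14 := by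
  obtain ⟨r0, r1, r2, r3, r4⟩ := rels Q
  -- `q_3 q_4² ∈ J_3`
  have hz : Q.q 3 * Q.q 4 ^ 2 ∈ Q.J c 3 := by
    have h1 : Q.ze c * Q.q 3 ∈ Q.J c 2 := Q.ze_J c (Q.q_mem 3) (by norm_num)
    have h1' := mulJ Q c (Q.q_mem 4) h1 (l := 3) (by norm_num)
    have h2 : Q.q 0 * Q.q 3 ∈ Q.J c 2 := Q.x_J c (m := 1)
      (monB Q 1 0 0 1 0 (by ring) (by norm_num) (by norm_num) (by norm_num) (by norm_num)
        (by norm_num)) (by norm_num)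
    have h2' := mulJ Q c (Q.q_mem 4) h2 (l := 3) (by norm_num)
    have h3 : Q.q 2 * Q.q 4 ∈ Q.J c 2 := Q.x_J c (m := 1)
      (monB Q 0 0 1 0 1 (by ring) (by norm_num) (by norm_num) (by norm_num) (by norm_num)
        (by norm_num)) (by norm_num)
    have h3' := mulJ Q c (Q.q_mem 3) h3 (l := 3) (by norm_num)
    have h4 : c • (Q.q 3 * Q.q 4 ^ 2) ∈ Q.J c 3 := by
      have e : c • (Q.q 3 * Q.q 4 ^ 2) = Q.q 4 * (Q.ze c * Q.q 3) - Q.q 4 * (Q.q 0 * Q.q 3) -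
          Q.q 3 * (Q.q 2 * Q.q 4) := by
        unfold QD.ze
        simp only [Algebra.smul_def]
        ring
      rw [e]
      exact Submodule.sub_mem _ (Submodule.sub_mem _ h1' h2') h3'
    exact (Submodule.smul_mem_iff _ hc).1 h4
  have t1 : Q.q 3 ^ 6 * Q.q 4 ^ 5 * (Q.q 3 * Q.q 4 ^ 2) ∈ Q.J c 14 :=
    mulJ Q c (m := 11) (monB Q 0 0 0 6 5 (by ring) (by norm_num) (by norm_num) (by norm_num)
      (by norm_num) (by norm_num)) hz (by norm_num)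
  have t2 : Q.q 3 ^ 7 * Q.q 2 ^ 5 * Q.q 2 ^ 2 ∈ Q.J c 14 :=
    mulJ Q c (m := 12) (monB Q 0 0 5 7 0 (by ring) (by norm_num) (by norm_num) (by norm_num)
      (by norm_num) (by norm_num)) (J_q2 Q c) (by norm_num)
  have t3 : Q.et * (Q.q 0 ^ 6 * Q.q 1 ^ 6 * Q.q 2 ^ 6 * Q.q 3 ^ 13 * Q.q 4 ^ 6) ∈ Q.J c 14 :=
    Q.et_J c (m := 13) (monB Q 6 6 6 13 6 (by ring) (by norm_num) (by norm_num) (by norm_num)
      (by norm_num) (by norm_num)) (by norm_num)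
  have s0 : (1 : L) ∈ Q.J c 14 := Q.x_J c (m := 0)
    (monB Q 0 0 0 0 0 (by ring) (by norm_num) (by norm_num) (by norm_num) (by norm_num)
      (by norm_num)) (by norm_num)
  have s1 : Q.q 3 ^ 7 ∈ Q.J c 14 := Q.x_J c (m := 7)
    (monB Q 0 0 0 7 0 (by ring) (by norm_num) (by norm_num) (by norm_num) (by norm_num)
      (by norm_num)) (by norm_num)
  have s2 : Q.q 2 ^ 7 ∈ Q.J c 14 := Q.x_J c (m := 7)
    (monB Q 0 0 7 0 0 (by ring) (by norm_num) (by norm_num) (by norm_num) (by norm_num)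
      (by norm_num)) (by norm_num)
  have s3 : Q.q 4 ^ 7 ∈ Q.J c 14 := Q.x_J c (m := 7)
    (monB Q 0 0 0 0 7 (by ring) (by norm_num) (by norm_num) (by norm_num) (by norm_num)
      (by norm_num)) (by norm_num)
  have s4 : Q.q 2 ^ 7 * Q.q 4 ^ 7 ∈ Q.J c 14 := Q.x_J c (m := 7)
    (monB Q 0 0 7 0 7 (by ring) (by norm_num) (by norm_num) (by norm_num) (by norm_num)
      (by norm_num)) (by norm_num)
  have z2 : (Q.q 2 * Q.q 3 * Q.q 0) ^ 7 = 1 + Q.q 2 ^ 7 + Q.q 3 ^ 7 := by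
    linear_combination Q.q 3 ^ 7 * r1 + r2
  have z3 : (Q.q 3 * Q.q 4 * Q.q 1) ^ 7 = 1 + Q.q 3 ^ 7 + Q.q 4 ^ 7 := by
    linear_combination Q.q 4 ^ 7 * r2 + r3
  have hprod : Q.et * (Q.q 0 ^ 6 * Q.q 1 ^ 6 * Q.q 2 ^ 6 * Q.q 3 ^ 13 * Q.q 4 ^ 6) =
      (1 + Q.q 2 ^ 7 + Q.q 3 ^ 7) * (1 + Q.q 3 ^ 7 + Q.q 4 ^ 7) := by
    rw [← z2, ← z3]
    unfold QD.et
    ring
  have e : Q.q 3 ^ 14 =
      Q.et * (Q.q 0 ^ 6 * Q.q 1 ^ 6 * Q.q 2 ^ 6 * Q.q 3 ^ 13 * Q.q 4 ^ 6) - 1 -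
        Q.q 3 ^ 7 - Q.q 3 ^ 7 - Q.q 2 ^ 7 - Q.q 4 ^ 7 - Q.q 2 ^ 7 * Q.q 4 ^ 7 -
        Q.q 3 ^ 6 * Q.q 4 ^ 5 * (Q.q 3 * Q.q 4 ^ 2) - Q.q 3 ^ 7 * Q.q 2 ^ 5 * Q.q 2 ^ 2 := by
    rw [hprod]
    ring
  rw [e]
  exact Submodule.sub_mem _ (Submodule.sub_mem _ (Submodule.sub_mem _ (Submodule.sub_mem _
    (Submodule.sub_mem _ (Submodule.sub_mem _ (Submodule.sub_mem _ (Submodule.sub_mem _ t3 s0) s1)
    s1) s2) s3) s4) t1) t2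

end aux

theorem QD.q_pow_J (Q : QD k L) (c : k) (hc : c ≠ 0) (hc7 : c ^ 7 ≠ 1) (i : ZMod 5) :
    Q.q i ^ 14 ∈ Q.J c 14 := by
  have hi : i = 0 ∨ i = 1 ∨ i = 2 ∨ i = 3 ∨ i = 4 := by
    revert i; decide
  rcases hi with rfl | rfl | rfl | rfl | rfl
  · exact J0 Q c hc hc7
  · exact J1 Q c
  · exact J2 Q c
  · exact J3 Q c hc
  · exact J4 Q c hc hc7

end Ex

end R169
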