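import Crest.Agent.R169.ExSyms

/-!
# Row 169, module EX, piece EX_PENT (0.8 h): the twelve pentagons are images of `x = 1 ∈ B 1` under symmetries

`img g 1 1 = g.τ⁻¹`.  `id`: `1`.  `σ`: `q_0q_3` (= `pent (two 3)`: `q_3 q_5 = q_3q_0`); `ρ^i σ`: all `q_i q_{i+2}`.
`img σ 1 (mon a) = ± mon (sa 1 a)` (`sigma_mon` with `n = 1`): `sa 1 (e_0+e_2) = (0,... )` etc.: from the table
`sa 1 (1,1,0,1,0) = (1,0,1,0,0)` and the involution `sa 1 (1,0,1,0,0) = (1,1,0,1,0)` we get `three 0`; then all `three i` with `ρ^i`;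
`sa 1 (0,1,1,0,1) = (1,1,1,1,1)` gives the last one.  (`img (smul' g h) 1 1 = img g 1 (img h 1 1)`; `img ρ 1 (mon a) = mon` of the
shifted exponent.)
-/

set_option autoImplicit false

namespace R169

namespace Ex

variable {k L : Type} [Field k] [Field L] [Algebra k L]

/-- the twelve pentagons -/
inductive PI where
  | x : PI
  | two (i : ZMod 5) : PI
  | three (i : ZMod 5) : PI
  | g : PI
  deriving Fintype, DecidableEq

/-- exponents of the pentagons: `1, q_iq_{i+2}, q_iq_{i+1}q_{i+3}, q_0q_1q_2q_3q_4` -/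
def pent : PI → Ev
  | .x => fun _ => 0
  | .two i => fun j => if j = i ∨ j = i + 2 then 1 else 0
  | .three i => fun j => if j = i ∨ j = i + 1 ∨ j = i + 3 then 1 else 0
  | .g => fun _ => 1

theorem lam_pent (j : PI) (i : ZMod 5) : lam (pent j) i ≤ 1 := by
  have h2 : ∀ i' i : ZMod 5, lam (pent (.two i')) i ≤ 1 := by decide
  have h3 : ∀ i' i : ZMod 5, lam (pent (.three i')) i ≤ 1 := by decide
  cases j with
  | x => simp [lam, pent]
  | two i' => exact h2 i' i
  | three i' => exact h3 i' i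
  | g => simp [lam, pent]

/-- reachable exponents -/
private def Reach (Q : QD k L) (a : Ev) : Prop :=
  ∃ g : Sym Q.D, ∃ ε : k, ε ≠ 0 ∧ img g 1 1 = ε • mon Q.q a

private theorem img_smul {D : GD k L} (g : Sym D) (n : ℤ) (ε : k) (b : L) :
    img g n (ε • b) = ε • img g n b := by
  unfold img
  rw [map_smul, mul_smul_comm]

private theorem reach_rho {Q : QD k L} {a b : Ev} (h : Reach Q a) (hb : ∀ j, b j = a (j - 1)) :
    Reach Q b := by
  obtain ⟨g, ε, hε, hg⟩ := h
  obtain ⟨r, hr, hr1⟩ := Q.exists_symRho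
  refine ⟨smul' r g, ε, hε, ?_⟩
  rw [img_mul, hg, img_smul]
  congr 1
  unfold img
  rw [hr, hr1, one_zpow, one_mul]
  unfold mon
  rw [map_prod]
  have h1 : ∀ i : ZMod 5, Q.rho (Q.q i ^ a i) = Q.q (i + 1) ^ b (i + 1) := by
    intro i
    rw [map_pow, Q.rho_q, hb, add_sub_cancel_right]
  rw [Finset.prod_congr rfl fun i _ => h1 i]
  exact Equiv.prod_comp (Equiv.addRight (1 : ZMod 5)) (fun i => Q.q i ^ b i)

private theorem reach_sigma {Q : QD k L} {a b : Ev} (h : Reach Q a) (ha : ∀ i, lam a i ≤ 1)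
    (hb : ∀ j, sa 1 a j = b j) : Reach Q b := by
  obtain ⟨g, ε, hε, hg⟩ := h
  obtain ⟨s, hs, hs1⟩ := Q.exists_symSigma
  refine ⟨smul' s g, ε * (-1) ^ (a 1 + a 2 + a 4), mul_ne_zero hε (pow_ne_zero _ (by simp)), ?_⟩
  rw [img_mul, hg, img_smul, mul_smul]
  congr 1
  have h1 := Q.sigma_mon 1 a (by simpa using ha)
  have h2 : sa 1 a = b := funext hb
  rw [h2, pow_one] at h1
  unfold img
  rw [hs, hs1, zpow_neg, zpow_one, inv_inv, h1, Algebra.smul_def]
  simp

theorem QD.exists_pent (Q : QD k L) (j : PI) :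
    ∃ g : Sym Q.D, ∃ ε : k, ε ≠ 0 ∧ img g 1 1 = ε • mon Q.q (pent j) := by
  have hx : Reach Q (pent .x) := by
    refine ⟨sone Q.D, 1, one_ne_zero, ?_⟩
    rw [img_one, one_smul]
    simp [mon, pent]
  have s2 : ∀ i, Reach Q (pent (.two i)) → Reach Q (pent (.two (i + 1))) := fun i h =>
    reach_rho h ((by decide : ∀ i j : ZMod 5, pent (.two (i + 1)) j = pent (.two i) (j - 1)) i)
  have s3 : ∀ i, Reach Q (pent (.three i)) → Reach Q (pent (.three (i + 1))) := fun i h =>
    reach_rho h ((by decide : ∀ i j : ZMod 5, pent (.three (i + 1)) j = pent (.three i) (j - 1)) i)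
  have h23 : Reach Q (pent (.two 3)) := reach_sigma hx (lam_pent _) (by decide)
  have h24 := s2 3 h23
  have h20 := s2 _ h24
  have h21 := s2 _ h20
  have h22 := s2 _ h21
  have h30 : Reach Q (pent (.three 0)) := reach_sigma h20 (lam_pent _) (by decide)
  have h31 := s3 _ h30
  have h32 := s3 _ h31
  have h33 := s3 _ h32
  have h34 := s3 _ h33
  have hg : Reach Q (pent .g) := reach_sigma h31 (lam_pent _) (by decide)
  have hall : ∀ i : ZMod 5, i = 0 ∨ i = 1 ∨ i = 2 ∨ i = 3 ∨ i = 4 := by decide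
  change Reach Q (pent j)
  cases j with
  | x => exact hx
  | two i =>
    rcases hall i with rfl | rfl | rfl | rfl | rfl
    · exact h20
    · exact h21
    · exact h22
    · exact h23
    · exact h24
  | three i =>
    rcases hall i with rfl | rfl | rfl | rfl | rfl
    · exact h30
    · exact h31
    · exact h32
    · exact h33
    · exact h34
  | g => exact hg

end Ex

end R169
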