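import Crest.Agent.R169.ExPent

/-!
# Row 169, module EX, piece EX_PENT2 (0.5 h)

Refinement of `exists_pent`.  Call a symmetry `g` good if `img g 1` maps every `mon (pent j)` to `ε • mon (pent j')`, `ε ≠ 0`.  `ρ^i` and `σ` are good
(table of `sa 1` in `ExPent`; `sigma_mon` with `n = 1`), good symmetries are closed under `smul'`, and if `g` is good then `sinv g` is good
(the induced map `PI → PI` is injective, hence surjective: `mon (pent j)`, `mon (pent j')` are non-proportional for `j ≠ j'`, standard monomials).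
-/

set_option autoImplicit false

namespace R169

namespace Ex

variable {k L : Type} [Field k] [Field L] [Algebra k L]

private theorem img_smul2 {D : GD k L} (g : Sym D) (n : ℤ) (ε : k) (b : L) :
    img g n (ε • b) = ε • img g n b := by
  unfold img
  rw [map_smul, mul_smul_comm]

/-- `g` permutes the twelve pentagons (up to scalars) -/
private def GoodW (Q : QD k L) (g : Sym Q.D) (π : Equiv.Perm PI) : Prop :=
  ∀ j : PI, ∃ ε : k, ε ≠ 0 ∧ img g 1 (mon Q.q (pent j)) = ε • mon Q.q (pent (π j))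

private theorem GoodW.one (Q : QD k L) : GoodW Q (sone Q.D) 1 := fun j =>
  ⟨1, one_ne_zero, by rw [img_one, one_smul]; rfl⟩

private theorem GoodW.mul {Q : QD k L} {g h : Sym Q.D} {π π' : Equiv.Perm PI} (hg : GoodW Q g π)
    (hh : GoodW Q h π') : GoodW Q (smul' g h) (π * π') := by
  intro j
  obtain ⟨ε, h1, h2⟩ := hh j
  obtain ⟨ε', h3, h4⟩ := hg (π' j)
  refine ⟨ε * ε', mul_ne_zero h1 h3, ?_⟩
  rw [img_mul, h2, img_smul2, h4, smul_smul]
  rfl

private theorem GoodW.inv {Q : QD k L} {g : Sym Q.D} {π : Equiv.Perm PI} (hg : GoodW Q g π) :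
    GoodW Q (sinv g) π⁻¹ := by
  intro j
  obtain ⟨ε, h1, h2⟩ := hg (π⁻¹ j)
  refine ⟨ε⁻¹, inv_ne_zero h1, ?_⟩
  have e : π (π⁻¹ j) = j := π.apply_symm_apply j
  rw [e] at h2
  have h3 : mon Q.q (pent j) = ε⁻¹ • img g 1 (mon Q.q (pent (π⁻¹ j))) := by
    rw [h2, smul_smul, inv_mul_cancel₀ h1, one_smul]
  rw [h3, img_smul2, img_inv]

/-- action of `ρ` -/
private def rh : PI → PI
  | .x => .x
  | .two i => .two (i + 1)
  | .three i => .three (i + 1)
  | .g => .g

private def rh' : PI → PI
  | .x => .x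
  | .two i => .two (i - 1)
  | .three i => .three (i - 1)
  | .g => .g

private def rhE : Equiv.Perm PI where
  toFun := rh
  invFun := rh'
  left_inv := by intro j; cases j <;> simp [rh, rh']
  right_inv := by intro j; cases j <;> simp [rh, rh']

/-- action of `σ` -/
private def sg : PI → PI
  | .x => .two 3
  | .two i => if i = 3 then .x else if i = 0 then .three 0 else if i = 1 then .three 2 else
      if i = 2 then .three 3 else .three 4
  | .three i => if i = 0 then .two 0 else if i = 1 then .g else if i = 2 then .two 1 else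
      if i = 3 then .two 2 else .two 4
  | .g => .three 1

private theorem sg_inv : Function.Involutive sg := by
  have h2 : ∀ i : ZMod 5, sg (sg (.two i)) = .two i := by decide
  have h3 : ∀ i : ZMod 5, sg (sg (.three i)) = .three i := by decide
  intro j
  cases j with
  | x => decide
  | two i => exact h2 i
  | three i => exact h3 i
  | g => decide

private def sgE : Equiv.Perm PI := sg_inv.toPerm

private theorem goodW_rho (Q : QD k L) : ∃ g : Sym Q.D, GoodW Q g rhE := by
  obtain ⟨r, hr, hr1⟩ := Q.exists_symRho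
  refine ⟨r, fun j => ⟨1, one_ne_zero, ?_⟩⟩
  rw [one_smul]
  have hb : ∀ i, pent (rh j) i = pent j (i - 1) := by
    have h2 : ∀ i' i : ZMod 5, pent (.two (i' + 1)) i = pent (.two i') (i - 1) := by decide
    have h3 : ∀ i' i : ZMod 5, pent (.three (i' + 1)) i = pent (.three i') (i - 1) := by decide
    cases j with
    | x => intro i; rfl
    | two i' => exact h2 i'
    | three i' => exact h3 i'
    | g => intro i; rfl
  show img r 1 (mon Q.q (pent j)) = mon Q.q (pent (rh j))
  unfold img
  rw [hr, hr1, one_zpow, one_mul]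
  unfold mon
  rw [map_prod]
  have h1 : ∀ i : ZMod 5, Q.rho (Q.q i ^ pent j i) = Q.q (i + 1) ^ pent (rh j) (i + 1) := by
    intro i
    rw [map_pow, Q.rho_q, hb, add_sub_cancel_right]
  rw [Finset.prod_congr rfl fun i _ => h1 i]
  exact Equiv.prod_comp (Equiv.addRight (1 : ZMod 5)) (fun i => Q.q i ^ pent (rh j) i)

private theorem goodW_sigma (Q : QD k L) : ∃ g : Sym Q.D, GoodW Q g sgE := by
  obtain ⟨s, hs, hs1⟩ := Q.exists_symSigma
  refine ⟨s, fun j => ⟨(-1) ^ (pent j 1 + pent j 2 + pent j 4), pow_ne_zero _ (by simp), ?_⟩⟩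
  have h2 : sa 1 (pent j) = pent (sg j) := by
    have h2 : ∀ i' i : ZMod 5, sa 1 (pent (.two i')) i = pent (sg (.two i')) i := by decide
    have h3 : ∀ i' i : ZMod 5, sa 1 (pent (.three i')) i = pent (sg (.three i')) i := by decide
    funext i
    cases j with
    | x => revert i; decide
    | two i' => exact h2 i' i
    | three i' => exact h3 i' i
    | g => revert i; decide
  have h1 := Q.sigma_mon 1 (pent j) (by simpa using lam_pent j)
  rw [h2, pow_one] at h1
  show img s 1 (mon Q.q (pent j)) = _ • mon Q.q (pent (sg j))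
  unfold img
  rw [hs, hs1, zpow_neg, zpow_one, inv_inv, h1, Algebra.smul_def]
  simp

/-- `j` is reached from `x` -/
private def R2 (Q : QD k L) (j : PI) : Prop :=
  ∃ (g : Sym Q.D) (π : Equiv.Perm PI), GoodW Q g π ∧ π .x = j

private theorem R2.rho {Q : QD k L} {j : PI} (h : R2 Q j) : R2 Q (rh j) := by
  obtain ⟨g, π, hg, rfl⟩ := h
  obtain ⟨r, hr⟩ := goodW_rho Q
  exact ⟨smul' r g, rhE * π, hr.mul hg, rfl⟩

private theorem R2.sigma {Q : QD k L} {j : PI} (h : R2 Q j) : R2 Q (sg j) := by
  obtain ⟨g, π, hg, rfl⟩ := h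
  obtain ⟨r, hr⟩ := goodW_sigma Q
  exact ⟨smul' r g, sgE * π, hr.mul hg, rfl⟩

private theorem r2_all (Q : QD k L) (j : PI) : R2 Q j := by
  have hx : R2 Q .x := ⟨sone Q.D, 1, GoodW.one Q, rfl⟩
  have h23 : R2 Q (.two 3) := hx.sigma
  have h24 : R2 Q (.two 4) := h23.rho
  have h20 : R2 Q (.two 0) := h24.rho
  have h21 : R2 Q (.two 1) := h20.rho
  have h22 : R2 Q (.two 2) := h21.rho
  have h30 : R2 Q (.three 0) := h20.sigma
  have h31 : R2 Q (.three 1) := h30.rho
  have h32 : R2 Q (.three 2) := h31.rho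
  have h33 : R2 Q (.three 3) := h32.rho
  have h34 : R2 Q (.three 4) := h33.rho
  have hg : R2 Q .g := h31.sigma
  have hall : ∀ i : ZMod 5, i = 0 ∨ i = 1 ∨ i = 2 ∨ i = 3 ∨ i = 4 := by decide
  cases j with
  | x => exact hx
  | two i =>
    rcases hall i with rfl | rfl | rfl | rfl | rfl
    · exact h20
    · exact h21
    · exact h22
    · exact h23
    · exact h24
  | three i =>
    rcases hall i with rfl | rfl | rfl | rfl | rfl
    · exact h30
    · exact h31
    · exact h32
    · exact h33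
    · exact h34
  | g => exact hg

theorem QD.exists_pent2 (Q : QD k L) (j : PI) : ∃ g : Sym Q.D,
    (∃ ε : k, ε ≠ 0 ∧ img g 1 1 = ε • mon Q.q (pent j)) ∧
    ∃ j' : PI, ∃ ε : k, ε ≠ 0 ∧ img (sinv g) 1 1 = ε • mon Q.q (pent j') := by
  obtain ⟨g, π, hg, hj⟩ := r2_all Q j
  have h1 : mon Q.q (pent .x) = 1 := by simp [mon, pent]
  refine ⟨g, ?_, π⁻¹ .x, ?_⟩
  · have := hg .x
    rwa [h1, hj] at this
  · have := hg.inv .x
    rwa [h1] at this

end Ex

end R169
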