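import Crest.Agent.R169.ExGD
import Crest.Agent.R169.DefsBR

/-!
# Row 169, module EX: Petersen's lemma (2-factors) and generation of the ring in degree one
-/

set_option autoImplicit false

namespace R169

namespace Ex

set_option maxHeartbeats 4000000 in
theorem pet_core (a0 a1 a2 a3 a4 n : ℕ) (g0 : a0 + a1 ≤ n + 1 + a3) (g1 : a1 + a2 ≤ n + 1 + a4)
    (g2 : a2 + a3 ≤ n + 1 + a0) (g3 : a3 + a4 ≤ n + 1 + a1) (g4 : a4 + a0 ≤ n + 1 + a2) :
    ∃ u0 u1 u2 u3 u4 : ℕ, u0 ≤ a0 ∧ u1 ≤ a1 ∧ u2 ≤ a2 ∧ u3 ≤ a3 ∧ u4 ≤ a4 ∧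
      u0 + u1 ≤ 1 + u3 ∧ u1 + u2 ≤ 1 + u4 ∧ u2 + u3 ≤ 1 + u0 ∧ u3 + u4 ≤ 1 + u1 ∧ u4 + u0 ≤ 1 + u2 ∧
      a0 + a1 + u3 ≤ n + a3 + u0 + u1 ∧ a1 + a2 + u4 ≤ n + a4 + u1 + u2 ∧
      a2 + a3 + u0 ≤ n + a0 + u2 + u3 ∧ a3 + a4 + u1 ≤ n + a1 + u3 + u4 ∧
      a4 + a0 + u2 ≤ n + a2 + u4 + u0 := by
  by_cases h1_ : a0 < 2
  · by_cases h2_ : a0 < 1
    · by_cases h3_ : a2 < 2
      · by_cases h4_ : a2 < 1
        · by_cases h5_ : a3 < 2
          · by_cases h6_ : a3 < 1
            · by_cases h7_ : n + 1 + a4 < a1 + a2 + 1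
              · exact ⟨0, 1, 0, 0, 0, by omega⟩
              · by_cases h8_ : a4 < 1
                · exact ⟨0, 0, 0, 0, 0, by omega⟩
                · by_cases h9_ : a1 < 1
                  · exact ⟨0, 0, 0, 0, 1, by omega⟩
                  · exact ⟨0, 1, 0, 0, 1, by omega⟩
            · by_cases h10_ : a1 < 1
              · exact ⟨0, 0, 0, 1, 0, by omega⟩
              · by_cases h11_ : n + 1 + a2 < a4 + a0 + 2
                · by_cases h12_ : a1 < 2
                  · by_cases h13_ : a4 < 1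
                    · exact ⟨0, 1, 0, 1, 0, by omega⟩
                    · exact ⟨0, 1, 0, 1, 1, by omega⟩
                  · exact ⟨0, 2, 0, 1, 1, by omega⟩
                · exact ⟨0, 1, 0, 0, 0, by omega⟩
          · by_cases h14_ : a1 < 2
            · exact ⟨0, 0, 0, 1, 0, by omega⟩
            · by_cases h15_ : a4 < 2
              · exact ⟨0, 1, 0, 1, 0, by omega⟩
              · by_cases h16_ : n + 1 + a1 < a3 + a4 + 1
                · exact ⟨0, 1, 0, 1, 1, by omega⟩
                · exact ⟨0, 2, 0, 1, 1, by omega⟩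
        · by_cases h17_ : a4 < 1
          · exact ⟨0, 0, 1, 0, 0, by omega⟩
          · by_cases h18_ : n + 1 + a2 < a4 + a0 + 1
            · exact ⟨0, 1, 1, 0, 2, by omega⟩
            · by_cases h19_ : a1 < 1
              · exact ⟨0, 0, 1, 0, 1, by omega⟩
              · by_cases h20_ : n + 1 + a1 < a3 + a4 + 1
                · exact ⟨0, 0, 1, 0, 1, by omega⟩
                · exact ⟨0, 1, 1, 0, 1, by omega⟩
      · by_cases h21_ : a4 < 2
        · exact ⟨0, 0, 1, 0, 0, by omega⟩
        · by_cases h22_ : a1 < 2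
          · exact ⟨0, 0, 1, 0, 1, by omega⟩
          · by_cases h23_ : n + 1 + a4 < a1 + a2 + 1
            · exact ⟨0, 1, 1, 0, 1, by omega⟩
            · exact ⟨0, 1, 1, 0, 2, by omega⟩
    · by_cases h24_ : a2 < 2
      · by_cases h25_ : a2 < 1
        · by_cases h26_ : a3 < 1
          · exact ⟨1, 0, 0, 0, 0, by omega⟩
          · by_cases h27_ : n + 1 + a0 < a2 + a3 + 1
            · exact ⟨1, 1, 0, 2, 0, by omega⟩
            · by_cases h28_ : a1 < 1
              · exact ⟨1, 0, 0, 1, 0, by omega⟩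
              · by_cases h29_ : n + 1 + a1 < a3 + a4 + 1
                · exact ⟨1, 0, 0, 1, 0, by omega⟩
                · exact ⟨1, 1, 0, 1, 0, by omega⟩
        · by_cases h30_ : a3 < 2
          · by_cases h31_ : a4 < 2
            · by_cases h32_ : n + 1 + a1 < a3 + a4 + 1
              · by_cases h33_ : n + 1 + a3 < a0 + a1 + 1
                · by_cases h34_ : a1 < 1
                  · exact ⟨1, 0, 1, 0, 1, by omega⟩
                  · exact ⟨1, 1, 1, 1, 1, by omega⟩
                · exact ⟨1, 0, 1, 1, 0, by omega⟩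
              · exact ⟨1, 0, 1, 0, 0, by omega⟩
            · exact ⟨1, 0, 1, 0, 1, by omega⟩
          · by_cases h35_ : a4 < 2
            · exact ⟨1, 0, 1, 1, 0, by omega⟩
            · by_cases h36_ : a1 < 1
              · exact ⟨0, 0, 1, 0, 1, by omega⟩
              · exact ⟨1, 1, 1, 1, 1, by omega⟩
      · by_cases h37_ : a4 < 1
        · exact ⟨0, 0, 1, 0, 0, by omega⟩
        · by_cases h38_ : n + 1 + a2 < a4 + a0 + 1
          · exact ⟨0, 1, 1, 0, 2, by omega⟩
          · exact ⟨1, 0, 2, 0, 1, by omega⟩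
  · by_cases h39_ : a1 < 2
    · by_cases h40_ : a1 < 1
      · by_cases h41_ : a4 < 2
        · by_cases h42_ : n + 1 + a0 < a2 + a3 + 1
          · exact ⟨1, 0, 1, 1, 0, by omega⟩
          · by_cases h43_ : a4 < 1
            · by_cases h44_ : n + 1 + a0 < a2 + a3 + 2
              · exact ⟨2, 0, 1, 1, 0, by omega⟩
              · by_cases h45_ : a2 < 2
                · by_cases h46_ : a3 < 2
                  · exact ⟨1, 0, 0, 0, 0, by omega⟩
                  · exact ⟨1, 0, 0, 1, 0, by omega⟩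
                · by_cases h47_ : a3 < 1
                  · exact ⟨1, 0, 1, 0, 0, by omega⟩
                  · exact ⟨2, 0, 1, 1, 0, by omega⟩
            · by_cases h48_ : n + 1 + a4 < a1 + a2 + 1
              · exact ⟨1, 0, 2, 0, 1, by omega⟩
              · by_cases h49_ : a2 < 1
                · exact ⟨0, 0, 0, 0, 1, by omega⟩
                · exact ⟨1, 0, 1, 0, 1, by omega⟩
        · by_cases h50_ : n + 1 + a4 < a1 + a2 + 2
          · exact ⟨1, 0, 2, 0, 1, by omega⟩
          · by_cases h51_ : n + 1 + a3 < a0 + a1 + 2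
            · exact ⟨1, 0, 1, 0, 1, by omega⟩
            · by_cases h52_ : n + 1 + a0 < a2 + a3 + 1
              · exact ⟨0, 0, 1, 0, 1, by omega⟩
              · exact ⟨0, 0, 0, 0, 1, by omega⟩
      · by_cases h53_ : a4 < 2
        · by_cases h54_ : n + 1 + a0 < a2 + a3 + 1
          · exact ⟨1, 0, 1, 1, 0, by omega⟩
          · by_cases h55_ : a4 < 1
            · by_cases h56_ : n + 1 + a1 < a3 + a4 + 1
              · exact ⟨1, 1, 0, 2, 0, by omega⟩
              · by_cases h57_ : a3 < 1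
                · exact ⟨0, 1, 0, 0, 0, by omega⟩
                · exact ⟨1, 1, 0, 1, 0, by omega⟩
            · by_cases h58_ : n + 1 + a0 < a2 + a3 + 2
              · exact ⟨2, 0, 1, 1, 0, by omega⟩
              · by_cases h59_ : n + 1 + a3 < a0 + a1 + 2
                · by_cases h60_ : n + 1 + a2 < a4 + a0 + 2
                  · by_cases h61_ : a2 < 2
                    · exact ⟨1, 0, 0, 0, 0, by omega⟩
                    · exact ⟨2, 0, 1, 1, 0, by omega⟩
                  · exact ⟨1, 0, 1, 0, 0, by omega⟩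
                · by_cases h62_ : a3 < 2
                  · exact ⟨0, 1, 0, 0, 0, by omega⟩
                  · exact ⟨1, 1, 0, 2, 0, by omega⟩
        · by_cases h63_ : n + 1 + a4 < a1 + a2 + 1
          · exact ⟨1, 0, 2, 0, 1, by omega⟩
          · by_cases h64_ : a2 < 1
            · exact ⟨0, 0, 0, 0, 1, by omega⟩
            · exact ⟨0, 1, 1, 0, 2, by omega⟩
    · by_cases h65_ : n + 1 + a4 < a1 + a2 + 2
      · by_cases h66_ : n + 1 + a4 < a1 + a2 + 1
        · by_cases h67_ : n + 1 + a3 < a0 + a1 + 2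
          · by_cases h68_ : a2 < 1
            · exact ⟨1, 1, 0, 1, 0, by omega⟩
            · by_cases h69_ : n + 1 + a1 < a3 + a4 + 1
              · exact ⟨1, 1, 1, 1, 1, by omega⟩
              · by_cases h70_ : n + 1 + a3 < a0 + a1 + 1
                · by_cases h71_ : a2 < 2
                  · exact ⟨1, 1, 0, 1, 0, by omega⟩
                  · by_cases h72_ : n + 1 + a1 < a3 + a4 + 2
                    · exact ⟨1, 1, 1, 1, 1, by omega⟩
                    · by_cases h73_ : a3 < 2
                      · by_cases h74_ : a4 < 1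
                        · exact ⟨1, 0, 1, 0, 0, by omega⟩
                        · exact ⟨0, 1, 1, 0, 1, by omega⟩
                      · by_cases h75_ : a4 < 1
                        · exact ⟨1, 1, 0, 1, 0, by omega⟩
                        · exact ⟨1, 1, 1, 1, 1, by omega⟩
                · by_cases h76_ : a3 < 2
                  · exact ⟨0, 0, 1, 0, 0, by omega⟩
                  · exact ⟨1, 1, 0, 2, 0, by omega⟩
          · by_cases h77_ : a3 < 2
            · exact ⟨0, 0, 1, 0, 0, by omega⟩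
            · exact ⟨1, 1, 0, 2, 0, by omega⟩
        · by_cases h78_ : n + 1 + a3 < a0 + a1 + 2
          · by_cases h79_ : a4 < 2
            · exact ⟨1, 0, 0, 0, 0, by omega⟩
            · by_cases h80_ : a2 < 1
              · exact ⟨1, 0, 0, 0, 0, by omega⟩
              · exact ⟨0, 1, 1, 0, 2, by omega⟩
          · by_cases h81_ : a3 < 2
            · exact ⟨0, 0, 1, 0, 0, by omega⟩
            · exact ⟨1, 1, 0, 2, 0, by omega⟩
      · by_cases h82_ : n + 1 + a2 < a4 + a0 + 2
        · by_cases h83_ : n + 1 + a2 < a4 + a0 + 1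
          · by_cases h84_ : a2 < 2
            · by_cases h85_ : n + 1 + a3 < a0 + a1 + 2
              · exact ⟨1, 0, 0, 0, 0, by omega⟩
              · by_cases h86_ : a3 < 2
                · exact ⟨1, 0, 0, 0, 0, by omega⟩
                · exact ⟨1, 1, 0, 2, 0, by omega⟩
            · by_cases h87_ : a4 < 2
              · exact ⟨2, 0, 1, 1, 0, by omega⟩
              · exact ⟨0, 1, 1, 0, 2, by omega⟩
          · by_cases h88_ : a2 < 2
            · by_cases h89_ : n + 1 + a3 < a0 + a1 + 2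
              · exact ⟨1, 0, 0, 0, 0, by omega⟩
              · by_cases h90_ : a3 < 1
                · exact ⟨0, 0, 0, 0, 0, by omega⟩
                · exact ⟨0, 0, 0, 1, 0, by omega⟩
            · by_cases h91_ : a4 < 1
              · exact ⟨2, 0, 1, 1, 0, by omega⟩
              · exact ⟨1, 0, 2, 0, 1, by omega⟩
        · by_cases h92_ : a2 < 2
          · by_cases h93_ : a3 < 2
            · exact ⟨1, 0, 0, 0, 0, by omega⟩
            · by_cases h94_ : n + 1 + a3 < a0 + a1 + 1
              · exact ⟨1, 0, 0, 0, 0, by omega⟩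
              · exact ⟨1, 1, 0, 2, 0, by omega⟩
          · by_cases h95_ : a4 < 1
            · by_cases h96_ : a3 < 2
              · exact ⟨1, 0, 0, 0, 0, by omega⟩
              · by_cases h97_ : n + 1 + a3 < a0 + a1 + 1
                · exact ⟨1, 0, 0, 0, 0, by omega⟩
                · exact ⟨1, 0, 1, 1, 0, by omega⟩
            · exact ⟨1, 0, 2, 0, 1, by omega⟩

theorem two_factor (a : Ev) (n : ℕ) (ha : ∀ i, lam a i ≤ (n : ℤ) + 1) :
    ∃ u v : Ev, a = u + v ∧ (∀ i, lam u i ≤ 1) ∧ ∀ i, lam v i ≤ (n : ℤ) := by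
  have h0 := ha 0
  have h1 := ha 1
  have h2 := ha 2
  have h3 := ha 3
  have h4 := ha 4
  simp only [lam] at h0 h1 h2 h3 h4
  have e1 : (0 : ZMod 5) + 1 = 1 := by decide
  have e2 : (0 : ZMod 5) + 3 = 3 := by decide
  have e3 : (1 : ZMod 5) + 1 = 2 := by decide
  have e4 : (1 : ZMod 5) + 3 = 4 := by decide
  have e5 : (2 : ZMod 5) + 1 = 3 := by decide
  have e6 : (2 : ZMod 5) + 3 = 0 := by decide
  have e7 : (3 : ZMod 5) + 1 = 4 := by decide
  have e8 : (3 : ZMod 5) + 3 = 1 := by decide
  have e9 : (4 : ZMod 5) + 1 = 0 := by decide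
  have e10 : (4 : ZMod 5) + 3 = 2 := by decide
  rw [e1, e2] at h0
  rw [e3, e4] at h1
  rw [e5, e6] at h2
  rw [e7, e8] at h3
  rw [e9, e10] at h4
  obtain ⟨u0, u1, u2, u3, u4, k0, k1, k2, k3, k4, l0, l1, l2, l3, l4, m0, m1, m2, m3, m4⟩ :=
    pet_core (a 0) (a 1) (a 2) (a 3) (a 4) n (by omega) (by omega) (by omega) (by omega) (by omega)
  let u : Ev := fun i => if i = 0 then u0 else if i = 1 then u1 else if i = 2 then u2
    else if i = 3 then u3 else u4
  have q0 : u 0 = u0 := rfl
  have q1 : u 1 = u1 := rfl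
  have q2 : u 2 = u2 := rfl
  have q3 : u 3 = u3 := rfl
  have q4 : u 4 = u4 := rfl
  have hz : ∀ i : ZMod 5, i = 0 ∨ i = 1 ∨ i = 2 ∨ i = 3 ∨ i = 4 := by decide
  refine ⟨u, fun i => a i - u i, ?_, ?_, ?_⟩
  · funext i
    have : u i ≤ a i := by
      rcases hz i with rfl | rfl | rfl | rfl | rfl
      · rw [q0]; exact k0
      · rw [q1]; exact k1
      · rw [q2]; exact k2
      · rw [q3]; exact k3
      · rw [q4]; exact k4
    show a i = u i + (a i - u i)
    omega
  · intro i
    rcases hz i with rfl | rfl | rfl | rfl | rfl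
    · simp only [lam, e1, e2, q0, q1, q3]; omega
    · simp only [lam, e3, e4, q1, q2, q4]; omega
    · simp only [lam, e5, e6, q2, q3, q0]; omega
    · simp only [lam, e7, e8, q3, q4, q1]; omega
    · simp only [lam, e9, e10, q4, q0, q2]; omega
  · intro i
    rcases hz i with rfl | rfl | rfl | rfl | rfl
    · simp only [lam, e1, e2, q0, q1, q3]; omega
    · simp only [lam, e3, e4, q1, q2, q4]; omega
    · simp only [lam, e5, e6, q2, q3, q0]; omega
    · simp only [lam, e7, e8, q3, q4, q1]; omega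
    · simp only [lam, e9, e10, q4, q0, q2]; omega

variable {k L : Type} [Field k] [Field L] [Algebra k L]

theorem QD.gen1 (Q : QD k L) : Gen1 Q.D := by
  intro n hn
  obtain ⟨m, rfl⟩ := Int.eq_ofNat_of_zero_le hn
  refine Submodule.span_le.2 ?_
  rintro l ⟨a, ha, rfl⟩
  obtain ⟨u, v, rfl, hu, hv⟩ := two_factor a m ha
  have : mon Q.q (u + v) = mon Q.q u * mon Q.q v := by
    simp [mon, pow_add, Finset.prod_mul_distrib]
  rw [this]
  exact Submodule.mul_mem_mul (Submodule.subset_span ⟨u, hu, rfl⟩)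
    (Submodule.subset_span ⟨v, hv, rfl⟩)

end Ex

end R169
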