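import Crest.Agent.R169.ExDefs

/-!
# Row 169, module EX: basic lemmas about exponents, rewriting to standard monomials (helper71).
-/

set_option autoImplicit false

namespace R169

namespace Ex

section mon

variable {S : Type} [CommSemiring S]

theorem mon_add (q : ZMod 5 → S) (a b : Ev) : mon q (a + b) = mon q a * mon q b := by
  unfold mon
  rw [← Finset.prod_mul_distrib]
  exact Finset.prod_congr rfl fun i _ => pow_add _ _ _

theorem mon_zero (q : ZMod 5 → S) : mon q 0 = 1 := by
  unfold mon; simp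

theorem mon_single (q : ZMod 5 → S) (i : ZMod 5) (n : ℕ) : mon q (Pi.single i n) = q i ^ n := by
  unfold mon
  rw [Finset.prod_eq_single i]
  · rw [Pi.single_eq_same]
  · intro j _ hj
    rw [Pi.single_eq_of_ne hj, pow_zero]
  · intro h
    exact absurd (Finset.mem_univ i) h

theorem mon_five (q : ZMod 5 → S) (a : Ev) :
    mon q a = q 0 ^ a 0 * q 1 ^ a 1 * q 2 ^ a 2 * q 3 ^ a 3 * q 4 ^ a 4 :=
  Fin.prod_univ_five (fun i : Fin 5 => q i ^ a i)

end mon

theorem lam_add (a b : Ev) (i : ZMod 5) : lam (a + b) i = lam a i + lam b i := by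
  unfold lam; simp only [Pi.add_apply]; push_cast; ring

theorem lam_zero (i : ZMod 5) : lam 0 i = 0 := by unfold lam; simp

/-- sums over `ZMod 5` -/
theorem sum5 {M : Type} [AddCommMonoid M] (f : ZMod 5 → M) :
    ∑ i, f i = f 0 + f 1 + f 2 + f 3 + f 4 := Fin.sum_univ_five (fun i : Fin 5 => f i)

theorem forall5 {p : ZMod 5 → Prop} : (∀ i, p i) ↔ p 0 ∧ p 1 ∧ p 2 ∧ p 3 ∧ p 4 := by
  constructor
  · intro h; exact ⟨h 0, h 1, h 2, h 3, h 4⟩
  · rintro ⟨h0, h1, h2, h3, h4⟩ i
    fin_cases i <;> assumption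

theorem lam0 (a : Ev) : lam a 0 = a 0 + a 1 - a 3 := rfl
theorem lam1 (a : Ev) : lam a 1 = a 1 + a 2 - a 4 := rfl
theorem lam2 (a : Ev) : lam a 2 = a 2 + a 3 - a 0 := rfl
theorem lam3 (a : Ev) : lam a 3 = a 3 + a 4 - a 1 := rfl
theorem lam4 (a : Ev) : lam a 4 = a 4 + a 0 - a 2 := rfl

theorem std_iff (a : Ev) : Std a ↔ (a 4 < 7 ∨ a 1 < 7) ∧ (a 0 < 7 ∨ a 2 < 7) ∧
    (a 1 < 7 ∨ a 3 < 7) ∧ (a 2 < 7 ∨ a 4 < 7) ∧ (a 3 < 7 ∨ a 0 < 7) := by
  unfold Std
  exact forall5 (p := fun i => a (i - 1) < 7 ∨ a (i + 1) < 7)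

theorem sum_lam (a : Ev) : ∑ i, lam a i = ∑ i, (a i : ℤ) := by
  rw [sum5, sum5, lam0, lam1, lam2, lam3, lam4]; ring

/-- the relation exponents: `7 e_{i-1} + 7 e_{i+1}` -/
def e7 (i : ZMod 5) : Ev := Pi.single (i - 1) 7 + Pi.single (i + 1) 7

theorem sum_e7 (i : ZMod 5) : ∑ j, e7 i j = 14 := by
  unfold e7
  simp [Finset.sum_add_distrib]

theorem lam_e7_nonneg (i j : ZMod 5) : 0 ≤ lam (e7 i) j := by
  revert i j; decide

theorem lam_e7_ge (i j : ZMod 5) : lam (Pi.single i 7) j ≤ lam (e7 i) j := by
  revert i j; decide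

theorem exists_red (n : ℕ) : ∀ a : Ev, ∑ i, a i = n → ∃ r : Ev →₀ ℤ,
    (∀ c ∈ r.support, Std c ∧ ∀ j, lam c j ≤ lam a j) ∧
    ∀ (R : Type) [CommRing R] (x : ZMod 5 → R), Rel x →
      mon x a = r.sum fun c z => (z : R) * mon x c := by
  classical
  induction n using Nat.strong_induction_on with
  | _ n ih =>
    intro a ha
    by_cases hs : Std a
    · refine ⟨Finsupp.single a 1, ?_, ?_⟩
      · intro c hc
        rw [Finsupp.support_single _ (by norm_num), Finset.mem_singleton] at hc
        subst hc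
        exact ⟨hs, fun j => le_rfl⟩
      · intro R _ x _
        rw [Finsupp.sum_single_index]
        · simp
        · simp
    · unfold Std at hs
      push Not at hs
      obtain ⟨i, h1, h2⟩ := hs
      have hne : ∀ i : ZMod 5, i - 1 ≠ i + 1 := by decide
      obtain ⟨b, rfl⟩ : ∃ b : Ev, a = b + e7 i := by
        refine ⟨fun j => a j - e7 i j, ?_⟩
        funext j
        simp only [Pi.add_apply]
        have : e7 i j ≤ a j := by
          unfold e7
          simp only [Pi.add_apply]
          by_cases hj1 : j = i - 1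
          · subst hj1
            rw [Pi.single_eq_same, Pi.single_eq_of_ne (hne i)]
            omega
          · by_cases hj2 : j = i + 1
            · subst hj2
              rw [Pi.single_eq_same, Pi.single_eq_of_ne (Ne.symm (hne i))]
              omega
            · rw [Pi.single_eq_of_ne hj1, Pi.single_eq_of_ne hj2]
              omega
        omega
      have hsum : ∑ j, b j + 14 = n := by
        rw [← ha, ← sum_e7 i, ← Finset.sum_add_distrib]
        rfl
      obtain ⟨r1, hr1, he1⟩ := ih (∑ j, b j) (by omega) b rfl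
      have hsum2 : ∑ j, (b + (Pi.single i 7 : Ev)) j = ∑ j, b j + 7 := by
        simp only [Pi.add_apply, Finset.sum_add_distrib]
        simp
      obtain ⟨r2, hr2, he2⟩ := ih (∑ j, b j + 7) (by omega) (b + (Pi.single i 7 : Ev)) hsum2
      refine ⟨r1 + r2, ?_, ?_⟩
      · intro c hc
        rcases Finset.mem_union.1 (Finsupp.support_add hc) with h | h
        · refine ⟨(hr1 c h).1, fun j => ((hr1 c h).2 j).trans ?_⟩
          rw [lam_add]
          have := lam_e7_nonneg i j
          omega
        · refine ⟨(hr2 c h).1, fun j => ((hr2 c h).2 j).trans ?_⟩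
          rw [lam_add, lam_add]
          have := lam_e7_ge i j
          omega
      · intro R _ x hx
        have e : mon x (e7 i) = 1 + x i ^ 7 := by
          unfold e7
          rw [mon_add, mon_single, mon_single, hx i]
        rw [mon_add, e, mul_add, mul_one, ← mon_single x i 7, ← mon_add, he1 R x hx, he2 R x hx,
          Finsupp.sum_add_index']
        · intro c; simp
        · intro c z1 z2; push_cast; ring

/-- normal form of a monomial: integer combination of standard monomials -/
noncomputable def red (a : Ev) : Ev →₀ ℤ := (exists_red _ a rfl).choose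

theorem red_std {a c : Ev} (h : c ∈ (red a).support) : Std c :=
  ((exists_red _ a rfl).choose_spec.1 c h).1

theorem red_lam {a c : Ev} (h : c ∈ (red a).support) (j : ZMod 5) : lam c j ≤ lam a j :=
  ((exists_red _ a rfl).choose_spec.1 c h).2 j

theorem red_eval (a : Ev) {R : Type} [CommRing R] (x : ZMod 5 → R) (hx : Rel x) :
    mon x a = (red a).sum fun c z => (z : R) * mon x c :=
  (exists_red _ a rfl).choose_spec.2 R x hx

end Ex

end R169
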