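import Crest.Agent.R169.ExCountD

/-!
# Row 169, module EX: rotation of a QD structure (helper57)
-/

set_option autoImplicit false

namespace R169

namespace Ex

/-- rotation of exponents -/
def rotE (j : ZMod 5) (a : Ev) : Ev := fun i => a (i + j)

theorem lam_rotE (j : ZMod 5) (a : Ev) (i : ZMod 5) : lam (rotE j a) i = lam a (i + j) := by
  unfold lam rotE
  rw [show i + 1 + j = i + j + 1 by ring, show i + 3 + j = i + j + 3 by ring]

theorem std_rotE {a : Ev} (h : Std a) (j : ZMod 5) : Std (rotE j a) := by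
  intro i
  have := h (i + j)
  unfold rotE
  rwa [show i - 1 + j = i + j - 1 by ring, show i + 1 + j = i + j + 1 by ring]

theorem rotE_rotE (i j : ZMod 5) (a : Ev) : rotE i (rotE j a) = rotE (i + j) a := by
  funext m
  unfold rotE
  rw [add_assoc]

theorem rotE_zero (a : Ev) : rotE 0 a = a := by
  funext m
  unfold rotE
  rw [add_zero]

theorem mon_rotE {S : Type} [CommSemiring S] (q : ZMod 5 → S) (j : ZMod 5) (a : Ev) :
    mon (fun i => q (i + j)) a = mon q (rotE (-j) a) := by
  unfold mon rotE
  refine Fintype.prod_equiv (Equiv.addRight j) _ _ fun i => ?_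
  simp

variable {k L : Type} [Field k] [Field L] [Algebra k L]

/-- rotation -/
def QD.rot (Q : QD k L) (j : ZMod 5) : QD k L where
  q i := Q.q (i + j)
  rel i := by
    have := Q.rel (i + j)
    show Q.q (i - 1 + j) ^ 7 * Q.q (i + 1 + j) ^ 7 = 1 + Q.q (i + j) ^ 7
    rwa [show i - 1 + j = i + j - 1 by ring, show i + 1 + j = i + j + 1 by ring]
  indep := by
    have h := Q.indep.comp (fun a : {a : Ev // Std a} => (⟨rotE (-j) a.1, std_rotE a.2 _⟩ : {a : Ev // Std a}))
      (fun a b hab => by
        have h1 := congrArg (fun x : {a : Ev // Std a} => rotE j x.1) hab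
        simp only [rotE_rotE, add_neg_cancel, rotE_zero] at h1
        exact Subtype.ext h1)
    have e : ((fun a : {a : Ev // Std a} => mon Q.q a.1) ∘
        fun a : {a : Ev // Std a} => (⟨rotE (-j) a.1, std_rotE a.2 _⟩ : {a : Ev // Std a})) =
        fun a : {a : Ev // Std a} => mon (fun i => Q.q (i + j)) a.1 := by
      funext a
      exact (mon_rotE Q.q j a.1).symm
    rwa [e] at h
  frac := by
    have e : Set.range (fun i => Q.q (i + j)) = Set.range Q.q :=
      (Equiv.addRight j).surjective.range_comp Q.q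
    rw [e]
    exact Q.frac

theorem QD.rot_q (Q : QD k L) (j i : ZMod 5) : (Q.rot j).q i = Q.q (i + j) := rfl

theorem QD.rot_BU (Q : QD k L) (j : ZMod 5) : (Q.rot j).BU = Q.BU := by
  have e : Set.range (fun i => Q.q (i + j)) = Set.range Q.q :=
    (Equiv.addRight j).surjective.range_comp Q.q
  show Algebra.adjoin k (Set.range fun i => Q.q (i + j)) = _
  rw [e]
  rfl

theorem QD.rot_Bn (Q : QD k L) (j : ZMod 5) (n : ℤ) : (Q.rot j).Bn n = Q.Bn n := by
  unfold QD.Bn
  congr 1
  ext l
  constructor
  · rintro ⟨a, ha, rfl⟩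
    refine ⟨rotE (-j) a, fun i => ?_, mon_rotE Q.q j a⟩
    rw [lam_rotE]
    exact ha _
  · rintro ⟨a, ha, rfl⟩
    refine ⟨rotE j a, fun i => ?_, ?_⟩
    · rw [lam_rotE]; exact ha _
    · show _ = mon (fun i => Q.q (i + j)) _
      rw [mon_rotE, rotE_rotE, neg_add_cancel, rotE_zero]

end Ex

end R169
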