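import Crest.Agent.R169.FinB
import Crest.Agent.R169.LatAPI

/-!
# R169 FIN piece FA1: `pT : k[x,y,z] → T` on homogeneous polynomials; injectivity.

`pT_coe`: `MvPolynomial.aeval (xyz D hP) F` for `F` homogeneous of degree `n`: both sides are linear in `F`,
for a monomial `c x^a y^b z^c` (a+b+c = n) it is `(tm 1 1)^a (tm 1 η)^b (tm 1 ζ)^c = monomial n (1^a η^b ζ^c)`.
(`F.support.sum`, `MvPolynomial.aeval_def`/`eval₂_eq`; or `MvPolynomial.induction_on` is not convenient,
use `F = ∑ m ∈ F.support, monomial m (coeff m F)` and `IsHomogeneous`.)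
`pT_injective`: if `pT F = 0` then coefficient `n` of `pT F = ∑ pT (F_n)` is `ev (F_n) = 0`, so `F_n = 0` by `ev_inj`
(LatAPI) for every homogeneous component.
-/

set_option autoImplicit false

namespace R169

open Polynomial

variable {k L : Type} [Field k] [Field L] [Algebra k L]
variable (D : GD k L) {η ζ : L} (hP : Par D η ζ)

theorem pT_val (F : MvPolynomial (Fin 3) k) : ((pT D hP F : T D) : L[X]) =
    MvPolynomial.aeval (fun i => Polynomial.monomial 1 ((![1, η, ζ] : Fin 3 → L) i)) F := by
  have h : (T D).val.comp (pT D hP) =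
      MvPolynomial.aeval (fun i => Polynomial.monomial 1 ((![1, η, ζ] : Fin 3 → L) i)) := by
    apply MvPolynomial.algHom_ext
    intro i
    rw [AlgHom.comp_apply, pT, MvPolynomial.aeval_X, MvPolynomial.aeval_X]
    fin_cases i <;> rfl
  exact congrArg (fun f : MvPolynomial (Fin 3) k →ₐ[k] L[X] => f F) h

theorem pT_coe_of_homog {n : ℕ} {F : MvPolynomial (Fin 3) k} (hF : F.IsHomogeneous n) :
    ((pT D hP F : T D) : L[X]) = Polynomial.monomial n (ev η ζ F) := by
  rw [pT_val, ev, MvPolynomial.aeval_def, MvPolynomial.eval₂_eq', MvPolynomial.aeval_def,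
    MvPolynomial.eval₂_eq', map_sum]
  refine Finset.sum_congr rfl fun d hd => ?_
  have hd' : ∑ i, d i = n := by
    have h1 := hF (MvPolynomial.mem_support_iff.1 hd)
    rw [Finsupp.weight_apply, Finsupp.sum_fintype _ _ (by simp)] at h1
    simpa using h1
  have h2 : ∏ i, (Polynomial.monomial 1 ((![1, η, ζ] : Fin 3 → L) i)) ^ d i =
      Polynomial.monomial n (∏ i, ((![1, η, ζ] : Fin 3 → L) i) ^ d i) := by
    simp only [Polynomial.monomial_pow, one_mul]
    rw [← hd', Fin.sum_univ_three, Fin.prod_univ_three, Fin.prod_univ_three,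
      Polynomial.monomial_mul_monomial, Polynomial.monomial_mul_monomial]
  rw [h2, Polynomial.algebraMap_apply, Polynomial.C_mul_monomial]

theorem pT_coeff (n : ℕ) (F : MvPolynomial (Fin 3) k) :
    ((pT D hP F : T D) : L[X]).coeff n = ev η ζ (MvPolynomial.homogeneousComponent n F) := by
  have h1 : ((pT D hP F : T D) : L[X]) = ∑ i ∈ Finset.range (F.totalDegree + 1),
      Polynomial.monomial i (ev η ζ (MvPolynomial.homogeneousComponent i F)) := by
    conv_lhs => rw [← MvPolynomial.sum_homogeneousComponent F]
    rw [map_sum, AddSubmonoidClass.coe_finset_sum]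
    exact Finset.sum_congr rfl fun i _ =>
      pT_coe_of_homog D hP (MvPolynomial.homogeneousComponent_isHomogeneous i F)
  rw [h1, Polynomial.finset_sum_coeff]
  simp only [Polynomial.coeff_monomial]
  rw [Finset.sum_ite_eq']
  split_ifs with h
  · rfl
  · rw [MvPolynomial.homogeneousComponent_eq_zero n F (by
      rw [Finset.mem_range] at h; omega)]
    simp [ev]

theorem pT_injective : Function.Injective (pT D hP) := by
  rw [injective_iff_map_eq_zero]
  intro F hF
  rw [← MvPolynomial.sum_homogeneousComponent F]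
  refine Finset.sum_eq_zero fun n _ => ?_
  refine ev_inj hP.indep (MvPolynomial.homogeneousComponent_isHomogeneous n F) ?_
  rw [← pT_coeff D hP n F, hF]
  simp

end R169
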