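import Crest.Agent.R169.FinB
import Crest.Agent.R169.LatAPI

/-!
# R169 FIN piece FB0: `B_n = ∑_i A_{n-d_i} b_i` for finitely many `b_i ∈ B_{d_i}`.

Take `n1` from `hP.gen` (w.l.o.g. a natural number), the `b_i` = the union of finite spanning sets (bases) of
`B 0, …, B n1` (each `b_i ∈ B d_i` counted with its degree `d_i`). For `n ≤ n1` the statement is clear with
`c_i ∈ A 0 = k·1` for the `i` with `d_i = n` and `c_i = 0` otherwise (`0 ∈ A m` always, also for `m < 0`).
For `n ≥ n1`, induction: `B (n+1) ≤ B n ⊔ sm η (B n) ⊔ sm ζ (B n)` and `A m ⊔ η A m ⊔ ζ A m ≤ A (m+1)`.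
-/

set_option autoImplicit false

namespace R169

variable {k L : Type} [Field k] [Field L] [Algebra k L]
variable (D : GD k L) {η ζ : L} (hP : Par D η ζ)

theorem fA_mono' {m n : ℤ} (h : m ≤ n) : A k η ζ m ≤ A k η ζ n := by
  apply Submodule.span_mono
  rintro l ⟨a, b, hab, rfl⟩
  exact ⟨a, b, hab.trans h, rfl⟩

theorem fA_neg {n : ℤ} (h : n < 0) : A k η ζ n = ⊥ := by
  unfold A
  have : {l : L | ∃ a b : ℕ, (a : ℤ) + b ≤ n ∧ l = η ^ a * ζ ^ b} = ∅ := by
    rw [Set.eq_empty_iff_forall_notMem]
    rintro l ⟨a, b, hab, _⟩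
    omega
  rw [this, Submodule.span_empty]

theorem fb0_eta_mul {m : ℤ} {c : L} (hc : c ∈ A k η ζ m) : η * c ∈ A k η ζ (m + 1) := by
  unfold A at hc
  induction hc using Submodule.span_induction with
  | mem x hx =>
    obtain ⟨a, b, hab, rfl⟩ := hx
    apply Submodule.subset_span
    refine ⟨a + 1, b, by push_cast; omega, ?_⟩
    rw [pow_succ]
    ring
  | zero =>
    rw [mul_zero]
    exact Submodule.zero_mem _
  | add x y _ _ hx hy =>
    rw [mul_add]
    exact Submodule.add_mem _ hx hy
  | smul r x _ hx =>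
    rw [mul_smul_comm]
    exact Submodule.smul_mem _ _ hx

theorem fb0_zeta_mul {m : ℤ} {c : L} (hc : c ∈ A k η ζ m) : ζ * c ∈ A k η ζ (m + 1) := by
  unfold A at hc
  induction hc using Submodule.span_induction with
  | mem x hx =>
    obtain ⟨a, b, hab, rfl⟩ := hx
    apply Submodule.subset_span
    refine ⟨a, b + 1, by push_cast; omega, ?_⟩
    rw [pow_succ]
    ring
  | zero =>
    rw [mul_zero]
    exact Submodule.zero_mem _
  | add x y _ _ hx hy =>
    rw [mul_add]
    exact Submodule.add_mem _ hx hy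
  | smul r x _ hx =>
    rw [mul_smul_comm]
    exact Submodule.smul_mem _ _ hx

/-- `∑_i A_{n - d_i} b_i` -/
def FB0M (k : Type) {L : Type} [Field k] [Field L] [Algebra k L] (η ζ : L) {ι : Type} [Fintype ι] (d : ι → ℕ)
    (b : ι → L) (n : ℤ) : Submodule k L where
  carrier := {l | ∃ c : ι → L, (∀ i, c i ∈ A k η ζ (n - d i)) ∧ l = ∑ i, c i * b i}
  add_mem' := by
    rintro x y ⟨c, hc, rfl⟩ ⟨c', hc', rfl⟩
    refine ⟨c + c', fun i => Submodule.add_mem _ (hc i) (hc' i), ?_⟩
    rw [← Finset.sum_add_distrib]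
    apply Finset.sum_congr rfl
    intro i _
    rw [Pi.add_apply, add_mul]
  zero_mem' := ⟨0, fun i => Submodule.zero_mem _, by simp⟩
  smul_mem' := by
    rintro r x ⟨c, hc, rfl⟩
    refine ⟨r • c, fun i => Submodule.smul_mem _ _ (hc i), ?_⟩
    rw [Finset.smul_sum]
    apply Finset.sum_congr rfl
    intro i _
    rw [Pi.smul_apply, smul_mul_assoc]

include hP in
theorem B_eq_sum : ∃ (r : ℕ) (d : Fin r → ℕ) (b : Fin r → L), (∀ i, b i ∈ D.B (d i)) ∧
    ∀ (n : ℕ) (l : L), l ∈ D.B n → ∃ c : Fin r → L,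
      (∀ i, c i ∈ A k η ζ ((n : ℤ) - d i)) ∧ l = ∑ i, c i * b i := by
  classical
  obtain ⟨n1, hn1⟩ := hP.gen
  set N1 : ℕ := n1.toNat with hN1
  haveI := D.fin
  -- index set
  let ι : Type := Σ j : Fin (N1 + 1), Fin (Module.finrank k (D.B ((j : ℕ) : ℤ)))
  let d : ι → ℕ := fun x => (x.1 : ℕ)
  let b : ι → L := fun x => ((Module.finBasis k (D.B ((x.1 : ℕ) : ℤ)) x.2 : D.B ((x.1 : ℕ) : ℤ)) : L)
  have hb : ∀ x, b x ∈ D.B (d x) := fun x =>
    (Module.finBasis k (D.B ((x.1 : ℕ) : ℤ)) x.2 : D.B ((x.1 : ℕ) : ℤ)).2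
  have h1A : (1 : L) ∈ A k η ζ 0 := Submodule.subset_span ⟨0, 0, by norm_num, by simp⟩
  -- the claim on submodules
  have hmain : ∀ n : ℕ, D.B (n : ℤ) ≤ FB0M k η ζ d b (n : ℤ) := by
    intro n
    by_cases hn : n ≤ N1
    · intro l hl
      have hj : n < N1 + 1 := by omega
      have hsum := (Module.finBasis k (D.B (n : ℤ))).sum_repr ⟨l, hl⟩
      have hl' : l = ∑ i, ((Module.finBasis k (D.B (n : ℤ))).repr ⟨l, hl⟩ i) •
          ((Module.finBasis k (D.B (n : ℤ)) i : D.B (n : ℤ)) : L) := by
        have h := congrArg (fun y : D.B (n : ℤ) => (y : L)) hsum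
        simp only [Submodule.coe_sum] at h
        exact h.symm
      rw [hl']
      apply Submodule.sum_mem
      intro i _
      apply Submodule.smul_mem
      refine ⟨Pi.single (⟨⟨n, hj⟩, i⟩ : ι) (1 : L), ?_, ?_⟩
      · intro x
        by_cases hx : x = (⟨⟨n, hj⟩, i⟩ : ι)
        · subst hx
          rw [Pi.single_eq_same]
          have e : ((n : ℤ) - (d (⟨⟨n, hj⟩, i⟩ : ι) : ℤ)) = 0 := sub_self _
          rw [e]
          exact h1A
        · rw [Pi.single_eq_of_ne hx]
          exact Submodule.zero_mem _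
      · rw [Finset.sum_eq_single (⟨⟨n, hj⟩, i⟩ : ι)]
        · rw [Pi.single_eq_same, one_mul]
        · intro x _ hx
          rw [Pi.single_eq_of_ne hx, zero_mul]
        · intro h
          exact absurd (Finset.mem_univ _) h
    · -- induction
      have hN : N1 ≤ n := by omega
      clear hn
      induction n, hN using Nat.le_induction with
      | base =>
        -- same argument as above
        intro l hl
        have hj : N1 < N1 + 1 := by omega
        have hsum := (Module.finBasis k (D.B (N1 : ℤ))).sum_repr ⟨l, hl⟩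
        have hl' : l = ∑ i, ((Module.finBasis k (D.B (N1 : ℤ))).repr ⟨l, hl⟩ i) •
            ((Module.finBasis k (D.B (N1 : ℤ)) i : D.B (N1 : ℤ)) : L) := by
          have h := congrArg (fun y : D.B (N1 : ℤ) => (y : L)) hsum
          simp only [Submodule.coe_sum] at h
          exact h.symm
        rw [hl']
        apply Submodule.sum_mem
        intro i _
        apply Submodule.smul_mem
        refine ⟨Pi.single (⟨⟨N1, hj⟩, i⟩ : ι) (1 : L), ?_, ?_⟩
        · intro x
          by_cases hx : x = (⟨⟨N1, hj⟩, i⟩ : ι)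
          · subst hx
            rw [Pi.single_eq_same]
            have e : ((N1 : ℤ) - (d (⟨⟨N1, hj⟩, i⟩ : ι) : ℤ)) = 0 := sub_self _
            rw [e]
            exact h1A
          · rw [Pi.single_eq_of_ne hx]
            exact Submodule.zero_mem _
        · rw [Finset.sum_eq_single (⟨⟨N1, hj⟩, i⟩ : ι)]
          · rw [Pi.single_eq_same, one_mul]
          · intro x _ hx
            rw [Pi.single_eq_of_ne hx, zero_mul]
          · intro h
            exact absurd (Finset.mem_univ _) h
      | succ n hn ih =>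
        have h1 : n1 ≤ (n : ℤ) := by
          have := Int.self_le_toNat n1
          omega
        have h2 := hn1 (n : ℤ) h1
        have e : (((n + 1 : ℕ) : ℤ)) = (n : ℤ) + 1 := by push_cast; rfl
        rw [e]
        refine h2.trans (sup_le (sup_le ?_ ?_) ?_)
        · refine ih.trans ?_
          rintro l ⟨c, hc, rfl⟩
          exact ⟨c, fun i => fA_mono' (by omega) (hc i), rfl⟩
        · rintro l ⟨y, hy, rfl⟩
          obtain ⟨c, hc, rfl⟩ := ih hy
          refine ⟨fun i => η * c i, fun i => ?_, ?_⟩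
          · have := fb0_eta_mul (hc i)
            have e2 : (n : ℤ) + 1 - (d i : ℤ) = (n : ℤ) - (d i : ℤ) + 1 := by ring
            rw [e2]
            exact this
          · show η • (∑ i, c i * b i) = _
            rw [smul_eq_mul, Finset.mul_sum]
            apply Finset.sum_congr rfl
            intro i _
            rw [mul_assoc]
        · rintro l ⟨y, hy, rfl⟩
          obtain ⟨c, hc, rfl⟩ := ih hy
          refine ⟨fun i => ζ * c i, fun i => ?_, ?_⟩
          · have := fb0_zeta_mul (hc i)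
            have e2 : (n : ℤ) + 1 - (d i : ℤ) = (n : ℤ) - (d i : ℤ) + 1 := by ring
            rw [e2]
            exact this
          · show ζ • (∑ i, c i * b i) = _
            rw [smul_eq_mul, Finset.mul_sum]
            apply Finset.sum_congr rfl
            intro i _
            rw [mul_assoc]
  let eqv := Fintype.equivFin ι
  refine ⟨Fintype.card ι, fun i => d (eqv.symm i), fun i => b (eqv.symm i), fun i => hb _, ?_⟩
  intro n l hl
  obtain ⟨c, hc, he⟩ := hmain n hl
  refine ⟨fun i => c (eqv.symm i), fun i => hc _, ?_⟩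
  rw [he]
  exact (Equiv.sum_comp eqv.symm (fun x => c x * b x)).symm

end R169
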