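import Crest.Agent.R169.FA1
import Crest.Agent.R169.FB0

/-!
# R169 FIN piece FA2: `T` is a finite `k[x,y,z]`-module, hence finitely generated over `k` and Noetherian.

`pT_finite`: with `B_eq_sum` (FB0): the elements `tm D (d i) (b i)` span `T` over `k[x,y,z]` (through `pT`): every
`f ∈ T` is the finite sum of its homogeneous parts `tm D n (coeff n f)`, and `coeff n f = ∑ c_i b_i` with
`c_i ∈ A (n - d_i)`; `c_i = ev F_i`, `F_i` homogeneous of degree `n - d_i` (`mem_A_iff` from LatAPI; if `n < d_i`
then `c_i = 0` by `fA_neg`), and `pT F_i * tm (d i) (b i) = tm n (c_i b_i)` by `pT_coe_of_homog`.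
-/

set_option autoImplicit false

namespace R169

open Polynomial

variable {k L : Type} [Field k] [Field L] [Algebra k L]
variable (D : GD k L) {η ζ : L} (hP : Par D η ζ)

theorem pT_finite : (pT D hP).toRingHom.Finite := by
  obtain ⟨r, d, b, hb, hB⟩ := B_eq_sum D hP
  letI : Algebra (MvPolynomial (Fin 3) k) (T D) := (pT D hP).toRingHom.toAlgebra
  have hsm : ∀ (F : MvPolynomial (Fin 3) k) (g : T D), F • g = pT D hP F * g := fun F g => rfl
  have key : ∀ (n : ℕ) (g : T D) (l : L), l ∈ D.B n → (g : L[X]) = Polynomial.monomial n l →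
      g ∈ Submodule.span (MvPolynomial (Fin 3) k)
        (Set.range fun i => tm D (d i) (b i) (hb i)) := by
    intro n g l hl hg
    obtain ⟨c, hc, hlc⟩ := hB n l hl
    have hF : ∀ i, ∃ F : MvPolynomial (Fin 3) k,
        ((pT D hP F * tm D (d i) (b i) (hb i) : T D) : L[X]) =
          Polynomial.monomial n (c i * b i) := by
      intro i
      by_cases hd : d i ≤ n
      · have h1 : c i ∈ A k η ζ ((n - d i : ℕ) : ℤ) := by
          rw [Nat.cast_sub hd]; exact hc i
        obtain ⟨F, hF1, hF2⟩ := (mem_A_iff (k := k) (η := η) (ζ := ζ) (n - d i) (c i)).1 h1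
        refine ⟨F, ?_⟩
        rw [Subalgebra.coe_mul, pT_coe_of_homog D hP hF1, hF2]
        change Polynomial.monomial (n - d i) (c i) * Polynomial.monomial (d i) (b i) = _
        rw [Polynomial.monomial_mul_monomial, Nat.sub_add_cancel hd]
      · have h1 := hc i
        rw [fA_neg (k := k) (η := η) (ζ := ζ) (by omega), Submodule.mem_bot] at h1
        refine ⟨0, ?_⟩
        rw [map_zero, zero_mul, h1, zero_mul, map_zero]
        rfl
    choose F hF using hF
    have hsum : g = ∑ i, F i • tm D (d i) (b i) (hb i) := by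
      apply Subtype.ext
      rw [hg, hlc, map_sum]
      have h2 : ((∑ i, F i • tm D (d i) (b i) (hb i) : T D) : L[X]) =
          ∑ i, ((F i • tm D (d i) (b i) (hb i) : T D) : L[X]) := by
        exact map_sum (T D).val (fun i => F i • tm D (d i) (b i) (hb i)) Finset.univ
      rw [h2]
      refine Finset.sum_congr rfl fun i _ => ?_
      rw [hsm, hF i]
    rw [hsum]
    exact Submodule.sum_mem _ fun i _ =>
      Submodule.smul_mem _ _ (Submodule.subset_span ⟨i, rfl⟩)
  have hfin : Module.Finite (MvPolynomial (Fin 3) k) (T D) := by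
    refine ⟨⟨(Set.finite_range fun i => tm D (d i) (b i) (hb i)).toFinset, ?_⟩⟩
    rw [Set.Finite.coe_toFinset, eq_top_iff]
    intro f _
    have hf : f = ∑ n ∈ (f : L[X]).support, tm D n ((f : L[X]).coeff n) (f.2 n) := by
      apply Subtype.ext
      have h2 : ((∑ n ∈ (f : L[X]).support, tm D n ((f : L[X]).coeff n) (f.2 n) : T D) : L[X]) =
          ∑ n ∈ (f : L[X]).support, ((tm D n ((f : L[X]).coeff n) (f.2 n) : T D) : L[X]) := by
        exact map_sum (T D).val (fun n => tm D n ((f : L[X]).coeff n) (f.2 n)) _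
      rw [h2]
      exact (f : L[X]).as_sum_support
    rw [hf]
    exact Submodule.sum_mem _ fun n _ => key n _ ((f : L[X]).coeff n) (f.2 n) rfl
  exact hfin

include hP in
theorem T_finiteType : Algebra.FiniteType k (T D) := by
  have h1 : (pT D hP).toRingHom.FiniteType := (pT_finite D hP).finiteType
  have h2 : (algebraMap k (MvPolynomial (Fin 3) k)).FiniteType :=
    RingHom.finiteType_algebraMap.2 inferInstance
  have h3 := h1.comp h2
  have h4 : ((pT D hP).toRingHom).comp (algebraMap k (MvPolynomial (Fin 3) k)) =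
      algebraMap k (T D) := (pT D hP).comp_algebraMap
  rw [h4] at h3
  exact RingHom.finiteType_algebraMap.1 h3

include hP in
theorem T_noetherian : IsNoetherianRing (T D) := by
  haveI := T_finiteType D hP
  exact Algebra.FiniteType.isNoetherianRing k (T D)

end R169
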