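import Crest.Agent.R169.FinB
import Crest.Agent.R169.LatAPI

/-!
# R169 FIN piece FA3: the irrelevant ideal.

* `T / irr ≅ k`: `coeff 0 f ∈ B 0 = k·1` (`D.zero`).
* `irr ^ N ≤ (x,y,z)`: from `hP.gen` (n1 ∈ ℕ w.l.o.g.): `tm n b ∈ (x,y,z)T` for all `n ≥ n1+1`, `b ∈ B n`:
  `b = b0 + η b1 + ζ b2`, `b_i ∈ B (n-1)`, `tm n b = x·tm (n-1) b0 + y·tm (n-1) b1 + z·tm (n-1) b2`. So every `f ∈ T`
  whose coefficients of index `< n1+1` vanish lies in `(x,y,z)T`, and `irr^(n1+1)` consists of such `f`.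
-/

set_option autoImplicit false

namespace R169

open Polynomial

variable {k L : Type} [Field k] [Field L] [Algebra k L]
variable (D : GD k L) {η ζ : L} (hP : Par D η ζ)

theorem algebraMap_quot_irr_bijective : Function.Bijective (algebraMap k (T D ⧸ irr D)) := by
  refine ⟨(algebraMap k (T D ⧸ irr D)).injective, ?_⟩
  intro r
  obtain ⟨f, rfl⟩ := Ideal.Quotient.mk_surjective r
  have h := f.2 0
  rw [Nat.cast_zero, D.zero, Submodule.mem_span_singleton] at h
  obtain ⟨c, hc⟩ := h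
  refine ⟨c, ?_⟩
  rw [IsScalarTower.algebraMap_apply k (T D) (T D ⧸ irr D)]
  change Ideal.Quotient.mk (irr D) _ = _
  rw [Ideal.Quotient.mk_eq_mk_iff_sub_mem, mem_irr, Subalgebra.coe_sub, coeff_sub, ← hc]
  change (algebraMap k L[X] c).coeff 0 - _ = 0
  rw [Polynomial.algebraMap_apply, coeff_C_zero, Algebra.algebraMap_eq_smul_one, sub_self]

theorem irr_isMaximal : (irr D).IsMaximal := by
  refine Ideal.Quotient.maximal_of_isField _ ?_
  let e : k ≃+* (T D ⧸ irr D) :=
    RingEquiv.ofBijective (algebraMap k (T D ⧸ irr D)) (algebraMap_quot_irr_bijective D)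
  exact MulEquiv.isField (Field.toIsField k) e.symm.toMulEquiv

theorem xyz_mem_irr (i : Fin 3) : xyz D hP i ∈ irr D := by
  rw [mem_irr]
  fin_cases i
  · change (monomial 1 (1 : L)).coeff 0 = 0
    rw [coeff_monomial, if_neg one_ne_zero]
  · change (monomial 1 η).coeff 0 = 0
    rw [coeff_monomial, if_neg one_ne_zero]
  · change (monomial 1 ζ).coeff 0 = 0
    rw [coeff_monomial, if_neg one_ne_zero]

theorem irr_pow_coeff (N : ℕ) : ∀ f ∈ irr D ^ N, ∀ i, i < N → (f : L[X]).coeff i = 0 := by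
  induction N with
  | zero => intro f _ i hi; omega
  | succ N ih =>
    intro f hf
    rw [pow_succ] at hf
    refine Submodule.mul_induction_on hf ?_ ?_
    · intro a ha b hb i hi
      rw [Subalgebra.coe_mul, coeff_mul]
      refine Finset.sum_eq_zero ?_
      rintro ⟨x, y⟩ hxy
      rw [Finset.HasAntidiagonal.mem_antidiagonal] at hxy
      simp only at hxy ⊢
      by_cases hx : x < N
      · rw [ih a ha x hx, zero_mul]
      · have hy : y = 0 := by omega
        rw [hy, (mem_irr D b).1 hb, mul_zero]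
    · intro a b ha hb i hi
      rw [Subalgebra.coe_add, coeff_add, ha i hi, hb i hi, add_zero]

theorem exists_irr_pow_le : ∃ N : ℕ, irr D ^ N ≤ Ixyz D hP := by
  obtain ⟨n1, h1⟩ := hP.gen
  have hx : tm D 1 1 D.one_mem ∈ Ixyz D hP := Ideal.subset_span ⟨0, rfl⟩
  have hy : tm D 1 η hP.hη ∈ Ixyz D hP := Ideal.subset_span ⟨1, rfl⟩
  have hz : tm D 1 ζ hP.hζ ∈ Ixyz D hP := Ideal.subset_span ⟨2, rfl⟩
  have key : ∀ (n : ℕ), n1 ≤ n → ∀ (b : L) (hb : b ∈ D.B ((n + 1 : ℕ) : ℤ)),
      tm D (n + 1) b hb ∈ Ixyz D hP := by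
    intro n hn b hb
    have h2 := h1 n hn (by simpa using hb)
    rw [Submodule.mem_sup] at h2
    obtain ⟨b', hb', c, hc, rfl⟩ := h2
    rw [Submodule.mem_sup] at hb'
    obtain ⟨b0, hb0, b1', hb1', rfl⟩ := hb'
    obtain ⟨b1, hb1, rfl⟩ := hb1'
    obtain ⟨b2, hb2, rfl⟩ := hc
    have e : tm D (n + 1) _ hb = tm D n b0 hb0 * tm D 1 1 D.one_mem +
        tm D n b1 hb1 * tm D 1 η hP.hη + tm D n b2 hb2 * tm D 1 ζ hP.hζ := by
      apply Subtype.ext
      change monomial (n + 1) (b0 + η • b1 + ζ • b2) = monomial n b0 * monomial 1 1 +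
        monomial n b1 * monomial 1 η + monomial n b2 * monomial 1 ζ
      rw [monomial_mul_monomial, monomial_mul_monomial, monomial_mul_monomial, ← map_add,
        ← map_add]
      congr 1
      simp only [smul_eq_mul]
      ring
    rw [e]
    exact Ideal.add_mem _ (Ideal.add_mem _ (Ideal.mul_mem_left _ _ hx) (Ideal.mul_mem_left _ _ hy))
      (Ideal.mul_mem_left _ _ hz)
  refine ⟨n1.toNat + 1, fun f hf => ?_⟩
  have hc := irr_pow_coeff D _ f hf
  have hsum : f = ∑ n ∈ (f : L[X]).support, tm D n ((f : L[X]).coeff n) (f.2 n) := by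
    apply Subtype.ext
    have h3 : ((∑ n ∈ (f : L[X]).support, tm D n ((f : L[X]).coeff n) (f.2 n) : T D) : L[X]) =
        ∑ n ∈ (f : L[X]).support, monomial n ((f : L[X]).coeff n) := by
      exact map_sum (T D).val (fun n => tm D n ((f : L[X]).coeff n) (f.2 n)) (f : L[X]).support
    rw [h3]
    exact (f : L[X]).as_sum_support
  rw [hsum]
  refine Ideal.sum_mem _ fun n hn => ?_
  have hn1 : n1.toNat + 1 ≤ n := by
    by_contra hlt
    exact (mem_support_iff.1 hn) (hc n (by omega))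
  obtain ⟨n', rfl⟩ : ∃ n', n = n' + 1 := ⟨n - 1, by omega⟩
  exact key n' (by omega) _ _

end R169
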