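import Crest.Agent.R169.FinA

/-!
# R169 FIN piece FA4: the grading of `T`, `(grT D e n) = {f | coeff m f = 0 for m ≠ n}`.

`GradedAlgebra`: `SetLike.GradedMonoid` is a computation of coefficients (`coeff_mul`; an element of `grT n` is
`monomial n a`); the decomposition: `DirectSum.IsInternal` + `chooseDecomposition`.
`irrelevant_eq`: `HomogeneousIdeal.mem_irrelevant_iff`: `GradedRing.proj 𝒜 0 f = 0`; if `f = ∑ f_n` then
`coeff 0 f = coeff 0 f_0` and `f_0 ∈ grT 0` is `C (coeff 0 f_0)`.
-/

set_option autoImplicit false

namespace R169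

open Polynomial

variable {k L : Type} [Field k] [Field L] [Algebra k L]
variable (D : GD k L) {k' : Type} [Field k'] (e : k' →+* k)

theorem fa4_ext {n : ℕ} {f g : T D} (hf : ∀ m, m ≠ n → (f : L[X]).coeff m = 0)
    (hg : ∀ m, m ≠ n → (g : L[X]).coeff m = 0) (h : (f : L[X]).coeff n = (g : L[X]).coeff n) :
    f = g := by
  apply Subtype.ext
  ext m
  by_cases hm : m = n
  · rw [hm, h]
  · rw [hf m hm, hg m hm]

theorem fa4_coeff :
    letI := algT D e
    ∀ (x : DirectSum ℕ (fun i => grT D e i)) (m : ℕ),
      ((DirectSum.coeAddMonoidHom (grT D e) x : T D) : L[X]).coeff m =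
        ((x m : T D) : L[X]).coeff m := by
  let _ := algT D e
  intro x m
  induction x using DirectSum.induction_on with
  | zero => simp
  | of i a =>
    rw [DirectSum.coeAddMonoidHom_of]
    by_cases hm : m = i
    · subst hm
      rw [DirectSum.of_eq_same]
    · rw [DirectSum.of_eq_of_ne _ _ _ hm, a.2 m hm]
      simp
  | add x y hx hy =>
    rw [map_add, DirectSum.add_apply]
    simp only [Subalgebra.coe_add, Submodule.coe_add, coeff_add]
    rw [hx, hy]

theorem fa4_internal :
    letI := algT D e
    DirectSum.IsInternal (grT D e) := by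
  let _ := algT D e
  constructor
  · intro x y hxy
    refine DFinsupp.ext (fun m => ?_)
    apply Subtype.ext
    apply fa4_ext D (x m).2 (y m).2
    rw [← fa4_coeff D e x m, ← fa4_coeff D e y m, hxy]
  · intro f
    have hmem : ∀ n, tm D n ((f : L[X]).coeff n) (f.2 n) ∈ grT D e n := by
      intro n m hm
      change (monomial n ((f : L[X]).coeff n)).coeff m = 0
      rw [coeff_monomial, if_neg (Ne.symm hm)]
    refine ⟨∑ n ∈ (f : L[X]).support, DirectSum.of (fun i => grT D e i) n
      ⟨tm D n ((f : L[X]).coeff n) (f.2 n), hmem n⟩, ?_⟩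
    rw [map_sum]
    simp only [DirectSum.coeAddMonoidHom_of]
    apply Subtype.ext
    rw [AddSubmonoidClass.coe_finsetSum]
    exact ((f : L[X]).as_sum_support).symm

theorem exists_gradedAlgebra :
    letI := algT D e
    Nonempty (GradedAlgebra (grT D e)) := by
  let _ := algT D e
  have : SetLike.GradedMonoid (grT D e) :=
    { one_mem := by
        intro m hm
        rw [Subalgebra.coe_one, coeff_one, if_neg hm]
      mul_mem := by
        intro i j f g hf hg m hm
        rw [Subalgebra.coe_mul, coeff_mul]
        refine Finset.sum_eq_zero (fun ab hab => ?_)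
        rw [Finset.HasAntidiagonal.mem_antidiagonal] at hab
        by_cases h1 : ab.1 = i
        · have h2 : ab.2 ≠ j := by
            intro h2
            apply hm
            rw [← hab, h1, h2]
          rw [hg _ h2, mul_zero]
        · rw [hf _ h1, zero_mul] }
  exact ⟨{ toGradedMonoid := inferInstance
           toDecomposition := (fa4_internal D e).chooseDecomposition }⟩

theorem irrelevant_eq :
    letI := algT D e
    ∀ [GradedAlgebra (grT D e)], (HomogeneousIdeal.irrelevant (grT D e)).toIdeal = irr D := by
  let _ := algT D e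
  intro inst
  ext f
  have h1 : DirectSum.coeAddMonoidHom (grT D e) (DirectSum.decompose (grT D e) f) = f :=
    DirectSum.Decomposition.left_inv f
  have h2 := fa4_coeff D e (DirectSum.decompose (grT D e) f) 0
  rw [h1] at h2
  rw [mem_irr, h2]
  change f ∈ HomogeneousIdeal.irrelevant (grT D e) ↔ _
  rw [HomogeneousIdeal.mem_irrelevant_iff, GradedRing.proj_apply]
  constructor
  · intro h3
    rw [h3]
    simp
  · intro h3
    apply fa4_ext D (n := 0) (DirectSum.decompose (grT D e) f 0).2
    · intro m _
      simp
    · rw [h3]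
      simp

end R169
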