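import Mathlib

/-!
# R169 FIN piece FG1: Krull dimension and integral extensions (general commutative algebra).

`exists_lift_ltSeries`: by going up (`Ideal.exists_ideal_over_prime_of_isIntegral`, Mathlib.RingTheory.Ideal.GoingUp; there
is also `Mathlib.RingTheory.Ideal.HasGoingUp`): lift the chain `p_0 < … < p_n` step by step, `ker f ≤ p_0`.
(`f.IsIntegral`; use `algebraize [f]`.)
`ringKrullDim_le_of_injective`: take `ker f = ⊥ ≤ p_0`. `ringKrullDim_le_of_isIntegral`: contraction of a strict chain of
primes is strict (`Ideal.IsIntegral.comap_lt_comap` or `Ideal.comap_lt_comap_of_integral_mem_sdiff`).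
-/

set_option autoImplicit false

namespace R169

theorem exists_lift_ltSeries {R S : Type} [CommRing R] [CommRing S] (f : R →+* S) (hf : f.IsIntegral)
    (l : LTSeries (PrimeSpectrum R)) (hker : RingHom.ker f ≤ l.head.asIdeal) :
    ∃ l' : LTSeries (PrimeSpectrum S), l'.length = l.length ∧
      l'.last.asIdeal.comap f = l.last.asIdeal := by
  algebraize [f]
  have : Algebra.IsIntegral R S := ⟨hf⟩
  obtain ⟨Q, -, hQ, hQl⟩ := Ideal.exists_ideal_over_prime_of_isIntegral (S := S) l.head.asIdeal ⊥
    (by rw [← RingHom.ker_eq_comap_bot]; exact hker)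
  have : Q.LiesOver l.head.asIdeal := ⟨hQl.symm⟩
  obtain ⟨L, hL, -, hmap⟩ := Ideal.exists_ltSeries_of_hasGoingUp l Q
  refine ⟨L, hL, ?_⟩
  have h1 := L.getLast_toList
  have h2 := l.getLast_toList
  have h3 : l.toList.getLast l.toList_ne_nil =
      (List.map (PrimeSpectrum.comap (algebraMap R S)) L.toList).getLast
        (by simp [RelSeries.toList]) := by
    simp only [hmap]
  rw [List.getLast_map, h1, h2] at h3
  rw [h3]
  rfl

theorem ringKrullDim_le_of_injective {R S : Type} [CommRing R] [CommRing S] (f : R →+* S)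
    (hf : f.IsIntegral) (hi : Function.Injective f) : ringKrullDim R ≤ ringKrullDim S := by
  refine iSup_le fun l => ?_
  obtain ⟨l', hl', -⟩ := exists_lift_ltSeries f hf l
    (by rw [(RingHom.injective_iff_ker_eq_bot f).1 hi]; exact bot_le)
  rw [← hl']
  exact Order.LTSeries.length_le_krullDim l'

theorem ringKrullDim_le_of_isIntegral {R S : Type} [CommRing R] [CommRing S] (f : R →+* S)
    (hf : f.IsIntegral) : ringKrullDim S ≤ ringKrullDim R := by
  algebraize [f]
  have : Algebra.IsIntegral R S := ⟨hf⟩
  refine Order.krullDim_le_of_strictMono (PrimeSpectrum.comap f) fun P Q hPQ => ?_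
  exact Ideal.IsIntegral.comap_lt_comap (R := R) (A := S) hPQ

end R169
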