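import Mathlib

/-!
# R169 FIN piece FG2: a chain of primes of length 3 in `k[x,y,z]` ending at `(x,y,z)`; power series have dimension `≥ 3`.

`exists_chain`: `q_i = ker (MvPolynomial.aeval (fun j => if (j : ℕ) < i then 0 else X j))`, `i = 0,1,2,3`, prime because the
target `MvPolynomial (Fin 3) k` is a domain; `q_i < q_{i+1}` (`X i ∈ q_{i+1}`, `∉ q_i`), `q_3 = ker constantCoeff`.
`three_le_dim_mvPowerSeries`: `ringKrullDim_succ_le_ringKrullDim_powerseries` and the equivalence
`MvPowerSeries (Fin (n+1)) ≃ PowerSeries (MvPowerSeries (Fin n))` (Mathlib.RingTheory.MvPowerSeries.Equiv).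
-/

set_option autoImplicit false

namespace R169

/-- The substitution killing the variables of index `< i`. -/
noncomputable def FG2kill (k : Type) [Field k] (i : ℕ) :
    MvPolynomial (Fin 3) k →ₐ[k] MvPolynomial (Fin 3) k :=
  MvPolynomial.aeval (fun j : Fin 3 => if (j : ℕ) < i then 0 else MvPolynomial.X j)

theorem FG2kill_X (k : Type) [Field k] (i : ℕ) (j : Fin 3) :
    FG2kill k i (MvPolynomial.X j) = if (j : ℕ) < i then 0 else MvPolynomial.X j := by
  simp [FG2kill]

theorem FG2kill_kill (k : Type) [Field k] (i : ℕ) (p : MvPolynomial (Fin 3) k) :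
    FG2kill k (i + 1) (FG2kill k i p) = FG2kill k (i + 1) p := by
  have h : (FG2kill k (i + 1)).comp (FG2kill k i) = FG2kill k (i + 1) := by
    apply MvPolynomial.algHom_ext
    intro j
    rw [AlgHom.comp_apply, FG2kill_X, FG2kill_X]
    by_cases h1 : (j : ℕ) < i
    · rw [if_pos h1, if_pos (by omega), map_zero]
    · rw [if_neg h1, FG2kill_X]
  exact DFunLike.congr_fun h p

/-- The chain. -/
noncomputable def FG2prime (k : Type) [Field k] (i : ℕ) : PrimeSpectrum (MvPolynomial (Fin 3) k) :=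
  ⟨RingHom.ker (FG2kill k i).toRingHom, RingHom.ker_isPrime _⟩

theorem FG2prime_lt (k : Type) [Field k] (i : ℕ) (hi : i < 3) :
    FG2prime k i < FG2prime k (i + 1) := by
  rw [← PrimeSpectrum.asIdeal_lt_asIdeal]
  refine lt_of_le_of_ne ?_ ?_
  · intro p hp
    have hp' : FG2kill k i p = 0 := hp
    show FG2kill k (i + 1) p = 0
    rw [← FG2kill_kill, hp', map_zero]
  · intro h
    have h1 : (MvPolynomial.X ⟨i, hi⟩ : MvPolynomial (Fin 3) k) ∈ (FG2prime k (i + 1)).asIdeal := by
      show FG2kill k (i + 1) (MvPolynomial.X ⟨i, hi⟩) = 0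
      rw [FG2kill_X, if_pos (by simp)]
    rw [← h] at h1
    have h2 : FG2kill k i (MvPolynomial.X ⟨i, hi⟩) = 0 := h1
    rw [FG2kill_X, if_neg (by simp)] at h2
    exact MvPolynomial.X_ne_zero _ h2

theorem exists_chain_mvPolynomial (k : Type) [Field k] :
    ∃ l : LTSeries (PrimeSpectrum (MvPolynomial (Fin 3) k)), l.length = 3 ∧
      l.last.asIdeal = RingHom.ker (MvPolynomial.constantCoeff : MvPolynomial (Fin 3) k →+* k) := by
  refine ⟨⟨3, fun i => FG2prime k i, fun i => ?_⟩, rfl, ?_⟩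
  · have := FG2prime_lt k i i.isLt
    simpa using this
  · show (FG2prime k 3).asIdeal = _
    ext p
    have h3 : FG2kill k 3 = MvPolynomial.aeval (fun _ : Fin 3 => (0 : MvPolynomial (Fin 3) k)) := by
      apply MvPolynomial.algHom_ext
      intro j
      rw [FG2kill_X, if_pos j.isLt, MvPolynomial.aeval_X]
    show FG2kill k 3 p = 0 ↔ MvPolynomial.constantCoeff p = 0
    rw [h3, MvPolynomial.aeval_zero', MvPolynomial.algebraMap_eq]
    exact map_eq_zero_iff _ (MvPolynomial.C_injective _ _)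

theorem FG2dim_succ (k : Type) [Field k] (n : ℕ) :
    ringKrullDim (MvPowerSeries (Fin n) k) + 1 ≤ ringKrullDim (MvPowerSeries (Fin (n + 1)) k) := by
  refine le_trans ringKrullDim_succ_le_ringKrullDim_powerseries ?_
  exact (ringKrullDim_eq_of_ringEquiv (MvPowerSeries.finSuccEquiv k n).toRingEquiv).ge

theorem three_le_dim_mvPowerSeries (k : Type) [Field k] :
    3 ≤ ringKrullDim (MvPowerSeries (Fin 3) k) := by
  have h0 : 0 ≤ ringKrullDim (MvPowerSeries (Fin 0) k) := ringKrullDim_nonneg_of_nontrivial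
  have h1 := FG2dim_succ k 0
  have h2 := FG2dim_succ k 1
  have h3 := FG2dim_succ k 2
  have e1 : (1 : WithBot ℕ∞) ≤ ringKrullDim (MvPowerSeries (Fin 1) k) := by
    refine le_trans ?_ h1
    calc (1 : WithBot ℕ∞) = 0 + 1 := by norm_num
      _ ≤ _ := by gcongr
  have e2 : (2 : WithBot ℕ∞) ≤ ringKrullDim (MvPowerSeries (Fin 2) k) := by
    refine le_trans ?_ h2
    calc (2 : WithBot ℕ∞) = 1 + 1 := by norm_num
      _ ≤ _ := by gcongr
  refine le_trans ?_ h3
  calc (3 : WithBot ℕ∞) = 2 + 1 := by norm_num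
    _ ≤ _ := by gcongr

end R169
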