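import Crest.Agent.R169.FA2
import Crest.Agent.R169.FA3
import Crest.Agent.R169.FG1
import Crest.Agent.R169.FG2

/-!
# R169 FIN piece FA5 (proved by helper66): dimensions of `T` and of its localisation at the irrelevant ideal are 3.

`dim_T`: `pT` is finite (integral) and injective, so `ringKrullDim (T D) = ringKrullDim (MvPolynomial (Fin 3) k) = 3`
(`MvPolynomial.ringKrullDim_of_isNoetherianRing`).
`dim_loc_irr`: `IsLocalization.AtPrime.ringKrullDim_eq_height`: equals `(irr D).height`; `≤ 3` by `dim_T`
(`Ideal.height_le_ringKrullDim_of_ne_top`); `≥ 3`: lift the chain of FG2 by `exists_lift_ltSeries` along `pT`; the last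
prime `Q` contracts to `(x,y,z)`, so `Q ∋ x,y,z`, `Ixyz ≤ Q`, `irr^N ≤ Q` (FA3), `irr ≤ Q`, `irr` maximal, `Q = irr`.
-/

set_option autoImplicit false

namespace R169

variable {k L : Type} [Field k] [Field L] [Algebra k L]
variable (D : GD k L) {η ζ : L} (hP : Par D η ζ)

include hP in
theorem dim_T : ringKrullDim (T D) = 3 := by
  have hint : (pT D hP).toRingHom.IsIntegral := (pT_finite D hP).to_isIntegral
  have hinj : Function.Injective (pT D hP).toRingHom := pT_injective D hP
  have h1 := ringKrullDim_le_of_injective _ hint hinj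
  have h2 := ringKrullDim_le_of_isIntegral _ hint
  have h3 : ringKrullDim (MvPolynomial (Fin 3) k) = 3 := by
    rw [MvPolynomial.ringKrullDim_of_isNoetherianRing, ringKrullDim_eq_zero_of_field]
    simp
  rw [← h3]
  exact le_antisymm h2 h1

include hP in
theorem dim_loc_irr : ringKrullDim (Localization.AtPrime (irr D)) = 3 := by
  rw [IsLocalization.AtPrime.ringKrullDim_eq_height (irr D) (Localization.AtPrime (irr D))]
  refine le_antisymm ?_ ?_
  · rw [← dim_T D hP]
    exact Ideal.height_le_ringKrullDim_of_ne_top (irr_isPrime D).ne_top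
  · have hint : (pT D hP).toRingHom.IsIntegral := (pT_finite D hP).to_isIntegral
    have hinj : Function.Injective (pT D hP).toRingHom := pT_injective D hP
    obtain ⟨l, hl, hlast⟩ := exists_chain_mvPolynomial k
    obtain ⟨l', hl', hlast'⟩ := exists_lift_ltSeries _ hint l (by
      rw [(RingHom.injective_iff_ker_eq_bot _).1 hinj]
      exact bot_le)
    obtain ⟨N, hN⟩ := exists_irr_pow_le D hP
    have hQ : Ixyz D hP ≤ l'.last.asIdeal := by
      unfold Ixyz
      rw [Ideal.span_le]
      rintro _ ⟨i, rfl⟩
      have h1 : (MvPolynomial.X i : MvPolynomial (Fin 3) k) ∈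
          l'.last.asIdeal.comap (pT D hP).toRingHom := by
        rw [hlast', hlast, RingHom.mem_ker]
        simp
      rw [Ideal.mem_comap] at h1
      have h2 : (pT D hP).toRingHom (MvPolynomial.X i) = xyz D hP i := by
        show pT D hP (MvPolynomial.X i) = xyz D hP i
        unfold pT
        rw [MvPolynomial.aeval_X]
      rw [h2] at h1
      exact h1
    have hirr : irr D ≤ l'.last.asIdeal := l'.last.isPrime.le_of_pow_le (hN.trans hQ)
    have heq : irr D = l'.last.asIdeal :=
      (irr_isMaximal D).eq_of_le l'.last.isPrime.ne_top hirr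
    have h5 : (irr D).height = Order.height l'.last := by
      rw [← PrimeSpectrum.height_eq_orderHeight, ← heq]
    rw [h5]
    have h6 : ((l'.length : ℕ) : ℕ∞) ≤ Order.height l'.last := Order.length_le_height le_rfl
    rw [hl', hl] at h6
    have h7 : ((((3 : ℕ) : ℕ∞) : ℕ∞) : WithBot ℕ∞) ≤ ((Order.height l'.last : ℕ∞) : WithBot ℕ∞) :=
      WithBot.coe_le_coe.2 h6
    exact h7

end R169
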