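import Crest.Agent.R169.FinB
import Crest.Agent.R169.LatAPI

/-!
# R169 FIN piece FB1: the order filtration `FRh D n` of `Rh D` and the powers of `(x,y,z)`.

* `FRh_succ`: `hP.gen` coefficientwise: for `f ∈ FRh (n+1)`, `n ≥ n1`, every coefficient `coeff (m+1) f ∈ B (m+1)`, `m ≥ n`,
  is `b0 m + η b1 m + ζ b2 m` with `b_i m ∈ B m`; put `g_i = PowerSeries.mk (fun m => if n ≤ m then b_i m else 0)`.
  (`xyzR 0 = t`, `xyzR 1 = η t`, `xyzR 2 = ζ t` as power series.)
* `FRh_le_pow`: induction on `j`.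
* `max_pow_le`: `maximalIdeal = FRh 1` and `FRh a * FRh b ≤ FRh (a+b)`.
-/

set_option autoImplicit false

namespace R169

variable {k L : Type} [Field k] [Field L] [Algebra k L]
variable (D : GD k L) {η ζ : L} (hP : Par D η ζ)

theorem coe_xyzR (i : Fin 3) : ((xyzR D hP i : Rh D) : PowerSeries L) =
    PowerSeries.monomial 1 (![1, η, ζ] i) := by
  unfold xyzR
  rw [coe_toRh]
  fin_cases i <;> simp [xyz, tm]

theorem coeff_succ_xyzR_mul (i : Fin 3) (g : PowerSeries L) (m : ℕ) :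
    PowerSeries.coeff (m + 1) (((xyzR D hP i : Rh D) : PowerSeries L) * g) =
      ![1, η, ζ] i * PowerSeries.coeff m g := by
  rw [coe_xyzR, PowerSeries.monomial_eq_C_mul_X_pow, pow_one, mul_assoc, PowerSeries.coeff_C_mul,
    PowerSeries.coeff_succ_X_mul]

theorem coeff_zero_xyzR_mul (i : Fin 3) (g : PowerSeries L) :
    PowerSeries.coeff 0 (((xyzR D hP i : Rh D) : PowerSeries L) * g) = 0 := by
  rw [coe_xyzR, PowerSeries.monomial_eq_C_mul_X_pow, pow_one, mul_assoc, PowerSeries.coeff_C_mul,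
    PowerSeries.coeff_zero_X_mul, mul_zero]

theorem FRh_succ : ∃ n1 : ℕ, ∀ n, n1 ≤ n → ∀ f ∈ FRh D (n + 1), ∃ g : Fin 3 → Rh D,
    (∀ i, g i ∈ FRh D n) ∧ f = ∑ i, xyzR D hP i * g i := by
  obtain ⟨n1, hn1⟩ := hP.gen
  refine ⟨n1.toNat, fun n hn f hf => ?_⟩
  have key : ∀ m : ℕ, ∃ b : Fin 3 → L, (∀ i, b i ∈ D.B m) ∧
      (n ≤ m → PowerSeries.coeff (m + 1) (f : PowerSeries L) = ∑ i, ![1, η, ζ] i * b i) := by
    intro m
    by_cases hm : n ≤ m
    · have h1 := hn1 m (by omega)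
      have h2 : PowerSeries.coeff (m + 1) (f : PowerSeries L) ∈ D.B ((m : ℤ) + 1) := by
        have := f.2 (m + 1)
        push_cast at this
        exact this
      obtain ⟨u, hu, w, hw, huw⟩ := Submodule.mem_sup.1 (h1 h2)
      obtain ⟨u0, hu0, u1, hu1, hu01⟩ := Submodule.mem_sup.1 hu
      obtain ⟨v1, hv1, hv1'⟩ := Lat.mem_sm.1 hu1
      obtain ⟨v2, hv2, hv2'⟩ := Lat.mem_sm.1 hw
      refine ⟨![u0, v1, v2], ?_, fun _ => ?_⟩
      · intro i
        fin_cases i
        · exact hu0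
        · exact hv1
        · exact hv2
      · rw [Fin.sum_univ_three, ← huw, ← hu01, ← hv1', ← hv2']
        simp
    · exact ⟨0, fun i => Submodule.zero_mem _, fun h => absurd h hm⟩
  choose b hb hb' using key
  refine ⟨fun i => ⟨PowerSeries.mk fun m => if n ≤ m then b m i else 0, ?_⟩, ?_, ?_⟩
  · intro m
    rw [PowerSeries.coeff_mk]
    split_ifs
    · exact hb m i
    · exact Submodule.zero_mem _
  · intro i
    rw [mem_FRh]
    intro m hm
    change PowerSeries.coeff m (PowerSeries.mk fun m => if n ≤ m then b m i else 0) = 0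
    rw [PowerSeries.coeff_mk, if_neg (by omega)]
  · apply Subtype.ext
    apply PowerSeries.ext
    intro m
    rw [AddSubmonoidClass.coe_finsetSum, map_sum]
    cases m with
    | zero =>
      rw [(mem_FRh D _ _).1 hf 0 (by omega)]
      symm
      refine Finset.sum_eq_zero fun i _ => ?_
      rw [Subalgebra.coe_mul]
      exact coeff_zero_xyzR_mul D hP i _
    | succ m =>
      by_cases hm : n ≤ m
      · rw [hb' m hm]
        refine Finset.sum_congr rfl fun i _ => ?_
        rw [Subalgebra.coe_mul, coeff_succ_xyzR_mul, PowerSeries.coeff_mk, if_pos hm]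
      · rw [(mem_FRh D _ _).1 hf (m + 1) (by omega)]
        symm
        refine Finset.sum_eq_zero fun i _ => ?_
        rw [Subalgebra.coe_mul, coeff_succ_xyzR_mul, PowerSeries.coeff_mk, if_neg hm, mul_zero]

theorem FRh_le_pow : ∃ n1 : ℕ, ∀ j : ℕ, FRh D (n1 + j) ≤ IR D hP ^ j := by
  obtain ⟨n1, hn1⟩ := FRh_succ D hP
  refine ⟨n1, fun j => ?_⟩
  induction j with
  | zero => rw [pow_zero, Ideal.one_eq_top]; exact le_top
  | succ j ih =>
    intro f hf
    obtain ⟨g, hg, rfl⟩ := hn1 (n1 + j) (by omega) f hf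
    refine Ideal.sum_mem _ fun i _ => ?_
    rw [pow_succ']
    exact Ideal.mul_mem_mul (Ideal.subset_span ⟨i, rfl⟩) (ih (hg i))

theorem FRh_mul_le (a b : ℕ) : FRh D a * FRh D b ≤ FRh D (a + b) := by
  rw [Ideal.mul_le]
  intro r hr s hs
  rw [mem_FRh]
  intro i hi
  rw [Subalgebra.coe_mul, PowerSeries.coeff_mul]
  refine Finset.sum_eq_zero ?_
  rintro ⟨u, v⟩ huv
  rw [Finset.HasAntidiagonal.mem_antidiagonal] at huv
  simp only at huv ⊢
  by_cases hu : u < a
  · rw [(mem_FRh D _ _).1 hr u hu, zero_mul]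
  · rw [(mem_FRh D _ _).1 hs v (by omega), mul_zero]

theorem max_eq_FRh_one : IsLocalRing.maximalIdeal (Rh D) = FRh D 1 := by
  ext f
  rw [mem_max_iff, mem_FRh]
  constructor
  · intro h i hi
    obtain rfl : i = 0 := by omega
    rw [PowerSeries.coeff_zero_eq_constantCoeff_apply, h]
  · intro h
    rw [← PowerSeries.coeff_zero_eq_constantCoeff_apply, h 0 one_pos]

theorem max_pow_le (j : ℕ) : IsLocalRing.maximalIdeal (Rh D) ^ j ≤ FRh D j := by
  induction j with
  | zero =>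
    intro f _
    rw [mem_FRh]
    intro i hi
    omega
  | succ j ih =>
    rw [pow_succ]
    refine (Ideal.mul_mono ih (max_eq_FRh_one D).le).trans (FRh_mul_le D j 1)

theorem xyzR_mem (i : Fin 3) : xyzR D hP i ∈ IsLocalRing.maximalIdeal (Rh D) := by
  rw [mem_max_iff, coe_xyzR, ← PowerSeries.coeff_zero_eq_constantCoeff_apply,
    PowerSeries.coeff_monomial]
  simp

theorem IR_le_max : IR D hP ≤ IsLocalRing.maximalIdeal (Rh D) := by
  unfold IR
  rw [Ideal.span_le]
  rintro _ ⟨i, rfl⟩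
  exact xyzR_mem D hP i

theorem exists_max_pow_le : ∃ N : ℕ, IsLocalRing.maximalIdeal (Rh D) ^ N ≤ IR D hP := by
  obtain ⟨n1, hn1⟩ := FRh_le_pow D hP
  refine ⟨n1 + 1, (max_pow_le D (n1 + 1)).trans ?_⟩
  have := hn1 1
  rwa [pow_one] at this

end R169
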