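import Crest.Agent.R169.FB1

/-!
# R169 FIN piece FB2: `Rh D` is complete for its maximal ideal `m`.

From FB1: `m^j ≤ FRh j` and `FRh (n1 + j) ≤ IR^j ≤ m^j`. Hausdorff: all coefficients vanish. Complete
(`IsPrecomplete`, sequence `f_n` with `f_m ≡ f_n mod m^m` for `m ≤ n`): the limit `g` has `coeff i g = coeff i (f_{i+1})`
(`= coeff i (f_n)` for all `n ≥ i+1`), so `g - f_N ∈ FRh N` for all `N`, and
`g - f_n = (g - f_{n1+n}) + (f_{n1+n} - f_n) ∈ m^n`.
-/

set_option autoImplicit false

namespace R169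

variable {k L : Type} [Field k] [Field L] [Algebra k L]
variable (D : GD k L) {η ζ : L} (hP : Par D η ζ)

include hP in
theorem isAdicComplete_Rh : IsAdicComplete (IsLocalRing.maximalIdeal (Rh D)) (Rh D) := by
  have htop : ∀ n : ℕ, ((IsLocalRing.maximalIdeal (Rh D)) ^ n • (⊤ : Submodule (Rh D) (Rh D)) :
      Submodule (Rh D) (Rh D)) = (IsLocalRing.maximalIdeal (Rh D)) ^ n := by
    intro n
    rw [smul_eq_mul, Ideal.mul_top]
  obtain ⟨n1, hn1⟩ := FRh_le_pow D hP
  have haus : IsHausdorff (IsLocalRing.maximalIdeal (Rh D)) (Rh D) := by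
    refine ⟨fun x hx => ?_⟩
    have h1 : ∀ n, x ∈ FRh D n := by
      intro n
      have h2 := hx n
      rw [SModEq.zero, htop] at h2
      exact max_pow_le D n h2
    apply Subtype.ext
    apply PowerSeries.ext
    intro i
    have h3 := (mem_FRh D (i + 1) x).1 (h1 (i + 1)) i (Nat.lt_succ_self i)
    rw [h3]
    simp
  have prec : IsPrecomplete (IsLocalRing.maximalIdeal (Rh D)) (Rh D) := by
    refine ⟨fun f hf => ?_⟩
    have hf' : ∀ {m n : ℕ}, m ≤ n → f m - f n ∈ (IsLocalRing.maximalIdeal (Rh D)) ^ m := by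
      intro m n hmn
      have h2 := hf hmn
      rw [SModEq.sub_mem, htop] at h2
      exact h2
    let g : Rh D := ⟨PowerSeries.mk fun i => PowerSeries.coeff i (f (i + 1) : PowerSeries L), by
      intro i
      rw [PowerSeries.coeff_mk]
      exact (f (i + 1)).2 i⟩
    have hg : ∀ i, PowerSeries.coeff i (g : PowerSeries L) =
        PowerSeries.coeff i (f (i + 1) : PowerSeries L) := by
      intro i
      change PowerSeries.coeff i (PowerSeries.mk fun i =>
        PowerSeries.coeff i (f (i + 1) : PowerSeries L)) = _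
      rw [PowerSeries.coeff_mk]
    have hgN : ∀ N, f N - g ∈ FRh D N := by
      intro N
      rw [mem_FRh]
      intro i hi
      have h4 := (mem_FRh D (i + 1) _).1 (max_pow_le D (i + 1) (hf' (Nat.succ_le_of_lt hi))) i
        (Nat.lt_succ_self i)
      rw [Subalgebra.coe_sub, map_sub, sub_eq_zero] at h4
      rw [Subalgebra.coe_sub, map_sub, hg, h4, sub_self]
    refine ⟨g, fun n => ?_⟩
    rw [SModEq.sub_mem, htop]
    have h5 : f n - g = (f n - f (n1 + n)) + (f (n1 + n) - g) := by ring
    rw [h5]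
    refine Ideal.add_mem _ (hf' (Nat.le_add_left n n1)) ?_
    exact Ideal.pow_right_mono (IR_le_max D hP) n (hn1 n (hgN (n1 + n)))
  exact { haus, prec with }

end R169
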