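import Crest.Agent.R169.FinB
import Crest.Agent.R169.LatAPI

/-!
# R169 FIN piece FB3: the ring map `k⟦x,y,z⟧ → Rh D`, `x ↦ t, y ↦ η t, z ↦ ζ t`.

Define it by the coefficient formula (the sum over all `a : Fin 3 →₀ ℕ` of degree `n`, i.e.
`a ∈ Finset.finsuppAntidiag Finset.univ n`) and check `map_mul` by reindexing
(`(coeff n (φ s · φ t)) = ∑_{i+j=n} ∑_{|b|=i} ∑_{|c|=j} s_b t_c η^{b1+c1} ζ^{b2+c2} = ∑_{|a|=n} ∑_{b+c=a}`), or use
`MvPowerSeries.substAlgHom` (`PowerSeries L = MvPowerSeries Unit L`) and `MvPowerSeries.coeff_subst`.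
`η^a1 ζ^a2 ∈ B (a1+a2) ≤ B n` (`A_le_B` of LatAPI, or `D.mul_mem`, `GD.mono`).
Injectivity: `coeff n (φ s) = ev η ζ F_n` where `F_n` = the homogeneous polynomial with the coefficients of degree `n` of `s`;
`ev_inj` (LatAPI).
-/

set_option autoImplicit false

namespace R169

variable {k L : Type} [Field k] [Field L] [Algebra k L]
variable (D : GD k L) {η ζ : L} (hP : Par D η ζ)

namespace FB3

theorem mem_fa (n : ℕ) (a : Fin 3 →₀ ℕ) :
    a ∈ Finset.finsuppAntidiag (Finset.univ : Finset (Fin 3)) n ↔ a 0 + a 1 + a 2 = n := by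
  rw [Finset.mem_finsuppAntidiag, Fin.sum_univ_three]
  simp

/-- the coefficient formula -/
noncomputable def co (η ζ : L) (s : MvPowerSeries (Fin 3) k) (n : ℕ) : L :=
  ∑ a ∈ Finset.finsuppAntidiag Finset.univ n,
    algebraMap k L (MvPowerSeries.coeff a s) * (η ^ a 1 * ζ ^ a 2)

theorem co_mul (η ζ : L) (s t : MvPowerSeries (Fin 3) k) (n : ℕ) :
    co η ζ (s * t) n = ∑ p ∈ Finset.HasAntidiagonal.antidiagonal n, co η ζ s p.1 * co η ζ t p.2 := by
  classical
  have h1 : co η ζ (s * t) n = ∑ a ∈ Finset.finsuppAntidiag (Finset.univ : Finset (Fin 3)) n,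
      ∑ q ∈ Finset.HasAntidiagonal.antidiagonal a,
        (algebraMap k L (MvPowerSeries.coeff q.1 s) * (η ^ q.1 1 * ζ ^ q.1 2)) *
        (algebraMap k L (MvPowerSeries.coeff q.2 t) * (η ^ q.2 1 * ζ ^ q.2 2)) := by
    unfold co
    refine Finset.sum_congr rfl fun a _ => ?_
    rw [MvPowerSeries.coeff_mul, map_sum, Finset.sum_mul]
    refine Finset.sum_congr rfl fun q hq => ?_
    rw [Finset.HasAntidiagonal.mem_antidiagonal] at hq
    rw [← hq, Finsupp.add_apply, Finsupp.add_apply, map_mul, pow_add, pow_add]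
    ring
  have h2 : ∑ p ∈ Finset.HasAntidiagonal.antidiagonal n, co η ζ s p.1 * co η ζ t p.2 =
      ∑ p ∈ Finset.HasAntidiagonal.antidiagonal n,
        ∑ q ∈ (Finset.finsuppAntidiag (Finset.univ : Finset (Fin 3)) p.1) ×ˢ
          (Finset.finsuppAntidiag (Finset.univ : Finset (Fin 3)) p.2),
        (algebraMap k L (MvPowerSeries.coeff q.1 s) * (η ^ q.1 1 * ζ ^ q.1 2)) *
        (algebraMap k L (MvPowerSeries.coeff q.2 t) * (η ^ q.2 1 * ζ ^ q.2 2)) := by
    refine Finset.sum_congr rfl fun p _ => ?_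
    unfold co
    rw [Finset.sum_mul_sum, Finset.sum_product]
  rw [h1, h2, Finset.sum_sigma', Finset.sum_sigma']
  refine Finset.sum_nbij'
    (fun x => ⟨(x.2.1 0 + x.2.1 1 + x.2.1 2, x.2.2 0 + x.2.2 1 + x.2.2 2), x.2⟩)
    (fun y => ⟨y.2.1 + y.2.2, y.2⟩) ?_ ?_ ?_ ?_ ?_
  · rintro ⟨a, q⟩ hx
    rw [Finset.mem_sigma, mem_fa, Finset.HasAntidiagonal.mem_antidiagonal] at hx
    simp only at hx
    rw [Finset.mem_sigma, Finset.HasAntidiagonal.mem_antidiagonal, Finset.mem_product, mem_fa, mem_fa]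
    refine ⟨?_, rfl, rfl⟩
    rw [← hx.1, ← hx.2]
    simp only [Finsupp.add_apply]
    ring
  · rintro ⟨p, q⟩ hx
    rw [Finset.mem_sigma, Finset.HasAntidiagonal.mem_antidiagonal, Finset.mem_product, mem_fa, mem_fa] at hx
    simp only at hx
    rw [Finset.mem_sigma, mem_fa, Finset.HasAntidiagonal.mem_antidiagonal]
    refine ⟨?_, rfl⟩
    simp only [Finsupp.add_apply]
    rw [← hx.1, ← hx.2.1, ← hx.2.2]
    ring
  · rintro ⟨a, q⟩ hx
    rw [Finset.mem_sigma, mem_fa, Finset.HasAntidiagonal.mem_antidiagonal] at hx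
    simp only at hx ⊢
    rw [hx.2]
  · rintro ⟨⟨i, j⟩, q⟩ hx
    rw [Finset.mem_sigma, Finset.HasAntidiagonal.mem_antidiagonal, Finset.mem_product, mem_fa, mem_fa] at hx
    simp only at hx ⊢
    rw [hx.2.1, hx.2.2]
  · rintro ⟨a, q⟩ _
    rfl

theorem co_one (η ζ : L) (n : ℕ) :
    co η ζ (1 : MvPowerSeries (Fin 3) k) n = if n = 0 then 1 else 0 := by
  classical
  unfold co
  have h : ∀ a ∈ Finset.finsuppAntidiag (Finset.univ : Finset (Fin 3)) n,
      algebraMap k L (MvPowerSeries.coeff a (1 : MvPowerSeries (Fin 3) k)) *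
        (η ^ a 1 * ζ ^ a 2) = if a = 0 then 1 else 0 := by
    intro a _
    rw [MvPowerSeries.coeff_one]
    by_cases ha : a = 0
    · subst ha
      simp
    · rw [if_neg ha, if_neg ha, map_zero, zero_mul]
  rw [Finset.sum_congr rfl h, Finset.sum_ite_eq']
  by_cases hn : n = 0
  · subst hn
    rw [if_pos rfl, if_pos]
    rw [mem_fa]
    simp
  · rw [if_neg hn, if_neg]
    rw [mem_fa]
    simp only [Finsupp.coe_zero, Pi.zero_apply, add_zero]
    exact fun h => hn h.symm

/-- the map to `L⟦t⟧` -/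
noncomputable def phi0 (η ζ : L) : MvPowerSeries (Fin 3) k →+* PowerSeries L where
  toFun s := PowerSeries.mk (co η ζ s)
  map_one' := by
    ext n
    rw [PowerSeries.coeff_mk, co_one, PowerSeries.coeff_one]
  map_mul' := by
    intro s t
    ext n
    rw [PowerSeries.coeff_mk, PowerSeries.coeff_mul, co_mul]
    simp only [PowerSeries.coeff_mk]
  map_zero' := by
    ext n
    rw [PowerSeries.coeff_mk]
    unfold co
    simp
  map_add' := by
    intro s t
    ext n
    rw [PowerSeries.coeff_mk, map_add, PowerSeries.coeff_mk, PowerSeries.coeff_mk]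
    unfold co
    rw [← Finset.sum_add_distrib]
    refine Finset.sum_congr rfl fun a _ => ?_
    rw [map_add, map_add, add_mul]

theorem coeff_phi0 (η ζ : L) (s : MvPowerSeries (Fin 3) k) (n : ℕ) :
    PowerSeries.coeff n (phi0 η ζ s) = co η ζ s n := by
  show PowerSeries.coeff n (PowerSeries.mk (co η ζ s)) = co η ζ s n
  rw [PowerSeries.coeff_mk]

theorem pow_mem_B {l : L} (hl : l ∈ D.B 1) (m : ℕ) : l ^ m ∈ D.B m := by
  induction m with
  | zero =>
    rw [pow_zero, Nat.cast_zero, D.zero]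
    exact Submodule.mem_span_singleton_self _
  | succ m ih =>
    rw [pow_succ]
    have := D.mul_mem ih hl
    push_cast
    exact this

include hP in
theorem mon_mem (a0 a1 a2 n : ℕ) (h : a0 + a1 + a2 = n) : η ^ a1 * ζ ^ a2 ∈ D.B n := by
  have h0 := pow_mem_B D D.one_mem a0
  have h1 := pow_mem_B D hP.hη a1
  have h2 := pow_mem_B D hP.hζ a2
  have h3 := D.mul_mem h0 (D.mul_mem h1 h2)
  rw [one_pow, one_mul] at h3
  have e : (n : ℤ) = (a0 : ℤ) + ((a1 : ℤ) + a2) := by rw [← h]; push_cast; ring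
  rw [e]
  exact h3

include hP in
theorem co_mem (s : MvPowerSeries (Fin 3) k) (n : ℕ) : co η ζ s n ∈ D.B n := by
  unfold co
  refine Submodule.sum_mem _ fun a ha => ?_
  rw [mem_fa] at ha
  rw [← Algebra.smul_def]
  exact Submodule.smul_mem _ _ (mon_mem D hP _ _ _ n ha)

/-- the exponent in two variables -/
noncomputable def e2 (a : Fin 3 →₀ ℕ) : Fin 2 →₀ ℕ := Finsupp.equivFunOnFinite.symm ![a 1, a 2]

theorem e2_zero (a : Fin 3 →₀ ℕ) : e2 a 0 = a 1 := by simp [e2]
theorem e2_one (a : Fin 3 →₀ ℕ) : e2 a 1 = a 2 := by simp [e2]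

include hP in
theorem co_inj (s : MvPowerSeries (Fin 3) k) (h : ∀ n, co η ζ s n = 0) : s = 0 := by
  classical
  ext a
  rw [map_zero]
  set n := a 0 + a 1 + a 2 with hn
  let F : MvPolynomial (Fin 2) k := ∑ b ∈ Finset.finsuppAntidiag (Finset.univ : Finset (Fin 3)) n,
    MvPolynomial.monomial (e2 b) (MvPowerSeries.coeff b s)
  have hF : MvPolynomial.aeval ![η, ζ] F = 0 := by
    rw [← h n]
    unfold co
    simp only [F, map_sum]
    refine Finset.sum_congr rfl fun b _ => ?_
    rw [MvPolynomial.aeval_monomial, Finsupp.prod_fintype _ _ (fun i => pow_zero _),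
      Fin.prod_univ_two, e2_zero, e2_one]
    rfl
  have hF0 : F = 0 := by
    have hi := hP.indep
    rw [algebraicIndependent_iff] at hi
    exact hi F hF
  have hc : MvPolynomial.coeff (e2 a) F = MvPowerSeries.coeff a s := by
    simp only [F, MvPolynomial.coeff_sum, MvPolynomial.coeff_monomial]
    have hinj : ∀ b ∈ Finset.finsuppAntidiag (Finset.univ : Finset (Fin 3)) n,
        (if e2 b = e2 a then MvPowerSeries.coeff b s else 0) =
          if b = a then MvPowerSeries.coeff b s else 0 := by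
      intro b hb
      rw [mem_fa] at hb
      by_cases hba : b = a
      · rw [hba, if_pos rfl, if_pos rfl]
      · rw [if_neg hba, if_neg]
        intro he
        apply hba
        have f1 : b 1 = a 1 := by rw [← e2_zero, ← e2_zero, he]
        have f2 : b 2 = a 2 := by rw [← e2_one, ← e2_one, he]
        have f0 : b 0 = a 0 := by omega
        ext i
        fin_cases i
        · exact f0
        · exact f1
        · exact f2
    rw [Finset.sum_congr rfl hinj, Finset.sum_ite_eq', if_pos]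
    rw [mem_fa]
  rw [← hc, hF0, MvPolynomial.coeff_zero]

end FB3

include hP in
theorem exists_phi : ∃ φ : MvPowerSeries (Fin 3) k →+* Rh D, Function.Injective φ ∧
    ∀ (s : MvPowerSeries (Fin 3) k) (n : ℕ), PowerSeries.coeff n ((φ s : Rh D) : PowerSeries L) =
      ∑ a ∈ Finset.finsuppAntidiag Finset.univ n,
        algebraMap k L (MvPowerSeries.coeff a s) * (η ^ a 1 * ζ ^ a 2) := by
  refine ⟨(FB3.phi0 η ζ).codRestrict (Rh D) (fun s => ?_), ?_, ?_⟩
  · rw [mem_Rh]
    intro n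
    rw [FB3.coeff_phi0]
    exact FB3.co_mem D hP s n
  · rw [injective_iff_map_eq_zero]
    intro s hs
    apply FB3.co_inj D hP s
    intro n
    have h1 : FB3.phi0 η ζ s = 0 := congrArg Subtype.val hs
    rw [← FB3.coeff_phi0, h1, map_zero]
  · intro s n
    exact FB3.coeff_phi0 η ζ s n

end R169
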