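import Crest.Agent.R169.FB0
import Crest.Agent.R169.FB3

/-!
# R169 FIN piece FB4: `Rh D` is a finite `k⟦x,y,z⟧`-module.

`B_eq_sum` (FB0) gives `d, b`. Generators: `β_i = b_i t^{d_i} ∈ Rh`. For `f ∈ Rh`: `coeff n f = ∑ c n i * b i`,
`c n i ∈ A (n - d_i)`, `c n i = ev η ζ (F n i)`, `F n i` homogeneous of degree `n - d_i` (`mem_A_iff`; `0` if `n < d_i`,
`fA_neg`). Let `s_i ∈ k⟦x,y,z⟧` with `coeff a s_i = coeff a (F (|a| + d_i) i)`. Then `coeff m (φ s_i) = ev (F (m+d_i) i) = c (m+d_i) i`,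
so `f = ∑ φ s_i * β_i`.
-/

set_option autoImplicit false

namespace R169

variable {k L : Type} [Field k] [Field L] [Algebra k L]
variable (D : GD k L) {η ζ : L} (hP : Par D η ζ)

theorem ev_eq_sum {m : ℕ} {F : MvPolynomial (Fin 3) k} (hF : F.IsHomogeneous m) :
    ev η ζ F = ∑ a ∈ Finset.finsuppAntidiag Finset.univ m,
      algebraMap k L (MvPolynomial.coeff a F) * (η ^ a 1 * ζ ^ a 2) := by
  rw [ev, MvPolynomial.aeval_def, MvPolynomial.eval₂_eq']
  have h1 : F.support ⊆ Finset.finsuppAntidiag Finset.univ m := by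
    intro d hd
    rw [Finset.mem_finsuppAntidiag]
    refine ⟨?_, Finset.subset_univ _⟩
    have h1 := hF (MvPolynomial.mem_support_iff.1 hd)
    rw [Finsupp.weight_apply, Finsupp.sum_fintype _ _ (by simp)] at h1
    simpa using h1
  rw [Finset.sum_subset h1]
  · refine Finset.sum_congr rfl fun d _ => ?_
    rw [Fin.prod_univ_three]
    simp
  · intro d _ hd
    rw [MvPolynomial.notMem_support_iff.1 hd, map_zero, zero_mul]

include hP in
theorem phi_finite (φ : MvPowerSeries (Fin 3) k →+* Rh D)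
    (hφ : ∀ (s : MvPowerSeries (Fin 3) k) (n : ℕ), PowerSeries.coeff n ((φ s : Rh D) : PowerSeries L) =
      ∑ a ∈ Finset.finsuppAntidiag Finset.univ n,
        algebraMap k L (MvPowerSeries.coeff a s) * (η ^ a 1 * ζ ^ a 2)) : φ.Finite := by
  obtain ⟨r, d, b, hb, hsum⟩ := B_eq_sum D hP
  have hβ : ∀ i, (PowerSeries.C (b i) * PowerSeries.X ^ d i : PowerSeries L) ∈ Rh D := by
    intro i n
    rw [PowerSeries.coeff_C_mul, PowerSeries.coeff_X_pow]
    split_ifs with h
    · rw [h, mul_one]; exact hb i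
    · rw [mul_zero]; exact Submodule.zero_mem _
  letI := φ.toAlgebra
  refine Module.Finite.of_surjective (Fintype.linearCombination (MvPowerSeries (Fin 3) k)
    (fun i => (⟨_, hβ i⟩ : Rh D))) ?_
  intro f
  choose c hc hcs using fun n : ℕ => hsum n _ (f.2 n)
  have hG : ∀ (m : ℕ) (i : Fin r), ∃ G : MvPolynomial (Fin 3) k, G.IsHomogeneous m ∧
      ev η ζ G = c (m + d i) i := by
    intro m i
    have h1 := hc (m + d i) i
    have e : (((m + d i : ℕ) : ℤ) - d i) = (m : ℤ) := by push_cast; ring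
    rw [e] at h1
    exact (mem_A_iff m _).1 h1
  choose G hGh hGe using hG
  have hS : ∃ S : Fin r → MvPowerSeries (Fin 3) k, ∀ i a,
      MvPowerSeries.coeff a (S i) = MvPolynomial.coeff a (G a.degree i) :=
    ⟨fun i a => MvPolynomial.coeff a (G a.degree i), fun _ _ => rfl⟩
  obtain ⟨S, hS⟩ := hS
  refine ⟨S, ?_⟩
  have hφs : ∀ (i : Fin r) (m : ℕ), PowerSeries.coeff m ((φ (S i) : Rh D) : PowerSeries L) =
      c (m + d i) i := by
    intro i m
    rw [hφ, ← hGe, ev_eq_sum (hGh m i)]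
    refine Finset.sum_congr rfl fun a ha => ?_
    have h1 : a.degree = m := by
      rw [Finsupp.degree_eq_sum]
      simpa using (Finset.mem_finsuppAntidiag.1 ha).1
    rw [hS, h1]
  rw [Fintype.linearCombination_apply]
  apply Subtype.ext
  rw [AddSubmonoidClass.coe_finsetSum]
  ext n
  rw [map_sum, hcs n]
  refine Finset.sum_congr rfl fun i _ => ?_
  rw [Algebra.smul_def]
  have h3 : (algebraMap (MvPowerSeries (Fin 3) k) (Rh D)) = φ := rfl
  rw [h3, Subalgebra.coe_mul]
  change PowerSeries.coeff n (_ * (PowerSeries.C (b i) * PowerSeries.X ^ d i)) = _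
  rw [← mul_assoc, PowerSeries.coeff_mul_X_pow']
  split_ifs with h
  · rw [PowerSeries.coeff_mul_C, hφs, Nat.sub_add_cancel h]
  · have h1 := hc n i
    rw [fA_neg (by omega), Submodule.mem_bot] at h1
    rw [h1, zero_mul]

end R169
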