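import Crest.Agent.R169.FB1
import Crest.Agent.R169.FB4
import Crest.Agent.R169.FG1
import Crest.Agent.R169.FG2

/-!
# R169 FIN piece FB5: `Rh D` is Noetherian of Krull dimension 3.

Noetherian: finite over `MvPowerSeries (Fin 3) k`, which is Noetherian by Mathlib (`MvPowerSeries.isNoetherianRing`).
`≥ 3`: FG1 `ringKrullDim_le_of_injective` + FG2 `three_le_dim_mvPowerSeries`. `≤ 3`: `maximalIdeal^N ≤ (x,y,z)` (FB1), so
`Rh/(x,y,z)` has dimension 0 and `ringKrullDim_le_ringKrullDim_quotient_add_card` (or Krull's height theorem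
`Ideal.height_le_card_of_mem_minimalPrimes_span_finset` for the maximal ideal).
-/

set_option autoImplicit false

namespace R169

variable {k L : Type} [Field k] [Field L] [Algebra k L]
variable (D : GD k L) {η ζ : L} (hP : Par D η ζ)

include hP in
theorem isNoetherianRing_Rh : IsNoetherianRing (Rh D) := by
  obtain ⟨φ, -, hφ⟩ := exists_phi D hP
  have hfin : φ.Finite := phi_finite D hP φ hφ
  let _ : Algebra (MvPowerSeries (Fin 3) k) (Rh D) := φ.toAlgebra
  have : Module.Finite (MvPowerSeries (Fin 3) k) (Rh D) := hfin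
  exact isNoetherian_of_tower (MvPowerSeries (Fin 3) k)
    (isNoetherian_of_isNoetherianRing_of_finite (MvPowerSeries (Fin 3) k) (Rh D))

include hP in
theorem dim_Rh : ringKrullDim (Rh D) = 3 := by
  classical
  have := isNoetherianRing_Rh D hP
  apply le_antisymm
  · rw [← IsLocalRing.maximalIdeal_height_eq_ringKrullDim]
    let s : Finset (Rh D) := Finset.univ.image (xyzR D hP)
    have hs : Ideal.span (s : Set (Rh D)) = IR D hP := by
      unfold IR
      congr 1
      simp [s]
    have hmin : IsLocalRing.maximalIdeal (Rh D) ∈ (Ideal.span (s : Set (Rh D))).minimalPrimes := by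
      rw [hs]
      refine ⟨⟨inferInstance, IR_le_max D hP⟩, ?_⟩
      rintro q ⟨hq, hIq⟩ _
      obtain ⟨N, hN⟩ := exists_max_pow_le D hP
      exact hq.le_of_pow_le (hN.trans hIq)
    have h1 := Ideal.height_le_card_of_mem_minimalPrimes_span_finset hmin
    have h2 : s.card ≤ 3 := Finset.card_image_le.trans (by simp)
    have h3 : (IsLocalRing.maximalIdeal (Rh D)).height ≤ ((3 : ℕ) : ℕ∞) :=
      h1.trans (by exact_mod_cast h2)
    have h4 := (WithBot.coe_le_coe (a := (IsLocalRing.maximalIdeal (Rh D)).height)).2 h3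
    simpa using h4
  · obtain ⟨φ, hinj, hφ⟩ := exists_phi D hP
    have hfin : φ.Finite := phi_finite D hP φ hφ
    exact (three_le_dim_mvPowerSeries k).trans
      (ringKrullDim_le_of_injective φ hfin.to_isIntegral hinj)

end R169
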