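import Mathlib

/-!
# R169 FIN piece FB6: (general commutative algebra) Noetherian normal domains are completely integrally closed
(in a bigger domain).

`S` is a domain containing the Noetherian integrally closed domain `R`, `w ∈ S`, `0 ≠ c ∈ R`, `c w^n ∈ R` for all `n`.
Then `Algebra.adjoin R {w}` is a submodule of `{s : S | c s ∈ R} ≅ R` (multiplication by `c` is injective), so it is a
finitely generated `R`-module, `w` is integral over `R` (`IsIntegral.of_mem_of_fg`). In the fraction fields:
`q = (c w)/c ∈ FractionRing R` maps to `w` under the injection `FractionRing R → FractionRing S`, so `q` is integral over `R`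
(`isIntegral_algHom_iff`/`isIntegral_algebraMap_iff`) and `q ∈ R` (`IsIntegrallyClosed`), and `w = algebraMap q`.
-/

set_option autoImplicit false

namespace R169

open Polynomial

/-- the inclusion of fraction fields -/
theorem exists_frac_hom {R S : Type} [CommRing R] [IsDomain R] [CommRing S] [IsDomain S]
    [Algebra R S] (hinj : Function.Injective (algebraMap R S)) :
    ∃ ψ : FractionRing R →ₐ[R] FractionRing S, Function.Injective ψ := by
  have h1 : Function.Injective (algebraMap R (FractionRing S)) := by
    rw [IsScalarTower.algebraMap_eq R S (FractionRing S)]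
    exact (IsFractionRing.injective S (FractionRing S)).comp hinj
  exact ⟨IsFractionRing.liftAlgHom (g := Algebra.ofId R (FractionRing S)) h1,
    RingHom.injective _⟩

theorem mem_range_of_almost {R S : Type} [CommRing R] [IsDomain R] [CommRing S] [IsDomain S]
    [Algebra R S] (hinj : Function.Injective (algebraMap R S)) [IsNoetherianRing R]
    [IsIntegrallyClosed R] (w : S) (c : R) (hc : c ≠ 0)
    (h : ∀ n : ℕ, ∃ r : R, algebraMap R S r = algebraMap R S c * w ^ n) :
    ∃ r : R, algebraMap R S r = w := by
  have hc' : algebraMap R S c ≠ 0 := fun h0 => hc (hinj (by rw [h0, map_zero]))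
  have hmem : ∀ s ∈ Algebra.adjoin R {w}, algebraMap R S c * s ∈ (algebraMap R S).range := by
    intro s hs
    rw [Algebra.adjoin_singleton_eq_range_aeval] at hs
    obtain ⟨p, rfl⟩ := hs
    show algebraMap R S c * aeval w p ∈ _
    rw [aeval_eq_sum_range, Finset.mul_sum]
    refine sum_mem fun i _ => ?_
    obtain ⟨r, hr⟩ := h i
    refine ⟨p.coeff i * r, ?_⟩
    rw [map_mul, hr, Algebra.smul_def]
    ring
  have hint : IsIntegral R w := by
    refine IsIntegral.of_mem_of_fg (Algebra.adjoin R {w}) ?_ w (Algebra.self_mem_adjoin_singleton R w)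
    let N : Submodule R S := Subalgebra.toSubmodule (Algebra.adjoin R {w})
    let P : Submodule R S := LinearMap.range (Algebra.linearMap R S)
    have hP : IsNoetherian R P := inferInstance
    let φ : N →ₗ[R] P := LinearMap.codRestrict P
      ((LinearMap.mulLeft R (algebraMap R S c)).comp N.subtype) (by
        rintro ⟨s, hs⟩
        obtain ⟨r, hr⟩ := hmem s hs
        exact ⟨r, hr⟩)
    have hφ : Function.Injective φ := by
      rintro ⟨x, hx⟩ ⟨y, hy⟩ hxy
      have h1 : algebraMap R S c * x = algebraMap R S c * y := congrArg Subtype.val hxy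
      exact Subtype.ext (mul_left_cancel₀ hc' h1)
    have hN : IsNoetherian R N := isNoetherian_of_injective φ hφ
    exact (isNoetherian_submodule.1 hN) N le_rfl
  obtain ⟨ψ, hψ⟩ := exists_frac_hom hinj
  obtain ⟨b, hb⟩ := h 1
  rw [pow_one] at hb
  have hSinj := IsFractionRing.injective S (FractionRing S)
  have hcc : algebraMap S (FractionRing S) (algebraMap R S c) ≠ 0 := fun h0 =>
    hc' (hSinj (by rw [h0, map_zero]))
  have hq : ψ (algebraMap R (FractionRing R) b / algebraMap R (FractionRing R) c) =
      algebraMap S (FractionRing S) w := by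
    rw [map_div₀, AlgHom.commutes, AlgHom.commutes,
      IsScalarTower.algebraMap_apply R S (FractionRing S) b,
      IsScalarTower.algebraMap_apply R S (FractionRing S) c, hb, map_mul]
    field_simp
  have h1 : IsIntegral R (algebraMap R (FractionRing R) b / algebraMap R (FractionRing R) c) := by
    rw [← isIntegral_algHom_iff ψ hψ, hq]
    exact hint.algebraMap
  obtain ⟨y, hy⟩ := IsIntegrallyClosed.isIntegral_iff.1 h1
  refine ⟨y, hSinj ?_⟩
  rw [← hq, ← hy, AlgHom.commutes, ← IsScalarTower.algebraMap_apply R S (FractionRing S)]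

/-- an element of the fraction field integral over `R` is almost integral, and lies in any bigger
integrally closed domain `S` -/
theorem exists_of_integral_frac {R S : Type} [CommRing R] [IsDomain R] [CommRing S] [IsDomain S]
    [Algebra R S] (hinj : Function.Injective (algebraMap R S)) [IsIntegrallyClosed S]
    (f g : R) (hg : g ≠ 0)
    (hint : IsIntegral R (algebraMap R (FractionRing R) f / algebraMap R (FractionRing R) g)) :
    ∃ h : S, algebraMap R S g * h = algebraMap R S f ∧
      ∃ c : R, c ≠ 0 ∧ ∀ n : ℕ, ∃ r : R, algebraMap R S r = algebraMap R S c * h ^ n := by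
  obtain ⟨ψ, hψ⟩ := exists_frac_hom hinj
  have hSinj := IsFractionRing.injective S (FractionRing S)
  have hg' : algebraMap R S g ≠ 0 := fun h0 => hg (hinj (by rw [h0, map_zero]))
  have hgg : algebraMap S (FractionRing S) (algebraMap R S g) ≠ 0 := fun h0 =>
    hg' (hSinj (by rw [h0, map_zero]))
  have h1 : IsIntegral R (ψ (algebraMap R (FractionRing R) f / algebraMap R (FractionRing R) g)) :=
    (isIntegral_algHom_iff ψ hψ).2 hint
  have hq : ψ (algebraMap R (FractionRing R) f / algebraMap R (FractionRing R) g) =
      algebraMap S (FractionRing S) (algebraMap R S f) /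
        algebraMap S (FractionRing S) (algebraMap R S g) := by
    rw [map_div₀, AlgHom.commutes, AlgHom.commutes,
      IsScalarTower.algebraMap_apply R S (FractionRing S) f,
      IsScalarTower.algebraMap_apply R S (FractionRing S) g]
  rw [hq] at h1
  obtain ⟨h, hh⟩ := IsIntegrallyClosed.isIntegral_iff.1 (h1.tower_top (A := S))
  have hgh : algebraMap R S g * h = algebraMap R S f := by
    apply hSinj
    rw [map_mul, hh]
    field_simp
  refine ⟨h, hgh, ?_⟩
  have hinth : IsIntegral R h := by
    rw [← hh] at h1
    exact (isIntegral_algebraMap_iff hSinj).1 h1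
  obtain ⟨p, hp, hp0⟩ := hinth
  have hp0' : aeval h p = 0 := hp0
  refine ⟨g ^ p.natDegree, pow_ne_zero _ hg, fun n => ?_⟩
  have h2 : h ^ n = aeval h (X ^ n %ₘ p) := by
    rw [aeval_modByMonic_eq_self_of_root hp0']
    simp
  have h3 : (X ^ n %ₘ p).natDegree < p.natDegree + 1 :=
    Nat.lt_succ_of_le (natDegree_modByMonic_le _ hp)
  show algebraMap R S (g ^ p.natDegree) * h ^ n ∈ (algebraMap R S).range
  rw [h2, aeval_eq_sum_range' h3, Finset.mul_sum]
  refine sum_mem fun i hi => ?_
  have hi' : i ≤ p.natDegree := Nat.lt_succ_iff.1 (Finset.mem_range.1 hi)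
  refine ⟨(X ^ n %ₘ p).coeff i * (g ^ (p.natDegree - i) * f ^ i), ?_⟩
  rw [map_mul, map_mul, map_pow, map_pow, map_pow, ← hgh, Algebra.smul_def]
  have h4 : algebraMap R S g ^ p.natDegree =
      algebraMap R S g ^ (p.natDegree - i) * algebraMap R S g ^ i := by
    rw [← pow_add, Nat.sub_add_cancel hi']
  rw [h4]
  ring

end R169
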