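import Crest.Agent.R169.FinB
import Crest.Agent.R169.LatAPI
import Crest.Agent.R169.FB6
import Crest.Agent.R169.FA2

/-!
# R169 FIN piece FB7: `Rh D` is integrally closed if `T D` is.

`mem_Rh_of_almost`: `h ∈ L⟦t⟧`, `0 ≠ c ∈ Rh`, `c h^n ∈ Rh` for all `n`  ⇒  `h ∈ Rh`.
Strong induction: suppose `coeff m h ∈ B m` for all `m < e`. Let `u = ∑_{m<e} coeff m h t^m ∈ Rh` and `h' = h - u`; then
`c h'^n ∈ Rh` for all `n` (binomial theorem), and the coefficients of `h'` below `e` vanish. Let `a = order of c`,
`c_a = coeff a c ≠ 0`. The coefficient of `c h'^n` at `a + n e` is `c_a (coeff e h')^n` (lowest terms), so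
`c_a (coeff e h)^n ∈ B (a + n e)`, i.e. `(tm a c_a) * (monomial e (coeff e h))^n ∈ T` for all `n`; `mem_range_of_almost`
(FB6) for `R = T D`, `S = L[X]`, `w = monomial e (coeff e h)` gives `monomial e (coeff e h) ∈ T`, i.e. `coeff e h ∈ B e`.
`isIntegrallyClosed_Rh`: `exists_of_integral_frac` (FB6) with `S = L⟦X⟧` (a DVR, integrally closed) and `mem_Rh_of_almost`.
-/

set_option autoImplicit false

namespace R169

variable {k L : Type} [Field k] [Field L] [Algebra k L]
variable (D : GD k L) {η ζ : L} (hP : Par D η ζ)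

include hP in
theorem mem_B_of_almost (hn : IsIntegrallyClosed (T D)) (a e : ℕ) (c h : L) (hc : c ≠ 0)
    (H : ∀ n : ℕ, c * h ^ n ∈ D.B ((a : ℤ) + n * e)) : h ∈ D.B e := by
  haveI := hn
  haveI := T_noetherian D hP
  have hinj : Function.Injective (algebraMap (T D) (Polynomial L)) := Subtype.val_injective
  have hca : c ∈ D.B a := by
    have := H 0
    simpa using this
  obtain ⟨r, hr⟩ := mem_range_of_almost hinj (Polynomial.monomial e h) (tm D a c hca) (by
      intro h0
      have h1 : (Polynomial.monomial a c : Polynomial L) = 0 := congrArg Subtype.val h0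
      exact hc ((Polynomial.monomial_eq_zero_iff c a).1 h1)) (by
      intro n
      refine ⟨tm D (a + n * e) (c * h ^ n) (by push_cast; exact H n), ?_⟩
      change Polynomial.monomial (a + n * e) (c * h ^ n) =
        Polynomial.monomial a c * (Polynomial.monomial e h) ^ n
      rw [Polynomial.monomial_pow, Polynomial.monomial_mul_monomial, mul_comm e n])
  have h2 := r.2 e
  have h3 : (r : Polynomial L) = Polynomial.monomial e h := hr
  rw [h3, Polynomial.coeff_monomial, if_pos rfl] at h2
  exact h2

theorem lowest_mul (c h : PowerSeries L) (a e : ℕ) (hc : ∀ i, i < a → PowerSeries.coeff i c = 0)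
    (hh : ∀ i, i < e → PowerSeries.coeff i h = 0) :
    (∀ i, i < a + e → PowerSeries.coeff i (c * h) = 0) ∧
      PowerSeries.coeff (a + e) (c * h) = PowerSeries.coeff a c * PowerSeries.coeff e h := by
  constructor
  · intro i hi
    rw [PowerSeries.coeff_mul]
    refine Finset.sum_eq_zero ?_
    rintro ⟨x, y⟩ hxy
    rw [Finset.HasAntidiagonal.mem_antidiagonal] at hxy
    simp only at hxy ⊢
    by_cases hx : x < a
    · rw [hc x hx, zero_mul]
    · rw [hh y (by omega), mul_zero]
  · rw [PowerSeries.coeff_mul]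
    refine Finset.sum_eq_single_of_mem (a, e) (by simp) ?_
    rintro ⟨x, y⟩ hxy hne
    rw [Finset.HasAntidiagonal.mem_antidiagonal] at hxy
    simp only at hxy ⊢
    by_cases hx : x < a
    · rw [hc x hx, zero_mul]
    · by_cases hy : y < e
      · rw [hh y hy, mul_zero]
      · exact absurd (Prod.ext (by simp only; omega) (by simp only; omega)) hne

theorem lowest_pow (c h : PowerSeries L) (a e n : ℕ) (hc : ∀ i, i < a → PowerSeries.coeff i c = 0)
    (hh : ∀ i, i < e → PowerSeries.coeff i h = 0) :
    (∀ i, i < a + n * e → PowerSeries.coeff i (c * h ^ n) = 0) ∧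
      PowerSeries.coeff (a + n * e) (c * h ^ n) =
        PowerSeries.coeff a c * PowerSeries.coeff e h ^ n := by
  induction n with
  | zero =>
    simp only [pow_zero, mul_one, Nat.zero_mul, Nat.add_zero]
    exact ⟨hc, trivial⟩
  | succ n ih =>
    obtain ⟨h1, h2⟩ := lowest_mul (c * h ^ n) h (a + n * e) e ih.1 hh
    have e1 : a + n * e + e = a + (n + 1) * e := by ring
    have e2 : c * h ^ n * h = c * h ^ (n + 1) := by ring
    rw [e1, e2] at h1 h2
    refine ⟨h1, ?_⟩
    rw [h2, ih.2]
    ring

theorem lowest_coeff (c h : PowerSeries L) (a e n : ℕ) (hc : ∀ i, i < a → PowerSeries.coeff i c = 0)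
    (hh : ∀ i, i < e → PowerSeries.coeff i h = 0) :
    PowerSeries.coeff (a + n * e) (c * h ^ n) = PowerSeries.coeff a c * PowerSeries.coeff e h ^ n :=
  (lowest_pow c h a e n hc hh).2

include hP in
theorem mem_Rh_of_almost (hn : IsIntegrallyClosed (T D)) (h : PowerSeries L) (c : PowerSeries L)
    (hc : c ≠ 0) (H : ∀ n : ℕ, c * h ^ n ∈ Rh D) : h ∈ Rh D := by
  classical
  rw [mem_Rh]
  have hex : ∃ a, PowerSeries.coeff a c ≠ 0 := by
    by_contra hcon
    push Not at hcon
    exact hc (PowerSeries.ext fun n => by rw [hcon n, map_zero])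
  intro e
  induction e using Nat.strong_induction_on with
  | _ e ih =>
    let u : PowerSeries L := PowerSeries.mk fun m => if m < e then PowerSeries.coeff m h else 0
    have hu : u ∈ Rh D := by
      intro m
      rw [PowerSeries.coeff_mk]
      split_ifs with hm
      · exact ih m hm
      · exact Submodule.zero_mem _
    have hh' : ∀ i, i < e → PowerSeries.coeff i (h + -u) = 0 := by
      intro i hi
      rw [map_add, map_neg, PowerSeries.coeff_mk, if_pos hi, add_neg_cancel]
    have he : PowerSeries.coeff e (h + -u) = PowerSeries.coeff e h := by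
      rw [map_add, map_neg, PowerSeries.coeff_mk, if_neg (lt_irrefl e), neg_zero, add_zero]
    have hmem : ∀ n : ℕ, c * (h + -u) ^ n ∈ Rh D := by
      intro n
      rw [add_pow, Finset.mul_sum]
      refine Subalgebra.sum_mem _ fun i _ => ?_
      have e1 : c * (h ^ i * (-u) ^ (n - i) * (n.choose i : PowerSeries L)) =
          (c * h ^ i) * ((-u) ^ (n - i) * (n.choose i : PowerSeries L)) := by ring
      rw [e1]
      exact Subalgebra.mul_mem _ (H i) (Subalgebra.mul_mem _
        (Subalgebra.pow_mem _ (Subalgebra.neg_mem _ hu) _) (Subalgebra.natCast_mem _ _))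
    have ha := Nat.find_spec hex
    have hlt : ∀ i, i < Nat.find hex → PowerSeries.coeff i c = 0 := by
      intro i hi
      by_contra h0
      exact Nat.find_min hex hi h0
    refine mem_B_of_almost D hP hn (Nat.find hex) e (PowerSeries.coeff (Nat.find hex) c)
      (PowerSeries.coeff e h) ha fun n => ?_
    have h1 := hmem n (Nat.find hex + n * e)
    rw [lowest_coeff c (h + -u) (Nat.find hex) e n hlt hh', he] at h1
    push_cast at h1
    exact h1

include hP in
theorem isIntegrallyClosed_Rh (hn : IsIntegrallyClosed (T D)) : IsIntegrallyClosed (Rh D) := by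
  rw [isIntegrallyClosed_iff (FractionRing (Rh D))]
  intro x hx
  obtain ⟨f, g, hg, rfl⟩ := IsFractionRing.div_surjective (A := Rh D) x
  have hg0 : g ≠ 0 := nonZeroDivisors.ne_zero hg
  have hinj : Function.Injective (algebraMap (Rh D) (PowerSeries L)) := Subtype.val_injective
  obtain ⟨h, hgh, c, hc, H⟩ := exists_of_integral_frac hinj f g hg0 hx
  have hmem : h ∈ Rh D := by
    refine mem_Rh_of_almost D hP hn h (c : PowerSeries L) (fun h0 => hc (Subtype.ext h0)) ?_
    intro n
    obtain ⟨r, hr⟩ := H n
    have : (c : PowerSeries L) * h ^ n = (r : PowerSeries L) := hr.symm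
    rw [this]
    exact r.2
  refine ⟨⟨h, hmem⟩, ?_⟩
  have h1 : g * (⟨h, hmem⟩ : Rh D) = f := Subtype.ext hgh
  have hgne : algebraMap (Rh D) (FractionRing (Rh D)) g ≠ 0 := by
    intro h0
    exact hg0 ((IsFractionRing.injective (Rh D) (FractionRing (Rh D)))
      (by rw [h0, map_zero]))
  rw [eq_div_iff hgne, ← map_mul, mul_comm, h1]

end R169
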