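import Mathlib

/-!
# R169 FIN piece FC1: associated primes and regular elements (general commutative algebra).

`exists_ass_quotSMulTop`: `V = {v ∈ M | p v = 0} ≠ 0`. If `V ≤ a M`: every `v ∈ V` is `a w`, `a (p w) = p v = 0`, `a` regular, so
`w ∈ V`: `V = a V`, Nakayama (`Submodule.eq_bot_of_le_smul_of_le_jacobson_bot`, `V` finitely generated) gives `V = 0`,
contradiction. So there is `v ∈ V`, `v ∉ a M`; its class `v̄ ≠ 0` in `M/aM` is killed by `p` and by `a`;
`exists_le_isAssociatedPrime_of_isNoetherianRing` gives an associated prime `q` of `M/aM` with `p + (a) ≤ q`; and `a ∉ p`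
because `a` is `M`-regular (`p = ann(x)`, `x ≠ 0`).
`length_le_dim_quot`: induction on `rs` (`isWeaklyRegular_cons_iff`) with `p < q`, and
`ringKrullDim (R/q) + 1 ≤ ringKrullDim (R/p)` for primes `p < q` (chains of primes above `q`; e.g.
`ringKrullDim_quotient` = order dimension of `zeroLocus`, or `ringKrullDim_quotient_succ_le_of_nonZeroDivisor`).
For `rs = []`: `0 ≤ ringKrullDim (R/p)` as `R/p` is nontrivial.
-/

set_option autoImplicit false

namespace R169

open IsLocalRing RingTheory.Sequence
open scoped Pointwise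

theorem exists_ass_quotSMulTop {R M : Type} [CommRing R] [IsLocalRing R] [IsNoetherianRing R]
    [AddCommGroup M] [Module R M] [Module.Finite R M] (p : Ideal R) (hp : IsAssociatedPrime p M)
    (a : R) (ha : a ∈ maximalIdeal R) (hreg : IsSMulRegular M a) :
    ∃ q : Ideal R, IsAssociatedPrime q (QuotSMulTop a M) ∧ p < q := by
  obtain ⟨hpp, x, hx⟩ := isAssociatedPrime_iff.1 hp
  have hx0 : x ≠ 0 := by
    rintro rfl
    apply hpp.ne_top
    rw [hx, eq_top_iff]
    intro r _
    rw [Submodule.mem_colon_singleton, smul_zero]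
    exact Submodule.zero_mem _
  have hxV : x ∈ Submodule.torsionBySet R M (p : Set R) := by
    rw [Submodule.mem_torsionBySet_iff]
    rintro ⟨r, hr⟩
    rw [SetLike.mem_coe, hx, Submodule.mem_colon_singleton, Submodule.mem_bot] at hr
    exact hr
  have hex : ∃ v ∈ Submodule.torsionBySet R M (p : Set R), v ∉ (a • (⊤ : Submodule R M)) := by
    by_contra hcon
    push Not at hcon
    have hle : Submodule.torsionBySet R M (p : Set R) ≤
        Ideal.span {a} • Submodule.torsionBySet R M (p : Set R) := by
      intro v hv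
      obtain ⟨w, -, hw⟩ := (Submodule.mem_smul_pointwise_iff_exists _ _ _).1 (hcon v hv)
      have hwV : w ∈ Submodule.torsionBySet R M (p : Set R) := by
        rw [Submodule.mem_torsionBySet_iff] at hv ⊢
        rintro ⟨r, hr⟩
        apply hreg
        have h1 := hv ⟨r, hr⟩
        simp only at h1 ⊢
        rw [smul_zero, smul_comm, hw, h1]
      rw [← hw]
      exact Submodule.smul_mem_smul (Ideal.mem_span_singleton_self a) hwV
    have hjac : Ideal.span {a} ≤ Ideal.jacobson ⊥ := by
      rw [IsLocalRing.jacobson_eq_maximalIdeal ⊥ bot_ne_top, Ideal.span_le,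
        Set.singleton_subset_iff]
      exact ha
    have hbot := Submodule.eq_bot_of_le_smul_of_le_jacobson_bot (Ideal.span {a})
      (Submodule.torsionBySet R M (p : Set R)) (IsNoetherian.noetherian _) hle hjac
    rw [hbot] at hxV
    exact hx0 ((Submodule.mem_bot R).1 hxV)
  obtain ⟨v, hvV, hva⟩ := hex
  have hv0 : (Submodule.Quotient.mk v : QuotSMulTop a M) ≠ 0 := by
    rw [Ne, Submodule.Quotient.mk_eq_zero]
    exact hva
  obtain ⟨q, hq, hle⟩ := exists_le_isAssociatedPrime_of_isNoetherianRing R _ hv0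
  refine ⟨q, hq, ?_⟩
  have hpq : p ≤ q := by
    refine le_trans ?_ hle
    intro r hr
    rw [Submodule.mem_colon_singleton, Submodule.mem_bot, ← Submodule.Quotient.mk_smul]
    have h1 := (Submodule.mem_torsionBySet_iff _ _).1 hvV ⟨r, hr⟩
    simp only at h1
    rw [h1, Submodule.Quotient.mk_zero]
  have haq : a ∈ q := by
    apply hle
    rw [Submodule.mem_colon_singleton, Submodule.mem_bot, ← Submodule.Quotient.mk_smul,
      Submodule.Quotient.mk_eq_zero]
    exact Submodule.smul_mem_pointwise_smul v a ⊤ Submodule.mem_top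
  have hap : a ∉ p := by
    intro h1
    rw [hx, Submodule.mem_colon_singleton, Submodule.mem_bot] at h1
    exact hx0 (hreg (by simpa using h1))
  exact lt_of_le_of_ne hpq (fun h => hap (h ▸ haq))

theorem dim_quot_succ_le {R : Type} [CommRing R] (p q : Ideal R) (hp : p.IsPrime) (hq : q.IsPrime)
    (h : p < q) : ringKrullDim (R ⧸ q) + 1 ≤ ringKrullDim (R ⧸ p) := by
  obtain ⟨a, haq, hap⟩ := SetLike.exists_of_lt h
  have ha0 : Ideal.Quotient.mk p a ∈ nonZeroDivisors (R ⧸ p) := by
    apply mem_nonZeroDivisors_of_ne_zero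
    rw [Ne, Ideal.Quotient.eq_zero_iff_mem]
    exact hap
  have h1 := ringKrullDim_quotient_succ_le_of_nonZeroDivisor ha0
  refine le_trans (add_le_add_left ?_ 1) h1
  let f : (R ⧸ p) ⧸ Ideal.span {Ideal.Quotient.mk p a} →+* R ⧸ q :=
    Ideal.Quotient.lift _ (Ideal.Quotient.factor h.le) (by
      intro y hy
      obtain ⟨c, rfl⟩ := Ideal.mem_span_singleton'.1 hy
      rw [map_mul, Ideal.Quotient.factor_mk, Ideal.Quotient.eq_zero_iff_mem.2 haq, mul_zero])
  refine ringKrullDim_le_of_surjective f ?_
  apply Ideal.Quotient.lift_surjective_of_surjective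
  exact Ideal.Quotient.factor_surjective h.le

theorem length_le_dim_quot {R : Type} [CommRing R] [IsLocalRing R] [IsNoetherianRing R]
    (rs : List R) (hmem : ∀ r ∈ rs, r ∈ maximalIdeal R) (M : Type)
    [AddCommGroup M] [Module R M] [Module.Finite R M] (hreg : IsWeaklyRegular M rs)
    (p : Ideal R) (hp : IsAssociatedPrime p M) :
    ((rs.length : ℕ) : WithBot ℕ∞) ≤ ringKrullDim (R ⧸ p) := by
  have key : ∀ (rs : List R), (∀ r ∈ rs, r ∈ maximalIdeal R) → ∀ (M : Type) [AddCommGroup M]
      [Module R M] [Module.Finite R M], IsWeaklyRegular M rs → ∀ p : Ideal R,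
      IsAssociatedPrime p M → ((rs.length : ℕ) : WithBot ℕ∞) ≤ ringKrullDim (R ⧸ p) := by
    intro rs
    induction rs with
    | nil =>
      intro _ M _ _ _ _ p hp
      have := hp.isPrime
      have : Nontrivial (R ⧸ p) := Ideal.Quotient.nontrivial_iff.2 hp.isPrime.ne_top
      simpa using ringKrullDim_nonneg_of_nontrivial (R := R ⧸ p)
    | cons a rs ih =>
      intro hmem M _ _ _ hreg p hp
      rw [isWeaklyRegular_cons_iff] at hreg
      obtain ⟨q, hq, hpq⟩ := exists_ass_quotSMulTop p hp a (hmem a (by simp)) hreg.1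
      have h1 := ih (fun r hr => hmem r (by simp [hr])) (QuotSMulTop a M) hreg.2 q hq
      refine le_trans ?_ (dim_quot_succ_le p q hp.isPrime hq.isPrime hpq)
      rw [List.length_cons]
      push_cast
      exact add_le_add_left h1 1
  exact key rs hmem M hreg p hp

end R169
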