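import Mathlib

/-!
# R169 FIN piece FC2: `dim R/p ≤ |xs|` if `m^N ≤ (x, xs) + J`, `x ∈ p`, `J ≤ p` (general commutative algebra).

In `R/p` (local Noetherian): the image of `m^N` lies in the ideal generated by the images of `xs`; so the quotient of `R/p` by it
has dimension `≤ 0` (its only prime is the maximal ideal) and `ringKrullDim_le_ringKrullDim_quotient_add_card`
(or Krull's height theorem `Ideal.height_le_card_of_mem_minimalPrimes_span_finset` for the maximal ideal and
`IsLocalRing.maximalIdeal_height_eq_ringKrullDim`).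
-/

set_option autoImplicit false

namespace R169

open IsLocalRing

theorem dim_quot_le {R : Type} [CommRing R] [IsLocalRing R] [IsNoetherianRing R] (p J : Ideal R)
    (hp : p.IsPrime) (x : R) (xs : List R) (hx : x ∈ p) (hmem : ∀ y ∈ xs, y ∈ maximalIdeal R)
    (N : ℕ) (hN : maximalIdeal R ^ N ≤ Ideal.ofList (x :: xs) ⊔ J) (hJ : J ≤ p) :
    ringKrullDim (R ⧸ p) ≤ ((xs.length : ℕ) : WithBot ℕ∞) := by
  classical
  have hnt : Nontrivial (R ⧸ p) := Ideal.Quotient.nontrivial_iff.2 hp.ne_top
  have hloc : IsLocalRing (R ⧸ p) :=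
    IsLocalRing.of_surjective' (Ideal.Quotient.mk p) Ideal.Quotient.mk_surjective
  set mk := Ideal.Quotient.mk p with hmk
  have hmax : (maximalIdeal R).map mk = maximalIdeal (R ⧸ p) := by
    refine le_antisymm ?_ ?_
    · rw [Ideal.map_le_iff_le_comap]
      intro y hy
      rw [Ideal.mem_comap, mem_maximalIdeal, mem_nonunits_iff]
      intro h
      obtain ⟨z, hz⟩ := h.exists_right_inv
      obtain ⟨z, rfl⟩ := Ideal.Quotient.mk_surjective z
      rw [← map_mul, ← map_one mk, Ideal.Quotient.eq] at hz
      have h1 : y * z - 1 ∈ maximalIdeal R := le_maximalIdeal hp.ne_top hz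
      have h2 : (1 : R) ∈ maximalIdeal R := by
        have := Ideal.sub_mem _ (Ideal.mul_mem_right z _ hy) h1
        simpa using this
      exact (Ideal.ne_top_iff_one _).1 (maximalIdeal.isMaximal R).ne_top h2
    · intro y hy
      obtain ⟨z, rfl⟩ := Ideal.Quotient.mk_surjective y
      refine Ideal.mem_map_of_mem mk ?_
      rw [mem_maximalIdeal, mem_nonunits_iff] at hy ⊢
      exact fun h => hy (h.map mk)
  set s : Finset (R ⧸ p) := (xs.map mk).toFinset with hs
  have hle : (maximalIdeal (R ⧸ p)) ^ N ≤ Ideal.span (s : Set (R ⧸ p)) := by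
    rw [← hmax, ← Ideal.map_pow, Ideal.map_le_iff_le_comap]
    refine hN.trans (sup_le ?_ ?_)
    · rw [Ideal.ofList, Ideal.span_le]
      intro y hy
      simp only [List.mem_cons, Set.mem_ofPred_eq] at hy
      change mk y ∈ Ideal.span (s : Set (R ⧸ p))
      rcases hy with rfl | hy
      · rw [(Ideal.Quotient.eq_zero_iff_mem).2 hx]; exact Ideal.zero_mem _
      · exact Ideal.subset_span (by
          rw [hs, List.coe_toFinset]
          exact List.mem_map_of_mem hy)
    · intro y hy
      change mk y ∈ Ideal.span (s : Set (R ⧸ p))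
      rw [(Ideal.Quotient.eq_zero_iff_mem).2 (hJ hy)]; exact Ideal.zero_mem _
  have hmin : maximalIdeal (R ⧸ p) ∈ (Ideal.span (s : Set (R ⧸ p))).minimalPrimes := by
    refine ⟨⟨inferInstance, ?_⟩, ?_⟩
    · rw [Ideal.span_le]
      intro y hy
      rw [hs, List.coe_toFinset] at hy
      obtain ⟨z, hz, rfl⟩ := List.mem_map.1 hy
      rw [← hmax]
      exact Ideal.mem_map_of_mem mk (hmem z hz)
    · rintro q ⟨hq, hq'⟩ _
      exact Ideal.IsPrime.le_of_pow_le (hle.trans hq')
  rw [← IsLocalRing.maximalIdeal_height_eq_ringKrullDim]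
  have h1 := Ideal.height_le_card_of_mem_minimalPrimes_span_finset hmin
  have h2 : s.card ≤ xs.length := by
    rw [hs]
    exact (List.toFinset_card_le _).trans (by rw [List.length_map])
  exact_mod_cast h1.trans (by exact_mod_cast h2)

end R169
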