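import Mathlib

/-!
# R169 FIN piece FC3: depth drops by at most one (Rees theorem of Mathlib).

Mathlib.RingTheory.Depth.Rees: `ModuleCat.exists_isRegular_tfae` for `I = maximalIdeal R`, `n+1` and `M`: (4) → (2):
`Ext (R/m) M i = 0` for `i < n+1` (`ModuleCat.subsingleton_ext_of_exists_isRegular`). Exact sequence of
`smulShortComplex M x` (as in the proof of `ModuleCat.exists_isRegular_of_exists_subsingleton_ext`, copy
the five lines `h_ext'`): `Ext (R/m) (M/xM) i = 0` for `i < n`; then (2) → (4) for `QuotSMulTop x M`
(`ModuleCat.exists_isRegular_of_exists_subsingleton_ext`). Everything is in `Type` (universe 0).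
`m • ⊤ < ⊤` by Nakayama (`M ≠ 0`, and `M/xM ≠ 0`).
-/

set_option autoImplicit false

namespace R169

open IsLocalRing RingTheory.Sequence

open CategoryTheory Abelian Limits Pointwise IsSMulRegular in
theorem exists_regular_quot {R : Type} [CommRing R] [IsLocalRing R] [IsNoetherianRing R]
    (M : Type) [AddCommGroup M] [Module R M] [Module.Finite R M] (n : ℕ) (rs : List R)
    (hlen : rs.length = n + 1) (hmem : ∀ r ∈ rs, r ∈ maximalIdeal R) (hreg : IsRegular M rs)
    (x : R) (hx : x ∈ maximalIdeal R) (hxr : IsSMulRegular M x) :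
    ∃ rs' : List R, rs'.length = n ∧ (∀ r ∈ rs', r ∈ maximalIdeal R) ∧
      IsRegular (QuotSMulTop x M) rs' := by
  have hntr : Nontrivial M := hreg.nontrivial
  have hlt : maximalIdeal R • (⊤ : Submodule R M) < ⊤ := by
    rw [lt_top_iff_ne_top]
    intro h
    exact absurd h.symm (Submodule.top_ne_ideal_smul_of_le_jacobson_annihilator
      (IsLocalRing.maximalIdeal_le_jacobson _))
  let N : ModuleCat.{0} R := ModuleCat.of R (R ⧸ maximalIdeal R)
  have hsupp : Module.support R N = PrimeSpectrum.zeroLocus (maximalIdeal R) := by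
    show Module.support R (R ⧸ maximalIdeal R) = _
    rw [Module.support_eq_zeroLocus, Ideal.annihilator_quotient]
  have hfinN : Module.Finite R N := by
    show Module.Finite R (R ⧸ maximalIdeal R)
    infer_instance
  have h1 := ModuleCat.subsingleton_ext_of_exists_isRegular (maximalIdeal R) N hsupp.subset
    (ModuleCat.of R M) hlt rs hmem hreg
  have h2 : ∀ i < n, Subsingleton (Ext N (ModuleCat.of R (QuotSMulTop x M)) i) := by
    intro i hi
    have zero1 := AddCommGrpCat.isZero_of_iff_subsingleton.mpr (h1 i (by omega))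
    have zero2 := AddCommGrpCat.isZero_of_iff_subsingleton.mpr (h1 (i + 1) (by omega))
    have hxr' : IsSMulRegular (ModuleCat.of R M) x := hxr
    exact AddCommGrpCat.subsingleton_of_isZero <| ShortComplex.Exact.isZero_of_both_zeros
      ((Ext.covariant_sequence_exact₃' N hxr'.smulShortComplex_shortExact) i (i + 1) rfl)
      (zero1.eq_zero_of_src _) (zero2.eq_zero_of_tgt _)
  have hlt2 : maximalIdeal R • (⊤ : Submodule R (QuotSMulTop x M)) < ⊤ := by
    rw [lt_top_iff_ne_top]
    intro h
    have hn : Nontrivial (QuotSMulTop x M) := nontrivial_quotSMulTop_of_mem_maximalIdeal M hx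
    exact absurd h.symm (Submodule.top_ne_ideal_smul_of_le_jacobson_annihilator
      (IsLocalRing.maximalIdeal_le_jacobson _))
  exact ModuleCat.exists_isRegular_of_exists_subsingleton_ext (maximalIdeal R) n
    (ModuleCat.of R (QuotSMulTop x M)) hlt2 N hsupp h2

end R169
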