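import Crest.Agent.R169.FC1
import Crest.Agent.R169.FC2
import Crest.Agent.R169.FC3

/-!
# R169 FIN piece FC4: every system of parameters of the right length is regular (general commutative algebra).

Induction on `n` (generalising `M`). `n = 0`: `xs = []`, `IsRegular M []` iff nontrivial. Step: `xs = x :: xs'`.
(1) `x` is `M`-regular: otherwise `x` lies in an associated prime `p` of `M` (`biUnion_associatedPrimes_eq_zero_divisors`);
FC1 `length_le_dim_quot`: `n + 1 ≤ dim R/p`; FC2 with `J = Module.annihilator R M ≤ p`: `dim R/p ≤ n`. Contradiction.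
(2) FC3: `M/xM` has a regular sequence of length `n` in `m`; `Module.annihilator R M ≤ Module.annihilator R (M/xM) ∋ x`;
induction hypothesis for `xs'`. Then `isRegular_cons_iff`.
-/

set_option autoImplicit false

namespace R169

open IsLocalRing RingTheory.Sequence

theorem isRegular_of_pow_le {R : Type} [CommRing R] [IsLocalRing R] [IsNoetherianRing R] (n : ℕ) :
    ∀ (M : Type) [AddCommGroup M] [Module R M] [Module.Finite R M] (rs xs : List R),
      rs.length = n → xs.length = n → (∀ r ∈ rs, r ∈ maximalIdeal R) →
      (∀ r ∈ xs, r ∈ maximalIdeal R) →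
      (∃ N : ℕ, maximalIdeal R ^ N ≤ Ideal.ofList xs ⊔ Module.annihilator R M) →
      IsRegular M rs → IsRegular M xs := by
  induction n with
  | zero =>
    intro M _ _ _ rs xs h1 h2 _ _ _ h
    rw [List.length_eq_zero_iff.1 h2, ← List.length_eq_zero_iff.1 h1]
    exact h
  | succ n ih =>
    intro M _ _ _ rs xs h1 h2 hrs hxs hN hreg
    obtain ⟨N, hN⟩ := hN
    obtain ⟨x, xs, rfl⟩ := List.exists_cons_of_length_eq_add_one h2
    have hx : x ∈ maximalIdeal R := hxs x List.mem_cons_self
    have hxs' : ∀ y ∈ xs, y ∈ maximalIdeal R := fun y hy => hxs y (List.mem_cons_of_mem _ hy)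
    have hlen : xs.length = n := by simpa using h2
    have hxr : IsSMulRegular M x := by
      by_contra hxr
      have h3 : x ∈ ⋃ p ∈ associatedPrimes R M, (p : Set R) := by
        rw [biUnion_associatedPrimes_eq_compl_regular R M]
        exact hxr
      simp only [Set.mem_iUnion, SetLike.mem_coe] at h3
      obtain ⟨p, hp, hxp⟩ := h3
      have hp' : IsAssociatedPrime p M := hp
      have h4 := length_le_dim_quot rs hrs M hreg.toIsWeaklyRegular p hp'
      have h5 := dim_quot_le p (Module.annihilator R M) hp'.1 x xs hxp hxs' N hN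
        (Submodule.annihilator_top (R := R) (M := M) ▸ hp'.annihilator_le)
      have h6 := h4.trans h5
      rw [h1, hlen] at h6
      have h7 : n + 1 ≤ n := by exact_mod_cast h6
      omega
    obtain ⟨rs', h3, h4, h5⟩ := exists_regular_quot M n rs h1 hrs hreg x hx hxr
    refine (isRegular_cons_iff M x xs).2 ⟨hxr, ih (QuotSMulTop x M) rs' xs h3 hlen h4 hxs'
      ⟨N, hN.trans ?_⟩ h5⟩
    have h6 : Module.annihilator R M ≤ Module.annihilator R (QuotSMulTop x M) :=
      LinearMap.annihilator_le_of_surjective (R := R) _ (Submodule.mkQ_surjective _)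
    have h7 : x ∈ Module.annihilator R (QuotSMulTop x M) := by
      rw [Module.mem_annihilator]
      intro m
      obtain ⟨m, rfl⟩ := Submodule.mkQ_surjective _ m
      rw [← map_smul]
      rw [Submodule.mkQ_apply, Submodule.Quotient.mk_eq_zero]
      exact Submodule.smul_mem_pointwise_smul _ _ _ trivial
    rw [Ideal.ofList_cons]
    refine sup_le (sup_le ?_ le_sup_left) (h6.trans le_sup_right)
    rw [Ideal.span_singleton_le_iff_mem]
    exact Ideal.mem_sup_right h7

end R169
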