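import Crest.Agent.R169.Defs2

/-!
# R169 FIN, file FC5: regular ⇒ quasi-regular (definitions and statements; general commutative algebra).

Multi-indices `a : Fin n → ℕ` of degree `j` = `Finset.Nat.antidiagonalTuple n j`; `x^a = ∏ i, x i ^ a i`.
Pieces: FC5A (`mem_pow_smul_iff`), FC5B (`Qr.step`), FC5C (`Qr.cons`), FC5D (`Qr.qreg`, `qreg_of_regular`).
-/

set_option autoImplicit false

namespace R169

variable {R : Type} [CommRing R]

/-- `J_n = (x_0, …, x_{n-1}) M`-relations have coefficients in `J M` -/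
def Qr (n : ℕ) (x : Fin n → R) (M : Type) [AddCommGroup M] [Module R M] : Prop :=
  ∀ (j : ℕ) (F : (Fin n → ℕ) → M),
    ∑ a ∈ Finset.Nat.antidiagonalTuple n j, (∏ i, x i ^ a i) • F a = 0 →
    ∀ a ∈ Finset.Nat.antidiagonalTuple n j, F a ∈ Ideal.span (Set.range x) • (⊤ : Submodule R M)

/-- the reversed sequence is regular: `x_{n-1}` on `M`, `x_{n-2}` on `M/x_{n-1}M`, …, `x_0` on `M/(x_1,…,x_{n-1})M`. -/
def RegRev (M : Type) [AddCommGroup M] [Module R M] : (n : ℕ) → (Fin n → R) → Prop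
  | 0, _ => True
  | n + 1, x => RegRev M n (Fin.tail x) ∧
      IsSMulRegular (M ⧸ (Ideal.span (Set.range (Fin.tail x)) • (⊤ : Submodule R M))) (x 0)

end R169
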