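import Crest.Agent.R169.FC5

/-!
# R169 FIN piece FC5A: `I^j M = { ∑_{|a|=j} x^a m_a }`, and sums over `antidiagonalTuple (n+1) j`.

`mem_pow_smul_iff`: induction on `j` (`I^(j+1) M = I (I^j M) = ∑ x_i I^j M`), or `Ideal.span_pow...`.
`sum_antidiagonalTuple_succ`: separates the multi-indices with `a 0 = 0` (`Fin.cons 0 b`) from those with `a 0 = i+1`
(`a = Fin.cons (i+1) b ↔ a' = Fin.cons i b` of degree `j`): for `j+1`.
-/

set_option autoImplicit false

namespace R169

variable {R : Type} [CommRing R] {M : Type} [AddCommGroup M] [Module R M]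

theorem mem_pow_smul_iff (n : ℕ) (x : Fin n → R) (j : ℕ) (w : M) :
    w ∈ (Ideal.span (Set.range x)) ^ j • (⊤ : Submodule R M) ↔
      ∃ F : (Fin n → ℕ) → M, w = ∑ a ∈ Finset.Nat.antidiagonalTuple n j, (∏ i, x i ^ a i) • F a := by
  classical
  set I := Ideal.span (Set.range x) with hI
  -- closure properties
  have hadd : ∀ (j : ℕ) (u v : M),
      (∃ F : (Fin n → ℕ) → M, u = ∑ a ∈ Finset.Nat.antidiagonalTuple n j, (∏ i, x i ^ a i) • F a) →
      (∃ F : (Fin n → ℕ) → M, v = ∑ a ∈ Finset.Nat.antidiagonalTuple n j, (∏ i, x i ^ a i) • F a) →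
      (∃ F : (Fin n → ℕ) → M,
        u + v = ∑ a ∈ Finset.Nat.antidiagonalTuple n j, (∏ i, x i ^ a i) • F a) := by
    rintro j u v ⟨F, rfl⟩ ⟨G, rfl⟩
    exact ⟨F + G, by simp only [Pi.add_apply, smul_add, Finset.sum_add_distrib]⟩
  have hsmul : ∀ (j : ℕ) (r : R) (u : M),
      (∃ F : (Fin n → ℕ) → M, u = ∑ a ∈ Finset.Nat.antidiagonalTuple n j, (∏ i, x i ^ a i) • F a) →
      (∃ F : (Fin n → ℕ) → M,
        r • u = ∑ a ∈ Finset.Nat.antidiagonalTuple n j, (∏ i, x i ^ a i) • F a) := by
    rintro j r u ⟨F, rfl⟩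
    refine ⟨r • F, ?_⟩
    rw [Finset.smul_sum]
    refine Finset.sum_congr rfl fun a _ => ?_
    rw [Pi.smul_apply, smul_comm]
  have hzero : ∀ (j : ℕ), (∃ F : (Fin n → ℕ) → M,
        (0 : M) = ∑ a ∈ Finset.Nat.antidiagonalTuple n j, (∏ i, x i ^ a i) • F a) := by
    intro j
    exact ⟨0, by simp⟩
  have hsingle : ∀ (j : ℕ) (b : Fin n → ℕ) (m : M), ∑ i, b i = j → (∃ F : (Fin n → ℕ) → M,
        (∏ i, x i ^ b i) • m =
          ∑ a ∈ Finset.Nat.antidiagonalTuple n j, (∏ i, x i ^ a i) • F a) := by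
    intro j b m hb
    refine ⟨fun a => if a = b then m else 0, ?_⟩
    rw [Finset.sum_eq_single_of_mem b (Finset.Nat.mem_antidiagonalTuple.2 hb)]
    · simp
    · intro a _ hab
      simp [hab]
  constructor
  · intro hw
    induction j generalizing w with
    | zero =>
      have := hsingle 0 0 w (by simp)
      simpa using this
    | succ j ih =>
      rw [pow_succ', Submodule.mul_smul] at hw
      refine Submodule.smul_induction_on hw ?_ (fun u v => hadd (j + 1) u v)
      intro r hr u hu
      obtain ⟨F, rfl⟩ := ih u hu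
      rw [hI] at hr
      induction hr using Submodule.span_induction with
      | mem r hr =>
        obtain ⟨i, rfl⟩ := hr
        rw [Finset.smul_sum]
        refine Finset.sum_induction _ (fun z => ∃ F : (Fin n → ℕ) → M,
          z = ∑ a ∈ Finset.Nat.antidiagonalTuple n (j + 1), (∏ i, x i ^ a i) • F a)
          (fun u v => hadd (j + 1) u v) (hzero (j + 1)) ?_
        intro a ha
        rw [Finset.Nat.mem_antidiagonalTuple] at ha
        have h2 := hsingle (j + 1) (a + Pi.single i 1) (F a) (by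
          simp only [Pi.add_apply, Finset.sum_add_distrib, ha, Finset.sum_pi_single',
            Finset.mem_univ, if_true])
        have h3 : (∏ k, x k ^ (a + Pi.single i 1 : Fin n → ℕ) k) = x i * ∏ k, x k ^ a k := by
          simp only [Pi.add_apply, pow_add, Finset.prod_mul_distrib]
          rw [mul_comm]
          congr 1
          rw [Finset.prod_eq_single i]
          · simp
          · intro k _ hk
            simp [hk]
          · simp
        rw [h3, mul_smul] at h2
        exact h2
      | zero => rw [zero_smul]; exact hzero _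
      | add r s _ _ hr hs => rw [add_smul]; exact hadd _ _ _ hr hs
      | smul c r _ hr => rw [smul_assoc]; exact hsmul _ _ _ hr
  · rintro ⟨F, rfl⟩
    refine Submodule.sum_mem _ fun a ha => Submodule.smul_mem_smul ?_ Submodule.mem_top
    rw [Finset.Nat.mem_antidiagonalTuple] at ha
    have h := Ideal.prod_mem_prod (ι := Fin n) (s := Finset.univ) (I := fun i => I ^ a i)
      (x := fun i => x i ^ a i) (fun i _ => Ideal.pow_mem_pow
        (Ideal.subset_span (Set.mem_range_self i)) _)
    rwa [Finset.prod_pow_eq_pow_sum, ha] at h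

theorem mem_antidiagonalTuple_succ_iff (n j : ℕ) (a : Fin (n + 1) → ℕ) :
    a ∈ Finset.Nat.antidiagonalTuple (n + 1) (j + 1) ↔
      (a 0 = 0 ∧ Fin.tail a ∈ Finset.Nat.antidiagonalTuple n (j + 1)) ∨
      (∃ a' ∈ Finset.Nat.antidiagonalTuple (n + 1) j, a = Fin.cons (a' 0 + 1) (Fin.tail a')) := by
  simp only [Finset.Nat.mem_antidiagonalTuple, Fin.sum_univ_succ]
  constructor
  · intro h
    rcases Nat.eq_zero_or_pos (a 0) with h0 | h0
    · left
      refine ⟨h0, ?_⟩
      simp only [Fin.tail]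
      omega
    · right
      refine ⟨Fin.cons (a 0 - 1) (Fin.tail a), ?_, ?_⟩
      · simp only [Fin.cons_zero, Fin.cons_succ, Fin.tail]
        omega
      · rw [Fin.cons_zero, Fin.tail_cons, Nat.sub_add_cancel h0, Fin.cons_self_tail]
  · rintro (⟨h0, h⟩ | ⟨a', h, rfl⟩)
    · simp only [Fin.tail] at h
      omega
    · simp only [Fin.cons_zero, Fin.cons_succ, Fin.tail]
      omega

theorem sum_antidiagonalTuple_succ {A : Type} [AddCommMonoid A] (n j : ℕ) (g : (Fin (n + 1) → ℕ) → A) :
    ∑ a ∈ Finset.Nat.antidiagonalTuple (n + 1) (j + 1), g a =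
      ∑ b ∈ Finset.Nat.antidiagonalTuple n (j + 1), g (Fin.cons 0 b) +
      ∑ a ∈ Finset.Nat.antidiagonalTuple (n + 1) j, g (Fin.cons (a 0 + 1) (Fin.tail a)) := by
  classical
  have hU : Finset.Nat.antidiagonalTuple (n + 1) (j + 1) =
      (Finset.Nat.antidiagonalTuple n (j + 1)).image (fun b => (Fin.cons 0 b : Fin (n + 1) → ℕ)) ∪
      (Finset.Nat.antidiagonalTuple (n + 1) j).image
        (fun a => (Fin.cons (a 0 + 1) (Fin.tail a) : Fin (n + 1) → ℕ)) := by
    ext a
    rw [mem_antidiagonalTuple_succ_iff, Finset.mem_union, Finset.mem_image, Finset.mem_image]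
    constructor
    · rintro (⟨h0, h⟩ | ⟨a', h, rfl⟩)
      · left
        exact ⟨Fin.tail a, h, by rw [← h0, Fin.cons_self_tail]⟩
      · right
        exact ⟨a', h, rfl⟩
    · rintro (⟨b, h, rfl⟩ | ⟨a', h, rfl⟩)
      · left
        exact ⟨Fin.cons_zero _ _, by rw [Fin.tail_cons]; exact h⟩
      · right
        exact ⟨a', h, rfl⟩
  rw [hU, Finset.sum_union, Finset.sum_image, Finset.sum_image]
  · intro a _ b _ hab
    simp only at hab
    have h1 := congrFun hab 0
    have h2 := congrArg Fin.tail hab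
    simp only [Fin.cons_zero] at h1
    rw [Fin.tail_cons, Fin.tail_cons] at h2
    rw [← Fin.cons_self_tail a, ← Fin.cons_self_tail b, h2, Nat.succ_injective h1]
  · intro a _ b _ hab
    simp only at hab
    have h2 := congrArg Fin.tail hab
    rwa [Fin.tail_cons, Fin.tail_cons] at h2
  · rw [Finset.disjoint_left]
    intro a ha hb
    rw [Finset.mem_image] at ha hb
    obtain ⟨b, _, rfl⟩ := ha
    obtain ⟨c, _, hc⟩ := hb
    have h1 := congrFun hc 0
    simp at h1

end R169
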