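import Crest.Agent.R169.FC5A

/-!
# R169 FIN piece FC5B: if `x_1..x_n` satisfies `Qr` and `c` is regular on `M/JM`, `J = (x_1..x_n)`, then `c` is regular on
`M/J^j M` for all `j`.

Induction on `j` (`j = 0` trivial: `J^0 • ⊤ = ⊤`). `c w ∈ J^{j+1} M ≤ J^j M`, so `w ∈ J^j M` by induction:
`w = ∑_{|a|=j} x^a G_a` (`mem_pow_smul_iff`). `c w ∈ J^{j+1} M = J (J^j M)`: `c w = ∑_{|a|=j} x^a H_a` with all `H_a ∈ J M`
(this is a version of `mem_pow_smul_iff`: an element of `J^{j+1} M` is `∑_{|a|=j} x^a H_a`, `H_a ∈ J M`; prove it first: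
`mem_pow_succ_smul`). `∑ x^a (c G_a - H_a) = 0`, so by `Qr` `c G_a - H_a ∈ J M`, `c G_a ∈ J M`, `G_a ∈ J M` (regularity),
so `w ∈ J^{j+1} M`.
-/

set_option autoImplicit false

namespace R169

variable {R : Type} [CommRing R] {M : Type} [AddCommGroup M] [Module R M]

theorem mem_pow_succ_smul (n : ℕ) (x : Fin n → R) (j : ℕ) (w : M) :
    w ∈ (Ideal.span (Set.range x)) ^ (j + 1) • (⊤ : Submodule R M) ↔
      ∃ F : (Fin n → ℕ) → M, (∀ a, F a ∈ Ideal.span (Set.range x) • (⊤ : Submodule R M)) ∧
        w = ∑ a ∈ Finset.Nat.antidiagonalTuple n j, (∏ i, x i ^ a i) • F a := by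
  set I := Ideal.span (Set.range x) with hI
  rw [pow_succ, Submodule.mul_smul]
  constructor
  · intro hw
    refine Submodule.smul_induction_on hw ?_ ?_
    · intro r hr m hm
      have hr' : r ∈ I ^ j • (⊤ : Submodule R R) := by
        rw [smul_eq_mul, Ideal.mul_top]
        exact hr
      obtain ⟨G, hG⟩ := (mem_pow_smul_iff n x j r).1 hr'
      refine ⟨fun a => G a • m, fun a => Submodule.smul_mem _ _ hm, ?_⟩
      rw [hG, Finset.sum_smul]
      exact Finset.sum_congr rfl fun a _ => by rw [smul_eq_mul, mul_smul]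
    · rintro u v ⟨F, hF, rfl⟩ ⟨G, hG, rfl⟩
      refine ⟨F + G, fun a => Submodule.add_mem _ (hF a) (hG a), ?_⟩
      simp only [Pi.add_apply, smul_add, Finset.sum_add_distrib]
  · rintro ⟨F, hF, rfl⟩
    refine Submodule.sum_mem _ fun a ha => Submodule.smul_mem_smul ?_ (hF a)
    rw [Finset.Nat.mem_antidiagonalTuple] at ha
    have h := Ideal.prod_mem_prod (ι := Fin n) (s := Finset.univ) (I := fun i => I ^ a i)
      (x := fun i => x i ^ a i) (fun i _ => Ideal.pow_mem_pow
        (Ideal.subset_span (Set.mem_range_self i)) _)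
    rwa [Finset.prod_pow_eq_pow_sum, ha] at h

theorem Qr.step {n : ℕ} {x : Fin n → R} (hq : Qr n x M) (c : R)
    (hc : IsSMulRegular (M ⧸ (Ideal.span (Set.range x) • (⊤ : Submodule R M))) c) (j : ℕ) (w : M)
    (h : c • w ∈ (Ideal.span (Set.range x)) ^ j • (⊤ : Submodule R M)) :
    w ∈ (Ideal.span (Set.range x)) ^ j • (⊤ : Submodule R M) := by
  induction j generalizing w with
  | zero =>
    rw [pow_zero, Ideal.one_eq_top, Submodule.top_smul]
    exact Submodule.mem_top
  | succ j ih =>
    have h1 : w ∈ (Ideal.span (Set.range x)) ^ j • (⊤ : Submodule R M) :=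
      ih w (Submodule.smul_mono_left (Ideal.pow_le_pow_right (Nat.le_succ j)) h)
    obtain ⟨G, hG⟩ := (mem_pow_smul_iff n x j w).1 h1
    obtain ⟨H, hH, hH2⟩ := (mem_pow_succ_smul n x j _).1 h
    have h2 : ∑ a ∈ Finset.Nat.antidiagonalTuple n j, (∏ i, x i ^ a i) • (c • G a - H a) = 0 := by
      simp only [smul_sub, Finset.sum_sub_distrib]
      rw [← hH2, hG, Finset.smul_sum, sub_eq_zero]
      exact Finset.sum_congr rfl fun a _ => smul_comm _ _ _
    have h3 := hq j (fun a => c • G a - H a) h2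
    have h4 : ∀ a ∈ Finset.Nat.antidiagonalTuple n j,
        G a ∈ Ideal.span (Set.range x) • (⊤ : Submodule R M) := by
      intro a ha
      have h5 : c • G a ∈ Ideal.span (Set.range x) • (⊤ : Submodule R M) := by
        have := Submodule.add_mem _ (h3 a ha) (hH a)
        simpa using this
      rw [← Submodule.Quotient.mk_eq_zero] at h5 ⊢
      apply hc
      simpa using h5
    rw [mem_pow_succ_smul]
    classical
    refine ⟨fun a => if a ∈ Finset.Nat.antidiagonalTuple n j then G a else 0, ?_, ?_⟩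
    · intro a
      by_cases ha : a ∈ Finset.Nat.antidiagonalTuple n j
      · simp only [ha, if_true]; exact h4 a ha
      · simp only [ha, if_false]; exact Submodule.zero_mem _
    · rw [hG]
      exact Finset.sum_congr rfl fun a ha => by simp only [ha, if_true]

end R169
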