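import Crest.Agent.R169.FC5B

/-!
# R169 FIN piece FC5C: `Qr n (tail x)` and `x_0` regular on `M/(tail x)M` imply `Qr (n+1) x`.

Let `J = (tail x)`, `I = (x)`. Induction on the degree `j` of `F`. `j = 0`: the only multi-index is `0`, `F 0 = 0`.
`j+1`: `sum_antidiagonalTuple_succ`: `0 = ∑_{|b|=j+1} (tail x)^b F(cons 0 b) + x_0 • H`,
`H = ∑_{|a|=j} x^a F(cons (a 0 + 1) (tail a))`. So `x_0 H ∈ J^{j+1} M`, `H ∈ J^{j+1} M` (`Qr.step`):
`H = ∑_{|b|=j+1} (tail x)^b h_b`. (i) `Qr n (tail x)` for `F(cons 0 b) + x_0 h_b`: `F(cons 0 b) + x_0 h_b ∈ J M`, so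
`F(cons 0 b) ∈ I M`. (ii) `H ∈ J^{j+1} M ≤ I^{j+1} M = { ∑_{|a|=j} x^a F'_a, F'_a ∈ I M }` (`mem_pow_succ_smul`), so
`∑_{|a|=j} x^a (F(cons (a 0+1) (tail a)) - F'_a) = 0` and by induction on `j` `F(cons (a 0 + 1) (tail a)) ∈ I M`.
All multi-indices of degree `j+1` are of one of the two types (`mem_antidiagonalTuple_succ_iff`).
-/

set_option autoImplicit false

namespace R169

variable {R : Type} [CommRing R] {M : Type} [AddCommGroup M] [Module R M]

theorem Qr.cons {n : ℕ} {x : Fin (n + 1) → R} (hq : Qr n (Fin.tail x) M)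
    (hc : IsSMulRegular (M ⧸ (Ideal.span (Set.range (Fin.tail x)) • (⊤ : Submodule R M))) (x 0)) :
    Qr (n + 1) x M := by
  have hJI : Ideal.span (Set.range (Fin.tail x)) ≤ Ideal.span (Set.range x) := by
    apply Ideal.span_mono
    rintro _ ⟨i, rfl⟩
    exact ⟨i.succ, rfl⟩
  have hx0 : x 0 ∈ Ideal.span (Set.range x) := Ideal.subset_span ⟨0, rfl⟩
  have p1 : ∀ b : Fin n → ℕ, ∏ i, x i ^ (Fin.cons 0 b : Fin (n + 1) → ℕ) i =
      ∏ i, Fin.tail x i ^ b i := by
    intro b
    rw [Fin.prod_univ_succ]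
    simp [Fin.tail]
  have p2 : ∀ a : Fin (n + 1) → ℕ,
      ∏ i, x i ^ (Fin.cons (a 0 + 1) (Fin.tail a) : Fin (n + 1) → ℕ) i = x 0 * ∏ i, x i ^ a i := by
    intro a
    rw [Fin.prod_univ_succ, Fin.prod_univ_succ]
    simp only [Fin.cons_zero, Fin.cons_succ, Fin.tail]
    ring
  intro j
  induction j with
  | zero =>
    intro F hF a ha
    rw [Finset.Nat.antidiagonalTuple_zero_right] at hF ha
    rw [Finset.mem_singleton] at ha
    subst ha
    rw [Finset.sum_singleton] at hF
    simp at hF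
    rw [hF]
    exact Submodule.zero_mem _
  | succ j ih =>
    intro F hF
    rw [sum_antidiagonalTuple_succ] at hF
    simp only [p1, p2, mul_smul] at hF
    rw [← Finset.smul_sum] at hF
    set H : M := ∑ a ∈ Finset.Nat.antidiagonalTuple (n + 1) j,
      (∏ i, x i ^ a i) • F (Fin.cons (a 0 + 1) (Fin.tail a)) with hH
    have h1 : x 0 • H ∈ (Ideal.span (Set.range (Fin.tail x))) ^ (j + 1) • (⊤ : Submodule R M) := by
      rw [mem_pow_smul_iff]
      refine ⟨fun b => - F (Fin.cons 0 b), ?_⟩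
      rw [← add_eq_zero_iff_eq_neg'.1 hF |>.symm]
      simp only [smul_neg, Finset.sum_neg_distrib]
    have h2 := Qr.step hq (x 0) hc (j + 1) H h1
    obtain ⟨h, hh⟩ := (mem_pow_smul_iff n (Fin.tail x) (j + 1) H).1 h2
    -- (i)
    have hi : ∀ b ∈ Finset.Nat.antidiagonalTuple n (j + 1),
        F (Fin.cons 0 b) ∈ Ideal.span (Set.range x) • (⊤ : Submodule R M) := by
      intro b hb
      have h3 := hq (j + 1) (fun b => F (Fin.cons 0 b) + x 0 • h b) (by
        simp only [smul_add, Finset.sum_add_distrib]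
        rw [← hF, hh, Finset.smul_sum]
        congr 1
        exact Finset.sum_congr rfl fun b _ => smul_comm _ _ _) b hb
      have h4 : F (Fin.cons 0 b) + x 0 • h b ∈
          Ideal.span (Set.range x) • (⊤ : Submodule R M) :=
        Submodule.smul_mono_left hJI h3
      have h5 : x 0 • h b ∈ Ideal.span (Set.range x) • (⊤ : Submodule R M) :=
        Submodule.smul_mem_smul hx0 Submodule.mem_top
      have h6 := Submodule.sub_mem _ h4 h5
      rwa [add_sub_cancel_right] at h6
    -- (ii)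
    have hii : ∀ a ∈ Finset.Nat.antidiagonalTuple (n + 1) j,
        F (Fin.cons (a 0 + 1) (Fin.tail a)) ∈ Ideal.span (Set.range x) • (⊤ : Submodule R M) := by
      have h3 : H ∈ (Ideal.span (Set.range x)) ^ (j + 1) • (⊤ : Submodule R M) :=
        Submodule.smul_mono_left (Ideal.pow_right_mono hJI (j + 1)) h2
      obtain ⟨F', hF', hF'2⟩ := (mem_pow_succ_smul (n + 1) x j H).1 h3
      intro a ha
      have h4 := ih (fun a => F (Fin.cons (a 0 + 1) (Fin.tail a)) - F' a) (by
        simp only [smul_sub, Finset.sum_sub_distrib]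
        rw [← hF'2, ← hH, sub_self]) a ha
      have h5 := Submodule.add_mem _ h4 (hF' a)
      rwa [sub_add_cancel] at h5
    intro a ha
    rcases (mem_antidiagonalTuple_succ_iff n j a).1 ha with ⟨h0, ht⟩ | ⟨a', ha', rfl⟩
    · have e : a = Fin.cons 0 (Fin.tail a) := by
        rw [← h0, Fin.cons_self_tail]
      rw [e]
      exact hi _ ht
    · exact hii a' ha'

theorem Qr.of_regRev {n : ℕ} {x : Fin n → R} (h : RegRev M n x) : Qr n x M := by
  induction n with
  | zero =>
    intro j F hF a ha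
    have e : Finset.Nat.antidiagonalTuple 0 j = {a} := by
      ext b
      rw [Finset.mem_singleton]
      constructor
      · intro _
        exact Subsingleton.elim _ _
      · intro hb
        rw [hb]
        exact ha
    rw [e, Finset.sum_singleton] at hF
    simp at hF
    rw [hF]
    exact Submodule.zero_mem _
  | succ n ih => exact Qr.cons (ih h.1) h.2

end R169
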