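import Crest.Agent.R169.FC5C

/-!
# R169 FIN piece FC5D: `Qr 3 x M → QReg x M`, and a regular sequence `[x 2, x 1, x 0]` is quasi-regular.

`Qr.qreg`: `∑_{|a|=j} x^a m_a ∈ I^{j+1} M` equals `∑_{|a|=j} x^a F_a` with `F_a ∈ I M` (`mem_pow_succ_smul`); apply `Qr` to
`m_a - F_a`. `qreg_of_regular`: `RegRev M 3 x` from `IsWeaklyRegular M [x 2, x 1, x 0]`: `regular_mod_prev i` says `rs[i]` is
regular on `M ⧸ ofList (rs.take i) • ⊤`; and `ofList [x 2, x 1] = span (range (tail x))` etc.
-/

set_option autoImplicit false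

namespace R169

variable {R : Type} [CommRing R] {M : Type} [AddCommGroup M] [Module R M]

theorem Qr.qreg {x : Fin 3 → R} (h : Qr 3 x M) : QReg x M := by
  intro j m hm a ha
  obtain ⟨F, hF, he⟩ := (mem_pow_succ_smul 3 x j _).1 hm
  have h1 := h j (fun a => m a - F a) (by
    simp only [smul_sub, Finset.sum_sub_distrib]
    rw [he, sub_self]) a ha
  have h2 : m a = (m a - F a) + F a := by abel
  rw [h2]
  exact Submodule.add_mem _ h1 (hF a)

private theorem reg_congr {N N' : Submodule R M} (h : N = N') (c : R)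
    (hc : IsSMulRegular (M ⧸ N) c) : IsSMulRegular (M ⧸ N') c := h ▸ hc

theorem qreg_of_regular (x : Fin 3 → R)
    (h : RingTheory.Sequence.IsWeaklyRegular M [x 2, x 1, x 0]) : QReg x M := by
  have h0 := h.regular_mod_prev 0 (by simp)
  have h1 := h.regular_mod_prev 1 (by simp)
  have h2 := h.regular_mod_prev 2 (by simp)
  have r0 : IsSMulRegular
      (M ⧸ (Ideal.span (Set.range (Fin.tail (Fin.tail (Fin.tail x)))) • (⊤ : Submodule R M)))
      (Fin.tail (Fin.tail x) 0) := by
    refine reg_congr ?_ _ h0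
    congr 1
    rw [Ideal.ofList]
    congr 1
    ext r
    simp [Fin.tail]
  have r1 : IsSMulRegular
      (M ⧸ (Ideal.span (Set.range (Fin.tail (Fin.tail x))) • (⊤ : Submodule R M)))
      (Fin.tail x 0) := by
    refine reg_congr ?_ _ h1
    congr 1
    rw [Ideal.ofList]
    congr 1
    ext r
    constructor
    · intro hr
      have hr' : r = x 2 := by simpa using hr
      exact ⟨0, hr'.symm⟩
    · rintro ⟨i, rfl⟩
      have hi : i = 0 := Subsingleton.elim _ _
      subst hi
      have : Fin.tail (Fin.tail x) 0 = x 2 := rfl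
      simp [this]
  have r2 : IsSMulRegular
      (M ⧸ (Ideal.span (Set.range (Fin.tail x)) • (⊤ : Submodule R M))) (x 0) := by
    refine reg_congr ?_ _ h2
    congr 1
    rw [Ideal.ofList]
    congr 1
    ext r
    constructor
    · intro hr
      have hr' : r = x 2 ∨ r = x 1 := by simpa using hr
      rcases hr' with hr' | hr'
      · exact ⟨1, hr'.symm⟩
      · exact ⟨0, hr'.symm⟩
    · rintro ⟨i, rfl⟩
      have hi : i = 0 ∨ i = 1 := by omega
      rcases hi with rfl | rfl
      · have : Fin.tail x 0 = x 1 := rfl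
        simp [this]
      · have : Fin.tail x 1 = x 2 := rfl
        simp [this]
  exact (Qr.of_regRev (n := 3) (x := x) ⟨⟨⟨trivial, r0⟩, r1⟩, r2⟩).qreg

end R169
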