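import Crest.Agent.R169.Defs2

/-!
# R169 FIN piece FC6: finiteness of `M/IM`, and restriction of `QReg` along a ring map.

`finite_quot`: `R` local Noetherian, `k → R/m` surjective, `m^N ≤ I`: induction on `N` for finitely generated modules `M'`
with `m^N M' = 0` (`M' = M/IM`): `0 → mM' → M' → M'/mM' → 0`, `m^{N-1} (mM') = 0`, and `M'/mM'` is a finitely generated
`R/m = k`-module. (`Module.Finite` over `k` = `FiniteDimensional`; `M` is a `k`-module by restriction, `IsScalarTower k R M`.)
`qreg_restrict`: for `φ : T →+* R` and an `R`-module `M` which is a `T`-module through `φ` (hypothesis `hs`), the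
`T`-submodule `(span x)^j • ⊤` and the `R`-submodule `(span (φ ∘ x))^j • ⊤` have the same elements
(`Ideal.map_span`, `Ideal.map_pow`, `Ideal.smul_restrictScalars` or directly by
`Submodule.smul_induction_on`).
-/

set_option autoImplicit false

namespace R169

open IsLocalRing

theorem fc6_aux {k R M : Type} [Field k] [CommRing R] [IsLocalRing R] [IsNoetherianRing R]
    [Algebra k R] (hres : Function.Surjective (algebraMap k (ResidueField R)))
    [AddCommGroup M] [Module R M] [Module k M] [IsScalarTower k R M] [Module.Finite R M] (N : ℕ) :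
    ∃ S : Submodule k M, S.FG ∧
      S ⊔ ((maximalIdeal R ^ N) • (⊤ : Submodule R M)).restrictScalars k = ⊤ := by
  have hnoeth : IsNoetherian R M := isNoetherian_of_isNoetherianRing_of_finite R M
  induction N with
  | zero =>
    refine ⟨⊥, Submodule.fg_bot, ?_⟩
    rw [pow_zero, Ideal.one_eq_top, Submodule.top_smul]
    simp
  | succ N ih =>
    obtain ⟨S, hS, h⟩ := ih
    obtain ⟨G, hG⟩ := hnoeth.noetherian ((maximalIdeal R ^ N) • (⊤ : Submodule R M))
    refine ⟨S ⊔ Submodule.span k (G : Set M), hS.sup ⟨G, rfl⟩, ?_⟩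
    rw [eq_top_iff, ← h]
    refine sup_le (le_sup_of_le_left le_sup_left) ?_
    intro w hw
    have hw' : w ∈ Submodule.span R (G : Set M) := by
      rw [hG]
      exact hw
    clear hw
    induction hw' using Submodule.span_induction with
    | mem x hx =>
      exact Submodule.mem_sup_left (Submodule.mem_sup_right (Submodule.subset_span hx))
    | zero => exact Submodule.zero_mem _
    | add x y _ _ hx hy => exact Submodule.add_mem _ hx hy
    | smul r x hx hx' =>
      obtain ⟨c, hc⟩ := hres (residue R r)
      have h1 : r - algebraMap k R c ∈ maximalIdeal R := by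
        rw [← residue_eq_zero_iff, map_sub, ← hc, IsScalarTower.algebraMap_apply k R (ResidueField R)]
        exact sub_self _
      have h2 : r • x = c • x + (r - algebraMap k R c) • x := by
        rw [sub_smul, algebraMap_smul]
        abel
      rw [h2]
      refine Submodule.add_mem _ (Submodule.smul_mem _ c hx') (Submodule.mem_sup_right ?_)
      change (r - algebraMap k R c) • x ∈ (maximalIdeal R ^ (N + 1)) • (⊤ : Submodule R M)
      rw [pow_succ', mul_smul]
      apply Submodule.smul_mem_smul h1
      rw [← hG]
      exact hx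

theorem finite_quot {k R M : Type} [Field k] [CommRing R] [IsLocalRing R] [IsNoetherianRing R]
    [Algebra k R] (hres : Function.Surjective (algebraMap k (ResidueField R)))
    [AddCommGroup M] [Module R M] [Module k M] [IsScalarTower k R M] [Module.Finite R M]
    (I : Ideal R) (N : ℕ) (hN : maximalIdeal R ^ N ≤ I) :
    FiniteDimensional k (M ⧸ (I • (⊤ : Submodule R M)).restrictScalars k) := by
  obtain ⟨S, hS, h⟩ := fc6_aux (M := M) hres N
  have : Module.Finite k S := Module.Finite.iff_fg.2 hS
  refine Module.Finite.of_surjective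
    (((I • (⊤ : Submodule R M)).restrictScalars k).mkQ ∘ₗ S.subtype) ?_
  intro q
  obtain ⟨w, rfl⟩ := Submodule.mkQ_surjective _ q
  have hw : w ∈ S ⊔ ((maximalIdeal R ^ N) • (⊤ : Submodule R M)).restrictScalars k := by
    rw [h]
    trivial
  obtain ⟨a, ha, b, hb, rfl⟩ := Submodule.mem_sup.1 hw
  refine ⟨⟨a, ha⟩, ?_⟩
  simp only [LinearMap.comp_apply, Submodule.subtype_apply]
  rw [map_add]
  have h2 : ((I • (⊤ : Submodule R M)).restrictScalars k).mkQ b = 0 := by
    rw [Submodule.mkQ_apply, Submodule.Quotient.mk_eq_zero]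
    exact Submodule.smul_mono_left hN hb
  rw [h2, add_zero]

theorem mem_span_smul_iff {R M : Type} [CommRing R] [AddCommGroup M] [Module R M]
    (x : Fin 3 → R) (P : Submodule R M) (w : M) :
    w ∈ Ideal.span (Set.range x) • P ↔ ∃ n : Fin 3 → M, (∀ i, n i ∈ P) ∧ w = ∑ i, x i • n i := by
  constructor
  · intro hw
    refine Submodule.smul_induction_on hw ?_ ?_
    · intro a ha n hn
      obtain ⟨c, rfl⟩ := (Ideal.mem_span_range_iff_exists_fun).1 ha
      refine ⟨fun i => c i • n, fun i => P.smul_mem _ hn, ?_⟩
      rw [Finset.sum_smul]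
      refine Finset.sum_congr rfl (fun i _ => ?_)
      rw [smul_smul, mul_comm]
    · intro u v hu hv
      obtain ⟨n, hn, rfl⟩ := hu
      obtain ⟨n', hn', rfl⟩ := hv
      refine ⟨fun i => n i + n' i, fun i => P.add_mem (hn i) (hn' i), ?_⟩
      rw [← Finset.sum_add_distrib]
      refine Finset.sum_congr rfl (fun i _ => ?_)
      rw [smul_add]
  · rintro ⟨n, hn, rfl⟩
    exact Submodule.sum_mem _ (fun i _ =>
      Submodule.smul_mem_smul (Ideal.subset_span (Set.mem_range_self i)) (hn i))

theorem mem_smul_top_restrict {A R M : Type} [CommRing A] [CommRing R] (φ : A →+* R)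
    [AddCommGroup M] [Module R M] [Module A M] (hs : ∀ (a : A) (m : M), a • m = φ a • m)
    (x : Fin 3 → A) (j : ℕ) (w : M) :
    w ∈ (Ideal.span (Set.range x)) ^ j • (⊤ : Submodule A M) ↔
      w ∈ (Ideal.span (Set.range (fun i => φ (x i)))) ^ j • (⊤ : Submodule R M) := by
  induction j generalizing w with
  | zero => simp [Ideal.one_eq_top]
  | succ j ih =>
    rw [pow_succ', pow_succ', mul_smul, mul_smul, mem_span_smul_iff, mem_span_smul_iff]
    simp only [ih, hs]

theorem qreg_restrict {A R M : Type} [CommRing A] [CommRing R] (φ : A →+* R)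
    [AddCommGroup M] [Module R M] [Module A M] (hs : ∀ (a : A) (m : M), a • m = φ a • m)
    (x : Fin 3 → A) (h : QReg (fun i => φ (x i)) M) : QReg x M := by
  intro j m hm a ha
  have h1 := h j m (by
    rw [← mem_smul_top_restrict φ hs]
    convert hm using 1
    refine Finset.sum_congr rfl (fun a _ => ?_)
    rw [hs, map_prod]
    simp only [map_pow]) a ha
  have h2 := (mem_smul_top_restrict φ hs x 1 (m a)).2 (by rw [pow_one]; exact h1)
  rwa [pow_one] at h2

end R169
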