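import Crest.Agent.R169.Defs2

/-!
# Row 169, module FIN, part A: definitions for the graded ring `T D`.
-/

set_option autoImplicit false

namespace R169

open Polynomial

section FinA

variable {k L : Type} [Field k] [Field L] [Algebra k L]
variable (D : GD k L) {η ζ : L} (hP : Par D η ζ)

/-- the ideal of elements of positive degree -/
noncomputable def irr : Ideal (T D) :=
  RingHom.ker (((Polynomial.constantCoeff : L[X] →+* L)).comp (T D).val.toRingHom)

theorem mem_irr (f : T D) : f ∈ irr D ↔ (f : L[X]).coeff 0 = 0 := by
  simp [irr, RingHom.mem_ker]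

instance irr_isPrime : (irr D).IsPrime := RingHom.ker_isPrime _

/-- `k[x,y,z] → T` -/
noncomputable def pT : MvPolynomial (Fin 3) k →ₐ[k] T D := MvPolynomial.aeval (xyz D hP)

/-- the `k'`-algebra structure on `T` through `e : k' →+* k` -/
noncomputable abbrev algT {k' : Type} [Field k'] (e : k' →+* k) : Algebra k' (T D) :=
  ((algebraMap k (T D)).comp e).toAlgebra

/-- the grading of `T` (as `k'`-subspaces) -/
noncomputable def grT {k' : Type} [Field k'] (e : k' →+* k) (n : ℕ) :
    letI := algT D e; Submodule k' (T D) :=
  letI := algT D e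
  { carrier := {f | ∀ m, m ≠ n → (f : L[X]).coeff m = 0}
    add_mem' := by
      intro a b ha hb m hm
      simp only [Subalgebra.coe_add, coeff_add, ha m hm, hb m hm, add_zero]
    zero_mem' := by
      intro m hm
      simp
    smul_mem' := by
      intro c f hf m hm
      rw [Algebra.smul_def]
      change ((algebraMap k (T D) (e c) * f : T D) : L[X]).coeff m = 0
      rw [Subalgebra.coe_mul]
      change (algebraMap k L[X] (e c) * (f : L[X])).coeff m = 0
      rw [← Algebra.smul_def, coeff_smul, hf m hm, smul_zero] }

theorem mem_grT {k' : Type} [Field k'] (e : k' →+* k) (n : ℕ) (f : T D) :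
    letI := algT D e; f ∈ grT D e n ↔ ∀ m, m ≠ n → (f : L[X]).coeff m = 0 := Iff.rfl

end FinA

end R169
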