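import Crest.Agent.R169.FinA

/-!
# Row 169, module FIN, part B: the complete local ring `Rh D = {f ∈ L⟦t⟧ : coeff_n f ∈ B n}`.
-/

set_option autoImplicit false

namespace R169

open Polynomial

section FinB

variable {k L : Type} [Field k] [Field L] [Algebra k L]
variable (D : GD k L) {η ζ : L} (hP : Par D η ζ)

/-- the complete local ring -/
def Rh : Subalgebra k (PowerSeries L) where
  carrier := {f | ∀ n : ℕ, PowerSeries.coeff n f ∈ D.B n}
  mul_mem' := by
    intro f g hf hg n
    rw [PowerSeries.coeff_mul]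
    refine Submodule.sum_mem _ ?_
    rintro ⟨i, j⟩ hij
    rw [Finset.HasAntidiagonal.mem_antidiagonal] at hij
    have := D.mul_mem (hf i) (hg j)
    have e : (n : ℤ) = (i : ℤ) + j := by rw [← hij]; push_cast; ring
    rw [e]; exact this
  add_mem' := by
    intro f g hf hg n
    rw [map_add]; exact Submodule.add_mem _ (hf n) (hg n)
  algebraMap_mem' := by
    intro c n
    rw [PowerSeries.algebraMap_apply, PowerSeries.coeff_C]
    split_ifs with h
    · subst h
      simp only [Nat.cast_zero, D.zero]
      rw [Algebra.algebraMap_eq_smul_one]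
      exact Submodule.smul_mem _ _ (Submodule.mem_span_singleton_self _)
    · exact Submodule.zero_mem _

theorem mem_Rh (f : PowerSeries L) : f ∈ Rh D ↔ ∀ n : ℕ, PowerSeries.coeff n f ∈ D.B n := Iff.rfl

/-- `T → Rh` -/
noncomputable def toRh : T D →ₐ[k] Rh D where
  toFun f := ⟨((f : L[X]) : PowerSeries L), fun n => by
    rw [Polynomial.coeff_coe]; exact f.2 n⟩
  map_one' := by ext; simp
  map_mul' := by intro a b; ext; simp
  map_zero' := by ext; simp
  map_add' := by intro a b; ext; simp
  commutes' := by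
    intro c
    ext n
    simp only [Subalgebra.coe_algebraMap, Polynomial.coeff_coe, PowerSeries.algebraMap_apply,
      Polynomial.algebraMap_apply, PowerSeries.coeff_C, Polynomial.coeff_C]

theorem coe_toRh (f : T D) : ((toRh D f : Rh D) : PowerSeries L) = ((f : L[X]) : PowerSeries L) := rfl

theorem toRh_injective : Function.Injective (toRh D) := by
  intro a b h
  have : ((a : L[X]) : PowerSeries L) = ((b : L[X]) : PowerSeries L) := congrArg Subtype.val h
  exact Subtype.ext (Polynomial.coe_injective L this)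

theorem coeff_zero_mem (f : Rh D) : ∃ c : k, PowerSeries.constantCoeff (f : PowerSeries L) =
    algebraMap k L c := by
  have h := f.2 0
  rw [Nat.cast_zero, D.zero, Submodule.mem_span_singleton] at h
  obtain ⟨c, hc⟩ := h
  refine ⟨c, ?_⟩
  rw [← PowerSeries.coeff_zero_eq_constantCoeff_apply, ← hc, Algebra.algebraMap_eq_smul_one]

theorem inv_mem_Rh (f : PowerSeries L) (hf : f ∈ Rh D) (h0 : PowerSeries.constantCoeff f ≠ 0) :
    f⁻¹ ∈ Rh D := by
  obtain ⟨c, hc⟩ := coeff_zero_mem D ⟨f, hf⟩
  simp only at hc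
  have hc0 : c ≠ 0 := by
    rintro rfl
    exact h0 (by rw [hc, map_zero])
  intro n
  induction n using Nat.strong_induction_on with
  | _ n ih =>
    rw [PowerSeries.coeff_inv]
    split_ifs with hn
    · subst hn
      rw [Nat.cast_zero, D.zero, Submodule.mem_span_singleton]
      exact ⟨c⁻¹, by rw [hc, ← map_inv₀, Algebra.algebraMap_eq_smul_one]⟩
    · rw [hc, ← map_inv₀, ← map_neg, ← Algebra.smul_def]
      refine Submodule.smul_mem _ _ (Submodule.sum_mem _ ?_)
      rintro ⟨i, j⟩ hij
      rw [Finset.HasAntidiagonal.mem_antidiagonal] at hij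
      simp only at hij ⊢
      split_ifs with hj
      · have := D.mul_mem (hf i) (ih j hj)
        have e : (n : ℤ) = (i : ℤ) + j := by rw [← hij]; push_cast; ring
        rw [e]; exact this
      · exact Submodule.zero_mem _

theorem isUnit_Rh_iff (f : Rh D) : IsUnit f ↔ PowerSeries.constantCoeff (f : PowerSeries L) ≠ 0 := by
  constructor
  · rintro ⟨u, rfl⟩ h
    have h1 : ((u * u⁻¹ : (Rh D)ˣ) : Rh D) = 1 := by simp
    have h2 := congrArg (fun g : Rh D => PowerSeries.constantCoeff (g : PowerSeries L)) h1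
    simp only [Units.val_mul, Subalgebra.coe_mul, map_mul, h, zero_mul, Subalgebra.coe_one,
      map_one] at h2
    exact zero_ne_one h2
  · intro h
    refine IsUnit.of_mul_eq_one (⟨(f : PowerSeries L)⁻¹, inv_mem_Rh D _ f.2 h⟩ : Rh D) ?_
    apply Subtype.ext
    rw [Subalgebra.coe_mul]
    exact PowerSeries.mul_inv_cancel _ h

instance isLocalRing_Rh : IsLocalRing (Rh D) := by
  apply IsLocalRing.of_nonunits_add
  intro a b ha hb
  rw [mem_nonunits_iff, isUnit_Rh_iff, not_not] at *
  rw [Subalgebra.coe_add, map_add, ha, hb, add_zero]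

theorem mem_max_iff (f : Rh D) : f ∈ IsLocalRing.maximalIdeal (Rh D) ↔
    PowerSeries.constantCoeff (f : PowerSeries L) = 0 := by
  rw [IsLocalRing.mem_maximalIdeal, mem_nonunits_iff, isUnit_Rh_iff, not_not]

theorem residue_bijective :
    Function.Bijective (algebraMap k (IsLocalRing.ResidueField (Rh D))) := by
  refine ⟨(algebraMap k (IsLocalRing.ResidueField (Rh D))).injective, ?_⟩
  intro r
  obtain ⟨f, rfl⟩ := IsLocalRing.residue_surjective r
  obtain ⟨c, hc⟩ := coeff_zero_mem D f
  refine ⟨c, ?_⟩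
  rw [IsScalarTower.algebraMap_apply k (Rh D) (IsLocalRing.ResidueField (Rh D))]
  change IsLocalRing.residue (Rh D) _ = _
  rw [← sub_eq_zero, ← map_sub, IsLocalRing.residue_eq_zero_iff, mem_max_iff]
  rw [Subalgebra.coe_sub, map_sub, hc]
  change PowerSeries.constantCoeff (algebraMap k (PowerSeries L) c) - _ = 0
  rw [PowerSeries.algebraMap_apply]
  simp

/-- `x, y, z` in `Rh` -/
noncomputable def xyzR (i : Fin 3) : Rh D := toRh D (xyz D hP i)

/-- the ideal `(x,y,z)` of `Rh` -/
noncomputable def IR : Ideal (Rh D) := Ideal.span (Set.range (xyzR D hP))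

/-- the order filtration: `F_n = {f : ord f ≥ n}` -/
def FRh (n : ℕ) : Ideal (Rh D) where
  carrier := {f | ∀ i, i < n → PowerSeries.coeff i (f : PowerSeries L) = 0}
  add_mem' := by
    intro a b ha hb i hi
    rw [Subalgebra.coe_add, map_add, ha i hi, hb i hi, add_zero]
  zero_mem' := by
    intro i hi
    simp
  smul_mem' := by
    intro c f hf i hi
    rw [smul_eq_mul, Subalgebra.coe_mul, PowerSeries.coeff_mul]
    refine Finset.sum_eq_zero ?_
    rintro ⟨a, b⟩ hab
    rw [Finset.HasAntidiagonal.mem_antidiagonal] at hab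
    simp only at hab ⊢
    rw [hf b (by omega), mul_zero]

theorem mem_FRh (n : ℕ) (f : Rh D) :
    f ∈ FRh D n ↔ ∀ i, i < n → PowerSeries.coeff i (f : PowerSeries L) = 0 := Iff.rfl

theorem mem_FRh_iff_order (n : ℕ) (f : Rh D) :
    f ∈ FRh D n ↔ (n : ℕ∞) ≤ (f : PowerSeries L).order := by
  rw [mem_FRh]
  constructor
  · intro h
    exact PowerSeries.nat_le_order _ n h
  · intro h i hi
    exact PowerSeries.coeff_of_lt_order i (lt_of_lt_of_le (by exact_mod_cast hi) h)

end FinB

end R169
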