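import Crest.Agent.R169.FA4
import Crest.Agent.R169.FA5
import Crest.Agent.R169.FB2
import Crest.Agent.R169.FB5
import Crest.Agent.R169.FB7
import Crest.Agent.R169.FC4
import Crest.Agent.R169.FC5D
import Crest.Agent.R169.FC6

/-!
# R169 FIN, part D: final data, and the two statements from them.
-/

set_option autoImplicit false

namespace R169

open IsLocalRing

/-- everything the other modules deliver -/
structure FinalData where
  K : Type
  [fld : Field K]
  iso : ℂ ≃+* K
  L : Type
  [fldL : Field L]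
  [alg : Algebra K L]
  D : GD K L
  η : L
  ζ : L
  hP : Par D η ζ
  normal : IsIntegrallyClosed (T D)
  noq : ∀ (M : Type) [AddCommGroup M] [Module (T D) M] [Module K M] [IsScalarTower K (T D) M],
    QReg (xyz D hP) M →
    FiniteDimensional K (M ⧸ (Ixyz D hP • (⊤ : Submodule (T D) M)).restrictScalars K) →
    Ixyz D hP • (⊤ : Submodule (T D) M) ≠ ⊤ → False

attribute [instance] FinalData.fld FinalData.fldL FinalData.alg

/-- no maximal Cohen-Macaulay module over a local ring `R` receiving `T` with `x,y,z` generating an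
`m`-primary ideal. -/
theorem no_mcm (F : FinalData) (R : Type) [CommRing R] [IsLocalRing R] [IsNoetherianRing R]
    (φ : T F.D →+* R) (hφ : ∀ i, φ (xyz F.D F.hP i) ∈ maximalIdeal R)
    (hN : ∃ N : ℕ, maximalIdeal R ^ N ≤ Ideal.span (Set.range (fun i => φ (xyz F.D F.hP i))))
    (hres : Function.Surjective
      ((residue R).comp (φ.comp (algebraMap F.K (T F.D)))))
    (M : Type) [AddCommGroup M] [Module R M] (hfin : Module.Finite R M) (hnt : Nontrivial M)
    (rs : List R) (hlen : rs.length = 3) (hmem : ∀ r ∈ rs, r ∈ maximalIdeal R) :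
    ¬ RingTheory.Sequence.IsRegular M rs := by
  intro hreg
  obtain ⟨N, hN⟩ := hN
  set y : Fin 3 → R := fun i => φ (xyz F.D F.hP i) with hy
  have hlist : Ideal.ofList [y 2, y 1, y 0] = Ideal.span (Set.range y) := by
    rw [Ideal.ofList]
    congr 1
    ext r
    simp only [List.mem_cons, List.not_mem_nil, or_false, Set.mem_setOf_eq, Set.mem_range]
    constructor
    · rintro (h | h | h)
      exacts [⟨2, h.symm⟩, ⟨1, h.symm⟩, ⟨0, h.symm⟩]
    · rintro ⟨i, hi⟩
      fin_cases i
      exacts [Or.inr (Or.inr hi.symm), Or.inr (Or.inl hi.symm), Or.inl hi.symm]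
  have h1 : RingTheory.Sequence.IsRegular M [y 2, y 1, y 0] := by
    refine isRegular_of_pow_le 3 M rs [y 2, y 1, y 0] hlen rfl hmem ?_ ⟨N, ?_⟩ hreg
    · intro r hr
      simp only [List.mem_cons, List.not_mem_nil, or_false] at hr
      rcases hr with rfl | rfl | rfl <;> exact hφ _
    · rw [hlist]
      exact le_trans hN le_sup_left
  have h2 : QReg y M := qreg_of_regular y h1.toIsWeaklyRegular
  letI : Module (T F.D) M := Module.compHom M φ
  letI : Module F.K M := Module.compHom M (φ.comp (algebraMap F.K (T F.D)))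
  letI : Algebra F.K R := (φ.comp (algebraMap F.K (T F.D))).toAlgebra
  haveI : IsScalarTower F.K (T F.D) M := ⟨by
    intro c t m
    change φ (c • t) • m = φ (algebraMap F.K (T F.D) c) • (φ t • m)
    rw [Algebra.smul_def, map_mul, mul_smul]⟩
  haveI : IsScalarTower F.K R M := ⟨by
    intro c t m
    rw [Algebra.smul_def, mul_smul]
    rfl⟩
  have hs : ∀ (a : T F.D) (m : M), a • m = φ a • m := fun a m => rfl
  have h3 : QReg (xyz F.D F.hP) M := qreg_restrict φ hs _ h2
  have h4 : FiniteDimensional F.K (M ⧸ (Ideal.span (Set.range y) • (⊤ : Submodule R M)).restrictScalars F.K) := by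
    refine finite_quot (k := F.K) (R := R) (M := M) ?_ _ N hN
    exact hres
  have h5 : ∀ w : M, w ∈ Ixyz F.D F.hP • (⊤ : Submodule (T F.D) M) ↔
      w ∈ Ideal.span (Set.range y) • (⊤ : Submodule R M) := by
    intro w
    have := mem_smul_top_restrict φ hs (xyz F.D F.hP) 1 w
    rw [pow_one, pow_one] at this
    exact this
  have h6 : (Ixyz F.D F.hP • (⊤ : Submodule (T F.D) M)).restrictScalars F.K =
      (Ideal.span (Set.range y) • (⊤ : Submodule R M)).restrictScalars F.K := by
    ext w
    exact h5 w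
  refine F.noq M h3 (by rw [h6]; exact h4) ?_
  intro h7
  have h8 : Ideal.span (Set.range y) • (⊤ : Submodule R M) = ⊤ := by
    rw [eq_top_iff]
    intro w _
    rw [← h5, h7]
    trivial
  have h9 : (⊤ : Submodule R M) = ⊥ := by
    refine Submodule.eq_bot_of_le_smul_of_le_jacobson_bot (Ideal.span (Set.range y)) ⊤
      Module.Finite.fg_top h8.ge ?_
    rw [IsLocalRing.jacobson_eq_maximalIdeal ⊥ bot_ne_top, Ideal.span_le]
    rintro _ ⟨i, rfl⟩
    exact hφ i
  exact top_ne_bot h9

/-- statement S0256 -/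
theorem S0256_of (F : FinalData) :
    ∃ (R : Type) (_ : CommRing R) (_ : IsLocalRing R) (_ : Algebra ℂ R),
      IsDomain R ∧ IsNoetherianRing R ∧ IsIntegrallyClosed R ∧
      IsAdicComplete (IsLocalRing.maximalIdeal R) R ∧ ringKrullDim R = 3 ∧
      Function.Bijective (algebraMap ℂ (IsLocalRing.ResidueField R)) ∧
      ∀ (M : Type) [AddCommGroup M] [Module R M], Module.Finite R M → Nontrivial M →
        ∀ rs : List R, rs.length = 3 → (∀ r ∈ rs, r ∈ IsLocalRing.maximalIdeal R) →
          ¬ RingTheory.Sequence.IsRegular M rs := by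
  haveI := isNoetherianRing_Rh F.D F.hP
  letI alg : Algebra ℂ (Rh F.D) := ((algebraMap F.K (Rh F.D)).comp F.iso.toRingHom).toAlgebra
  refine ⟨Rh F.D, inferInstance, inferInstance, alg, inferInstance, isNoetherianRing_Rh F.D F.hP,
    isIntegrallyClosed_Rh F.D F.hP F.normal, isAdicComplete_Rh F.D F.hP, dim_Rh F.D F.hP, ?_, ?_⟩
  · have h := (residue_bijective F.D).comp F.iso.bijective
    convert h using 1
    funext c
    rfl
  · intro M _ _ hfin hnt rs hlen hmem
    obtain ⟨N, hN⟩ := exists_max_pow_le F.D F.hP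
    refine no_mcm F (Rh F.D) (toRh F.D).toRingHom (fun i => xyzR_mem F.D F.hP i) ⟨N, hN⟩ ?_
      M hfin hnt rs hlen hmem
    have h := (residue_bijective F.D).2
    intro r
    obtain ⟨c, hc⟩ := h r
    refine ⟨c, ?_⟩
    rw [← hc]
    rw [IsScalarTower.algebraMap_apply F.K (Rh F.D) (IsLocalRing.ResidueField (Rh F.D))]
    change residue (Rh F.D) (toRh F.D (algebraMap F.K (T F.D) c)) = residue (Rh F.D) _
    rw [AlgHom.commutes]

theorem loc_aux (F : FinalData) (I : Ideal (T F.D)) (hI : I = irr F.D) [I.IsPrime] :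
    ringKrullDim (Localization.AtPrime I) = 3 ∧
      ∀ (M : Type) [AddCommGroup M] [Module (Localization.AtPrime I) M],
        Module.Finite (Localization.AtPrime I) M → Nontrivial M →
        ∀ rs : List (Localization.AtPrime I), rs.length = 3 →
          (∀ r ∈ rs, r ∈ IsLocalRing.maximalIdeal (Localization.AtPrime I)) →
          ¬ RingTheory.Sequence.IsRegular M rs := by
  subst hI
  haveI hmax := irr_isMaximal F.D
  haveI := T_noetherian F.D F.hP
  haveI : IsNoetherianRing (Localization.AtPrime (irr F.D)) :=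
    IsLocalization.isNoetherianRing (irr F.D).primeCompl _ inferInstance
  refine ⟨dim_loc_irr F.D F.hP, ?_⟩
  intro M _ _ hfin hnt rs hlen hmem
  obtain ⟨N, hN⟩ := exists_irr_pow_le F.D F.hP
  have hmm : (irr F.D).map (algebraMap (T F.D) (Localization.AtPrime (irr F.D))) =
      maximalIdeal (Localization.AtPrime (irr F.D)) := Localization.AtPrime.map_eq_maximalIdeal
  refine no_mcm F (Localization.AtPrime (irr F.D)) (algebraMap _ _) ?_ ⟨N, ?_⟩ ?_
      M hfin hnt rs hlen hmem
  · intro i
    rw [← hmm]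
    exact Ideal.mem_map_of_mem _ (xyz_mem_irr F.D F.hP i)
  · rw [← hmm, ← Ideal.map_pow]
    refine le_trans (Ideal.map_mono hN) ?_
    rw [Ixyz, Ideal.map_span, Ideal.span_le]
    rintro _ ⟨_, ⟨i, rfl⟩, rfl⟩
    exact Ideal.subset_span ⟨i, rfl⟩
  · intro r
    obtain ⟨t, ht⟩ := (irr F.D).algebraMap_residueField_surjective r
    obtain ⟨c, hc⟩ := (algebraMap_quot_irr_bijective F.D).2 (Ideal.Quotient.mk _ t)
    refine ⟨c, ?_⟩
    rw [← ht]
    change algebraMap (T F.D) (irr F.D).ResidueField (algebraMap F.K (T F.D) c) = _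
    rw [← sub_eq_zero, ← map_sub]
    have h : algebraMap F.K (T F.D) c - t ∈ irr F.D := by
      rw [← Ideal.Quotient.eq_zero_iff_mem, map_sub, sub_eq_zero, ← hc]
      rfl
    change residue _ (algebraMap (T F.D) (Localization.AtPrime (irr F.D)) _) = 0
    rw [residue_eq_zero_iff, ← hmm]
    exact Ideal.mem_map_of_mem _ h

theorem quot_aux (F : FinalData) (I : Ideal (T F.D)) (hI : I = irr F.D) :
    letI := algT F.D F.iso.toRingHom
    Function.Bijective (algebraMap ℂ (T F.D ⧸ I)) := by
  subst hI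
  have h := (algebraMap_quot_irr_bijective F.D).comp F.iso.bijective
  exact h

/-- statement S0257 -/
theorem S0257_of (F : FinalData) :
    ∃ (T : Type) (_ : CommRing T) (_ : Algebra ℂ T) (𝒜 : ℕ → Submodule ℂ T) (_ : GradedAlgebra 𝒜)
      (_ : (HomogeneousIdeal.irrelevant 𝒜).toIdeal.IsMaximal),
      Algebra.FiniteType ℂ T ∧ IsDomain T ∧ ringKrullDim T = 3 ∧
      Function.Bijective (algebraMap ℂ (T ⧸ (HomogeneousIdeal.irrelevant 𝒜).toIdeal)) ∧
      ringKrullDim (Localization.AtPrime (HomogeneousIdeal.irrelevant 𝒜).toIdeal) = 3 ∧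
      ∀ (M : Type) [AddCommGroup M] [Module (Localization.AtPrime (HomogeneousIdeal.irrelevant 𝒜).toIdeal) M],
        Module.Finite (Localization.AtPrime (HomogeneousIdeal.irrelevant 𝒜).toIdeal) M → Nontrivial M →
        ∀ rs : List (Localization.AtPrime (HomogeneousIdeal.irrelevant 𝒜).toIdeal), rs.length = 3 →
          (∀ r ∈ rs, r ∈ IsLocalRing.maximalIdeal (Localization.AtPrime (HomogeneousIdeal.irrelevant 𝒜).toIdeal)) →
          ¬ RingTheory.Sequence.IsRegular M rs := by
  letI := algT F.D F.iso.toRingHom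
  obtain ⟨gr⟩ := exists_gradedAlgebra F.D F.iso.toRingHom
  have hI : (HomogeneousIdeal.irrelevant (grT F.D F.iso.toRingHom)).toIdeal = irr F.D :=
    irrelevant_eq F.D F.iso.toRingHom
  have hmax : (HomogeneousIdeal.irrelevant (grT F.D F.iso.toRingHom)).toIdeal.IsMaximal := by
    rw [hI]; exact irr_isMaximal F.D
  have hft : Algebra.FiniteType ℂ (T F.D) := by
    have h1 : (algebraMap F.K (T F.D)).FiniteType := by
      rw [RingHom.finiteType_algebraMap]; exact T_finiteType F.D F.hP
    have h2 : F.iso.toRingHom.FiniteType := RingHom.FiniteType.of_surjective _ F.iso.surjective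
    exact h1.comp h2
  obtain ⟨h3, h4⟩ := loc_aux F _ hI
  exact ⟨T F.D, inferInstance, inferInstance, grT F.D F.iso.toRingHom, gr, hmax, hft,
    inferInstance, dim_T F.D F.hP, quot_aux F _ hI, h3, h4⟩

end R169
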