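import Crest.Agent.R169.TR7C

/-!
# R169_TR7D: `br_of_transfer` (the statement of `Main.lean`).
-/

set_option autoImplicit false

namespace R169.TR
open R169 Filter

theorem br_UK :
    ∀ (S : ℤ → Type) (_ : ∀ n, Fintype (S n)) (one : S 1) (m : ∀ i j : ℤ, S i → S j → S (i + j) → ℤ)
      (L : Type) (_ : Field L) (_ : Algebra UK L) (D : GD UK L) (_ : IForm S one m D)
      (Lp : PP → Type) (_ : ∀ p, Field (Lp p)) (_ : ∀ p, Algebra (Kp p) (Lp p))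
      (Dp : ∀ p, GD (Kp p) (Lp p)) (_ : ∀ p : PP, 7 < p.1 → Nonempty (IForm S one m (Dp p)))
      (dB βB γB : ℚ) (_ : HasHP D.B dB βB γB)
      (C0 : ℤ) (C1 : ℕ)
      (_ : ∀ p : PP, 7 < p.1 → IsIntegrallyClosed (T (Dp p)) ∧ Gen1 (Dp p) ∧ DerCond (Dp p) p.1 C0 ∧
        (∀ n : ℤ, 0 ≤ n → Module.finrank (Kp p) ((Dp p).B n) ≤
          Module.finrank (Kp p) ((Dp p).B (n - 1)) + C1 * (n.toNat + 1)) ∧
        ∀ η ζ : Lp p, Par (Dp p) η ζ → FrobFormula (Dp p) η ζ p.1)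
      (η ζ : L) (_ : Par D η ζ), BR D η ζ := by
  intro S iS one m L iL aL D I Lp iLp aLp Dp Ip dB βB γB hB C0 C1 h η ζ hP
  intro dB' βB' γB' hB' r E hr hE hs N β γ hh hss
  obtain ⟨d, β0, γ0, h0, _, _⟩ := ((isLat_B hP).toPLat hP).hasHP
  obtain ⟨rfl, rfl, rfl⟩ := h0.unique hB'
  exact br_of_sys
    { S := S, fS := iS, one := one, m := m, L := L, fL := iL, aL := aL, D := D, I := I, Lp := Lp,
      fLp := iLp, aLp := aLp, Dp := Dp, Ip := fun p hp => (Ip p hp).some,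
      gen1 := fun p hp => (h p hp).2.1 } h0 (fun p hp => ⟨(h p hp).1, (h p hp).2.2.1, (h p hp).2.2.2.1, (h p hp).2.2.2.2⟩)
    hP hr hE hs hh hss

theorem br_of_transfer :
    ∃ U : UData, letI := U.fld;
    ∀ (S : ℤ → Type) (_ : ∀ n, Fintype (S n)) (one : S 1) (m : ∀ i j : ℤ, S i → S j → S (i + j) → ℤ)
      (L : Type) (_ : Field L) (_ : Algebra U.K L) (D : GD U.K L) (_ : IForm S one m D)
      (Lp : PP → Type) (_ : ∀ p, Field (Lp p)) (_ : ∀ p, Algebra (Kp p) (Lp p))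
      (Dp : ∀ p, GD (Kp p) (Lp p)) (_ : ∀ p : PP, 7 < p.1 → Nonempty (IForm S one m (Dp p)))
      (dB βB γB : ℚ) (_ : HasHP D.B dB βB γB)
      (C0 : ℤ) (C1 : ℕ)
      (_ : ∀ p : PP, 7 < p.1 → IsIntegrallyClosed (T (Dp p)) ∧ Gen1 (Dp p) ∧ DerCond (Dp p) p.1 C0 ∧
        (∀ n : ℤ, 0 ≤ n → Module.finrank (Kp p) ((Dp p).B n) ≤
          Module.finrank (Kp p) ((Dp p).B (n - 1)) + C1 * (n.toNat + 1)) ∧
        ∀ η ζ : Lp p, Par (Dp p) η ζ → FrobFormula (Dp p) η ζ p.1)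
      (η ζ : L) (_ : Par D η ζ), BR D η ζ :=
  ⟨UD, br_UK⟩

end R169.TR
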