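import Crest.Agent.R169.FrobMain
import Crest.Agent.R169.TR7D
import Crest.Agent.R169.C0Main
import Crest.Agent.R169.ExTop
import Crest.Agent.R169.FinD

/-!
# R169 FIN, part E: the final data exist.
-/

set_option autoImplicit false

namespace R169

open Ex

/-- a field extension with a graded ring datum -/
structure EPack (k : Type) [Field k] where
  L : Type
  [fl : Field L]
  [al : Algebra k L]
  D : GD k L

attribute [instance] EPack.fl EPack.al

/-- a trivial datum (used for `p = 7` only) -/
noncomputable def trivGD (k : Type) [Field k] : GD k k where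
  B := fun n => if n < 0 then ⊥ else ⊤
  neg := fun n hn => if_pos hn
  zero := by
    rw [if_neg (lt_irrefl _)]
    symm
    rw [eq_top_iff]
    intro x _
    exact Submodule.mem_span_singleton.2 ⟨x, by simp⟩
  one_mem := by simp
  mul_mem := by
    intro i j a b ha hb
    by_cases hi : i < 0
    · rw [if_pos hi] at ha
      rw [(Submodule.mem_bot k).1 ha, zero_mul]; exact Submodule.zero_mem _
    by_cases hj : j < 0
    · rw [if_pos hj] at hb
      rw [(Submodule.mem_bot k).1 hb, mul_zero]; exact Submodule.zero_mem _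
    rw [if_neg (by omega)]
    trivial
  fin := fun n => by
    split_ifs <;> infer_instance
  frac := fun l => ⟨0, l, by simp, 1, by simp, one_ne_zero, by simp⟩

open Classical in
/-- the packs for the fields `Kp p` -/
noncomputable def packp (k : Type) [Field k] [IsAlgClosed k] : EPack k :=
  if h : (7 : k) ≠ 0 then ⟨Lk k h, (Qk k h).D⟩ else ⟨k, trivGD k⟩

theorem packp_eq (k : Type) [Field k] [IsAlgClosed k] (h : (7 : k) ≠ 0) :
    packp k = ⟨Lk k h, (Qk k h).D⟩ := dif_pos h

theorem seven_ne (p : PP) (hp : 7 < p.1) : (7 : Kp p) ≠ 0 := by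
  intro h
  have h' : ((7 : ℕ) : Kp p) = 0 := by exact_mod_cast h
  rw [CharP.cast_eq_zero_iff (Kp p) p.1 7] at h'
  exact absurd (Nat.le_of_dvd (by norm_num) h') (by omega)

theorem exists_finalData : Nonempty FinalData := by
  obtain ⟨U, hU⟩ := TR.br_of_transfer
  letI := U.fld
  haveI := U.alg
  haveI := U.ch
  haveI : Infinite U.K := IsAlgClosed.instInfinite
  have h7 : (7 : U.K) ≠ 0 := by
    have : ((7 : ℕ) : U.K) ≠ 0 := Nat.cast_ne_zero.2 (by norm_num)
    exact_mod_cast this
  obtain ⟨C1, hC1⟩ := growth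
  obtain ⟨η, ζ, hP⟩ := (Qk U.K h7).exists_par
  have hBR : BR (Qk U.K h7).D η ζ := by
    refine hU SE (fun n => inferInstance) oneS mS (Lk U.K h7) inferInstance inferInstance
      (Qk U.K h7).D (Qk U.K h7).iform (fun p => (packp (Kp p)).L) (fun p => (packp (Kp p)).fl)
      (fun p => (packp (Kp p)).al) (fun p => (packp (Kp p)).D) ?_ 1715 (8575 / 2) 4802
      (Qk U.K h7).hp 21 C1 ?_ η ζ hP
    · intro p hp
      have h := seven_ne p hp
      show Nonempty (IForm SE oneS mS (packp (Kp p)).D)
      rw [packp_eq (Kp p) h]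
      exact ⟨(Qk (Kp p) h).iform⟩
    · intro p hp
      have h := seven_ne p hp
      show IsIntegrallyClosed (T (packp (Kp p)).D) ∧ Gen1 (packp (Kp p)).D ∧
        DerCond (packp (Kp p)).D p.1 21 ∧
        (∀ n : ℤ, 0 ≤ n → Module.finrank (Kp p) ((packp (Kp p)).D.B n) ≤
          Module.finrank (Kp p) ((packp (Kp p)).D.B (n - 1)) + C1 * (n.toNat + 1)) ∧
        ∀ η ζ : (packp (Kp p)).L, Par (packp (Kp p)).D η ζ → FrobFormula (packp (Kp p)).D η ζ p.1
      rw [packp_eq (Kp p) h]
      refine ⟨(Qk (Kp p) h).normal h, (Qk (Kp p) h).gen1, (Qk (Kp p) h).dercond p.1 (by omega), ?_, ?_⟩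
      · intro n hn
        exact hC1 _ _ (Qk (Kp p) h) n hn
      · intro η ζ hP
        exact frobFormula p.1 _ hP ((Qk (Kp p) h).pcharts p.1 (by omega)) ((Qk (Kp p) h).curve h)
  exact ⟨{
    K := U.K
    iso := U.iso
    L := Lk U.K h7
    D := (Qk U.K h7).D
    η := η
    ζ := ζ
    hP := hP
    normal := (Qk U.K h7).normal h7
    noq := fun M _ _ _ _ hq hfin hne =>
      C0.no_qreg' (Qk U.K h7).D hP hBR (Qk U.K h7).hp (by norm_num) M hq hfin hne }⟩

end R169
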