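import Crest.Agent.R169.LatAPI

/-!
# Row 169, module 2b FROB: definitions (helper78)

* `FMap p L W`: a "Frobenius map" on the `L`-space `W`; instances `FL` (on `L`) and `FP` (on `L^r`).
* `FrW D F E n = span {b • φ e : e ∈ E i, b ∈ B (n - p i)}` (`= Fr D p E` for `F = FP`).
* `colon D E a e n = {b ∈ B n : b • e ∈ E (n + a)}` (graded ideal), `mulg D a e n = B (n - a) • e`,
  `addg D E a e = E + B e` (`e` of degree `a`).
* `hpv E t` = value of the Hilbert polynomial of `E` at `t : ℚ` (`0` if there is none).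
* `Th D F b E t = P_{F^*E} (p t + (1-p) b) - p² P_E (t)`; `kap = c_B (1 - p²)`.
  Frobenius formula for `E` of rank `r` <=> `Th ... E t = r * kap` for all `t` (`b = β_B / d_B`).
-/

set_option autoImplicit false

namespace R169

section frob0

variable {k L : Type} [Field k] [Field L] [Algebra k L]
variable {W : Type} [AddCommGroup W] [Module k W] [Module L W] [IsScalarTower k L W]

/-- Frobenius map on an `L`-vector space -/
structure FMap (p : ℕ) (L W : Type) [Field L] [AddCommGroup W] [Module L W] where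
  φ : W → W
  add : ∀ w w', φ (w + w') = φ w + φ w'
  smul : ∀ (l : L) w, φ (l • w) = l ^ p • φ w
  inj : ∀ w, φ w = 0 → w = 0
  indep : ∀ u v : L, (∀ g : Fin p → Fin p → L,
      ∑ i, ∑ j, g i j ^ p * u ^ (i : ℕ) * v ^ (j : ℕ) = 0 → ∀ i j, g i j = 0) →
    ∀ w : Fin p → Fin p → W, ∑ i : Fin p, ∑ j : Fin p, (u ^ (i : ℕ) * v ^ (j : ℕ)) • φ (w i j) = 0 → ∀ i j, w i j = 0

/-- Frobenius of `L` -/
def FL (p : ℕ) (L : Type) [Field L] [Fact p.Prime] [CharP L p] : FMap p L L where
  φ := fun l => l ^ p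
  add := fun a b => add_pow_char a b p
  smul := by intro l w; simp [mul_pow]
  inj := by intro w h; exact (pow_eq_zero_iff (Nat.Prime.ne_zero Fact.out)).1 h
  indep := by
    intro u v h w hw
    apply h
    rw [← hw]
    refine Finset.sum_congr rfl fun i _ => Finset.sum_congr rfl fun j _ => ?_
    simp only [smul_eq_mul]
    ring

/-- coordinatewise Frobenius of `L^r` -/
def FP (p : ℕ) (r : ℕ) (L : Type) [Field L] [Fact p.Prime] [CharP L p] :
    FMap p L (Fin r → L) where
  φ := fun e j => e j ^ p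
  add := by intro a b; funext j; exact add_pow_char (a j) (b j) p
  smul := by intro l w; funext j; simp [mul_pow]
  inj := by
    intro w h; funext j
    exact (pow_eq_zero_iff (Nat.Prime.ne_zero Fact.out)).1 (congrFun h j)
  indep := by
    intro u v h w hw i j
    funext c
    refine h (fun i j => w i j c) ?_ i j
    have := congrFun hw c
    simp only [Finset.sum_apply, Pi.smul_apply, smul_eq_mul, Pi.zero_apply] at this
    rw [← this]
    refine Finset.sum_congr rfl fun i _ => Finset.sum_congr rfl fun j _ => ?_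
    ring

/-- Frobenius pull-back -/
def FrW (D : GD k L) {p : ℕ} (F : FMap p L W) (E : ℤ → Submodule k W) (n : ℤ) : Submodule k W :=
  Submodule.span k {w | ∃ (i : ℤ) (e : W) (b : L), e ∈ E i ∧ b ∈ D.B (n - p * i) ∧ w = b • F.φ e}

theorem FrW_FP (D : GD k L) (p r : ℕ) [Fact p.Prime] [CharP L p] (E : ℤ → Submodule k (Fin r → L)) :
    FrW D (FP p r L) E = Fr D p E := rfl

/-- `B e`, `e` of degree `a` -/
def mulg (D : GD k L) (a : ℤ) (e : W) (n : ℤ) : Submodule k W :=
  (D.B (n - a)).map ((LinearMap.toSpanSingleton L W e).restrictScalars k)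

theorem mem_mulg {D : GD k L} {a n : ℤ} {e w : W} :
    w ∈ mulg D a e n ↔ ∃ b ∈ D.B (n - a), b • e = w := Iff.rfl

/-- `E + B e` -/
def addg (D : GD k L) (E : ℤ → Submodule k W) (a : ℤ) (e : W) (n : ℤ) : Submodule k W :=
  E n ⊔ mulg D a e n

/-- the graded ideal `(E : e)` -/
def colon (D : GD k L) (E : ℤ → Submodule k W) (a : ℤ) (e : W) (n : ℤ) : Submodule k L :=
  D.B n ⊓ (E (n + a)).comap ((LinearMap.toSpanSingleton L W e).restrictScalars k)

theorem mem_colon {D : GD k L} {E : ℤ → Submodule k W} {a n : ℤ} {e : W} {b : L} :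
    b ∈ colon D E a e n ↔ b ∈ D.B n ∧ b • e ∈ E (n + a) := Iff.rfl

/-- Hilbert polynomial exists -/
def HasP (E : ℤ → Submodule k W) : Prop := ∃ x : ℚ × ℚ × ℚ, HasHP E x.1 x.2.1 x.2.2

open scoped Classical in
/-- value of the Hilbert polynomial -/
noncomputable def hpv (E : ℤ → Submodule k W) (t : ℚ) : ℚ :=
  if h : HasP E then h.choose.1 / 2 * t ^ 2 - h.choose.2.1 * t + h.choose.2.2 else 0

/-- `P_{F^*E} (p t + (1-p) b) - p² P_E (t)` -/
noncomputable def Th (D : GD k L) {p : ℕ} (F : FMap p L W) (b : ℚ) (E : ℤ → Submodule k W)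
    (t : ℚ) : ℚ := hpv (FrW D F E) (p * t + (1 - p) * b) - p ^ 2 * hpv E t

end frob0

end R169
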