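import Crest.Agent.R169.FrobGen

/-!
# Row 169, FROB: charts (pieces FR_GCH, FR_EQLOC, FR_CORE, FR_FLAT; helper78)

FR_GCH. From `PCharts`: for every `h i ∈ B (m i)` and `x ∈ {1, η, ζ}` the element `h i * x ∈ B (m i + 1)` is a good
chart (`h0 = h i`, `g = x`; `η, ζ ≠ 0` by `indep`), same `u, v`. `p`-basis of the chart of `h g`: for
`f = b / (h g)^j`, `f * (g^m / h)^(p j) ∈ chart D h m` has an expansion `∑ f_cd^p u^c v^d`;
`f = ∑ (f_cd / (g^m/h)^j)^p u^c v^d`. Covering: `B n ≤ ⨆ sm (h i) (B (n - m i))` and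
`B (n - m i) ≤ B (n - m i - 1) + η B (n - m i - 1) + ζ B (n - m i - 1)` for large `n`.

FR_EQLOC. `E` is generated by finitely many `w l ∈ E (c l)` (`exists_gens`); there is one `j` with
`h i ^ j • w l ∈ E' (c l + j m i)` for all `i, l`; iterating the covering condition, for large `n` every element of
`B n` is a sum of elements `h i ^ j * b`, `b ∈ B (n - j m i)` (pigeonhole on monomials of degree `≥ |ι| j` in the
`h i`; or: prove by induction on `t` that `B n ≤ ⨆ over α : ι → ℕ, ∑ α = t, sm (∏ h i ^ α i) (B (n - ∑ α i m i))`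
for `n ≥ J + t * max m`).

FR_CORE. `S = chart D C.h C.M`. `f = ∑ f_cd^p u^c v^d`, `f_l = ∑ f_{l,cd}^p u^c v^d`. Then
`∑_cd u^c v^d φ (f_cd x - ∑_l f_{l,cd} x_l) = 0`, so by `F.indep` all `f_cd x = ∑_l f_{l,cd} x_l ∈ M`.

FR_FLAT. `b • φ e = ∑ b_l • φ (e_l)`, `e_l ∈ E (i_l)`, `b_l ∈ B (n + p a - p i_l)`. Divide by `g ^ (n + p a)`
(`zpow`): apply FR_CORE to `f = b / g^n ∈ S` (`b = 0` if `n < 0`), `x = g^(-a) • e`, `f_l = b_l / g^(n + p a - p i_l)`,
`x_l = g^(-i_l) • e_l ∈ locW C E`. From `f_cd x ∈ locW C E` get `h^j f_cd ∈ colon D E a e (j M)` for large `j`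
(`g^a` multiplies `E (j M)` into `E (j M + a)`; if `a < 0` use `g⁻¹ = h0 / h`). Then
`h^(p j + j3) b = ∑ (h^j f_cd)^p (h^j3 u^c v^d) g^n`. `colon_FrW`: `≥` is easy for all `n`, `≤` for large `n` by
`eq_of_loc` with the charts of `exists_gcharts`.
-/

set_option autoImplicit false

namespace R169

section
variable {k L : Type} [Field k] [Field L] [Algebra k L]
variable {W : Type} [AddCommGroup W] [Module k W] [Module L W] [IsScalarTower k L W]
variable {D : GD k L} {η ζ : L} {E E' : ℤ → Submodule k W} {p : ℕ}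

/-- chart in which `h = h0 g` and the element `g` of degree one are invertible -/
structure GChart (D : GD k L) (p : ℕ) where
  h0 : L
  g : L
  u : L
  v : L
  m : ℤ
  m_nonneg : 0 ≤ m
  h0_mem : h0 ∈ D.B m
  g_mem : g ∈ D.B 1
  h0_ne : h0 ≠ 0
  g_ne : g ≠ 0
  pb : IsPBasis p (chart D (h0 * g) (m + 1)) u v

/-- the element `h = h0 g` of degree `M = m + 1` -/
def GChart.h (C : GChart D p) : L := C.h0 * C.g
def GChart.M (C : GChart D p) : ℤ := C.m + 1

theorem GChart.h_mem (C : GChart D p) : C.h ∈ D.B C.M := D.mul_mem C.h0_mem C.g_mem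
theorem GChart.h_ne (C : GChart D p) : C.h ≠ 0 := mul_ne_zero C.h0_ne C.g_ne
theorem GChart.M_pos (C : GChart D p) : 0 < C.M := by
  have := C.m_nonneg
  unfold GChart.M
  omega

/-! ### FR_GCH -/

private theorem gch_pow_mem {n : ℤ} {b : L} (hb : b ∈ D.B n) (j : ℕ) : b ^ j ∈ D.B (j * n) := by
  induction j with
  | zero =>
    rw [pow_zero, Nat.cast_zero, zero_mul, D.zero]
    exact Submodule.mem_span_singleton_self _
  | succ j ih =>
    rw [pow_succ]
    have h1 := D.mul_mem ih hb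
    have e : (((j + 1 : ℕ) : ℤ)) * n = j * n + n := by push_cast; ring
    rw [e]; exact h1

private theorem gch_chart_mul {h : L} {m : ℤ} {a b : L} (ha : a ∈ chart D h m)
    (hb : b ∈ chart D h m) : a * b ∈ chart D h m := by
  obtain ⟨j, x, hx, rfl⟩ := ha
  obtain ⟨j', x', hx', rfl⟩ := hb
  refine ⟨j + j', x * x', ?_, ?_⟩
  · have h1 := D.mul_mem hx hx'
    have e : (((j + j' : ℕ) : ℤ)) * m = j * m + j' * m := by push_cast; ring
    rw [e]; exact h1
  · rw [pow_add, div_mul_div_comm]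

private theorem gch_chart_pow {h : L} {m : ℤ} {a : L} (ha : a ∈ chart D h m) (j : ℕ) :
    a ^ j ∈ chart D h m := by
  induction j with
  | zero =>
    refine ⟨0, 1, ?_, by simp⟩
    rw [Nat.cast_zero, zero_mul, D.zero]
    exact Submodule.mem_span_singleton_self _
  | succ j ih =>
    rw [pow_succ]; exact gch_chart_mul ih ha

private theorem gch_pb [Fact p.Prime] {h g u v : L} {m : ℤ} (h0 : h ≠ 0) (g0 : g ≠ 0)
    (hm : 0 < m) (hh : h ∈ D.B m) (hg : g ∈ D.B 1) (hb : IsPBasis p (chart D h m) u v) :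
    IsPBasis p (chart D (h * g) (m + 1)) u v := by
  obtain ⟨hu, hv, hex, hind⟩ := hb
  obtain ⟨M, rfl⟩ : ∃ M : ℕ, m = M := ⟨m.toNat, (Int.toNat_of_nonneg hm.le).symm⟩
  have hM : 0 < M := by exact_mod_cast hm
  have hp : 0 < p := (Fact.out : p.Prime).pos
  have hgp : ∀ j : ℕ, g ^ j ∈ D.B j := fun j => by
    have := gch_pow_mem hg j
    rwa [mul_one] at this
  have hsub : ∀ l ∈ chart D h (M : ℤ), l ∈ chart D (h * g) ((M : ℤ) + 1) := by
    rintro l ⟨j, b, hb, rfl⟩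
    refine ⟨j, b * g ^ j, ?_, ?_⟩
    · have h1 := D.mul_mem hb (hgp j)
      have e : ((j : ℤ)) * ((M : ℤ) + 1) = j * M + j := by ring
      rw [e]; exact h1
    · rw [mul_pow, mul_div_mul_right _ _ (pow_ne_zero j g0)]
  refine ⟨hsub u hu, hsub v hv, ?_, hind⟩
  intro f hf
  obtain ⟨j, b, hb, rfl⟩ := hf
  -- `w = g ^ M / h`
  set w : L := g ^ M / h with hw
  have hw0 : w ≠ 0 := div_ne_zero (pow_ne_zero _ g0) h0
  have hwinv : w⁻¹ ∈ chart D (h * g) ((M : ℤ) + 1) := by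
    refine ⟨M, h ^ (M + 1), ?_, ?_⟩
    · have h1 := gch_pow_mem hh (M + 1)
      have e : ((M : ℤ)) * ((M : ℤ) + 1) = ((M + 1 : ℕ) : ℤ) * M := by push_cast; ring
      rw [e]; exact h1
    · rw [hw, inv_div, mul_pow, pow_succ]
      field_simp
  have hmem : b / (h * g) ^ j * w ^ (p * j) ∈ chart D h (M : ℤ) := by
    obtain ⟨q, hq⟩ : ∃ q, M * p = q + 1 := ⟨M * p - 1, by
      have : 0 < M * p := Nat.mul_pos hM hp
      omega⟩
    refine ⟨(p + 1) * j, b * g ^ (q * j), ?_, ?_⟩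
    · have h1 := D.mul_mem hb (hgp (q * j))
      have e : (((p + 1) * j : ℕ) : ℤ) * (M : ℤ) = (j : ℤ) * ((M : ℤ) + 1) + ((q * j : ℕ) : ℤ) := by
        have hq' : (M : ℤ) * p = q + 1 := by exact_mod_cast hq
        push_cast
        linear_combination (j : ℤ) * hq'
      rw [e]; exact h1
    · have e1 : g ^ (M * (p * j)) = g ^ (q * j) * g ^ j := by
        rw [← pow_add]; congr 1
        rw [← mul_assoc, hq]; ring
      have e2 : h ^ ((p + 1) * j) = h ^ (p * j) * h ^ j := by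
        rw [← pow_add]; congr 1; ring
      rw [hw, div_pow, ← pow_mul, e1, e2, mul_pow]
      field_simp
  obtain ⟨G, hG, hGe⟩ := hex _ hmem
  refine ⟨fun c d => G c d * w⁻¹ ^ j, fun c d => gch_chart_mul (hsub _ (hG c d))
    (gch_chart_pow hwinv j), ?_⟩
  have hwp : w ^ (p * j) ≠ 0 := pow_ne_zero _ hw0
  have h1 : b / (h * g) ^ j = (b / (h * g) ^ j * w ^ (p * j)) * (w⁻¹ ^ j) ^ p := by
    rw [← pow_mul, mul_comm j p, mul_assoc, ← mul_pow, mul_inv_cancel₀ hw0, one_pow, mul_one]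
  rw [h1, hGe, Finset.sum_mul]
  refine Finset.sum_congr rfl fun c _ => ?_
  rw [Finset.sum_mul]
  refine Finset.sum_congr rfl fun d _ => ?_
  rw [mul_pow]
  ring

theorem exists_gcharts [Fact p.Prime] [CharP L p] (hP : Par D η ζ) (hc : PCharts D p) :
    ∃ (ι : Type) (_ : Fintype ι) (C : ι → GChart D p), ∃ J : ℤ, ∀ n, J ≤ n →
      D.B n ≤ ⨆ i, sm (C i).h (D.B (n - (C i).M)) := by
  obtain ⟨ι, hι, h, m, u, v, ε, hd, J, hJ⟩ := hc
  obtain ⟨n1, hn1⟩ := hP.gen
  have hη0 : η ≠ 0 := hP.indep.ne_zero 0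
  have hζ0 : ζ ≠ 0 := hP.indep.ne_zero 1
  let x : Fin 3 → L := ![1, η, ζ]
  have hx1 : ∀ t, x t ∈ D.B 1 := by
    intro t
    fin_cases t
    · exact D.one_mem
    · exact hP.hη
    · exact hP.hζ
  have hx0 : ∀ t, x t ≠ 0 := by
    intro t
    fin_cases t
    · exact one_ne_zero
    · exact hη0
    · exact hζ0
  let C : ι × Fin 3 → GChart D p := fun a =>
    { h0 := h a.1
      g := x a.2
      u := u a.1
      v := v a.1
      m := m a.1
      m_nonneg := (hd a.1).2.1.le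
      h0_mem := (hd a.1).2.2.1
      g_mem := hx1 a.2
      h0_ne := (hd a.1).1
      g_ne := hx0 a.2
      pb := gch_pb (hd a.1).1 (hx0 a.2) (hd a.1).2.1 (hd a.1).2.2.1 (hx1 a.2) (hd a.1).2.2.2.1 }
  refine ⟨ι × Fin 3, inferInstance, C, max J (n1 + 1 + ∑ i, m i), fun n hn => ?_⟩
  have hnJ : J ≤ n := le_trans (le_max_left _ _) hn
  have hn2 : n1 + 1 + ∑ i, m i ≤ n := le_trans (le_max_right _ _) hn
  refine (hJ n hnJ).trans (iSup_le fun i => ?_)
  have hmi : m i ≤ ∑ i, m i :=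
    Finset.single_le_sum (fun j _ => (hd j).2.1.le) (Finset.mem_univ i)
  have hg := hn1 (n - m i - 1) (by omega)
  have e1 : n - m i - 1 + 1 = n - m i := by ring
  rw [e1] at hg
  have hle : ∀ t, sm (C (i, t)).h (D.B (n - (C (i, t)).M)) ≤
      ⨆ a, sm (C a).h (D.B (n - (C a).M)) := fun t =>
    le_iSup (fun a => sm (C a).h (D.B (n - (C a).M))) (i, t)
  have hkey : ∀ t, ∀ b ∈ D.B (n - m i - 1), h i * x t * b ∈
      ⨆ a, sm (C a).h (D.B (n - (C a).M)) := by
    intro t b hb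
    refine hle t ?_
    refine ⟨b, ?_, rfl⟩
    have e2 : n - (C (i, t)).M = n - m i - 1 := by
      show n - (m i + 1) = _
      ring
    rw [e2]; exact hb
  rintro _ ⟨b, hb, rfl⟩
  obtain ⟨y, hy, z, hz, rfl⟩ := Submodule.mem_sup.1 (hg hb)
  obtain ⟨b0, hb0, y', hy', rfl⟩ := Submodule.mem_sup.1 hy
  obtain ⟨b1, hb1, rfl⟩ := hy'
  obtain ⟨b2, hb2, rfl⟩ := hz
  have e3 : (Algebra.lsmul k k L (h i)) (b0 + (Algebra.lsmul k k L η) b1 + (Algebra.lsmul k k L ζ) b2) =
      h i * x 0 * b0 + h i * x 1 * b1 + h i * x 2 * b2 := by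
    show h i * (b0 + η * b1 + ζ * b2) = h i * 1 * b0 + h i * η * b1 + h i * ζ * b2
    ring
  rw [e3]
  exact Submodule.add_mem _ (Submodule.add_mem _ (hkey 0 b0 hb0) (hkey 1 b1 hb1)) (hkey 2 b2 hb2)

/-! ### FR_EQLOC -/

theorem loc_up {h : L} {m : ℤ} (hh : h ∈ D.B m) (hs : Stab D E) {n : ℤ} {w : W} {j j' : ℕ}
    (hj : j ≤ j') (hw : h ^ j • w ∈ E (n + j * m)) : h ^ j' • w ∈ E (n + j' * m) := by
  obtain ⟨d, rfl⟩ := Nat.exists_eq_add_of_le hj
  have h1 := hs (pow_mem_B hh d) hw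
  rw [smul_smul, ← pow_add, add_comm d j] at h1
  have e : (d : ℤ) * m + (n + j * m) = n + ((j + d : ℕ) : ℤ) * m := by push_cast; ring
  rwa [e] at h1

/-- one generator: induction on the sum of the exponents -/
theorem eq_of_loc_aux {ι : Type} [Fintype ι] (h : ι → L) (m : ι → ℤ)
    (hmem : ∀ i, h i ∈ D.B (m i))
    (hgen : ∃ J : ℤ, ∀ n, J ≤ n → D.B n ≤ ⨆ i, sm (h i) (D.B (n - m i)))
    (hs' : Stab D E') (N : ℕ) : ∀ (κ : ι → ℕ) (w : W) (c : ℤ), ∑ i, κ i = N →
      (∀ i, h i ^ κ i • w ∈ E' (c + κ i * m i)) →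
      ∃ J : ℤ, ∀ n, J ≤ n → ∀ b ∈ D.B n, b • w ∈ E' (n + c) := by
  classical
  induction N using Nat.strong_induction_on with
  | _ N ih =>
    intro κ w c hN hκ
    by_cases h0 : ∃ i, κ i = 0
    · obtain ⟨i, hi⟩ := h0
      have hw := hκ i
      rw [hi, pow_zero, one_smul, Nat.cast_zero, zero_mul, add_zero] at hw
      exact ⟨0, fun n _ b hb => hs' hb hw⟩
    · push Not at h0
      have hstep : ∀ i, ∃ J : ℤ, ∀ n, J ≤ n → ∀ b ∈ D.B n, b • (h i • w) ∈ E' (n + (c + m i)) := by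
        intro i
        have hpos : 1 ≤ κ i := Nat.one_le_iff_ne_zero.2 (h0 i)
        have hsum : ∑ x, Function.update κ i (κ i - 1) x + 1 = N := by
          rw [← hN, Finset.sum_update_of_mem (Finset.mem_univ i),
            Finset.sum_eq_sum_sdiff_singleton_add (Finset.mem_univ i) κ]
          omega
        refine ih (∑ x, Function.update κ i (κ i - 1) x) (by omega) _ (h i • w) (c + m i) rfl ?_
        intro i'
        by_cases hi' : i' = i
        · subst hi'
          rw [Function.update_self, smul_smul, ← pow_succ, Nat.sub_add_cancel hpos]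
          have e : c + m i' + ((κ i' - 1 : ℕ) : ℤ) * m i' = c + κ i' * m i' := by
            rw [Nat.cast_sub hpos]; push_cast; ring
          rw [e]
          exact hκ i'
        · rw [Function.update_of_ne hi', smul_comm]
          have h1 := hs' (hmem i) (hκ i')
          have e : m i + (c + κ i' * m i') = c + m i + κ i' * m i' := by ring
          rwa [e] at h1
      choose J hJ using hstep
      obtain ⟨J0, hJ0⟩ := hgen
      obtain ⟨M, hM⟩ := Finite.exists_le (fun i => J i + m i)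
      refine ⟨max J0 M, fun n hn b hb => ?_⟩
      have h1 := hJ0 n ((le_max_left _ _).trans hn) hb
      have h2 : (⨆ i, sm (h i) (D.B (n - m i))) ≤
          (E' (n + c)).comap ((LinearMap.toSpanSingleton L W w).restrictScalars k) := by
        refine iSup_le fun i => ?_
        rintro x ⟨b', hb', rfl⟩
        change (h i • b') • w ∈ E' (n + c)
        rw [smul_eq_mul, mul_comm, ← smul_smul]
        have h3 := hJ i (n - m i) (by
          have h4 := (le_max_right J0 M).trans hn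
          linarith [hM i]) b' hb'
        have e : n - m i + (c + m i) = n + c := by ring
        rwa [e] at h3
      exact h2 h1

theorem eq_of_loc (hP : Par D η ζ) {ι : Type} [Fintype ι] (h : ι → L) (m : ι → ℤ)
    (hm : ∀ i, 0 < m i) (hmem : ∀ i, h i ∈ D.B (m i))
    (hgen : ∃ J : ℤ, ∀ n, J ≤ n → D.B n ≤ ⨆ i, sm (h i) (D.B (n - m i)))
    (hE : IsLat D η ζ E) (hs' : Stab D E')
    (hloc : ∀ i n w, w ∈ E n → ∃ j : ℕ, h i ^ j • w ∈ E' (n + j * m i)) :
    ∃ n0 : ℤ, ∀ n, n0 ≤ n → E n ≤ E' n := by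
  obtain ⟨s, w, c, hw, hEg⟩ := hE.exists_gens hP
  have h1 : ∀ l, ∃ J : ℤ, ∀ n, J ≤ n → ∀ b ∈ D.B n, b • w l ∈ E' (n + c l) := by
    intro l
    have h2 : ∀ i, ∃ j : ℕ, h i ^ j • w l ∈ E' (c l + j * m i) := fun i => hloc i _ _ (hw l)
    choose κ hκ using h2
    exact eq_of_loc_aux h m hmem hgen hs' _ κ (w l) (c l) rfl hκ
  choose J hJ using h1
  obtain ⟨M, hM⟩ := Finite.exists_le (fun l => J l + c l)
  refine ⟨M, fun n hn => ?_⟩
  rw [hEg]
  refine iSup_le fun l => ?_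
  intro x hx
  obtain ⟨b, hb, rfl⟩ := mem_mulg.1 hx
  have h3 := hJ l (n - c l) (by linarith [hM l]) b hb
  rwa [sub_add_cancel] at h3

/-! ### FR_CORE -/

/-- the chart ring as a subspace of `L` -/
theorem mem_chart_iff {h l : L} {m : ℤ} (h0 : h ≠ 0) :
    l ∈ chart D h m ↔ ∃ j : ℕ, h ^ j * l ∈ D.B (j * m) := by
  constructor
  · rintro ⟨j, b, hb, rfl⟩
    refine ⟨j, ?_⟩
    rwa [mul_div_cancel₀ _ (pow_ne_zero j h0)]
  · rintro ⟨j, hj⟩
    refine ⟨j, _, hj, ?_⟩
    rw [mul_div_cancel_left₀ _ (pow_ne_zero j h0)]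

/-- degree zero part of the localisation of `E` -/
def locW (C : GChart D p) (E : ℤ → Submodule k W) : Set W := {w | ∃ j : ℕ, C.h ^ j • w ∈ E (j * C.M)}

theorem locW_add (C : GChart D p) (hs : Stab D E) {w w' : W} (h : w ∈ locW C E) (h' : w' ∈ locW C E) :
    w + w' ∈ locW C E := by
  obtain ⟨j, hj⟩ := h
  obtain ⟨j', hj'⟩ := h'
  refine ⟨j + j', ?_⟩
  have h1 := hs (pow_mem_B C.h_mem j') hj
  have h2 := hs (pow_mem_B C.h_mem j) hj'
  have e1 : ((j' : ℤ) * C.M + j * C.M) = ((j + j' : ℕ) : ℤ) * C.M := by push_cast; ring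
  have e2 : ((j : ℤ) * C.M + j' * C.M) = ((j + j' : ℕ) : ℤ) * C.M := by push_cast; ring
  rw [e1, smul_smul] at h1
  rw [e2, smul_smul] at h2
  have e3 : C.h ^ (j + j') • (w + w') = (C.h ^ j' * C.h ^ j) • w + (C.h ^ j * C.h ^ j') • w' := by
    rw [smul_add, pow_add]
    congr 2
    ring
  rw [e3]
  exact Submodule.add_mem _ h1 h2

theorem locW_smul (C : GChart D p) (hs : Stab D E) {f : L} {w : W} (hf : f ∈ chart D C.h C.M)
    (h : w ∈ locW C E) : f • w ∈ locW C E := by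
  obtain ⟨j, hj⟩ := (mem_chart_iff C.h_ne).1 hf
  obtain ⟨j', hj'⟩ := h
  refine ⟨j + j', ?_⟩
  have h1 := hs hj hj'
  have e1 : ((j : ℤ) * C.M + j' * C.M) = ((j + j' : ℕ) : ℤ) * C.M := by push_cast; ring
  rw [e1, smul_smul] at h1
  have e3 : C.h ^ (j + j') • (f • w) = (C.h ^ j * f * C.h ^ j') • w := by
    rw [smul_smul, pow_add]
    congr 1
    ring
  rw [e3]
  exact h1

theorem locW_sum (C : GChart D p) (hs : Stab D E) {τ : Type} (s : Finset τ) (w : τ → W)
    (h : ∀ i ∈ s, w i ∈ locW C E) : ∑ i ∈ s, w i ∈ locW C E := by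
  classical
  induction s using Finset.induction_on with
  | empty => exact ⟨0, by simp⟩
  | insert a s ha ih =>
    rw [Finset.sum_insert ha]
    exact locW_add C hs (h a (Finset.mem_insert_self a s))
      (ih fun i hi => h i (Finset.mem_insert_of_mem hi))

private theorem FMap.zero' (F : FMap p L W) : F.φ 0 = 0 := by
  have := F.add 0 0
  simpa using this

private theorem FMap.sub' (F : FMap p L W) (a b : W) : F.φ (a - b) = F.φ a - F.φ b := by
  have := F.add (a - b) b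
  rw [sub_add_cancel] at this
  rw [this, add_sub_cancel_right]

private theorem FMap.sum' (F : FMap p L W) {τ : Type} (s : Finset τ) (w : τ → W) :
    F.φ (∑ i ∈ s, w i) = ∑ i ∈ s, F.φ (w i) := by
  classical
  induction s using Finset.induction_on with
  | empty => simpa using FMap.zero' F
  | insert a s ha ih => rw [Finset.sum_insert ha, Finset.sum_insert ha, F.add, ih]

theorem core (C : GChart D p) (F : FMap p L W) [Fact p.Prime] [CharP L p] (hs : Stab D E)
    {f : L} (hf : f ∈ chart D C.h C.M) (x : W) {τ : Type} (s : Finset τ) (fl : τ → L) (xl : τ → W)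
    (hfl : ∀ l ∈ s, fl l ∈ chart D C.h C.M) (hxl : ∀ l ∈ s, xl l ∈ locW C E)
    (he : f • F.φ x = ∑ l ∈ s, fl l • F.φ (xl l)) :
    ∃ G : Fin p → Fin p → L, (∀ i j, G i j ∈ chart D C.h C.M ∧ G i j • x ∈ locW C E) ∧
      f = ∑ i, ∑ j, G i j ^ p * C.u ^ (i : ℕ) * C.v ^ (j : ℕ) := by
  classical
  obtain ⟨-, -, hex, hind⟩ := C.pb
  obtain ⟨G, hG, hfG⟩ := hex f hf
  have hex' : ∀ l, ∃ g : Fin p → Fin p → L, l ∈ s → (∀ i j, g i j ∈ chart D (C.h0 * C.g) (C.m + 1)) ∧
      fl l = ∑ i, ∑ j, g i j ^ p * C.u ^ (i : ℕ) * C.v ^ (j : ℕ) := by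
    intro l
    by_cases hl : l ∈ s
    · obtain ⟨g, hg⟩ := hex (fl l) (hfl l hl)
      exact ⟨g, fun _ => hg⟩
    · exact ⟨fun _ _ => 0, fun h => absurd h hl⟩
  choose g hg using hex'
  have key : ∀ i j, G i j • x - ∑ l ∈ s, g l i j • xl l = 0 := by
    apply F.indep C.u C.v hind (fun i j => G i j • x - ∑ l ∈ s, g l i j • xl l)
    have e1 : ∀ i j : Fin p, (C.u ^ (i : ℕ) * C.v ^ (j : ℕ)) • F.φ (G i j • x - ∑ l ∈ s, g l i j • xl l) =
        (G i j ^ p * C.u ^ (i : ℕ) * C.v ^ (j : ℕ)) • F.φ x -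
          ∑ l ∈ s, (g l i j ^ p * C.u ^ (i : ℕ) * C.v ^ (j : ℕ)) • F.φ (xl l) := by
      intro i j
      rw [FMap.sub', FMap.sum', smul_sub, F.smul, smul_smul, Finset.smul_sum]
      congr 1
      · congr 1; ring
      · refine Finset.sum_congr rfl fun l _ => ?_
        rw [F.smul, smul_smul]
        congr 1; ring
    simp_rw [e1, Finset.sum_sub_distrib]
    rw [sub_eq_zero]
    have e2 : ∑ i, ∑ j, (G i j ^ p * C.u ^ (i : ℕ) * C.v ^ (j : ℕ)) • F.φ x = f • F.φ x := by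
      conv_rhs => rw [hfG]
      rw [Finset.sum_smul]
      exact Finset.sum_congr rfl fun i _ => (Finset.sum_smul).symm
    have e3 : ∑ i : Fin p, ∑ j : Fin p, ∑ l ∈ s, (g l i j ^ p * C.u ^ (i : ℕ) * C.v ^ (j : ℕ)) • F.φ (xl l) =
        ∑ l ∈ s, fl l • F.φ (xl l) := by
      have e4 : ∀ l ∈ s, fl l • F.φ (xl l) =
          ∑ i : Fin p, ∑ j : Fin p, (g l i j ^ p * C.u ^ (i : ℕ) * C.v ^ (j : ℕ)) • F.φ (xl l) := by
        intro l hl
        conv_lhs => rw [(hg l hl).2]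
        rw [Finset.sum_smul]
        exact Finset.sum_congr rfl fun i _ => (Finset.sum_smul)
      rw [Finset.sum_congr rfl e4, Finset.sum_comm]
      rw [Finset.sum_comm (s := s)]
      rw [Finset.sum_comm]
      refine Finset.sum_congr rfl fun i _ => ?_
      rw [Finset.sum_comm]
    rw [e2, e3, he]
  refine ⟨G, fun i j => ⟨hG i j, ?_⟩, hfG⟩
  rw [sub_eq_zero.1 (key i j)]
  exact locW_sum C hs s _ fun l hl => locW_smul C hs ((hg l hl).1 i j) (hxl l hl)

/-! ### FR_FLAT -/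

private theorem FrW_exists (F : FMap p L W) {n : ℤ} {w : W} (hw : w ∈ FrW D F E n) :
    ∃ (τ : Type) (_ : Fintype τ) (i : τ → ℤ) (e : τ → W) (b : τ → L), (∀ l, e l ∈ E (i l)) ∧
      (∀ l, b l ∈ D.B (n - p * i l)) ∧ w = ∑ l, b l • F.φ (e l) := by
  refine Submodule.span_induction ?_ ?_ ?_ ?_ hw
  · rintro w ⟨i, e, b, he, hb, rfl⟩
    exact ⟨Unit, inferInstance, fun _ => i, fun _ => e, fun _ => b, fun _ => he, fun _ => hb,
      by simp⟩
  · exact ⟨Empty, inferInstance, fun l => l.elim, fun l => l.elim, fun l => l.elim,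
      fun l => l.elim, fun l => l.elim, by simp⟩
  · rintro x y _ _ ⟨τ, _, i, e, b, he, hb, rfl⟩ ⟨τ', _, i', e', b', he', hb', rfl⟩
    refine ⟨τ ⊕ τ', inferInstance, Sum.elim i i', Sum.elim e e', Sum.elim b b', ?_, ?_, ?_⟩
    · rintro (l | l)
      · exact he l
      · exact he' l
    · rintro (l | l)
      · exact hb l
      · exact hb' l
    · rw [Fintype.sum_sum_type]; rfl
  · rintro c x _ ⟨τ, _, i, e, b, he, hb, rfl⟩
    refine ⟨τ, inferInstance, i, e, fun l => c • b l, he, fun l => Submodule.smul_mem _ c (hb l), ?_⟩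
    rw [Finset.smul_sum]
    refine Finset.sum_congr rfl fun l _ => ?_
    rw [smul_assoc]

private theorem div_mem_chart (C : GChart D p) {N : ℤ} {b : L} (hb : b ∈ D.B N) :
    b * C.g ^ (-N) ∈ chart D C.h C.M := by
  have hg := C.g_ne
  have h0 := C.h0_ne
  rcases lt_or_ge N 0 with hN | hN
  · rw [D.neg N hN, Submodule.mem_bot] at hb
    subst hb
    exact ⟨0, 0, Submodule.zero_mem _, by simp⟩
  · obtain ⟨t, rfl⟩ := Int.eq_ofNat_of_zero_le hN
    refine ⟨t, b * C.h0 ^ t, ?_, ?_⟩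
    · have := D.mul_mem hb (pow_mem_B C.h0_mem t)
      have e : (t : ℤ) * C.M = (t : ℤ) + t * C.m := by unfold GChart.M; ring
      rw [e]; exact this
    · unfold GChart.h
      rw [zpow_neg, zpow_natCast, mul_pow]
      field_simp

private theorem mem_locW (C : GChart D p) (hs : Stab D E) {i : ℤ} {e : W} (he : e ∈ E i) :
    C.g ^ (-i) • e ∈ locW C E := by
  have hg := C.g_ne
  rcases le_total 0 i with hi | hi
  · obtain ⟨t, rfl⟩ := Int.eq_ofNat_of_zero_le hi
    refine ⟨t, ?_⟩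
    have h1 := hs (pow_mem_B C.h0_mem t) he
    have e1 : (t : ℤ) * C.M = (t : ℤ) * C.m + t := by unfold GChart.M; ring
    have e2 : C.h ^ t • C.g ^ (-(t : ℤ)) • e = C.h0 ^ t • e := by
      rw [smul_smul]
      congr 1
      unfold GChart.h
      rw [zpow_neg, zpow_natCast, mul_pow]
      field_simp
    rw [e1, e2]; exact h1
  · obtain ⟨t, ht⟩ := Int.eq_ofNat_of_zero_le (neg_nonneg.2 hi)
    refine ⟨0, ?_⟩
    have h1 := hs (pow_mem_B C.g_mem t) he
    have e1 : ((0 : ℕ) : ℤ) * C.M = (t : ℤ) * 1 + i := by push_cast; omega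
    rw [e1, pow_zero, one_smul, ht, zpow_natCast]
    exact h1

private theorem stab_B : Stab D D.B := fun ha hb => D.mul_mem ha hb

private theorem chart_up (C : GChart D p) {G : L} (hG : G ∈ chart D C.h C.M) :
    ∃ j0 : ℕ, ∀ j, j0 ≤ j → C.h ^ j * G ∈ D.B (j * C.M) := by
  obtain ⟨j0, h0⟩ := (mem_chart_iff C.h_ne).1 hG
  refine ⟨j0, fun j hj => ?_⟩
  have h1 : C.h ^ j0 • G ∈ D.B (0 + j0 * C.M) := by rw [zero_add, smul_eq_mul]; exact h0
  have h2 := loc_up C.h_mem (stab_B (D := D)) hj h1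
  rwa [zero_add, smul_eq_mul] at h2

private theorem loc_to_colon (C : GChart D p) (hs : Stab D E) (a : ℤ) (e : W) {G : L}
    (hG : G ∈ chart D C.h C.M) (hGx : G • (C.g ^ (-a) • e) ∈ locW C E) :
    ∃ j0 : ℕ, ∀ j, j0 ≤ j → C.h ^ j * G ∈ colon D E a e (j * C.M) := by
  have hg := C.g_ne
  obtain ⟨j1, h1⟩ := chart_up C hG
  obtain ⟨j2, h2⟩ : ∃ j2 : ℕ, C.h ^ j2 • (G • e) ∈ E (a + j2 * C.M) := by
    obtain ⟨j, hj⟩ := hGx
    rcases le_total 0 a with ha | ha
    · obtain ⟨t, rfl⟩ := Int.eq_ofNat_of_zero_le ha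
      refine ⟨j, ?_⟩
      have h1 := hs (pow_mem_B C.g_mem t) hj
      have e1 : (t : ℤ) + j * C.M = (t : ℤ) * 1 + j * C.M := by ring
      have e2 : C.h ^ j • (G • e) = C.g ^ t • C.h ^ j • G • C.g ^ (-(t : ℤ)) • e := by
        simp only [smul_smul]
        congr 1
        rw [zpow_neg, zpow_natCast]
        field_simp
      rw [e1, e2]; exact h1
    · obtain ⟨t, ht⟩ := Int.eq_ofNat_of_zero_le (neg_nonneg.2 ha)
      refine ⟨j + t, ?_⟩
      have h1 := hs (pow_mem_B C.h0_mem t) hj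
      rw [ht, zpow_natCast] at h1
      have e1 : a + ((j + t : ℕ) : ℤ) * C.M = (t : ℤ) * C.m + j * C.M := by
        have : a = -(t : ℤ) := by rw [← ht]; ring
        rw [this]; unfold GChart.M; push_cast; ring
      have e2 : C.h ^ (j + t) • (G • e) = C.h0 ^ t • C.h ^ j • G • C.g ^ t • e := by
        simp only [smul_smul]
        congr 1
        rw [pow_add]
        have : C.h ^ t = C.h0 ^ t * C.g ^ t := by unfold GChart.h; rw [mul_pow]
        rw [this]
        ring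
      rw [e1, e2]; exact h1
  refine ⟨max j1 j2, fun j hj => ?_⟩
  rw [mem_colon]
  refine ⟨h1 j ((le_max_left _ _).trans hj), ?_⟩
  have h3 := loc_up C.h_mem hs ((le_max_right _ _).trans hj) h2
  rw [add_comm, mul_smul]
  exact h3

private theorem chart_mul {h : L} {m : ℤ} {f f' : L} (hf : f ∈ chart D h m)
    (hf' : f' ∈ chart D h m) : f * f' ∈ chart D h m := by
  obtain ⟨j, b, hb, rfl⟩ := hf
  obtain ⟨j', b', hb', rfl⟩ := hf'
  refine ⟨j + j', b * b', ?_, ?_⟩
  · have := D.mul_mem hb hb'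
    rw [← add_mul] at this
    push_cast; exact this
  · rw [pow_add, div_mul_div_comm]

private theorem chart_pow {h : L} {m : ℤ} {f : L} (hf : f ∈ chart D h m) (t : ℕ) :
    f ^ t ∈ chart D h m := by
  induction t with
  | zero =>
    refine ⟨0, 1, ?_, by simp⟩
    rw [Nat.cast_zero, zero_mul, D.zero]
    exact Submodule.mem_span_singleton_self _
  | succ t ih => rw [pow_succ]; exact chart_mul ih hf

theorem chart_flat (C : GChart D p) (F : FMap p L W) [Fact p.Prime] [CharP L p] (hs : Stab D E)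
    (a : ℤ) (e : W) (n : ℤ) (b : L) (hb : b ∈ colon D (FrW D F E) (p * a) (F.φ e) n) :
    ∃ j : ℕ, C.h ^ j • b ∈ FrW D (FL p L) (colon D E a e) (n + j * C.M) := by
  have hg := C.g_ne
  rw [mem_colon] at hb
  obtain ⟨hbn, hbe⟩ := hb
  rcases lt_or_ge n 0 with hn | hn
  · rw [D.neg n hn, Submodule.mem_bot] at hbn
    subst hbn
    exact ⟨0, by rw [smul_zero]; exact Submodule.zero_mem _⟩
  obtain ⟨τ, _, i, el, bl, hel, hbl, he⟩ := FrW_exists F hbe
  obtain ⟨G, hG, hf⟩ := core C F hs (f := b * C.g ^ (-n)) (div_mem_chart C hbn) (C.g ^ (-a) • e)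
    Finset.univ (fun l => bl l * C.g ^ (-(n + p * a - p * i l))) (fun l => C.g ^ (-(i l)) • el l)
    (fun l _ => div_mem_chart C (hbl l)) (fun l _ => mem_locW C hs (hel l)) (by
      have e1 : (b * C.g ^ (-n)) • F.φ (C.g ^ (-a) • e) = (C.g ^ (-(n + p * a))) • (b • F.φ e) := by
        rw [F.smul, smul_smul, smul_smul]
        congr 1
        rw [← zpow_natCast, ← zpow_mul, mul_assoc, ← zpow_add₀ hg, mul_comm]
        congr 2
        ring
      rw [e1, he, Finset.smul_sum]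
      refine Finset.sum_congr rfl fun l _ => ?_
      rw [F.smul, smul_smul, smul_smul]
      congr 1
      rw [← zpow_natCast, ← zpow_mul, mul_assoc, ← zpow_add₀ hg, mul_comm]
      congr 2
      ring)
  have hup : ∀ c d : Fin p, ∃ j0 : ℕ, ∀ j, j0 ≤ j → C.h ^ j * G c d ∈ colon D E a e (j * C.M) :=
    fun c d => loc_to_colon C hs a e (hG c d).1 (hG c d).2
  choose j0 hj0 using hup
  have huv : ∀ c d : Fin p, ∃ j0 : ℕ, ∀ j, j0 ≤ j →
      C.h ^ j * (C.u ^ (c : ℕ) * C.v ^ (d : ℕ)) ∈ D.B (j * C.M) := fun c d =>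
    chart_up C (chart_mul (chart_pow C.pb.1 _) (chart_pow C.pb.2.1 _))
  choose j1 hj1 using huv
  let J : ℕ := Finset.univ.sup fun c => Finset.univ.sup fun d => j0 c d
  let J' : ℕ := Finset.univ.sup fun c => Finset.univ.sup fun d => j1 c d
  have hJ : ∀ c d, j0 c d ≤ J := fun c d =>
    (Finset.le_sup (f := fun d => j0 c d) (Finset.mem_univ d)).trans
      (Finset.le_sup (f := fun c => Finset.univ.sup fun d => j0 c d) (Finset.mem_univ c))
  have hJ' : ∀ c d, j1 c d ≤ J' := fun c d =>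
    (Finset.le_sup (f := fun d => j1 c d) (Finset.mem_univ d)).trans
      (Finset.le_sup (f := fun c => Finset.univ.sup fun d => j1 c d) (Finset.mem_univ c))
  clear_value J J'
  obtain ⟨t, rfl⟩ := Int.eq_ofNat_of_zero_le hn
  refine ⟨p * J + J', ?_⟩
  have key : C.h ^ (p * J + J') • b = ∑ c : Fin p, ∑ d : Fin p, (C.h ^ J' * (C.u ^ (c : ℕ) * C.v ^ (d : ℕ)) * C.g ^ t) •
      (FL p L).φ (C.h ^ J * G c d) := by
    have hb' : b = (∑ c : Fin p, ∑ d : Fin p, G c d ^ p * C.u ^ (c : ℕ) * C.v ^ (d : ℕ)) * C.g ^ t := by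
      rw [← hf, zpow_neg, zpow_natCast]
      field_simp
    rw [hb', smul_eq_mul, Finset.sum_mul, Finset.mul_sum]
    refine Finset.sum_congr rfl fun c _ => ?_
    rw [Finset.sum_mul, Finset.mul_sum]
    refine Finset.sum_congr rfl fun d _ => ?_
    change _ = _ * (C.h ^ J * G c d) ^ p
    rw [pow_add, mul_pow, ← pow_mul, mul_comm p J]
    ring
  rw [key]
  refine Submodule.sum_mem _ fun c _ => Submodule.sum_mem _ fun d _ => Submodule.subset_span ?_
  refine ⟨J * C.M, C.h ^ J * G c d, _, hj0 c d J (hJ c d), ?_, rfl⟩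
  have h1 := D.mul_mem (hj1 c d J' (hJ' c d)) (pow_mem_B C.g_mem t)
  have e1 : ((t : ℤ) + ((p * J + J' : ℕ) : ℤ) * C.M - p * (J * C.M)) = J' * C.M + t * 1 := by
    push_cast; ring
  rw [e1]
  exact h1

theorem le_colon_FrW (F : FMap p L W) [Fact p.Prime] [CharP L p] (hs : Stab D E)
    (a : ℤ) (e : W) (n : ℤ) :
    FrW D (FL p L) (colon D E a e) n ≤ colon D (FrW D F E) (p * a) (F.φ e) n := by
  refine Submodule.span_le.2 ?_
  rintro w ⟨i, c, b, hc, hb, rfl⟩
  rw [mem_colon] at hc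
  rw [SetLike.mem_coe, mem_colon]
  refine ⟨?_, ?_⟩
  · have h1 := D.mul_mem hb (pow_mem_B hc.1 p)
    rw [sub_add_cancel] at h1
    exact h1
  · have e1 : (b • (FL p L).φ c) • F.φ e = b • F.φ (c • e) := by
      rw [F.smul, smul_assoc]; rfl
    rw [e1]
    refine Submodule.subset_span ⟨i + a, c • e, b, hc.2, ?_, rfl⟩
    have e2 : n + p * a - p * (i + a) = n - p * i := by ring
    rw [e2]; exact hb

theorem colon_FrW (hP : Par D η ζ) (hc : PCharts D p) (F : FMap p L W) [Fact p.Prime] [CharP L p]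
    (hs : Stab D E) (a : ℤ) (e : W) :
    ∃ n0 : ℤ, ∀ n, n0 ≤ n →
      colon D (FrW D F E) (p * a) (F.φ e) n = FrW D (FL p L) (colon D E a e) n := by
  obtain ⟨ι, _, C, hC⟩ := exists_gcharts (p := p) hP hc
  have hFE : Stab D (FrW D F E) := stab_FrW F E
  have hG : GIdeal D (colon D (FrW D F E) (p * a) (F.φ e)) :=
    gideal_colon (E := FrW D F E) hFE (p * a) (F.φ e)
  have hL : IsLat D η ζ (colon D (FrW D F E) (p * a) (F.φ e)) :=
    isLat_gideal hP hG
  have hS : Stab D (FrW D (FL p L) (colon D E a e)) := stab_FrW (FL p L) (colon D E a e)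
  have hloc : ∀ i n w, w ∈ colon D (FrW D F E) (p * a) (F.φ e) n →
      ∃ j : ℕ, (C i).h ^ j • w ∈ FrW D (FL p L) (colon D E a e) (n + j * (C i).M) :=
    fun i n w hw => chart_flat (C i) F hs a e n w hw
  obtain ⟨n0, h0⟩ := eq_of_loc (E := colon D (FrW D F E) (p * a) (F.φ e))
    (E' := FrW D (FL p L) (colon D E a e)) hP (fun i => (C i).h) (fun i => (C i).M)
    (fun i => (C i).M_pos) (fun i => (C i).h_mem) hC hL hS hloc
  exact ⟨n0, fun n hn => le_antisymm (h0 n hn) (le_colon_FrW F hs a e n)⟩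

end

end R169
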