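import Crest.Agent.R169.FrobGen

/-!
# Row 169, FROB: graded prime devissage (pieces FR_MAX, FR_PRIME, FR_DEV; helper78)

FR_MAX. Ascending chain condition from `IsLat.sub`: the union `U n = ⨆ E' n` of a nonempty chain of stable
subfamilies of a lattice `E` is a stable subfamily, hence a lattice (`IsLat.sub`), so generated in degrees `≤ n1`;
the finitely many nonzero `U n`, `n ≤ n1`, are finite dimensional, hence all attained by one member of the
chain, which is then `= U`. Zorn (`zorn_le_nonempty_Ici₀`, `zorn_le₀` or similar, order of `ℤ → Submodule k W`).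
FR_PRIME. Choose `(a, e)`, `e ∈ E a`, `e ∉ E' a` with `colon D E' a e` maximal (FR_MAX with `E := D.B`);
it is prime: `1 • e ∉ E' a`; if `x y ∈ colon`, `y ∉ colon`, then `colon D E' (j + a) (y • e) ≥ colon D E' a e`,
so they are equal, and `x` is in the first one.
FR_DEV. Take a maximal `E'` with `E0 ≤ E' ≤ E`, `Stab`, `Pr E'`.
-/

set_option autoImplicit false

namespace R169

section
variable {k L : Type} [Field k] [Field L] [Algebra k L]
variable {W : Type} [AddCommGroup W] [Module k W] [Module L W] [IsScalarTower k L W]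
variable {D : GD k L} {η ζ : L} {E : ℤ → Submodule k W}

/-! helper lemmas for FR_MAX -/

private theorem maxFam_mono {E' : ℤ → Submodule k W} (hs : Stab D E') (n : ℤ) :
    E' n ≤ E' (n + 1) := by
  intro w hw
  have := hs D.one_mem hw
  rwa [one_smul, add_comm 1 n] at this

private theorem maxFam_sm {E' : ℤ → Submodule k W} (hs : Stab D E') {l : L} (hl : l ∈ D.B 1)
    (n : ℤ) : sm l (E' n) ≤ E' (n + 1) := by
  rintro _ ⟨w, hw, rfl⟩
  have := hs hl hw
  rwa [add_comm 1 n] at this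

private theorem maxFam_chain (hP : Par D η ζ) (h : IsLat D η ζ E) (c : Set (ℤ → Submodule k W))
    (hc : IsChain (· ≤ ·) c) (y : ℤ → Submodule k W) (hy : y ∈ c)
    (hS : ∀ E' ∈ c, Stab D E' ∧ ∀ n, E' n ≤ E n) : ∃ ub ∈ c, ∀ z ∈ c, z ≤ ub := by
  classical
  -- the union
  let U : ℤ → Submodule k W := fun n => ⨆ E' : c, E'.1 n
  have hne : Nonempty c := ⟨⟨y, hy⟩⟩
  have hdir : ∀ n, Directed (· ≤ ·) (fun E' : c => E'.1 n) := by
    intro n A B
    rcases hc.total A.2 B.2 with hAB | hAB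
    · exact ⟨B, hAB n, le_rfl⟩
    · exact ⟨A, le_rfl, hAB n⟩
  have hmem : ∀ n w, w ∈ U n ↔ ∃ E' ∈ c, w ∈ E' n := by
    intro n w
    constructor
    · intro hw
      obtain ⟨E', hE'⟩ := (Submodule.mem_iSup_of_directed _ (hdir n)).1 hw
      exact ⟨E'.1, E'.2, hE'⟩
    · rintro ⟨E', hE', hw⟩
      exact (Submodule.mem_iSup_of_directed _ (hdir n)).2 ⟨⟨E', hE'⟩, hw⟩
  have hUE : ∀ n, U n ≤ E n := fun n => iSup_le fun E' => (hS E'.1 E'.2).2 n
  have hUs : Stab D U := by
    intro i n a w ha hw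
    obtain ⟨E', hE', hw'⟩ := (hmem n w).1 hw
    exact (hmem _ _).2 ⟨E', hE', (hS E' hE').1 ha hw'⟩
  have hU : IsLat D η ζ U := h.sub hP hUE hUs
  -- each degree is attained
  have hatt : ∀ n, ∃ E' ∈ c, U n ≤ E' n := by
    intro n
    have := hU.fin n
    have hle : ∀ E' ∈ c, E' n ≤ U n := fun E' hE' w hw => (hmem n w).2 ⟨E', hE', hw⟩
    have hfd : ∀ E' ∈ c, FiniteDimensional k (E' n) := fun E' hE' =>
      Submodule.finiteDimensional_of_le (hle E' hE')
    -- choose one of maximal dimension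
    obtain ⟨A, hA, hmax⟩ : ∃ A ∈ c, ∀ B ∈ c, Module.finrank k (B n) ≤ Module.finrank k (A n) := by
      have hb : ∀ m ∈ (fun B : ℤ → Submodule k W => Module.finrank k (B n)) '' c,
          m ≤ Module.finrank k (U n) := by
        rintro _ ⟨B, hB, rfl⟩
        exact Submodule.finrank_mono (hle B hB)
      have hne' : ((fun B : ℤ → Submodule k W => Module.finrank k (B n)) '' c).Nonempty :=
        ⟨_, y, hy, rfl⟩
      have hmem' := Nat.sSup_mem hne' ⟨_, hb⟩
      obtain ⟨A, hA, hAe⟩ := hmem'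
      refine ⟨A, hA, fun B hB => ?_⟩
      change Module.finrank k (B n) ≤ (fun B : ℤ → Submodule k W => Module.finrank k (B n)) A
      rw [hAe]
      exact le_csSup ⟨_, hb⟩ ⟨B, hB, rfl⟩
    refine ⟨A, hA, fun w hw => ?_⟩
    obtain ⟨B, hB, hwB⟩ := (hmem n w).1 hw
    rcases hc.total hA hB with hAB | hAB
    · haveI := hfd B hB
      have := Submodule.eq_of_le_of_finrank_le (hAB n) (hmax B hB)
      rw [this]; exact hwB
    · exact hAB n hwB
  have hfin : ∀ T : Finset ℤ, ∃ E' ∈ c, ∀ n ∈ T, U n ≤ E' n := by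
    intro T
    induction T using Finset.induction_on with
    | empty => exact ⟨y, hy, by simp⟩
    | insert a T _ ih =>
      obtain ⟨A, hA, hA'⟩ := ih
      obtain ⟨B, hB, hB'⟩ := hatt a
      rcases hc.total hA hB with hAB | hAB
      · refine ⟨B, hB, fun n hn => ?_⟩
        rcases Finset.mem_insert.1 hn with rfl | hn
        · exact hB'
        · exact (hA' n hn).trans (hAB n)
      · refine ⟨A, hA, fun n hn => ?_⟩
        rcases Finset.mem_insert.1 hn with rfl | hn
        · exact hB'.trans (hAB _)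
        · exact hA' n hn
  obtain ⟨n0, hn0⟩ := hU.bdd
  obtain ⟨n1, hn1⟩ := hU.gen
  obtain ⟨A, hA, hA'⟩ := hfin (Finset.Icc n0 (max n0 n1))
  have hsA : Stab D A := (hS A hA).1
  have hlow : ∀ n, n ≤ max n0 n1 → U n ≤ A n := by
    intro n hn
    by_cases h0 : n < n0
    · rw [hn0 n h0]; exact bot_le
    · exact hA' n (Finset.mem_Icc.2 ⟨by omega, hn⟩)
  have hhigh : ∀ j : ℕ, U (max n0 n1 + j) ≤ A (max n0 n1 + j) := by
    intro j
    induction j with
    | zero => exact hlow _ (by simp)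
    | succ j ih =>
      have e : max n0 n1 + ((j + 1 : ℕ) : ℤ) = (max n0 n1 + (j : ℤ)) + 1 := by push_cast; ring
      rw [e]
      refine (hn1 _ (by have := le_max_right n0 n1; omega)).trans ?_
      refine sup_le (sup_le ?_ ?_) ?_
      · exact ih.trans (maxFam_mono hsA _)
      · exact (Submodule.map_mono ih).trans (maxFam_sm hsA hP.hη _)
      · exact (Submodule.map_mono ih).trans (maxFam_sm hsA hP.hζ _)
  have hall : ∀ n, U n ≤ A n := by
    intro n
    by_cases hn : n ≤ max n0 n1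
    · exact hlow n hn
    · have := hhigh (n - max n0 n1).toNat
      have e : max n0 n1 + (((n - max n0 n1).toNat : ℕ) : ℤ) = n := by omega
      rwa [e] at this
  refine ⟨A, hA, fun z hz n => ?_⟩
  exact le_trans (fun w hw => (hmem n w).2 ⟨z, hz, hw⟩) (hall n)

theorem exists_maxFam (hP : Par D η ζ) (h : IsLat D η ζ E) (S : Set (ℤ → Submodule k W))
    (hne : S.Nonempty) (hS : ∀ E' ∈ S, Stab D E' ∧ ∀ n, E' n ≤ E n) :
    ∃ E' ∈ S, ∀ E'' ∈ S, (∀ n, E' n ≤ E'' n) → E'' = E' := by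
  obtain ⟨x, hx⟩ := hne
  obtain ⟨m, _, hm⟩ := zorn_le_nonempty₀ S (fun c hcS hc y hy => by
    obtain ⟨ub, hub, hub'⟩ := maxFam_chain hP h c hc y hy (fun E' hE' => hS E' (hcS hE'))
    exact ⟨ub, hcS hub, hub'⟩) x hx
  exact ⟨m, hm.prop, fun E'' hE'' hle => le_antisymm (hm.le_of_ge hE'' hle) hle⟩

theorem exists_prime_colon (hP : Par D η ζ) (h : IsLat D η ζ E) {E' : ℤ → Submodule k W}
    (hs : Stab D E') (hle : ∀ n, E' n ≤ E n) (hne : E' ≠ E) :
    ∃ (a : ℤ) (e : W), e ∈ E a ∧ e ∉ E' a ∧ GPrime D (colon D E' a e) := by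
  classical
  have hex : ∃ n, E' n ≠ E n := by
    by_contra hcon
    push Not at hcon
    exact hne (funext hcon)
  obtain ⟨a0, ha0⟩ := hex
  have hnl : ¬ E a0 ≤ E' a0 := fun hle' => ha0 (le_antisymm (hle a0) hle')
  obtain ⟨e0, he0, he0'⟩ := SetLike.not_le_iff_exists.1 hnl
  obtain ⟨I, ⟨a, e, he, he', rfl⟩, hmax⟩ := exists_maxFam (W := L) hP (isLat_B hP)
    {I : ℤ → Submodule k L | ∃ (a : ℤ) (e : W), e ∈ E a ∧ e ∉ E' a ∧ I = colon D E' a e}
    ⟨_, a0, e0, he0, he0', rfl⟩ (by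
      rintro I ⟨a, e, he, he', rfl⟩
      refine ⟨?_, (gideal_colon hs a e).le⟩
      intro i n b w hb hw
      exact (gideal_colon hs a e).smul_mem hb hw)
  refine ⟨a, e, he, he', gideal_colon hs a e, ?_, ?_⟩
  · intro h1
    have h2 := (mem_colon.1 h1).2
    rw [one_smul, zero_add] at h2
    exact he' h2
  · intro i j x y hx hy hxy
    by_cases hyc : y ∈ colon D E' a e j
    · exact Or.inr hyc
    · left
      have hye : y • e ∉ E' (j + a) := fun h3 => hyc (mem_colon.2 ⟨hy, h3⟩)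
      have heq := hmax (colon D E' (j + a) (y • e)) ⟨j + a, y • e, h.smul_mem hy he, hye, rfl⟩ (by
        intro n b hb
        obtain ⟨hb1, hb2⟩ := mem_colon.1 hb
        refine mem_colon.2 ⟨hb1, ?_⟩
        have h4 := hs hy hb2
        rw [smul_smul, mul_comm y b, ← smul_smul] at h4
        rwa [show n + (j + a) = j + (n + a) by ring])
      rw [← heq]
      refine mem_colon.2 ⟨hx, ?_⟩
      have h5 := (mem_colon.1 hxy).2
      rw [smul_smul]
      rwa [← add_assoc]

theorem devissage (hP : Par D η ζ) (h : IsLat D η ζ E) {E0 : ℤ → Submodule k W}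
    (hs0 : Stab D E0) (hle0 : ∀ n, E0 n ≤ E n) (Pr : (ℤ → Submodule k W) → Prop) (hPr0 : Pr E0)
    (hstep : ∀ (E' : ℤ → Submodule k W) (a : ℤ) (e : W), Stab D E' → IsLat D η ζ E' →
      (∀ n, E0 n ≤ E' n) → (∀ n, E' n ≤ E n) → Pr E' → e ∈ E a → e ∉ E' a →
      GPrime D (colon D E' a e) → Pr (addg D E' a e)) : Pr E := by
  classical
  obtain ⟨E', ⟨hs, h0, hle, hPr⟩, hmax⟩ := exists_maxFam hP h
    {E' : ℤ → Submodule k W | Stab D E' ∧ (∀ n, E0 n ≤ E' n) ∧ (∀ n, E' n ≤ E n) ∧ Pr E'}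
    ⟨E0, hs0, fun _ => le_rfl, hle0, hPr0⟩ (fun E' hE' => ⟨hE'.1, hE'.2.2.1⟩)
  by_cases hne : E' = E
  · rwa [hne] at hPr
  exfalso
  obtain ⟨a, e, he, he', hpr⟩ := exists_prime_colon hP h hs hle hne
  have hstep' := hstep E' a e hs (h.sub hP hle hs) h0 hle hPr he he' hpr
  have heq := hmax (addg D E' a e) ⟨stab_addg hs a e, fun n => (h0 n).trans le_sup_left, ?_, hstep'⟩
    (fun n => le_sup_left)
  · apply he'
    rw [← heq]
    refine Submodule.mem_sup_right (mem_mulg.2 ⟨1, ?_, one_smul _ _⟩)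
    exact D.one_mem_nonneg (by omega)
  · intro n
    refine sup_le (hle n) ?_
    intro w hw
    obtain ⟨b, hb, rfl⟩ := mem_mulg.1 hw
    have h6 := h.smul_mem hb he
    rwa [show n - a + a = n by ring] at h6

end

end R169
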