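import Crest.Agent.R169.FrobHpv
import Crest.Agent.R169.FrobDev
import Crest.Agent.R169.FrobChart

/-!
# Row 169, FROB: additivity of `Th` (pieces FR_THADD, FR_FREE, FR_IRREL; helper78)

`Lam D p b I t = Th B t - Th I t` for a graded ideal `I`.

FR_THADD. `Th_addg`: by `finrank_addg` and `hpv_rel` the Hilbert polynomials satisfy
`P_{E + Be}(t) = P_E(t) + P_B(t - a) - P_{(E:e)}(t - a)`; the same for `F^*(E + Be) = F^*E + B φ(e)` (`FrW_addg`),
with `(F^*E : φ e) = F^*(E : e)` in large degrees (`colon_FrW`, `hpv_congr`); and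
`p t + (1-p) b - p a = p (t - a) + (1-p) b`. `FrW_B`.
`Th_B`: `P_B(t) = d/2 (t - b)^2 + c`, `b = β/d`, `c = γ - β^2/(2d)`.

FR_FREE. `Th_gens_free`: `hasHP_free` for `w` (shift `c`) and for `φ w` (shift `p c`, `FrW_gens`); note
`gens D w (fun _ => c) n` is literally the family of `hasHP_free`.
`linInd_FP`: `det (w_ij ^ p) = (det w_ij) ^ p` (`Matrix.det`, `frobenius`, `linearIndependent_rows_iff_isUnit`..).

FR_IRREL. `F^*I = B` in large degrees: `eq_of_loc` with `ι = Fin 3`, `h = ![1, η, ζ]`, `m = 1`: `x ^ j ∈ I j` for large `j`,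
so `x ^ (p j) w = (x ^ j) ^ p w ∈ F^*I`.
-/

set_option autoImplicit false

namespace R169

section
variable {k L : Type} [Field k] [Field L] [Algebra k L]
variable {W : Type} [AddCommGroup W] [Module k W] [Module L W] [IsScalarTower k L W]
variable {D : GD k L} {η ζ : L} {E E' : ℤ → Submodule k W} {p : ℕ} [Fact p.Prime] [CharP L p]

/-- `Λ(I)(t) = Th B t - Th I t` -/
noncomputable def Lam (D : GD k L) (p : ℕ) [Fact p.Prime] [CharP L p] (b : ℚ)
    (I : ℤ → Submodule k L) (t : ℚ) : ℚ :=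
  Th D (FL p L) b D.B t - Th D (FL p L) b I t

/-- the constant `c_B (1 - p²)` -/
def kap (p : ℕ) (dB βB γB : ℚ) : ℚ := (γB - βB ^ 2 / (2 * dB)) * (1 - (p : ℚ) ^ 2)

/-! ### FR_THADD -/

theorem Th_addg (hP : Par D η ζ) (hc : PCharts D p) (F : FMap p L W) (hE : IsLat D η ζ E)
    (a : ℤ) (e : W) (b t : ℚ) :
    Th D F b (addg D E a e) t = Th D F b E t + Lam D p b (colon D E a e) (t - a) := by
  have hI : IsLat D η ζ (colon D E a e) := isLat_gideal hP (gideal_colon hE.stab a e)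
  have hFE : IsLat D η ζ (FrW D F E) := isLat_FrW hP F hE
  have hB : HasP D.B := IsLat.hasP hP (isLat_B hP)
  have h1 := hpv_rel (IsLat.hasP hP (isLat_addg hP hE a e)) (IsLat.hasP hP hE)
    (IsLat.hasP hP hI) hB a ⟨0, fun n _ => finrank_addg hE.fin a e n⟩ t
  have hI' : IsLat D η ζ (colon D (FrW D F E) (p * a) (F.φ e)) :=
    isLat_gideal hP (gideal_colon (E := FrW D F E) hFE.stab (p * a) (F.φ e))
  have h2 := hpv_rel (IsLat.hasP hP (isLat_addg hP hFE (p * a) (F.φ e))) (IsLat.hasP hP hFE)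
    (IsLat.hasP hP hI') hB (p * a) ⟨0, fun n _ => finrank_addg (E := FrW D F E) hFE.fin (p * a) (F.φ e) n⟩
    (p * t + (1 - p) * b)
  obtain ⟨n0, h3⟩ := colon_FrW (E := E) hP hc F hE.stab a e
  have h4 := hpv_congr (IsLat.hasP hP hI') (IsLat.hasP hP (isLat_FrW hP (FL p L) hI))
    ⟨n0, fun n hn => by rw [h3 n hn]⟩ (p * t + (1 - p) * b - ((p * a : ℤ) : ℚ))
  have e1 : (p : ℚ) * t + (1 - p) * b - ((p * a : ℤ) : ℚ) = p * (t - a) + (1 - p) * b := by
    push_cast; ring
  unfold Lam Th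
  rw [FrW_addg, FrW_B]
  rw [h4, e1] at h2
  linear_combination h2 - (p : ℚ) ^ 2 * h1

theorem Th_B (hP : Par D η ζ) {dB βB γB : ℚ} (hB : HasHP D.B dB βB γB) (hd : 0 < dB) (t : ℚ) :
    Th D (FL p L) (βB / dB) D.B t = kap p dB βB γB := by
  unfold Th
  rw [FrW_B, hB.hpv_eq, hB.hpv_eq]
  unfold kap
  field_simp
  ring

/-- `Th` of the principal module `B f`, `f ≠ 0` of degree `s` -/
theorem Th_mulg (hP : Par D η ζ) {dB βB γB : ℚ} (hB : HasHP D.B dB βB γB) (hd : 0 < dB) (s : ℤ)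
    {f : L} (hf : f ≠ 0) (t : ℚ) :
    Th D (FL p L) (βB / dB) (mulg D s f) t = kap p dB βB γB := by
  have hBP : HasP D.B := IsLat.hasP hP (isLat_B hP)
  have key : ∀ (s : ℤ) (f : L), f ≠ 0 → ∀ t, hpv (mulg D s f) t = hpv D.B (t - s) := by
    intro s f hf t
    refine hpv_shift (IsLat.hasP hP (isLat_mulg hP s f)) hBP s ⟨0, fun n _ => ?_⟩ t
    have hinj : Function.Injective ((LinearMap.toSpanSingleton L L f).restrictScalars k) := by
      intro x y hxy
      have : x * f = y * f := hxy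
      exact mul_right_cancel₀ hf this
    exact (LinearEquiv.finrank_eq (Submodule.equivMapOfInjective _ hinj (D.B (n - s)))).symm
  have e0 : FrW D (FL p L) (mulg D s f) = mulg D (p * s) (f ^ p) := by
    have h2 := FrW_gens (D := D) (FL p L) (fun _ : Fin 1 => f) (fun _ => s)
    have e1 : gens D (fun _ : Fin 1 => f) (fun _ => s) = mulg D s f := by
      funext n
      unfold gens
      rw [iSup_unique]
    have e2 : gens D (fun _ : Fin 1 => (FL p L).φ f) (fun _ => (p : ℤ) * s) =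
        mulg D (p * s) (f ^ p) := by
      funext n
      unfold gens
      rw [iSup_unique]
      rfl
    rw [e1, e2] at h2
    exact h2
  have h1 := Th_B (p := p) hP hB hd (t - s)
  unfold Th at h1 ⊢
  rw [FrW_B] at h1
  rw [e0, key _ _ (pow_ne_zero p hf), key _ _ hf, ← h1]
  congr 2
  push_cast
  ring

/-! ### FR_FREE -/

theorem Th_gens_free (hP : Par D η ζ) {dB βB γB : ℚ} (hB : HasHP D.B dB βB γB) (hd : 0 < dB)
    {r : ℕ} (w : Fin r → W) (hw : LinearIndependent L w) (F : FMap p L W)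
    (hφ : LinearIndependent L (fun i => F.φ (w i))) (c : ℤ) (t : ℚ) :
    Th D F (βB / dB) (gens D w (fun _ => c)) t = r * kap p dB βB γB := by
  have h1 : HasHP (gens D w (fun _ => c)) _ _ _ := hasHP_free w hw c hB
  have h2 : HasHP (gens D (fun i => F.φ (w i)) (fun _ => (p : ℤ) * c)) _ _ _ :=
    hasHP_free (fun i => F.φ (w i)) hφ (p * c) hB
  unfold Th
  rw [FrW_gens, h1.hpv_eq, h2.hpv_eq]
  unfold kap
  push_cast
  have hd' : dB ≠ 0 := hd.ne'
  field_simp
  ring

theorem linInd_FP {r : ℕ} (w : Fin r → Fin r → L) (hw : LinearIndependent L w) :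
    LinearIndependent L (fun i => (FP p r L).φ (w i)) := by
  have h1 : IsUnit (Matrix.of w) := Matrix.linearIndependent_rows_iff_isUnit.1 hw
  have h2 : IsUnit ((Matrix.of w).map (frobenius L p)) := h1.map (RingHom.mapMatrix (frobenius L p))
  exact Matrix.linearIndependent_rows_iff_isUnit.2 h2

omit [Fact p.Prime] [CharP L p] in
theorem exists_basis_in [FiniteDimensional L W] (hP : Par D η ζ) (hE : IsLat D η ζ E)
    (hs : lspan L E = ⊤) {r : ℕ} (hr : Module.finrank L W = r) :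
    ∃ (c : ℤ) (w : Fin r → W), LinearIndependent L w ∧ ∀ i, w i ∈ E c := by
  have hmono1 : ∀ n, E n ≤ E (n + 1) := by
    intro n w hw
    have := hE.smul_mem D.one_mem hw
    rwa [one_smul, add_comm] at this
  have hmono : ∀ (m : ℕ) n, E n ≤ E (n + m) := by
    intro m
    induction m with
    | zero => intro n; simp
    | succ m ih =>
      intro n
      refine (ih n).trans ((hmono1 _).trans (le_of_eq ?_))
      congr 1
      push_cast
      ring
  have hmono' : ∀ a b : ℤ, a ≤ b → E a ≤ E b := by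
    intro a b hab
    obtain ⟨m, rfl⟩ := Int.le.dest hab
    exact hmono m a
  obtain ⟨b, hb1, hb2, hb3⟩ := exists_linearIndependent L (⋃ n, (E n : Set W))
  have hspan : Submodule.span L b = ⊤ := by rw [hb2]; exact hs
  let bas := Module.Basis.mk hb3 (by rw [Subtype.range_coe_subtype, Set.setOf_mem_eq, hspan])
  haveI : Finite b := Module.Finite.finite_basis bas
  haveI : Fintype b := Fintype.ofFinite b
  have hcard : Fintype.card b = r := by rw [← hr, Module.finrank_eq_card_basis bas]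
  let e : Fin r ≃ b := (Fintype.equivFinOfCardEq hcard).symm
  have hn : ∀ i : Fin r, ∃ n, ((e i : b) : W) ∈ E n := by
    intro i
    obtain ⟨n, hn⟩ := Set.mem_iUnion.1 (hb1 (e i).2)
    exact ⟨n, hn⟩
  choose n hn using hn
  obtain ⟨c, hc⟩ : ∃ c : ℤ, ∀ i, n i ≤ c := by
    refine ⟨∑ i, |n i|, fun i => ?_⟩
    exact (le_abs_self _).trans (Finset.single_le_sum (f := fun i => |n i|)
      (fun j _ => abs_nonneg _) (Finset.mem_univ i))
  refine ⟨c, fun i => (e i : W), hb3.comp _ e.injective, fun i => hmono' _ _ (hc i) (hn i)⟩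

/-! ### FR_IRREL -/

theorem Lam_irrel (hP : Par D η ζ) {I : ℤ → Submodule k L} (hI : GIdeal D I)
    (h : ∃ n0 : ℤ, ∀ n, n0 ≤ n → I n = D.B n) (b t : ℚ) : Lam D p b I t = 0 := by
  obtain ⟨n0, hn0⟩ := h
  have hB := isLat_B hP
  have hIL := isLat_gideal hP hI
  have h1 : ∀ t, hpv I t = hpv D.B t := fun t =>
    hpv_congr (hIL.hasP hP) (hB.hasP hP) ⟨n0, fun n hn => by rw [hn0 n hn]⟩ t
  have hx1 : ∀ i : Fin 3, (![1, η, ζ] : Fin 3 → L) i ∈ D.B 1 := by
    intro i
    fin_cases i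
    · exact D.one_mem
    · exact hP.hη
    · exact hP.hζ
  have h2 : ∃ m0 : ℤ, ∀ n, m0 ≤ n → FrW D (FL p L) D.B n ≤ FrW D (FL p L) I n := by
    refine eq_of_loc hP (ι := Fin 3) ![1, η, ζ] (fun _ => 1) (fun _ => by norm_num) hx1 ?_
      (isLat_FrW hP (FL p L) hB) (stab_FrW (FL p L) I) ?_
    · obtain ⟨n1, hn1⟩ := hP.gen
      refine ⟨n1 + 1, fun n hn => ?_⟩
      have h3 := hn1 (n - 1) (by omega)
      rw [sub_add_cancel] at h3
      refine h3.trans (sup_le (sup_le ?_ ?_) ?_)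
      · intro x hx
        exact Submodule.mem_iSup_of_mem 0 ⟨x, hx, by simp⟩
      · exact le_iSup (fun i : Fin 3 => sm ((![1, η, ζ] : Fin 3 → L) i) (D.B (n - 1))) 1
      · exact le_iSup (fun i : Fin 3 => sm ((![1, η, ζ] : Fin 3 → L) i) (D.B (n - 1))) 2
    · intro i n w hw
      rw [FrW_B] at hw
      have hx := pow_mem_B (hx1 i) n0.toNat
      rw [mul_one] at hx
      have hx' : (![1, η, ζ] : Fin 3 → L) i ^ n0.toNat ∈ I (n0.toNat : ℤ) := by
        rw [hn0 _ (Int.self_le_toNat n0)]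
        exact hx
      refine ⟨n0.toNat * p, Submodule.subset_span ⟨n0.toNat, _, w, hx', ?_, ?_⟩⟩
      · have e1 : n + ((n0.toNat * p : ℕ) : ℤ) * 1 - p * (n0.toNat : ℤ) = n := by push_cast; ring
        rw [e1]
        exact hw
      · show (![1, η, ζ] : Fin 3 → L) i ^ (n0.toNat * p) * w =
          w * ((![1, η, ζ] : Fin 3 → L) i ^ n0.toNat) ^ p
        rw [← pow_mul, mul_comm]
  obtain ⟨m0, hm0⟩ := h2
  have h3 : ∀ t, hpv (FrW D (FL p L) I) t = hpv (FrW D (FL p L) D.B) t := fun t =>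
    hpv_congr ((isLat_FrW hP (FL p L) hIL).hasP hP) ((isLat_FrW hP (FL p L) hB).hasP hP)
      ⟨m0, fun n hn => by rw [le_antisymm (FrW_mono (FL p L) hI.le n) (hm0 n hn)]⟩ t
  unfold Lam Th
  rw [h3, h1, sub_self]

end

end R169
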