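import Crest.Agent.R169.FrobPoint

/-!
# Row 169, FROB: curve primes (pieces FR_EVC, FR_CLASS, FR_PER, FR_ACT, FR_ALL, FR_SOME, FR_CURVE; helper78)

FR_EVC. `evc_of_bdd`: `I` is a lattice (`isLat_gideal`), `dim B n - dim I n` is eventually a quadratic polynomial
(`HasP`), bounded => constant (and `≥ 0`). `Lam_evc`: `devissage` from `E0 = I` to `D.B` with
`Pr E' := ∀ t, Th E' t = Th I t`: by `finrank_addg` the prime `q = colon D E' a e` has
`dim B (n-a) - dim q (n-a) = dim (addg) n - dim E' n ≤ dim B n - dim I n`, so `EvC` and `Lam q = 0` (`Lam_point`); `Th_addg`.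

FR_CLASS. `prime_class` (any graded ideal `≠ 0`): `HasHP I N β γ` with `N = dB * 1` (`IsLat.rank`, `lspan L I = ⊤`), so
`dim B - dim I = (β - βB) n + (γB - γ)`, `βB ≤ β` (`HasHP.beta_le`).
`curve_le_eq`: if `b ∈ J s`, `b ∉ I s`, multiplication by `b` embeds `B/I(-s)` into `J/I`, so
`dim (B/J) n ≤ dim (B/I) n - dim (B/I) (n-s) = e s` is bounded, contradiction.
`prime_le_curve`: `dim B - dim I ≥ dim B - dim J` unbounded.

FR_PER. `Lam_curve_const`: some `h ∈ {1, η, ζ}` is not in `I 1` (otherwise `I n = B n` for large `n`); `colon D I 1 h = I`,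
`addg D I 1 h` is a graded ideal with `EvC` (`finrank_addg`), so `0 = Lam (addg) t = Lam I t - Lam I (t-1)` (`Th_addg`);
`periodic_const`, `Th_quad`.

FR_ACT. `finrank (g.act I n) = finrank (I n)` (injective linear map); `F^*(g.act I) = g.act (F^*I)` (for
`b ∈ B m` there is `b' ∈ B m` with `τ^(-m) γ b' = b`).

FR_ALL / FR_SOME. `devissage` from `E0 = mulg D s f` (so `Th E0 = κ`, `Th_mulg`) to `D.B` (`Th D.B = κ`, `Th_B`).
All primes `q = colon D E' a e` contain `f` in degree `s`; `prime_class`: `EvC` (`Lam = 0`, `Lam_evc`) or curve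
(`Lam q t = Lam q 0`).
FR_ALL: `Pr E' := ∃ m : ℕ, (∀ t, Th E' t = κ + m λ0) ∧ (m = 0 → ∃ C : ℕ, ∀ n, dim E' n ≤ dim E0 n + C)`; at the end
`m = 0` is impossible because `dim B n - dim B (n - s)` is unbounded (`dB s n + ..`).
FR_SOME: `Pr E' := ∃ m : ℕ, (∀ t, Th E' t = κ + m λ0) ∧ (m = 0 → ∃ i, ∃ c ∈ D.B i, c ∉ J0 i ∧ ∀ n w, w ∈ E' n →
c * w ∈ E0 (i + n))`. Primes `q` with `EvC` or `¬ q ≤ J0` have an element `c' ∉ J0` (an `EvC` prime is not contained in a
curve prime), multiply `c` by `c'`. At the end `m = 0`: `c = c * 1 ∈ mulg D s f i`, so `c ∈ J0 i`, contradiction.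

FR_CURVE. `Lam_curve` from `CurveCond`, `Lam_of_all`, `Lam_of_some`, `Lam_act`, `curve_le_eq`.
-/

set_option autoImplicit false

namespace R169

section
variable {k L : Type} [Field k] [Field L] [Algebra k L]
variable {D : GD k L} {η ζ : L} {I J : ℤ → Submodule k L}

/-! ### FR_EVC -/

private theorem lin_bdd {x C : ℚ} (h : ∀ m : ℕ, |x * m| ≤ C) : x = 0 := by
  by_contra hx
  have hx' : 0 < |x| := abs_pos.2 hx
  obtain ⟨m, hm⟩ := exists_nat_gt (C / |x|)
  have h1 := h m
  rw [abs_mul, Nat.abs_cast] at h1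
  rw [div_lt_iff₀ hx'] at hm
  linarith [mul_comm (m : ℚ) |x|]

private theorem quad_bdd {a b c C : ℚ} (h : ∀ m : ℕ, |a * (m : ℚ) ^ 2 + b * m + c| ≤ C) :
    a = 0 ∧ b = 0 := by
  have ha : a = 0 := by
    refine lin_bdd (C := 2 * C) fun m => ?_
    have h0 := h 0
    have h1 := h m
    have h2 := h (2 * m)
    push_cast at h0 h2
    have h3 : |2 * (a * (m : ℚ) ^ 2)| ≤ 4 * C := by
      rw [abs_le] at h0 h1 h2 ⊢
      constructor <;> linarith [h0.1, h0.2, h1.1, h1.2, h2.1, h2.2]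
    rw [abs_mul, abs_of_nonneg (by norm_num : (0 : ℚ) ≤ 2)] at h3
    have h4 : |a * (m : ℚ)| ≤ |a * (m : ℚ) ^ 2| := by
      rw [abs_mul, abs_mul]
      refine mul_le_mul_of_nonneg_left ?_ (abs_nonneg a)
      rw [Nat.abs_cast, abs_of_nonneg (by positivity)]
      rcases Nat.eq_zero_or_pos m with hm | hm
      · subst hm; norm_num
      · have : (1 : ℚ) ≤ m := by exact_mod_cast hm
        nlinarith
    linarith
  refine ⟨ha, lin_bdd (C := 2 * C) fun m => ?_⟩
  have h0 := h 0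
  have h1 := h m
  rw [ha] at h0 h1
  push_cast at h0
  rw [abs_le] at h0 h1 ⊢
  constructor <;> linarith [h0.1, h0.2, h1.1, h1.2]

theorem evc_of_bdd (hP : Par D η ζ) (hI : GIdeal D I)
    (h : ∃ (C : ℕ) (n0 : ℤ), ∀ n, n0 ≤ n → Module.finrank k (D.B n) ≤ Module.finrank k (I n) + C) :
    EvC D I := by
  obtain ⟨C, n0, hC⟩ := h
  obtain ⟨N, β, γ, h1, -, -⟩ := (IsLat.toPLat hP (isLat_B hP)).hasHP
  obtain ⟨N', β', γ', h2, -, -⟩ := (IsLat.toPLat hP (isLat_gideal hP hI)).hasHP
  obtain ⟨n1, h1⟩ := h1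
  obtain ⟨n2, h2⟩ := h2
  set n3 := max n0 (max n1 n2) with hn3
  have hle : ∀ n, Module.finrank k (I n) ≤ Module.finrank k (D.B n) := by
    intro n
    haveI := D.fin n
    exact Submodule.finrank_mono (hI.le n)
  -- the difference
  have hdiff : ∀ m : ℕ, (Module.finrank k (D.B (n3 + m)) : ℚ) - Module.finrank k (I (n3 + m)) =
      (N / 2 - N' / 2) * (m : ℚ) ^ 2 + (2 * (N / 2 - N' / 2) * n3 - (β - β')) * m +
        ((N / 2 - N' / 2) * (n3 : ℚ) ^ 2 - (β - β') * n3 + (γ - γ')) := by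
    intro m
    have e0 := le_max_left n0 (max n1 n2)
    have e1 := le_max_left n1 n2
    have e2 := le_max_right n1 n2
    have e3 := le_max_right n0 (max n1 n2)
    rw [h1 (n3 + m) (by omega), h2 (n3 + m) (by omega)]
    push_cast
    ring
  have hb : ∀ m : ℕ, |(N / 2 - N' / 2 : ℚ) * (m : ℚ) ^ 2 +
      (2 * (N / 2 - N' / 2) * n3 - (β - β')) * m +
        ((N / 2 - N' / 2) * (n3 : ℚ) ^ 2 - (β - β') * n3 + (γ - γ'))| ≤ (C : ℚ) := by
    intro m
    rw [← hdiff m]
    have e0 := le_max_left n0 (max n1 n2)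
    have h3 := hC (n3 + m) (by omega)
    have h4 := hle (n3 + m)
    have h3' : (Module.finrank k (D.B (n3 + m)) : ℚ) ≤ Module.finrank k (I (n3 + m)) + C := by
      exact_mod_cast h3
    have h4' : (Module.finrank k (I (n3 + m)) : ℚ) ≤ Module.finrank k (D.B (n3 + m)) := by
      exact_mod_cast h4
    rw [abs_le]
    constructor <;> linarith
  obtain ⟨ha, hb'⟩ := quad_bdd hb
  refine ⟨Module.finrank k (D.B n3) - Module.finrank k (I n3), n3, fun n hn => ?_⟩
  obtain ⟨m, rfl⟩ := Int.le.dest hn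
  have h5 := hdiff m
  have h6 := hdiff 0
  have hz : n3 + ((0 : ℕ) : ℤ) = n3 := by simp
  rw [hz] at h6
  rw [hb', ha] at h5 h6
  have h7 : (Module.finrank k (D.B (n3 + m)) : ℚ) - Module.finrank k (I (n3 + m)) =
      (Module.finrank k (D.B n3) : ℚ) - Module.finrank k (I n3) := by
    rw [h5, h6]
    ring
  have h8 := hle n3
  have h9 : Module.finrank k (D.B (n3 + m)) + Module.finrank k (I n3) =
      Module.finrank k (D.B n3) + Module.finrank k (I (n3 + m)) := by
    have : (Module.finrank k (D.B (n3 + m)) : ℚ) + Module.finrank k (I n3) =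
      (Module.finrank k (D.B n3) : ℚ) + Module.finrank k (I (n3 + m)) := by linarith
    exact_mod_cast this
  omega

theorem EvC.bdd (hI : GIdeal D I) (h : EvC D I) :
    ∃ C : ℕ, ∀ n, Module.finrank k (D.B n) ≤ Module.finrank k (I n) + C := by
  obtain ⟨δ, n0, hδ⟩ := h
  refine ⟨δ + Module.finrank k (D.B n0), fun n => ?_⟩
  rcases le_total n0 n with hn | hn
  · rw [hδ n hn]
    omega
  · haveI := D.fin n0
    have := Submodule.finrank_mono (D.mono_le hn)
    omega

theorem Lam_evc {p : ℕ} [Fact p.Prime] [CharP L p] [CharP k p] [IsAlgClosed k] (hP : Par D η ζ)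
    (hc : PCharts D p) (hI : GIdeal D I) (h : EvC D I) (b t : ℚ) : Lam D p b I t = 0 := by
  obtain ⟨C, hC⟩ := h.bdd hI
  have hs0 : Stab D I := fun ha hw => hI.smul_mem ha hw
  have hmain : ∀ t, Th D (FL p L) b D.B t = Th D (FL p L) b I t := by
    refine devissage (W := L) hP (isLat_B hP) hs0 hI.le
      (fun E' => ∀ t, Th D (FL p L) b E' t = Th D (FL p L) b I t) (fun _ => rfl) ?_
    intro E' a e hs hE' hI' hle hPr he _ hpr t
    have hf : ∀ n, FiniteDimensional k (E' n) := hE'.fin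
    have hadd : ∀ n, addg D E' a e n ≤ D.B n := by
      intro n
      refine sup_le (hle n) ?_
      intro w hw
      obtain ⟨c, hc, rfl⟩ := mem_mulg.1 hw
      have h6 := D.mul_mem hc he
      rwa [show n - a + a = n by ring] at h6
    have hev : EvC D (colon D E' a e) := by
      refine evc_of_bdd hP hpr.ideal ⟨C, 0, fun n _ => ?_⟩
      have h1 := finrank_addg (D := D) hf a e (n + a)
      rw [add_sub_cancel_right] at h1
      haveI := D.fin (n + a)
      haveI := hf (n + a)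
      have h2 : Module.finrank k (addg D E' a e (n + a)) ≤ Module.finrank k (D.B (n + a)) :=
        Submodule.finrank_mono (hadd (n + a))
      have h3 : Module.finrank k (I (n + a)) ≤ Module.finrank k (E' (n + a)) :=
        Submodule.finrank_mono (hI' (n + a))
      have h4 := hC (n + a)
      omega
    rw [Th_addg hP hc (FL p L) hE' a e b t, Lam_point hP hc hpr hev b (t - a), add_zero, hPr t]
  unfold Lam
  rw [hmain t, sub_self]

/-! ### FR_CLASS -/

theorem cls_unbdd {e f C : ℚ} (he : 0 < e) {n0 : ℤ} (h : ∀ n : ℤ, n0 ≤ n → e * n + f ≤ C) :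
    False := by
  obtain ⟨m, hm⟩ := exists_nat_gt ((C - f) / e)
  have h1 := h (max n0 m) (le_max_left _ _)
  have h2 : ((m : ℤ) : ℚ) ≤ ((max n0 m : ℤ) : ℚ) := by exact_mod_cast le_max_right n0 (m : ℤ)
  rw [div_lt_iff₀ he] at hm
  have h3 : e * ((m : ℤ) : ℚ) ≤ e * ((max n0 m : ℤ) : ℚ) := mul_le_mul_of_nonneg_left h2 he.le
  push_cast at h3 h1
  linarith [mul_comm e (m : ℚ)]

theorem cls_finrank_le {A B : Submodule k L} (h : A ≤ B) [FiniteDimensional k B] :
    Module.finrank k A ≤ Module.finrank k B := Submodule.finrank_mono h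

theorem prime_class (hP : Par D η ζ) {dB βB γB : ℚ} (hB : HasHP D.B dB βB γB) (hI : GPrime D I)
    (hne : ∃ n, I n ≠ ⊥) : IsCurve D I ∨ EvC D I := by
  have hL : IsLat D η ζ I := isLat_gideal hP hI.ideal
  obtain ⟨⟨N, β, γ⟩, hh⟩ := hL.hasP hP
  simp only at hh
  have hspan : lspan L I = ⊤ := by
    obtain ⟨n, hn⟩ := hne
    obtain ⟨x, hx, hx0⟩ := (Submodule.ne_bot_iff _).1 hn
    rw [eq_top_iff]
    intro y _
    have h1 : x ∈ lspan L I := Submodule.subset_span (Set.mem_iUnion.2 ⟨n, hx⟩)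
    have h2 : (y / x) • x ∈ lspan L I := Submodule.smul_mem _ _ h1
    rwa [smul_eq_mul, div_mul_cancel₀ _ hx0] at h2
  obtain ⟨hd, hN⟩ := IsLat.rank hP hB hL hh
  rw [hspan, finrank_top, Module.finrank_self] at hN
  have hN' : N = dB := by rw [hN]; simp
  subst hN'
  have hβ : βB ≤ β := HasHP.beta_le hI.ideal.le D.fin hB hh
  obtain ⟨n0, h0⟩ := hB
  obtain ⟨n1, h1⟩ := hh
  rcases hβ.lt_or_eq with h | h
  · left
    refine ⟨hI, β - βB, γB - γ, by linarith, max n0 n1, fun n hn => ?_⟩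
    rw [h0 n ((le_max_left _ _).trans hn), h1 n ((le_max_right _ _).trans hn)]
    ring
  · right
    subst h
    have hdiff : ∀ n : ℤ, max n0 n1 ≤ n →
        (Module.finrank k (D.B n) : ℚ) - Module.finrank k (I n) = γB - γ := by
      intro n hn
      rw [h0 n ((le_max_left _ _).trans hn), h1 n ((le_max_right _ _).trans hn)]
      ring
    haveI := D.fin (max n0 n1)
    have hle : Module.finrank k (I (max n0 n1)) ≤ Module.finrank k (D.B (max n0 n1)) :=
      cls_finrank_le (hI.ideal.le _)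
    refine ⟨Module.finrank k (D.B (max n0 n1)) - Module.finrank k (I (max n0 n1)), max n0 n1,
      fun n hn => ?_⟩
    have e1 := hdiff n hn
    have e2 := hdiff (max n0 n1) le_rfl
    have e3 : (Module.finrank k (D.B n) : ℚ) = Module.finrank k (I n) +
        ((Module.finrank k (D.B (max n0 n1)) - Module.finrank k (I (max n0 n1)) : ℕ) : ℚ) := by
      rw [Nat.cast_sub hle]
      linarith
    exact_mod_cast e3

theorem not_evc_of_curve (hI : IsCurve D I) : ¬ EvC D I := by
  rintro ⟨δ, n1, h1⟩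
  obtain ⟨_, e, f, he, n0, h0⟩ := hI
  refine cls_unbdd (e := e) (f := f) (C := δ) he (n0 := max n0 n1) fun n hn => ?_
  rw [← h0 n ((le_max_left _ _).trans hn), h1 n ((le_max_right _ _).trans hn)]
  push_cast
  linarith

theorem curve_le_eq (hI : IsCurve D I) (hJ : IsCurve D J) (hle : ∀ n, I n ≤ J n) : I = J := by
  by_contra hne
  obtain ⟨s, hs⟩ := Function.ne_iff.1 hne
  obtain ⟨b, hbJ, hbI⟩ : ∃ b ∈ J s, b ∉ I s := by
    by_contra hcon
    push Not at hcon
    exact hs (le_antisymm (hle s) hcon)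
  obtain ⟨hIp, e, f, he, n0, h0⟩ := hI
  obtain ⟨hJp, e', f', he', n1, h1⟩ := hJ
  have hbB : b ∈ D.B s := hJp.ideal.le s hbJ
  have hfI : ∀ n, FiniteDimensional k (I n) := fun n => by
    haveI := D.fin n
    exact Submodule.finiteDimensional_of_le (hIp.ideal.le n)
  have hfJ : ∀ n, FiniteDimensional k (J n) := fun n => by
    haveI := D.fin n
    exact Submodule.finiteDimensional_of_le (hJp.ideal.le n)
  have key : ∀ n : ℤ, Module.finrank k (I n) + Module.finrank k (D.B (n - s)) ≤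
      Module.finrank k (J n) + Module.finrank k (I (n - s)) := by
    intro n
    rw [← finrank_addg hfI s b n]
    haveI := hfJ n
    haveI := hfI (n - s)
    refine Nat.add_le_add (cls_finrank_le ?_) (cls_finrank_le ?_)
    · refine sup_le (hle n) ?_
      rintro _ ⟨x, hx, rfl⟩
      have := hJp.ideal.smul_mem hx hbJ
      rw [sub_add_cancel] at this
      exact this
    · rintro x ⟨hx, hx2⟩
      rcases hIp.mem_or hx hbB hx2 with h | h
      · exact h
      · exact absurd h hbI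
  refine cls_unbdd (e := e') (f := f') (C := e * s) he' (n0 := max n1 (max n0 (n0 + s)))
    fun n hn => ?_
  have hn1 : n1 ≤ n := (le_max_left _ _).trans hn
  have hn2 : n0 ≤ n := ((le_max_left _ _).trans (le_max_right _ _)).trans hn
  have hn3 : n0 + s ≤ n := ((le_max_right _ _).trans (le_max_right _ _)).trans hn
  have k1 := h1 n hn1
  have k2 := h0 n hn2
  have k3 := h0 (n - s) (by omega)
  have k4 : (Module.finrank k (I n) : ℚ) + Module.finrank k (D.B (n - s)) ≤
      Module.finrank k (J n) + Module.finrank k (I (n - s)) := by exact_mod_cast key n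
  push_cast at k3
  nlinarith

theorem prime_le_curve (hP : Par D η ζ) {dB βB γB : ℚ} (hB : HasHP D.B dB βB γB)
    (hI : GPrime D I) (hne : ∃ n, I n ≠ ⊥) (hJ : IsCurve D J) (hle : ∀ n, I n ≤ J n) :
    IsCurve D I := by
  rcases prime_class hP hB hI hne with h | ⟨δ, n1, h1⟩
  · exact h
  · exfalso
    obtain ⟨hJp, e, f, he, n0, h0⟩ := hJ
    refine cls_unbdd (e := e) (f := f) (C := δ) he (n0 := max n0 n1) fun n hn => ?_
    haveI : FiniteDimensional k (J n) := by
      haveI := D.fin n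
      exact Submodule.finiteDimensional_of_le (hJp.ideal.le n)
    have h2 : Module.finrank k (I n) ≤ Module.finrank k (J n) := cls_finrank_le (hle n)
    have h3 : (Module.finrank k (I n) : ℚ) ≤ Module.finrank k (J n) := by exact_mod_cast h2
    rw [← h0 n ((le_max_left _ _).trans hn), h1 n ((le_max_right _ _).trans hn)]
    push_cast
    linarith

/-! ### FR_PER -/

private theorem curve_exists_h (hP : Par D η ζ) (hI : IsCurve D I) :
    ∃ h : L, h ∈ D.B 1 ∧ h ∉ I 1 := by
  by_contra hcon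
  push Not at hcon
  obtain ⟨hpr, e, f, he, n0, hn0⟩ := hI
  have hle := hpr.ideal.le
  obtain ⟨n1, hn1⟩ := hP.gen
  have key : ∀ h : L, h ∈ D.B 1 → ∀ n, ∀ b ∈ D.B n, h * b ∈ I (n + 1) := by
    intro h hh n b hb
    have := hpr.ideal.smul_mem hb (hcon h hh)
    rwa [mul_comm] at this
  have heq : ∀ n, n1 ≤ n → I (n + 1) = D.B (n + 1) := by
    intro n hn
    refine le_antisymm (hle _) ((hn1 n hn).trans (sup_le (sup_le ?_ ?_) ?_))
    · intro b hb
      have := key 1 D.one_mem n b hb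
      rwa [one_mul] at this
    · rintro _ ⟨b, hb, rfl⟩
      exact key η hP.hη n b hb
    · rintro _ ⟨b, hb, rfl⟩
      exact key ζ hP.hζ n b hb
  have e1 := hn0 (max n0 n1 + 1) (by have := le_max_left n0 n1; omega)
  have e2 := hn0 (max n0 n1 + 1 + 1) (by have := le_max_left n0 n1; omega)
  rw [heq _ (le_max_right _ _), sub_self] at e1
  rw [heq _ (by have := le_max_right n0 n1; omega), sub_self] at e2
  push_cast at e1 e2
  linarith

theorem Lam_curve_const {p : ℕ} [Fact p.Prime] [CharP L p] [CharP k p] [IsAlgClosed k]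
    (hP : Par D η ζ) (hc : PCharts D p) (hI : IsCurve D I) (b t : ℚ) :
    Lam D p b I t = Lam D p b I 0 := by
  obtain ⟨h, hB, hhI⟩ := curve_exists_h hP hI
  obtain ⟨hpr, e, f, he, n0, hn0⟩ := hI
  have hid := hpr.ideal
  have hst : Stab D I := fun {i n a w} ha hw => hid.smul_mem ha hw
  have hcol : colon D I 1 h = I := by
    funext n
    apply le_antisymm
    · intro b hb
      obtain ⟨hb1, hb2⟩ := mem_colon.1 hb
      rcases hpr.mem_or hb1 hB hb2 with h1 | h1
      · exact h1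
      · exact absurd h1 hhI
    · intro b hb
      refine mem_colon.2 ⟨hid.le n hb, ?_⟩
      have := hid.smul_mem hB hb
      rw [smul_eq_mul, mul_comm, add_comm]
      exact this
  have hfin : ∀ n, FiniteDimensional k (I n) := (isLat_gideal hP hid).fin
  have hadd : GIdeal D (addg D I 1 h) := by
    refine ⟨fun n => sup_le (hid.le n) ?_, fun ha hw => stab_addg hst 1 h ha hw⟩
    intro w hw
    obtain ⟨b, hb, rfl⟩ := mem_mulg.1 hw
    have := D.mul_mem hb hB
    rwa [sub_add_cancel] at this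
  have hr : ∀ n, n0 + 1 ≤ n → (Module.finrank k (D.B n) : ℚ) =
      Module.finrank k (addg D I 1 h n) + e := by
    intro n hn
    have h1 := finrank_addg (D := D) hfin 1 h n
    rw [hcol] at h1
    have h2 := hn0 n (by omega)
    have h3 := hn0 (n - 1) (by omega)
    have h4 : (Module.finrank k (addg D I 1 h n) : ℚ) + Module.finrank k (I (n - 1)) =
      Module.finrank k (I n) + Module.finrank k (D.B (n - 1)) := by exact_mod_cast h1
    push_cast at h3
    linarith
  have hev : EvC D (addg D I 1 h) := by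
    refine ⟨Module.finrank k (D.B (n0 + 1)) - Module.finrank k (addg D I 1 h (n0 + 1)), n0 + 1,
      fun n hn => ?_⟩
    have h1 := hr n hn
    have h2 := hr (n0 + 1) le_rfl
    have h3 : Module.finrank k (addg D I 1 h (n0 + 1)) ≤ Module.finrank k (D.B (n0 + 1)) := by
      have : (Module.finrank k (addg D I 1 h (n0 + 1)) : ℚ) ≤ Module.finrank k (D.B (n0 + 1)) := by
        linarith
      exact_mod_cast this
    have h4 : (Module.finrank k (D.B n) : ℚ) = ((Module.finrank k (addg D I 1 h n) +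
        (Module.finrank k (D.B (n0 + 1)) - Module.finrank k (addg D I 1 h (n0 + 1))) : ℕ) : ℚ) := by
      push_cast [Nat.cast_sub h3]
      linarith
    exact_mod_cast h4
  have hper : ∀ t, Lam D p b I t = Lam D p b I (t - 1) := by
    intro t
    have h1 := Lam_evc hP hc hadd hev b t
    have h2 := Th_addg hP hc (FL p L) (isLat_gideal hP hid) 1 h b t
    rw [hcol] at h2
    unfold Lam at h1
    rw [h2] at h1
    push_cast at h1
    have h3 : Lam D p b I t = Th D (FL p L) b D.B t - Th D (FL p L) b I t := rfl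
    rw [h3]
    linarith
  refine periodic_const (f := fun t => Lam D p b I t) ?_ hper t
  obtain ⟨x, y, z, h1⟩ := Th_quad (D := D) (FL p L) b D.B
  obtain ⟨x', y', z', h2⟩ := Th_quad (D := D) (FL p L) b I
  refine ⟨x - x', y - y', z - z', fun t => ?_⟩
  show Th D (FL p L) b D.B t - Th D (FL p L) b I t = _
  rw [h1, h2]
  ring

/-! ### FR_ACT -/

/-- the linear map of a symmetry in degree `n` -/
private def symF (g : Sym D) (n : ℤ) : L →ₗ[k] L :=
  (Algebra.lsmul k k L (g.τ ^ (-n))) ∘ₗ g.γ.toLinearMap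

private theorem symF_apply (g : Sym D) (n : ℤ) (x : L) : symF g n x = g.τ ^ (-n) * g.γ x := rfl

private theorem symF_inj (g : Sym D) (n : ℤ) : Function.Injective (symF g n) := by
  intro x y h
  rw [symF_apply, symF_apply] at h
  exact g.γ.injective (mul_left_cancel₀ (zpow_ne_zero _ g.τ_ne) h)

private theorem finrank_act (g : Sym D) (I : ℤ → Submodule k L) (n : ℤ) :
    Module.finrank k (g.act I n) = Module.finrank k (I n) :=
  ((I n).equivMapOfInjective (symF g n) (symF_inj g n)).finrank_eq.symm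

private theorem sym_surj (g : Sym D) (m : ℤ) (b : L) (hb : b ∈ D.B m) :
    ∃ b' ∈ D.B m, g.τ ^ (-m) * g.γ b' = b := by
  haveI := D.fin m
  have h1 : (D.B m).map (symF g m) ≤ D.B m := by
    rintro _ ⟨x, hx, rfl⟩
    exact (g.map_B m x).1 hx
  have h2 : (D.B m).map (symF g m) = D.B m :=
    Submodule.eq_of_le_of_finrank_eq h1 (finrank_act g D.B m)
  have h3 : b ∈ (D.B m).map (symF g m) := by rw [h2]; exact hb
  obtain ⟨b', hb', h⟩ := h3
  exact ⟨b', hb', h⟩

private theorem zpow_split (g : Sym D) (p : ℕ) (n i : ℤ) :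
    g.τ ^ (-(n - p * i)) * (g.τ ^ (-i)) ^ p = g.τ ^ (-n) := by
  rw [← zpow_natCast, ← zpow_mul, ← zpow_add₀ g.τ_ne]
  congr 1
  ring

private theorem FrW_act {p : ℕ} [Fact p.Prime] [CharP L p] (g : Sym D) (hJ : ∀ n, J n = g.act I n)
    (n : ℤ) : FrW D (FL p L) J n = g.act (FrW D (FL p L) I) n := by
  apply le_antisymm
  · unfold FrW
    rw [Submodule.span_le]
    rintro _ ⟨i, e, b, he, hb, rfl⟩
    rw [hJ i] at he
    obtain ⟨e', he', rfl⟩ := he
    obtain ⟨b', hb', rfl⟩ := sym_surj g _ b hb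
    refine ⟨b' • (FL p L).φ e', Submodule.subset_span ⟨i, e', b', he', hb', rfl⟩, ?_⟩
    show g.τ ^ (-n) * g.γ (b' • e' ^ p) = (g.τ ^ (-(n - p * i)) * g.γ b') • (g.τ ^ (-i) * g.γ e') ^ p
    rw [smul_eq_mul, smul_eq_mul, map_mul, map_pow, mul_pow, ← zpow_split g p n i]
    ring
  · unfold Sym.act FrW
    rw [Submodule.map_span, Submodule.span_le]
    rintro _ ⟨_, ⟨i, e', b', he', hb', rfl⟩, rfl⟩
    refine Submodule.subset_span ⟨i, g.τ ^ (-i) * g.γ e', g.τ ^ (-(n - p * i)) * g.γ b', ?_,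
      (g.map_B _ _).1 hb', ?_⟩
    · rw [hJ i]
      exact ⟨e', he', rfl⟩
    · show g.τ ^ (-n) * g.γ (b' • e' ^ p) = (g.τ ^ (-(n - p * i)) * g.γ b') • (g.τ ^ (-i) * g.γ e') ^ p
      rw [smul_eq_mul, smul_eq_mul, map_mul, map_pow, mul_pow, ← zpow_split g p n i]
      ring

theorem Lam_act {p : ℕ} [Fact p.Prime] [CharP L p] (hP : Par D η ζ) (g : Sym D)
    (hI : GIdeal D I) (hJ : GIdeal D J) (he : ∀ n, J n = g.act I n) (b t : ℚ) :
    Lam D p b J t = Lam D p b I t := by
  have hLI := isLat_gideal hP hI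
  have hLJ := isLat_gideal hP hJ
  have h1 : ∀ t, hpv J t = hpv I t := fun t =>
    hpv_congr (hLJ.hasP hP) (hLI.hasP hP) ⟨0, fun n _ => by rw [he n]; exact finrank_act g I n⟩ t
  have h2 : ∀ t, hpv (FrW D (FL p L) J) t = hpv (FrW D (FL p L) I) t := fun t =>
    hpv_congr ((isLat_FrW hP (FL p L) hLJ).hasP hP) ((isLat_FrW hP (FL p L) hLI).hasP hP)
      ⟨0, fun n _ => by rw [FrW_act g he n]; exact finrank_act g _ n⟩ t
  unfold Lam Th
  rw [h1, h2]

/-! ### FR_ALL -/

private theorem finrank_mulg_all (s : ℤ) {f : L} (hf0 : f ≠ 0) (n : ℤ) :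
    Module.finrank k (mulg D s f n) = Module.finrank k (D.B (n - s)) := by
  unfold mulg
  refine (LinearEquiv.finrank_eq (Submodule.equivMapOfInjective _ ?_ _)).symm
  intro a b hab
  have h : a * f = b * f := hab
  exact mul_right_cancel₀ hf0 h

private theorem unbdd_all {dB βB γB : ℚ} (hB : HasHP D.B dB βB γB) (hd : 0 < dB) (s : ℤ)
    (hs : 0 < s) (C : ℕ)
    (h : ∀ n, Module.finrank k (D.B n) ≤ Module.finrank k (D.B (n - s)) + C) : False := by
  obtain ⟨n0, hn0⟩ := hB
  -- dim B n - dim B (n - s) = dB s n - dB s^2/2 - βB s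
  have hs' : (0 : ℚ) < s := by exact_mod_cast hs
  have hds : 0 < dB * s := mul_pos hd hs'
  obtain ⟨M, hM⟩ := exists_nat_gt (((C : ℚ) + dB / 2 * s ^ 2 + |βB * s|) / (dB * s))
  have hM' : (C : ℚ) + dB / 2 * s ^ 2 + |βB * s| < M * (dB * s) := by
    rwa [div_lt_iff₀ hds] at hM
  obtain ⟨n, hn⟩ : ∃ n : ℤ, n = max (M : ℤ) (n0 + s) := ⟨_, rfl⟩
  have h1 := hn0 n (by have := le_max_right (M : ℤ) (n0 + s); omega)
  have h2 := hn0 (n - s) (by have := le_max_right (M : ℤ) (n0 + s); omega)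
  have h3 : (Module.finrank k (D.B n) : ℚ) ≤ Module.finrank k (D.B (n - s)) + C := by
    exact_mod_cast h n
  rw [h1, h2] at h3
  push_cast at h3
  have h4 : (M : ℚ) ≤ n := by
    have : (M : ℤ) ≤ n := by rw [hn]; exact le_max_left _ _
    exact_mod_cast this
  have h5 := le_abs_self (βB * s)
  have h6 : (M : ℚ) * (dB * s) ≤ n * (dB * s) := mul_le_mul_of_nonneg_right h4 hds.le
  nlinarith [h3, h5, h6, hM']

theorem Lam_of_all {p : ℕ} [Fact p.Prime] [CharP L p] [CharP k p] [IsAlgClosed k]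
    (hP : Par D η ζ) (hc : PCharts D p) {dB βB γB : ℚ} (hB : HasHP D.B dB βB γB) (hd : 0 < dB)
    (lam : ℚ) (s : ℤ) (f : L) (hs : 0 < s) (hf : f ∈ D.B s) (hf0 : f ≠ 0)
    (hall : ∀ q, IsCurve D q → f ∈ q s → Lam D p (βB / dB) q 0 = lam) : lam = 0 := by
  have hB' := isLat_B hP
  have hstab0 : Stab D (mulg D s f) := by
    intro i n a w ha hw
    obtain ⟨b, hb, rfl⟩ := mem_mulg.1 hw
    refine mem_mulg.2 ⟨a * b, ?_, by rw [smul_smul]⟩
    have := D.mul_mem ha hb
    rwa [← add_sub_assoc] at this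
  have hle0 : ∀ n, mulg D s f n ≤ D.B n := by
    intro n w hw
    obtain ⟨b, hb, rfl⟩ := mem_mulg.1 hw
    have := D.mul_mem hb hf
    rwa [sub_add_cancel] at this
  obtain ⟨m, hm, hm0⟩ := devissage hP hB' hstab0 hle0
    (fun E' => ∃ m : ℕ, (∀ t, Th D (FL p L) (βB / dB) E' t = kap p dB βB γB + m * lam) ∧
      (m = 0 → ∃ C : ℕ, ∀ n, Module.finrank k (E' n) ≤ Module.finrank k (mulg D s f n) + C))
    ⟨0, fun t => by rw [Th_mulg hP hB hd s hf0 t]; simp, fun _ => ⟨0, fun n => le_rfl⟩⟩ (by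
      intro E' a e hst hlat h0 hle ⟨m, hm, hm0⟩ he he' hq
      have hqf : f ∈ colon D E' a e s := by
        refine mem_colon.2 ⟨hf, h0 _ (mem_mulg.2 ⟨e, ?_, ?_⟩)⟩
        · rwa [add_sub_cancel_left]
        · simp only [smul_eq_mul]; ring
      have hqne : ∃ n, colon D E' a e n ≠ ⊥ := ⟨s, fun h => hf0 (by
        rw [h] at hqf; exact (Submodule.mem_bot k).1 hqf)⟩
      have hTh := Th_addg hP hc (FL p L) hlat a e (βB / dB)
      rcases prime_class hP hB hq hqne with hcv | hev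
      · refine ⟨m + 1, fun t => ?_, fun h => absurd h (Nat.succ_ne_zero m)⟩
        rw [hTh, hm, Lam_curve_const hP hc hcv, hall _ hcv hqf]
        push_cast; ring
      · refine ⟨m, fun t => ?_, fun h => ?_⟩
        · rw [hTh, hm, Lam_evc hP hc hq.ideal hev, add_zero]
        · obtain ⟨C, hC⟩ := hm0 h
          obtain ⟨C', hC'⟩ := hev.bdd hq.ideal
          refine ⟨C + C', fun n => ?_⟩
          have h1 := finrank_addg (D := D) hlat.fin a e n
          have h2 := hC' (n - a)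
          have h3 := hC n
          omega)
  have h1 := hm 0
  rw [Th_B hP hB hd 0] at h1
  have h2 : (m : ℚ) * lam = 0 := by linarith
  rcases mul_eq_zero.1 h2 with h3 | h3
  · exfalso
    have hm1 : m = 0 := by exact_mod_cast h3
    obtain ⟨C, hC⟩ := hm0 hm1
    refine unbdd_all hB hd s hs C fun n => ?_
    have := hC n
    rwa [finrank_mulg_all s hf0] at this
  · exact h3

/-! ### FR_SOME -/

/-- multiplying a multiplier `c` for `E'` by an element of the colon ideal not in `J` -/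
private theorem some_step {E0 E' : ℤ → Submodule k L} (hs0 : Stab D E0) (hs : Stab D E')
    (hJ : GPrime D J) {a : ℤ} {e : L} (hq : ¬ ∀ n, colon D E' a e n ≤ J n)
    (h : ∃ i, ∃ c ∈ D.B i, c ∉ J i ∧ ∀ n w, w ∈ E' n → c * w ∈ E0 (i + n)) :
    ∃ i, ∃ c ∈ D.B i, c ∉ J i ∧ ∀ n w, w ∈ addg D E' a e n → c * w ∈ E0 (i + n) := by
  obtain ⟨i, c, hc, hcJ, hcE⟩ := h
  push Not at hq
  obtain ⟨m, hm⟩ := hq
  obtain ⟨c', hc', hc'J⟩ := SetLike.not_le_iff_exists.1 hm
  obtain ⟨hc'B, hc'e⟩ := mem_colon.1 hc'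
  refine ⟨m + i, c' * c, D.mul_mem hc'B hc, fun hmem => ?_, fun n w hw => ?_⟩
  · rcases hJ.mem_or hc'B hc hmem with h1 | h1
    · exact hc'J h1
    · exact hcJ h1
  · obtain ⟨w1, hw1, w2, hw2, rfl⟩ := Submodule.mem_sup.1 hw
    obtain ⟨b, hb, rfl⟩ := mem_mulg.1 hw2
    rw [mul_add]
    refine Submodule.add_mem _ ?_ ?_
    · have h1 := hs0 hc'B (hcE n w1 hw1)
      rw [smul_eq_mul, ← mul_assoc, ← add_assoc] at h1
      exact h1
    · have h1 := hs hb hc'e
      have h2 := hcE _ _ h1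
      have e1 : i + (n - a + (m + a)) = m + i + n := by ring
      rw [e1] at h2
      have e2 : c' * c * (b • e) = c * (b • c' • e) := by
        simp only [smul_eq_mul]; ring
      rw [e2]
      exact h2

set_option maxHeartbeats 1000000 in
theorem Lam_of_some {p : ℕ} [Fact p.Prime] [CharP L p] [CharP k p] [IsAlgClosed k]
    (hP : Par D η ζ) (hc : PCharts D p) {dB βB γB : ℚ} (hB : HasHP D.B dB βB γB) (hd : 0 < dB)
    (lam : ℚ) (s : ℤ) (f : L) (hJ : IsCurve D J) (hf : f ∈ J s) (hf0 : f ≠ 0)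
    (hall : ∀ q, IsCurve D q → f ∈ q s →
      (Lam D p (βB / dB) q 0 = 0 ∧ ¬ ∀ n, q n ≤ J n) ∨ Lam D p (βB / dB) q 0 = lam) : lam = 0 := by
  have hfB : f ∈ D.B s := hJ.1.ideal.le s hf
  set E0 : ℤ → Submodule k L := mulg D s f with hE0
  have hs0 : Stab D E0 := by
    intro i n b w hb hw
    obtain ⟨b', hb', rfl⟩ := mem_mulg.1 hw
    refine mem_mulg.2 ⟨b * b', ?_, by rw [smul_smul]⟩
    have := D.mul_mem hb hb'
    rwa [← add_sub_assoc] at this
  have hle0 : ∀ n, E0 n ≤ D.B n := by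
    intro n w hw
    obtain ⟨b, hb, rfl⟩ := mem_mulg.1 hw
    have := D.mul_mem hb hfB
    rwa [sub_add_cancel] at this
  have h1B : (1 : L) ∈ D.B 0 := by
    rw [D.zero]
    exact Submodule.mem_span_singleton_self _
  have key : ∃ m : ℕ, (∀ t, Th D (FL p L) (βB / dB) D.B t = kap p dB βB γB + m * lam) ∧
      (m = 0 → ∃ i, ∃ c ∈ D.B i, c ∉ J i ∧ ∀ n w, w ∈ D.B n → c * w ∈ E0 (i + n)) := by
    refine devissage hP (isLat_B hP) hs0 hle0
      (fun E' => ∃ m : ℕ, (∀ t, Th D (FL p L) (βB / dB) E' t = kap p dB βB γB + m * lam) ∧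
        (m = 0 → ∃ i, ∃ c ∈ D.B i, c ∉ J i ∧ ∀ n w, w ∈ E' n → c * w ∈ E0 (i + n))) ?_ ?_
    · refine ⟨0, fun t => ?_, fun _ => ⟨0, 1, h1B, hJ.1.one_not_mem, fun n w hw => ?_⟩⟩
      · rw [Nat.cast_zero, zero_mul, add_zero]
        exact Th_mulg hP hB hd s hf0 t
      · rw [one_mul, zero_add]
        exact hw
    · intro E' a e hs hE' h0 hle hPr he he' hpr
      obtain ⟨m, hm1, hm2⟩ := hPr
      have hfq : f ∈ colon D E' a e s := by
        refine mem_colon.2 ⟨hfB, h0 _ (mem_mulg.2 ⟨e, ?_, ?_⟩)⟩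
        · rw [add_sub_cancel_left]
          exact he
        · simp only [smul_eq_mul]
          ring
      have hne : ∃ n, colon D E' a e n ≠ ⊥ := by
        refine ⟨s, fun hbot => hf0 ?_⟩
        rw [hbot] at hfq
        exact (Submodule.mem_bot k).1 hfq
      have hTh : ∀ t, Th D (FL p L) (βB / dB) (addg D E' a e) t =
          Th D (FL p L) (βB / dB) E' t + Lam D p (βB / dB) (colon D E' a e) (t - a) := fun t =>
        Th_addg (p := p) hP hc (FL p L) hE' a e (βB / dB) t
      have hcl : IsCurve D (colon D E' a e) ∨ EvC D (colon D E' a e) :=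
        prime_class hP hB hpr hne
      show ∃ m : ℕ, (∀ t, Th D (FL p L) (βB / dB) (addg D E' a e) t = kap p dB βB γB + m * lam) ∧
        (m = 0 → ∃ i, ∃ c ∈ D.B i, c ∉ J i ∧ ∀ n w, w ∈ addg D E' a e n → c * w ∈ E0 (i + n))
      rcases hcl with hcur | hev
      · have hconst : ∀ t, Lam D p (βB / dB) (colon D E' a e) t =
            Lam D p (βB / dB) (colon D E' a e) 0 := fun t =>
          Lam_curve_const (p := p) hP hc hcur (βB / dB) t
        have hq := hall (colon D E' a e) hcur hfq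
        rcases hq with ⟨hl0, hnle⟩ | hl
        · have hst : m = 0 → ∃ i, ∃ c ∈ D.B i, c ∉ J i ∧
              ∀ n w, w ∈ addg D E' a e n → c * w ∈ E0 (i + n) := fun hm0 => by
            exact some_step (E0 := E0) (E' := E') (a := a) (e := e) hs0 hs hJ.1 hnle (hm2 hm0)
          refine ⟨m, fun t => ?_, hst⟩
          rw [hTh t, hm1 t, hconst (t - a), hl0, add_zero]
        · refine ⟨m + 1, fun t => ?_, fun hm0 => absurd hm0 (Nat.succ_ne_zero m)⟩
          rw [hTh t, hm1 t, hconst (t - a), hl]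
          push_cast
          ring
      · have hnle : ¬ ∀ n, colon D E' a e n ≤ J n := fun hle' =>
          not_evc_of_curve (prime_le_curve hP hB hpr hne hJ hle') hev
        have hst : m = 0 → ∃ i, ∃ c ∈ D.B i, c ∉ J i ∧
            ∀ n w, w ∈ addg D E' a e n → c * w ∈ E0 (i + n) := fun hm0 => by
          exact some_step (E0 := E0) (E' := E') (a := a) (e := e) hs0 hs hJ.1 hnle (hm2 hm0)
        refine ⟨m, fun t => ?_, hst⟩
        rw [hTh t, hm1 t, Lam_evc hP hc hpr.ideal hev, add_zero]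
  obtain ⟨m, hm1, hm2⟩ := key
  have h1 := hm1 0
  rw [Th_B (p := p) hP hB hd 0] at h1
  have h2 : (m : ℚ) * lam = 0 := by linarith
  rcases mul_eq_zero.1 h2 with h3 | h3
  · exfalso
    have hm0 : m = 0 := by exact_mod_cast h3
    obtain ⟨i, c, hc', hcJ, hcE⟩ := hm2 hm0
    have h4 := hcE 0 1 h1B
    rw [mul_one, add_zero] at h4
    obtain ⟨b, hb, rfl⟩ := mem_mulg.1 h4
    apply hcJ
    have h5 := hJ.1.ideal.smul_mem hb hf
    rw [sub_add_cancel] at h5
    exact h5
  · exact h3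

/-! ### FR_CURVE -/

theorem Lam_curve {p : ℕ} [Fact p.Prime] [CharP L p] [CharP k p] [IsAlgClosed k]
    (hP : Par D η ζ) (hc : PCharts D p) (hcc : CurveCond D) {dB βB γB : ℚ}
    (hB : HasHP D.B dB βB γB) (hd : 0 < dB) (hI : IsCurve D I) (t : ℚ) :
    Lam D p (βB / dB) I t = 0 := by
  obtain ⟨TB, h1, ⟨s, f, hs, hf, hf0, h2⟩, h3⟩ := hcc
  have hA : ∀ q : ℤ → Submodule k L, IsCurve D q → TB q → Lam D p (βB / dB) q 0 = 0 := by
    intro q hq hTq
    refine Lam_of_all hP hc hB hd _ s f hs hf hf0 fun q' hq' hfq' => ?_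
    obtain ⟨g, hg⟩ := h1 q q' hq hq' hTq (h2 q' hq' hfq')
    exact Lam_act hP g hq.1.ideal hq'.1.ideal hg _ _
  rw [Lam_curve_const hP hc hI]
  by_cases hT : TB I
  · exact hA I hI hT
  · obtain ⟨s', f', hs', hf', hf0', h4⟩ := h3 I hI hT
    refine Lam_of_some hP hc hB hd _ s' f' hI hf' hf0' fun q hq hfq => ?_
    rcases h4 q hq hfq with hTq | ⟨g, hg⟩
    · refine Or.inl ⟨hA q hq hTq, fun hle => hT ?_⟩
      rw [← curve_le_eq hq hI hle]
      exact hTq
    · exact Or.inr (Lam_act hP g hI.1.ideal hq.1.ideal hg _ _)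

theorem Lam_prime {p : ℕ} [Fact p.Prime] [CharP L p] [CharP k p] [IsAlgClosed k]
    (hP : Par D η ζ) (hc : PCharts D p) (hcc : CurveCond D) {dB βB γB : ℚ}
    (hB : HasHP D.B dB βB γB) (hd : 0 < dB) (hI : GPrime D I) (hne : ∃ n, I n ≠ ⊥) (t : ℚ) :
    Lam D p (βB / dB) I t = 0 := by
  rcases prime_class hP hB hI hne with h | h
  · exact Lam_curve hP hc hcc hB hd h t
  · exact Lam_evc hP hc hI.ideal h _ t

end

end R169
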