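import Crest.Agent.R169.Frob0

/-!
# Row 169, FROB: generators (pieces FR_GEN1, FR_GEN2, FR_ADDG; helper78)

`gens D w c`: the `B`-module generated by `w i` in degree `c i`.

FR_GEN1. `exists_gens`: `E n = 0` for `n < n0`, `E (n+1) ≤ E n + η E n + ζ E n` for `n ≥ n1`: take bases of
all `E n`, `n0 ≤ n ≤ n1` (`1 ∈ B 0`, `η, ζ ∈ B 1`, induction on `n`).
`isLat_gens`: a finite sup; `gen` from `Par.gen`, `bdd` from `D.neg`.
FR_GEN2. `FrW_gens`: `φ (∑ b_l w_l) = ∑ b_l ^ p φ (w_l)`, `b_l ^ p ∈ B (p (i - c_l))`.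
FR_ADDG. `finrank_addg`: the kernel of `B (n - a) → W ⧸ E n`, `b ↦ b • e` is `colon D E a e (n - a)`.
-/

set_option autoImplicit false

namespace R169

section
variable {k L : Type} [Field k] [Field L] [Algebra k L]
variable {W : Type} [AddCommGroup W] [Module k W] [Module L W] [IsScalarTower k L W]
variable {D : GD k L} {η ζ : L} {E E' : ℤ → Submodule k W} {p : ℕ}

/-- the module generated by `w i` in degree `c i` -/
def gens (D : GD k L) {s : ℕ} (w : Fin s → W) (c : Fin s → ℤ) (n : ℤ) : Submodule k W :=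
  ⨆ i, mulg D (c i) (w i) n

/-! ### FR_GEN1 -/

private theorem mulg_smul {a i n : ℤ} {e w : W} {b : L} (hb : b ∈ D.B i) (hw : w ∈ mulg D a e n) :
    b • w ∈ mulg D a e (i + n) := by
  rw [mem_mulg] at hw ⊢
  obtain ⟨b', hb', rfl⟩ := hw
  refine ⟨b * b', ?_, by rw [smul_smul]⟩
  have := D.mul_mem hb hb'
  rwa [← add_sub_assoc] at this

private theorem gens_smul {s : ℕ} (w : Fin s → W) (c : Fin s → ℤ) {i n : ℤ} {b : L} {x : W}
    (hb : b ∈ D.B i) (hx : x ∈ gens D w c n) : b • x ∈ gens D w c (i + n) := by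
  unfold gens at hx ⊢
  refine Submodule.iSup_induction (p := fun j => mulg D (c j) (w j) n)
    (motive := fun x => b • x ∈ ⨆ j, mulg D (c j) (w j) (i + n)) hx ?_ ?_ ?_
  · intro j x hx
    exact Submodule.mem_iSup_of_mem j (mulg_smul hb hx)
  · rw [smul_zero]
    exact Submodule.zero_mem _
  · intro x y hx hy
    rw [smul_add]
    exact Submodule.add_mem _ hx hy

private theorem gens_step (hP : Par D η ζ) {s : ℕ} (w : Fin s → W) (c : Fin s → ℤ) (n : ℤ) :
    gens D w c n ⊔ sm η (gens D w c n) ⊔ sm ζ (gens D w c n) ≤ gens D w c (n + 1) := by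
  refine sup_le (sup_le ?_ ?_) ?_
  · intro x hx
    have := gens_smul (D := D) w c D.one_mem hx
    rwa [one_smul, add_comm] at this
  · unfold sm
    rw [Submodule.map_le_iff_le_comap]
    intro x hx
    have := gens_smul (D := D) w c hP.hη hx
    rw [add_comm] at this
    exact this
  · unfold sm
    rw [Submodule.map_le_iff_le_comap]
    intro x hx
    have := gens_smul (D := D) w c hP.hζ hx
    rw [add_comm] at this
    exact this

theorem IsLat.exists_gens (h : IsLat D η ζ E) (hP : Par D η ζ) :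
    ∃ (s : ℕ) (w : Fin s → W) (c : Fin s → ℤ), (∀ i, w i ∈ E (c i)) ∧ E = gens D w c := by
  classical
  obtain ⟨n0, hn0⟩ := h.bdd
  obtain ⟨n1, hn1⟩ := h.gen
  have hfg : ∀ i, ∃ S : Finset W, Submodule.span k (S : Set W) = E i := by
    intro i
    haveI := h.fin i
    exact (Module.Finite.iff_fg (N := E i)).1 inferInstance
  choose S hS using hfg
  set N := max n0 n1 with hN
  set G : Finset (W × ℤ) := (Finset.Icc n0 N).biUnion (fun i => (S i).image (fun w => (w, i)))
    with hG
  have hGmem : ∀ g ∈ G, g.1 ∈ E g.2 := by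
    intro g hg
    rw [hG, Finset.mem_biUnion] at hg
    obtain ⟨i, _, hi⟩ := hg
    rw [Finset.mem_image] at hi
    obtain ⟨w, hw, rfl⟩ := hi
    show w ∈ E i
    rw [← hS i]
    exact Submodule.subset_span hw
  set w : Fin G.card → W := fun i => (G.equivFin.symm i).1.1 with hw
  set c : Fin G.card → ℤ := fun i => (G.equivFin.symm i).1.2 with hc
  have hwE : ∀ i, w i ∈ E (c i) := fun i => hGmem _ (G.equivFin.symm i).2
  refine ⟨G.card, w, c, hwE, ?_⟩
  have hge : ∀ n, gens D w c n ≤ E n := by
    intro n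
    unfold gens
    refine iSup_le fun i => ?_
    intro x hx
    rw [mem_mulg] at hx
    obtain ⟨b, hb, rfl⟩ := hx
    have := h.smul_mem hb (hwE i)
    rwa [sub_add_cancel] at this
  have hsmall : ∀ n, n ≤ N → E n ≤ gens D w c n := by
    intro n hn
    by_cases hn' : n < n0
    · rw [hn0 n hn']
      exact bot_le
    · rw [← hS n, Submodule.span_le]
      intro x hx
      have hxG : (x, n) ∈ G := by
        rw [hG, Finset.mem_biUnion]
        exact ⟨n, Finset.mem_Icc.2 ⟨by omega, hn⟩, Finset.mem_image.2 ⟨x, hx, rfl⟩⟩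
      have h1 : x ∈ mulg D (c (G.equivFin ⟨(x, n), hxG⟩)) (w (G.equivFin ⟨(x, n), hxG⟩)) n := by
        rw [mem_mulg]
        refine ⟨1, ?_, ?_⟩
        · simp only [hc, Equiv.symm_apply_apply, sub_self]
          rw [D.zero]
          exact Submodule.mem_span_singleton_self _
        · simp only [hw, Equiv.symm_apply_apply, one_smul]
      exact Submodule.mem_iSup_of_mem _ h1
  have hbig : ∀ j : ℕ, E (N + j) ≤ gens D w c (N + j) := by
    intro j
    induction j with
    | zero =>
      rw [Nat.cast_zero, add_zero]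
      exact hsmall N le_rfl
    | succ j ih =>
      have e1 : N + ((j + 1 : ℕ) : ℤ) = N + j + 1 := by push_cast; ring
      rw [e1]
      refine (hn1 (N + j) (by have := le_max_right n0 n1; omega)).trans ?_
      refine le_trans ?_ (gens_step hP w c (N + j))
      exact sup_le_sup (sup_le_sup ih (Submodule.map_mono ih)) (Submodule.map_mono ih)
  funext n
  refine le_antisymm ?_ (hge n)
  rcases le_total n N with hn | hn
  · exact hsmall n hn
  · obtain ⟨j, rfl⟩ := Int.le.dest hn
    exact hbig j

private theorem isLat_mulg_aux (hP : Par D η ζ) (a : ℤ) (e : W) : IsLat D η ζ (mulg D a e) := by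
  have h1 := (IsLat.shift (isLat_B hP) (-a)).map (LinearMap.toSpanSingleton L W e)
  have e1 : mulg D a e = fun n =>
      (D.B (n + -a)).map ((LinearMap.toSpanSingleton L W e).restrictScalars k) := by
    funext n
    rw [mulg, sub_eq_add_neg]
  rw [e1]
  exact h1

private theorem isLat_bot : IsLat D η ζ (fun _ => (⊥ : Submodule k W)) where
  smul_mem := by
    intro i n a w _ hw
    rw [Submodule.mem_bot] at hw ⊢
    rw [hw, smul_zero]
  fin := fun _ => inferInstance
  bdd := ⟨0, fun _ _ => rfl⟩
  gen := ⟨0, fun _ _ => bot_le⟩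

theorem isLat_gens (hP : Par D η ζ) {s : ℕ} (w : Fin s → W) (c : Fin s → ℤ) :
    IsLat D η ζ (gens D w c) := by
  classical
  have h1 : ∀ t : Finset (Fin s), IsLat D η ζ (fun n => ⨆ i ∈ t, mulg D (c i) (w i) n) := by
    intro t
    induction t using Finset.induction_on with
    | empty =>
      simpa using isLat_bot (D := D) (η := η) (ζ := ζ) (W := W)
    | insert i t _ ih =>
      simp only [Finset.iSup_insert]
      exact (isLat_mulg_aux hP (c i) (w i)).sup ih
  have h2 : gens D w c = fun n => ⨆ i ∈ (Finset.univ : Finset (Fin s)), mulg D (c i) (w i) n := by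
    funext n
    simp [gens]
  rw [h2]
  exact h1 Finset.univ

/-! ### FR_GEN2 -/

theorem pow_mem_B {n : ℤ} {b : L} (hb : b ∈ D.B n) (j : ℕ) : b ^ j ∈ D.B (j * n) := by
  induction j with
  | zero =>
    rw [pow_zero, Nat.cast_zero, zero_mul, D.zero]
    exact Submodule.mem_span_singleton_self _
  | succ j ih =>
    have := D.mul_mem ih hb
    rw [pow_succ]
    have e : ((j + 1 : ℕ) : ℤ) * n = j * n + n := by push_cast; ring
    rw [e]
    exact this

theorem stab_FrW (F : FMap p L W) (E : ℤ → Submodule k W) : Stab D (FrW D F E) := by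
  intro i n a w ha hw
  unfold FrW at hw ⊢
  induction hw using Submodule.span_induction with
  | mem x hx =>
    obtain ⟨j, e, b, he, hb, rfl⟩ := hx
    refine Submodule.subset_span ⟨j, e, a * b, he, ?_, by rw [smul_smul]⟩
    have := D.mul_mem ha hb
    rwa [← add_sub_assoc] at this
  | zero =>
    rw [smul_zero]
    exact Submodule.zero_mem _
  | add x y _ _ hx hy =>
    rw [smul_add]
    exact Submodule.add_mem _ hx hy
  | smul c x _ hx =>
    rw [smul_comm]
    exact Submodule.smul_mem _ c hx

theorem FrW_mono (F : FMap p L W) (hle : ∀ n, E' n ≤ E n) (n : ℤ) : FrW D F E' n ≤ FrW D F E n := by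
  unfold FrW
  refine Submodule.span_mono ?_
  rintro x ⟨i, e, b, he, hb, rfl⟩
  exact ⟨i, e, b, hle i he, hb, rfl⟩

theorem FrW_gens (F : FMap p L W) {s : ℕ} (w : Fin s → W) (c : Fin s → ℤ) :
    FrW D F (gens D w c) = gens D (fun i => F.φ (w i)) (fun i => p * c i) := by
  have h0 : F.φ 0 = 0 := by
    have h := F.add 0 0
    rw [add_zero] at h
    exact left_eq_add.1 h
  funext n
  apply le_antisymm
  · unfold FrW
    rw [Submodule.span_le]
    rintro x ⟨i, e, b, he, hb, rfl⟩
    show b • F.φ e ∈ gens D (fun i => F.φ (w i)) (fun i => p * c i) n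
    unfold gens at he
    refine Submodule.iSup_induction (p := fun j => mulg D (c j) (w j) i)
      (motive := fun x => b • F.φ x ∈ gens D (fun i => F.φ (w i)) (fun i => p * c i) n) he ?_ ?_ ?_
    · intro l x hx
      rw [mem_mulg] at hx
      obtain ⟨b', hb', rfl⟩ := hx
      refine Submodule.mem_iSup_of_mem l ?_
      rw [mem_mulg]
      refine ⟨b * b' ^ p, ?_, by rw [F.smul, smul_smul]⟩
      have h1 := D.mul_mem hb (pow_mem_B hb' p)
      have e1 : n - p * i + p * (i - c l) = n - p * c l := by ring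
      rwa [e1] at h1
    · rw [h0, smul_zero]
      exact Submodule.zero_mem _
    · intro x y hx hy
      rw [F.add, smul_add]
      exact Submodule.add_mem _ hx hy
  · unfold gens
    refine iSup_le fun l => ?_
    intro x hx
    rw [mem_mulg] at hx
    obtain ⟨b, hb, rfl⟩ := hx
    refine Submodule.subset_span ⟨c l, w l, b, ?_, hb, rfl⟩
    refine Submodule.mem_iSup_of_mem l ?_
    rw [mem_mulg]
    refine ⟨1, ?_, one_smul _ _⟩
    rw [sub_self, D.zero]
    exact Submodule.mem_span_singleton_self _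

theorem isLat_FrW (hP : Par D η ζ) (F : FMap p L W) (h : IsLat D η ζ E) :
    IsLat D η ζ (FrW D F E) := by
  obtain ⟨s, w, c, _, hE⟩ := h.exists_gens hP
  rw [hE, FrW_gens]
  exact isLat_gens hP _ _

/-- `F^*B = B` -/
theorem FrW_B [Fact p.Prime] [CharP L p] : FrW D (FL p L) D.B = D.B := by
  funext n
  apply le_antisymm
  · unfold FrW
    rw [Submodule.span_le]
    rintro x ⟨i, e, b, he, hb, rfl⟩
    have h1 := D.mul_mem hb (pow_mem_B he p)
    have e1 : n - p * i + p * i = n := by ring
    rw [e1] at h1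
    exact h1
  · intro x hx
    refine Submodule.subset_span ⟨0, 1, x, ?_, ?_, ?_⟩
    · rw [D.zero]
      exact Submodule.mem_span_singleton_self _
    · rw [mul_zero, sub_zero]
      exact hx
    · show x = x • (1 : L) ^ p
      rw [one_pow, smul_eq_mul, mul_one]

/-! ### FR_ADDG -/

theorem stab_addg (hs : Stab D E) (a : ℤ) (e : W) : Stab D (addg D E a e) := by
  intro i n c w hc hw
  unfold addg at hw ⊢
  obtain ⟨x, hx, y, hy, rfl⟩ := Submodule.mem_sup.1 hw
  obtain ⟨b, hb, rfl⟩ := mem_mulg.1 hy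
  rw [smul_add, smul_smul]
  refine Submodule.add_mem_sup (hs hc hx) (mem_mulg.2 ⟨c * b, ?_, rfl⟩)
  have := D.mul_mem hc hb
  rwa [← add_sub_assoc] at this

theorem FrW_addg (F : FMap p L W) (E : ℤ → Submodule k W) (a : ℤ) (e : W) :
    FrW D F (addg D E a e) = addg D (FrW D F E) (p * a) (F.φ e) := by
  funext n
  apply le_antisymm
  · unfold FrW
    rw [Submodule.span_le]
    rintro _ ⟨i, w, b, hw, hb, rfl⟩
    unfold addg at hw
    obtain ⟨x, hx, y, hy, rfl⟩ := Submodule.mem_sup.1 hw
    obtain ⟨c, hc, rfl⟩ := mem_mulg.1 hy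
    rw [F.add, F.smul, smul_add, smul_smul]
    refine Submodule.add_mem_sup (Submodule.subset_span ⟨i, x, b, hx, hb, rfl⟩)
      (mem_mulg.2 ⟨b * c ^ p, ?_, rfl⟩)
    have := D.mul_mem hb (pow_mem_B hc p)
    have e : n - (p : ℤ) * i + p * (i - a) = n - p * a := by ring
    rwa [e] at this
  · unfold addg
    refine sup_le (FrW_mono F (fun n => le_sup_left) n) ?_
    intro w hw
    obtain ⟨b, hb, rfl⟩ := mem_mulg.1 hw
    refine Submodule.subset_span ⟨a, e, b, ?_, hb, rfl⟩
    refine Submodule.mem_sup_right (mem_mulg.2 ⟨1, ?_, one_smul _ _⟩)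
    exact D.one_mem_nonneg (by omega)

theorem isLat_addg (hP : Par D η ζ) (h : IsLat D η ζ E) (a : ℤ) (e : W) :
    IsLat D η ζ (addg D E a e) := by
  have h1 : IsLat D η ζ (mulg D a e) := by
    have h2 := isLat_gens hP (fun _ : Fin 1 => e) (fun _ => a)
    have e0 : gens D (fun _ : Fin 1 => e) (fun _ => a) = mulg D a e := by
      funext n
      unfold gens
      rw [iSup_unique]
    rwa [e0] at h2
  exact h.sup h1

theorem isLat_mulg (hP : Par D η ζ) (a : ℤ) (e : W) : IsLat D η ζ (mulg D a e) :=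
  isLat_mulg_aux hP a e

theorem gideal_colon (hs : Stab D E) (a : ℤ) (e : W) : GIdeal D (colon D E a e) := by
  refine ⟨fun n => inf_le_left, ?_⟩
  intro i n c w hc hw
  rw [mem_colon] at hw ⊢
  refine ⟨D.mul_mem hc hw.1, ?_⟩
  have := hs hc hw.2
  rw [mul_smul, add_assoc]
  exact this

theorem isLat_gideal (hP : Par D η ζ) {I : ℤ → Submodule k L} (hI : GIdeal D I) :
    IsLat D η ζ I := by
  refine (isLat_B hP).sub hP hI.le ?_
  intro i n c w hc hw
  exact hI.smul_mem hc hw

private theorem finrank_map_add' {V V' : Type} [AddCommGroup V] [Module k V] [AddCommGroup V']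
    [Module k V'] (f : V →ₗ[k] V') (S : Submodule k V) [FiniteDimensional k S] :
    Module.finrank k (S.map f) + Module.finrank k (S ⊓ LinearMap.ker f : Submodule k V) =
      Module.finrank k S := by
  have h := LinearMap.finrank_range_add_finrank_ker (f.domRestrict S)
  have h1 : LinearMap.range (f.domRestrict S) = S.map f := by
    ext y
    simp [LinearMap.mem_range, Submodule.mem_map]
  have h2 : (LinearMap.ker (f.domRestrict S)).map S.subtype = S ⊓ LinearMap.ker f := by
    ext y
    simp only [Submodule.mem_map, LinearMap.mem_ker, Submodule.mem_inf]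
    constructor
    · rintro ⟨x, hx, rfl⟩
      exact ⟨x.2, hx⟩
    · rintro ⟨hy, hy'⟩
      exact ⟨⟨y, hy⟩, hy', rfl⟩
  rw [h1] at h
  rw [← h2, Submodule.finrank_map_subtype_eq]
  exact h

theorem finrank_addg (hf : ∀ n, FiniteDimensional k (E n)) (a : ℤ) (e : W) (n : ℤ) :
    Module.finrank k (addg D E a e n) + Module.finrank k (colon D E a e (n - a)) =
      Module.finrank k (E n) + Module.finrank k (D.B (n - a)) := by
  haveI := hf n
  haveI := D.fin (n - a)
  haveI : FiniteDimensional k (mulg D a e n) := by unfold mulg; infer_instance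
  haveI : FiniteDimensional k (addg D E a e n) := by unfold addg; infer_instance
  let f0 : L →ₗ[k] W := (LinearMap.toSpanSingleton L W e).restrictScalars k
  have h1 := finrank_map_add' ((E n).mkQ ∘ₗ f0) (D.B (n - a))
  have h2 := finrank_map_add' (E n).mkQ (addg D E a e n)
  have e1 : D.B (n - a) ⊓ LinearMap.ker ((E n).mkQ ∘ₗ f0) = colon D E a e (n - a) := by
    ext b
    rw [mem_colon, Submodule.mem_inf, LinearMap.mem_ker, LinearMap.comp_apply,
      Submodule.mkQ_apply, Submodule.Quotient.mk_eq_zero, sub_add_cancel]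
    rfl
  have e2 : addg D E a e n ⊓ LinearMap.ker (E n).mkQ = E n := by
    rw [Submodule.ker_mkQ]
    exact inf_eq_right.2 le_sup_left
  have e3 : (addg D E a e n).map (E n).mkQ = (D.B (n - a)).map ((E n).mkQ ∘ₗ f0) := by
    unfold addg mulg
    rw [Submodule.map_sup, Submodule.map_comp]
    have : (E n).map (E n).mkQ = ⊥ := by
      rw [← LinearMap.le_ker_iff_map, Submodule.ker_mkQ]
    rw [this, bot_sup_eq]
  rw [e1] at h1
  rw [e2, e3] at h2
  omega

end

end R169
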