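import Crest.Agent.R169.Frob0

/-!
# Row 169, FROB: Hilbert polynomial values (piece FR_HPV; helper78)

`HasHP.unique` of LatAPI (or `quad_ext`, a quadratic polynomial vanishing at all large integers is zero)
gives that `hpv E` is the polynomial of `E`.
-/

set_option autoImplicit false

namespace R169

section
variable {k L : Type} [Field k] [Field L] [Algebra k L]
variable {W : Type} [AddCommGroup W] [Module k W] [Module L W] [IsScalarTower k L W]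
variable {W' : Type} [AddCommGroup W'] [Module k W'] [Module L W'] [IsScalarTower k L W']
variable {D : GD k L} {η ζ : L} {E E' : ℤ → Submodule k W} {I J : ℤ → Submodule k W'}

/-- a polynomial of degree `≤ 2` vanishing at all large integers is zero -/
theorem quad_ext {a b c : ℚ} {n0 : ℤ} (h : ∀ n : ℤ, n0 ≤ n → a * (n : ℚ) ^ 2 + b * n + c = 0) :
    a = 0 ∧ b = 0 ∧ c = 0 := by
  have e1 := h n0 le_rfl
  have e2 := h (n0 + 1) (by omega)
  have e3 := h (n0 + 2) (by omega)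
  push_cast at e2 e3
  have ha : a = 0 := by linear_combination (e3 - 2 * e2 + e1) / 2
  subst ha
  have hb : b = 0 := by linear_combination e2 - e1
  subst hb
  refine ⟨rfl, rfl, ?_⟩
  linear_combination e1

/-- quadratic functions agreeing at all large integers are equal -/
private theorem quad_fun_ext {f g : ℚ → ℚ} (hf : ∃ a b c : ℚ, ∀ t, f t = a * t ^ 2 + b * t + c)
    (hg : ∃ a b c : ℚ, ∀ t, g t = a * t ^ 2 + b * t + c)
    (h : ∃ n0 : ℤ, ∀ n : ℤ, n0 ≤ n → f n = g n) (t : ℚ) : f t = g t := by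
  obtain ⟨a, b, c, h1⟩ := hf
  obtain ⟨a', b', c', h2⟩ := hg
  obtain ⟨n0, h3⟩ := h
  obtain ⟨e1, e2, e3⟩ := quad_ext (a := a - a') (b := b - b') (c := c - c') (n0 := n0) (by
    intro n hn
    have := h3 n hn
    rw [h1, h2] at this
    linear_combination this)
  rw [h1, h2]
  linear_combination t ^ 2 * e1 + t * e2 + e3

private theorem quad_fun_add {f g : ℚ → ℚ} (hf : ∃ a b c : ℚ, ∀ t, f t = a * t ^ 2 + b * t + c)
    (hg : ∃ a b c : ℚ, ∀ t, g t = a * t ^ 2 + b * t + c) :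
    ∃ a b c : ℚ, ∀ t, f t + g t = a * t ^ 2 + b * t + c := by
  obtain ⟨a, b, c, h1⟩ := hf
  obtain ⟨a', b', c', h2⟩ := hg
  exact ⟨a + a', b + b', c + c', fun t => by rw [h1, h2]; ring⟩

private theorem quad_fun_comp {f : ℚ → ℚ} (hf : ∃ a b c : ℚ, ∀ t, f t = a * t ^ 2 + b * t + c) (x y : ℚ) :
    ∃ a b c : ℚ, ∀ t, f (x * t + y) = a * t ^ 2 + b * t + c := by
  obtain ⟨a, b, c, h1⟩ := hf
  exact ⟨a * x ^ 2, 2 * a * x * y + b * x, a * y ^ 2 + b * y + c, fun t => by rw [h1]; ring⟩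

private theorem quad_fun_sub {f : ℚ → ℚ} (hf : ∃ a b c : ℚ, ∀ t, f t = a * t ^ 2 + b * t + c) (y : ℚ) :
    ∃ a b c : ℚ, ∀ t, f (t - y) = a * t ^ 2 + b * t + c := by
  obtain ⟨a, b, c, h1⟩ := hf
  exact ⟨a, -(2 * a * y) + b, a * y ^ 2 - b * y + c, fun t => by rw [h1]; ring⟩

theorem HasHP.hpv_eq {N β γ : ℚ} (h : HasHP E N β γ) (t : ℚ) :
    hpv E t = N / 2 * t ^ 2 - β * t + γ := by
  have hP : HasP E := ⟨(N, β, γ), h⟩
  unfold hpv
  rw [dif_pos hP]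
  obtain ⟨h1, h2, h3⟩ := HasHP.unique hP.choose_spec h
  rw [h1, h2, h3]

theorem HasHP.hasP {N β γ : ℚ} (h : HasHP E N β γ) : HasP E := ⟨(N, β, γ), h⟩

theorem HasP.ev (h : HasP E) : ∃ n0 : ℤ, ∀ n : ℤ, n0 ≤ n → (Module.finrank k (E n) : ℚ) = hpv E n := by
  obtain ⟨⟨N, β, γ⟩, h1⟩ := h
  have h2 := h1
  obtain ⟨n0, h3⟩ := h1
  refine ⟨n0, fun n hn => ?_⟩
  rw [h3 n hn, h2.hpv_eq]

theorem IsLat.hasP (hP : Par D η ζ) (h : IsLat D η ζ E) : HasP E := by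
  obtain ⟨N, β, γ, h1, -, -⟩ := (IsLat.toPLat hP h).hasHP
  exact h1.hasP

theorem hpv_quad (E : ℤ → Submodule k W) : ∃ a b c : ℚ, ∀ t, hpv E t = a * t ^ 2 + b * t + c := by
  by_cases h : HasP E
  · obtain ⟨⟨N, β, γ⟩, h1⟩ := h
    exact ⟨N / 2, -β, γ, fun t => by rw [h1.hpv_eq]; ring⟩
  · refine ⟨0, 0, 0, fun t => ?_⟩
    unfold hpv
    rw [dif_neg h]
    ring

theorem Th_quad {p : ℕ} (F : FMap p L W) (b : ℚ) (E : ℤ → Submodule k W) :
    ∃ x y z : ℚ, ∀ t, Th D F b E t = x * t ^ 2 + y * t + z := by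
  obtain ⟨a1, b1, c1, h1⟩ := quad_fun_comp (hpv_quad (FrW D F E)) p ((1 - p) * b)
  obtain ⟨a2, b2, c2, h2⟩ := hpv_quad E
  refine ⟨a1 - p ^ 2 * a2, b1 - p ^ 2 * b2, c1 - p ^ 2 * c2, fun t => ?_⟩
  unfold Th
  rw [h1, h2]
  ring

/-- two polynomials agreeing eventually -/
theorem hpv_rel (hE : HasP E) (hE' : HasP E') (hI : HasP I) (hJ : HasP J) (a : ℤ)
    (he : ∃ n0 : ℤ, ∀ n, n0 ≤ n → Module.finrank k (E n) + Module.finrank k (I (n - a)) =
      Module.finrank k (E' n) + Module.finrank k (J (n - a))) (t : ℚ) :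
    hpv E t + hpv I (t - a) = hpv E' t + hpv J (t - a) := by
  obtain ⟨n1, h1⟩ := hE.ev
  obtain ⟨n2, h2⟩ := hE'.ev
  obtain ⟨n3, h3⟩ := hI.ev
  obtain ⟨n4, h4⟩ := hJ.ev
  obtain ⟨n5, h5⟩ := he
  refine quad_fun_ext (f := fun t => hpv E t + hpv I (t - a)) (g := fun t => hpv E' t + hpv J (t - a))
    (quad_fun_add (hpv_quad E) (quad_fun_sub (hpv_quad I) a))
    (quad_fun_add (hpv_quad E') (quad_fun_sub (hpv_quad J) a))
    ⟨max n1 (max n2 (max (n3 + a) (max (n4 + a) n5))), fun n hn => ?_⟩ t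
  simp only [max_le_iff] at hn
  obtain ⟨m1, m2, m3, m4, m5⟩ := hn
  have e3 := h3 (n - a) (by omega)
  have e4 := h4 (n - a) (by omega)
  push_cast at e3 e4
  have e5 : ((Module.finrank k (E n) + Module.finrank k (I (n - a)) : ℕ) : ℚ) =
      ((Module.finrank k (E' n) + Module.finrank k (J (n - a)) : ℕ) : ℚ) := by rw [h5 n m5]
  push_cast at e5
  show hpv E n + hpv I ((n : ℚ) - a) = hpv E' n + hpv J ((n : ℚ) - a)
  rw [← h1 n m1, ← h2 n m2, ← e3, ← e4]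
  exact e5

theorem hpv_congr (hE : HasP E) (hI : HasP I)
    (he : ∃ n0 : ℤ, ∀ n, n0 ≤ n → Module.finrank k (E n) = Module.finrank k (I n)) (t : ℚ) :
    hpv E t = hpv I t := by
  obtain ⟨n1, h1⟩ := hE.ev
  obtain ⟨n2, h2⟩ := hI.ev
  obtain ⟨n5, h5⟩ := he
  refine quad_fun_ext (hpv_quad E) (hpv_quad I) ⟨max n1 (max n2 n5), fun n hn => ?_⟩ t
  simp only [max_le_iff] at hn
  rw [← h1 n hn.1, ← h2 n hn.2.1, h5 n hn.2.2]

theorem hpv_add_const (hE : HasP E) (hI : HasP I) (δ : ℕ)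
    (he : ∃ n0 : ℤ, ∀ n, n0 ≤ n → Module.finrank k (E n) = Module.finrank k (I n) + δ) (t : ℚ) :
    hpv E t = hpv I t + δ := by
  obtain ⟨n1, h1⟩ := hE.ev
  obtain ⟨n2, h2⟩ := hI.ev
  obtain ⟨n5, h5⟩ := he
  refine quad_fun_ext (g := fun t => hpv I t + δ) (hpv_quad E)
    (quad_fun_add (hpv_quad I) ⟨0, 0, δ, fun t => by ring⟩)
    ⟨max n1 (max n2 n5), fun n hn => ?_⟩ t
  simp only [max_le_iff] at hn
  show hpv E n = hpv I n + δ
  rw [← h1 n hn.1, ← h2 n hn.2.1, h5 n hn.2.2]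
  push_cast
  rfl

theorem hpv_shift (hE : HasP E) (hI : HasP I) (a : ℤ)
    (he : ∃ n0 : ℤ, ∀ n, n0 ≤ n → Module.finrank k (E n) = Module.finrank k (I (n - a))) (t : ℚ) :
    hpv E t = hpv I (t - a) := by
  obtain ⟨n1, h1⟩ := hE.ev
  obtain ⟨n2, h2⟩ := hI.ev
  obtain ⟨n5, h5⟩ := he
  refine quad_fun_ext (g := fun t => hpv I (t - a)) (hpv_quad E) (quad_fun_sub (hpv_quad I) a)
    ⟨max n1 (max (n2 + a) n5), fun n hn => ?_⟩ t
  simp only [max_le_iff] at hn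
  have e2 := h2 (n - a) (by omega)
  push_cast at e2
  show hpv E n = hpv I ((n : ℚ) - a)
  rw [← h1 n hn.1, ← e2, h5 n hn.2.2]

/-- a quadratic polynomial of period `1` is constant -/
theorem periodic_const {f : ℚ → ℚ} (hq : ∃ a b c : ℚ, ∀ t, f t = a * t ^ 2 + b * t + c)
    (hper : ∀ t, f t = f (t - 1)) (t : ℚ) : f t = f 0 := by
  obtain ⟨a, b, c, h⟩ := hq
  have e1 := hper 1
  have e2 := hper 2
  rw [h, h] at e1 e2
  have ha : a = 0 := by linear_combination (e2 - e1) / 2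
  subst ha
  have hb : b = 0 := by linear_combination e1
  subst hb
  rw [h, h]
  ring

end

end R169
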