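import Crest.Agent.R169.FrobCurve

/-!
# Row 169, FROB: the Frobenius formula (pieces FR_THALL, FR_FINAL; helper78)

FR_THALL. `exists_basis_in` gives independent `w i ∈ E c`; `E0 = gens D w (fun _ => c) ≤ E`, `Th E0 = r κ`
(`Th_gens_free`, `linInd_FP`). `devissage` from `E0` to `E` with `Pr E' := ∀ t, Th E' t = r κ`: the prime
`q = colon D E' a e` is nonzero (clear denominators with `D.frac`: `b • e ∈ gens` in a large degree, `b ≠ 0`, `GD.mono`),
so `Lam q = 0` (`Lam_prime`), `Th_addg`.

FR_FINAL. `Fr D p E` is a lattice (`isLat_FrW`, `FrW_FP`), `HasHP (Fr D p E) N' β' γ'` (`IsLat.hasP`); the identity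
`N'/2 (p t + (1-p) b)^2 - β' (p t + (1-p) b) + γ' = p^2 (N/2 t^2 - β t + γ) + r κ` for all `t` gives `N' = N`,
`β' / N - b = p (β / N - b)` and the third formula (`IsLat.rank`: `N = dB * r > 0`, `0 < dB`).
`CharP L p` from `charP_of_injective_algebraMap`.
-/

set_option autoImplicit false

namespace R169

section
variable {k L : Type} [Field k] [Field L] [Algebra k L]
variable {D : GD k L} {η ζ : L}

/-- stable families are increasing -/
private theorem fm_mono {W : Type} [AddCommGroup W] [Module k W] [Module L W] [IsScalarTower k L W]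
    {E : ℤ → Submodule k W} (hs : Stab D E) {m n : ℤ} (h : m ≤ n) : E m ≤ E n := by
  intro w hw
  have := hs (D.one_mem_nonneg (sub_nonneg.2 h)) hw
  rwa [one_smul, sub_add_cancel] at this

/-- clearing denominators -/
private theorem fm_clear {W : Type} [AddCommGroup W] [Module k W] [Module L W] [IsScalarTower k L W]
    {E : ℤ → Submodule k W} (hs : Stab D E) {r : ℕ} (w : Fin r → W) (c : ℤ) (hw : ∀ i, w i ∈ E c)
    (e : W) (he : e ∈ Submodule.span L (Set.range w)) :
    ∃ (n : ℤ) (b : L), b ∈ D.B n ∧ b ≠ 0 ∧ ∃ m : ℤ, b • e ∈ E m := by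
  induction he using Submodule.span_induction with
  | mem x hx =>
    obtain ⟨i, rfl⟩ := hx
    exact ⟨0, 1, D.one_mem_nonneg le_rfl, one_ne_zero, c, by rw [one_smul]; exact hw i⟩
  | zero =>
    exact ⟨0, 1, D.one_mem_nonneg le_rfl, one_ne_zero, c, by rw [smul_zero]; exact Submodule.zero_mem _⟩
  | add x y _ _ hx hy =>
    obtain ⟨n1, b1, hb1, h01, m1, h1⟩ := hx
    obtain ⟨n2, b2, hb2, h02, m2, h2⟩ := hy
    refine ⟨n1 + n2, b1 * b2, D.mul_mem hb1 hb2, mul_ne_zero h01 h02, max (n2 + m1) (n1 + m2), ?_⟩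
    rw [smul_add]
    refine Submodule.add_mem _ ?_ ?_
    · refine fm_mono hs (le_max_left _ _) ?_
      rw [mul_comm, mul_smul]
      exact hs hb2 h1
    · refine fm_mono hs (le_max_right _ _) ?_
      rw [mul_smul]
      exact hs hb1 h2
  | smul l x _ hx =>
    obtain ⟨n1, b1, hb1, h01, m1, h1⟩ := hx
    obtain ⟨n, a, ha, b, hb, hb0, rfl⟩ := D.frac l
    refine ⟨n1 + n, b1 * b, D.mul_mem hb1 hb, mul_ne_zero h01 hb0, n + m1, ?_⟩
    have e1 : (b1 * b) • (a / b) • x = a • b1 • x := by
      rw [smul_smul, smul_smul]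
      congr 1
      field_simp
    rw [e1]
    exact hs ha h1

/-- general form of `Th_all` -/
private theorem fm_all {W : Type} [AddCommGroup W] [Module k W] [Module L W] [IsScalarTower k L W]
    {p : ℕ} [Fact p.Prime] [CharP L p] [CharP k p] [IsAlgClosed k]
    (hP : Par D η ζ) (hc : PCharts D p) (hcc : CurveCond D) {dB βB γB : ℚ}
    (hB : HasHP D.B dB βB γB) (hd : 0 < dB) {r : ℕ} {E : ℤ → Submodule k W}
    (hE : IsLat D η ζ E) (F : FMap p L W) (c : ℤ) (w : Fin r → W) (hwE : ∀ i, w i ∈ E c)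
    (hw : LinearIndependent L w) (hφ : LinearIndependent L (fun i => F.φ (w i)))
    (hspan : Submodule.span L (Set.range w) = ⊤) :
    ∀ t, Th D F (βB / dB) E t = r * kap p dB βB γB := by
  have hL0 := isLat_gens (D := D) hP w (fun _ => c)
  have hs0 : Stab D (gens D w (fun _ => c)) := fun ha hw => hL0.smul_mem ha hw
  have hle0 : ∀ n, gens D w (fun _ => c) n ≤ E n := by
    intro n
    refine iSup_le fun i => ?_
    intro v hv
    obtain ⟨b, hb, rfl⟩ := mem_mulg.1 hv
    have := hE.smul_mem hb (hwE i)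
    rwa [sub_add_cancel] at this
  refine devissage (η := η) (ζ := ζ) (E0 := gens D w (fun _ => c)) hP hE hs0 hle0
    (fun E' => ∀ t, Th D F (βB / dB) E' t = r * kap p dB βB γB)
    (fun t => Th_gens_free hP hB hd w hw F hφ c t) ?_
  intro E' a e hs' hE' h0 hle' hPr he he' hpr t
  have hadd := Th_addg hP hc F hE' a e (βB / dB) t
  have hne : ∃ n, colon D E' a e n ≠ ⊥ := by
    have hwE' : ∀ i, w i ∈ E' c := by
      intro i
      refine h0 c ?_
      refine Submodule.mem_iSup_of_mem i (mem_mulg.2 ⟨1, ?_, one_smul _ _⟩)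
      rw [sub_self]
      exact D.one_mem_nonneg le_rfl
    obtain ⟨n, b, hb, hb0, m, hm⟩ := fm_clear hs' w c hwE' e (by rw [hspan]; exact Submodule.mem_top)
    refine ⟨max n (m - a), fun hbot => hb0 ?_⟩
    have hmem : b ∈ colon D E' a e (max n (m - a)) := by
      refine mem_colon.2 ⟨D.mono_le (le_max_left _ _) hb, fm_mono hs' ?_ hm⟩
      have := le_max_right n (m - a)
      omega
    rw [hbot] at hmem
    exact (Submodule.mem_bot k).1 hmem
  have hlam := Lam_prime hP hc hcc hB hd hpr hne (t - a)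
  rw [hadd, hPr t, hlam, add_zero]

theorem Th_all {p : ℕ} [Fact p.Prime] [CharP L p] [CharP k p] [IsAlgClosed k]
    (hP : Par D η ζ) (hc : PCharts D p) (hcc : CurveCond D) {dB βB γB : ℚ}
    (hB : HasHP D.B dB βB γB) (hd : 0 < dB) {r : ℕ} {E : ℤ → Submodule k (Fin r → L)}
    (hE : IsLat D η ζ E) (hs : lspan L E = ⊤) (t : ℚ) :
    Th D (FP p r L) (βB / dB) E t = r * kap p dB βB γB := by
  obtain ⟨c, w, hw, hwE⟩ := exists_basis_in hP hE hs (Module.finrank_fin_fun L (n := r))
  have hspan : Submodule.span L (Set.range w) = ⊤ := by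
    apply LinearIndependent.span_eq_top_of_card_eq_finrank' hw
    rw [Fintype.card_fin, Module.finrank_fin_fun]
  exact fm_all hP hc hcc hB hd hE (FP p r L) c w hwE hw (linInd_FP w hw) hspan t

theorem frobFormula [IsAlgClosed k] (p : ℕ) [Fact p.Prime] [CharP k p] (D : GD k L) {η ζ : L}
    (hP : Par D η ζ) (hc : PCharts D p) (hcc : CurveCond D) : FrobFormula D η ζ p := by
  have : CharP L p := charP_of_injective_algebraMap (algebraMap k L).injective p
  intro dB βB γB hB r E hr hE hs N β γ hN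
  obtain ⟨hd, hrank⟩ := IsLat.rank hP hB hE hN
  rw [hs, finrank_top, Module.finrank_fin_fun] at hrank
  have hN0 : 0 < N := by
    rw [hrank]
    exact mul_pos hd (by exact_mod_cast hr)
  have hFr : IsLat D η ζ (FrW D (FP p r L) E) := isLat_FrW hP _ hE
  obtain ⟨⟨N', β', γ'⟩, hN'⟩ := hFr.hasP hP
  simp only at hN'
  have hp0 : (p : ℚ) ≠ 0 := by exact_mod_cast (Fact.out : p.Prime).ne_zero
  have key : ∀ t : ℚ, N' / 2 * (p * t + (1 - p) * (βB / dB)) ^ 2 - β' * (p * t + (1 - p) * (βB / dB)) + γ'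
      - p ^ 2 * (N / 2 * t ^ 2 - β * t + γ) = r * kap p dB βB γB := by
    intro t
    have := Th_all hP hc hcc hB hd hE hs t
    unfold Th at this
    rwa [hN'.hpv_eq, hN.hpv_eq] at this
  set b : ℚ := βB / dB with hb
  have k0 := key 0
  have k1 := key 1
  have k2 := key (-1)
  have hNN : N' = N := by
    have : (p : ℚ) ^ 2 * (N' - N) = 0 := by linear_combination k1 + k2 - 2 * k0
    rcases mul_eq_zero.1 this with h | h
    · exact absurd (pow_eq_zero_iff two_ne_zero |>.1 h) hp0
    · linear_combination h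
  subst hNN
  have hβ : β' = p * β + N' * (1 - p) * b := by
    have : (p : ℚ) * (β' - (p * β + N' * (1 - p) * b)) = 0 := by linear_combination (k2 - k1) / 2
    rcases mul_eq_zero.1 this with h | h
    · exact absurd h hp0
    · linear_combination h
  refine ⟨β', γ', ?_, ?_, ?_⟩
  · rw [← FrW_FP]; exact hN'
  · rw [hβ]
    field_simp
    ring
  · have hγ : γ' = p ^ 2 * γ + r * kap p dB βB γB - N' / 2 * (1 - p) ^ 2 * b ^ 2 + β' * (1 - p) * b := by
      linear_combination k0
    rw [hγ, hβ]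
    unfold kap
    have hN1 : N' ≠ 0 := hN0.ne'
    field_simp
    ring

end

end R169
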