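import Crest.Agent.R169.FrobAdd

/-!
# Row 169, FROB: point primes (pieces FR_LOCA, FR_LOCB, FR_PB, FR_POINT; helper78)

`loc C I`: degree zero part of `I[1/h]`, `S = loc C B` the chart ring, `DQ C I = S / loc C I`.

FR_LOCA. For `n ≥ 0` let `V n` = image of `B n → DQ C I`, `b ↦ [b / g^n]`. Kernel = `I n` for large `n` by `hsat`
(`h^j b / g^n ∈ I (j M)` => `h^j b ∈ I (j M + n)`; conversely `b ∈ I n` => `h^n b / g^n = h0^n b ∈ I (n M)`).
`b / g^n = b g / g^(n+1)`. `T` = multiplication by `h / g^M`: injective (`h^j h f / g^M ∈ I (j M)` =>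
`h^(j+1) f ∈ I ((j+1) M)`), maps `V n` into `V (n + M)`, and `f = b / h^j` satisfies `T^j f = b / g^(j M) ∈ V (j M)`.

FR_LOCB. `la_stab`: `V n` is eventually constant `= V∞`, `T V∞ ⊆ V∞`, so `T V∞ = V∞` (finite dimension), and
`T^j x ∈ V∞` implies `x ∈ V∞`.

FR_PB. `mem_loc_FrW`: `=>` is `core` with `W = L`, `F = FL`, `E = I`, `x = 1` (write `h^j f = ∑ b_l a_l^p` and divide by
`h^j`, `g^..` as in FR_FLAT); `<=`: `h^j G ∈ I (j M)` => `h^(p j) G^p ∈ F^*I`. Then if `s_1..s_δ` is a basis of `S` mod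
`loc C I`, the `p² δ` elements `u^c v^d s_i^p` are a basis of `S` mod `loc C (F^*I)` (scalars of `k` are `p`-th powers).

FR_POINT. `exists_chart_notMem` from `exists_gcharts`; `sat_FrW`: `colon D I C.M C.h = I` on degrees (prime), so by
`colon_FrW` multiplication by `h^p` is injective mod `F^*I` in large degrees; iterate.
`Lam_point`: `δ = 0`: `Lam_irrel`. `δ > 0`: `P_B = P_I + δ`, `P_B = P_{F^*I} + p² δ` (`hpv_add_const`, `FrW_B`).
-/

set_option autoImplicit false

namespace R169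

section
variable {k L : Type} [Field k] [Field L] [Algebra k L]
variable {D : GD k L} {η ζ : L} {I : ℤ → Submodule k L} {p : ℕ}

/-- degree zero part of the localisation of `I` -/
def loc (C : GChart D p) (I : ℤ → Submodule k L) : Submodule k L :=
  ⨆ j : ℕ, (I (j * C.M)).comap (Algebra.lsmul k k L (C.h ^ j))

/-- `S / S ∩ loc C I`, `S = loc C B` -/
abbrev DQ (C : GChart D p) (I : ℤ → Submodule k L) : Type :=
  ↥(loc C D.B) ⧸ (Submodule.comap (loc C D.B).subtype (loc C I))

/-- saturation with respect to `h` in large degrees -/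
def Sat (C : GChart D p) (I : ℤ → Submodule k L) : Prop :=
  ∃ n0 : ℤ, ∀ n, n0 ≤ n → ∀ b ∈ D.B n, ∀ j : ℕ, C.h ^ j * b ∈ I (n + j * C.M) → b ∈ I n

/-! ### FR_LOCA -/

private theorem loca_powB {n : ℤ} {b : L} (hb : b ∈ D.B n) (j : ℕ) : b ^ j ∈ D.B (j * n) := by
  induction j with
  | zero =>
    rw [pow_zero, Nat.cast_zero, zero_mul, D.zero]
    exact Submodule.mem_span_singleton_self _
  | succ j ih =>
    rw [pow_succ]
    have h1 := D.mul_mem ih hb
    have e : (((j + 1 : ℕ) : ℤ)) * n = j * n + n := by push_cast; ring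
    rw [e]; exact h1

private theorem loca_stabB : Stab D D.B := by
  intro i n a w ha hw
  exact D.mul_mem ha hw

private theorem loca_step (C : GChart D p) (hs : Stab D I) {f : L} {j : ℕ}
    (h : C.h ^ j * f ∈ I (j * C.M)) (i : ℕ) : C.h ^ (i + j) * f ∈ I (((i + j : ℕ) : ℤ) * C.M) := by
  have h1 := hs (loca_powB C.h_mem i) h
  have e : (((i + j : ℕ) : ℤ)) * C.M = i * C.M + j * C.M := by push_cast; ring
  rw [e, pow_add, mul_assoc]
  exact h1

theorem mem_loc (C : GChart D p) (hs : Stab D I) {f : L} :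
    f ∈ loc C I ↔ ∃ j : ℕ, C.h ^ j * f ∈ I (j * C.M) := by
  unfold loc
  rw [Submodule.mem_iSup_of_directed]
  · rfl
  · apply Monotone.directed_le
    apply monotone_nat_of_le_succ
    intro j f hf
    have h1 := loca_step C hs hf 1
    rw [add_comm] at h1
    exact h1

/-- the multiplier `h / g^M` -/
private noncomputable def locaC (C : GChart D p) : L := C.h / C.g ^ C.M.toNat

private theorem locaC_mul (C : GChart D p) : locaC C * C.g ^ C.M.toNat = C.h :=
  div_mul_cancel₀ _ (pow_ne_zero _ C.g_ne)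

private theorem loca_hpow (C : GChart D p) (n : ℕ) (x : L) :
    C.h ^ n * (x / C.g ^ n) = C.h0 ^ n * x := by
  have hg : C.g ^ n ≠ 0 := pow_ne_zero _ C.g_ne
  unfold GChart.h
  rw [mul_pow]
  field_simp

private theorem loca_toNat (C : GChart D p) : ((C.M.toNat : ℕ) : ℤ) = C.M :=
  Int.toNat_of_nonneg C.M_pos.le

private theorem locaC_mem (C : GChart D p) (hs : Stab D I) {f : L} (hf : f ∈ loc C I) :
    locaC C * f ∈ loc C I := by
  obtain ⟨j, hj⟩ := (mem_loc C hs).1 hf
  refine (mem_loc C hs).2 ⟨C.M.toNat + j, ?_⟩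
  have h1 : C.h ^ (C.M.toNat + j) * (locaC C * f) =
      C.h0 ^ C.M.toNat * (C.h * (C.h ^ j * f)) := by
    have h2 := loca_hpow C C.M.toNat (C.h * (C.h ^ j * f))
    rw [← h2]
    unfold locaC
    rw [pow_add]
    ring
  rw [h1]
  have h3 := hs (loca_powB C.h0_mem C.M.toNat) (hs C.h_mem hj)
  have e : (((C.M.toNat + j : ℕ) : ℤ)) * C.M = C.M.toNat * C.m + (C.M + j * C.M) := by
    push_cast
    rw [loca_toNat]
    unfold GChart.M
    ring
  rw [e]
  exact h3

private theorem locaC_inj (C : GChart D p) (hs : Stab D I) {f : L} (hf : locaC C * f ∈ loc C I) :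
    f ∈ loc C I := by
  obtain ⟨j, hj⟩ := (mem_loc C hs).1 hf
  refine (mem_loc C hs).2 ⟨1 + j, ?_⟩
  have h1 := hs (loca_powB C.g_mem C.M.toNat) hj
  have h2 : C.g ^ C.M.toNat • (C.h ^ j * (locaC C * f)) = C.h ^ (1 + j) * f := by
    rw [smul_eq_mul, pow_add, pow_one]
    calc _ = (locaC C * C.g ^ C.M.toNat) * C.h ^ j * f := by ring
      _ = _ := by rw [locaC_mul]
  rw [h2] at h1
  have e : (((1 + j : ℕ) : ℤ)) * C.M = C.M.toNat * 1 + j * C.M := by
    push_cast
    rw [loca_toNat]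
    ring
  rw [e]
  exact h1

private theorem loca_div_mem (C : GChart D p) (hs : Stab D I) {n : ℤ} (hn : 0 ≤ n) {b : L}
    (hb : b ∈ I n) : b / C.g ^ n.toNat ∈ loc C I := by
  refine (mem_loc C hs).2 ⟨n.toNat, ?_⟩
  rw [loca_hpow]
  have h1 := hs (loca_powB C.h0_mem n.toNat) hb
  have e : ((n.toNat : ℕ) : ℤ) * C.M = n.toNat * C.m + n := by
    unfold GChart.M
    rw [Int.toNat_of_nonneg hn]
    ring
  rw [e]
  exact h1

private theorem loca_div_memB (C : GChart D p) {n : ℤ} {b : L}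
    (hb : b ∈ D.B n) : b / C.g ^ n.toNat ∈ loc C D.B := by
  by_cases hn : 0 ≤ n
  · exact loca_div_mem C loca_stabB hn hb
  · rw [D.neg n (by omega), Submodule.mem_bot] at hb
    rw [hb, zero_div]
    exact Submodule.zero_mem _

/-- multiplication by `h / g^M` on the chart ring -/
private noncomputable def locaMul (C : GChart D p) : ↥(loc C D.B) →ₗ[k] ↥(loc C D.B) :=
  (LinearMap.mulLeft k (locaC C)).restrict (fun _ hf => locaC_mem C loca_stabB hf)

/-- `T` -/
private noncomputable def locaT (C : GChart D p) (hs : Stab D I) : DQ C I →ₗ[k] DQ C I :=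
  Submodule.mapQ _ _ (locaMul C) (by
    intro x hx
    exact locaC_mem C hs hx)

private theorem locaT_mk (C : GChart D p) (hs : Stab D I) (f : L) (hf : f ∈ loc C D.B) :
    locaT (I := I) C hs (Submodule.Quotient.mk ⟨f, hf⟩) =
      Submodule.Quotient.mk ⟨locaC C * f, locaC_mem C loca_stabB hf⟩ := rfl

private theorem locaC_pow_mem (C : GChart D p) {f : L} (hf : f ∈ loc C D.B) (j : ℕ) :
    locaC C ^ j * f ∈ loc C D.B := by
  induction j with
  | zero => rwa [pow_zero, one_mul]
  | succ j ih =>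
    rw [pow_succ', mul_assoc]
    exact locaC_mem C loca_stabB ih

private theorem locaT_pow_mk (C : GChart D p) (hs : Stab D I) (f : L) (hf : f ∈ loc C D.B)
    (j : ℕ) :
    (locaT (I := I) C hs ^ j) (Submodule.Quotient.mk ⟨f, hf⟩) =
      Submodule.Quotient.mk ⟨locaC C ^ j * f, locaC_pow_mem C hf j⟩ := by
  induction j with
  | zero =>
    rw [pow_zero, Module.End.one_apply]
    congr 2
    rw [pow_zero, one_mul]
  | succ j ih =>
    rw [pow_succ', Module.End.mul_apply, ih, locaT_mk]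
    congr 2
    rw [pow_succ', mul_assoc]

/-- `B n → DQ` -/
private noncomputable def locaPhi (C : GChart D p) (I : ℤ → Submodule k L) (n : ℤ) :
    ↥(D.B n) →ₗ[k] DQ C I :=
  (Submodule.mkQ _).comp (((LinearMap.mulRight k (C.g ^ n.toNat)⁻¹).comp (D.B n).subtype).codRestrict
    (loc C D.B) (fun b => by
      have := loca_div_memB C b.2
      rw [div_eq_mul_inv] at this
      exact this))

private theorem locaPhi_apply (C : GChart D p) (n : ℤ) (b : ↥(D.B n)) :
    locaPhi C I n b = Submodule.Quotient.mk ⟨(b : L) / C.g ^ n.toNat, loca_div_memB C b.2⟩ := by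
  refine congrArg Submodule.Quotient.mk (Subtype.ext ?_)
  exact (div_eq_mul_inv _ _).symm

private theorem loca_mk_mem (C : GChart D p) {n : ℤ} {b f : L} (hb : b ∈ D.B n)
    (hf : f ∈ loc C D.B) (h : f = b / C.g ^ n.toNat) :
    (Submodule.Quotient.mk ⟨f, hf⟩ : DQ C I) ∈ LinearMap.range (locaPhi C I n) := by
  refine ⟨⟨b, hb⟩, ?_⟩
  rw [locaPhi_apply]
  congr 2
  exact h.symm

theorem loc_images (C : GChart D p) (hI : GIdeal D I) (hsat : Sat C I) :
    ∃ (n1 : ℤ) (V : ℤ → Submodule k (DQ C I)) (T : DQ C I →ₗ[k] DQ C I), Function.Injective T ∧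
      (∀ n, n1 ≤ n → V n ≤ V (n + 1)) ∧ (∀ n, n1 ≤ n → FiniteDimensional k (V n)) ∧
      (∀ n, n1 ≤ n → Module.finrank k (D.B n) = Module.finrank k (I n) + Module.finrank k (V n)) ∧
      (∀ n, n1 ≤ n → (V n).map T ≤ V (n + C.M)) ∧
      (∀ x, ∃ (j : ℕ) (n : ℤ), n1 ≤ n ∧ (T ^ j) x ∈ V n) := by
  have hs : Stab D I := by
    intro i n a w ha hw
    exact hI.smul_mem ha hw
  have hfB : ∀ n, FiniteDimensional k (D.B n) := D.fin
  obtain ⟨n0, hn0⟩ := hsat
  refine ⟨max n0 0, fun n => LinearMap.range (locaPhi C I n), locaT C hs, ?_, ?_, ?_, ?_, ?_, ?_⟩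
  · rw [← LinearMap.ker_eq_bot, eq_bot_iff]
    intro x hx
    obtain ⟨⟨f, hf⟩, rfl⟩ := Submodule.Quotient.mk_surjective _ x
    rw [LinearMap.mem_ker, locaT_mk, Submodule.Quotient.mk_eq_zero] at hx
    rw [Submodule.mem_bot, Submodule.Quotient.mk_eq_zero]
    exact locaC_inj C hs hx
  · intro n hn x hx
    obtain ⟨b, rfl⟩ := hx
    rw [locaPhi_apply]
    have hn1 : (n + 1).toNat = n.toNat + 1 := by omega
    refine loca_mk_mem C (D.mul_mem b.2 C.g_mem) _ ?_
    rw [hn1, pow_succ, mul_div_mul_right _ _ C.g_ne]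
  · intro n _
    infer_instance
  · intro n hn
    have h1 := LinearMap.finrank_range_add_finrank_ker (locaPhi C I n)
    have h2 : LinearMap.ker (locaPhi C I n) = (I n).comap (D.B n).subtype := by
      ext ⟨b, hb⟩
      rw [LinearMap.mem_ker, locaPhi_apply, Submodule.Quotient.mk_eq_zero]
      change b / C.g ^ n.toNat ∈ loc C I ↔ b ∈ I n
      constructor
      · intro h3
        obtain ⟨j, hj⟩ := (mem_loc C hs).1 h3
        apply hn0 n (by omega) b hb j
        have h4 := hs (loca_powB C.g_mem n.toNat) hj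
        have h5 : C.g ^ n.toNat • (C.h ^ j * (b / C.g ^ n.toNat)) = C.h ^ j * b := by
          have hg : C.g ^ n.toNat ≠ 0 := pow_ne_zero _ C.g_ne
          rw [smul_eq_mul]
          field_simp
        rw [h5] at h4
        have e : n + j * C.M = (n.toNat : ℤ) * 1 + j * C.M := by
          rw [Int.toNat_of_nonneg (by omega)]
          ring
        rw [e]
        exact h4
      · intro h3
        exact loca_div_mem C hs (by omega) h3
    rw [h2] at h1
    have h3 : Module.finrank k ((I n).comap (D.B n).subtype) = Module.finrank k (I n) :=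
      LinearEquiv.finrank_eq (Submodule.comapSubtypeEquivOfLe (hI.le n))
    rw [h3] at h1
    change Module.finrank k (D.B n) = Module.finrank k (I n) +
      Module.finrank k (LinearMap.range (locaPhi C I n))
    omega
  · intro n hn x hx
    obtain ⟨y, ⟨b, rfl⟩, rfl⟩ := hx
    rw [locaPhi_apply, locaT_mk]
    have hM := C.M_pos
    have hn1 : (C.M + n).toNat = C.M.toNat + n.toNat := by omega
    rw [add_comm n C.M]
    refine loca_mk_mem C (D.mul_mem C.h_mem b.2) _ ?_
    rw [hn1, pow_add]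
    unfold locaC
    rw [div_mul_div_comm]
  · intro x
    obtain ⟨⟨f, hf⟩, rfl⟩ := Submodule.Quotient.mk_surjective _ x
    obtain ⟨j, hj⟩ := (mem_loc C loca_stabB).1 hf
    set i : ℕ := (max n0 0).toNat with hi
    have h1 := loca_step C loca_stabB hj i
    refine ⟨i + j, ((i + j : ℕ) : ℤ) * C.M, ?_, ?_⟩
    · have hM := C.M_pos
      have h2 : ((i + j : ℕ) : ℤ) ≤ ((i + j : ℕ) : ℤ) * C.M :=
        le_mul_of_one_le_right (by positivity) (by omega)
      have h3 : max n0 0 = (i : ℤ) := by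
        rw [hi, Int.toNat_of_nonneg (le_max_right _ _)]
      rw [h3]
      refine le_trans ?_ h2
      push_cast
      omega
    · rw [locaT_pow_mk]
      refine loca_mk_mem C h1 _ ?_
      have h4 : (((i + j : ℕ) : ℤ) * C.M).toNat = (i + j) * C.M.toNat := by
        rw [← loca_toNat C]
        rfl
      rw [h4]
      unfold locaC
      rw [div_pow, ← pow_mul, mul_comm C.M.toNat, div_mul_eq_mul_div]

/-! ### FR_LOCB -/

/-- linear algebra -/
theorem la_stab {Q : Type} [AddCommGroup Q] [Module k Q] (n1 M : ℤ) (hM : 0 < M)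
    (V : ℤ → Submodule k Q) (T : Q →ₗ[k] Q) (hT : Function.Injective T)
    (hmono : ∀ n, n1 ≤ n → V n ≤ V (n + 1)) (hf : ∀ n, n1 ≤ n → FiniteDimensional k (V n))
    (hV : ∀ n, n1 ≤ n → (V n).map T ≤ V (n + M))
    (hx : ∀ x, ∃ (j : ℕ) (n : ℤ), n1 ≤ n ∧ (T ^ j) x ∈ V n)
    (hb : ∃ C : ℕ, ∀ n, n1 ≤ n → Module.finrank k (V n) ≤ C) :
    ∃ n2 : ℤ, ∀ n, n2 ≤ n → V n = ⊤ := by
  have mono : ∀ n m, n1 ≤ n → n ≤ m → V n ≤ V m := by
    intro n m hn hm
    induction m, hm using Int.leInduction with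
    | base => exact le_rfl
    | succ m hm ih => exact ih.trans (hmono m (hn.trans hm))
  obtain ⟨C, hC⟩ := hb
  obtain ⟨N, hN⟩ : ∃ N : ℕ, ∀ i : ℕ,
      Module.finrank k (V (n1 + i)) ≤ Module.finrank k (V (n1 + N)) := by
    have hne : (Set.range fun i : ℕ => Module.finrank k (V (n1 + i))).Nonempty := ⟨_, 0, rfl⟩
    have hbd : BddAbove (Set.range fun i : ℕ => Module.finrank k (V (n1 + i))) := by
      refine ⟨C, ?_⟩
      rintro _ ⟨i, rfl⟩
      exact hC _ (by omega)
    obtain ⟨N, hN⟩ := Nat.sSup_mem hne hbd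
    refine ⟨N, fun i => ?_⟩
    have h1 := le_csSup hbd ⟨i, rfl⟩
    rw [← hN] at h1
    exact h1
  have hst : ∀ n, n1 + N ≤ n → V n = V (n1 + N) := by
    intro n hn
    have h1 := mono (n1 + N) n (by omega) hn
    have := hf n (by omega)
    refine (Submodule.eq_of_le_of_finrank_le h1 ?_).symm
    have h2 := hN (n - n1).toNat
    rw [show n1 + ((n - n1).toNat : ℤ) = n by omega] at h2
    exact h2
  have hfN := hf (n1 + N) (by omega)
  have hTV : (V (n1 + N)).map T = V (n1 + N) := by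
    have h1 : (V (n1 + N)).map T ≤ V (n1 + N) := by
      have h2 := hV (n1 + N) (by omega)
      rwa [hst (n1 + N + M) (by omega)] at h2
    refine Submodule.eq_of_le_of_finrank_eq h1 ?_
    exact (Submodule.equivMapOfInjective T hT _).finrank_eq.symm
  have hback : ∀ x, T x ∈ V (n1 + N) → x ∈ V (n1 + N) := by
    intro x hx
    rw [← hTV] at hx
    obtain ⟨y, hy, hyx⟩ := hx
    rwa [hT hyx] at hy
  have hback' : ∀ (j : ℕ) x, (T ^ j) x ∈ V (n1 + N) → x ∈ V (n1 + N) := by
    intro j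
    induction j with
    | zero => intro x hx; simpa using hx
    | succ j ih =>
      intro x hx
      rw [pow_succ] at hx
      exact hback x (ih (T x) hx)
  have htop : V (n1 + N) = ⊤ := by
    rw [eq_top_iff]
    intro x _
    obtain ⟨j, n, hn, hx⟩ := hx x
    apply hback' j x
    rcases le_total n (n1 + N) with h | h
    · exact mono n _ hn h hx
    · rwa [hst n h] at hx
  exact ⟨n1 + N, fun n hn => (hst n hn).trans htop⟩

theorem loc_of_const (C : GChart D p) (hI : GIdeal D I) (hsat : Sat C I) (δ : ℕ)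
    (hδ : ∃ n0 : ℤ, ∀ n, n0 ≤ n → Module.finrank k (D.B n) = Module.finrank k (I n) + δ) :
    FiniteDimensional k (DQ C I) ∧ Module.finrank k (DQ C I) = δ := by
  obtain ⟨n1, V, T, hT, hmono, hf, hr, hV, hx⟩ := loc_images C hI hsat
  obtain ⟨n0, h0⟩ := hδ
  have hd : ∀ n, max n0 n1 ≤ n → Module.finrank k (V n) = δ := by
    intro n hn
    have h1 := h0 n ((le_max_left _ _).trans hn)
    have h2 := hr n ((le_max_right _ _).trans hn)
    omega
  have mono : ∀ n m, n1 ≤ n → n ≤ m → V n ≤ V m := by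
    intro n m hn hm
    induction m, hm using Int.leInduction with
    | base => exact le_rfl
    | succ m hm ih => exact ih.trans (hmono m (hn.trans hm))
  obtain ⟨n2, h2⟩ := la_stab (max n0 n1) C.M (by have := C.m_nonneg; unfold GChart.M; omega) V T hT
    (fun n hn => hmono n ((le_max_right _ _).trans hn))
    (fun n hn => hf n ((le_max_right _ _).trans hn))
    (fun n hn => hV n ((le_max_right _ _).trans hn))
    (fun x => by
      obtain ⟨j, n, hn, hx⟩ := hx x
      exact ⟨j, max n (max n0 n1), le_max_right _ _, mono n _ hn (le_max_left _ _) hx⟩)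
    ⟨δ, fun n hn => (hd n hn).le⟩
  have h3 := h2 (max n2 (max n0 n1)) (le_max_left _ _)
  have h4 := hd (max n2 (max n0 n1)) (le_max_right _ _)
  have h5 := hf (max n2 (max n0 n1)) ((le_max_right n0 n1).trans (le_max_right _ _))
  rw [h3] at h4 h5
  rw [finrank_top] at h4
  exact ⟨(Submodule.topEquiv (R := k) (M := DQ C I)).finiteDimensional, h4⟩

theorem const_of_loc (C : GChart D p) (hI : GIdeal D I) (hsat : Sat C I)
    (hfin : FiniteDimensional k (DQ C I)) :
    ∃ n0 : ℤ, ∀ n, n0 ≤ n →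
      Module.finrank k (D.B n) = Module.finrank k (I n) + Module.finrank k (DQ C I) := by
  obtain ⟨n1, V, T, hT, hmono, hf, hr, hV, hx⟩ := loc_images C hI hsat
  obtain ⟨n2, h2⟩ := la_stab n1 C.M (by have := C.m_nonneg; unfold GChart.M; omega) V T hT hmono hf hV hx
    ⟨Module.finrank k (DQ C I), fun n _ => Submodule.finrank_le _⟩
  refine ⟨max n1 n2, fun n hn => ?_⟩
  rw [hr n ((le_max_left _ _).trans hn), h2 n ((le_max_right _ _).trans hn), finrank_top]

variable [Fact p.Prime] [CharP L p]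

/-! ### FR_PB -/

omit [Fact p.Prime] [CharP L p] in
private theorem pb_stab_B : Stab D D.B := fun ha hw => D.mul_mem ha hw

omit [Fact p.Prime] [CharP L p] in
private theorem pb_stab (hI : GIdeal D I) : Stab D I := fun ha hw => hI.smul_mem ha hw

omit [Fact p.Prime] [CharP L p] in
private theorem pb_loc_iff (C : GChart D p) (hs : Stab D I) {f : L} :
    f ∈ loc C I ↔ f ∈ locW C I := mem_loc C hs

omit [Fact p.Prime] [CharP L p] in
private theorem pb_loc_B (C : GChart D p) {f : L} : f ∈ loc C D.B ↔ f ∈ chart D C.h C.M := by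
  rw [mem_loc C pb_stab_B, mem_chart_iff C.h_ne]

omit [Fact p.Prime] [CharP L p] in
/-- division by a power of `g` -/
private theorem pb_zdiv (C : GChart D p) (hs : Stab D I) {i : ℤ} {w : L} (hw : w ∈ I i) :
    C.g ^ (-i) * w ∈ locW C I := by
  obtain ⟨t, s, hts⟩ : ∃ t s : ℕ, (s : ℤ) = t - i := ⟨i.toNat, (i.toNat - i).toNat, by
    rw [Int.toNat_of_nonneg]
    have := Int.self_le_toNat i
    omega⟩
  refine ⟨t, ?_⟩
  have h1 := hs (D.mul_mem (pow_mem_B C.h0_mem t) (pow_mem_B C.g_mem s)) hw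
  have e1 : (t : ℤ) * C.m + s * 1 + i = t * C.M := by
    rw [hts]
    unfold GChart.M
    ring
  rw [e1] at h1
  have e2 : C.h ^ t • (C.g ^ (-i) * w) = (C.h0 ^ t * C.g ^ s) • w := by
    have h2 : C.g ^ s = C.g ^ t * C.g ^ (-i) := by
      rw [← zpow_natCast, ← zpow_natCast, ← zpow_add₀ C.g_ne, hts]
      rfl
    rw [h2, smul_eq_mul, smul_eq_mul, GChart.h, mul_pow]
    ring
  rw [e2]
  exact h1

omit [Fact p.Prime] [CharP L p] in
private theorem pb_chart_mul (C : GChart D p) {a b : L} (ha : a ∈ chart D C.h C.M)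
    (hb : b ∈ chart D C.h C.M) : a * b ∈ chart D C.h C.M := by
  have hb' := (pb_loc_iff (I := D.B) C pb_stab_B).1 ((pb_loc_B C).2 hb)
  exact (pb_loc_B C).1 ((pb_loc_iff (I := D.B) C pb_stab_B).2 (locW_smul C pb_stab_B ha hb'))

omit [Fact p.Prime] [CharP L p] in
private theorem pb_chart_pow (C : GChart D p) {a : L} (ha : a ∈ chart D C.h C.M) (j : ℕ) :
    a ^ j ∈ chart D C.h C.M := by
  induction j with
  | zero =>
    refine ⟨0, 1, ?_, by simp⟩
    rw [Nat.cast_zero, zero_mul, D.zero]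
    exact Submodule.mem_span_singleton_self _
  | succ j ih =>
    rw [pow_succ]
    exact pb_chart_mul C ih ha

private theorem pb_pow_mem {n : ℤ} {a : L} (ha : a ∈ I n) : a ^ p ∈ FrW D (FL p L) I (p * n) := by
  have e : (p : ℤ) * n - p * n = 0 := sub_self _
  refine Submodule.subset_span ⟨n, a, 1, ha, ?_, ?_⟩
  · rw [e, D.zero]
    exact Submodule.mem_span_singleton_self _
  · rw [one_smul]
    rfl

private theorem pb_pow (C : GChart D p) {a : L} (ha : a ∈ locW C I) :
    a ^ p ∈ locW C (FrW D (FL p L) I) := by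
  obtain ⟨t, ht⟩ := ha
  refine ⟨p * t, ?_⟩
  have h1 := pb_pow_mem (p := p) (D := D) ht
  rw [smul_eq_mul, mul_pow, ← pow_mul, mul_comm t p] at h1
  have e : (p : ℤ) * (t * C.M) = ((p * t : ℕ) : ℤ) * C.M := by push_cast; ring
  rw [e] at h1
  rw [smul_eq_mul]
  exact h1

private theorem pb_back (C : GChart D p) (hs : Stab D I) (G : Fin p → Fin p → L)
    (hG : ∀ i j, G i j ∈ loc C I) :
    ∑ i, ∑ j, G i j ^ p * C.u ^ (i : ℕ) * C.v ^ (j : ℕ) ∈ loc C (FrW D (FL p L) I) := by
  have hsF : Stab D (FrW D (FL p L) I) := stab_FrW _ _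
  have hu : C.u ∈ chart D C.h C.M := C.pb.1
  have hv : C.v ∈ chart D C.h C.M := C.pb.2.1
  refine Submodule.sum_mem _ fun i _ => Submodule.sum_mem _ fun j _ => ?_
  refine (pb_loc_iff (I := FrW D (FL p L) I) C hsF).2 ?_
  have h1 : G i j ^ p ∈ locW C (FrW D (FL p L) I) := pb_pow C ((pb_loc_iff C hs).1 (hG i j))
  have h2 := locW_smul (E := FrW D (FL p L) I) C @hsF (pb_chart_mul C (pb_chart_pow C hu (i : ℕ)) (pb_chart_pow C hv (j : ℕ))) h1
  have e : (C.u ^ (i : ℕ) * C.v ^ (j : ℕ)) • G i j ^ p = G i j ^ p * C.u ^ (i : ℕ) * C.v ^ (j : ℕ) := by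
    rw [smul_eq_mul]
    ring
  rwa [e] at h2

/-- elements of `F^*I` as finite sums -/
private theorem pb_span {n : ℤ} {f : L} (hf : f ∈ FrW D (FL p L) I n) :
    ∃ (s : Finset ℕ) (i : ℕ → ℤ) (e b : ℕ → L), (∀ l ∈ s, e l ∈ I (i l)) ∧
      (∀ l ∈ s, b l ∈ D.B (n - p * i l)) ∧ f = ∑ l ∈ s, b l * e l ^ p := by
  classical
  unfold FrW at hf
  obtain ⟨c, hc⟩ := (Finsupp.mem_span_iff_linearCombination k _ f).1 hf
  choose i e b he hb hw using fun x : {w | ∃ (i : ℤ) (e : L) (b : L), e ∈ I i ∧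
    b ∈ D.B (n - p * i) ∧ w = b • (FL p L).φ e} => x.2
  obtain ⟨N, ⟨g⟩⟩ : ∃ N, Nonempty (c.support ≃ Fin N) := ⟨_, ⟨Fintype.equivFin _⟩⟩
  refine ⟨Finset.range N, fun l => if h : l < N then i (g.symm ⟨l, h⟩).1 else 0,
    fun l => if h : l < N then e (g.symm ⟨l, h⟩).1 else 0,
    fun l => if h : l < N then c (g.symm ⟨l, h⟩).1 • b (g.symm ⟨l, h⟩).1 else 0, ?_, ?_, ?_⟩
  · intro l hl
    rw [Finset.mem_range] at hl
    simp only [hl, dif_pos]
    exact he _
  · intro l hl
    rw [Finset.mem_range] at hl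
    simp only [hl, dif_pos]
    exact Submodule.smul_mem _ _ (hb _)
  · rw [← hc, Finsupp.linearCombination_apply, Finsupp.sum, Finset.sum_range, ← Finset.sum_coe_sort,
      ← g.symm.sum_comp]
    refine Finset.sum_congr rfl fun l _ => ?_
    simp only [l.2, dif_pos]
    rw [hw (g.symm l).1]
    show c (g.symm l).1 • (b (g.symm l).1 * e (g.symm l).1 ^ p) = _
    rw [Algebra.smul_mul_assoc]

theorem mem_loc_FrW (C : GChart D p) (hI : GIdeal D I) {f : L} (hf : f ∈ loc C D.B) :
    f ∈ loc C (FrW D (FL p L) I) ↔ ∃ G : Fin p → Fin p → L, (∀ i j, G i j ∈ loc C I) ∧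
      f = ∑ i, ∑ j, G i j ^ p * C.u ^ (i : ℕ) * C.v ^ (j : ℕ) := by
  have hs : Stab D I := pb_stab hI
  constructor
  · intro h
    have hsF : Stab D (FrW D (FL p L) I) := stab_FrW _ _
    obtain ⟨t, ht⟩ := (mem_loc (I := FrW D (FL p L) I) C hsF).1 h
    obtain ⟨s, i, e, b, he, hb, hsum⟩ := pb_span ht
    have hg : C.g ^ (t * C.M) / C.h ^ t ∈ chart D C.h C.M := by
      refine ⟨t, _, ?_, rfl⟩
      have hM := C.M_pos
      have h0 : 0 ≤ (t : ℤ) * C.M := mul_nonneg (Int.natCast_nonneg t) hM.le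
      obtain ⟨N, hN⟩ := Int.eq_ofNat_of_zero_le h0
      have h1 := pow_mem_B C.g_mem N
      rw [mul_one] at h1
      rw [hN, zpow_natCast]
      exact h1
    have hgl : ∀ l, C.g ^ (t * C.M) / C.h ^ t * (C.g ^ (-(t * C.M - p * i l)) * b l) *
        (C.g ^ (-(i l)) * e l) ^ p = b l * e l ^ p / C.h ^ t := by
      intro l
      have e1 : C.g ^ (t * C.M) * C.g ^ (-(t * C.M - p * i l)) * (C.g ^ (-(i l))) ^ p = 1 := by
        rw [← zpow_natCast (C.g ^ (-(i l))) p, ← zpow_mul, ← zpow_add₀ C.g_ne,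
          ← zpow_add₀ C.g_ne]
        have e2 : (t : ℤ) * C.M + -(t * C.M - p * i l) + -i l * p = 0 := by ring
        rw [e2, zpow_zero]
      rw [mul_pow]
      calc _ = (C.g ^ (t * C.M) * C.g ^ (-(t * C.M - p * i l)) * (C.g ^ (-(i l))) ^ p) *
            (b l * e l ^ p / C.h ^ t) := by ring
        _ = _ := by rw [e1, one_mul]
    obtain ⟨G, hG, hfG⟩ := core C (FL p L) hs ((pb_loc_B C).1 hf) 1 s
      (fun l => C.g ^ (t * C.M) / C.h ^ t * (C.g ^ (-(t * C.M - p * i l)) * b l))
      (fun l => C.g ^ (-(i l)) * e l)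
      (fun l hl => pb_chart_mul C hg ((pb_loc_B C).1
        ((pb_loc_iff (I := D.B) C pb_stab_B).2 (pb_zdiv (I := D.B) C pb_stab_B (hb l hl)))))
      (fun l hl => pb_zdiv C hs (he l hl)) (by
        show f • (1 : L) ^ p = ∑ l ∈ s, (C.g ^ (t * C.M) / C.h ^ t *
          (C.g ^ (-(t * C.M - p * i l)) * b l)) * (C.g ^ (-(i l)) * e l) ^ p
        rw [Finset.sum_congr rfl (fun l _ => hgl l), ← Finset.sum_div, ← hsum, one_pow,
          smul_eq_mul, mul_one, mul_div_cancel_left₀ _ (pow_ne_zero t C.h_ne)])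
    refine ⟨G, fun i j => ?_, hfG⟩
    have := (hG i j).2
    rw [smul_eq_mul, mul_one] at this
    exact (pb_loc_iff (I := I) C hs).2 this
  · rintro ⟨G, hG, rfl⟩
    exact pb_back C hs G hG

theorem gideal_FrW (hI : GIdeal D I) : GIdeal D (FrW D (FL p L) I) := by
  refine ⟨fun n => ?_, fun ha hw => stab_FrW _ _ ha hw⟩
  have h := FrW_mono (D := D) (FL p L) hI.le n
  rwa [FrW_B] at h

omit [Fact p.Prime] [CharP L p] in
/-- semilinear bijections preserve the dimension -/
private theorem semi_rank {A Q Q' : Type} [AddCommGroup A] [Module k A] [AddCommGroup Q]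
    [Module k Q] [AddCommGroup Q'] [Module k Q'] (q : A →+ Q) (q' : A →+ Q')
    (hq : Function.Surjective q) (hq' : Function.Surjective q') (hk : ∀ a, q a = 0 ↔ q' a = 0)
    (i : k → k) (hi : Function.Bijective i) (h1 : ∀ (r : k) a, q (r • a) = r • q a)
    (h2 : ∀ (r : k) a, q' (r • a) = i r • q' a) : Module.rank k Q = Module.rank k Q' := by
  have key : ∀ a b, q a = q b ↔ q' a = q' b := by
    intro a b
    rw [← sub_eq_zero, ← map_sub, hk, map_sub, sub_eq_zero]
  let s : Q → A := Function.surjInv hq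
  have hs : ∀ m, q (s m) = m := Function.surjInv_eq hq
  let j : Q →+ Q' :=
    { toFun := fun m => q' (s m)
      map_zero' := by rw [← hk]; exact hs 0
      map_add' := by
        intro m m'
        rw [← map_add, ← key, map_add, hs, hs, hs] }
  have hj : ∀ a, j (q a) = q' a := fun a => (key _ _).1 (hs (q a))
  have hb : Function.Bijective j := by
    constructor
    · rw [injective_iff_map_eq_zero]
      intro m hm
      obtain ⟨a, rfl⟩ := hq m
      rw [hj] at hm
      exact (hk a).2 hm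
    · intro m
      obtain ⟨a, rfl⟩ := hq' m
      exact ⟨q a, hj a⟩
  refine rank_eq_of_equiv_equiv i (AddEquiv.ofBijective j hb) hi ?_
  intro r m
  obtain ⟨a, rfl⟩ := hq m
  show j (r • q a) = i r • j (q a)
  rw [← h1, hj, hj, h2]

omit [Fact p.Prime] [CharP L p] in
private theorem pb_finrank {Q : Type} [AddCommGroup Q] [Module k Q] [FiniteDimensional k Q] :
    Module.finrank k (Fin p → Fin p → Q) = p ^ 2 * Module.finrank k Q := by
  rw [Module.finrank_pi_fintype k]
  simp only [Module.finrank_pi_fintype k, Finset.sum_const, Finset.card_univ, Fintype.card_fin,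
    smul_eq_mul]
  ring

theorem dq_FrW [CharP k p] [IsAlgClosed k] (C : GChart D p) (hI : GIdeal D I)
    (hfin : FiniteDimensional k (DQ C I)) :
    FiniteDimensional k (DQ C (FrW D (FL p L) I)) ∧
      Module.finrank k (DQ C (FrW D (FL p L) I)) = p ^ 2 * Module.finrank k (DQ C I) := by
  classical
  have hs : Stab D I := pb_stab hI
  have hp : 0 < p := (Fact.out : p.Prime).pos
  -- the map
  have hmem : ∀ f : Fin p → Fin p → ↥(loc C D.B),
      ∑ i, ∑ j, (f i j : L) ^ p * C.u ^ (i : ℕ) * C.v ^ (j : ℕ) ∈ loc C D.B := by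
    intro f
    have h := pb_back C (I := D.B) pb_stab_B (fun i j => (f i j : L)) (fun i j => (f i j).2)
    rwa [FrW_B] at h
  let Φ : (Fin p → Fin p → ↥(loc C D.B)) →+ ↥(loc C D.B) :=
    { toFun := fun f => ⟨_, hmem f⟩
      map_zero' := by
        apply Subtype.ext
        simp [zero_pow hp.ne']
      map_add' := by
        intro f g
        apply Subtype.ext
        simp only [Pi.add_apply, Submodule.coe_add, add_pow_char, add_mul,
          Finset.sum_add_distrib] }
  have hΦ : ∀ f, ((Φ f : ↥(loc C D.B)) : L) =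
    ∑ i, ∑ j, (f i j : L) ^ p * C.u ^ (i : ℕ) * C.v ^ (j : ℕ) := fun f => rfl
  set N : Submodule k ↥(loc C D.B) := Submodule.comap (loc C D.B).subtype (loc C I) with hN
  set N' : Submodule k ↥(loc C D.B) :=
    Submodule.comap (loc C D.B).subtype (loc C (FrW D (FL p L) I)) with hN'
  let q : (Fin p → Fin p → ↥(loc C D.B)) →+ (Fin p → Fin p → DQ C I) :=
    { toFun := fun f i j => Submodule.Quotient.mk (f i j)
      map_zero' := rfl
      map_add' := fun f g => rfl }
  let q' : (Fin p → Fin p → ↥(loc C D.B)) →+ DQ C (FrW D (FL p L) I) :=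
    (N'.mkQ.toAddMonoidHom).comp Φ
  have hq : Function.Surjective q := by
    intro m
    choose g hg using fun i j => Submodule.Quotient.mk_surjective _ (m i j)
    exact ⟨g, funext fun i => funext fun j => hg i j⟩
  have hq' : Function.Surjective q' := by
    intro m
    obtain ⟨f, rfl⟩ := Submodule.Quotient.mk_surjective _ m
    obtain ⟨g, hg, hfg⟩ := C.pb.2.2.1 f ((pb_loc_B C).1 f.2)
    refine ⟨fun i j => ⟨g i j, (pb_loc_B C).2 (hg i j)⟩, ?_⟩
    show Submodule.Quotient.mk (Φ _) = Submodule.Quotient.mk f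
    congr 1
    apply Subtype.ext
    rw [hΦ]
    exact hfg.symm
  have hk : ∀ a, q a = 0 ↔ q' a = 0 := by
    intro a
    have e1 : q a = 0 ↔ ∀ i j, (a i j : L) ∈ loc C I := by
      constructor
      · intro h i j
        have := congrFun (congrFun h i) j
        exact (Submodule.Quotient.mk_eq_zero N).1 this
      · intro h
        funext i j
        exact (Submodule.Quotient.mk_eq_zero N).2 (h i j)
    have e2 : q' a = 0 ↔ ((Φ a : ↥(loc C D.B)) : L) ∈ loc C (FrW D (FL p L) I) := by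
      exact Submodule.Quotient.mk_eq_zero N'
    rw [e1, e2, mem_loc_FrW C hI (Φ a).2]
    constructor
    · intro h
      exact ⟨fun i j => a i j, h, hΦ a⟩
    · rintro ⟨G, hG, hGe⟩ i j
      have h0 := C.pb.2.2.2 (fun i j => (a i j : L) - G i j) (by
        have e3 : ∀ i j : Fin p, ((a i j : L) - G i j) ^ p * C.u ^ (i : ℕ) * C.v ^ (j : ℕ) =
            (a i j : L) ^ p * C.u ^ (i : ℕ) * C.v ^ (j : ℕ) -
              G i j ^ p * C.u ^ (i : ℕ) * C.v ^ (j : ℕ) := by
          intro i j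
          rw [sub_pow_char]
          ring
        simp only [e3, Finset.sum_sub_distrib]
        rw [← hGe, ← hΦ, sub_self]) i j
      rw [sub_eq_zero.1 h0]
      exact hG i j
  have hi : Function.Bijective (fun r : k => r ^ p) := by
    constructor
    · intro a b hab
      have : (a - b) ^ p = 0 := by
        rw [sub_pow_char, sub_eq_zero]
        exact hab
      exact sub_eq_zero.1 ((pow_eq_zero_iff hp.ne').1 this)
    · intro b
      obtain ⟨z, hz⟩ := IsAlgClosed.exists_pow_nat_eq b hp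
      exact ⟨z, hz⟩
  have hr := semi_rank (k := k) q q' hq hq' hk (fun r : k => r ^ p) hi
    (fun r a => rfl) (by
      intro r a
      show Submodule.Quotient.mk (Φ (r • a)) = r ^ p • Submodule.Quotient.mk (Φ a)
      rw [← Submodule.Quotient.mk_smul]
      congr 1
      apply Subtype.ext
      rw [hΦ, Submodule.coe_smul, hΦ, Finset.smul_sum]
      refine Finset.sum_congr rfl fun i _ => ?_
      rw [Finset.smul_sum]
      refine Finset.sum_congr rfl fun j _ => ?_
      rw [Pi.smul_apply, Pi.smul_apply, Submodule.coe_smul, smul_pow, Algebra.smul_mul_assoc,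
        Algebra.smul_mul_assoc])
  have := hfin
  have hfin2 : FiniteDimensional k (Fin p → Fin p → DQ C I) := inferInstance
  have hfin3 : FiniteDimensional k (DQ C (FrW D (FL p L) I)) := by
    rw [FiniteDimensional, ← Module.rank_lt_aleph0_iff, ← hr, Module.rank_lt_aleph0_iff]
    exact hfin2
  refine ⟨hfin3, ?_⟩
  have h1 : Module.finrank k (DQ C (FrW D (FL p L) I)) =
      Module.finrank k (Fin p → Fin p → DQ C I) := by
    rw [Module.finrank, Module.finrank, hr]
  rw [h1, pb_finrank]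

/-! ### FR_POINT -/

theorem exists_chart_notMem (hP : Par D η ζ) (hc : PCharts D p) (hI : GPrime D I)
    (h : ∀ n0 : ℤ, ∃ n, n0 ≤ n ∧ I n ≠ D.B n) : ∃ C : GChart D p, C.h ∉ I C.M := by
  obtain ⟨ι, _, C, J, hJ⟩ := exists_gcharts hP hc
  by_contra hcon
  push Not at hcon
  obtain ⟨n, hn, hne⟩ := h J
  apply hne
  refine le_antisymm (hI.ideal.le n) ((hJ n hn).trans (iSup_le fun i => ?_))
  rintro _ ⟨b, hb, rfl⟩
  have h1 := hI.ideal.smul_mem hb (hcon (C i))
  rw [sub_add_cancel] at h1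
  have e : (Algebra.lsmul k k L (C i).h) b = b * (C i).h := mul_comm _ _
  rw [e]
  exact h1

omit [Fact p.Prime] [CharP L p] in
theorem sat_prime (C : GChart D p) (hI : GPrime D I) (hC : C.h ∉ I C.M) : Sat C I := by
  refine ⟨0, fun n _ b hb j => ?_⟩
  induction j with
  | zero =>
    intro h
    simpa using h
  | succ j ih =>
    intro h
    apply ih
    have h1 : C.h ^ j * b ∈ D.B (j * C.M + n) := D.mul_mem (pow_mem_B C.h_mem j) hb
    have e1 : n + ((j + 1 : ℕ) : ℤ) * C.M = C.M + (j * C.M + n) := by push_cast; ring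
    have e2 : C.h ^ (j + 1) * b = C.h * (C.h ^ j * b) := by ring
    rw [e1, e2] at h
    have h2 := (hI.mem_or C.h_mem h1 h).resolve_left hC
    rwa [add_comm] at h2

omit [Fact p.Prime] [CharP L p] in
private theorem sat_iter {J : ℤ → Submodule k L} (C : GChart D p) (hp1 : 1 ≤ p) (hs : Stab D J)
    (n0 : ℤ) (hstep : ∀ n, n0 ≤ n → ∀ b ∈ D.B n, C.h ^ p * b ∈ J (n + p * C.M) → b ∈ J n) :
    Sat C J := by
  have hM := C.M_pos
  refine ⟨n0, fun n hn b hb j h => ?_⟩
  have h1 : C.h ^ (p * j) * b ∈ J (n + ((p * j : ℕ) : ℤ) * C.M) := by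
    have := loc_up (W := L) C.h_mem hs (Nat.le_mul_of_pos_left j hp1) h
    exact this
  clear h
  revert h1
  induction j with
  | zero =>
    intro h1
    simpa using h1
  | succ j ih =>
    intro h1
    apply ih
    have k1 : n0 ≤ n + ((p * j : ℕ) : ℤ) * C.M := by
      have : 0 ≤ ((p * j : ℕ) : ℤ) * C.M := by positivity
      omega
    have k2 : C.h ^ (p * j) * b ∈ D.B (n + ((p * j : ℕ) : ℤ) * C.M) := by
      have h2 := D.mul_mem (pow_mem_B C.h_mem (p * j)) hb
      rw [add_comm] at h2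
      exact h2
    refine hstep _ k1 _ k2 ?_
    have e1 : n + ((p * (j + 1) : ℕ) : ℤ) * C.M = n + ((p * j : ℕ) : ℤ) * C.M + p * C.M := by
      push_cast; ring
    have e2 : C.h ^ (p * (j + 1)) * b = C.h ^ p * (C.h ^ (p * j) * b) := by
      rw [← mul_assoc, ← pow_add]
      congr 2
      ring
    rw [e1, e2] at h1
    exact h1

omit [Fact p.Prime] [CharP L p] in
private theorem colon_prime (C : GChart D p) (hI : GPrime D I) (hC : C.h ∉ I C.M) :
    colon D I C.M C.h = I := by
  funext n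
  apply le_antisymm
  · intro b hb
    rw [mem_colon] at hb
    exact (hI.mem_or hb.1 C.h_mem hb.2).resolve_right hC
  · intro b hb
    rw [mem_colon]
    refine ⟨hI.ideal.le n hb, ?_⟩
    have h1 := hI.ideal.smul_mem C.h_mem hb
    rw [smul_eq_mul, mul_comm, add_comm]
    exact h1

theorem sat_FrW (hP : Par D η ζ) (hc : PCharts D p) (C : GChart D p) (hI : GPrime D I)
    (hC : C.h ∉ I C.M) : Sat C (FrW D (FL p L) I) := by
  obtain ⟨n0, hn0⟩ := colon_FrW hP hc (FL p L) (E := I)
    (fun ha hw => hI.ideal.smul_mem ha hw) C.M C.h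
  rw [colon_prime C hI hC] at hn0
  refine sat_iter C (Fact.out : p.Prime).one_le (stab_FrW (FL p L) I) n0 ?_
  intro n hn b hb h
  rw [← hn0 n hn, mem_colon]
  refine ⟨hb, ?_⟩
  have e : b • (FL p L).φ C.h = C.h ^ p * b := by
    show b * C.h ^ p = C.h ^ p * b
    exact mul_comm _ _
  rw [e]
  exact h

/-- finite (eventually constant) colength -/
def EvC (D : GD k L) (I : ℤ → Submodule k L) : Prop :=
  ∃ (δ : ℕ) (n0 : ℤ), ∀ n, n0 ≤ n → Module.finrank k (D.B n) = Module.finrank k (I n) + δ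

theorem Lam_point [CharP k p] [IsAlgClosed k] (hP : Par D η ζ) (hc : PCharts D p)
    (hI : GPrime D I) (h : EvC D I) (b t : ℚ) : Lam D p b I t = 0 := by
  obtain ⟨δ, n0, hδ⟩ := h
  by_cases hd : δ = 0
  · subst hd
    refine Lam_irrel hP hI.ideal ⟨n0, fun n hn => ?_⟩ b t
    have := D.fin n
    have h1 := hδ n hn
    rw [add_zero] at h1
    exact Submodule.eq_of_le_of_finrank_eq (hI.ideal.le n) h1.symm
  · have hne : ∀ m0 : ℤ, ∃ n, m0 ≤ n ∧ I n ≠ D.B n := by
      intro m0
      refine ⟨max m0 n0, le_max_left _ _, fun e => ?_⟩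
      have h1 := hδ (max m0 n0) (le_max_right _ _)
      rw [e] at h1
      omega
    obtain ⟨C, hC⟩ := exists_chart_notMem hP hc hI hne
    have hsat := sat_prime C hI hC
    obtain ⟨hfin, hfr⟩ := loc_of_const C hI.ideal hsat δ ⟨n0, hδ⟩
    obtain ⟨hfin', hfr'⟩ := dq_FrW C hI.ideal hfin
    have hcon := const_of_loc C (gideal_FrW hI.ideal) (sat_FrW hP hc C hI hC) hfin'
    rw [hfr', hfr] at hcon
    have hPB : HasP D.B := IsLat.hasP hP (isLat_B hP)
    have hLI : IsLat D η ζ I := isLat_gideal hP hI.ideal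
    have hPI : HasP I := IsLat.hasP hP hLI
    have hPF : HasP (FrW D (FL p L) I) := IsLat.hasP hP (isLat_FrW hP (FL p L) hLI)
    have e1 := fun t => hpv_add_const hPB hPI δ ⟨n0, hδ⟩ t
    have e2 := fun t => hpv_add_const hPB hPF (p ^ 2 * δ) hcon t
    unfold Lam Th
    rw [FrW_B, e2 (p * t + (1 - p) * b), e1 t]
    push_cast
    ring

end

end R169
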