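import Crest.Agent.R169.LatDefs

/-!
# Row 169, module 0 (LAT): elementary block (proved, helper47).

API names live in `R169`, auxiliary lemmas in `R169.Lat` (`open Lat` inside `namespace R169`).
-/

set_option autoImplicit false

namespace R169.Lat

section lat0

variable {k L : Type} [Field k] [Field L] [Algebra k L]
variable {W : Type} [AddCommGroup W] [Module k W] [Module L W] [IsScalarTower k L W]
variable {D : GD k L} {η ζ : L} {E E' : ℤ → Submodule k W}

/-- scalar tower `k ⊂ F` acting on `W` (the `F`-module structure of `W` is the restriction of the `L`-structure) -/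
instance tower_FF : IsScalarTower k (FF k η ζ) W :=
  ⟨fun a x w => by
    show ((a • x : FF k η ζ) : L) • w = a • ((x : L) • w)
    rw [IntermediateField.coe_smul, smul_assoc]⟩

theorem _root_.R169.GD.mono (D : GD k L) (n : ℤ) : D.B n ≤ D.B (n + 1) := by
  intro b hb
  have := D.mul_mem hb D.one_mem
  rwa [mul_one] at this

theorem _root_.R169.GD.mono_le (D : GD k L) {m n : ℤ} (h : m ≤ n) : D.B m ≤ D.B n := by
  obtain ⟨d, rfl⟩ := Int.le.dest h
  clear h
  induction d with
  | zero => simp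
  | succ d ih =>
    refine ih.trans ?_
    have := D.mono (m + d)
    push_cast
    rwa [← add_assoc]

theorem _root_.R169.GD.one_mem_nonneg (D : GD k L) {n : ℤ} (h : 0 ≤ n) : (1 : L) ∈ D.B n := by
  refine D.mono_le h ?_
  rw [D.zero]
  exact Submodule.mem_span_singleton_self _

theorem _root_.R169.IsLat.stab (h : IsLat D η ζ E) : Stab D E := fun ha hw => h.smul_mem ha hw

theorem _root_.R169.IsLat.mono (h : IsLat D η ζ E) (n : ℤ) : E n ≤ E (n + 1) := by
  intro w hw
  have := h.smul_mem D.one_mem hw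
  rwa [one_smul, add_comm] at this

theorem mem_sm {l : L} {S : Submodule k W} {w : W} : w ∈ sm l S ↔ ∃ v ∈ S, l • v = w := by
  simp [sm, Submodule.mem_map]

theorem _root_.R169.IsLat.toPLat (hP : Par D η ζ) (h : IsLat D η ζ E) : IsPLat η ζ E where
  mono := h.mono
  smη := by
    intro n w hw
    obtain ⟨v, hv, rfl⟩ := mem_sm.1 hw
    have := h.smul_mem hP.hη hv
    rwa [add_comm] at this
  smζ := by
    intro n w hw
    obtain ⟨v, hv, rfl⟩ := mem_sm.1 hw
    have := h.smul_mem hP.hζ hv
    rwa [add_comm] at this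
  fin := h.fin
  bdd := h.bdd
  gen := h.gen

theorem _root_.R169.isLat_B (hP : Par D η ζ) : IsLat D η ζ D.B where
  smul_mem := by
    intro i n a w ha hw
    exact D.mul_mem ha hw
  fin := D.fin
  bdd := ⟨0, fun n hn => D.neg n hn⟩
  gen := hP.gen

theorem monom_mem_A (a b : ℕ) {n : ℤ} (h : (a : ℤ) + b ≤ n) : η ^ a * ζ ^ b ∈ A k η ζ n :=
  Submodule.subset_span ⟨a, b, h, rfl⟩

theorem A_mono {m n : ℤ} (h : m ≤ n) : A k η ζ m ≤ A k η ζ n := by
  refine Submodule.span_mono ?_
  rintro l ⟨a, b, hab, rfl⟩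
  exact ⟨a, b, hab.trans h, rfl⟩

theorem A_neg {n : ℤ} (h : n < 0) : A k η ζ n = ⊥ := by
  rw [A, Submodule.span_eq_bot]
  rintro l ⟨a, b, hab, rfl⟩
  omega

theorem one_mem_A {n : ℤ} (h : 0 ≤ n) : (1 : L) ∈ A k η ζ n := by
  have := monom_mem_A (k := k) (η := η) (ζ := ζ) 0 0 (n := n) (by simpa using h)
  simpa using this

theorem eta_mem_A : η ∈ A k η ζ 1 := by
  have := monom_mem_A (k := k) (η := η) (ζ := ζ) 1 0 (n := 1) (by simp)
  simpa using this

theorem zeta_mem_A : ζ ∈ A k η ζ 1 := by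
  have := monom_mem_A (k := k) (η := η) (ζ := ζ) 0 1 (n := 1) (by simp)
  simpa using this

theorem _root_.R169.IsPLat.mono_le (h : IsPLat η ζ E) {m n : ℤ} (hmn : m ≤ n) : E m ≤ E n := by
  obtain ⟨d, rfl⟩ := Int.le.dest hmn
  clear hmn
  induction d with
  | zero => simp
  | succ d ih =>
    refine ih.trans ?_
    have := h.mono (m + d)
    push_cast
    rwa [← add_assoc]

theorem _root_.R169.IsPLat.eta_mem (h : IsPLat η ζ E) {n : ℤ} {w : W} (hw : w ∈ E n) : η • w ∈ E (n + 1) :=
  h.smη n (mem_sm.2 ⟨w, hw, rfl⟩)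

theorem _root_.R169.IsPLat.zeta_mem (h : IsPLat η ζ E) {n : ℤ} {w : W} (hw : w ∈ E n) : ζ • w ∈ E (n + 1) :=
  h.smζ n (mem_sm.2 ⟨w, hw, rfl⟩)

/-- stability under `A` of a family closed under `1, η, ζ` (weak hypotheses version) -/
theorem smul_mem_of_stab (hm : ∀ n, E n ≤ E (n + 1)) (h1 : ∀ n w, w ∈ E n → η • w ∈ E (n + 1))
    (h2 : ∀ n w, w ∈ E n → ζ • w ∈ E (n + 1)) {i n : ℤ} {a : L} {w : W}
    (ha : a ∈ A k η ζ i) (hw : w ∈ E n) : a • w ∈ E (i + n) := by
  have hmono : ∀ (d : ℕ) (m : ℤ), E m ≤ E (m + d) := by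
    intro d
    induction d with
    | zero => intro m; simp
    | succ d ih =>
      intro m
      refine (ih m).trans ?_
      have := hm (m + d)
      push_cast
      rwa [← add_assoc]
  have hη : ∀ (a : ℕ) (m : ℤ) (v : W), v ∈ E m → η ^ a • v ∈ E (m + a) := by
    intro a
    induction a with
    | zero => intro m v hv; simpa using hv
    | succ a ih =>
      intro m v hv
      have := h1 _ _ (ih m v hv)
      rw [smul_smul, ← pow_succ'] at this
      push_cast
      rwa [← add_assoc]
  have hζ : ∀ (a : ℕ) (m : ℤ) (v : W), v ∈ E m → ζ ^ a • v ∈ E (m + a) := by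
    intro a
    induction a with
    | zero => intro m v hv; simpa using hv
    | succ a ih =>
      intro m v hv
      have := h2 _ _ (ih m v hv)
      rw [smul_smul, ← pow_succ'] at this
      push_cast
      rwa [← add_assoc]
  rw [A] at ha
  induction ha using Submodule.span_induction with
  | mem x hx =>
    obtain ⟨a, b, hab, rfl⟩ := hx
    have h3 := hη a _ _ (hζ b n w hw)
    rw [smul_smul] at h3
    obtain ⟨d, hd⟩ := Int.le.dest hab
    have h4 := hmono d _ h3
    have e : n + (b : ℤ) + a + d = i + n := by rw [← hd]; ring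
    rwa [e] at h4
  | zero => rw [zero_smul]; exact Submodule.zero_mem _
  | add x y _ _ hx hy => rw [add_smul]; exact Submodule.add_mem _ hx hy
  | smul c x _ hx =>
    rw [smul_assoc]; exact Submodule.smul_mem _ _ hx

theorem _root_.R169.IsPLat.smul_mem (h : IsPLat η ζ E) {i n : ℤ} {a : L} {w : W}
    (ha : a ∈ A k η ζ i) (hw : w ∈ E n) : a • w ∈ E (i + n) :=
  smul_mem_of_stab h.mono (fun _ _ hw => h.eta_mem hw) (fun _ _ hw => h.zeta_mem hw) ha hw

theorem _root_.R169.A_mul_mem {i j : ℤ} {a b : L} (ha : a ∈ A k η ζ i) (hb : b ∈ A k η ζ j) :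
    a * b ∈ A k η ζ (i + j) := by
  refine smul_mem_of_stab (E := fun n => A k η ζ n) (W := L) (fun n => A_mono (by omega)) ?_ ?_ ha hb
  · intro n w hw
    simp only [A] at hw ⊢
    induction hw using Submodule.span_induction with
    | mem x hx =>
      obtain ⟨a, b, hab, rfl⟩ := hx
      refine Submodule.subset_span ⟨a + 1, b, by push_cast; omega, ?_⟩
      rw [smul_eq_mul]; ring
    | zero => rw [smul_zero]; exact Submodule.zero_mem _
    | add x y _ _ hx hy => rw [smul_add]; exact Submodule.add_mem _ hx hy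
    | smul c x _ hx => rw [smul_comm]; exact Submodule.smul_mem _ _ hx
  · intro n w hw
    simp only [A] at hw ⊢
    induction hw using Submodule.span_induction with
    | mem x hx =>
      obtain ⟨a, b, hab, rfl⟩ := hx
      refine Submodule.subset_span ⟨a, b + 1, by push_cast; omega, ?_⟩
      rw [smul_eq_mul]; ring
    | zero => rw [smul_zero]; exact Submodule.zero_mem _
    | add x y _ _ hx hy => rw [smul_add]; exact Submodule.add_mem _ hx hy
    | smul c x _ hx => rw [smul_comm]; exact Submodule.smul_mem _ _ hx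

theorem _root_.R169.A_le_B (hP : Par D η ζ) (n : ℤ) : A k η ζ n ≤ D.B n := by
  rcases lt_or_ge n 0 with hn | hn
  · rw [A_neg hn]; exact bot_le
  · intro a ha
    have h1 : (1 : L) ∈ D.B 0 := D.one_mem_nonneg le_rfl
    have := ((isLat_B hP).toPLat hP).smul_mem ha h1
    simpa using this

/-- `ev` of a homogeneous polynomial -/
theorem ev_monomial (d : Fin 3 →₀ ℕ) (c : k) :
    ev η ζ (MvPolynomial.monomial d c) = c • (η ^ (d 1) * ζ ^ (d 2)) := by
  rw [ev, MvPolynomial.aeval_monomial, Finsupp.prod_fintype _ _ (by intro i; simp)]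
  rw [Fin.prod_univ_three, Algebra.smul_def]
  simp

theorem _root_.R169.ev_mem_A {s : ℕ} {F : MvPolynomial (Fin 3) k} (hF : F.IsHomogeneous s) :
    ev η ζ F ∈ A k η ζ s := by
  rw [F.as_sum, ev, map_sum]
  refine Submodule.sum_mem _ fun d hd => ?_
  have h1 : d 0 + d 1 + d 2 = s := by
    have := hF (MvPolynomial.mem_support_iff.1 hd)
    rw [← this, Finsupp.weight_apply, Finsupp.sum_fintype _ _ (by intro i; simp)]
    simp [Fin.sum_univ_three]
  have := ev_monomial (η := η) (ζ := ζ) d (F.coeff d)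
  rw [ev] at this
  rw [this]
  exact Submodule.smul_mem _ _ (monom_mem_A _ _ (by omega))

theorem _root_.R169.mem_A_iff (n : ℕ) (l : L) : l ∈ A k η ζ n ↔ ∃ F : MvPolynomial (Fin 3) k,
    F.IsHomogeneous n ∧ ev η ζ F = l := by
  constructor
  · intro h
    rw [A] at h
    induction h using Submodule.span_induction with
    | mem x hx =>
      obtain ⟨a, b, hab, rfl⟩ := hx
      refine ⟨MvPolynomial.monomial (Finsupp.single 0 (n - a - b) + Finsupp.single 1 a + Finsupp.single 2 b) 1,
        ?_, ?_⟩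
      · refine MvPolynomial.isHomogeneous_monomial _ ?_
        rw [Finsupp.degree_eq_sum]
        rw [Fin.sum_univ_three]
        simp
        omega
      · rw [ev_monomial]
        simp
    | zero => exact ⟨0, MvPolynomial.isHomogeneous_zero _ _ _, by simp [ev]⟩
    | add x y _ _ hx hy =>
      obtain ⟨F, hF, rfl⟩ := hx
      obtain ⟨G, hG, rfl⟩ := hy
      exact ⟨F + G, hF.add hG, by simp [ev]⟩
    | smul c x _ hx =>
      obtain ⟨F, hF, rfl⟩ := hx
      refine ⟨MvPolynomial.C c * F, ?_, ?_⟩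
      · have := (MvPolynomial.isHomogeneous_C (Fin 3) c).mul hF
        rwa [zero_add] at this
      · simp [ev, Algebra.smul_def]
  · rintro ⟨F, hF, rfl⟩
    exact ev_mem_A hF

theorem ev_mul (F G : MvPolynomial (Fin 3) k) : ev η ζ (F * G) = ev η ζ F * ev η ζ G := by
  simp [ev]

theorem ev_add (F G : MvPolynomial (Fin 3) k) : ev η ζ (F + G) = ev η ζ F + ev η ζ G := by
  simp [ev]

theorem ev_sub (F G : MvPolynomial (Fin 3) k) : ev η ζ (F - G) = ev η ζ F - ev η ζ G := by
  simp [ev]

theorem linIndep_monom (ind : AlgebraicIndependent k ![η, ζ]) :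
    LinearIndependent k (fun p : ℕ × ℕ => η ^ p.1 * ζ ^ p.2) := by
  have h1 := (MvPolynomial.basisMonomials (Fin 2) k).linearIndependent
  have h2 := h1.map' (MvPolynomial.aeval (R := k) ![η, ζ]).toLinearMap
    (LinearMap.ker_eq_bot.2 ind)
  let e : ℕ × ℕ → (Fin 2 →₀ ℕ) := fun p => Finsupp.single 0 p.1 + Finsupp.single 1 p.2
  have he : Function.Injective e := by
    intro p q hpq
    have h0 := DFunLike.congr_fun hpq 0
    have h1 := DFunLike.congr_fun hpq 1
    simp [e] at h0 h1
    exact Prod.ext h0 h1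
  have h3 := h2.comp e he
  have h4 : (fun p : ℕ × ℕ => η ^ p.1 * ζ ^ p.2) =
      ((MvPolynomial.aeval (R := k) ![η, ζ]).toLinearMap ∘ (MvPolynomial.basisMonomials (Fin 2) k)) ∘ e := by
    funext p
    simp only [e, Function.comp, MvPolynomial.coe_basisMonomials, AlgHom.toLinearMap_apply,
      MvPolynomial.aeval_monomial, map_one, one_mul]
    rw [Finsupp.prod_fintype _ _ (by intro i; simp)]
    simp [Fin.prod_univ_two]
  rw [h4]
  exact h3

theorem _root_.R169.ev_inj (ind : AlgebraicIndependent k ![η, ζ]) {s : ℕ} {F : MvPolynomial (Fin 3) k}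
    (hF : F.IsHomogeneous s) (h : ev η ζ F = 0) : F = 0 := by
  have hd3 : ∀ d ∈ F.support, d 0 + d 1 + d 2 = s := by
    intro d hd
    have := hF (MvPolynomial.mem_support_iff.1 hd)
    rw [← this, Finsupp.weight_apply, Finsupp.sum_fintype _ _ (by intro i; simp)]
    simp [Fin.sum_univ_three]
  by_contra hne
  obtain ⟨d0, hd0⟩ := MvPolynomial.support_nonempty.2 hne
  have li := linIndep_monom ind
  rw [F.as_sum, ev, map_sum] at h
  have h1 : ∑ d ∈ F.support, F.coeff d • (η ^ (d 1) * ζ ^ (d 2)) = 0 := by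
    rw [← h]
    refine Finset.sum_congr rfl fun d _ => ?_
    have := ev_monomial (η := η) (ζ := ζ) d (F.coeff d)
    rw [ev] at this
    rw [this]
  have h2 : LinearIndependent k (fun d : F.support => η ^ (d.1 1) * ζ ^ (d.1 2)) := by
    refine li.comp (fun d : F.support => (d.1 1, d.1 2)) ?_
    intro d e hde
    have e1 : d.1 1 = e.1 1 := congrArg Prod.fst hde
    have e2 : d.1 2 = e.1 2 := congrArg Prod.snd hde
    have e3 := hd3 d.1 d.2
    have e4 := hd3 e.1 e.2
    ext i
    fin_cases i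
    · show d.1 0 = e.1 0
      omega
    · exact e1
    · exact e2
  rw [← Finset.sum_coe_sort] at h1
  have h3 := (Fintype.linearIndependent_iff.1 h2) (fun d => F.coeff d.1) h1 ⟨d0, hd0⟩
  exact (MvPolynomial.mem_support_iff.1 hd0) h3

/-- index set of the monomials in `A n` -/
def Idx (n : ℕ) : Finset (ℕ × ℕ) := (Finset.range (n + 1)).sigma (fun a => Finset.range (n + 1 - a)) |>.image
  (fun p => (p.1, p.2))

theorem mem_Idx {n : ℕ} {p : ℕ × ℕ} : p ∈ Idx n ↔ p.1 + p.2 ≤ n := by
  simp [Idx]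
  constructor
  · rintro ⟨a, b, hab, rfl⟩
    simp; omega
  · intro h
    exact ⟨p.1, p.2, by omega, rfl⟩

theorem card_Idx (n : ℕ) : (Idx n).card = (n + 1) * (n + 2) / 2 := by
  rw [Idx, Finset.card_image_of_injOn, Finset.card_sigma]
  · simp only [Finset.card_range]
    have : ∀ m : ℕ, (∑ x ∈ Finset.range m, (m - x)) * 2 = m * (m + 1) := by
      intro m
      induction m with
      | zero => simp
      | succ m ih =>
        rw [Finset.sum_range_succ']
        simp only [Nat.add_sub_add_right, Nat.sub_zero]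
        rw [add_mul, ih]; ring
    rw [← this (n + 1)]
    simp
  · rintro ⟨a, b⟩ _ ⟨c, d⟩ _ h
    simp at h
    simp [h.1, h.2]

theorem A_eq_span (n : ℕ) : A k η ζ (n : ℤ) =
    Submodule.span k (Set.range (fun p : Idx n => η ^ p.1.1 * ζ ^ p.1.2)) := by
  rw [A]
  congr 1
  ext l
  simp only [Set.mem_ofPred_eq, Set.mem_range]
  constructor
  · rintro ⟨a, b, hab, rfl⟩
    exact ⟨⟨(a, b), mem_Idx.2 (by simp; omega)⟩, rfl⟩
  · rintro ⟨⟨⟨a, b⟩, hp⟩, rfl⟩
    exact ⟨a, b, by have := mem_Idx.1 hp; simp at this; omega, rfl⟩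

instance A_fin (n : ℤ) : FiniteDimensional k (A k η ζ n) := by
  rcases lt_or_ge n 0 with hn | hn
  · rw [A_neg hn]; infer_instance
  · lift n to ℕ using hn
    rw [A_eq_span]
    exact FiniteDimensional.span_of_finite k (Set.finite_range _)

/-- `dim A_n = (n+1)(n+2)/2` for `n ≥ -2`, `0` for `n < 0`. -/
theorem _root_.R169.finrank_A (ind : AlgebraicIndependent k ![η, ζ]) (n : ℤ) :
    Module.finrank k (A k η ζ n) = if 0 ≤ n then ((n.toNat + 1) * (n.toNat + 2)) / 2 else 0 := by
  split_ifs with hn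
  · lift n to ℕ using hn
    rw [A_eq_span]
    have h := (linIndep_monom ind).comp (fun p : Idx n => p.1) Subtype.val_injective
    have h2 := finrank_span_eq_card h
    rw [show (fun p : Idx n => η ^ p.1.1 * ζ ^ p.1.2) = (fun p : ℕ × ℕ => η ^ p.1 * ζ ^ p.2) ∘ (fun p : Idx n => p.1)
      from rfl, h2]
    simp [card_Idx]
  · rw [A_neg (by omega)]
    simp

/-- `dim A_n = (n+1)(n+2)/2` for `n ≥ -2`, rational version -/
theorem finrank_A_rat (ind : AlgebraicIndependent k ![η, ζ]) {n : ℤ} (hn : -2 ≤ n) :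
    (Module.finrank k (A k η ζ n) : ℚ) = ((n : ℚ) + 1) * (n + 2) / 2 := by
  rw [finrank_A ind]
  split_ifs with h
  · lift n to ℕ using h
    simp only [Int.toNat_natCast]
    rw [Nat.cast_div]
    · push_cast; ring
    · exact (Nat.even_mul_succ_self (n + 1)).two_dvd
    · norm_num
  · have : n = -1 ∨ n = -2 := by omega
    rcases this with rfl | rfl <;> norm_num

/-- `b(n) = dim A_n + dim A_{-n-3}` for all `n` -/
theorem finrank_A_dual (ind : AlgebraicIndependent k ![η, ζ]) (n : ℤ) :
    ((n : ℚ) + 1) * (n + 2) / 2 = (Module.finrank k (A k η ζ n) : ℚ) +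
      Module.finrank k (A k η ζ (-n - 3)) := by
  rcases le_or_gt (-2) n with h | h
  · rw [finrank_A_rat ind h, A_neg (k := k) (η := η) (ζ := ζ) (n := -n - 3) (by omega)]
    simp
  · rw [finrank_A_rat ind (n := -n - 3) (by omega), A_neg (k := k) (η := η) (ζ := ζ) (n := n) (by omega)]
    simp
    ring

/-! ### generators -/

/-- the graded `P`-submodule generated by `e_j` in degree `a_j` -/
def gspan (η ζ : L) {ι : Type} [Fintype ι] (a : ι → ℤ) (e : ι → W) (n : ℤ) : Submodule k W where
  carrier := {w | ∃ f : ι → L, (∀ j, f j ∈ A k η ζ (n - a j)) ∧ w = ∑ j, f j • e j}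
  add_mem' := by
    rintro w v ⟨f, hf, rfl⟩ ⟨g, hg, rfl⟩
    refine ⟨fun j => f j + g j, fun j => Submodule.add_mem _ (hf j) (hg j), ?_⟩
    simp [add_smul, Finset.sum_add_distrib]
  zero_mem' := ⟨fun _ => 0, fun j => Submodule.zero_mem _, by simp⟩
  smul_mem' := by
    rintro c w ⟨f, hf, rfl⟩
    refine ⟨fun j => c • f j, fun j => Submodule.smul_mem _ _ (hf j), ?_⟩
    simp [Finset.smul_sum]

theorem mem_gspan {ι : Type} [Fintype ι] {a : ι → ℤ} {e : ι → W} {n : ℤ} {w : W} :
    w ∈ gspan (k := k) η ζ a e n ↔ ∃ f : ι → L, (∀ j, f j ∈ A k η ζ (n - a j)) ∧ w = ∑ j, f j • e j :=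
  Iff.rfl

theorem self_mem_gspan {ι : Type} [Fintype ι] {a : ι → ℤ} {e : ι → W} (j : ι) :
    e j ∈ gspan (k := k) η ζ a e (a j) := by
  classical
  refine ⟨fun i => if i = j then 1 else 0, ?_, by simp⟩
  intro i
  by_cases h : i = j
  · subst h
    simp only [if_true]
    exact one_mem_A (by simp)
  · simp [h]

theorem gspan_mono {ι : Type} [Fintype ι] {a : ι → ℤ} {e : ι → W} (n : ℤ) :
    gspan (k := k) η ζ a e n ≤ gspan η ζ a e (n + 1) := by
  rintro w ⟨f, hf, rfl⟩
  exact ⟨f, fun j => A_mono (by omega) (hf j), rfl⟩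

theorem gspan_mul {ι : Type} [Fintype ι] {a : ι → ℤ} {e : ι → W} {n : ℤ} {w : W} {l : L}
    (hl : l ∈ A k η ζ 1) (hw : w ∈ gspan (k := k) η ζ a e n) :
    l • w ∈ gspan (k := k) η ζ a e (n + 1) := by
  obtain ⟨f, hf, rfl⟩ := hw
  refine ⟨fun j => l * f j, fun j => ?_, ?_⟩
  · have := A_mul_mem hl (hf j)
    rwa [show 1 + (n - a j) = n + 1 - a j by ring] at this
  · rw [Finset.smul_sum]
    simp [mul_smul]

theorem _root_.R169.IsPLat.exists_gens (h : IsPLat η ζ E) : ∃ (m : ℕ) (a : Fin m → ℤ) (e : Fin m → W),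
    (∀ j, e j ∈ E (a j)) ∧
    ∀ n w, w ∈ E n ↔ ∃ f : Fin m → L, (∀ j, f j ∈ A k η ζ (n - a j)) ∧ w = ∑ j, f j • e j := by
  classical
  obtain ⟨n0, hn0⟩ := h.bdd
  obtain ⟨n1, hn1⟩ := h.gen
  have : ∀ n, FiniteDimensional k (E n) := h.fin
  let ι : Type := Σ i : Fin (n1 - n0 + 1).toNat, Fin (Module.finrank k (E (n0 + (i : ℕ))))
  let a' : ι → ℤ := fun p => n0 + (p.1 : ℕ)
  let e' : ι → W := fun p => (Module.finBasis k (E (n0 + (p.1 : ℕ))) p.2 : W)
  have he' : ∀ p, e' p ∈ E (a' p) := fun p => (Module.finBasis k (E (n0 + (p.1 : ℕ))) p.2).2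
  -- all of E is generated
  have key : ∀ n, E n ≤ gspan η ζ a' e' n := by
    have small : ∀ n, n ≤ n1 → E n ≤ gspan η ζ a' e' n := by
      intro n hn
      rcases lt_or_ge n n0 with h0 | h0
      · rw [hn0 n h0]; exact bot_le
      · obtain ⟨d, rfl⟩ := Int.le.dest h0
        intro w hw
        have hd : d < (n1 - n0 + 1).toNat := by omega
        have hw2 := (Module.finBasis k (E (n0 + d))).sum_repr ⟨w, hw⟩
        have hw3 := congrArg (Submodule.subtype _) hw2
        rw [map_sum] at hw3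
        simp only [map_smul, Submodule.subtype_apply] at hw3
        rw [← hw3]
        refine Submodule.sum_mem _ fun j _ => Submodule.smul_mem _ _ ?_
        exact self_mem_gspan (k := k) (η := η) (ζ := ζ) (a := a') (e := e') ⟨⟨d, hd⟩, j⟩
    intro n
    rcases le_or_gt n n1 with h1 | h1
    · exact small n h1
    · obtain ⟨d, rfl⟩ := Int.le.dest h1.le
      clear h1
      induction d with
      | zero => exact small _ (by simp)
      | succ d ih =>
        push_cast
        rw [← add_assoc]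
        refine (hn1 (n1 + d) (by omega)).trans ?_
        refine sup_le (sup_le ?_ ?_) ?_
        · exact ih.trans (gspan_mono _)
        · intro w hw
          obtain ⟨v, hv, rfl⟩ := mem_sm.1 hw
          exact gspan_mul eta_mem_A (ih hv)
        · intro w hw
          obtain ⟨v, hv, rfl⟩ := mem_sm.1 hw
          exact gspan_mul zeta_mem_A (ih hv)
  let eq := Fintype.equivFin ι
  refine ⟨Fintype.card ι, fun j => a' (eq.symm j), fun j => e' (eq.symm j), fun j => he' _, ?_⟩
  intro n w
  constructor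
  · intro hw
    obtain ⟨f, hf, rfl⟩ := key n hw
    refine ⟨fun j => f (eq.symm j), fun j => hf _, ?_⟩
    exact (Equiv.sum_comp eq.symm (fun p => f p • e' p)).symm
  · rintro ⟨f, hf, rfl⟩
    refine Submodule.sum_mem _ fun j _ => ?_
    have := h.smul_mem (hf j) (he' (eq.symm j))
    simpa using this

/-- conversely: a family generated by finitely many elements is a `P`-lattice -/
theorem isPLat_gspan {ι : Type} [Fintype ι] (a : ι → ℤ) (e : ι → W) :
    IsPLat (k := k) η ζ (gspan η ζ a e) := by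
  classical
  refine ⟨gspan_mono, ?_, ?_, ?_, ?_, ?_⟩
  · intro n w hw
    obtain ⟨v, hv, rfl⟩ := mem_sm.1 hw
    exact gspan_mul eta_mem_A hv
  · intro n w hw
    obtain ⟨v, hv, rfl⟩ := mem_sm.1 hw
    exact gspan_mul zeta_mem_A hv
  · intro n
    let g : (Π j, A k η ζ (n - a j)) →ₗ[k] W :=
      { toFun := fun f => ∑ j, (f j : L) • e j
        map_add' := by intro f g; simp [add_smul, Finset.sum_add_distrib]
        map_smul' := by intro c f; simp [Finset.smul_sum] }
    have : gspan η ζ a e n = LinearMap.range g := by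
      ext w
      simp only [mem_gspan, LinearMap.mem_range]
      constructor
      · rintro ⟨f, hf, rfl⟩
        exact ⟨fun j => ⟨f j, hf j⟩, rfl⟩
      · rintro ⟨f, rfl⟩
        exact ⟨fun j => f j, fun j => (f j).2, rfl⟩
    rw [this]
    infer_instance
  · have : ∃ n0 : ℤ, ∀ j, n0 ≤ a j := by
      by_cases hne : Nonempty ι
      · obtain ⟨j0, hj0⟩ := Finite.exists_min a
        exact ⟨a j0, hj0⟩
      · exact ⟨0, fun j => (hne ⟨j⟩).elim⟩
    obtain ⟨n0, hn0⟩ := this
    refine ⟨n0, fun n hn => ?_⟩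
    rw [eq_bot_iff]
    rintro w ⟨f, hf, rfl⟩
    rw [Submodule.mem_bot]
    refine Finset.sum_eq_zero fun j _ => ?_
    have h1 := hf j
    rw [A_neg (by have := hn0 j; omega), Submodule.mem_bot] at h1
    rw [h1, zero_smul]
  · have : ∃ n0 : ℤ, ∀ j, a j ≤ n0 := by
      by_cases hne : Nonempty ι
      · obtain ⟨j0, hj0⟩ := Finite.exists_max a
        exact ⟨a j0, hj0⟩
      · exact ⟨0, fun j => (hne ⟨j⟩).elim⟩
    obtain ⟨n1, hn1⟩ := this
    refine ⟨n1, fun n hn => ?_⟩
    rintro w ⟨f, hf, rfl⟩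
    refine Submodule.sum_mem _ fun j _ => ?_
    have hj := hf j
    rw [A] at hj
    have hcl : ∀ m : ℤ, a j ≤ m → ∀ x ∈ A k η ζ (m - a j), x • e j ∈ gspan (k := k) η ζ a e m := by
      intro m hm x hx
      have := (show ∀ n w, w ∈ gspan (k := k) η ζ a e n → η • w ∈ gspan (k := k) η ζ a e (n + 1) from
        fun n w hw => gspan_mul eta_mem_A hw)
      have h3 := smul_mem_of_stab gspan_mono this (fun n w hw => gspan_mul zeta_mem_A hw) hx
        (self_mem_gspan (k := k) (η := η) (ζ := ζ) (a := a) (e := e) j)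
      simpa using h3
    generalize f j = y at hj ⊢
    induction hj using Submodule.span_induction with
    | mem x hx =>
      obtain ⟨c, d, hcd, rfl⟩ := hx
      rcases Nat.eq_zero_or_pos c with hc | hc
      · rcases Nat.eq_zero_or_pos d with hd | hd
        · subst hc hd
          refine Submodule.mem_sup_left (Submodule.mem_sup_left ?_)
          refine hcl n (by have := hn1 j; omega) _ (monom_mem_A _ _ ?_)
          have := hn1 j; push_cast; omega
        · refine Submodule.mem_sup_right (mem_sm.2 ⟨(η ^ c * ζ ^ (d - 1)) • e j, ?_, ?_⟩)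
          · refine hcl n (by have := hn1 j; omega) _ (monom_mem_A _ _ ?_)
            push_cast [Nat.cast_sub hd]; omega
          · rw [smul_smul]
            congr 1
            obtain ⟨d, rfl⟩ : ∃ d', d = d' + 1 := ⟨d - 1, by omega⟩
            simp only [Nat.add_sub_cancel]; ring
      · refine Submodule.mem_sup_left (Submodule.mem_sup_right (mem_sm.2 ⟨(η ^ (c - 1) * ζ ^ d) • e j, ?_, ?_⟩))
        · refine hcl n (by have := hn1 j; omega) _ (monom_mem_A _ _ ?_)
          push_cast [Nat.cast_sub hc]; omega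
        · rw [smul_smul]
          congr 1
          obtain ⟨c, rfl⟩ : ∃ c', c = c' + 1 := ⟨c - 1, by omega⟩
          simp only [Nat.add_sub_cancel]; ring
    | zero => rw [zero_smul]; exact Submodule.zero_mem _
    | add x y _ _ hx hy => rw [add_smul]; exact Submodule.add_mem _ hx hy
    | smul c x _ hx => rw [smul_assoc]; exact Submodule.smul_mem _ _ hx

end lat0

end R169.Lat
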