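import Crest.Agent.R169.Lat1a

/-!
# Row 169, module 0 (LAT): L1, consequences of the Hilbert basis theorem

* `IsLat.sub`: `h.toPLat hP`, `IsPLat.sub` (stability from `hs` with `D.one_mem`, `hP.hη`, `hP.hζ`); `smul_mem` is `hs`.
* `IsLat.sat`, `IsPLat.sat`: `sat E V n ≤ E n`, stable because `V` is an `L`-subspace.
* `IsLat.quo`: images of everything under `V.mkQ` (`gen`: map of a `⊔` is the `⊔` of maps; `sm` commutes with `map`).
* `IsLat.sup`: `gen` with the maximum of the two `n1`.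
* `IsLat.shift`: reindexing. * `IsLat.map`: images.
-/

set_option autoImplicit false

namespace R169

open R169.Lat

section piece

variable {k L : Type} [Field k] [Field L] [Algebra k L]
variable {W : Type} [AddCommGroup W] [Module k W] [Module L W] [IsScalarTower k L W]
variable {D : GD k L} {η ζ : L} {E E' : ℤ → Submodule k W}

theorem IsLat.sub (hP : Par D η ζ) (h : IsLat D η ζ E) (hle : ∀ n, E' n ≤ E n) (hs : Stab D E') :
    IsLat D η ζ E' := by
  have hm : ∀ n, E' n ≤ E' (n + 1) := by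
    intro n w hw
    have := hs D.one_mem hw
    rwa [one_smul, add_comm] at this
  have h1 : ∀ n, sm η (E' n) ≤ E' (n + 1) := by
    intro n w hw
    obtain ⟨v, hv, rfl⟩ := mem_sm.1 hw
    have := hs hP.hη hv
    rwa [add_comm] at this
  have h2 : ∀ n, sm ζ (E' n) ≤ E' (n + 1) := by
    intro n w hw
    obtain ⟨v, hv, rfl⟩ := mem_sm.1 hw
    have := hs hP.hζ hv
    rwa [add_comm] at this
  have h3 := IsPLat.sub (h.toPLat hP) hle hm h1 h2
  exact ⟨fun ha hw => hs ha hw, h3.fin, h3.bdd, h3.gen⟩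
theorem IsLat.sat (hP : Par D η ζ) (h : IsLat D η ζ E) (V : Submodule L W) :
    IsLat D η ζ (sat E V) := by
  refine IsLat.sub hP h (fun n => inf_le_left) ?_
  intro i n a w ha hw
  exact ⟨h.smul_mem ha hw.1, V.smul_mem a hw.2⟩
theorem IsPLat.sat (h : IsPLat η ζ E) (V : Submodule L W) : IsPLat η ζ (sat E V) := by
  refine IsPLat.sub h (fun n => inf_le_left) ?_ ?_ ?_
  · intro n w hw
    exact ⟨h.mono n hw.1, hw.2⟩
  · intro n w hw
    obtain ⟨v, hv, rfl⟩ := mem_sm.1 hw
    exact ⟨h.eta_mem hv.1, V.smul_mem _ hv.2⟩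
  · intro n w hw
    obtain ⟨v, hv, rfl⟩ := mem_sm.1 hw
    exact ⟨h.zeta_mem hv.1, V.smul_mem _ hv.2⟩
theorem IsLat.sup (h : IsLat D η ζ E) (h' : IsLat D η ζ E') : IsLat D η ζ (fun n => E n ⊔ E' n) := by
  refine ⟨?_, ?_, ?_, ?_⟩
  · intro i n a w ha hw
    obtain ⟨x, hx, y, hy, rfl⟩ := Submodule.mem_sup.1 hw
    rw [smul_add]
    exact Submodule.add_mem _ (Submodule.mem_sup_left (h.smul_mem ha hx))
      (Submodule.mem_sup_right (h'.smul_mem ha hy))
  · intro n
    have h1 := h.fin n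
    have h2 := h'.fin n
    exact Submodule.finiteDimensional_sup _ _
  · obtain ⟨n0, hn0⟩ := h.bdd
    obtain ⟨n0', hn0'⟩ := h'.bdd
    refine ⟨min n0 n0', fun n hn => ?_⟩
    rw [hn0 n (lt_of_lt_of_le hn (min_le_left _ _)), hn0' n (lt_of_lt_of_le hn (min_le_right _ _)),
      sup_bot_eq]
  · obtain ⟨n1, hn1⟩ := h.gen
    obtain ⟨n1', hn1'⟩ := h'.gen
    refine ⟨max n1 n1', fun n hn => ?_⟩
    have hE := hn1 n (le_trans (le_max_left _ _) hn)
    have hE' := hn1' n (le_trans (le_max_right _ _) hn)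
    have hmono : ∀ (l : L) {S S' : Submodule k W}, S ≤ S' → sm l S ≤ sm l S' :=
      fun l S S' hS => Submodule.map_mono hS
    refine sup_le (hE.trans ?_) (hE'.trans ?_)
    · exact sup_le_sup (sup_le_sup le_sup_left (hmono _ le_sup_left)) (hmono _ le_sup_left)
    · exact sup_le_sup (sup_le_sup le_sup_right (hmono _ le_sup_right)) (hmono _ le_sup_right)
theorem IsLat.shift (h : IsLat D η ζ E) (c : ℤ) : IsLat D η ζ (fun n => E (n + c)) := by
  refine ⟨?_, fun n => h.fin _, ?_, ?_⟩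
  · intro i n a w ha hw
    have := h.smul_mem ha hw
    rwa [← add_assoc] at this
  · obtain ⟨n0, hn0⟩ := h.bdd
    exact ⟨n0 - c, fun n hn => hn0 _ (by omega)⟩
  · obtain ⟨n1, hn1⟩ := h.gen
    refine ⟨n1 - c, fun n hn => ?_⟩
    have := hn1 (n + c) (by omega)
    have e : n + 1 + c = n + c + 1 := by ring
    change E (n + 1 + c) ≤ _
    rw [e]
    exact this
/-- image under an injective (or any) `L`-linear map -/
theorem IsLat.map {W' : Type} [AddCommGroup W'] [Module k W'] [Module L W'] [IsScalarTower k L W']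
    (h : IsLat D η ζ E) (f : W →ₗ[L] W') :
    IsLat D η ζ (fun n => (E n).map (f.restrictScalars k)) := by
  have hsm : ∀ (l : L) (S : Submodule k W), (sm l S).map (f.restrictScalars k) ≤
      sm l (S.map (f.restrictScalars k)) := by
    intro l S w hw
    obtain ⟨v, hv, rfl⟩ := hw
    obtain ⟨u, hu, rfl⟩ := mem_sm.1 hv
    refine mem_sm.2 ⟨f u, ⟨u, hu, rfl⟩, ?_⟩
    exact (f.map_smul l u).symm
  refine ⟨?_, ?_, ?_, ?_⟩
  · intro i n a w ha hw
    obtain ⟨v, hv, rfl⟩ := hw
    exact ⟨a • v, h.smul_mem ha hv, f.map_smul a v⟩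
  · intro n
    have h1 := h.fin n
    change FiniteDimensional k ((E n).map (f.restrictScalars k))
    infer_instance
  · obtain ⟨n0, hn0⟩ := h.bdd
    refine ⟨n0, fun n hn => ?_⟩
    rw [hn0 n hn, Submodule.map_bot]
  · obtain ⟨n1, hn1⟩ := h.gen
    refine ⟨n1, fun n hn => ?_⟩
    have h2 := Submodule.map_mono (f := f.restrictScalars k) (hn1 n hn)
    rw [Submodule.map_sup, Submodule.map_sup] at h2
    exact h2.trans (sup_le_sup (sup_le_sup le_rfl (hsm _ _)) (hsm _ _))
theorem IsLat.quo (h : IsLat D η ζ E) (V : Submodule L W) : IsLat D η ζ (quo E V) :=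
  IsLat.map h V.mkQ

end piece

end R169
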