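import Crest.Agent.R169.Lat0

/-!
# Row 169, module 0 (LAT): L1a, Hilbert basis theorem for families

Let `n0` with `E n = ⊥` for `n < n0` and `n1 ≥ n0` from `gen`. Let `S ⊂ L[X]` be the `k`-subalgebra
`Algebra.adjoin k {X, C η * X, C ζ * X}`; it is of finite type over `k`, so a Noetherian ring
(`Algebra.FiniteType.isNoetherianRing`). It acts on `PolynomialModule L W` (an `L[X]`-module; elements `ℕ →₀ W`;
`(monomial s a • f) n = if s ≤ n then a • f (n - s) else 0`, `PolynomialModule.monomial_smul_apply`).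
For a family `G` stable under `1, η, ζ` let `M G = {f | ∀ n : ℕ, f n ∈ G (n0 + n)}`: an `S`-submodule (the set of `p ∈ L[X]` with
`p • M G ⊂ M G` is a `k`-subalgebra containing the three generators).
* `M E` is finitely generated: generated by the `single i b`, `i ≤ n1 - n0`, `b` in a basis of `E (n0 + i)`: by induction on `n`
  every `single n w`, `w ∈ E (n0 + n)`, is in the span (`gen` and `X • single n w = single (n+1) w`, `(C η * X) • single n w = single (n+1) (η • w)`).
* so `M E` is a Noetherian `S`-module and `M E' ≤ M E` is finitely generated, by `t_1..t_r`; let `N` bound the supports of all `t_i`.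
* Let `Q = {f | (∀ n, f n ∈ E' (n0+n)) ∧ ∀ n ≥ N, f (n+1) ∈ E' (n0+n) ⊔ sm η (E' (n0+n)) ⊔ sm ζ (E' (n0+n))}`: a `k`-subspace; `Q` is stable
  under `X, C η X, C ζ X` (even `X • M E' ⊂ Q`), so an `S`-submodule, contains all `t_i`, so `M E' ≤ Q`. Apply to `single (n+1) w`.
`fin`, `bdd` are inherited from `E` (`Submodule.finiteDimensional_of_le`).
-/

set_option autoImplicit false

namespace R169

open R169.Lat

section piece

variable {k L : Type} [Field k] [Field L] [Algebra k L]
variable {W : Type} [AddCommGroup W] [Module k W] [Module L W] [IsScalarTower k L W]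
variable {D : GD k L} {η ζ : L} {E E' : ℤ → Submodule k W}

open Polynomial in
/-- the subalgebra `k[X, ηX, ζX]` of `L[X]` -/
noncomputable def Lat.SS (k : Type) {L : Type} [Field k] [Field L] [Algebra k L] (η ζ : L) : Subalgebra k L[X] :=
  Algebra.adjoin k {monomial 1 1, monomial 1 η, monomial 1 ζ}

open Polynomial in
theorem Lat.SS_noeth : IsNoetherianRing (Lat.SS k η ζ) := by
  apply isNoetherianRing_of_fg
  refine Subalgebra.fg_def.2 ⟨{monomial 1 1, monomial 1 η, monomial 1 ζ}, ?_, rfl⟩
  simp

open Polynomial in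
/-- a `k`-subspace stable under the three generators is stable under `SS` -/
theorem Lat.SS_smul (Q : Submodule k (PolynomialModule L W))
    (h1 : ∀ f ∈ Q, (monomial 1 (1 : L)) • f ∈ Q) (h2 : ∀ f ∈ Q, (monomial 1 η) • f ∈ Q)
    (h3 : ∀ f ∈ Q, (monomial 1 ζ) • f ∈ Q) (p : L[X]) (hp : p ∈ Lat.SS k η ζ) :
    ∀ f ∈ Q, p • f ∈ Q := by
  induction hp using Algebra.adjoin_induction with
  | mem x hx =>
    simp only [Set.mem_insert_iff, Set.mem_singleton_iff] at hx
    rcases hx with rfl | rfl | rfl
    · exact h1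
    · exact h2
    · exact h3
  | algebraMap c =>
    intro f hf
    rw [algebraMap_smul]
    exact Submodule.smul_mem _ _ hf
  | add x y _ _ hx hy =>
    intro f hf
    rw [add_smul]
    exact Submodule.add_mem _ (hx f hf) (hy f hf)
  | mul x y _ _ hx hy =>
    intro f hf
    rw [mul_smul]
    exact hx _ (hy f hf)

open Polynomial in
/-- the associated `SS`-submodule -/
def Lat.toSS (Q : Submodule k (PolynomialModule L W))
    (h1 : ∀ f ∈ Q, (monomial 1 (1 : L)) • f ∈ Q) (h2 : ∀ f ∈ Q, (monomial 1 η) • f ∈ Q)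
    (h3 : ∀ f ∈ Q, (monomial 1 ζ) • f ∈ Q) : Submodule (Lat.SS k η ζ) (PolynomialModule L W) where
  carrier := Q
  add_mem' := Q.add_mem
  zero_mem' := Q.zero_mem
  smul_mem' := fun p f hf => Lat.SS_smul Q h1 h2 h3 p.1 p.2 f hf

/-- families as subspaces of the polynomial module -/
def Lat.MM (G : ℤ → Submodule k W) (n0 : ℤ) : Submodule k (PolynomialModule L W) where
  carrier := {f | ∀ n : ℕ, f.coeff n ∈ G (n0 + n)}
  add_mem' := fun {f g} hf hg n => by
    rw [PolynomialModule.coeff_add, Finsupp.add_apply]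
    exact Submodule.add_mem _ (hf n) (hg n)
  zero_mem' := fun n => by
    rw [PolynomialModule.coeff_zero, Finsupp.zero_apply]
    exact Submodule.zero_mem _
  smul_mem' := fun c f hf n => by
    have : (c • f).coeff n = c • f.coeff n := rfl
    rw [this]
    exact Submodule.smul_mem _ _ (hf n)

theorem Lat.mem_MM {G : ℤ → Submodule k W} {n0 : ℤ} {f : PolynomialModule L W} :
    f ∈ Lat.MM G n0 ↔ ∀ n : ℕ, f.coeff n ∈ G (n0 + n) := Iff.rfl

open Polynomial in
theorem Lat.MM_stab {G : ℤ → Submodule k W} (l : L) (h : ∀ n w, w ∈ G n → l • w ∈ G (n + 1)) {n0 : ℤ}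
    (f : PolynomialModule L W) (hf : f ∈ Lat.MM G n0) : (monomial 1 l) • f ∈ Lat.MM G n0 := by
  intro n
  rw [PolynomialModule.monomial_smul_apply]
  split_ifs with hn
  · have := h _ _ (hf (n - 1))
    have e : n0 + ((n - 1 : ℕ) : ℤ) + 1 = n0 + n := by omega
    rwa [e] at this
  · exact Submodule.zero_mem _

theorem IsPLat.sub (h : IsPLat η ζ E) (hle : ∀ n, E' n ≤ E n) (hm : ∀ n, E' n ≤ E' (n + 1))
    (h1 : ∀ n, sm η (E' n) ≤ E' (n + 1)) (h2 : ∀ n, sm ζ (E' n) ≤ E' (n + 1)) : IsPLat η ζ E' := by
  classical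
  have hfin : ∀ n, FiniteDimensional k (E' n) := fun n => by
    have := h.fin n
    exact Submodule.finiteDimensional_of_le (hle n)
  obtain ⟨n0, hn0⟩ := h.bdd
  refine ⟨hm, h1, h2, hfin, ⟨n0, fun n hn => ?_⟩, ?_⟩
  · rw [eq_bot_iff, ← hn0 n hn]; exact hle n
  obtain ⟨n1, hn01, hn1⟩ : ∃ n1 : ℤ, n0 ≤ n1 ∧
      ∀ n, n1 ≤ n → E (n + 1) ≤ E n ⊔ sm η (E n) ⊔ sm ζ (E n) := by
    obtain ⟨n1, hn1⟩ := h.gen
    exact ⟨max n0 n1, le_max_left _ _, fun n hn => hn1 n (by omega)⟩
  -- the big module
  have e1 : ∀ n w, w ∈ E n → (1 : L) • w ∈ E (n + 1) := fun n w hw => by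
    rw [one_smul]; exact h.mono n hw
  have e1' : ∀ n w, w ∈ E' n → (1 : L) • w ∈ E' (n + 1) := fun n w hw => by
    rw [one_smul]; exact hm n hw
  have e2' : ∀ n w, w ∈ E' n → η • w ∈ E' (n + 1) := fun n w hw => h1 n (mem_sm.2 ⟨w, hw, rfl⟩)
  have e3' : ∀ n w, w ∈ E' n → ζ • w ∈ E' (n + 1) := fun n w hw => h2 n (mem_sm.2 ⟨w, hw, rfl⟩)
  let M : Submodule (Lat.SS k η ζ) (PolynomialModule L W) :=
    Lat.toSS (Lat.MM E n0) (Lat.MM_stab 1 e1) (Lat.MM_stab η fun n w hw => h.eta_mem hw)
      (Lat.MM_stab ζ fun n w hw => h.zeta_mem hw)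
  let M' : Submodule (Lat.SS k η ζ) (PolynomialModule L W) :=
    Lat.toSS (Lat.MM E' n0) (Lat.MM_stab 1 e1') (Lat.MM_stab η e2') (Lat.MM_stab ζ e3')
  have hMM' : M' ≤ M := fun f hf n => hle _ (hf n)
  -- M is finitely generated
  have hMfg : M.FG := by
    have hfE : ∀ n, FiniteDimensional k (E n) := h.fin
    let ι : Type := Σ i : Fin (n1 - n0 + 1).toNat, Fin (Module.finrank k (E (n0 + (i : ℕ))))
    let g : ι → PolynomialModule L W :=
      fun p => PolynomialModule.single L (p.1 : ℕ) (Module.finBasis k (E (n0 + (p.1 : ℕ))) p.2 : W)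
    refine Submodule.fg_def.2 ⟨Set.range g, Set.finite_range g, ?_⟩
    have hk : ∀ (c : k) (f : PolynomialModule L W), f ∈ Submodule.span (Lat.SS k η ζ) (Set.range g) →
        c • f ∈ Submodule.span (Lat.SS k η ζ) (Set.range g) := by
      intro c f hf
      have h3 := Submodule.smul_mem _ (algebraMap k (Lat.SS k η ζ) c) hf
      have h4 : (algebraMap k (Lat.SS k η ζ) c) • f = c • f := by
        show (algebraMap k (Polynomial L) c) • f = c • f
        rw [algebraMap_smul]
      rwa [h4] at h3
    have small : ∀ (n : ℕ) (w : W), n < (n1 - n0 + 1).toNat → w ∈ E (n0 + n) →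
        PolynomialModule.single L n w ∈ Submodule.span (Lat.SS k η ζ) (Set.range g) := by
      intro n w hn hw
      have hw2 := (Module.finBasis k (E (n0 + n))).sum_repr ⟨w, hw⟩
      have hw3 := congrArg (Submodule.subtype _) hw2
      rw [map_sum] at hw3
      simp only [map_smul, Submodule.subtype_apply] at hw3
      rw [← hw3]
      have h6 : ∀ v : W, PolynomialModule.single L n v = PolynomialModule.lsingle L n v := fun v => rfl
      rw [h6, map_sum]
      refine Submodule.sum_mem _ fun j _ => ?_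
      have h7 : PolynomialModule.lsingle L n
          (((Module.finBasis k (E (n0 + n))).repr ⟨w, hw⟩) j • ((Module.finBasis k (E (n0 + n))) j : W)) =
          ((Module.finBasis k (E (n0 + n))).repr ⟨w, hw⟩) j •
            PolynomialModule.single L n ((Module.finBasis k (E (n0 + n))) j : W) := by
        rw [← h6]
        apply PolynomialModule.coeff_injective
        show Finsupp.single n _ = _ • Finsupp.single n _
        rw [Finsupp.smul_single]
      rw [h7]
      exact hk _ _ (Submodule.subset_span ⟨⟨⟨n, hn⟩, j⟩, rfl⟩)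
    have hmon : ∀ (l : L) (hl : Polynomial.monomial 1 l ∈ Lat.SS k η ζ) (n : ℕ) (w : W),
        PolynomialModule.single L n w ∈ Submodule.span (Lat.SS k η ζ) (Set.range g) →
        PolynomialModule.single L (n + 1) (l • w) ∈ Submodule.span (Lat.SS k η ζ) (Set.range g) := by
      intro l hl n w hw
      have h8 := Submodule.smul_mem _ (⟨Polynomial.monomial 1 l, hl⟩ : Lat.SS k η ζ) hw
      have h9 : (⟨Polynomial.monomial 1 l, hl⟩ : Lat.SS k η ζ) • PolynomialModule.single L n w =
          PolynomialModule.single L (n + 1) (l • w) := by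
        show (Polynomial.monomial 1 l) • PolynomialModule.single L n w = _
        rw [PolynomialModule.monomial_smul_single, add_comm]
      rwa [h9] at h8
    have key : ∀ (n : ℕ) (w : W), w ∈ E (n0 + n) →
        PolynomialModule.single L n w ∈ Submodule.span (Lat.SS k η ζ) (Set.range g) := by
      intro n
      induction n with
      | zero =>
        intro w hw
        exact small 0 w (by omega) hw
      | succ n ih =>
        intro w hw
        rcases Nat.lt_or_ge (n + 1) (n1 - n0 + 1).toNat with h0 | h0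
        · exact small _ w h0 hw
        · have h10 := hn1 (n0 + n) (by omega)
          have h11 : w ∈ E (n0 + n + 1) := by
            have e : n0 + ((n + 1 : ℕ) : ℤ) = n0 + n + 1 := by push_cast; ring
            rwa [e] at hw
          obtain ⟨u, hu, v3, hv3, rfl⟩ := Submodule.mem_sup.1 (h10 h11)
          obtain ⟨v1, hv1, v2, hv2, rfl⟩ := Submodule.mem_sup.1 hu
          obtain ⟨v2, hv2', rfl⟩ := mem_sm.1 hv2
          obtain ⟨v3, hv3', rfl⟩ := mem_sm.1 hv3
          have a1 := hmon 1 (Algebra.subset_adjoin (by simp)) n v1 (ih _ hv1)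
          have a2 := hmon η (Algebra.subset_adjoin (by simp)) n v2 (ih _ hv2')
          have a3 := hmon ζ (Algebra.subset_adjoin (by simp)) n v3 (ih _ hv3')
          rw [one_smul] at a1
          rw [PolynomialModule.single_add, PolynomialModule.single_add]
          exact Submodule.add_mem _ (Submodule.add_mem _ a1 a2) a3
    apply le_antisymm
    · rw [Submodule.span_le]
      rintro _ ⟨p, rfl⟩
      intro n
      show (PolynomialModule.single L (p.1 : ℕ) _).coeff n ∈ E (n0 + n)
      rw [PolynomialModule.coeff_single, Finsupp.single_apply]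
      split_ifs with hp
      · rw [← hp]
        exact (Module.finBasis k (E (n0 + (p.1 : ℕ))) p.2).2
      · exact Submodule.zero_mem _
    · intro f hf
      have h5 : f = ∑ n ∈ f.coeff.support, PolynomialModule.single L n (f.coeff n) := by
        apply PolynomialModule.coeff_injective
        rw [PolynomialModule.coeff_sum]
        simp only [PolynomialModule.coeff_single]
        exact (Finsupp.sum_single f.coeff).symm
      rw [h5]
      exact Submodule.sum_mem _ fun n _ => key n _ (hf n)
  have : IsNoetherianRing (Lat.SS k η ζ) := Lat.SS_noeth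
  have hN : IsNoetherian (Lat.SS k η ζ) M := isNoetherian_of_fg_of_noetherian M hMfg
  have hM'fg : M'.FG := by
    have h12 := (hN.noetherian (M'.comap M.subtype)).map M.subtype
    rwa [Submodule.map_comap_subtype, inf_eq_right.2 hMM'] at h12
  obtain ⟨T, hT⟩ := hM'fg
  -- bound the supports
  obtain ⟨N, hN⟩ : ∃ N : ℕ, ∀ f ∈ T, ∀ n, N < n → f.coeff n = 0 := by
    refine ⟨T.sup (fun f => f.coeff.support.sup id), fun f hf n hn => ?_⟩
    by_contra hne
    have h13 : n ≤ f.coeff.support.sup id := Finset.le_sup (f := id) (Finsupp.mem_support_iff.2 hne)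
    have h14 : f.coeff.support.sup id ≤ T.sup (fun f => f.coeff.support.sup id) :=
      Finset.le_sup (f := fun f : PolynomialModule L W => f.coeff.support.sup id) hf
    omega
  let R : ℕ → Submodule k W := fun n =>
    E' (n0 + n) ⊔ sm η (E' (n0 + n)) ⊔ sm ζ (E' (n0 + n))
  let Q : Submodule k (PolynomialModule L W) :=
    { carrier := {f | f ∈ Lat.MM E' n0 ∧ ∀ n, N ≤ n → f.coeff (n + 1) ∈ R n}
      add_mem' := fun {f g} hf hg => ⟨Submodule.add_mem _ hf.1 hg.1, fun n hn => by
        rw [PolynomialModule.coeff_add, Finsupp.add_apply]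
        exact Submodule.add_mem _ (hf.2 n hn) (hg.2 n hn)⟩
      zero_mem' := ⟨Submodule.zero_mem _, fun n _ => by
        rw [PolynomialModule.coeff_zero, Finsupp.zero_apply]
        exact Submodule.zero_mem _⟩
      smul_mem' := fun c f hf => ⟨Submodule.smul_mem _ c hf.1, fun n hn => by
        have : (c • f).coeff (n + 1) = c • f.coeff (n + 1) := rfl
        rw [this]
        exact Submodule.smul_mem _ _ (hf.2 n hn)⟩ }
  have hQ1 : ∀ f ∈ Q, (Polynomial.monomial 1 (1 : L)) • f ∈ Q := by
    intro f hf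
    refine ⟨Lat.MM_stab 1 e1' f hf.1, fun n _ => ?_⟩
    rw [PolynomialModule.monomial_smul_apply, if_pos (by omega), one_smul]
    exact Submodule.mem_sup_left (Submodule.mem_sup_left (hf.1 n))
  have hQ2 : ∀ f ∈ Q, (Polynomial.monomial 1 η) • f ∈ Q := by
    intro f hf
    refine ⟨Lat.MM_stab η e2' f hf.1, fun n _ => ?_⟩
    rw [PolynomialModule.monomial_smul_apply, if_pos (by omega)]
    exact Submodule.mem_sup_left (Submodule.mem_sup_right (mem_sm.2 ⟨_, hf.1 n, rfl⟩))
  have hQ3 : ∀ f ∈ Q, (Polynomial.monomial 1 ζ) • f ∈ Q := by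
    intro f hf
    refine ⟨Lat.MM_stab ζ e3' f hf.1, fun n _ => ?_⟩
    rw [PolynomialModule.monomial_smul_apply, if_pos (by omega)]
    exact Submodule.mem_sup_right (mem_sm.2 ⟨_, hf.1 n, rfl⟩)
  have hM'Q : M' ≤ Lat.toSS Q hQ1 hQ2 hQ3 := by
    rw [← hT, Submodule.span_le]
    intro f hf
    have hf' : f ∈ M' := by rw [← hT]; exact Submodule.subset_span hf
    refine ⟨hf', fun n hn => ?_⟩
    rw [hN f hf (n + 1) (by omega)]
    exact Submodule.zero_mem _
  refine ⟨n0 + N, fun n hn => ?_⟩
  obtain ⟨m, rfl⟩ := Int.le.dest hn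
  intro w hw
  have h15 : PolynomialModule.single L (N + m + 1) w ∈ M' := by
    intro j
    show (PolynomialModule.single L (N + m + 1) w).coeff j ∈ E' (n0 + j)
    rw [PolynomialModule.coeff_single, Finsupp.single_apply]
    split_ifs with hj
    · rw [← hj]
      have e : n0 + ((N + m + 1 : ℕ) : ℤ) = n0 + N + m + 1 := by push_cast; ring
      rwa [e]
    · exact Submodule.zero_mem _
  have h16 := (hM'Q h15).2 (N + m) (by omega)
  rw [PolynomialModule.coeff_single, Finsupp.single_apply, if_pos rfl] at h16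
  have e : n0 + ((N + m : ℕ) : ℤ) = n0 + N + m := by push_cast; ring
  simp only [R, e] at h16
  exact h16

end piece

end R169
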