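import Crest.Agent.R169.Lat0
import Crest.Agent.R169.C0Rd

/-!
# Row 169, module 0 (LAT): L2 (Hilbert polynomials) and L3 (helper88)
-/

set_option autoImplicit false

namespace R169.Lat

/-! ### asymptotics -/

/-- comparison of leading coefficients -/
theorem lead2_le {a b c' a' b' c'' : ℚ}
    (h : ∃ n0 : ℤ, ∀ n : ℤ, n0 ≤ n → a' * n ^ 2 + b' * n + c'' ≤ a * n ^ 2 + b * n + c') : a' ≤ a := by
  by_contra hlt
  rw [not_le] at hlt
  obtain ⟨n0, h⟩ := h
  set δ := a' - a with hδ
  have hδ0 : 0 < δ := by rw [hδ]; linarith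
  obtain ⟨m, hm⟩ := exists_nat_gt ((|b - b'| + |c' - c''|) / δ)
  set n : ℤ := max n0 (max 1 (m : ℤ)) with hn
  have h1 := h n (le_max_left _ _)
  have h2 : (1 : ℚ) ≤ n := by exact_mod_cast (le_max_left _ _).trans (le_max_right _ _)
  have h3 : (m : ℚ) ≤ n := by exact_mod_cast (le_max_right _ _).trans (le_max_right _ _)
  have h4 : |b - b'| + |c' - c''| < δ * n := by
    rw [div_lt_iff₀ hδ0] at hm
    nlinarith
  have h5 : δ * n * n ≤ (b - b') * n + (c' - c'') := by
    rw [hδ]; nlinarith
  have h6 : (b - b') * n + (c' - c'') ≤ (|b - b'| + |c' - c''|) * n := by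
    have e1 := le_abs_self (b - b')
    have e2 := le_abs_self (c' - c'')
    have e3 := abs_nonneg (c' - c'')
    nlinarith
  nlinarith

theorem lead1_le {b c' b' c'' : ℚ}
    (h : ∃ n0 : ℤ, ∀ n : ℤ, n0 ≤ n → b' * n + c'' ≤ b * n + c') : b' ≤ b := by
  by_contra hlt
  rw [not_le] at hlt
  obtain ⟨n0, h⟩ := h
  have hδ0 : 0 < b' - b := by linarith
  obtain ⟨m, hm⟩ := exists_nat_gt ((|c' - c''|) / (b' - b))
  set n : ℤ := max n0 (m : ℤ) with hn
  have h1 := h n (le_max_left _ _)
  have h3 : (m : ℚ) ≤ n := by exact_mod_cast (le_max_right _ _)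
  rw [div_lt_iff₀ hδ0] at hm
  have e2 := le_abs_self (c' - c'')
  nlinarith

section

variable {k L : Type} [Field k] [Field L] [Algebra k L]
variable {W : Type} [AddCommGroup W] [Module k W] [Module L W] [IsScalarTower k L W]
variable {D : GD k L} {η ζ : L} {E E' : ℤ → Submodule k W}

theorem le_of_HP {N β γ N' β' γ' : ℚ} (h : HasHP E N β γ) (h' : HasHP E' N' β' γ')
    (hle : ∀ n, Module.finrank k (E' n) ≤ Module.finrank k (E n)) : N' ≤ N := by
  obtain ⟨a, ha⟩ := h
  obtain ⟨b, hb⟩ := h'
  have : N' / 2 ≤ N / 2 := by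
    refine lead2_le (b := -β) (b' := -β') (c' := γ) (c'' := γ') ⟨max a b, fun n hn => ?_⟩
    have h1 := ha n ((le_max_left _ _).trans hn)
    have h2 := hb n ((le_max_right _ _).trans hn)
    have h3 : (Module.finrank k (E' n) : ℚ) ≤ Module.finrank k (E n) := by exact_mod_cast hle n
    rw [h1, h2] at h3
    linarith
  linarith

theorem beta_le_of {N β γ β' γ' : ℚ} (h : HasHP E N β γ) (h' : HasHP E' N β' γ')
    (hle : ∀ n, Module.finrank k (E' n) ≤ Module.finrank k (E n)) : β ≤ β' := by
  obtain ⟨a, ha⟩ := h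
  obtain ⟨b, hb⟩ := h'
  have : -β' ≤ -β := by
    refine lead1_le (c' := γ) (c'' := γ') ⟨max a b, fun n hn => ?_⟩
    have h1 := ha n ((le_max_left _ _).trans hn)
    have h2 := hb n ((le_max_right _ _).trans hn)
    have h3 : (Module.finrank k (E' n) : ℚ) ≤ Module.finrank k (E n) := by exact_mod_cast hle n
    rw [h1, h2] at h3
    linarith
  linarith

theorem gamma_le_of {N β γ γ' : ℚ} (h : HasHP E N β γ) (h' : HasHP E' N β γ')
    (hle : ∀ n, Module.finrank k (E' n) ≤ Module.finrank k (E n)) : γ' ≤ γ := by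
  obtain ⟨a, ha⟩ := h
  obtain ⟨b, hb⟩ := h'
  have h1 := ha (max a b) (le_max_left _ _)
  have h2 := hb (max a b) (le_max_right _ _)
  have h3 : (Module.finrank k (E' (max a b)) : ℚ) ≤ Module.finrank k (E (max a b)) := by
    exact_mod_cast hle _
  rw [h1, h2] at h3
  linarith

theorem _root_.R169.HasHP.unique {N β γ N' β' γ' : ℚ} (h : HasHP E N β γ)
    (h' : HasHP E N' β' γ') : N = N' ∧ β = β' ∧ γ = γ' := by
  have e : N = N' := le_antisymm (le_of_HP h' h fun _ => le_rfl) (le_of_HP h h' fun _ => le_rfl)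
  subst e
  have e : β = β' := le_antisymm (beta_le_of h h' fun _ => le_rfl) (beta_le_of h' h fun _ => le_rfl)
  subst e
  exact ⟨rfl, rfl, le_antisymm (gamma_le_of h' h fun _ => le_rfl) (gamma_le_of h h' fun _ => le_rfl)⟩

/-! ### L3: monotonicity -/

theorem _root_.R169.HasHP.beta_le {N β γ β' γ' : ℚ} (hle : ∀ n, E' n ≤ E n)
    (hf : ∀ n, FiniteDimensional k (E n))
    (h : HasHP E N β γ) (h' : HasHP E' N β' γ') : β ≤ β' :=
  beta_le_of h h' fun n => by have := hf n; exact Submodule.finrank_mono (hle n)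

theorem _root_.R169.HasHP.gamma_le {N β γ γ' : ℚ} (hle : ∀ n, E' n ≤ E n)
    (hf : ∀ n, FiniteDimensional k (E n))
    (h : HasHP E N β γ) (h' : HasHP E' N β γ') : γ' ≤ γ :=
  gamma_le_of h h' fun n => by have := hf n; exact Submodule.finrank_mono (hle n)

theorem _root_.R169.HasHP.beta_eq_of_bdd {N β γ N' β' γ' : ℚ} (hle : ∀ n, E' n ≤ E n)
    (hf : ∀ n, FiniteDimensional k (E n)) (C : ℕ)
    (hC : ∀ n, Module.finrank k (E n) ≤ Module.finrank k (E' n) + C)
    (h : HasHP E N β γ) (h' : HasHP E' N' β' γ') : N = N' ∧ β = β' := by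
  have hfr : ∀ n, Module.finrank k (E' n) ≤ Module.finrank k (E n) := fun n => by
    have := hf n; exact Submodule.finrank_mono (hle n)
  have h1 := le_of_HP h h' hfr
  have h2 : N ≤ N' := by
    obtain ⟨a, ha⟩ := h
    obtain ⟨b, hb⟩ := h'
    have : N / 2 ≤ N' / 2 := by
      refine lead2_le (b := -β') (b' := -β) (c' := γ' + C) (c'' := γ) ⟨max a b, fun n hn => ?_⟩
      have h1 := ha n ((le_max_left _ _).trans hn)
      have h2 := hb n ((le_max_right _ _).trans hn)
      have h3 : (Module.finrank k (E n) : ℚ) ≤ Module.finrank k (E' n) + C := by exact_mod_cast hC n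
      rw [h1, h2] at h3
      linarith
    linarith
  have e : N = N' := le_antisymm h2 h1
  subst e
  refine ⟨rfl, le_antisymm (beta_le_of h h' hfr) ?_⟩
  obtain ⟨a, ha⟩ := h
  obtain ⟨b, hb⟩ := h'
  have : -β ≤ -β' := by
    refine lead1_le (c' := γ' + C) (c'' := γ) ⟨max a b, fun n hn => ?_⟩
    have h1 := ha n ((le_max_left _ _).trans hn)
    have h2 := hb n ((le_max_right _ _).trans hn)
    have h3 : (Module.finrank k (E n) : ℚ) ≤ Module.finrank k (E' n) + C := by exact_mod_cast hC n
    rw [h1, h2] at h3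
    linarith
  linarith

/-! ### sub and quotient -/

theorem _root_.R169.finrank_sat_add_quo (E : ℤ → Submodule k W)
    (hf : ∀ n, FiniteDimensional k (E n)) (V : Submodule L W) (n : ℤ) :
    Module.finrank k (E n) = Module.finrank k (sat E V n) + Module.finrank k (quo E V n) := by
  have := hf n
  let f : E n →ₗ[k] (W ⧸ V) := (V.mkQ.restrictScalars k).domRestrict (E n)
  have h1 : LinearMap.range f = quo E V n := by
    simp only [f, quo]; rw [LinearMap.range_domRestrict]
  have hle : sat E V n ≤ E n := inf_le_left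
  have h2 : LinearMap.ker f = (sat E V n).comap (E n).subtype := by
    ext ⟨x, hx⟩
    rw [LinearMap.mem_ker, Submodule.mem_comap]
    simp only [f, sat, LinearMap.domRestrict_apply, LinearMap.coe_restrictScalars,
      Submodule.mkQ_apply, Submodule.Quotient.mk_eq_zero, Submodule.subtype_apply, Submodule.mem_inf,
      Submodule.restrictScalars_mem, hx, true_and]
  have h3 := LinearMap.finrank_range_add_finrank_ker f
  rw [h1, h2, (Submodule.comapSubtypeEquivOfLe hle).finrank_eq] at h3
  rw [← h3, add_comm]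

theorem _root_.R169.HasHP.sub_quo {V : Submodule L W} {N β γ N1 β1 γ1 N2 β2 γ2 : ℚ}
    (hf : ∀ n, FiniteDimensional k (E n))
    (h : HasHP E N β γ) (h1 : HasHP (sat E V) N1 β1 γ1) (h2 : HasHP (quo E V) N2 β2 γ2) :
    N = N1 + N2 ∧ β = β1 + β2 ∧ γ = γ1 + γ2 := by
  have h3 : HasHP E (N1 + N2) (β1 + β2) (γ1 + γ2) := by
    obtain ⟨a, ha⟩ := h1
    obtain ⟨b, hb⟩ := h2
    refine ⟨max a b, fun n hn => ?_⟩
    rw [finrank_sat_add_quo E hf V n]
    push_cast
    rw [ha n ((le_max_left _ _).trans hn), hb n ((le_max_right _ _).trans hn)]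
    ring
  exact h.unique h3

theorem _root_.R169.HasHP.shift {N β γ : ℚ} (h : HasHP E N β γ) (c : ℤ) :
    HasHP (fun n => E (n + c)) N (β - N * c) (N / 2 * c ^ 2 - β * c + γ) := by
  obtain ⟨a, ha⟩ := h
  refine ⟨a - c, fun n hn => ?_⟩
  have := ha (n + c) (by omega)
  rw [this]; push_cast; ring

/-! ### `lspan` -/

theorem sat_le (V : Submodule L W) (n : ℤ) : sat E V n ≤ E n := inf_le_left

theorem IsLat.mono_le (h : IsLat D η ζ E) {m n : ℤ} (hmn : m ≤ n) : E m ≤ E n := by
  obtain ⟨d, rfl⟩ := Int.le.dest hmn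
  clear hmn
  induction d with
  | zero => simp
  | succ d ih =>
    refine ih.trans ?_
    have := h.mono (m + d)
    push_cast
    rwa [← add_assoc]

/-- every vector of the span has a multiple in the lattice -/
theorem exists_mul_mem (h : IsLat D η ζ E) {w : W} (hw : w ∈ lspan L E) :
    ∃ (j : ℤ) (b : L) (m : ℤ), b ∈ D.B j ∧ b ≠ 0 ∧ b • w ∈ E m := by
  refine Submodule.span_induction (p := fun w _ => ∃ (j : ℤ) (b : L) (m : ℤ), b ∈ D.B j ∧ b ≠ 0 ∧
    b • w ∈ E m) ?_ ?_ ?_ ?_ hw
  · intro w hw
    obtain ⟨n, hn⟩ := Set.mem_iUnion.1 hw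
    exact ⟨1, 1, n, D.one_mem, one_ne_zero, by rw [one_smul]; exact hn⟩
  · exact ⟨1, 1, 0, D.one_mem, one_ne_zero, by rw [smul_zero]; exact Submodule.zero_mem _⟩
  · rintro w1 w2 _ _ ⟨j1, b1, m1, h1, h1', h1''⟩ ⟨j2, b2, m2, h2, h2', h2''⟩
    refine ⟨j1 + j2, b1 * b2, max (j2 + m1) (j1 + m2), D.mul_mem h1 h2, mul_ne_zero h1' h2', ?_⟩
    rw [smul_add]
    apply Submodule.add_mem
    · rw [mul_comm, mul_smul]
      exact IsLat.mono_le h (le_max_left _ _) (h.smul_mem h2 h1'')
    · rw [mul_smul]
      exact IsLat.mono_le h (le_max_right _ _) (h.smul_mem h1 h2'')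
  · rintro l w _ ⟨j, b, m, h1, h2, h3⟩
    obtain ⟨n, a, ha, c, hc, hc0, rfl⟩ := D.frac l
    refine ⟨n + j, c * b, n + m, D.mul_mem hc h1, mul_ne_zero hc0 h2, ?_⟩
    have : (c * b) • (a / c) • w = a • b • w := by
      rw [← mul_smul, ← mul_smul]; congr 1; field_simp
    rw [this]
    exact h.smul_mem ha h3

theorem _root_.R169.lspan_sat {V : Submodule L W} (h : IsLat D η ζ E) (hs : lspan L E = ⊤) :
    lspan L (sat E V) = V := by
  apply le_antisymm
  · rw [lspan, Submodule.span_le]
    intro w hw
    obtain ⟨n, hn⟩ := Set.mem_iUnion.1 hw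
    exact hn.2
  · intro v hv
    obtain ⟨j, b, m, -, hb, hm⟩ := exists_mul_mem h (w := v) (by rw [hs]; trivial)
    have h1 : b • v ∈ lspan L (sat E V) :=
      Submodule.subset_span (Set.mem_iUnion.2 ⟨m, hm, V.smul_mem b hv⟩)
    have : v = b⁻¹ • b • v := by rw [← mul_smul, inv_mul_cancel₀ hb, one_smul]
    rw [this]
    exact Submodule.smul_mem _ _ h1

theorem _root_.R169.lspan_quo {V : Submodule L W} (hs : lspan L E = ⊤) :
    lspan L (quo E V) = ⊤ := by
  have h1 : lspan L (quo E V) = (lspan L E).map V.mkQ := by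
    rw [lspan, lspan, Submodule.map_span]
    congr 1
    ext x
    simp only [quo, Set.mem_iUnion, SetLike.mem_coe, Submodule.mem_map, Set.mem_image,
      LinearMap.coe_restrictScalars]
    constructor
    · rintro ⟨n, y, hy, rfl⟩; exact ⟨y, ⟨n, hy⟩, rfl⟩
    · rintro ⟨y, ⟨n, hy⟩, rfl⟩; exact ⟨n, y, hy, rfl⟩
  rw [h1, hs, Submodule.map_top, Submodule.range_mkQ]

/-! ### free lattices -/

/-- `S w_1 + ... + S w_s` -/
theorem finrank_free {s : ℕ} (w : Fin s → W) (hw : LinearIndependent L w) (S : Submodule k L)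
    [FiniteDimensional k S] :
    Module.finrank k (⨆ i, S.map ((LinearMap.toSpanSingleton L W (w i)).restrictScalars k) :
      Submodule k W) = s * Module.finrank k S ∧
    FiniteDimensional k (⨆ i, S.map ((LinearMap.toSpanSingleton L W (w i)).restrictScalars k) :
      Submodule k W) := by
  let e : (Fin s → S) →ₗ[k] W :=
    { toFun := fun v => ∑ i, (v i : L) • w i
      map_add' := fun u v => by
        rw [← Finset.sum_add_distrib]
        exact Finset.sum_congr rfl fun i _ => by rw [← add_smul]; rfl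
      map_smul' := fun c v => by
        rw [RingHom.id_apply, Finset.smul_sum]
        exact Finset.sum_congr rfl fun i _ => by rw [← smul_assoc]; rfl }
  have hinj : Function.Injective e := by
    rw [injective_iff_map_eq_zero]
    intro v hv
    have h1 := Fintype.linearIndependent_iff.1 hw (fun i => (v i : L)) hv
    ext i
    exact h1 i
  have hrange : LinearMap.range e =
      (⨆ i, S.map ((LinearMap.toSpanSingleton L W (w i)).restrictScalars k) : Submodule k W) := by
    apply le_antisymm
    · rintro _ ⟨v, rfl⟩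
      change ∑ i, (v i : L) • w i ∈ _
      refine Submodule.sum_mem _ fun i _ => ?_
      exact Submodule.mem_iSup_of_mem i ⟨v i, (v i).2, rfl⟩
    · refine iSup_le fun i => ?_
      rintro _ ⟨b, hb, rfl⟩
      refine ⟨Pi.single i ⟨b, hb⟩, ?_⟩
      change ∑ j, ((Pi.single i (⟨b, hb⟩ : S) : Fin s → S) j : L) • w j = b • w i
      rw [Finset.sum_eq_single i]
      · rw [Pi.single_eq_same]
      · intro j _ hj
        rw [Pi.single_eq_of_ne hj]; simp
      · intro h; exact absurd (Finset.mem_univ i) h
  rw [← hrange]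
  have e2 : (Fin s → S) ≃ₗ[k] LinearMap.range e := LinearEquiv.ofInjective e hinj
  refine ⟨?_, LinearEquiv.finiteDimensional e2⟩
  rw [← e2.finrank_eq, Module.finrank_pi_fintype]
  simp

theorem _root_.R169.hasHP_free {s : ℕ} (w : Fin s → W) (hw : LinearIndependent L w) (c : ℤ)
    {d βB γB : ℚ} (hB : HasHP D.B d βB γB) :
    HasHP (fun n => ⨆ i, (D.B (n - c)).map ((LinearMap.toSpanSingleton L W (w i)).restrictScalars k))
      (s * d) (s * (βB + d * c)) (s * (γB + βB * c + d / 2 * c ^ 2)) := by
  obtain ⟨a, ha⟩ := hB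
  refine ⟨a + c, fun n hn => ?_⟩
  have := D.fin (n - c)
  rw [(finrank_free w hw (D.B (n - c))).1]
  push_cast
  rw [ha (n - c) (by omega)]
  push_cast; ring

/-! ### rank -/

theorem d_pos (hP : Par D η ζ) {d βB γB : ℚ} (hB : HasHP D.B d βB γB) : 0 < d := by
  have hA : HasHP (A k η ζ) 1 (-3 / 2) 1 := by
    refine ⟨0, fun n hn => ?_⟩
    rw [finrank_A_rat hP.indep (by omega)]
    ring
  have := le_of_HP hB hA fun n => by
    have := D.fin n
    exact Submodule.finrank_mono (A_le_B hP n)
  linarith

/-- an `L`-basis of the span inside one `E c` -/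
theorem exists_basis_mem [FiniteDimensional L W] (h : IsLat D η ζ E) :
    ∃ (r : ℕ) (w : Fin r → W) (c : ℤ), r = Module.finrank L (lspan L E) ∧ LinearIndependent L w ∧
      (∀ i, w i ∈ E c) ∧ Submodule.span L (Set.range w) = lspan L E := by
  obtain ⟨b, hb1, hb2, hb3⟩ := exists_linearIndependent L (⋃ n, (E n : Set W))
  have hfin : b.Finite := hb3.setFinite
  have : Fintype b := hfin.fintype
  have hcard : Fintype.card b = Module.finrank L (lspan L E) := by
    have h1 := finrank_span_eq_card hb3
    rw [Subtype.range_coe, hb2] at h1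
    exact h1.symm
  let e : Fin (Module.finrank L (lspan L E)) ≃ b := (Fintype.equivFinOfCardEq hcard).symm
  have hmem : ∀ i, ∃ n, (e i : W) ∈ E n := fun i => by
    obtain ⟨n, hn⟩ := Set.mem_iUnion.1 (hb1 (e i).2)
    exact ⟨n, hn⟩
  choose n hn using hmem
  obtain ⟨c, hc⟩ : ∃ c : ℤ, ∀ i, n i ≤ c := by
    obtain ⟨c, hc⟩ := (Set.finite_range n).bddAbove
    exact ⟨c, fun i => hc ⟨i, rfl⟩⟩
  refine ⟨_, fun i => (e i : W), c, rfl, hb3.comp e e.injective,
    fun i => IsLat.mono_le h (hc i) (hn i), ?_⟩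
  have : Set.range (fun i => (e i : W)) = b := by
    ext x; constructor
    · rintro ⟨i, rfl⟩; exact (e i).2
    · intro hx; exact ⟨e.symm ⟨x, hx⟩, by simp⟩
  rw [this]; exact hb2

/-- common denominators -/
theorem common_denom (s : ℕ) (l : Fin s → L) : ∃ (j : ℤ) (b : L), b ∈ D.B j ∧ b ≠ 0 ∧
    ∀ i, b * l i ∈ D.B j := by
  induction s with
  | zero => exact ⟨1, 1, D.one_mem, one_ne_zero, fun i => i.elim0⟩
  | succ s ih =>
    obtain ⟨j, b, hb, hb0, hbl⟩ := ih (fun i => l i.castSucc)
    obtain ⟨n, a, ha, c, hc, hc0, hac⟩ := D.frac (l (Fin.last s))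
    refine ⟨n + j, c * b, D.mul_mem hc hb, mul_ne_zero hc0 hb0, fun i => ?_⟩
    refine Fin.lastCases ?_ (fun i => ?_) i
    · rw [hac]
      have : c * b * (a / c) = a * b := by field_simp
      rw [this]; exact D.mul_mem ha hb
    · rw [mul_assoc]; exact D.mul_mem hc (hbl i)

theorem _root_.R169.IsLat.rank [FiniteDimensional L W] (hP : Par D η ζ) {d βB γB N β γ : ℚ}
    (hB : HasHP D.B d βB γB) (h : IsLat D η ζ E) (hh : HasHP E N β γ) :
    0 < d ∧ N = d * Module.finrank L (lspan L E) := by
  refine ⟨d_pos hP hB, ?_⟩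
  obtain ⟨r, w, c, hr, hw, hwc, hspan⟩ := exists_basis_mem h
  rw [← hr]
  apply le_antisymm
  · -- upper bound
    obtain ⟨n1, hn1⟩ := h.gen
    have hfin := h.fin n1
    -- a finite generating set of `E n1` over `k`
    obtain ⟨S, hS⟩ := (Submodule.fg_iff_finiteDimensional (E n1)).2 hfin
    have hcoord : ∀ x ∈ E n1, ∃ l : Fin r → L, x = ∑ i, l i • w i := by
      intro x hx
      have h1 : x ∈ Submodule.span L (Set.range w) := by
        rw [hspan]; exact Submodule.subset_span (Set.mem_iUnion.2 ⟨n1, hx⟩)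
      obtain ⟨l, hl⟩ := (Submodule.mem_span_range_iff_exists_fun L).1 h1
      exact ⟨l, hl.symm⟩
    -- common denominator for all of `E n1`
    obtain ⟨j, b, hb, hb0, hbS⟩ : ∃ (j : ℤ) (b : L), b ∈ D.B j ∧ b ≠ 0 ∧ ∀ x ∈ E n1,
        b • x ∈ (⨆ i, (D.B j).map ((LinearMap.toSpanSingleton L W (w i)).restrictScalars k) :
          Submodule k W) := by
      have hS' : ∀ T : Finset W, (∀ x ∈ T, x ∈ E n1) → ∃ (j : ℤ) (b : L), b ∈ D.B j ∧ b ≠ 0 ∧
          ∀ x ∈ T, b • x ∈ (⨆ i, (D.B j).map
            ((LinearMap.toSpanSingleton L W (w i)).restrictScalars k) : Submodule k W) := by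
        classical
        intro T
        induction T using Finset.induction_on with
        | empty => intro _; exact ⟨1, 1, D.one_mem, one_ne_zero, fun x hx => by simp at hx⟩
        | insert x T hx ih =>
          intro hT
          obtain ⟨j, b, hb, hb0, hbT⟩ := ih fun y hy => hT y (Finset.mem_insert_of_mem hy)
          obtain ⟨l, hl⟩ := hcoord x (hT x (Finset.mem_insert_self _ _))
          obtain ⟨j', b', hb', hb0', hbl⟩ := common_denom (D := D) r l
          refine ⟨j' + j, b' * b, D.mul_mem hb' hb, mul_ne_zero hb0' hb0, fun y hy => ?_⟩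
          rcases Finset.mem_insert.1 hy with rfl | hy
          · rw [hl, Finset.smul_sum]
            refine Submodule.sum_mem _ fun i _ => Submodule.mem_iSup_of_mem i ?_
            refine ⟨b' * b * l i, ?_, ?_⟩
            · have : b' * b * l i = (b' * l i) * b := by ring
              rw [this]; exact D.mul_mem (hbl i) hb
            · simp [LinearMap.toSpanSingleton_apply, mul_smul]
          · rw [mul_smul]
            have h2 := hbT y hy
            refine Submodule.iSup_induction _ (motive := fun z => b' • z ∈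
              (⨆ i, (D.B (j' + j)).map ((LinearMap.toSpanSingleton L W (w i)).restrictScalars k) :
                Submodule k W)) h2 ?_ ?_ ?_
            · rintro i _ ⟨a, ha, rfl⟩
              refine Submodule.mem_iSup_of_mem i ⟨b' * a, D.mul_mem hb' ha, ?_⟩
              simp [LinearMap.toSpanSingleton_apply, mul_smul]
            · rw [smul_zero]; exact Submodule.zero_mem _
            · intro y z hy hz
              rw [smul_add]; exact Submodule.add_mem _ hy hz
      obtain ⟨j, b, hb, hb0, hbS⟩ := hS' S fun x hx => by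
        rw [← hS]; exact Submodule.subset_span hx
      refine ⟨j, b, hb, hb0, fun x hx => ?_⟩
      rw [← hS] at hx
      refine Submodule.span_induction (p := fun x _ => b • x ∈ (⨆ i, (D.B j).map
        ((LinearMap.toSpanSingleton L W (w i)).restrictScalars k) : Submodule k W)) ?_ ?_ ?_ ?_ hx
      · intro x hx; exact hbS x hx
      · rw [smul_zero]; exact Submodule.zero_mem _
      · intro x y _ _ hx hy; rw [smul_add]; exact Submodule.add_mem _ hx hy
      · intro a x _ hx
        rw [smul_comm]; exact Submodule.smul_mem _ a hx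
    -- all degrees
    have hall : ∀ m : ℕ, ∀ x ∈ E (n1 + m), b • x ∈ (⨆ i, (D.B (j + m)).map
        ((LinearMap.toSpanSingleton L W (w i)).restrictScalars k) : Submodule k W) := by
      intro m
      induction m with
      | zero => intro x hx; simp only [Nat.cast_zero, add_zero] at hx ⊢; exact hbS x hx
      | succ m ih =>
        intro x hx
        push_cast at hx ⊢
        rw [← add_assoc] at hx ⊢
        have hstep : ∀ a ∈ D.B 1, ∀ y ∈ E (n1 + m), b • a • y ∈ (⨆ i, (D.B (j + m + 1)).map
            ((LinearMap.toSpanSingleton L W (w i)).restrictScalars k) : Submodule k W) := by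
          intro a ha y hy
          rw [smul_comm]
          refine Submodule.iSup_induction _ (motive := fun z => a • z ∈
            (⨆ i, (D.B (j + m + 1)).map ((LinearMap.toSpanSingleton L W (w i)).restrictScalars k) :
              Submodule k W)) (ih y hy) ?_ ?_ ?_
          · rintro i _ ⟨a', ha', rfl⟩
            refine Submodule.mem_iSup_of_mem i ⟨a * a', ?_, ?_⟩
            · rw [add_comm _ (1 : ℤ)]; exact D.mul_mem ha ha'
            · simp [LinearMap.toSpanSingleton_apply, mul_smul]
          · rw [smul_zero]; exact Submodule.zero_mem _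
          · intro y z hy hz
            rw [smul_add]; exact Submodule.add_mem _ hy hz
        have h2 := hn1 (n1 + m) (by omega) hx
        obtain ⟨y, hy, z, hz, rfl⟩ := Submodule.mem_sup.1 h2
        obtain ⟨y1, hy1, y2, hy2, rfl⟩ := Submodule.mem_sup.1 hy
        obtain ⟨y3, hy3, rfl⟩ := mem_sm.1 hy2
        obtain ⟨z3, hz3, rfl⟩ := mem_sm.1 hz
        rw [smul_add, smul_add]
        refine Submodule.add_mem _ (Submodule.add_mem _ ?_ (hstep η hP.hη y3 hy3)) (hstep ζ hP.hζ z3 hz3)
        have := hstep 1 D.one_mem y1 hy1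
        rwa [one_smul] at this
    -- compare
    have hfree := hasHP_free w hw (n1 - j) hB
    have hNle : N ≤ r * d := by
      obtain ⟨a1, ha1⟩ := hh
      obtain ⟨a2, ha2⟩ := hfree
      have : N / 2 ≤ (r * d : ℚ) / 2 := by
        refine lead2_le (b := -(r * (βB + d * ((n1 - j : ℤ) : ℚ)))) (b' := -β)
          (c' := r * (γB + βB * ((n1 - j : ℤ) : ℚ) + d / 2 * ((n1 - j : ℤ) : ℚ) ^ 2)) (c'' := γ)
          ⟨max n1 (max a1 a2), fun n hn => ?_⟩
        have e0 := (le_max_left _ _).trans hn
        have e1 := ((le_max_left _ _).trans (le_max_right _ _)).trans hn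
        have e2 := ((le_max_right _ _).trans (le_max_right _ _)).trans hn
        have h1 := ha1 n e1
        have h2 := ha2 n e2
        obtain ⟨m, rfl⟩ := Int.le.dest e0
        have e3 : n1 + (m : ℤ) - (n1 - j) = j + m := by ring
        have hDf := D.fin (j + m)
        have hfd := (finrank_free w hw (D.B (j + m))).2
        have h3 : Module.finrank k (E (n1 + m)) ≤ Module.finrank k
            (⨆ i, (D.B (n1 + m - (n1 - j))).map
              ((LinearMap.toSpanSingleton L W (w i)).restrictScalars k) : Submodule k W) := by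
          rw [e3]
          let f : E (n1 + m) →ₗ[k] (⨆ i, (D.B (j + m)).map
              ((LinearMap.toSpanSingleton L W (w i)).restrictScalars k) : Submodule k W) :=
            { toFun := fun x => ⟨b • (x : W), hall m x x.2⟩
              map_add' := fun x y => by ext; simp [smul_add]
              map_smul' := fun a x => by
                ext; simp only [Submodule.coe_smul, RingHom.id_apply]; rw [smul_comm] }
          refine LinearMap.finrank_le_finrank_of_injective (f := f) ?_
          intro x y hxy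
          have h4 : b • (x : W) = b • (y : W) := congrArg Subtype.val hxy
          exact Subtype.ext (smul_right_injective W hb0 h4)
        have h3' : (Module.finrank k (E (n1 + m)) : ℚ) ≤ Module.finrank k
            (⨆ i, (D.B (n1 + m - (n1 - j))).map
              ((LinearMap.toSpanSingleton L W (w i)).restrictScalars k) : Submodule k W) := by
          exact_mod_cast h3
        rw [h1, h2] at h3'
        linarith
      linarith
    rw [mul_comm]; exact hNle
  · -- lower bound
    have hfree := hasHP_free w hw c hB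
    have := le_of_HP hh hfree fun n => by
      have := h.fin n
      apply Submodule.finrank_mono
      refine iSup_le fun i => ?_
      rintro _ ⟨a, ha, rfl⟩
      have := h.smul_mem ha (hwc i)
      rw [sub_add_cancel] at this
      exact this
    rw [mul_comm]; exact this

end

end R169.Lat
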