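import Crest.Agent.R169.Lat1a
import Crest.Agent.R169.Lat2a

/-!
# Row 169, module 0 (LAT): L2, existence of the Hilbert polynomial (helper88)
-/

set_option autoImplicit false

namespace R169.Lat

variable {k L : Type} [Field k] [Field L] [Algebra k L]
variable {W : Type} [AddCommGroup W] [Module k W] [Module L W] [IsScalarTower k L W]
variable {D : GD k L} {η ζ : L} {E E' : ℤ → Submodule k W}

/-- eventually constant for eventually non-increasing natural numbers -/
theorem evconst (f : ℤ → ℕ) (n0 : ℤ) (h : ∀ n, n0 ≤ n → f (n + 1) ≤ f n) :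
    ∃ (n1 : ℤ) (c : ℕ), n0 ≤ n1 ∧ ∀ n, n1 ≤ n → f n = c := by
  obtain ⟨m, hm⟩ := (wellFounded_lt (α := ℕ)).has_min (Set.range fun i : ℕ => f (n0 + i))
    ⟨_, ⟨0, rfl⟩⟩
  obtain ⟨⟨i, rfl⟩, hmin⟩ := hm
  refine ⟨n0 + i, f (n0 + i), by omega, fun n hn => ?_⟩
  obtain ⟨d, rfl⟩ := Int.le.dest hn
  apply le_antisymm
  · clear hn
    induction d with
    | zero => simp
    | succ d ih =>
      have := h (n0 + i + d) (by omega)
      push_cast
      rw [← add_assoc]
      exact this.trans ih
  · have := hmin (f (n0 + i + d)) ⟨i + d, by push_cast; rw [add_assoc]⟩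
    exact not_lt.1 this

/-- a sequence with eventually constant second difference -/
theorem quad_of_second_diff (a : ℤ → ℕ) (n0 : ℤ) (N : ℤ)
    (h : ∀ n, n0 ≤ n → (a (n + 2) : ℤ) = 2 * a (n + 1) - a n + N) :
    0 ≤ N ∧ ∃ β γ : ℚ, ∀ n, n0 ≤ n → (a n : ℚ) = (N : ℚ) / 2 * n ^ 2 - β * n + γ := by
  -- `a (n0 + i) = a n0 + i * (a (n0+1) - a n0) + N i (i-1)/2`
  have key : ∀ i : ℕ, (a (n0 + i) : ℚ) = a n0 + i * ((a (n0 + 1) : ℚ) - a n0) + N * (i * (i - 1) / 2) ∧
      (a (n0 + i + 1) : ℚ) = a n0 + (i + 1) * ((a (n0 + 1) : ℚ) - a n0) + N * ((i + 1) * i / 2) := by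
    intro i
    induction i with
    | zero => simp
    | succ i ih =>
      obtain ⟨h1, h2⟩ := ih
      have h3 := h (n0 + i) (by omega)
      have h3' : (a (n0 + i + 2) : ℚ) = 2 * a (n0 + i + 1) - a (n0 + i) + N := by exact_mod_cast h3
      have e1 : n0 + ((i + 1 : ℕ) : ℤ) = n0 + i + 1 := by push_cast; ring
      have e2 : n0 + ((i + 1 : ℕ) : ℤ) + 1 = n0 + i + 2 := by push_cast; ring
      rw [e2, e1]
      refine ⟨?_, ?_⟩
      · rw [h2]; push_cast; ring
      · rw [h3', h2, h1]; push_cast; ring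
  set δ : ℚ := (a (n0 + 1) : ℚ) - a n0 with hδ
  have hpoly : ∀ n : ℤ, n0 ≤ n → (a n : ℚ) = (N : ℚ) / 2 * n ^ 2 -
      (N * n0 + N / 2 - δ) * n + (a n0 - n0 * δ + N * (n0 * (n0 + 1) / 2)) := by
    intro n hn
    obtain ⟨d, rfl⟩ := Int.le.dest hn
    rw [(key d).1]; push_cast; ring
  refine ⟨?_, _, _, hpoly⟩
  have := lead2_le (a := (N : ℚ) / 2) (b := -(N * n0 + N / 2 - δ))
    (c' := (a n0 - n0 * δ + N * (n0 * (n0 + 1) / 2))) (a' := 0) (b' := 0) (c'' := 0)
    ⟨n0, fun n hn => by
      have h1 := hpoly n hn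
      have h2 : (0 : ℚ) ≤ a n := by positivity
      linarith⟩
  have h3 : (0 : ℚ) ≤ N := by linarith
  exact_mod_cast h3

/-- surjection of relative quotients -/
theorem reldim_le {A B A' B' : Submodule k W} [FiniteDimensional k A] [FiniteDimensional k A']
    (hBA : B ≤ A) (hBA' : B' ≤ A') (f : W →ₗ[k] W) (hB : B.map f ≤ B') (hA : A' ≤ A.map f ⊔ B') :
    Module.finrank k A' + Module.finrank k B ≤ Module.finrank k B' + Module.finrank k A := by
  have : FiniteDimensional k B := Submodule.finiteDimensional_of_le hBA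
  have : FiniteDimensional k B' := Submodule.finiteDimensional_of_le hBA'
  let g : A →ₗ[k] (W ⧸ B') := (B'.mkQ ∘ₗ f).domRestrict A
  have h1 := LinearMap.finrank_range_add_finrank_ker g
  -- kernel contains `B`
  have h2 : Module.finrank k B ≤ Module.finrank k (LinearMap.ker g) := by
    rw [← (Submodule.comapSubtypeEquivOfLe hBA).finrank_eq]
    apply Submodule.finrank_mono
    rintro ⟨x, hx⟩ hxB
    rw [LinearMap.mem_ker, LinearMap.domRestrict_apply, LinearMap.comp_apply, Submodule.mkQ_apply,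
      Submodule.Quotient.mk_eq_zero]
    exact hB ⟨x, hxB, rfl⟩
  -- `A'/B'` is contained in the range
  let q : A' →ₗ[k] (W ⧸ B') := B'.mkQ.domRestrict A'
  have h3 := LinearMap.finrank_range_add_finrank_ker q
  have h4 : Module.finrank k (LinearMap.ker q) = Module.finrank k B' := by
    have : LinearMap.ker q = B'.comap A'.subtype := by
      ext ⟨x, hx⟩
      rw [LinearMap.mem_ker, LinearMap.domRestrict_apply, Submodule.mkQ_apply,
        Submodule.Quotient.mk_eq_zero]
      rfl
    rw [this, (Submodule.comapSubtypeEquivOfLe hBA').finrank_eq]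
  have h5 : Module.finrank k (LinearMap.range q) ≤ Module.finrank k (LinearMap.range g) := by
    apply Submodule.finrank_mono
    rintro _ ⟨⟨x, hx⟩, rfl⟩
    obtain ⟨y, hy, z, hz, rfl⟩ := Submodule.mem_sup.1 (hA hx)
    obtain ⟨u, hu, rfl⟩ := hy
    refine ⟨⟨u, hu⟩, ?_⟩
    simp only [g, q, LinearMap.domRestrict_apply, LinearMap.comp_apply, Submodule.mkQ_apply]
    rw [Submodule.Quotient.eq]
    have : f u - (f u + z) = -z := by abel
    rw [this]; exact Submodule.neg_mem _ hz
  omega

/-- `E'_n = {w ∈ E_{n+1} : η w ∈ E_{n+1}}` -/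
def colon (η : L) (E : ℤ → Submodule k W) (n : ℤ) : Submodule k W :=
  E (n + 1) ⊓ (E (n + 1)).comap (Algebra.lsmul k k W η)

theorem mem_colon (E : ℤ → Submodule k W) (n : ℤ) (w : W) :
    w ∈ colon η E n ↔ w ∈ E (n + 1) ∧ η • w ∈ E (n + 1) := Iff.rfl

theorem hasHP_aux (h : IsPLat η ζ E) (h' : IsPLat η ζ (colon (k := k) η E)) :
    ∃ (N : ℕ) (β γ : ℚ), HasHP E N β γ := by
  have hfin := h.fin
  have hfin' := h'.fin
  obtain ⟨g1, hg1⟩ := h.gen
  obtain ⟨g2, hg2⟩ := h'.gen
  have hEcolon : ∀ n, E n ≤ colon η E n := fun n w hw => ⟨h.mono n hw, h.eta_mem hw⟩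
  -- the submodules `S_n = E_{n+1} + η E_{n+1}`
  let S : ℤ → Submodule k W := fun n => E (n + 1) ⊔ sm η (E (n + 1))
  have hSle : ∀ n, S n ≤ E (n + 2) := fun n => by
    have e : n + 2 = n + 1 + 1 := by ring
    rw [e]
    exact sup_le (h.mono (n + 1)) (h.smη (n + 1))
  have hSfin : ∀ n, FiniteDimensional k (S n) := fun n => Submodule.finiteDimensional_of_le (hSle n)
  -- `dim S_n = 2 a_{n+1} - dim E'_n`
  have hS : ∀ n, Module.finrank k (S n) + Module.finrank k (colon (k := k) η E n) =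
      2 * Module.finrank k (E (n + 1)) := by
    intro n
    let f : E (n + 1) →ₗ[k] (W ⧸ E (n + 1)) :=
      ((E (n + 1)).mkQ ∘ₗ (Algebra.lsmul k k W η)).domRestrict (E (n + 1))
    have h1 := LinearMap.finrank_range_add_finrank_ker f
    have hcle : colon (k := k) η E n ≤ E (n + 1) := inf_le_left
    have h2 : Module.finrank k (LinearMap.ker f) = Module.finrank k (colon (k := k) η E n) := by
      have : LinearMap.ker f = (colon (k := k) η E n).comap (E (n + 1)).subtype := by
        ext ⟨x, hx⟩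
        rw [LinearMap.mem_ker, LinearMap.domRestrict_apply, LinearMap.comp_apply,
          Submodule.mkQ_apply, Submodule.Quotient.mk_eq_zero, Submodule.mem_comap, mem_colon]
        exact ⟨fun hh => ⟨hx, hh⟩, fun hh => hh.2⟩
      rw [this, (Submodule.comapSubtypeEquivOfLe hcle).finrank_eq]
    let q : S n →ₗ[k] (W ⧸ E (n + 1)) := (E (n + 1)).mkQ.domRestrict (S n)
    have h3 := LinearMap.finrank_range_add_finrank_ker q
    have hEle : E (n + 1) ≤ S n := le_sup_left
    have h4 : Module.finrank k (LinearMap.ker q) = Module.finrank k (E (n + 1)) := by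
      have : LinearMap.ker q = (E (n + 1)).comap (S n).subtype := by
        ext ⟨x, hx⟩
        rw [LinearMap.mem_ker, LinearMap.domRestrict_apply, Submodule.mkQ_apply,
          Submodule.Quotient.mk_eq_zero]
        rfl
      rw [this, (Submodule.comapSubtypeEquivOfLe hEle).finrank_eq]
    have h5 : LinearMap.range q = LinearMap.range f := by
      apply le_antisymm
      · rintro _ ⟨⟨x, hx⟩, rfl⟩
        obtain ⟨y, hy, z, hz, rfl⟩ := Submodule.mem_sup.1 hx
        obtain ⟨u, hu, rfl⟩ := mem_sm.1 hz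
        refine ⟨⟨u, hu⟩, ?_⟩
        simp only [f, q, LinearMap.domRestrict_apply, LinearMap.comp_apply, Submodule.mkQ_apply]
        rw [Submodule.Quotient.eq]
        have : (Algebra.lsmul k k W η) u - (y + η • u) = -y := by
          rw [Algebra.lsmul_coe]; abel
        rw [this]; exact Submodule.neg_mem _ hy
      · rintro _ ⟨⟨u, hu⟩, rfl⟩
        refine ⟨⟨η • u, Submodule.mem_sup_right (mem_sm.2 ⟨u, hu, rfl⟩)⟩, rfl⟩
    rw [h5] at h3
    omega
  -- cokernel dimensions are eventually constant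
  obtain ⟨m1, p, hm1, hp⟩ := evconst
    (fun n => Module.finrank k (E (n + 2)) - Module.finrank k (S n)) (g1 - 1) (by
      intro n hn
      have key := reldim_le (k := k) (A := E (n + 2)) (B := S n) (A' := E (n + 1 + 2)) (B' := S (n + 1))
        (hSle n) (hSle (n + 1)) (Algebra.lsmul k k W ζ) (by
          rintro _ ⟨x, hx, rfl⟩
          obtain ⟨y, hy, z, hz, rfl⟩ := Submodule.mem_sup.1 hx
          obtain ⟨u, hu, rfl⟩ := mem_sm.1 hz
          change ζ • (y + η • u) ∈ S (n + 1)
          rw [smul_add]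
          refine Submodule.add_mem_sup (h.zeta_mem hy) (mem_sm.2 ⟨ζ • u, h.zeta_mem hu, ?_⟩)
          rw [smul_comm]) (by
          have e : n + 1 + 2 = (n + 2) + 1 := by ring
          rw [e]
          have h1 := hg1 (n + 2) (by omega)
          refine h1.trans ?_
          have e2 : n + 1 + 1 = n + 2 := by ring
          refine sup_le (sup_le ?_ ?_) ?_
          · refine le_trans ?_ le_sup_right
            rw [← e2]; exact le_sup_left
          · refine le_trans ?_ le_sup_right
            rw [← e2]; exact le_sup_right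
          · exact le_sup_left)
      have h1 : Module.finrank k (S n) ≤ Module.finrank k (E (n + 2)) := Submodule.finrank_mono (hSle n)
      have h2 : Module.finrank k (S (n + 1)) ≤ Module.finrank k (E (n + 1 + 2)) :=
        Submodule.finrank_mono (hSle (n + 1))
      change Module.finrank k (E (n + 1 + 2)) - Module.finrank k (S (n + 1)) ≤
        Module.finrank k (E (n + 2)) - Module.finrank k (S n)
      omega)
  -- kernel dimensions are eventually constant
  obtain ⟨m2, q, hm2, hq⟩ := evconst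
    (fun n => Module.finrank k (colon (k := k) η E n) - Module.finrank k (E n)) g2 (by
      intro n hn
      have key := reldim_le (k := k) (A := colon (k := k) η E n) (B := E n)
        (A' := colon (k := k) η E (n + 1)) (B' := E (n + 1))
        (hEcolon n) (hEcolon (n + 1)) (Algebra.lsmul k k W ζ) (by
          rintro _ ⟨x, hx, rfl⟩
          exact h.zeta_mem hx) (by
          refine (hg2 n hn).trans (sup_le (sup_le ?_ ?_) ?_)
          · exact (inf_le_left : colon (k := k) η E n ≤ E (n + 1)).trans le_sup_right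
          · refine le_trans ?_ le_sup_right
            intro x hx
            obtain ⟨u, hu, rfl⟩ := mem_sm.1 hx
            exact hu.2
          · exact le_sup_left)
      have h1 : Module.finrank k (E n) ≤ Module.finrank k (colon (k := k) η E n) :=
        Submodule.finrank_mono (hEcolon n)
      have h2 : Module.finrank k (E (n + 1)) ≤ Module.finrank k (colon (k := k) η E (n + 1)) :=
        Submodule.finrank_mono (hEcolon (n + 1))
      change Module.finrank k (colon (k := k) η E (n + 1)) - Module.finrank k (E (n + 1)) ≤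
        Module.finrank k (colon (k := k) η E n) - Module.finrank k (E n)
      omega)
  obtain ⟨hN, β, γ, hh⟩ := quad_of_second_diff (fun n => Module.finrank k (E n)) (max m1 m2)
    ((p : ℤ) - q) (by
      intro n hn
      have h1 := hp n ((le_max_left _ _).trans hn)
      have h2 := hq n ((le_max_right _ _).trans hn)
      have h3 := hS n
      have h4 : Module.finrank k (S n) ≤ Module.finrank k (E (n + 2)) := Submodule.finrank_mono (hSle n)
      have h5 : Module.finrank k (E n) ≤ Module.finrank k (colon (k := k) η E n) :=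
        Submodule.finrank_mono (hEcolon n)
      change Module.finrank k (E (n + 2)) - Module.finrank k (S n) = p at h1
      change Module.finrank k (colon (k := k) η E n) - Module.finrank k (E n) = q at h2
      change (Module.finrank k (E (n + 2)) : ℤ) =
        2 * (Module.finrank k (E (n + 1)) : ℤ) - (Module.finrank k (E n) : ℤ) + ((p : ℤ) - q)
      omega)
  refine ⟨((p : ℤ) - q).toNat, β, γ, max m1 m2, fun n hn => ?_⟩
  have e : (((p : ℤ) - q).toNat : ℚ) = (((p : ℤ) - q : ℤ) : ℚ) := by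
    exact_mod_cast Int.toNat_of_nonneg hN
  rw [e]
  exact hh n hn

theorem hp_int {N : ℕ} {β γ : ℚ} (h : HasHP E N β γ) :
    (∃ z : ℤ, (N : ℚ) / 2 - β = z) ∧ (∃ z : ℤ, γ = z) := by
  obtain ⟨n0, hh⟩ := h
  have h1 : ∃ z : ℤ, (N : ℚ) / 2 - β = z := by
    refine ⟨(Module.finrank k (E (n0 + 1)) : ℤ) - Module.finrank k (E n0) - N * n0, ?_⟩
    push_cast
    rw [hh n0 le_rfl, hh (n0 + 1) (by omega)]
    push_cast; ring
  refine ⟨h1, ?_⟩
  obtain ⟨z, hz⟩ := h1
  obtain ⟨w, hw⟩ : ∃ w : ℤ, n0 * (n0 - 1) = 2 * w := by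
    obtain ⟨w, hw⟩ := Int.even_mul_pred_self n0
    exact ⟨w, by rw [hw]; ring⟩
  refine ⟨(Module.finrank k (E n0) : ℤ) - N * w - z * n0, ?_⟩
  have hw' : (n0 : ℚ) * (n0 - 1) = 2 * w := by exact_mod_cast hw
  push_cast
  rw [hh n0 le_rfl, ← hz]
  have : (N : ℚ) * w = N * (n0 * (n0 - 1)) / 2 := by rw [hw']; ring
  rw [this]; ring

theorem hasHP_of_colon (h : IsPLat η ζ E) (h' : IsPLat η ζ (colon (k := k) η E)) :
    ∃ (N : ℕ) (β γ : ℚ), HasHP E N β γ ∧ (∃ z : ℤ, (N : ℚ) / 2 - β = z) ∧ (∃ z : ℤ, γ = z) := by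
  obtain ⟨N, β, γ, hh⟩ := hasHP_aux h h'
  exact ⟨N, β, γ, hh, (hp_int hh).1, (hp_int hh).2⟩

theorem _root_.R169.IsPLat.hasHP (h : IsPLat η ζ E) :
    ∃ (N : ℕ) (β γ : ℚ), HasHP E N β γ ∧ (∃ z : ℤ, (N : ℚ) / 2 - β = z) ∧ (∃ z : ℤ, γ = z) := by
  have h1 : IsPLat η ζ (fun n => E (n + 1)) := by
    refine ⟨fun n => h.mono (n + 1), fun n => h.smη (n + 1), fun n => h.smζ (n + 1),
      fun n => h.fin (n + 1), ?_, ?_⟩
    · obtain ⟨n0, hn0⟩ := h.bdd
      exact ⟨n0 - 1, fun n hn => hn0 (n + 1) (by omega)⟩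
    · obtain ⟨n1, hn1⟩ := h.gen
      exact ⟨n1 - 1, fun n hn => hn1 (n + 1) (by omega)⟩
  refine hasHP_of_colon h (h1.sub (fun n => inf_le_left) ?_ ?_ ?_)
  · intro n w hw
    exact ⟨h.mono _ hw.1, h.mono _ hw.2⟩
  · intro n x hx
    obtain ⟨w, hw, rfl⟩ := mem_sm.1 hx
    exact ⟨h.eta_mem hw.1, h.eta_mem hw.2⟩
  · intro n x hx
    obtain ⟨w, hw, rfl⟩ := mem_sm.1 hx
    refine ⟨h.zeta_mem hw.1, ?_⟩
    change η • ζ • w ∈ E (n + 1 + 1)
    rw [smul_comm]
    exact h.zeta_mem hw.2

end R169.Lat
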