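import Crest.Agent.R169.Lat4b

/-!
# Row 169, module 0 (LAT): L4, embeddings into free modules over `A`

* `EmbA.existsP`: let `M = finrank (FF k η ζ) W`, `v` the basis `Module.finBasis (FF k η ζ) W`, `e_j ∈ E (a j)` from
  `IsPLat.exists_gens` (index `Fin m`). `common_den` for the coordinates `v.repr (e_j) i` (index type `Fin m × Fin M`): `δ ∈ A T`,
  `δ ≠ 0`, `δ * (v.repr (e_j) i) ∈ A T`. `f w i = δ * (v.repr w i : L)`; `FF`-linear (as a map to `Fin M → L`), injective.
  For `w = ∑ f_j e_j ∈ E n`, `f_j ∈ A (n - a j) ⊂ FF`: `f w i = ∑ f_j * (δ * coord) ∈ A (n - a j + T)`; choose `c ≥ T - a j` for all `j` (`A_mono`).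
* `EmbA.exists`: `finDim_FF hP`, `FiniteDimensional.trans (FF k η ζ) L W`, `IsLat.toPLat`.
-/

set_option autoImplicit false

namespace R169

open R169.Lat

section piece

variable {k L : Type} [Field k] [Field L] [Algebra k L]
variable {W : Type} [AddCommGroup W] [Module k W] [Module L W] [IsScalarTower k L W]
variable {D : GD k L} {η ζ : L} {E E' : ℤ → Submodule k W}

theorem EmbA.existsP [FiniteDimensional (FF k η ζ) W] (h : IsPLat η ζ E) : ∃ c, EmbA η ζ E c := by
  obtain ⟨m, a, e, he, hgen⟩ := h.exists_gens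
  let v := Module.finBasis (FF k η ζ) W
  obtain ⟨T, δ, hδ, hδ0, hδ2⟩ := common_den (k := k) (η := η) (ζ := ζ)
    (fun p : Fin m × Fin (Module.finrank (FF k η ζ) W) => v.repr (e p.1) p.2)
  let f : W →ₗ[FF k η ζ] (Fin (Module.finrank (FF k η ζ) W) → L) :=
    { toFun := fun w i => δ * (v.repr w i : L)
      map_add' := by
        intro x y
        funext i
        simp [mul_add]
      map_smul' := by
        intro c x
        funext i
        show δ * ((v.repr (c • x) i : FF k η ζ) : L) = (c : L) * (δ * ((v.repr x i : FF k η ζ) : L))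
        rw [map_smul, Finsupp.smul_apply, smul_eq_mul]
        push_cast
        ring }
  have hc : ∃ c : ℤ, ∀ j, (T : ℤ) - a j ≤ c := by
    by_cases hne : Nonempty (Fin m)
    · obtain ⟨j0, hj0⟩ := Finite.exists_max (fun j => (T : ℤ) - a j)
      exact ⟨_, hj0⟩
    · exact ⟨0, fun j => (hne ⟨j⟩).elim⟩
  obtain ⟨c, hc⟩ := hc
  refine ⟨c, _, f, ?_, ?_⟩
  · rw [← LinearMap.ker_eq_bot, LinearMap.ker_eq_bot']
    intro w hw
    apply v.repr.injective
    rw [map_zero]
    ext i
    have h1 : δ * ((v.repr w i : FF k η ζ) : L) = 0 := congrFun hw i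
    rcases mul_eq_zero.1 h1 with h2 | h2
    · exact absurd h2 hδ0
    · simpa using h2
  · intro n w hw i
    obtain ⟨g, hg, rfl⟩ := (hgen n w).1 hw
    have hgF : ∀ j, g j ∈ FF k η ζ := fun j => A_le_FF (hg j)
    have h1 : ∑ j, g j • e j = ∑ j, (⟨g j, hgF j⟩ : FF k η ζ) • e j := rfl
    show δ * ((v.repr (∑ j, g j • e j) i : FF k η ζ) : L) ∈ _
    rw [h1, map_sum, Finsupp.finsetSum_apply]
    have h2 : ((∑ j, (v.repr ((⟨g j, hgF j⟩ : FF k η ζ) • e j)) i : FF k η ζ) : L) =
        ∑ j, g j * ((v.repr (e j) i : FF k η ζ) : L) := by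
      rw [AddSubmonoidClass.coe_finsetSum]
      refine Finset.sum_congr rfl fun j _ => ?_
      rw [map_smul, Finsupp.smul_apply, smul_eq_mul]
      rfl
    rw [h2, Finset.mul_sum]
    refine Submodule.sum_mem _ fun j _ => ?_
    have h3 := A_mul_mem (hg j) (hδ2 (j, i))
    have h4 := A_mono (k := k) (η := η) (ζ := ζ) (show n - a j + T ≤ n + c by have := hc j; omega) h3
    rw [mul_left_comm]
    exact h4

theorem EmbA.exists [FiniteDimensional L W] (hP : Par D η ζ) (h : IsLat D η ζ E) : ∃ c, EmbA η ζ E c := by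
  have : FiniteDimensional (FF k η ζ) L := finDim_FF hP
  have : FiniteDimensional (FF k η ζ) W := FiniteDimensional.trans (FF k η ζ) L W
  exact EmbA.existsP (h.toPLat hP)

end piece

end R169
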