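import Crest.Agent.R169.Lat0

/-!
# Row 169, module 0 (LAT): L4a, elements of `F = k(η, ζ)`

* `A_le_FF`: monomials in `η, ζ` lie in `FF`; span induction. `ev_mem_FF`: directly (aeval) or via `mem_A_iff`.
* `mem_FF_div`: `IntermediateField.mem_adjoin_iff_div`: `x = r / s` with `r, s ∈ Algebra.adjoin k {η, ζ}`; every element of
  `Algebra.adjoin k {η, ζ}` lies in some `A n` (`Algebra.adjoin_induction`, `A_mul_mem`, `A_mono`); if `s = 0` then `x = 0 = 0 / 1`.
* `common_den`: product of the denominators (`A_mul_mem`; the products of the other denominators and numerators lie in some `A`; take `T` large, `A_mono`).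
-/

set_option autoImplicit false

namespace R169

open R169.Lat

section piece

variable {k L : Type} [Field k] [Field L] [Algebra k L]
variable {W : Type} [AddCommGroup W] [Module k W] [Module L W] [IsScalarTower k L W]
variable {D : GD k L} {η ζ : L} {E E' : ℤ → Submodule k W}

theorem A_le_FF {n : ℤ} {a : L} (ha : a ∈ A k η ζ n) : a ∈ FF k η ζ := by
  have hη : η ∈ FF k η ζ := IntermediateField.subset_adjoin _ _ (by simp)
  have hζ : ζ ∈ FF k η ζ := IntermediateField.subset_adjoin _ _ (by simp)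
  rw [A] at ha
  induction ha using Submodule.span_induction with
  | mem x hx =>
    obtain ⟨a, b, _, rfl⟩ := hx
    exact mul_mem (pow_mem hη a) (pow_mem hζ b)
  | zero => exact zero_mem _
  | add x y _ _ hx hy => exact add_mem hx hy
  | smul c x _ hx => exact (FF k η ζ).smul_mem hx
theorem ev_mem_FF (F : MvPolynomial (Fin 3) k) : ev η ζ F ∈ FF k η ζ := by
  have hη : η ∈ FF k η ζ := IntermediateField.subset_adjoin _ _ (by simp)
  have hζ : ζ ∈ FF k η ζ := IntermediateField.subset_adjoin _ _ (by simp)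
  rw [F.as_sum, ev, map_sum]
  refine sum_mem fun d _ => ?_
  have := ev_monomial (η := η) (ζ := ζ) d (F.coeff d)
  rw [ev] at this
  rw [this]
  exact (FF k η ζ).smul_mem (mul_mem (pow_mem hη _) (pow_mem hζ _))

/-- every element of the algebra generated by `η, ζ` lies in some `A n` -/
theorem Lat.exists_mem_A_of_adjoin {x : L} (hx : x ∈ Algebra.adjoin k ({η, ζ} : Set L)) :
    ∃ n : ℕ, x ∈ A k η ζ n := by
  induction hx using Algebra.adjoin_induction with
  | mem x hx =>
    rcases hx with rfl | hx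
    · exact ⟨1, by simpa using eta_mem_A⟩
    · rw [Set.mem_singleton_iff] at hx
      subst hx
      exact ⟨1, by simpa using zeta_mem_A⟩
  | algebraMap r =>
    refine ⟨0, ?_⟩
    rw [Algebra.algebraMap_eq_smul_one]
    exact Submodule.smul_mem _ _ (one_mem_A (by simp))
  | add x y _ _ hx hy =>
    obtain ⟨n, hn⟩ := hx
    obtain ⟨m, hm⟩ := hy
    refine ⟨n + m, Submodule.add_mem _ (A_mono ?_ hn) (A_mono ?_ hm)⟩ <;> push_cast <;> omega
  | mul x y _ _ hx hy =>
    obtain ⟨n, hn⟩ := hx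
    obtain ⟨m, hm⟩ := hy
    refine ⟨n + m, ?_⟩
    push_cast
    exact A_mul_mem hn hm

theorem Lat.prod_mem_A4a {ι : Type} (s : Finset ι) (n : ι → ℕ) (b : ι → L)
    (h : ∀ i, b i ∈ A k η ζ (n i)) : ∏ i ∈ s, b i ∈ A k η ζ ((∑ i ∈ s, n i : ℕ) : ℤ) := by
  classical
  induction s using Finset.induction_on with
  | empty => simpa using one_mem_A (k := k) (η := η) (ζ := ζ) (n := 0) le_rfl
  | insert a s ha ih =>
    rw [Finset.prod_insert ha, Finset.sum_insert ha]
    push_cast at ih ⊢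
    exact A_mul_mem (h a) ih
theorem mem_FF_div {x : L} (hx : x ∈ FF k η ζ) : ∃ n : ℕ, ∃ a ∈ A k η ζ n, ∃ b ∈ A k η ζ n, b ≠ 0 ∧ x = a / b := by
  obtain ⟨r, hr, t, ht, rfl⟩ := IntermediateField.mem_adjoin_iff_div.1 hx
  obtain ⟨n, hn⟩ := Lat.exists_mem_A_of_adjoin hr
  obtain ⟨m, hm⟩ := Lat.exists_mem_A_of_adjoin ht
  by_cases h0 : t = 0
  · refine ⟨0, 0, Submodule.zero_mem _, 1, one_mem_A (by simp), one_ne_zero, ?_⟩
    rw [h0]; simp
  · refine ⟨n + m, r, A_mono ?_ hn, t, A_mono ?_ hm, h0, rfl⟩ <;> push_cast <;> omega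
/-- common denominators for finitely many elements of `F` -/
theorem common_den {ι : Type} [Finite ι] (x : ι → FF k η ζ) :
    ∃ T : ℕ, ∃ δ : L, δ ∈ A k η ζ T ∧ δ ≠ 0 ∧ ∀ i, δ * (x i : L) ∈ A k η ζ T := by
  classical
  have := Fintype.ofFinite ι
  choose n a ha b hb hb0 hx using fun i => mem_FF_div (x i).2
  refine ⟨∑ i, n i, ∏ i, b i, Lat.prod_mem_A4a _ _ _ hb, Finset.prod_ne_zero_iff.2 fun i _ => hb0 i, ?_⟩
  intro i
  have h1 : (∏ j, b j) * (x i : L) = a i * ∏ j ∈ Finset.univ.erase i, b j := by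
    rw [← Finset.mul_prod_erase Finset.univ b (Finset.mem_univ i), hx i]
    field_simp [hb0 i]
  have h2 : (∑ j, n j) = n i + ∑ j ∈ Finset.univ.erase i, n j :=
    (Finset.add_sum_erase Finset.univ n (Finset.mem_univ i)).symm
  rw [h1, h2]
  have h3 := A_mul_mem (ha i) (Lat.prod_mem_A4a (Finset.univ.erase i) n b hb)
  rwa [← Nat.cast_add] at h3

end piece

end R169
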