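import Crest.Agent.R169.Lat4a

/-!
# Row 169, module 0 (LAT): L4b, `L` is finite over `F`

`IsPLat.exists_gens` for `(isLat_B hP).toPLat hP`: `b_j ∈ B (a j)` with `B n = ∑ A (n - a j) b_j`. Let
`S = Submodule.span (FF k η ζ) (range b)`. `B n ⊂ S` for all `n` (`A_le_FF`). So `b_i b_j ∈ B (a i + a j) ⊂ S` and `S * S ⊂ S`.
Let `l : L`, `l = a / b`, `a, b ∈ B n ⊂ S`, `b ≠ 0` (`D.frac`). Multiplication by `b` maps `S → S`, `FF`-linear and injective, `S` finite
dimensional, so surjective (`LinearMap.injective_iff_surjective`): `a = b s`, `s ∈ S`, `l = s ∈ S`. So `S = ⊤`.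
`span_B_eq_top` is the same statement (`B n ⊂ S`, `S = ⊤` - but with `⋃ B n`; `b_j ∈ ⋃ B n`).
-/

set_option autoImplicit false

namespace R169

open R169.Lat

section piece

variable {k L : Type} [Field k] [Field L] [Algebra k L]
variable {W : Type} [AddCommGroup W] [Module k W] [Module L W] [IsScalarTower k L W]
variable {D : GD k L} {η ζ : L} {E E' : ℤ → Submodule k W}

private theorem exists_span_top (hP : Par D η ζ) : ∃ (m : ℕ) (a : Fin m → ℤ) (b : Fin m → L),
    (∀ j, b j ∈ D.B (a j)) ∧ Submodule.span (FF k η ζ) (Set.range b) = ⊤ := by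
  obtain ⟨m, a, b, hb, hgen⟩ := ((isLat_B hP).toPLat hP).exists_gens
  refine ⟨m, a, b, hb, ?_⟩
  obtain ⟨S, hS⟩ : ∃ S : Submodule (FF k η ζ) L, S = Submodule.span (FF k η ζ) (Set.range b) :=
    ⟨_, rfl⟩
  rw [← hS]
  have hBS : ∀ n l, l ∈ D.B n → l ∈ S := by
    intro n l hl
    obtain ⟨f, hf, rfl⟩ := (hgen n l).1 hl
    refine Submodule.sum_mem _ fun j _ => ?_
    have h1 : f j • b j = (⟨f j, A_le_FF (hf j)⟩ : FF k η ζ) • b j := by
      rw [IntermediateField.smul_def]
    rw [h1]
    refine Submodule.smul_mem _ _ ?_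
    rw [hS]
    exact Submodule.subset_span ⟨j, rfl⟩
  have hfin : FiniteDimensional (FF k η ζ) S := by
    rw [hS]
    exact FiniteDimensional.span_of_finite (FF k η ζ) (Set.finite_range b)
  rw [eq_top_iff]
  intro l _
  obtain ⟨n, x, hx, y, hy, hy0, rfl⟩ := D.frac l
  have hmul : ∀ z ∈ S, y * z ∈ S := by
    intro z hz
    rw [hS] at hz
    induction hz using Submodule.span_induction with
    | mem z hz =>
      obtain ⟨j, rfl⟩ := hz
      exact hBS _ _ (D.mul_mem hy (hb j))
    | zero => rw [mul_zero]; exact Submodule.zero_mem _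
    | add u v _ _ hu hv => rw [mul_add]; exact Submodule.add_mem _ hu hv
    | smul c u _ hu => rw [mul_smul_comm]; exact Submodule.smul_mem _ _ hu
  let φ : S →ₗ[FF k η ζ] S := (LinearMap.mulLeft (FF k η ζ) y).restrict hmul
  have hφ : Function.Injective φ := by
    intro u v huv
    have h1 : y * (u : L) = y * (v : L) := congrArg Subtype.val huv
    exact Subtype.ext (mul_left_cancel₀ hy0 h1)
  obtain ⟨s, hs⟩ := LinearMap.surjective_of_injective hφ ⟨x, hBS n x hx⟩
  have h2 : y * (s : L) = x := congrArg Subtype.val hs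
  have h3 : x / y = s := by
    rw [← h2, mul_div_cancel_left₀ _ hy0]
  rw [h3]
  exact s.2

theorem finDim_FF (hP : Par D η ζ) : FiniteDimensional (FF k η ζ) L := by
  obtain ⟨m, a, b, hb, hspan⟩ := exists_span_top hP
  refine Module.finite_def.2 ?_
  rw [← hspan]
  exact Submodule.fg_span (Set.finite_range b)

theorem span_B_eq_top (hP : Par D η ζ) : Submodule.span (FF k η ζ) (⋃ n, (D.B n : Set L)) = ⊤ := by
  obtain ⟨m, a, b, hb, hspan⟩ := exists_span_top hP
  rw [eq_top_iff, ← hspan]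
  refine Submodule.span_mono ?_
  rintro _ ⟨j, rfl⟩
  exact Set.mem_iUnion.2 ⟨a j, hb j⟩

end piece

end R169
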