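import Crest.Agent.R169.Lat4

/-!
# Row 169, module 0 (LAT): L4c, dimension bounds by the `F`-rank

Let `r = finrank (FF k η ζ) (fspan η ζ E)`; `fspan` is finite dimensional over `FF` because it is spanned by the generators
`e_j` of `IsPLat.exists_gens` (`A_le_FF`).
* `rank_lower`: choose `r` `FF`-independent vectors `w_1..w_r` in `⋃ E n` (they span `fspan`: `exists_linearIndependent` /
  `Submodule.exists_fun_fin_finrank_span_eq`), all in one `E m0` (`IsPLat.mono_le`). The map `∏_i A (n - m0) → E n`, `f ↦ ∑ f_i w_i` is
  `k`-linear and injective (`A_le_FF`), so `r * dim A (n - m0) ≤ dim E n` (`LinearMap.finrank_le_finrank_of_injective`, `Module.finrank_pi_fintype`).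
* `rank_upper`: let `f : W → L^M` be `F`-linear and injective with `f (E n) ⊂ A (n+c)^M`. On `fspan E` the coordinates `f_i` take values in
  `FF` (span induction). The `M` functionals `f_i` on the `r`-dimensional space `fspan E` separate points, so they span the dual and `r` of them,
  `i ∈ I`, form a basis of the dual (`exists_linearIndependent`), so `w ↦ (f_i w)_{i ∈ I}` is injective on `fspan E`; it embeds
  `E n` into `∏_{i ∈ I} A (n + c)`.
-/

set_option autoImplicit false

namespace R169

open R169.Lat

section piece

variable {k L : Type} [Field k] [Field L] [Algebra k L]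
variable {W : Type} [AddCommGroup W] [Module k W] [Module L W] [IsScalarTower k L W]
variable {D : GD k L} {η ζ : L} {E E' : ℤ → Submodule k W}

theorem fspan_fin (h : IsPLat η ζ E) : FiniteDimensional (FF k η ζ) (fspan η ζ E) := by
  obtain ⟨m, a, e, he, hE⟩ := h.exists_gens
  have h1 : fspan η ζ E ≤ Submodule.span (FF k η ζ) (Set.range e) := by
    refine Submodule.span_le.2 ?_
    intro w hw
    obtain ⟨n, hn⟩ := Set.mem_iUnion.1 hw
    obtain ⟨f, hf, rfl⟩ := (hE n w).1 hn
    refine Submodule.sum_mem _ fun j _ => ?_
    exact Submodule.smul_mem (Submodule.span (FF k η ζ) (Set.range e)) (⟨f j, A_le_FF (hf j)⟩ : FF k η ζ)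
      (Submodule.subset_span (Set.mem_range_self j))
  have h2 : FiniteDimensional (FF k η ζ) (Submodule.span (FF k η ζ) (Set.range e)) :=
    FiniteDimensional.span_of_finite _ (Set.finite_range e)
  exact Submodule.finiteDimensional_of_le h1

theorem rank_lower (h : IsPLat η ζ E) : ∃ m0 : ℤ, ∀ n,
    Module.finrank (FF k η ζ) (fspan η ζ E) * Module.finrank k (A k η ζ (n - m0)) ≤ Module.finrank k (E n) := by
  have hfin := fspan_fin h
  have hfin' : Module.Finite (FF k η ζ) (Submodule.span (FF k η ζ) (⋃ n, (E n : Set W))) := hfin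
  obtain ⟨f, hf, -, hli⟩ := Submodule.exists_fun_fin_finrank_span_eq (FF k η ζ) (⋃ n, (E n : Set W))
  choose m hm using fun i => Set.mem_iUnion.1 (hf i)
  obtain ⟨m0, hm0⟩ : ∃ m0 : ℤ, ∀ i, m i ≤ m0 := by
    by_cases hne : Nonempty (Fin (Module.finrank (FF k η ζ) (Submodule.span (FF k η ζ) (⋃ n, (E n : Set W)))))
    · obtain ⟨j0, hj0⟩ := Finite.exists_max m
      exact ⟨m j0, hj0⟩
    · exact ⟨0, fun j => (hne ⟨j⟩).elim⟩
  refine ⟨m0, fun n => ?_⟩
  have hfE : ∀ i, f i ∈ E m0 := fun i => h.mono_le (hm0 i) (hm i)
  have := h.fin n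
  let g : (Fin (Module.finrank (FF k η ζ) (Submodule.span (FF k η ζ) (⋃ n, (E n : Set W)))) →
      A k η ζ (n - m0)) →ₗ[k] E n :=
    { toFun := fun a => ⟨∑ i, (a i : L) • f i, by
        refine Submodule.sum_mem _ fun i _ => ?_
        have := h.smul_mem (a i).2 (hfE i)
        rwa [sub_add_cancel] at this⟩
      map_add' := by
        intro a b
        ext
        simp [add_smul, Finset.sum_add_distrib]
      map_smul' := by
        intro c a
        ext
        simp [Finset.smul_sum] }
  have hg : Function.Injective g := by
    rw [injective_iff_map_eq_zero]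
    intro a ha
    have h1 : ∑ i, (a i : L) • f i = 0 := congrArg Subtype.val ha
    have h2 : ∑ i, (⟨(a i : L), A_le_FF (a i).2⟩ : FF k η ζ) • f i = 0 := h1
    have h3 := Fintype.linearIndependent_iff.1 hli _ h2
    funext i
    have h4 := congrArg Subtype.val (h3 i)
    exact Subtype.ext h4
  have h5 := LinearMap.finrank_le_finrank_of_injective hg
  rw [Module.finrank_pi_fintype] at h5
  simp only [Finset.sum_const, Finset.card_univ, Fintype.card_fin, smul_eq_mul] at h5
  exact h5

/-- `E' ≤ E` and `E` embeds with shift `c` -/
theorem rank_upper {c : ℤ} (he : EmbA η ζ E c) (h' : IsPLat η ζ E') (hle : ∀ n, E' n ≤ E n) (n : ℤ) :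
    Module.finrank k (E' n) ≤ Module.finrank (FF k η ζ) (fspan η ζ E') * Module.finrank k (A k η ζ (n + c)) := by
  obtain ⟨M, f, hinj, hf⟩ := he
  have hfin := fspan_fin h'
  have hmem : ∀ v : fspan η ζ E', ∀ i, f v i ∈ FF k η ζ := by
    rintro ⟨v, hv⟩ i
    simp only
    unfold fspan at hv
    induction hv using Submodule.span_induction with
    | mem x hx =>
      obtain ⟨m, hm⟩ := Set.mem_iUnion.1 hx
      exact A_le_FF (hf m x (hle m hm) i)
    | zero => simp
    | add x y _ _ hx hy =>
      rw [map_add]
      exact add_mem hx hy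
    | smul a x _ hx =>
      rw [map_smul]
      exact mul_mem a.2 hx
  let φ : Fin M → Module.Dual (FF k η ζ) (fspan η ζ E') := fun i =>
    { toFun := fun v => ⟨f v i, hmem v i⟩
      map_add' := by
        intro v w
        ext
        simp
      map_smul' := by
        intro a v
        ext
        simp
        rfl }
  have hfr : Module.Finite (FF k η ζ) (Submodule.span (FF k η ζ) (Set.range φ)) := inferInstance
  obtain ⟨g, hg, hgs, -⟩ := Submodule.exists_fun_fin_finrank_span_eq (FF k η ζ) (Set.range φ)
  choose j hj using hg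
  have hle2 : Module.finrank (FF k η ζ) (Submodule.span (FF k η ζ) (Set.range φ)) ≤
      Module.finrank (FF k η ζ) (fspan η ζ E') := by
    have h1 := Submodule.finrank_le (Submodule.span (FF k η ζ) (Set.range φ))
    rwa [Subspace.dual_finrank_eq] at h1
  have hEn : ∀ w : E' n, (w : W) ∈ fspan η ζ E' := fun w => mem_fspan w.2
  have := h'.fin n
  let G : E' n →ₗ[k] (Fin (Module.finrank (FF k η ζ) (Submodule.span (FF k η ζ) (Set.range φ))) →
      A k η ζ (n + c)) :=
    { toFun := fun w i => ⟨f w (j i), hf n w (hle n w.2) (j i)⟩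
      map_add' := by
        intro v w
        ext i
        simp
      map_smul' := by
        intro a v
        ext i
        have : f ((a • v : E' n) : W) = (algebraMap k (FF k η ζ) a) • f v := by
          rw [← map_smul]
          congr 1
          rw [algebraMap_smul]
          rfl
        simp only [RingHom.id_apply, Pi.smul_apply]
        show f ((a • v : E' n) : W) (j i) = a • f v (j i)
        rw [this, Pi.smul_apply, algebraMap_smul] }
  have hG : Function.Injective G := by
    rw [injective_iff_map_eq_zero]
    intro w hw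
    have h1 : ∀ i, g i ⟨w, hEn w⟩ = 0 := by
      intro i
      rw [← hj i]
      have := congrFun hw i
      have h2 := congrArg Subtype.val this
      exact Subtype.ext h2
    have h3 : ∀ ψ ∈ Submodule.span (FF k η ζ) (Set.range φ), ψ ⟨w, hEn w⟩ = 0 := by
      rw [← hgs]
      intro ψ hψ
      induction hψ using Submodule.span_induction with
      | mem x hx =>
        obtain ⟨i, rfl⟩ := hx
        exact h1 i
      | zero => simp
      | add x y _ _ hx hy => simp [hx, hy]
      | smul a x _ hx => simp [hx]
    have h4 : f (w : W) = 0 := by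
      funext i
      have := h3 (φ i) (Submodule.subset_span (Set.mem_range_self i))
      exact congrArg Subtype.val this
    have h5 : (w : W) = 0 := hinj (by rw [h4, map_zero])
    exact Subtype.ext h5
  have h5 := LinearMap.finrank_le_finrank_of_injective hG
  rw [Module.finrank_pi_fintype] at h5
  simp only [Finset.sum_const, Finset.card_univ, Fintype.card_fin, smul_eq_mul] at h5
  exact h5.trans (Nat.mul_le_mul_right _ hle2)

end piece

end R169
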