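import Crest.Agent.R169.Lat4c

/-!
# Row 169, module 0 (LAT): L4d, the leading coefficient is the rank; uniform slope bound

* `rank_eq`: `E` inside `W' = fspan η ζ E`: apply `rank_lower`; for the upper bound apply `rank_upper` to an embedding of `E`:
  `W` need not be finite dimensional over `FF`; so first show `EmbA`-like bound by viewing `E` as a family in the finite dimensional space... To avoid
  this, we assume `[FiniteDimensional (FF k η ζ) W]` and use `EmbA.existsP`. With `m0, c`: for `n ≫ 0`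
  `r (n-m0+1)(n-m0+2)/2 ≤ N/2 n² - β n + γ ≤ r (n+c+1)(n+c+2)/2` (`finrank_A_rat`); compare leading coefficients: `N = r`.
* `EmbA.bound`: `rank_upper` and `N = r` (needs only the two inequalities: the lower one from `rank_lower` and the upper one from `rank_upper`, both
  without finite dimensionality of `W`): from `N/2 n² - β n + γ ≤ N (n+c+1)(n+c+2)/2` for `n ≫ 0` get
  `-β ≤ N (c + 3/2)`.
A useful lemma: if `a n² + b n + c0 ≤ a' n² + b' n + c0'` for all large integers `n` then `a ≤ a'`, and if `a = a'` then `b ≤ b'`.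
-/

set_option autoImplicit false

namespace R169

open R169.Lat

section piece

variable {k L : Type} [Field k] [Field L] [Algebra k L]
variable {W : Type} [AddCommGroup W] [Module k W] [Module L W] [IsScalarTower k L W]
variable {D : GD k L} {η ζ : L} {E E' : ℤ → Submodule k W}

private theorem quad_le {a b c a' b' c' : ℚ} (n0 : ℤ)
    (h : ∀ n : ℤ, n0 ≤ n → a * (n : ℚ) ^ 2 + b * n + c ≤ a' * (n : ℚ) ^ 2 + b' * n + c') :
    a ≤ a' ∧ (a = a' → b ≤ b') := by
  constructor
  · by_contra hlt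
    push Not at hlt
    have hA : 0 < a - a' := by linarith
    obtain ⟨m, hm⟩ := exists_nat_gt ((|b' - b| + |c' - c|) / (a - a'))
    have h1 := h (max n0 (m + 1)) (le_max_left _ _)
    set n : ℤ := max n0 (m + 1) with hn
    have hn1 : ((m : ℚ) + 1) ≤ n := by
      have : (m : ℤ) + 1 ≤ n := le_max_right _ _
      exact_mod_cast this
    have hm0 : (0 : ℚ) ≤ m := Nat.cast_nonneg m
    have hn2 : (1 : ℚ) ≤ n := by linarith
    rw [div_lt_iff₀ hA] at hm
    have h2 : |b' - b| + |c' - c| < n * (a - a') := by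
      have : (m : ℚ) * (a - a') ≤ n * (a - a') :=
        mul_le_mul_of_nonneg_right (by linarith) hA.le
      linarith
    have h3 : (b' - b) * (n : ℚ) ≤ |b' - b| * n :=
      mul_le_mul_of_nonneg_right (le_abs_self _) (by linarith)
    have h4 : c' - c ≤ |c' - c| * n := by
      have := le_abs_self (c' - c)
      have := mul_le_mul_of_nonneg_left hn2 (abs_nonneg (c' - c))
      linarith
    have h5 : (|b' - b| + |c' - c|) * (n : ℚ) < n * (a - a') * n :=
      mul_lt_mul_of_pos_right h2 (by linarith)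
    nlinarith
  · intro ha
    by_contra hlt
    push Not at hlt
    have hB : 0 < b - b' := by linarith
    obtain ⟨m, hm⟩ := exists_nat_gt ((c' - c) / (b - b'))
    have h1 := h (max n0 m) (le_max_left _ _)
    set n : ℤ := max n0 m with hn
    have hn1 : (m : ℚ) ≤ n := by
      have : (m : ℤ) ≤ n := le_max_right _ _
      exact_mod_cast this
    rw [div_lt_iff₀ hB] at hm
    have h2 : (m : ℚ) * (b - b') ≤ n * (b - b') := mul_le_mul_of_nonneg_right hn1 hB.le
    rw [ha] at h1
    nlinarith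

private theorem rank_core (ind : AlgebraicIndependent k ![η, ζ]) {r : ℕ} {m0 c : ℤ} {N β γ : ℚ}
    (hl : ∀ n, r * Module.finrank k (A k η ζ (n - m0)) ≤ Module.finrank k (E n))
    (hu : ∀ n, Module.finrank k (E n) ≤ r * Module.finrank k (A k η ζ (n + c)))
    (hh : HasHP E N β γ) : N = r ∧ -((c : ℚ) + 3 / 2) * N ≤ β := by
  obtain ⟨n0, hn0⟩ := hh
  have h1 : ∀ n : ℤ, max n0 m0 ≤ n → (r : ℚ) / 2 * (n : ℚ) ^ 2 +
      (r : ℚ) / 2 * (3 - 2 * m0) * n + (r : ℚ) / 2 * ((1 - m0) * (2 - m0)) ≤
      N / 2 * (n : ℚ) ^ 2 + -β * n + γ := by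
    intro n hn
    have e1 := hn0 n (le_trans (le_max_left _ _) hn)
    have e2 : m0 ≤ n := le_trans (le_max_right _ _) hn
    have e3 := finrank_A_rat ind (n := n - m0) (by omega)
    have e4 : ((r * Module.finrank k (A k η ζ (n - m0)) : ℕ) : ℚ) ≤ Module.finrank k (E n) := by
      exact_mod_cast hl n
    push_cast at e3 e4
    rw [e3, e1] at e4
    linarith
  have h2 : ∀ n : ℤ, max n0 (-c) ≤ n → N / 2 * (n : ℚ) ^ 2 + -β * n + γ ≤
      (r : ℚ) / 2 * (n : ℚ) ^ 2 + (r : ℚ) / 2 * (3 + 2 * c) * n +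
        (r : ℚ) / 2 * ((1 + c) * (2 + c)) := by
    intro n hn
    have e1 := hn0 n (le_trans (le_max_left _ _) hn)
    have e2 : -c ≤ n := le_trans (le_max_right _ _) hn
    have e3 := finrank_A_rat ind (n := n + c) (by omega)
    have e4 : (Module.finrank k (E n) : ℚ) ≤ ((r * Module.finrank k (A k η ζ (n + c)) : ℕ) : ℚ) := by
      exact_mod_cast hu n
    push_cast at e3 e4
    rw [e3, e1] at e4
    linarith
  have h3 := quad_le _ h1
  have h4 := quad_le _ h2
  have h5 : N = r := by
    have := h3.1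
    have := h4.1
    linarith
  refine ⟨h5, ?_⟩
  have h6 := h4.2 (by rw [h5])
  rw [h5]
  linarith

theorem rank_eq [FiniteDimensional (FF k η ζ) W] (ind : AlgebraicIndependent k ![η, ζ]) (h : IsPLat η ζ E) {N β γ : ℚ}
    (hh : HasHP E N β γ) : N = Module.finrank (FF k η ζ) (fspan η ζ E) := by
  obtain ⟨c, hc⟩ := EmbA.existsP h
  obtain ⟨m0, hm0⟩ := rank_lower h
  exact (rank_core ind hm0 (rank_upper hc h (fun _ => le_rfl)) hh).1

/-- rank `N` sublattices of `A(c)^M` -/
theorem EmbA.bound (ind : AlgebraicIndependent k ![η, ζ]) (h : IsPLat η ζ E) {c : ℤ}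
    (he : EmbA η ζ E c) (h' : IsPLat η ζ E') (hle : ∀ n, E' n ≤ E n) {N : ℕ} {β γ : ℚ}
    (hh : HasHP E' N β γ) :
    (∀ n, Module.finrank k (E' n) ≤ N * Module.finrank k (A k η ζ (n + c))) ∧
      -((c : ℚ) + 3 / 2) * N ≤ β := by
  obtain ⟨m0, hm0⟩ := rank_lower h'
  have hu := rank_upper he h' hle
  obtain ⟨h1, h2⟩ := rank_core ind hm0 hu hh
  have h3 : N = Module.finrank (FF k η ζ) (fspan η ζ E') := by exact_mod_cast h1
  refine ⟨?_, h2⟩
  rw [h3]
  exact hu

end piece

end R169
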