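import Crest.Agent.R169.Lat0

/-!
# Row 169, module 0 (LAT): L6a, reflexive hulls, elementary facts

All six statements are short. `ev_mul`, `ev_mem_A`, `A_neg`, `mem_sm` etc. are in `Lat0` (namespace `R169.Lat`).
* `mem_hull`: the set `{w | Refl ..}` is already a `k`-subspace: zero (`F = 1`; a prime does not divide `1`),
  smul clear, add: take `F1, F2` for the same `π`; `π ∤ F1 F2` (`Prime.dvd_mul`), degree `s1 + s2`,
  `ev (F1 F2) • (w1 + w2) = ev F2 • (ev F1 • w1) + ev F1 • (ev F2 • w2) ∈ E (n + s1 + s2)` by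
  `IsPLat.smul_mem h (ev_mem_A hF2) _`. Then `Submodule.span_induction`.
* `le_hull`: `F = 1`, `s = 0`.
* `IsRefl.dep2`: `w ∈ E n`, `η • w ∈ E n`; show `Refl E (n-1) w`: for `π` not dividing `X 0` take `F = X 0`, `s = 1`, `ev = 1`;
  if `π ∣ X 0` take `F = X 1`, `ev = η`: `π ∣ X 1` is impossible: `X 0`, `X 1` prime (`MvPolynomial.X_prime`/`prime_X`),
  so both would be associated to `π` (or: evaluate / total degree argument).
* `IsRefl.sat`: from `Refl (sat E V) n w` get `Refl E n w` (`sat E V n ≤ E n`), so `w ∈ E n`; `w ∈ V`: take any prime `π`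
  (e.g. `X 0`), `ev F • w ∈ V` and `ev F ≠ 0` by `ev_inj` (`F ≠ 0` as `¬ π ∣ F`).
* `isRefl_Bpow`: coordinatewise.
-/

set_option autoImplicit false

namespace R169

open R169.Lat

section piece

variable {k L : Type} [Field k] [Field L] [Algebra k L]
variable {W : Type} [AddCommGroup W] [Module k W] [Module L W] [IsScalarTower k L W]
variable {D : GD k L} {η ζ : L} {E E' : ℤ → Submodule k W}

private theorem refl_add (h : IsPLat η ζ E) {n : ℤ} {w v : W} (hw : Refl (k := k) η ζ E n w)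
    (hv : Refl (k := k) η ζ E n v) : Refl (k := k) η ζ E n (w + v) := by
  intro π hπ
  obtain ⟨s, F, hF, hd, hm⟩ := hw π hπ
  obtain ⟨t, G, hG, hd', hm'⟩ := hv π hπ
  refine ⟨s + t, F * G, hF.mul hG, ?_, ?_⟩
  · intro hdvd
    rcases hπ.dvd_or_dvd hdvd with h1 | h1
    · exact hd h1
    · exact hd' h1
  · have e : ev η ζ (F * G) • (w + v) = ev η ζ G • (ev η ζ F • w) + ev η ζ F • (ev η ζ G • v) := by
      rw [ev_mul, smul_add, smul_smul, smul_smul, mul_comm (ev η ζ G)]
    rw [e]
    refine Submodule.add_mem _ ?_ ?_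
    · have := h.smul_mem (ev_mem_A (η := η) (ζ := ζ) hG) hm
      have e : (t : ℤ) + (n + s) = n + ((s + t : ℕ) : ℤ) := by push_cast; ring
      rwa [e] at this
    · have := h.smul_mem (ev_mem_A (η := η) (ζ := ζ) hF) hm'
      have e : (s : ℤ) + (n + t) = n + ((s + t : ℕ) : ℤ) := by push_cast; ring
      rwa [e] at this

private theorem ev_one : ev η ζ (1 : MvPolynomial (Fin 3) k) = 1 := by simp [ev]

private theorem refl_of_mem {n : ℤ} {w : W} (hw : w ∈ E n) : Refl (k := k) η ζ E n w := by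
  intro π hπ
  refine ⟨0, 1, MvPolynomial.isHomogeneous_one _ _, hπ.not_dvd_one, ?_⟩
  rw [ev_one, one_smul, Nat.cast_zero, add_zero]
  exact hw

private theorem refl_smul {n : ℤ} {w : W} (c : k) (hw : Refl (k := k) η ζ E n w) :
    Refl (k := k) η ζ E n (c • w) := by
  intro π hπ
  obtain ⟨s, F, hF, hd, hm⟩ := hw π hπ
  refine ⟨s, F, hF, hd, ?_⟩
  rw [smul_comm]
  exact Submodule.smul_mem _ _ hm

theorem mem_hull (h : IsPLat η ζ E) (n : ℤ) (w : W) : w ∈ hull η ζ E n ↔ Refl (k := k) η ζ E n w := by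
  constructor
  · intro hw
    unfold hull at hw
    induction hw using Submodule.span_induction with
    | mem x hx => exact hx
    | zero => exact refl_of_mem (Submodule.zero_mem _)
    | add x y _ _ hx hy => exact refl_add h hx hy
    | smul c x _ hx => exact refl_smul c hx
  · intro hw
    exact Submodule.subset_span hw

theorem le_hull (h : IsPLat η ζ E) (n : ℤ) : E n ≤ hull η ζ E n :=
  fun _ hw => (mem_hull h n _).2 (refl_of_mem hw)

theorem IsRefl.dep2 (ind : AlgebraicIndependent k ![η, ζ]) (h : IsPLat η ζ E)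
    (hr : IsRefl (k := k) η ζ E) : Dep2 η E := by
  intro n w hw hηw
  refine hr (n - 1) w fun π hπ => ?_
  by_cases h0 : π ∣ (MvPolynomial.X 0 : MvPolynomial (Fin 3) k)
  · refine ⟨1, MvPolynomial.X 1, MvPolynomial.isHomogeneous_X _ _, ?_, ?_⟩
    · intro h1
      have h2 := hπ.irreducible.dvd_symm MvPolynomial.X_prime.irreducible h0
      have h3 := h2.trans h1
      rw [MvPolynomial.X_dvd_X] at h3
      exact absurd h3 (by decide)
    · have e : ev η ζ (MvPolynomial.X 1 : MvPolynomial (Fin 3) k) = η := by simp [ev]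
      rw [e, Nat.cast_one, sub_add_cancel]
      exact hηw
  · refine ⟨1, MvPolynomial.X 0, MvPolynomial.isHomogeneous_X _ _, h0, ?_⟩
    have e : ev η ζ (MvPolynomial.X 0 : MvPolynomial (Fin 3) k) = 1 := by simp [ev]
    rw [e, one_smul, Nat.cast_one, sub_add_cancel]
    exact hw

theorem IsRefl.sat (ind : AlgebraicIndependent k ![η, ζ]) (hr : IsRefl (k := k) η ζ E) (V : Submodule L W) :
    IsRefl (k := k) η ζ (R169.sat E V) := by
  intro n w hw
  refine ⟨hr n w fun π hπ => ?_, ?_⟩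
  · obtain ⟨s, F, hF, hd, hm⟩ := hw π hπ
    exact ⟨s, F, hF, hd, hm.1⟩
  · obtain ⟨s, F, hF, hd, hm⟩ := hw (MvPolynomial.X 0) MvPolynomial.X_prime
    have hF0 : ev η ζ F ≠ 0 := by
      intro h0
      apply hd
      rw [ev_inj ind hF h0]
      exact dvd_zero _
    have h2 : ev η ζ F • w ∈ V := hm.2
    exact (Submodule.smul_mem_iff V hF0).1 h2

theorem Dep2.sat (hr : Dep2 η E) (V : Submodule L W) : Dep2 η (R169.sat E V) := by
  intro n w hw hηw
  exact ⟨hr n w hw.1 hηw.1, hw.2⟩

theorem isRefl_Bpow (hr : IsRefl (k := k) η ζ D.B) (r : ℕ) : IsRefl (k := k) η ζ (Bpow D r) := by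
  intro n w hw
  unfold Bpow
  rw [Submodule.mem_pi]
  intro j _
  refine hr n (w j) fun π hπ => ?_
  obtain ⟨s, F, hF, hd, hm⟩ := hw π hπ
  refine ⟨s, F, hF, hd, ?_⟩
  unfold Bpow at hm
  rw [Submodule.mem_pi] at hm
  exact hm j (Set.mem_univ j)

end piece

end R169
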