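import Crest.Agent.R169.Lat0

/-!
# Row 169, module 0 (LAT): L6b, factors of homogeneous polynomials are homogeneous

Let `F G ≠ 0` be homogeneous of degree `s`. Decompose `F = ∑ F_i`, `G = ∑ G_j` (`MvPolynomial.homogeneousComponent`).
Let `a0 ≤ a1` be the smallest and largest `i` with `F_i ≠ 0`, `b0 ≤ b1` the same for `G`. The homogeneous component of
`F G` of degree `a1 + b1` is `F_{a1} G_{b1} ≠ 0` (domain), the one of degree `a0 + b0` is `F_{a0} G_{b0} ≠ 0`; since `F G`
is homogeneous of degree `s`, `a1 + b1 = s = a0 + b0`, so `a0 = a1`, `b0 = b1`.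
(Alternative: `totalDegree_mul` in a domain gives the top degree; for the bottom degree use the grading
`MvPolynomial.gradedAlgebra`/`DirectSum`, or map `X i ↦ T * X i` into `(MvPolynomial (Fin 3) k)[T]`: `F` is homogeneous of degree `a`
iff its image is `F T^a`, and in `R[T]`, `R` a domain, a product is a monomial `c T^s` only if both factors are monomials:
`natDegree_mul` and `natTrailingDegree_mul`. This second way is short.)
-/

set_option autoImplicit false

namespace R169

open R169.Lat

section piece

variable {k L : Type} [Field k] [Field L] [Algebra k L]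
variable {W : Type} [AddCommGroup W] [Module k W] [Module L W] [IsScalarTower k L W]
variable {D : GD k L} {η ζ : L} {E E' : ℤ → Submodule k W}

/-- `X i ↦ T * X i` -/
private noncomputable def PhiT (k : Type) [Field k] :
    MvPolynomial (Fin 3) k →ₐ[k] Polynomial (MvPolynomial (Fin 3) k) :=
  MvPolynomial.aeval (fun i => Polynomial.C (MvPolynomial.X i) * Polynomial.X)

private theorem PhiT_monomial (d : Fin 3 →₀ ℕ) (c : k) :
    PhiT k (MvPolynomial.monomial d c) =
      Polynomial.C (MvPolynomial.monomial d c) * Polynomial.X ^ d.degree := by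
  rw [PhiT, MvPolynomial.aeval_monomial, Finsupp.prod_fintype _ _ (by intro i; simp)]
  rw [Finsupp.degree_eq_sum]
  have h1 : (MvPolynomial.monomial d c : MvPolynomial (Fin 3) k) =
      MvPolynomial.C c * ∏ i, MvPolynomial.X i ^ d i := by
    rw [MvPolynomial.monomial_eq, Finsupp.prod_fintype _ _ (by intro i; simp)]
  rw [h1]
  simp only [mul_pow, Finset.prod_mul_distrib, Finset.prod_pow_eq_pow_sum, map_mul, map_prod,
    map_pow]
  have h2 : (algebraMap k (Polynomial (MvPolynomial (Fin 3) k))) c =
      Polynomial.C (MvPolynomial.C c) := rfl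
  rw [h2]
  ring

private theorem coeff_PhiT (F : MvPolynomial (Fin 3) k) (d : Fin 3 →₀ ℕ) :
    MvPolynomial.coeff d ((PhiT k F).coeff d.degree) = MvPolynomial.coeff d F := by
  have h0 : PhiT k F = ∑ e ∈ F.support, PhiT k (MvPolynomial.monomial e (F.coeff e)) := by
    conv_lhs => rw [F.as_sum]
    rw [map_sum]
  conv_rhs => rw [F.as_sum]
  rw [h0, Polynomial.finsetSum_coeff, MvPolynomial.coeff_sum, MvPolynomial.coeff_sum]
  refine Finset.sum_congr rfl fun e _ => ?_
  rw [PhiT_monomial, Polynomial.coeff_C_mul, Polynomial.coeff_X_pow]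
  by_cases hde : e = d
  · subst hde
    simp
  · rw [MvPolynomial.coeff_monomial, if_neg hde]
    split_ifs
    · rw [mul_one, MvPolynomial.coeff_monomial, if_neg hde]
    · rw [mul_zero, MvPolynomial.coeff_zero]

private theorem PhiT_ne_zero {F : MvPolynomial (Fin 3) k} (hF : F ≠ 0) : PhiT k F ≠ 0 := by
  intro h
  apply hF
  ext d
  rw [← coeff_PhiT, h]
  simp

private theorem PhiT_of_homog {F : MvPolynomial (Fin 3) k} {s : ℕ} (hF : F.IsHomogeneous s) :
    PhiT k F = Polynomial.monomial s F := by
  have h0 : PhiT k F = ∑ e ∈ F.support, PhiT k (MvPolynomial.monomial e (F.coeff e)) := by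
    conv_lhs => rw [F.as_sum]
    rw [map_sum]
  rw [h0]
  conv_rhs => rw [F.as_sum]
  rw [map_sum]
  refine Finset.sum_congr rfl fun e he => ?_
  have h1 : e.degree = s := by
    by_contra hne
    exact (MvPolynomial.mem_support_iff.1 he) (hF.coeff_eq_zero hne)
  rw [PhiT_monomial, h1, Polynomial.C_mul_X_pow_eq_monomial]

private theorem homog_of_natDegree {F : MvPolynomial (Fin 3) k}
    (h : (PhiT k F).natTrailingDegree = (PhiT k F).natDegree) :
    F.IsHomogeneous (PhiT k F).natDegree := by
  intro d hd
  have h1 : (PhiT k F).coeff d.degree ≠ 0 := by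
    intro h0
    apply hd
    rw [← coeff_PhiT, h0, MvPolynomial.coeff_zero]
  have h2 := Polynomial.le_natDegree_of_ne_zero h1
  have h3 := Polynomial.natTrailingDegree_le_of_ne_zero h1
  have h4 : Finsupp.weight (1 : Fin 3 → ℕ) d = d.degree := by
    rw [Finsupp.degree_eq_weight_one]
    rfl
  rw [h4]
  omega

theorem homog_factor {F G : MvPolynomial (Fin 3) k} {s : ℕ} (h : (F * G).IsHomogeneous s) (h0 : F * G ≠ 0) :
    ∃ a b : ℕ, F.IsHomogeneous a ∧ G.IsHomogeneous b ∧ a + b = s := by
  have hF : F ≠ 0 := left_ne_zero_of_mul h0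
  have hG : G ≠ 0 := right_ne_zero_of_mul h0
  have hF' := PhiT_ne_zero hF
  have hG' := PhiT_ne_zero hG
  have h1 := PhiT_of_homog h
  rw [map_mul] at h1
  have h2 : (PhiT k F).natDegree + (PhiT k G).natDegree = s := by
    rw [← Polynomial.natDegree_mul hF' hG', h1, Polynomial.natDegree_monomial_eq _ h0]
  have h3 : (PhiT k F).natTrailingDegree + (PhiT k G).natTrailingDegree = s := by
    rw [← Polynomial.natTrailingDegree_mul hF' hG', h1, Polynomial.natTrailingDegree_monomial h0]
  have h4 := Polynomial.natTrailingDegree_le_natDegree (PhiT k F)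
  have h5 := Polynomial.natTrailingDegree_le_natDegree (PhiT k G)
  exact ⟨_, _, homog_of_natDegree (by omega), homog_of_natDegree (by omega), h2⟩

end piece

end R169
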