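import Crest.Agent.R169.Lat6b

/-!
# Row 169, module 0 (LAT): L6c, unique factorisation: `A` is "reflexive"

`P = MvPolynomial (Fin 3) k` is a UFD. Take any prime (say `X 0`, `MvPolynomial.prime_X`?) and `F0, s0` from the hypothesis for it;
`F0 ≠ 0`. If `m + s0 < 0` then `A (m+s0) = ⊥` (`A_neg`), `ev F0 ≠ 0` (`ev_inj`), so `g = 0`. Otherwise
`ev F0 * g = ev G0`, `G0` homogeneous of degree `m + s0` (`mem_A_iff`, toNat).
If `G0 = 0` then `g = 0`. CLAIM `F0 ∣ G0`: `UniqueFactorizationMonoid.exists_reduced_factors`: `F0 = c F1`, `G0 = c G1`,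
`F1, G1` relatively prime. If `F1` is not a unit take a prime `π ∣ F1` and `F, s` from the hypothesis for `π`:
if `m + s < 0` again `g = 0`; otherwise `ev F * g = ev G`, so `ev (F * G0) = ev (G * F0)`, both homogeneous of degree `m + s + s0`,
so `F * G0 = G * F0` by `ev_inj` (difference homogeneous); cancel `c`: `F * G1 = G * F1`; `π ∣ F * G1`, `π ∤ F`, so
`π ∣ G1`, contradiction. So `F1` is a unit and `F0 ∣ G0`.
`G0 = F0 * H` (nonzero homogeneous) ⇒ `H` homogeneous by `homog_factor`, of degree `b` with `a + b = m + s0`, and `a = s0` because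
`F0 ≠ 0` is homogeneous of degrees `a` and `s0` (`IsHomogeneous.inj_right`). So `ev H = g` and `g ∈ A m`.
-/

set_option autoImplicit false

namespace R169

open R169.Lat

section piece

variable {k L : Type} [Field k] [Field L] [Algebra k L]
variable {W : Type} [AddCommGroup W] [Module k W] [Module L W] [IsScalarTower k L W]
variable {D : GD k L} {η ζ : L} {E E' : ℤ → Submodule k W}

theorem A_refl (ind : AlgebraicIndependent k ![η, ζ]) (m : ℤ) (g : L)
    (h : ∀ π : MvPolynomial (Fin 3) k, Prime π → ∃ (s : ℕ) (F : MvPolynomial (Fin 3) k),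
      F.IsHomogeneous s ∧ ¬ π ∣ F ∧ ev η ζ F * g ∈ A k η ζ (m + s)) : g ∈ A k η ζ m := by
  classical
  obtain ⟨s0, F0, hF0, hd0, hg0⟩ := h (MvPolynomial.X 0) MvPolynomial.X_prime
  have hF00 : F0 ≠ 0 := by
    rintro rfl
    exact hd0 (dvd_zero _)
  by_cases hg : g = 0
  · rw [hg]; exact Submodule.zero_mem _
  -- all degrees are nonnegative
  have hdeg : ∀ (s : ℕ) (F : MvPolynomial (Fin 3) k), F.IsHomogeneous s → F ≠ 0 →
      ev η ζ F * g ∈ A k η ζ (m + s) → ∃ (t : ℕ) (G : MvPolynomial (Fin 3) k), (t : ℤ) = m + s ∧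
        G.IsHomogeneous t ∧ ev η ζ G = ev η ζ F * g ∧ G ≠ 0 := by
    intro s F hF hF0' hFg
    by_cases hneg : m + s < 0
    · rw [A_neg hneg, Submodule.mem_bot] at hFg
      rcases mul_eq_zero.1 hFg with h1 | h1
      · exact absurd (ev_inj ind hF h1) hF0'
      · exact absurd h1 hg
    · obtain ⟨t, ht⟩ := Int.eq_ofNat_of_zero_le (not_lt.1 hneg)
      rw [ht] at hFg
      obtain ⟨G, hG, hG2⟩ := (mem_A_iff t _).1 hFg
      refine ⟨t, G, ht.symm, hG, hG2, ?_⟩
      rintro rfl
      have h2 : ev η ζ (0 : MvPolynomial (Fin 3) k) = 0 := by unfold ev; exact map_zero _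
      rw [h2] at hG2
      rcases mul_eq_zero.1 hG2.symm with h1 | h1
      · exact absurd (ev_inj ind hF h1) hF0'
      · exact absurd h1 hg
  obtain ⟨t0, G0, ht0, hG0, hG0e, hG00⟩ := hdeg s0 F0 hF0 hF00 hg0
  have hdvd : F0 ∣ G0 := by
    obtain ⟨F1, G1, c, hrel, hF1, hG1⟩ :=
      UniqueFactorizationMonoid.exists_reduced_factors F0 hF00 G0
    have hc0 : c ≠ 0 := by
      rintro rfl
      rw [zero_mul] at hF1
      exact hF00 hF1.symm
    have hF10 : F1 ≠ 0 := by
      rintro rfl
      rw [mul_zero] at hF1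
      exact hF00 hF1.symm
    have hunit : IsUnit F1 := by
      by_contra hnu
      obtain ⟨π, hπ, hπF⟩ := UniqueFactorizationMonoid.exists_mem_factors hF10 hnu |>.imp
        (fun π hπ => (⟨UniqueFactorizationMonoid.prime_of_factor π hπ,
          UniqueFactorizationMonoid.dvd_of_mem_factors hπ⟩ : Prime π ∧ π ∣ F1))
      obtain ⟨s, F, hF, hdF, hgF⟩ := h π hπ
      have hFne : F ≠ 0 := by
        rintro rfl
        exact hdF (dvd_zero _)
      obtain ⟨t, G, ht, hG, hGe, hGne⟩ := hdeg s F hF hFne hgF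
      -- F * G0 = G * F0
      have h1 : (F * G0).IsHomogeneous (s + t0) := hF.mul hG0
      have h2 : (G * F0).IsHomogeneous (t + s0) := hG.mul hF0
      have h3 : t + s0 = s + t0 := by omega
      rw [h3] at h2
      have h4 : ev η ζ (F * G0 - G * F0) = 0 := by
        rw [ev_sub, ev_mul, ev_mul, hG0e, hGe]; ring
      have h5 : F * G0 = G * F0 := sub_eq_zero.1 (ev_inj ind (h1.sub h2) h4)
      have h6 : F * G1 = G * F1 := by
        apply mul_left_cancel₀ hc0
        calc c * (F * G1) = F * (c * G1) := by ring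
          _ = F * G0 := by rw [hG1]
          _ = G * F0 := h5
          _ = G * (c * F1) := by rw [hF1]
          _ = c * (G * F1) := by ring
      have h7 : π ∣ F * G1 := by
        rw [h6]; exact hπF.mul_left G
      rcases hπ.dvd_or_dvd h7 with h8 | h8
      · exact hdF h8
      · exact hπ.not_isUnit (hrel hπF h8)
    rw [← hF1, ← hG1]
    exact mul_dvd_mul_left c hunit.dvd
  obtain ⟨H, hH⟩ := hdvd
  obtain ⟨a, b, ha, hb, hab⟩ := homog_factor (F := F0) (G := H) (s := t0) (by rw [← hH]; exact hG0)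
    (by rw [← hH]; exact hG00)
  have has : a = s0 := ha.inj_right hF0 hF00
  have hbm : (b : ℤ) = m := by omega
  have hevH : ev η ζ H = g := by
    have h1 : ev η ζ F0 * ev η ζ H = ev η ζ F0 * g := by
      rw [← ev_mul, ← hH, hG0e]
    exact mul_left_cancel₀ (fun hc => hF00 (ev_inj ind hF0 hc)) h1
  rw [← hbm, ← hevH]
  exact ev_mem_A hb

end piece

end R169
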