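import Crest.Agent.R169.Lat6a
import Crest.Agent.R169.Lat6c
import Crest.Agent.R169.Lat1
import Crest.Agent.R169.Lat4

/-!
# Row 169, module 0 (LAT): L6d, the hull is a lattice

* `IsPLat.hull`: take `c, M, f` from `EmbA.existsP` (`f : W → L^M` injective, `F`-linear, `f (E n) ⊂ A (n+c)^M`).
  If `w ∈ hull E n` then (`mem_hull`) for every prime `π` there is `F` with `ev F • w ∈ E (n+s)`, so
  `ev F * f w i = f (ev F • w) i ∈ A (n+s+c)` (`f` is `FF`-linear, `ev F ∈ FF` by `Lat4.ev_mem_FF`), so by `A_refl`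
  `f w i ∈ A (n+c)`. So `hull E n ⊂ U n := {w | ∀ i, f w i ∈ A (n+c)}` (a family of `k`-subspaces).
  Its image under `f` is a subfamily of the free lattice; apply `IsPLat.sub` in `L^M` to
  `n ↦ (hull E n).map f` inside `Lat.gspan` of the standard basis in degrees `-c` (`isPLat_gspan`), and transport back along the
  injective map `f` (fin: `Submodule.map` injective; bdd, gen: apply `f` and use injectivity. The lemma
  `IsPLat.of_map` below does this).
  The family `hull E` satisfies `mono, smη, smζ`: by `mem_hull` (multiply: `ev F • (η • w) = η • (ev F • w) ∈ E (n+s+1)`).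
* `IsLat.hull`: `toPLat`, then `FiniteDimensional (FF k η ζ) W` from `finDim_FF hP` and `FiniteDimensional L W`
  (`FiniteDimensional.trans (FF k η ζ) L W`; the scalar tower `FF ⊂ L` is standard). `smul_mem` by `mem_hull`.
* `isRefl_hull`: for `π`: `F` with `ev F • w ∈ hull E (n+s)`, so `F'` with `ev F' • (ev F • w) ∈ E (n+s+s')`, use `F' F`.
-/

set_option autoImplicit false

namespace R169

open R169.Lat

section piece

variable {k L : Type} [Field k] [Field L] [Algebra k L]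
variable {W : Type} [AddCommGroup W] [Module k W] [Module L W] [IsScalarTower k L W]
variable {D : GD k L} {η ζ : L} {E E' : ℤ → Submodule k W}

omit [Module k W] [IsScalarTower k L W] in
theorem Lat.map_mul_eta {M : ℕ} (f : W →ₗ[FF k η ζ] (Fin M → L)) (w : W) : f (η • w) = η • f w := by
  have h : η ∈ FF k η ζ := IntermediateField.subset_adjoin k _ (by simp)
  exact f.map_smul (⟨η, h⟩ : FF k η ζ) w

omit [Module k W] [IsScalarTower k L W] in
theorem Lat.map_mul_zeta {M : ℕ} (f : W →ₗ[FF k η ζ] (Fin M → L)) (w : W) : f (ζ • w) = ζ • f w := by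
  have h : ζ ∈ FF k η ζ := IntermediateField.subset_adjoin k _ (by simp)
  exact f.map_smul (⟨ζ, h⟩ : FF k η ζ) w

theorem Lat.mem_map_inj {M : ℕ} (f : W →ₗ[FF k η ζ] (Fin M → L)) (hf : Function.Injective f)
    {S : Submodule k W} {w : W} : f w ∈ S.map (f.restrictScalars k) ↔ w ∈ S := by
  constructor
  · intro h
    obtain ⟨v, hv, hvw⟩ := Submodule.mem_map.1 h
    have : f v = f w := hvw
    rwa [← hf this]
  · intro h
    exact Submodule.mem_map.2 ⟨w, h, rfl⟩

/-- transport along an injective `F`-linear map -/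
theorem IsPLat.of_map {M : ℕ} (f : W →ₗ[FF k η ζ] (Fin M → L)) (hf : Function.Injective f)
    (h : IsPLat η ζ (fun n => (E n).map (f.restrictScalars k))) : IsPLat η ζ E := by
  have key : ∀ {S : Submodule k W} {w : W}, f w ∈ S.map (f.restrictScalars k) ↔ w ∈ S :=
    fun {S w} => Lat.mem_map_inj f hf
  refine ⟨?_, ?_, ?_, ?_, ?_, ?_⟩
  · intro n w hw
    exact key.1 (h.mono n (key.2 hw))
  · intro n w hw
    obtain ⟨v, hv, rfl⟩ := mem_sm.1 hw
    refine key.1 (h.smη n ?_)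
    rw [Lat.map_mul_eta]
    exact mem_sm.2 ⟨f v, key.2 hv, rfl⟩
  · intro n w hw
    obtain ⟨v, hv, rfl⟩ := mem_sm.1 hw
    refine key.1 (h.smζ n ?_)
    rw [Lat.map_mul_zeta]
    exact mem_sm.2 ⟨f v, key.2 hv, rfl⟩
  · intro n
    have h1 := h.fin n
    have e := Submodule.equivMapOfInjective (f.restrictScalars k) hf (E n)
    exact Module.Finite.equiv e.symm
  · obtain ⟨n0, hn0⟩ := h.bdd
    refine ⟨n0, fun n hn => ?_⟩
    have h1 := hn0 n hn
    rw [eq_bot_iff]
    intro w hw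
    have h2 : f w ∈ (E n).map (f.restrictScalars k) := key.2 hw
    have h3 : f w ∈ (⊥ : Submodule k (Fin M → L)) := h1 ▸ h2
    rw [Submodule.mem_bot] at h3 ⊢
    exact hf (by rw [h3, map_zero])
  · obtain ⟨n1, hn1⟩ := h.gen
    refine ⟨n1, fun n hn => ?_⟩
    intro w hw
    have h1 := hn1 n hn (key.2 hw)
    obtain ⟨y, hy, z, hz, hyz⟩ := Submodule.mem_sup.1 h1
    obtain ⟨y1, hy1, y2, hy2, hy12⟩ := Submodule.mem_sup.1 hy
    obtain ⟨v1, hv1, hv1'⟩ := Submodule.mem_map.1 hy1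
    obtain ⟨t2, ht2, ht2'⟩ := mem_sm.1 hy2
    obtain ⟨v2, hv2, hv2'⟩ := Submodule.mem_map.1 ht2
    obtain ⟨t3, ht3, ht3'⟩ := mem_sm.1 hz
    obtain ⟨v3, hv3, hv3'⟩ := Submodule.mem_map.1 ht3
    have e1 : f v1 = y1 := hv1'
    have e2 : f v2 = t2 := hv2'
    have e3 : f v3 = t3 := hv3'
    have e4 : f (v1 + η • v2 + ζ • v3) = f w := by
      rw [map_add, map_add, Lat.map_mul_eta, Lat.map_mul_zeta, e1, e2, e3, ht2', ht3', hy12, hyz]
    rw [← hf e4]
    refine Submodule.add_mem _ (Submodule.mem_sup_left (Submodule.add_mem _ ?_ ?_)) ?_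
    · exact Submodule.mem_sup_left hv1
    · exact Submodule.mem_sup_right (mem_sm.2 ⟨v2, hv2, rfl⟩)
    · exact Submodule.mem_sup_right (mem_sm.2 ⟨v3, hv3, rfl⟩)

theorem Lat.hull_mul (h : IsPLat η ζ E) {l : L} {i : ℤ} (hl : ∀ n w, w ∈ E n → l • w ∈ E (i + n))
    {n : ℤ} {w : W} (hw : w ∈ hull (k := k) η ζ E n) : l • w ∈ hull (k := k) η ζ E (i + n) := by
  rw [mem_hull h] at hw ⊢
  intro π hπ
  obtain ⟨s, F, hF, hd, hm⟩ := hw π hπ
  refine ⟨s, F, hF, hd, ?_⟩
  rw [smul_comm, add_assoc]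
  exact hl _ _ hm

theorem Lat.hull_stab (h : IsPLat η ζ E) : (∀ n, hull (k := k) η ζ E n ≤ hull η ζ E (n + 1)) ∧
    (∀ n, sm η (hull (k := k) η ζ E n) ≤ hull η ζ E (n + 1)) ∧
    (∀ n, sm ζ (hull (k := k) η ζ E n) ≤ hull η ζ E (n + 1)) := by
  refine ⟨?_, ?_, ?_⟩
  · intro n w hw
    have := Lat.hull_mul h (l := 1) (i := 1) (fun n w hw => by
      rw [one_smul, add_comm]; exact h.mono n hw) hw
    rwa [one_smul, add_comm] at this
  · intro n w hw
    obtain ⟨v, hv, rfl⟩ := mem_sm.1 hw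
    have := Lat.hull_mul h (l := η) (i := 1) (fun n w hw => by
      rw [add_comm]; exact h.eta_mem hw) hv
    rwa [add_comm] at this
  · intro n w hw
    obtain ⟨v, hv, rfl⟩ := mem_sm.1 hw
    have := Lat.hull_mul h (l := ζ) (i := 1) (fun n w hw => by
      rw [add_comm]; exact h.zeta_mem hw) hv
    rwa [add_comm] at this

theorem Lat.hull_coord (ind : AlgebraicIndependent k ![η, ζ]) (h : IsPLat η ζ E) {c : ℤ} {M : ℕ}
    (f : W →ₗ[FF k η ζ] (Fin M → L)) (hf : ∀ n w, w ∈ E n → ∀ i, f w i ∈ A k η ζ (n + c))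
    {n : ℤ} {w : W} (hw : w ∈ hull (k := k) η ζ E n) (i : Fin M) : f w i ∈ A k η ζ (n + c) := by
  rw [mem_hull h] at hw
  refine A_refl ind _ _ ?_
  intro π hπ
  obtain ⟨s, F, hF, hd, hm⟩ := hw π hπ
  refine ⟨s, F, hF, hd, ?_⟩
  have h1 := hf _ _ hm i
  have h2 : f (ev η ζ F • w) = ev η ζ F • f w :=
    f.map_smul (⟨ev η ζ F, ev_mem_FF F⟩ : FF k η ζ) w
  rw [h2] at h1
  rw [show n + c + (s : ℤ) = n + s + c by ring]
  exact h1

theorem IsPLat.hull [FiniteDimensional (FF k η ζ) W] (ind : AlgebraicIndependent k ![η, ζ])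
    (h : IsPLat η ζ E) : IsPLat η ζ (hull η ζ E) := by
  classical
  obtain ⟨c, M, f, hinj, hf⟩ := EmbA.existsP h
  obtain ⟨s1, s2, s3⟩ := Lat.hull_stab h
  refine IsPLat.of_map f hinj ?_
  have hfree := isPLat_gspan (k := k) (η := η) (ζ := ζ) (W := Fin M → L) (ι := Fin M) (fun _ => -c)
    (fun i => Pi.single i (1 : L))
  refine IsPLat.sub hfree ?_ ?_ ?_ ?_
  · intro n x hx
    obtain ⟨w, hw, rfl⟩ := Submodule.mem_map.1 hx
    refine mem_gspan.2 ⟨fun i => f w i, fun i => ?_, ?_⟩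
    · have := Lat.hull_coord ind h f hf hw i
      rwa [sub_neg_eq_add]
    · show f w = _
      funext j
      simp [Finset.sum_apply, Pi.single_apply]
  · intro n x hx
    obtain ⟨w, hw, rfl⟩ := Submodule.mem_map.1 hx
    exact Submodule.mem_map.2 ⟨w, s1 n hw, rfl⟩
  · intro n x hx
    obtain ⟨y, hy, rfl⟩ := mem_sm.1 hx
    obtain ⟨w, hw, rfl⟩ := Submodule.mem_map.1 hy
    exact Submodule.mem_map.2 ⟨η • w, s2 n (mem_sm.2 ⟨w, hw, rfl⟩), Lat.map_mul_eta f w⟩
  · intro n x hx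
    obtain ⟨y, hy, rfl⟩ := mem_sm.1 hx
    obtain ⟨w, hw, rfl⟩ := Submodule.mem_map.1 hy
    exact Submodule.mem_map.2 ⟨ζ • w, s3 n (mem_sm.2 ⟨w, hw, rfl⟩), Lat.map_mul_zeta f w⟩

theorem IsLat.hull [FiniteDimensional L W] (hP : Par D η ζ) (h : IsLat D η ζ E) :
    IsLat D η ζ (hull η ζ E) := by
  have h0 := h.toPLat hP
  have : FiniteDimensional (FF k η ζ) L := finDim_FF hP
  have : FiniteDimensional (FF k η ζ) W := FiniteDimensional.trans (FF k η ζ) L W
  have h1 := h0.hull hP.indep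
  refine ⟨?_, h1.fin, h1.bdd, h1.gen⟩
  intro i n a w ha hw
  exact Lat.hull_mul h0 (fun m v hv => h.smul_mem ha hv) hw

theorem isRefl_hull [FiniteDimensional L W] (hP : Par D η ζ) (h : IsLat D η ζ E) :
    IsRefl (k := k) η ζ (R169.hull η ζ E) := by
  have h0 := h.toPLat hP
  intro n w hw
  rw [mem_hull h0]
  intro π hπ
  obtain ⟨s, F, hF, hd, hm⟩ := hw π hπ
  rw [mem_hull h0] at hm
  obtain ⟨s', F', hF', hd', hm'⟩ := hm π hπ
  refine ⟨s' + s, F' * F, hF'.mul hF, ?_, ?_⟩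
  · intro hdvd
    rcases hπ.dvd_or_dvd hdvd with h | h
    · exact hd' h
    · exact hd h
  · rw [ev_mul, mul_smul]
    have e : n + ((s' + s : ℕ) : ℤ) = n + s + s' := by push_cast; ring
    rw [e]
    exact hm'

end piece

end R169
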