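import Crest.Agent.R169.Lat0
import Crest.Agent.R169.Lat6b

/-!
# Row 169, module 0 (LAT): L6e1, two coprime forms

Let `p = ev π`, `g = ev G` (both `≠ 0` by `ev_inj`). `sm p (A (s-d)) ⊓ sm g (A (s-t)) ≤ sm (p*g) (A (s-d-t))`: an element is
`p a = g b`, `a = ev a'`, `b = ev b'` with `a', b'` homogeneous (or `0` if the degree is negative), so `π a' = G b'` (`ev_inj`),
so `π ∣ b'` (`π` prime, `π ∤ G`), `b' = π c`, `c` homogeneous (or: only the component of the right degree matters; `homog_factor`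
from `Lat6b` gives it). So
`dim (sm p (A (s-d)) ⊔ sm g (A (s-t))) ≥ dim A (s-d) + dim A (s-t) - dim A (s-d-t)` (`Submodule.finrank_sup_add_finrank_inf_eq`;
`sm` by a nonzero element is injective so `finrank (sm p S) = finrank S`).
For `s ≥ d + t - 2` use `finrank_A_rat`: `dim A s - dim A (s-d) - dim A (s-t) + dim A (s-d-t) = d t` (polynomial identity).
For `0 ≤ s < d + t` the left side is `≤ dim A (d+t)` (`A_mono`, `Submodule.finrank_mono`); for `s < 0` it is `0`.
So `C = d t + dim A (d+t)` works.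
-/

set_option autoImplicit false

namespace R169

open R169.Lat

section piece

variable {k L : Type} [Field k] [Field L] [Algebra k L]
variable {W : Type} [AddCommGroup W] [Module k W] [Module L W] [IsScalarTower k L W]
variable {D : GD k L} {η ζ : L} {E E' : ℤ → Submodule k W}

theorem Lat.finrank_sm_e1 {l : L} (hl : l ≠ 0) (S : Submodule k L) :
    Module.finrank k (sm l S) = Module.finrank k S := by
  have hinj : Function.Injective (Algebra.lsmul k k L l) := by
    intro a b hab
    exact mul_left_cancel₀ hl hab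
  exact (LinearEquiv.finrank_eq (Submodule.equivMapOfInjective (Algebra.lsmul k k L l) hinj S)).symm

instance Lat.fin_sm_e1 (l : L) (S : Submodule k L) [FiniteDimensional k S] : FiniteDimensional k (sm l S) := by
  unfold sm; infer_instance

theorem Lat.coprime_inf (ind : AlgebraicIndependent k ![η, ζ]) {π G : MvPolynomial (Fin 3) k} {d t : ℕ}
    (hπ : Prime π) (hπd : π.IsHomogeneous d) (hG : G.IsHomogeneous t) (hnd : ¬ π ∣ G) (s : ℤ) :
    (sm (ev η ζ π) (A k η ζ (s - d)) ⊓ sm (ev η ζ G) (A k η ζ (s - t)) : Submodule k L) ≤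
      sm (ev η ζ π * ev η ζ G) (A k η ζ (s - d - t)) := by
  rintro w ⟨h1, h2⟩
  obtain ⟨a, ha, rfl⟩ := mem_sm.1 h1
  obtain ⟨b, hb, hab⟩ := mem_sm.1 h2
  rw [smul_eq_mul, smul_eq_mul] at hab
  rw [smul_eq_mul]
  rcases lt_or_ge (s - d) 0 with h | hsd
  · rw [A_neg h, Submodule.mem_bot] at ha
    rw [ha, mul_zero]; exact Submodule.zero_mem _
  rcases lt_or_ge (s - t) 0 with h | hst
  · rw [A_neg h, Submodule.mem_bot] at hb
    rw [← hab, hb, mul_zero]; exact Submodule.zero_mem _
  obtain ⟨n, hn⟩ := Int.eq_ofNat_of_zero_le hsd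
  obtain ⟨m, hm⟩ := Int.eq_ofNat_of_zero_le hst
  rw [hn] at ha
  rw [hm] at hb
  obtain ⟨a', ha', rfl⟩ := (mem_A_iff n a).1 ha
  obtain ⟨b', hb', rfl⟩ := (mem_A_iff m b).1 hb
  have hdn : d + n = t + m := by omega
  have h3 : (π * a' - G * b').IsHomogeneous (d + n) := by
    refine (hπd.mul ha').sub ?_
    rw [hdn]; exact hG.mul hb'
  have h4 : π * a' - G * b' = 0 := by
    refine ev_inj ind h3 ?_
    rw [ev_sub, ev_mul, ev_mul, hab, sub_self]
  have h5 : π * a' = G * b' := sub_eq_zero.1 h4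
  have h6 : π ∣ b' := by
    rcases hπ.dvd_or_dvd (Dvd.intro _ h5) with h | h
    · exact absurd h hnd
    · exact h
  obtain ⟨c, rfl⟩ := h6
  by_cases h0 : π * c = 0
  · rw [← hab, h0]
    simp only [ev, map_zero, mul_zero]
    exact Submodule.zero_mem _
  · obtain ⟨x, y, hx, hy, hxy⟩ := homog_factor hb' h0
    have hxd : x = d := hx.inj_right hπd hπ.ne_zero
    subst hxd
    refine mem_sm.2 ⟨ev η ζ c, ?_, ?_⟩
    · have : s - x - t = y := by omega
      rw [this]
      exact ev_mem_A hy
    · rw [← hab, ev_mul, smul_eq_mul]; ring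

theorem coprime_bound (ind : AlgebraicIndependent k ![η, ζ]) {π G : MvPolynomial (Fin 3) k} {d t : ℕ}
    (hπ : Prime π) (hπd : π.IsHomogeneous d) (hG : G.IsHomogeneous t) (hnd : ¬ π ∣ G) :
    ∃ C : ℕ, ∀ s : ℤ, Module.finrank k (A k η ζ s) ≤
      Module.finrank k (sm (ev η ζ π) (A k η ζ (s - d)) ⊔ sm (ev η ζ G) (A k η ζ (s - t)) : Submodule k L) + C := by
  have hπ0 : ev η ζ π ≠ 0 := fun h => hπ.ne_zero (ev_inj ind hπd h)
  have hG0 : ev η ζ G ≠ 0 := by
    intro h
    exact hnd (by rw [ev_inj ind hG h]; exact dvd_zero _)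
  refine ⟨d * t + Module.finrank k (A k η ζ ((d : ℤ) + t)), fun s => ?_⟩
  rcases lt_or_ge s ((d : ℤ) + t) with hs | hs
  · have := Submodule.finrank_mono (A_mono (k := k) (η := η) (ζ := ζ) hs.le)
    omega
  · have h1 := Submodule.finrank_sup_add_finrank_inf_eq (sm (ev η ζ π) (A k η ζ (s - d)))
      (sm (ev η ζ G) (A k η ζ (s - t)))
    rw [Lat.finrank_sm_e1 hπ0, Lat.finrank_sm_e1 hG0] at h1
    have h2 := Submodule.finrank_mono (Lat.coprime_inf ind hπ hπd hG hnd s)
    rw [Lat.finrank_sm_e1 (mul_ne_zero hπ0 hG0)] at h2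
    have e1 := finrank_A_rat ind (n := s) (by omega)
    have e2 := finrank_A_rat ind (n := s - d) (by omega)
    have e3 := finrank_A_rat ind (n := s - t) (by omega)
    have e4 := finrank_A_rat ind (n := s - d - t) (by omega)
    have key : (Module.finrank k (A k η ζ s) : ℚ) + Module.finrank k (A k η ζ (s - d - t)) =
        Module.finrank k (A k η ζ (s - d)) + Module.finrank k (A k η ζ (s - t)) + d * t := by
      rw [e1, e2, e3, e4]; push_cast; ring
    have key2 : Module.finrank k (A k η ζ s) + Module.finrank k (A k η ζ (s - d - t)) =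
        Module.finrank k (A k η ζ (s - d)) + Module.finrank k (A k η ζ (s - t)) + d * t := by
      exact_mod_cast key
    omega

end piece

end R169
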