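import Crest.Agent.R169.Lat6e1
import Crest.Agent.R169.Lat6b

/-!
# Row 169, module 0 (LAT): L6e2, ideals not contained in a height one prime have bounded colength

Induction on the number of prime factors of a nonzero homogeneous `F0` with `ev F0 ∈ J a`, `F0` of degree `a`
(strong induction on the degree `a` is enough: a nonunit homogeneous divisor has positive degree; generalise over `J`).
Existence of one such `F0`: `h4` with the prime `X 0`.
* `F0` a unit (degree `0`): `F0 = C c`, so `1 ∈ J 0` and `J s = A s` (`h2` with `b = 1`), `C = 0`.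
* otherwise let `π` be a prime factor, `F0 = π F'`; by `homog_factor` `π` is homogeneous of degree `d`, `F'` of degree `a - d`,
  `d ≥ 1` (degree-zero homogeneous nonzero = unit). Let `p = ev π ≠ 0`, `J' s := {a ∈ A s | p * a ∈ J (s + d)}`. `J'` satisfies all
  hypotheses: `J s ≤ J' s` (by `h2`: `p ∈ A d`), so `h4` is inherited; `ev F' ∈ J' (a-d)`. By induction
  `dim A_s ≤ dim J'_s + C'`. Let `G` from `h4` for `π`: `G` homogeneous of degree `t`, `π ∤ G`, `ev G ∈ J t`. `C''` from `coprime_bound`.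
  `dim A_s/J_s ≤ dim A_s/(J_s + p A_{s-d}) + dim (J_s + p A_{s-d})/J_s`; the first is `≤ C''` because
  `sm g (A (s-t)) ≤ J s` (`h2`); the second: `(J_s + pA_{s-d})/J_s ≅ pA_{s-d}/(pA_{s-d} ∩ J_s)` and
  `pA_{s-d} ∩ J_s = p J'_{s-d}`, so it is `dim A_{s-d} - dim J'_{s-d} ≤ C'`.
  (`Submodule.finrank_sup_add_finrank_inf_eq`; `sm p` preserves `finrank` because `p ≠ 0`.) `C = C' + C''`.
-/

set_option autoImplicit false

namespace R169

open R169.Lat

section piece

variable {k L : Type} [Field k] [Field L] [Algebra k L]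
variable {W : Type} [AddCommGroup W] [Module k W] [Module L W] [IsScalarTower k L W]
variable {D : GD k L} {η ζ : L} {E E' : ℤ → Submodule k W}

theorem Lat.finrank_sm_6e2 {p : L} (hp : p ≠ 0) (S : Submodule k L) :
    Module.finrank k (sm p S : Submodule k L) = Module.finrank k S := by
  have hinj : Function.Injective (Algebra.lsmul k k L p) := by
    intro x y hxy
    simpa [hp] using hxy
  exact ((Submodule.equivMapOfInjective _ hinj S).finrank_eq).symm

theorem Lat.isUnit_of_homog_zero_6e2 {F : MvPolynomial (Fin 3) k} (h : F.IsHomogeneous 0) (h0 : F ≠ 0) :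
    IsUnit F := by
  have h1 : F = MvPolynomial.C (F.coeff 0) :=
    MvPolynomial.totalDegree_eq_zero_iff_eq_C.1 (h.totalDegree h0)
  rw [h1] at h0 ⊢
  refine IsUnit.map MvPolynomial.C (IsUnit.mk0 _ ?_)
  rintro h2
  exact h0 (by rw [h2, map_zero])

theorem Lat.ideal_bdd_aux (ind : AlgebraicIndependent k ![η, ζ]) (a : ℕ) :
    ∀ (J : ℤ → Submodule k L)
    (h1 : ∀ s, J s ≤ A k η ζ s) (h2 : ∀ {i s : ℤ} {a b : L}, a ∈ A k η ζ i → b ∈ J s → a * b ∈ J (i + s))
    (h4 : ∀ π : MvPolynomial (Fin 3) k, Prime π → ∃ (s : ℕ) (F : MvPolynomial (Fin 3) k),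
      F.IsHomogeneous s ∧ ¬ π ∣ F ∧ ev η ζ F ∈ J s) (F0 : MvPolynomial (Fin 3) k)
    (_ : F0.IsHomogeneous a) (_ : F0 ≠ 0) (_ : ev η ζ F0 ∈ J a),
    ∃ C : ℕ, ∀ s : ℤ, Module.finrank k (A k η ζ s) ≤ Module.finrank k (J s) + C := by
  induction a using Nat.strong_induction_on with
  | _ a ih =>
    intro J h1 h2 h4 F0 hF0 hne hJ
    by_cases hu : IsUnit F0
    · -- unit
      obtain ⟨c, hc, hc2⟩ := MvPolynomial.isUnit_iff_eq_C_of_isReduced.1 hu
      have ha : a = 0 := by
        have h3 := hF0.totalDegree hne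
        rw [hc2, MvPolynomial.totalDegree_C] at h3
        exact h3.symm
      subst ha
      have hone : (1 : L) ∈ J 0 := by
        have h3 : ev η ζ F0 = c • (1 : L) := by
          rw [hc2, ev, MvPolynomial.aeval_C, Algebra.algebraMap_eq_smul_one]
        rw [h3] at hJ
        have h4 := (J ((0 : ℕ) : ℤ)).smul_mem c⁻¹ hJ
        rwa [smul_smul, inv_mul_cancel₀ hc.ne_zero, one_smul] at h4
      refine ⟨0, fun s => ?_⟩
      have : A k η ζ s ≤ J s := by
        intro x hx
        have := h2 hx hone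
        simpa using this
      rw [le_antisymm this (h1 s)]
      simp
    · obtain ⟨π, hπ, F', hF'⟩ := WfDvdMonoid.exists_irreducible_factor hu hne
      have hπp : Prime π := hπ.prime
      rw [hF'] at hF0 hne hJ
      obtain ⟨d, b, hd, hb, hdb⟩ := homog_factor hF0 hne
      have hπ0 : π ≠ 0 := left_ne_zero_of_mul hne
      have hF'0 : F' ≠ 0 := right_ne_zero_of_mul hne
      have hd1 : d ≠ 0 := by
        rintro rfl
        exact hπ.not_isUnit (isUnit_of_homog_zero_6e2 hd hπ0)
      have hp0 : ev η ζ π ≠ 0 := fun h => hπ0 (ev_inj ind hd h)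
      let J' : ℤ → Submodule k L := fun s =>
        A k η ζ s ⊓ (J (s + d)).comap (Algebra.lsmul k k L (ev η ζ π))
      have hJ' : ∀ s x, x ∈ J' s ↔ x ∈ A k η ζ s ∧ ev η ζ π * x ∈ J (s + d) := by
        intro s x
        simp [J']
      obtain ⟨C', hC'⟩ := ih b (by omega) J' (fun s => inf_le_left)
        (by
          intro i s x y hx hy
          rw [hJ'] at hy ⊢
          refine ⟨A_mul_mem hx hy.1, ?_⟩
          have h5 := h2 hx hy.2
          rw [show ev η ζ π * (x * y) = x * (ev η ζ π * y) by ring, add_assoc]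
          exact h5)
        (by
          intro ρ hρ
          obtain ⟨s, F, hF1, hF2, hF3⟩ := h4 ρ hρ
          refine ⟨s, F, hF1, hF2, ?_⟩
          rw [hJ']
          refine ⟨ev_mem_A hF1, ?_⟩
          rw [add_comm]
          exact h2 (ev_mem_A hd) hF3)
        F' hb hF'0
        (by
          rw [hJ']
          refine ⟨ev_mem_A hb, ?_⟩
          rw [← ev_mul]
          have : (b : ℤ) + d = a := by rw [← hdb]; push_cast; ring
          rw [this]
          exact hJ)
      obtain ⟨t, G, hG1, hG2, hG3⟩ := h4 π hπp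
      obtain ⟨C'', hC''⟩ := coprime_bound ind hπp hd hG1 hG2
      refine ⟨C' + C'', fun s => ?_⟩
      have hfin : ∀ s, FiniteDimensional k (J s) := fun s =>
        Submodule.finiteDimensional_of_le (h1 s)
      have hfin1 := hfin s
      have hfin2 : FiniteDimensional k (sm (ev η ζ π) (A k η ζ (s - d)) : Submodule k L) := by
        unfold sm; infer_instance
      have e1 := hC'' s
      have e2 : Module.finrank k (sm (ev η ζ π) (A k η ζ (s - d)) ⊔ sm (ev η ζ G) (A k η ζ (s - t)) : Submodule k L) ≤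
          Module.finrank k (sm (ev η ζ π) (A k η ζ (s - d)) ⊔ J s : Submodule k L) := by
        refine Submodule.finrank_mono (sup_le_sup le_rfl ?_)
        intro x hx
        obtain ⟨v, hv, rfl⟩ := mem_sm.1 hx
        have h5 := h2 hv hG3
        rw [sub_add_cancel] at h5
        rw [smul_eq_mul, mul_comm]
        exact h5
      have e3 := Submodule.finrank_sup_add_finrank_inf_eq (sm (ev η ζ π) (A k η ζ (s - d)) : Submodule k L) (J s)
      have e4 : Module.finrank k (J' (s - d)) ≤
          Module.finrank k (sm (ev η ζ π) (A k η ζ (s - d)) ⊓ J s : Submodule k L) := by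
        rw [← finrank_sm_6e2 hp0 (J' (s - d))]
        refine Submodule.finrank_mono (le_inf (Submodule.map_mono inf_le_left) ?_)
        intro x hx
        obtain ⟨v, hv, rfl⟩ := mem_sm.1 hx
        have h5 := ((hJ' _ _).1 hv).2
        rw [sub_add_cancel] at h5
        exact h5
      have e5 := hC' (s - d)
      rw [finrank_sm_6e2 hp0] at e3
      omega

theorem ideal_bdd (ind : AlgebraicIndependent k ![η, ζ]) (J : ℤ → Submodule k L)
    (h1 : ∀ s, J s ≤ A k η ζ s) (h2 : ∀ {i s : ℤ} {a b : L}, a ∈ A k η ζ i → b ∈ J s → a * b ∈ J (i + s))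
    (h4 : ∀ π : MvPolynomial (Fin 3) k, Prime π → ∃ (s : ℕ) (F : MvPolynomial (Fin 3) k),
      F.IsHomogeneous s ∧ ¬ π ∣ F ∧ ev η ζ F ∈ J s) :
    ∃ C : ℕ, ∀ s : ℤ, Module.finrank k (A k η ζ s) ≤ Module.finrank k (J s) + C := by
  obtain ⟨s, F, hF1, hF2, hF3⟩ := h4 (MvPolynomial.X 0) (MvPolynomial.X_prime)
  refine Lat.ideal_bdd_aux ind s J h1 h2 h4 F hF1 ?_ hF3
  rintro rfl
  exact hF2 (dvd_zero _)

end piece

end R169
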