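import Crest.Agent.R169.Lat6e2
import Crest.Agent.R169.Lat6d

/-!
# Row 169, module 0 (LAT): L6e3, hull / lattice is bounded

`H = hull η ζ E` is a `P`-lattice (`IsLat.hull`, `toPLat`), so `IsPLat.exists_gens`: `w_i ∈ H (a i)` with
`H n = ∑ A (n - a i) w_i`. For each `i` let `J_i s = {a ∈ A s | a • w_i ∈ E (s + a i)}` (a `k`-subspace). By `mem_hull` for
`w_i` the hypotheses of `ideal_bdd` hold, so `dim A_s ≤ dim (J_i s) + C_i`.
Then `dim H_n ≤ dim E_n + ∑ C_i`: the linear map `∏_i A (n - a i) → H n / E n` (quotient of `H n` by `E n ⊓ H n`, `E n ≤ H n` by `le_hull`),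
`f ↦ ∑ f_i w_i` is surjective and kills `∏ J_i (n - a i)`, so `dim H_n - dim E_n ≤ ∑ (dim A - dim J_i) ≤ ∑ C_i`.
(Alternative without quotients: `H n = E n ⊔ ⨆ i, T_i` where `T_i` is the image of a complement of `J_i (n - a i)` in `A (n - a i)`,
of dimension `≤ C_i`; then `Submodule.finrank_add_le_finrank_add_finrank` / `finrank_sup_le`. By induction on the finset of `i`.)
-/

set_option autoImplicit false

namespace R169

open R169.Lat

section piece

variable {k L : Type} [Field k] [Field L] [Algebra k L]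
variable {W : Type} [AddCommGroup W] [Module k W] [Module L W] [IsScalarTower k L W]
variable {D : GD k L} {η ζ : L} {E E' : ℤ → Submodule k W}

private theorem sup_bound {ι : Type} (s : Finset ι) (S : ι → Submodule k W)
    (hf : ∀ j, FiniteDimensional k (S j)) :
    FiniteDimensional k ↥(s.sup S) ∧ Module.finrank k ↥(s.sup S) ≤ ∑ j ∈ s, Module.finrank k (S j) := by
  classical
  induction s using Finset.induction_on with
  | empty =>
    rw [Finset.sup_empty, Finset.sum_empty]
    exact ⟨inferInstance, (finrank_bot k W).le⟩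
  | insert j s hj ih =>
    obtain ⟨h1, h2⟩ := ih
    rw [Finset.sup_insert, Finset.sum_insert hj]
    have := hf j
    exact ⟨inferInstance, (Submodule.finrank_add_le_finrank_add_finrank _ _).trans (by omega)⟩

/-- multiplication by a vector -/
private def mulV (w : W) : L →ₗ[k] W := (LinearMap.toSpanSingleton L W w).restrictScalars k

private theorem mulV_apply (w : W) (x : L) : mulV (k := k) w x = x • w := rfl

/-- the ideal `J` -/
private def JJ (η ζ : L) (E : ℤ → Submodule k W) (c : ℤ) (w : W) (s : ℤ) : Submodule k L :=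
  A k η ζ s ⊓ (E (s + c)).comap (mulV w)

private theorem exists_S {E : ℤ → Submodule k W} (hf : ∀ n, FiniteDimensional k (A k η ζ n))
    {c : ℤ} {w : W} {C : ℕ}
    (hC : ∀ s : ℤ, Module.finrank k (A k η ζ s) ≤ Module.finrank k (JJ η ζ E c w s) + C) (n : ℤ) :
    ∃ S : Submodule k W, FiniteDimensional k S ∧ Module.finrank k S ≤ C ∧
      ∀ x ∈ A k η ζ (n - c), x • w ∈ E n ⊔ S := by
  have := hf (n - c)
  obtain ⟨K, hK⟩ := Submodule.exists_isCompl
    ((JJ η ζ E c w (n - c)).comap (A k η ζ (n - c)).subtype)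
  have h1 := Submodule.finrank_add_eq_of_isCompl hK
  have h2 : Module.finrank k ((JJ η ζ E c w (n - c)).comap (A k η ζ (n - c)).subtype) =
      Module.finrank k (JJ η ζ E c w (n - c)) :=
    LinearEquiv.finrank_eq (Submodule.comapSubtypeEquivOfLe inf_le_left)
  refine ⟨K.map ((mulV w).comp (A k η ζ (n - c)).subtype), inferInstance, ?_, ?_⟩
  · refine (Submodule.finrank_map_le _ K).trans ?_
    have := hC (n - c)
    omega
  · intro x hx
    have h3 : (⟨x, hx⟩ : A k η ζ (n - c)) ∈
        ((JJ η ζ E c w (n - c)).comap (A k η ζ (n - c)).subtype) ⊔ K := by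
      rw [hK.sup_eq_top]
      trivial
    obtain ⟨x1, hx1, x2, hx2, h4⟩ := Submodule.mem_sup.1 h3
    have h5 : x • w = (x1 : L) • w + (x2 : L) • w := by
      rw [← add_smul, ← Submodule.coe_add, h4]
    rw [h5]
    refine Submodule.add_mem _ (Submodule.mem_sup_left ?_) (Submodule.mem_sup_right ?_)
    · have h6 := hx1.2
      change (x1 : L) • w ∈ E (n - c + c) at h6
      rwa [sub_add_cancel] at h6
    · exact ⟨x2, hx2, rfl⟩

theorem hull_bdd [FiniteDimensional L W] (hP : Par D η ζ) (h : IsLat D η ζ E) :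
    ∃ C : ℕ, ∀ n, Module.finrank k (R169.hull η ζ E n) ≤ Module.finrank k (E n) + C := by
  classical
  have hE : IsPLat η ζ E := h.toPLat hP
  have hH : IsPLat η ζ (R169.hull η ζ E) := (IsLat.hull hP h).toPLat hP
  obtain ⟨m, a, e, he, hgen⟩ := hH.exists_gens
  have hfA : ∀ n, FiniteDimensional k (A k η ζ n) := by
    intro n
    have := D.fin n
    exact Submodule.finiteDimensional_of_le (A_le_B hP n)
  have hex : ∀ j, ∃ C : ℕ, ∀ s : ℤ, Module.finrank k (A k η ζ s) ≤
      Module.finrank k (JJ η ζ E (a j) (e j) s) + C := by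
    intro j
    refine ideal_bdd hP.indep (JJ η ζ E (a j) (e j)) (fun s => inf_le_left) ?_ ?_
    · intro i s x y hx hy
      refine ⟨A_mul_mem hx hy.1, ?_⟩
      change (x * y) • e j ∈ E (i + s + a j)
      rw [mul_smul, add_assoc]
      exact hE.smul_mem hx hy.2
    · intro π hπ
      obtain ⟨s, F, hF, hd, hm⟩ := (mem_hull hE (a j) (e j)).1 (he j) π hπ
      refine ⟨s, F, hF, hd, ev_mem_A hF, ?_⟩
      change ev η ζ F • e j ∈ E (s + a j)
      rw [add_comm]
      exact hm
  choose C hC using hex
  refine ⟨∑ j, C j, fun n => ?_⟩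
  have hS := fun j => exists_S hfA (hC j) n
  choose S hSf hSC hSm using hS
  have hsup := sup_bound Finset.univ S hSf
  have hfin := hsup.1
  have hEf := h.fin n
  have hle : R169.hull η ζ E n ≤ E n ⊔ Finset.univ.sup S := by
    intro w hw
    obtain ⟨f, hf, rfl⟩ := (hgen n w).1 hw
    refine Submodule.sum_mem _ (fun j _ => ?_)
    have h1 : E n ⊔ S j ≤ E n ⊔ Finset.univ.sup S :=
      sup_le_sup_left (Finset.le_sup (Finset.mem_univ j)) _
    exact h1 (hSm j (f j) (hf j))
  calc Module.finrank k (R169.hull η ζ E n) ≤ Module.finrank k ↥(E n ⊔ Finset.univ.sup S) :=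
        Submodule.finrank_mono hle
    _ ≤ Module.finrank k (E n) + Module.finrank k ↥(Finset.univ.sup S) :=
        Submodule.finrank_add_le_finrank_add_finrank _ _
    _ ≤ Module.finrank k (E n) + ∑ j, C j :=
        Nat.add_le_add_left (hsup.2.trans (Finset.sum_le_sum (fun j _ => hSC j))) _

end piece

end R169
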