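import Crest.Agent.R169.Lat6d

/-!
# Row 169, module 0 (LAT): L6f, `B` is reflexive if `T D` is integrally closed

Let `H = hull η ζ D.B ⊂ L` (`W = L`). `IsLat.hull hP (isLat_B hP)`: `H` is a lattice, `D.B n ≤ H n` (`le_hull`).
1. `hull_B_mul`: `a ∈ H i`, `b ∈ H j` ⇒ `a b ∈ H (i+j)`: by `mem_hull` with `F1 F2` for every prime (`D.mul_mem`).
2. `hull_B_neg`: `n < 0` ⇒ `H n = ⊥`: for `w ∈ H n`, `w^j ∈ H (j n)` (`j ≥ 1`) and `H (j n) = ⊥` for large `j` (`bdd`), so `w^j = 0`, `w = 0`.
3. Let `n ≥ 0` and `w ∈ H n`. Let `u = monomial n w ∈ L[X]`. `N := {f : L[X] | ∀ m : ℕ, f.coeff m ∈ H m}` is a subalgebra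
   of `L[X]` containing `T D` and `u` (by 1; the definition of `T D` in `Defs2` is the same with `B`), and as a `T D`-module it is
   finitely generated: `IsPLat.exists_gens` for `H`: `w_i ∈ H (a i)`, if `a i < 0` then `w_i = 0`, so drop it; the
   elements `monomial (a i).toNat (w_i)` generate: `f = ∑_m f_m X^m`, `f_m = ∑_i c_{m,i} w_i`, `c_{m,i} ∈ A (m - a i) ⊂ B (m - a i)`
   (`A_le_B`), so `f = ∑_i (∑_m c_{m,i} X^{m - a i}) (w_i X^{a i})` and the coefficient is in `T D`.
   So `u` is integral over `T D` (`IsIntegral.of_mem_of_fg` / `isIntegral_of_mem_of_FG` for the subalgebra `N` over `T D`, or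
   `isIntegral_of_smul_mem_submodule`).
4. `D.frac w`: `w = a / b`, `a, b ∈ B m`, w.l.o.g. `0 ≤ m` (else `b = 0`). In `L[X]`: `monomial m b * u = monomial (m+n) a`, all of
   `b X^m`, `a X^{m+n}` in `T D` (`GD.mono_le`). So `u` is a root of a monic polynomial over `T D` and a fraction of elements
   of `T D`: with `K = FractionRing (T D)` and `c = a X^{m+n} / b X^m ∈ K`, `c` is integral over `T D` (multiply the equation for `u`
   by a power of `b X^m` and use that `T D → L[X]` is injective), so `c ∈ T D` (`hn`), so `u ∈ T D`, so `w = coeff n u ∈ B n`.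
   (Alternative for 4: `K' = RatFunc L`; the map `FractionRing (T D) → K'` is injective; `IsIntegrallyClosed.algebraMap_eq_of_integral`.)
5. `isRefl_B`: `Refl B n w` ⇒ `w ∈ H n` (`mem_hull`) ⇒ `w ∈ B n`.
Feel free to split into lemmas; `hull_B_mul`, `hull_B_neg` are the statements 1, 2.
-/

set_option autoImplicit false

namespace R169

open R169.Lat
open Polynomial hiding X C

section piece

variable {k L : Type} [Field k] [Field L] [Algebra k L]
variable {W : Type} [AddCommGroup W] [Module k W] [Module L W] [IsScalarTower k L W]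
variable {D : GD k L} {η ζ : L} {E E' : ℤ → Submodule k W}

theorem hull_B_mul (hP : Par D η ζ) {i j : ℤ} {a b : L} (ha : a ∈ hull η ζ D.B i) (hb : b ∈ hull η ζ D.B j) :
    a * b ∈ hull η ζ D.B (i + j) := by
  have hPL : IsPLat η ζ D.B := (isLat_B hP).toPLat hP
  rw [mem_hull hPL] at ha hb ⊢
  intro π hπ
  obtain ⟨s1, F1, hF1, hd1, h1⟩ := ha π hπ
  obtain ⟨s2, F2, hF2, hd2, h2⟩ := hb π hπ
  refine ⟨s1 + s2, F1 * F2, hF1.mul hF2, fun h => ?_, ?_⟩
  · rcases hπ.dvd_or_dvd h with h | h
    · exact hd1 h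
    · exact hd2 h
  · have h3 := D.mul_mem h1 h2
    rw [ev_mul]
    have e : ev η ζ F1 • a * ev η ζ F2 • b = (ev η ζ F1 * ev η ζ F2) • (a * b) := by
      simp only [smul_eq_mul]; ring
    rw [e] at h3
    have e2 : i + (s1 : ℤ) + (j + (s2 : ℤ)) = i + j + ((s1 + s2 : ℕ) : ℤ) := by push_cast; ring
    rw [e2] at h3
    exact h3

theorem hull_B_neg (hP : Par D η ζ) {n : ℤ} (hn : n < 0) : hull η ζ D.B n = ⊥ := by
  have hL : IsLat D η ζ (hull η ζ D.B) := IsLat.hull hP (isLat_B hP)
  obtain ⟨n0, hn0⟩ := hL.bdd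
  rw [eq_bot_iff]
  intro w hw
  rw [Submodule.mem_bot]
  have hpow : ∀ j : ℕ, w ^ (j + 1) ∈ hull η ζ D.B ((j + 1) * n) := by
    intro j
    induction j with
    | zero => simpa using hw
    | succ j ih =>
      have := hull_B_mul hP ih hw
      rw [← pow_succ] at this
      have e : ((j : ℤ) + 1) * n + n = (((j + 1 : ℕ) : ℤ) + 1) * n := by push_cast; ring
      rwa [e] at this
  obtain ⟨j, hj⟩ : ∃ j : ℕ, ((j : ℤ) + 1) * n < n0 := by
    refine ⟨(-n0).toNat, ?_⟩
    have h1 : -n0 ≤ ((-n0).toNat : ℤ) := Int.self_le_toNat _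
    nlinarith
  have h2 := hpow j
  rw [hn0 _ hj, Submodule.mem_bot] at h2
  exact pow_eq_zero_iff (n := j + 1) (by omega) |>.1 h2

/-- the `T D`-module of polynomials with coefficients in the hull -/
noncomputable def hullMod (hP : Par D η ζ) : Submodule (T D) L[X] where
  carrier := {f | ∀ m : ℕ, f.coeff m ∈ hull η ζ D.B (m : ℤ)}
  add_mem' := by
    intro f g hf hg m
    rw [coeff_add]
    exact Submodule.add_mem _ (hf m) (hg m)
  zero_mem' := by
    intro m
    rw [coeff_zero]
    exact Submodule.zero_mem _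
  smul_mem' := by
    intro c f hf m
    have hL : IsLat D η ζ (hull η ζ D.B) := IsLat.hull hP (isLat_B hP)
    show ((c : L[X]) * f).coeff m ∈ _
    rw [coeff_mul]
    refine Submodule.sum_mem _ ?_
    rintro ⟨i, j⟩ hij
    rw [Finset.HasAntidiagonal.mem_antidiagonal] at hij
    have := hL.smul_mem (c.2 i) (hf j)
    have e : (m : ℤ) = (i : ℤ) + j := by rw [← hij]; push_cast; ring
    rw [e]; exact this

theorem mem_hullMod (hP : Par D η ζ) {f : L[X]} :
    f ∈ hullMod hP ↔ ∀ m : ℕ, f.coeff m ∈ hull η ζ D.B (m : ℤ) := Iff.rfl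

theorem monomial_mem_hullMod (hP : Par D η ζ) {n : ℕ} {w : L} (hw : w ∈ hull η ζ D.B (n : ℤ)) :
    monomial n w ∈ hullMod hP := by
  intro m
  rw [coeff_monomial]
  split_ifs with h
  · subst h; exact hw
  · exact Submodule.zero_mem _

theorem hullMod_fg (hP : Par D η ζ) : (hullMod hP).FG := by
  classical
  have hL : IsLat D η ζ (hull η ζ D.B) := IsLat.hull hP (isLat_B hP)
  obtain ⟨r, a, e, he, hgen⟩ := (hL.toPLat hP).exists_gens
  have hneg : ∀ j, a j < 0 → e j = 0 := by
    intro j hj
    have := he j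
    rwa [hull_B_neg hP hj, Submodule.mem_bot] at this
  let g : Fin r → L[X] := fun j => monomial (a j).toNat (e j)
  have hg : ∀ j, g j ∈ hullMod hP := by
    intro j
    rcases lt_or_ge (a j) 0 with hj | hj
    · show monomial (a j).toNat (e j) ∈ _
      rw [hneg j hj, map_zero]
      exact Submodule.zero_mem _
    · refine monomial_mem_hullMod hP ?_
      rw [Int.toNat_of_nonneg hj]
      exact he j
  have hspan : hullMod hP = Submodule.span (T D) (Set.range g) := by
    refine le_antisymm ?_ ?_
    · intro f hf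
      rw [f.as_sum_support]
      refine Submodule.sum_mem _ fun m _ => ?_
      obtain ⟨c, hc, hcw⟩ := (hgen (m : ℤ) (f.coeff m)).1 (hf m)
      rw [hcw, map_sum]
      refine Submodule.sum_mem _ fun j _ => ?_
      rcases lt_or_ge (a j) 0 with hj | hj
      · rw [hneg j hj, smul_zero, map_zero]
        exact Submodule.zero_mem _
      · rcases lt_or_ge ((m : ℤ) - a j) 0 with hm | hm
        · have h1 := hc j
          rw [A_neg hm, Submodule.mem_bot] at h1
          rw [h1, zero_smul, map_zero]
          exact Submodule.zero_mem _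
        · have h1 : c j ∈ D.B (((m : ℤ) - a j).toNat : ℤ) := by
            rw [Int.toNat_of_nonneg hm]
            exact A_le_B hP _ (hc j)
          have h2 : monomial m (c j • e j) = (tm D ((m : ℤ) - a j).toNat (c j) h1) • g j := by
            show _ = monomial ((m : ℤ) - a j).toNat (c j) * monomial (a j).toNat (e j)
            rw [monomial_mul_monomial, smul_eq_mul]
            congr 1
            congr 1
            omega
          rw [h2]
          exact Submodule.smul_mem _ _ (Submodule.subset_span ⟨j, rfl⟩)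
    · rw [Submodule.span_le]
      rintro _ ⟨j, rfl⟩
      exact hg j
  rw [hspan]
  exact Submodule.fg_span (Set.finite_range g)

theorem isIntegral_hull (hP : Par D η ζ) {n : ℕ} {w : L} (hw : w ∈ hull η ζ D.B (n : ℤ)) :
    IsIntegral (T D) (monomial n w : L[X]) := by
  have hPL : IsPLat η ζ D.B := (isLat_B hP).toPLat hP
  refine isIntegral_of_smul_mem_submodule (M := L[X]) (hullMod hP) ?_ (hullMod_fg hP) _ ?_
  · intro h
    have h1 : (1 : L[X]) ∈ hullMod hP := by
      rw [← Polynomial.monomial_zero_one]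
      refine monomial_mem_hullMod hP (le_hull hPL _ ?_)
      exact D.one_mem_nonneg le_rfl
    rw [h, Submodule.mem_bot] at h1
    exact one_ne_zero h1
  · intro f hf m
    rw [smul_eq_mul, ← Polynomial.C_mul_X_pow_eq_monomial, mul_assoc, coeff_C_mul, coeff_X_pow_mul']
    split_ifs with h
    · have := hull_B_mul hP hw (hf (m - n))
      have e : (n : ℤ) + ((m - n : ℕ) : ℤ) = (m : ℤ) := by omega
      rwa [e] at this
    · rw [mul_zero]
      exact Submodule.zero_mem _

theorem hull_B_le (hP : Par D η ζ) (hn : IsIntegrallyClosed (T D)) (n : ℕ) : hull η ζ D.B (n : ℤ) ≤ D.B n := by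
  intro w hw
  have hint := isIntegral_hull hP hw
  obtain ⟨m, a, ha, b, hb, hb0, hab⟩ := D.frac w
  have hm : 0 ≤ m := by
    by_contra hneg
    rw [D.neg m (by omega), Submodule.mem_bot] at hb
    exact hb0 hb
  obtain ⟨m, rfl⟩ := Int.eq_ofNat_of_zero_le hm
  have ha' : a ∈ D.B ((m + n : ℕ) : ℤ) := D.mono_le (by push_cast; omega) ha
  set A' : T D := tm D (m + n) a ha' with hA'
  set B' : T D := tm D m b hb with hB'
  have hrel : (B' : L[X]) * monomial n w = A' := by
    show monomial m b * monomial n w = monomial (m + n) a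
    rw [monomial_mul_monomial]
    congr 1
    rw [hab]
    field_simp
  have hB0 : (B' : L[X]) ≠ 0 := by
    show monomial m b ≠ 0
    rw [Ne, monomial_eq_zero_iff]
    exact hb0
  -- fraction fields
  let K := FractionRing (T D)
  let K' := FractionRing L[X]
  have hinj : Function.Injective (Algebra.ofId (T D) K') := by
    intro x y hxy
    have h1 : algebraMap L[X] K' (x : L[X]) = algebraMap L[X] K' (y : L[X]) := hxy
    exact Subtype.ext (IsFractionRing.injective L[X] K' h1)
  let φ : K →ₐ[T D] K' := IsFractionRing.liftAlgHom (g := Algebra.ofId (T D) K') hinj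
  have hφ : Function.Injective φ := φ.toRingHom.injective
  set c : K := algebraMap (T D) K A' / algebraMap (T D) K B' with hc
  have hB1 : algebraMap L[X] K' (B' : L[X]) ≠ 0 := by
    intro h0
    exact hB0 ((map_eq_zero_iff _ (IsFractionRing.injective L[X] K')).1 h0)
  have hφc : φ c = algebraMap L[X] K' (monomial n w) := by
    rw [hc, map_div₀, AlgHom.commutes, AlgHom.commutes]
    rw [show algebraMap (T D) K' A' = algebraMap L[X] K' (A' : L[X]) from rfl,
      show algebraMap (T D) K' B' = algebraMap L[X] K' (B' : L[X]) from rfl]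
    rw [div_eq_iff hB1, ← map_mul, mul_comm, hrel]
  have hci : IsIntegral (T D) c := by
    rw [← isIntegral_algHom_iff φ hφ, hφc]
    exact hint.map (IsScalarTower.toAlgHom (T D) L[X] K')
  obtain ⟨y, hy⟩ := IsIntegrallyClosed.isIntegral_iff.1 hci
  have h6 : algebraMap L[X] K' (y : L[X]) = algebraMap L[X] K' (monomial n w) := by
    rw [← hφc, ← hy, AlgHom.commutes]
    rfl
  have h7 : (y : L[X]) = monomial n w := IsFractionRing.injective L[X] K' h6
  have h8 := y.2 n
  rw [show (y : L[X]).coeff n = w by rw [h7, coeff_monomial, if_pos rfl]] at h8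
  exact h8

theorem isRefl_B (hP : Par D η ζ) (hn : IsIntegrallyClosed (T D)) : IsRefl (k := k) η ζ D.B := by
  have hPL : IsPLat η ζ D.B := (isLat_B hP).toPLat hP
  intro n w hw
  have h1 := (mem_hull hPL n w).2 hw
  rcases lt_or_ge n 0 with h | h
  · rw [hull_B_neg hP h, Submodule.mem_bot] at h1
    rw [h1]
    exact Submodule.zero_mem _
  · obtain ⟨n, rfl⟩ := Int.eq_ofNat_of_zero_le h
    exact hull_B_le hP hn n h1

end piece

end R169
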