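import Crest.Agent.R169.Lat6e3
import Crest.Agent.R169.Lat2

/-!
# Row 169, module 0 (LAT): L6g, invariants and semistability of the hull

* `HasHP.hull`: the hull is a lattice (`IsLat.hull`), so `((h.hull hP).toPLat hP).hasHP` gives `N' β' γ'`; by `hull_bdd` and
  `HasHP.beta_eq_of_bdd` (`E ≤ hull`, `le_hull`) `N = N'`, `β = β'`, and then `HasHP.gamma_le` gives `γ ≤ γ'`.
* `Semistable.hull`: let `V ≠ ⊥`, `HasHP (sat (hull E) V) N' β' γ'`. `sat E V` is a lattice (`IsLat.sat`) so has `N1 β1 γ1`;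
  `dim (sat (hull E) V)_n ≤ dim (sat E V)_n + C` because `sat (hull E) V n ⊓ E n = sat E V n` and
  `finrank_sup_add_finrank_inf_eq`: `dim (S ⊔ E n) + dim (S ⊓ E n) = dim S + dim E n` with `S ⊔ E n ≤ hull E n`.
  So `N' = N1`, `β' = β1` by `beta_eq_of_bdd` and `hss V` for `sat E V` gives the claim.
-/

set_option autoImplicit false

namespace R169

open R169.Lat

section piece

variable {k L : Type} [Field k] [Field L] [Algebra k L]
variable {W : Type} [AddCommGroup W] [Module k W] [Module L W] [IsScalarTower k L W]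
variable {D : GD k L} {η ζ : L} {E E' : ℤ → Submodule k W}

theorem Semistable.hull [FiniteDimensional L W] (hP : Par D η ζ) (h : IsLat D η ζ E)
    (hs : lspan L E = ⊤) {N β γ : ℚ} (hh : HasHP E N β γ)
    (hss : Semistable L E N β) : Semistable L (R169.hull η ζ E) N β := by
  intro V hV N' β' γ' hh'
  have hH : IsLat D η ζ (R169.hull η ζ E) := IsLat.hull hP h
  obtain ⟨C, hC⟩ := hull_bdd hP h
  have hle := le_hull (h.toPLat hP)
  have hsat : IsLat D η ζ (R169.sat E V) := IsLat.sat hP h V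
  obtain ⟨N1, β1, γ1, hh1, -, -⟩ := (hsat.toPLat hP).hasHP
  have hsle : ∀ n, R169.sat E V n ≤ R169.sat (R169.hull η ζ E) V n := fun n w hw => ⟨hle n hw.1, hw.2⟩
  have hbd : ∀ n, Module.finrank k (R169.sat (R169.hull η ζ E) V n) ≤
      Module.finrank k (R169.sat E V n) + C := by
    intro n
    have h1 : R169.sat (R169.hull η ζ E) V n ⊓ E n = R169.sat E V n := by
      ext w
      constructor
      · rintro ⟨⟨h1, h2⟩, h3⟩
        exact ⟨h3, h2⟩
      · rintro ⟨h1, h2⟩
        exact ⟨⟨hle n h1, h2⟩, h1⟩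
    have i1 := hH.fin n
    have i2 := h.fin n
    have i3 : FiniteDimensional k (R169.sat (R169.hull η ζ E) V n) := (IsLat.sat hP hH V).fin n
    have h2 := Submodule.finrank_sup_add_finrank_inf_eq (R169.sat (R169.hull η ζ E) V n) (E n)
    rw [h1] at h2
    have h3 : Module.finrank k (R169.sat (R169.hull η ζ E) V n ⊔ E n : Submodule k W) ≤
        Module.finrank k (R169.hull η ζ E n) :=
      Submodule.finrank_mono (sup_le inf_le_left (hle n))
    have h4 := hC n
    omega
  obtain ⟨h1, h2⟩ := HasHP.beta_eq_of_bdd hsle (IsLat.sat hP hH V).fin C hbd hh' hh1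
  rw [h1, h2]
  exact hss V hV _ _ _ hh1
/-- invariants of the hull: same `N β`, larger `γ` -/
theorem HasHP.hull [FiniteDimensional L W] (hP : Par D η ζ) (h : IsLat D η ζ E)
    {N β γ : ℚ} (hh : HasHP E N β γ) : ∃ γ', γ ≤ γ' ∧ HasHP (R169.hull η ζ E) N β γ' := by
  have hH : IsLat D η ζ (R169.hull η ζ E) := IsLat.hull hP h
  obtain ⟨N', β', γ', hh', -, -⟩ := (hH.toPLat hP).hasHP
  obtain ⟨C, hC⟩ := hull_bdd hP h
  have hle := le_hull (h.toPLat hP)
  obtain ⟨h1, h2⟩ := HasHP.beta_eq_of_bdd hle hH.fin C hC hh' hh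
  rw [h1, h2] at hh'
  exact ⟨γ', HasHP.gamma_le hle hH.fin hh' hh, hh'⟩

end piece

end R169
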