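import Crest.Agent.R169.Lat0

/-!
# Row 169, module 0 (LAT): L6h, a linear form not dividing `δ`

1. `δ * X 1 ≠ 0`, `k` infinite, so there is a point `v : Fin 3 → k` with `eval v (δ * X 1) ≠ 0` (`MvPolynomial.funext`).
   So `v 1 ≠ 0`, `eval v δ ≠ 0`. Let `c = v 0 / v 1`, `ℓ' = X 0 - C c * X 1` (homogeneous of degree 1, `≠ 0`, `eval v ℓ' = 0`).
   `ℓ = ev ℓ' = 1 - c η`, `ℓ ∈ A 1` (`ev_mem_A`), `ℓ ≠ 0` (`ev_inj`).
2. If `π` is prime and `π ∣ ℓ'` then `ℓ' ∣ π`: `ℓ' = π u`, total degrees add up (`MvPolynomial.totalDegree_mul_of_isDomain`): `π` is not a unit,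
   so its total degree is `≥ 1`, so `u` has total degree `0`, `u = C c'`, `c' ≠ 0`.
3. Let `w ∈ U (n-1)`, `ℓ • w ∈ E n`. Show `Refl E (n-1) w` and use `hr`. For a prime `π`: if `π ∤ ℓ'` take `F = ℓ'`, `s = 1`.
   If `π ∣ ℓ'` then `ℓ' ∣ π`, so `π ∤ δ` (otherwise `ℓ' ∣ δ`, `eval v δ = 0`); take `F = δ` (`hU (n-1) w`).
-/

set_option autoImplicit false

namespace R169

open R169.Lat

section piece

variable {k L : Type} [Field k] [Field L] [Algebra k L]
variable {W : Type} [AddCommGroup W] [Module k W] [Module L W] [IsScalarTower k L W]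
variable {D : GD k L} {η ζ : L} {E E' : ℤ → Submodule k W}

private theorem dvd_prime_of_deg_one {l π : MvPolynomial (Fin 3) k} (hl : l.IsHomogeneous 1)
    (hl0 : l ≠ 0) (hπ : Prime π) (h : π ∣ l) : l ∣ π := by
  obtain ⟨u, hu⟩ := h
  have hu0 : u ≠ 0 := by
    rintro rfl
    exact hl0 (by rw [hu, mul_zero])
  have h1 : l.totalDegree = 1 := hl.totalDegree hl0
  rw [hu, MvPolynomial.totalDegree_mul_of_isDomain hπ.ne_zero hu0] at h1
  have h2 : π.totalDegree ≠ 0 := by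
    intro h0
    rw [MvPolynomial.totalDegree_eq_zero_iff_eq_C] at h0
    apply hπ.not_isUnit
    rw [h0]
    refine IsUnit.map _ (isUnit_iff_ne_zero.2 fun h3 => ?_)
    rw [h3, map_zero] at h0
    exact hπ.ne_zero h0
  have h3 : u.totalDegree = 0 := by omega
  rw [MvPolynomial.totalDegree_eq_zero_iff_eq_C] at h3
  have h4 : IsUnit u := by
    rw [h3]
    refine IsUnit.map _ (isUnit_iff_ne_zero.2 fun h5 => ?_)
    rw [h5, map_zero] at h3
    exact hu0 h3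
  rw [hu]
  exact (h4.mul_right_dvd).2 dvd_rfl

/-- in a reflexive lattice `G` containing `δ`-multiples: `G ∩ ℓ U = ℓ G` for a linear form `ℓ ∤ δ` -/
theorem exists_linear_form [Infinite k] (ind : AlgebraicIndependent k ![η, ζ])
    {s : ℕ} {δ : MvPolynomial (Fin 3) k} (hδ : δ.IsHomogeneous s) (hδ0 : δ ≠ 0)
    (hr : IsRefl (k := k) η ζ E) (U : ℤ → Submodule k W)
    (hU : ∀ n w, w ∈ U n → ev η ζ δ • w ∈ E (n + s)) :
    ∃ ℓ : L, ℓ ≠ 0 ∧ ℓ ∈ A k η ζ 1 ∧ ∀ n w, w ∈ U (n - 1) → ℓ • w ∈ E n → w ∈ E (n - 1) := by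
  obtain ⟨v, hv⟩ : ∃ v : Fin 3 → k, MvPolynomial.eval v (δ * MvPolynomial.X 1) ≠ 0 := by
    by_contra hcon
    push Not at hcon
    refine mul_ne_zero hδ0 (MvPolynomial.X_ne_zero (1 : Fin 3)) ?_
    refine MvPolynomial.funext fun v => ?_
    rw [hcon v, map_zero]
  rw [map_mul, MvPolynomial.eval_X] at hv
  have hv1 : v 1 ≠ 0 := right_ne_zero_of_mul hv
  have hvδ : MvPolynomial.eval v δ ≠ 0 := left_ne_zero_of_mul hv
  obtain ⟨l, hl⟩ : ∃ l : MvPolynomial (Fin 3) k,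
      l = MvPolynomial.X 0 - MvPolynomial.C (v 0 / v 1) * MvPolynomial.X 1 := ⟨_, rfl⟩
  have hlh : l.IsHomogeneous 1 := by
    rw [hl]
    exact (MvPolynomial.isHomogeneous_X k (0 : Fin 3)).sub
      (MvPolynomial.isHomogeneous_C_mul_X (v 0 / v 1) (1 : Fin 3))
  have hl0 : l ≠ 0 := by
    intro h0
    have h1 := congrArg (MvPolynomial.eval ![(1 : k), 0, 0]) h0
    rw [hl] at h1
    simp at h1
  have hlv : MvPolynomial.eval v l = 0 := by
    rw [hl]
    simp only [map_sub, map_mul, MvPolynomial.eval_X, MvPolynomial.eval_C]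
    rw [div_mul_cancel₀ _ hv1, sub_self]
  refine ⟨ev η ζ l, ?_, ?_, ?_⟩
  · intro h0
    exact hl0 (ev_inj ind hlh h0)
  · have := ev_mem_A (η := η) (ζ := ζ) hlh
    exact_mod_cast this
  · intro n w hw hlw
    refine hr (n - 1) w fun π hπ => ?_
    by_cases hd : π ∣ l
    · refine ⟨s, δ, hδ, fun hd2 => ?_, hU (n - 1) w hw⟩
      obtain ⟨u, hu⟩ := (dvd_prime_of_deg_one hlh hl0 hπ hd).trans hd2
      apply hvδ
      rw [hu, map_mul, hlv, zero_mul]
    · refine ⟨1, l, hlh, hd, ?_⟩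
      rw [Nat.cast_one, sub_add_cancel]
      exact hlw

end piece

end R169
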