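import Crest.Agent.R169.LatDual3

/-!
# Row 169, LAT, L7 (helper57), file 4: the duality inequality.
-/

set_option autoImplicit false

namespace R169.Lat

section

variable {k L : Type} [Field k] [Field L] [Algebra k L] {η ζ : L}
variable {W : Type} [AddCommGroup W] [Module k W] [Module L W] [IsScalarTower k L W]
variable {g : ℕ}

/-- quadratic functions on `ℤ` -/
def IsQuad (f : ℤ → ℚ) : Prop := ∃ x y z : ℚ, ∀ n : ℤ, f n = x * n ^ 2 + y * n + z

theorem IsQuad.sum {ι : Type} (s : Finset ι) (f : ι → ℤ → ℚ) (h : ∀ i ∈ s, IsQuad (f i)) :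
    IsQuad fun n => ∑ i ∈ s, f i n := by
  classical
  induction s using Finset.induction_on with
  | empty => exact ⟨0, 0, 0, fun n => by simp⟩
  | insert i s hi ih =>
    obtain ⟨x, y, z, h1⟩ := h i (Finset.mem_insert_self _ _)
    obtain ⟨x', y', z', h2⟩ := ih fun j hj => h j (Finset.mem_insert_of_mem hj)
    refine ⟨x + x', y + y', z + z', fun n => ?_⟩
    have h2' : ∑ i ∈ s, f i n = x' * n ^ 2 + y' * n + z' := h2 n
    show ∑ j ∈ insert i s, f j n = _
    rw [Finset.sum_insert hi, h1, h2']; ring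

theorem IsQuad.sub {f f' : ℤ → ℚ} (h : IsQuad f) (h' : IsQuad f') : IsQuad fun n => f n - f' n := by
  obtain ⟨x, y, z, h1⟩ := h
  obtain ⟨x', y', z', h2⟩ := h'
  exact ⟨x - x', y - y', z - z', fun n => by
    show f n - f' n = _
    rw [h1, h2]; ring⟩

theorem IsQuad.eq {f f' : ℤ → ℚ} (h : IsQuad f) (h' : IsQuad f') {n0 : ℤ}
    (he : ∀ n, n0 ≤ n → f n = f' n) (n : ℤ) : f n = f' n := by
  obtain ⟨x, y, z, h1⟩ := h
  obtain ⟨x', y', z', h2⟩ := h'
  have e0 := he n0 le_rfl
  have e1 := he (n0 + 1) (by omega)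
  have e2 := he (n0 + 2) (by omega)
  rw [h1, h2] at e0 e1 e2
  push_cast at e1 e2
  have hx : x = x' := by linarith
  subst hx
  have hy : y = y' := by linarith
  subst hy
  have hz : z = z' := by linarith
  subst hz
  rw [h1, h2]

theorem isQuad_binom (a : ℤ) : IsQuad fun n => ((((n - a : ℤ)) : ℚ) + 1) * (((n - a : ℤ) : ℚ) + 2) / 2 :=
  ⟨1 / 2, (3 - 2 * a) / 2, (1 - a) * (2 - a) / 2, fun n => by push_cast; ring⟩

/-- elements of `k(η,ζ)` are fractions -/
theorem exists_frac {x : L} (hx : x ∈ FF k η ζ) : ∃ (n : ℕ) (p q : L), p ∈ A k η ζ n ∧ q ∈ A k η ζ n ∧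
    q ≠ 0 ∧ q * x = p := by
  have hadj : ∀ r ∈ Algebra.adjoin k ({η, ζ} : Set L), ∃ n : ℕ, r ∈ A k η ζ n := by
    intro r hr
    induction hr using Algebra.adjoin_induction with
    | mem x hx =>
      rcases hx with hx | hx
      · refine ⟨1, ?_⟩
        rw [hx]
        exact eta_mem_A (k := k) (η := η) (ζ := ζ)
      · rw [Set.mem_singleton_iff] at hx
        refine ⟨1, ?_⟩
        rw [hx]
        exact zeta_mem_A (k := k) (η := η) (ζ := ζ)
    | algebraMap r =>
      refine ⟨0, ?_⟩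
      rw [Algebra.algebraMap_eq_smul_one]
      exact Submodule.smul_mem _ _ (one_mem_A (by simp))
    | add x y _ _ hx hy =>
      obtain ⟨n, hn⟩ := hx
      obtain ⟨m, hm⟩ := hy
      exact ⟨n + m, Submodule.add_mem _ (A_mono (by push_cast; omega) hn)
        (A_mono (by push_cast; omega) hm)⟩
    | mul x y _ _ hx hy =>
      obtain ⟨n, hn⟩ := hx
      obtain ⟨m, hm⟩ := hy
      refine ⟨n + m, ?_⟩
      have := A_mul_mem hn hm
      exact_mod_cast this
  rw [FF, IntermediateField.mem_adjoin_iff_div] at hx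
  obtain ⟨r, hr, s, hs, rfl⟩ := hx
  obtain ⟨n, hn⟩ := hadj r hr
  obtain ⟨m, hm⟩ := hadj s hs
  by_cases h0 : s = 0
  · subst h0
    exact ⟨0, 0, 1, Submodule.zero_mem _, one_mem_A (by simp), one_ne_zero, by simp⟩
  · refine ⟨n + m, r, s, A_mono (by push_cast; omega) hn, A_mono (by push_cast; omega) hm, h0, ?_⟩
    field_simp

theorem A_le_FF {n : ℤ} {x : L} (hx : x ∈ A k η ζ n) : x ∈ FF k η ζ := by
  unfold A at hx
  induction hx using Submodule.span_induction with
  | mem x hx =>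
    obtain ⟨a, b, _, rfl⟩ := hx
    refine mul_mem (pow_mem ?_ _) (pow_mem ?_ _)
    · exact IntermediateField.subset_adjoin k _ (by simp)
    · exact IntermediateField.subset_adjoin k _ (by simp)
  | zero => exact zero_mem _
  | add x y _ _ hx hy => exact add_mem hx hy
  | smul c x _ hx => exact IntermediateField.smul_mem _ hx

theorem mul_ne_zero_A {x y : L} (hx : x ≠ 0) (hy : y ≠ 0) : x * y ≠ 0 := mul_ne_zero hx hy

/-- common denominators -/
theorem exists_common_denom {ι : Type} [Fintype ι] (f : ι → L) (hf : ∀ j, f j ∈ FF k η ζ) :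
    ∃ (n : ℕ) (q : L), q ≠ 0 ∧ q ∈ A k η ζ n ∧ ∀ j, q * f j ∈ A k η ζ n := by
  classical
  have key : ∀ s : Finset ι, ∃ (n : ℕ) (q : L), q ≠ 0 ∧ q ∈ A k η ζ n ∧ ∀ j ∈ s, q * f j ∈ A k η ζ n := by
    intro s
    induction s using Finset.induction_on with
    | empty => exact ⟨0, 1, one_ne_zero, one_mem_A (by simp), by simp⟩
    | insert i s _ ih =>
      obtain ⟨n, q, hq0, hq, h⟩ := ih
      obtain ⟨m, p', q', hp', hq', hq'0, e⟩ := exists_frac (hf i)
      refine ⟨n + m, q * q', mul_ne_zero hq0 hq'0, by exact_mod_cast A_mul_mem hq hq', ?_⟩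
      intro j hj
      rcases Finset.mem_insert.1 hj with rfl | hj
      · rw [mul_assoc, e]
        exact_mod_cast A_mul_mem hq hp'
      · have := A_mul_mem (h j hj) hq'
        rw [show q * q' * f j = q * f j * q' by ring]
        exact_mod_cast this
  obtain ⟨n, q, h1, h2, h3⟩ := key Finset.univ
  exact ⟨n, q, h1, h2, fun j => h3 j (Finset.mem_univ _)⟩

/-- evaluation at the generators -/
noncomputable def evG {G : ℤ → Submodule k W} {a : Fin g → ℤ} {e : Fin g → W} (hg : Gens η ζ G a e)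
    (m : ℤ) : dualP η ζ G m →ₗ[k] (Π j, A k η ζ (a j + m)) where
  toFun φ j := ⟨φ.1 ⟨e j, mem_fspan (hg.1 j)⟩, φ.2 (a j) (e j) (hg.1 j)⟩
  map_add' φ φ' := rfl
  map_smul' c φ := rfl

theorem fspan_le {G : ℤ → Submodule k W} {a : Fin g → ℤ} {e : Fin g → W} (hg : Gens η ζ G a e) :
    fspan η ζ G = Submodule.span (FF k η ζ) (Set.range e) := by
  refine le_antisymm (Submodule.span_le.2 ?_) (Submodule.span_mono ?_)
  · rintro w hw
    obtain ⟨n, hw⟩ := Set.mem_iUnion.1 hw
    obtain ⟨f, hf, rfl⟩ := (hg.2 n w).1 hw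
    refine Submodule.sum_mem _ fun j _ => ?_
    exact Submodule.smul_mem _ (⟨f j, A_le_FF (hf j)⟩ : FF k η ζ) (Submodule.subset_span ⟨j, rfl⟩)
  · rintro _ ⟨j, rfl⟩
    exact Set.mem_iUnion.2 ⟨a j, hg.1 j⟩

/-- linear combinations of the generators with coefficients in `F`, inside `fspan` -/
noncomputable def qmap {G : ℤ → Submodule k W} {a : Fin g → ℤ} {e : Fin g → W} (hg : Gens η ζ G a e) :
    (Fin g → FF k η ζ) →ₗ[FF k η ζ] fspan η ζ G :=
  Fintype.linearCombination (FF k η ζ) fun j => (⟨e j, mem_fspan (hg.1 j)⟩ : fspan η ζ G)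

theorem qmap_apply {G : ℤ → Submodule k W} {a : Fin g → ℤ} {e : Fin g → W} (hg : Gens η ζ G a e)
    (f : Fin g → FF k η ζ) :
    qmap hg f = ∑ j, f j • (⟨e j, mem_fspan (hg.1 j)⟩ : fspan η ζ G) :=
  Fintype.linearCombination_apply ..

theorem qmap_coe {G : ℤ → Submodule k W} {a : Fin g → ℤ} {e : Fin g → W} (hg : Gens η ζ G a e)
    (f : Fin g → FF k η ζ) : ((qmap hg f : fspan η ζ G) : W) = ∑ j, ((f j : FF k η ζ) : L) • e j := by
  rw [qmap_apply, AddSubmonoidClass.coe_finsetSum]
  rfl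

theorem qmap_surj {G : ℤ → Submodule k W} {a : Fin g → ℤ} {e : Fin g → W} (hg : Gens η ζ G a e) :
    Function.Surjective (qmap hg) := by
  rintro ⟨w, hw⟩
  have hw' := hw
  rw [fspan_le hg, Submodule.mem_span_range_iff_exists_fun] at hw'
  obtain ⟨c, hc⟩ := hw'
  refine ⟨c, Subtype.ext ?_⟩
  rw [qmap_coe]
  exact hc

theorem evG_inj {G : ℤ → Submodule k W} {a : Fin g → ℤ} {e : Fin g → W} (hg : Gens η ζ G a e)
    (m : ℤ) : Function.Injective (evG hg m) := by
  rw [injective_iff_map_eq_zero]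
  intro φ hφ
  apply Subtype.ext
  apply LinearMap.ext
  intro w
  obtain ⟨c, rfl⟩ := qmap_surj hg w
  have h1 : ∀ j, φ.1 ⟨e j, mem_fspan (hg.1 j)⟩ = 0 := by
    intro j
    have := congrArg Subtype.val (congrFun hφ j)
    exact this
  rw [qmap_apply, map_sum]
  exact Finset.sum_eq_zero fun j _ => by rw [map_smul, h1 j, smul_zero]

/-- a compatible choice of values on the generators extends to a functional -/
theorem exists_dual {G : ℤ → Submodule k W} {a : Fin g → ℤ} {e : Fin g → W} (hg : Gens η ζ G a e)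
    {ι : Type} [Fintype ι] {b : ι → ℤ} {κ : ι → Fin g → L}
    (h2 : ∀ n, ∀ f ∈ Kr k η ζ a e n, ∃ p : ι → L, (∀ i, p i ∈ A k η ζ (n - b i)) ∧
      f = ∑ i, p i • κ i) {m : ℤ} (c : Π j, A k η ζ (a j + m))
    (hc : ∀ i, ∑ j, κ i j * (c j : L) = 0) : ∃ φ : dualP η ζ G m, evG hg m φ = c := by
  classical
  -- the functional on `F^g`
  let r : (Fin g → FF k η ζ) →ₗ[FF k η ζ] L :=
    { toFun := fun f => ∑ j, f j • (c j : L)
      map_add' := by intro f f'; simp [add_smul, Finset.sum_add_distrib]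
      map_smul' := by intro x f; simp [Finset.smul_sum, mul_smul] }
  have hker : LinearMap.ker (qmap hg) ≤ LinearMap.ker r := by
    intro f hf
    rw [LinearMap.mem_ker] at hf ⊢
    have hf' : ∑ j, ((f j : FF k η ζ) : L) • e j = 0 := by
      have := congrArg Subtype.val hf
      rw [qmap_coe] at this
      exact this
    obtain ⟨n, q, hq0, _, hq⟩ := exists_common_denom (k := k) (η := η) (ζ := ζ)
      (fun j => ((f j : FF k η ζ) : L)) (fun j => (f j).2)
    -- a large degree
    obtain ⟨N, hN⟩ : ∃ N : ℤ, ∀ j, (n : ℤ) ≤ N - a j := by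
      refine ⟨n + ∑ j, |a j|, fun j => ?_⟩
      have h1 : |a j| ≤ ∑ j, |a j| := Finset.single_le_sum (f := fun j => |a j|)
        (fun _ _ => abs_nonneg _) (Finset.mem_univ j)
      have := le_abs_self (a j)
      omega
    obtain ⟨p, hp, ep⟩ := h2 N (fun j => q * ((f j : FF k η ζ) : L)) (mem_Kr.2
      ⟨fun j => A_mono (hN j) (hq j), by
        simp only [mul_smul]
        rw [← Finset.smul_sum, hf', smul_zero]⟩)
    have e1 : q * ∑ j, ((f j : FF k η ζ) : L) * (c j : L) = 0 := by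
      rw [Finset.mul_sum]
      have : ∀ j, q * (((f j : FF k η ζ) : L) * (c j : L)) = ∑ i, p i * (κ i j * (c j : L)) := by
        intro j
        have := congrFun ep j
        simp only [Finset.sum_apply, Pi.smul_apply, smul_eq_mul] at this
        rw [← mul_assoc, this, Finset.sum_mul]
        exact Finset.sum_congr rfl fun i _ => by ring
      rw [Finset.sum_congr rfl fun j _ => this j, Finset.sum_comm]
      refine Finset.sum_eq_zero fun i _ => ?_
      rw [← Finset.mul_sum, hc i, mul_zero]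
    have e2 := (mul_eq_zero.1 e1).resolve_left hq0
    exact e2
  let φ0 : fspan η ζ G →ₗ[FF k η ζ] L :=
    ((LinearMap.ker (qmap hg)).liftQ r hker) ∘ₗ
      ((qmap hg).quotKerEquivOfSurjective (qmap_surj hg)).symm.toLinearMap
  have hφ0 : ∀ f, φ0 (qmap hg f) = r f := by
    intro f
    simp only [φ0, LinearMap.comp_apply, LinearEquiv.coe_coe]
    have : ((qmap hg).quotKerEquivOfSurjective (qmap_surj hg)).symm (qmap hg f) =
        (LinearMap.ker (qmap hg)).mkQ f := by
      rw [LinearEquiv.symm_apply_eq]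
      rfl
    rw [this]
    simp
  have hφe : ∀ j, φ0 ⟨e j, mem_fspan (hg.1 j)⟩ = (c j : L) := by
    intro j
    have h1 : qmap hg (Pi.single j 1) = ⟨e j, mem_fspan (hg.1 j)⟩ := by
      rw [qmap_apply, Finset.sum_eq_single j]
      · simp
      · intro i _ hi
        simp [hi]
      · intro h; exact absurd (Finset.mem_univ _) h
    rw [← h1, hφ0]
    simp [r, Pi.single_apply]
  refine ⟨⟨φ0, ?_⟩, ?_⟩
  · intro n w hw
    obtain ⟨f, hf, rfl⟩ := (hg.2 n w).1 hw
    have h1 : (⟨∑ j, f j • e j, mem_fspan hw⟩ : fspan η ζ G) =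
        qmap hg (fun j => ⟨f j, A_le_FF (hf j)⟩) := by
      apply Subtype.ext
      rw [qmap_coe]
    rw [h1, hφ0]
    change ∑ j, f j * (c j : L) ∈ A k η ζ (n + m)
    refine Submodule.sum_mem _ fun j _ => ?_
    have := A_mul_mem (hf j) (c j).2
    rw [show n - a j + (a j + m) = n + m by ring] at this
    exact this
  · funext j
    exact Subtype.ext (hφe j)

end

end R169.Lat

namespace R169

open R169.Lat

section

variable {k L : Type} [Field k] [Field L] [Algebra k L] {η ζ : L}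
variable {W : Type} [AddCommGroup W] [Module k W] [Module L W] [IsScalarTower k L W]

theorem duality' (ind : AlgebraicIndependent k ![η, ζ]) {G : ℤ → Submodule k W}
    (hG : IsPLat η ζ G) (hd : Dep2 η G) {N β γ : ℚ} (hh : HasHP G N β γ) (n : ℤ) :
    FiniteDimensional k (dualP η ζ G (-n - 3)) ∧
    N / 2 * (n : ℚ) ^ 2 - β * n + γ ≤
      Module.finrank k (G n) + Module.finrank k (dualP η ζ G (-n - 3)) := by
  classical
  obtain ⟨g, a, e, hg1, hg2⟩ := hG.exists_gens
  have hg : Gens η ζ G a e := ⟨hg1, hg2⟩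
  obtain ⟨ι, hι, b, κ, h1, h2, h3⟩ := exists_resolution ind hd hg
  set m : ℤ := -n - 3 with hm
  have hfin : FiniteDimensional k (dualP η ζ G m) :=
    FiniteDimensional.of_injective (evG hg m) (evG_inj hg m)
  refine ⟨hfin, ?_⟩
  -- count
  have hcount : ∀ n : ℤ, (Module.finrank k (G n) : ℚ) =
      ∑ j, (Module.finrank k (A k η ζ (n - a j)) : ℚ) -
        ∑ i, (Module.finrank k (A k η ζ (n - b i)) : ℚ) := by
    intro n
    have := finrank_G hg h1 h2 h3 n
    rw [eq_sub_iff_add_eq]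
    exact_mod_cast this
  let bin : ℤ → ℚ := fun n => (n + 1) * (n + 2) / 2
  have hbin : ∀ n : ℤ, bin n = (Module.finrank k (A k η ζ n) : ℚ) +
      Module.finrank k (A k η ζ (-n - 3)) := fun n => finrank_A_dual ind n
  -- the Hilbert polynomial
  have hpoly : ∀ n : ℤ, N / 2 * (n : ℚ) ^ 2 - β * n + γ =
      ∑ j, bin (n - a j) - ∑ i, bin (n - b i) := by
    obtain ⟨n0, hn0⟩ := hh
    obtain ⟨n1, hn1⟩ : ∃ n1 : ℤ, (∀ j, -2 ≤ n1 - a j) ∧ ∀ i, -2 ≤ n1 - b i := by
      refine ⟨∑ j, |a j| + ∑ i, |b i|, fun j => ?_, fun i => ?_⟩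
      · have h1 : |a j| ≤ ∑ j, |a j| := Finset.single_le_sum (f := fun j => |a j|)
          (fun _ _ => abs_nonneg _) (Finset.mem_univ j)
        have h2 : 0 ≤ ∑ i, |b i| := Finset.sum_nonneg fun _ _ => abs_nonneg _
        have := le_abs_self (a j)
        omega
      · have h1 : |b i| ≤ ∑ i, |b i| := Finset.single_le_sum (f := fun i => |b i|)
          (fun _ _ => abs_nonneg _) (Finset.mem_univ i)
        have h2 : 0 ≤ ∑ j, |a j| := Finset.sum_nonneg fun _ _ => abs_nonneg _
        have := le_abs_self (b i)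
        omega
    refine IsQuad.eq (n0 := max n0 n1) ⟨N / 2, -β, γ, fun n => by ring⟩
      (IsQuad.sub (IsQuad.sum _ _ fun j _ => isQuad_binom (a j))
        (IsQuad.sum _ _ fun i _ => isQuad_binom (b i))) ?_
    intro n hn
    have hn0' : n0 ≤ n := le_trans (le_max_left _ _) hn
    have hn1' : n1 ≤ n := le_trans (le_max_right _ _) hn
    rw [← hn0 n hn0', hcount]
    congr 1
    · refine Finset.sum_congr rfl fun j _ => ?_
      exact finrank_A_rat ind (by have := hn1.1 j; omega)
    · refine Finset.sum_congr rfl fun i _ => ?_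
      exact finrank_A_rat ind (by have := hn1.2 i; omega)
  -- the dual map
  let Φ : (Π j, A k η ζ (a j + m)) →ₗ[k] (Π i, A k η ζ (b i + m)) :=
    { toFun := fun c i => ⟨∑ j, κ i j * (c j : L), by
        refine Submodule.sum_mem _ fun j _ => ?_
        have := A_mul_mem ((mem_Kr.1 (h1 i)).1 j) (c j).2
        rwa [show b i - a j + (a j + m) = b i + m by ring] at this⟩
      map_add' := by
        intro f f'
        funext i
        apply Subtype.ext
        simp [mul_add, Finset.sum_add_distrib]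
      map_smul' := by
        intro c f
        funext i
        apply Subtype.ext
        simp [Finset.smul_sum] }
  have hker : LinearMap.ker Φ ≤ LinearMap.range (evG hg m) := by
    intro c hc
    rw [LinearMap.mem_ker] at hc
    obtain ⟨φ, hφ⟩ := exists_dual hg h2 c (fun i => by
      have := congrArg Subtype.val (congrFun hc i)
      exact this)
    exact ⟨φ, hφ⟩
  have hle1 : Module.finrank k (LinearMap.ker Φ) ≤ Module.finrank k (dualP η ζ G m) :=
    (Submodule.finrank_mono hker).trans (LinearMap.finrank_range_le _)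
  have hrn := LinearMap.finrank_range_add_finrank_ker Φ
  have hle2 : Module.finrank k (LinearMap.range Φ) ≤ Module.finrank k (Π i, A k η ζ (b i + m)) :=
    Submodule.finrank_le _
  rw [Module.finrank_pi_fintype] at hrn hle2
  have hfinal : (∑ j, (Module.finrank k (A k η ζ (a j + m)) : ℚ)) -
      ∑ i, (Module.finrank k (A k η ζ (b i + m)) : ℚ) ≤ Module.finrank k (dualP η ζ G m) := by
    have h4 : ∑ j, Module.finrank k (A k η ζ (a j + m)) ≤
        ∑ i, Module.finrank k (A k η ζ (b i + m)) + Module.finrank k (dualP η ζ G m) := by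
      omega
    rw [sub_le_iff_le_add]
    have : ((∑ j, Module.finrank k (A k η ζ (a j + m)) : ℕ) : ℚ) ≤
      ((∑ i, Module.finrank k (A k η ζ (b i + m)) + Module.finrank k (dualP η ζ G m) : ℕ) : ℚ) := by
      exact_mod_cast h4
    push_cast at this
    linarith
  rw [hpoly n, hcount n]
  have e1 : ∑ j, bin (n - a j) = ∑ j, (Module.finrank k (A k η ζ (n - a j)) : ℚ) +
      ∑ j, (Module.finrank k (A k η ζ (a j + m)) : ℚ) := by
    rw [← Finset.sum_add_distrib]
    refine Finset.sum_congr rfl fun j _ => ?_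
    rw [hbin, show -(n - a j) - 3 = a j + m by rw [hm]; ring]
  have e2 : ∑ i, bin (n - b i) = ∑ i, (Module.finrank k (A k η ζ (n - b i)) : ℚ) +
      ∑ i, (Module.finrank k (A k η ζ (b i + m)) : ℚ) := by
    rw [← Finset.sum_add_distrib]
    refine Finset.sum_congr rfl fun i _ => ?_
    rw [hbin, show -(n - b i) - 3 = b i + m by rw [hm]; ring]
  rw [e1, e2]
  linarith

theorem duality_zero' (ind : AlgebraicIndependent k ![η, ζ]) {G : ℤ → Submodule k W}
    (hG : IsPLat η ζ G) (hd : Dep2 η G) {N β γ : ℚ} (hh : HasHP G N β γ) (n : ℤ)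
    (h0 : ∀ φ : W →ₗ[FF k η ζ] L, (∀ m w, w ∈ G m → φ w ∈ A k η ζ (m + (-n - 3))) →
      ∀ m w, w ∈ G m → φ w = 0) :
    N / 2 * (n : ℚ) ^ 2 - β * n + γ ≤ Module.finrank k (G n) := by
  obtain ⟨_, h1⟩ := duality' ind hG hd hh n
  have h2 : dualP η ζ G (-n - 3) = ⊥ := by
    rw [eq_bot_iff]
    intro φ hφ
    rw [Submodule.mem_bot]
    obtain ⟨ψ, hψ⟩ := LinearMap.exists_extend φ
    have h3 : ∀ m w (hw : w ∈ G m), ψ w = φ ⟨w, mem_fspan hw⟩ := by
      intro m w hw
      rw [← hψ]; rfl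
    have h4 := h0 ψ (fun m w hw => by rw [h3 m w hw]; exact hφ m w hw)
    obtain ⟨g, a, e, hg1, hg2⟩ := hG.exists_gens
    have hg : Gens η ζ G a e := ⟨hg1, hg2⟩
    apply LinearMap.ext
    intro w
    obtain ⟨c, rfl⟩ := qmap_surj hg w
    have h5 : ∀ j, φ ⟨e j, mem_fspan (hg.1 j)⟩ = 0 := by
      intro j
      rw [← h3 _ _ (hg.1 j)]
      exact h4 _ _ (hg.1 j)
    rw [qmap_apply, map_sum]
    exact Finset.sum_eq_zero fun j _ => by rw [map_smul, h5 j, smul_zero]
  rw [h2] at h1
  simpa using h1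

theorem dualP_bound' {W' : Type} [AddCommGroup W'] [Module k W'] [Module L W'] [IsScalarTower k L W']
    {G' : ℤ → Submodule k W'} {g : ℕ} (e : Fin g → W) (a : Fin g → ℤ)
    (f : W →ₗ[FF k η ζ] W') (hf : ∀ i, f (e i) ∈ G' (a i))
    (hspan : Submodule.span (FF k η ζ) (Set.range (fun i => f (e i))) = fspan η ζ G') (j : ℤ) :
    Module.finrank k (dualP η ζ G' j) ≤ ∑ i, Module.finrank k (A k η ζ (a i + j)) := by
  let ev : dualP η ζ G' j →ₗ[k] (Π i, A k η ζ (a i + j)) :=
    { toFun := fun φ i => ⟨φ.1 ⟨f (e i), mem_fspan (hf i)⟩, φ.2 (a i) (f (e i)) (hf i)⟩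
      map_add' := fun φ φ' => rfl
      map_smul' := fun c φ => rfl }
  have hinj : Function.Injective ev := by
    rw [injective_iff_map_eq_zero]
    intro φ hφ
    apply Subtype.ext
    apply LinearMap.ext
    rintro ⟨w, hw⟩
    have hw' := hw
    rw [← hspan, Submodule.mem_span_range_iff_exists_fun] at hw'
    obtain ⟨c, hc⟩ := hw'
    have h1 : (⟨w, hw⟩ : fspan η ζ G') = ∑ i, c i • (⟨f (e i), mem_fspan (hf i)⟩ : fspan η ζ G') := by
      apply Subtype.ext
      rw [AddSubmonoidClass.coe_finsetSum]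
      exact hc.symm
    have h2 : ∀ i, φ.1 ⟨f (e i), mem_fspan (hf i)⟩ = 0 := by
      intro i
      have := congrArg Subtype.val (congrFun hφ i)
      exact this
    rw [h1, map_sum]
    exact Finset.sum_eq_zero fun i _ => by rw [map_smul, h2 i, smul_zero]
  have := LinearMap.finrank_le_finrank_of_injective hinj
  rwa [Module.finrank_pi_fintype] at this

end

end R169
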