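import Crest.Agent.R169.Lat1
import Crest.Agent.R169.LatDual4

/-!
# Row 169, module 0 (LAT): L7 (helper57; proofs in LatDual1-4)
-/

set_option autoImplicit false

namespace R169

section api

variable {k L : Type} [Field k] [Field L] [Algebra k L]
variable {W : Type} [AddCommGroup W] [Module k W] [Module L W] [IsScalarTower k L W]
variable {D : GD k L} {η ζ : L} {E E' : ℤ → Submodule k W}

/-! ### L7: duality inequality -/

theorem duality (ind : AlgebraicIndependent k ![η, ζ]) {G : ℤ → Submodule k W}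
    (hG : IsPLat η ζ G) (hd : Dep2 η G) {N β γ : ℚ} (hh : HasHP G N β γ) (n : ℤ) :
    FiniteDimensional k (dualP η ζ G (-n - 3)) ∧
    N / 2 * (n : ℚ) ^ 2 - β * n + γ ≤
      Module.finrank k (G n) + Module.finrank k (dualP η ζ G (-n - 3)) :=
  duality' ind hG hd hh n

theorem duality_zero (ind : AlgebraicIndependent k ![η, ζ]) {G : ℤ → Submodule k W}
    (hG : IsPLat η ζ G) (hd : Dep2 η G) {N β γ : ℚ} (hh : HasHP G N β γ) (n : ℤ)
    (h0 : ∀ φ : W →ₗ[FF k η ζ] L, (∀ m w, w ∈ G m → φ w ∈ A k η ζ (m + (-n - 3))) →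
      ∀ m w, w ∈ G m → φ w = 0) :
    N / 2 * (n : ℚ) ^ 2 - β * n + γ ≤ Module.finrank k (G n) :=
  duality_zero' ind hG hd hh n h0

/-- dual of a module receiving a generically surjective map from a lattice generated in degrees `a i` -/
theorem dualP_bound {W' : Type} [AddCommGroup W'] [Module k W'] [Module L W'] [IsScalarTower k L W']
    {G' : ℤ → Submodule k W'} {g : ℕ} (e : Fin g → W) (a : Fin g → ℤ)
    (f : W →ₗ[FF k η ζ] W') (hf : ∀ i, f (e i) ∈ G' (a i))
    (hspan : Submodule.span (FF k η ζ) (Set.range (fun i => f (e i))) = fspan η ζ G') (j : ℤ) :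
    Module.finrank k (dualP η ζ G' j) ≤ ∑ i, Module.finrank k (A k η ζ (a i + j)) :=
  dualP_bound' e a f hf hspan j

end api

end R169
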