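import Crest.Agent.R169.Lat4b

/-!
# Row 169, module 0 (LAT): L8a, `ρ` is a basis of `L` over `F`

Let `S = span_FF (range ρ)`. For `b ∈ B n`: `δ b = ∑ g_i ρ_i`, `g_i ∈ A ⊂ FF` (`A_le_FF`), `δ ∈ FF`, `δ ≠ 0`, so `b ∈ S`.
`ρ_i ρ_j ∈ B (2e) ⊂ S`, so `S * S ⊂ S`. For `l = a / b`, `a, b ∈ B n ⊂ S`, `b ≠ 0`: multiplication by `b` is injective on the
finite dimensional space `S`, so surjective: `a = b s`, `l = s ∈ S`. So `S = ⊤` (same argument as in `Lat4b`). No `hP` needed.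
-/

set_option autoImplicit false

namespace R169

open R169.Lat

section piece

variable {k L : Type} [Field k] [Field L] [Algebra k L]
variable {W : Type} [AddCommGroup W] [Module k W] [Module L W] [IsScalarTower k L W]
variable {D : GD k L} {η ζ : L} {E E' : ℤ → Submodule k W}

theorem rho_span {d : ℕ} {e t : ℤ} {ρ : Fin d → L} (h1 : ∀ i, ρ i ∈ D.B e) {δ : L} (hδ : δ ∈ A k η ζ t) (hδ0 : δ ≠ 0)
    (h2 : ∀ n b, b ∈ D.B n → ∃ g : Fin d → L, (∀ i, g i ∈ A k η ζ (n + t)) ∧ δ * b = ∑ i, g i * ρ i) :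
    Submodule.span (FF k η ζ) (Set.range ρ) = ⊤ := by
  obtain ⟨S, hS⟩ : ∃ S : Submodule (FF k η ζ) L, S = Submodule.span (FF k η ζ) (Set.range ρ) :=
    ⟨_, rfl⟩
  rw [← hS]
  have hBS : ∀ n l, l ∈ D.B n → l ∈ S := by
    intro n l hl
    obtain ⟨g, hg, hgl⟩ := h2 n l hl
    have h3 : δ * l ∈ S := by
      rw [hgl]
      refine Submodule.sum_mem _ fun j _ => ?_
      have h1 : g j * ρ j = (⟨g j, A_le_FF (hg j)⟩ : FF k η ζ) • ρ j := by
        rw [IntermediateField.smul_def, smul_eq_mul]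
      rw [h1]
      refine Submodule.smul_mem _ _ ?_
      rw [hS]
      exact Submodule.subset_span ⟨j, rfl⟩
    have h4 : ((⟨δ, A_le_FF hδ⟩ : FF k η ζ)⁻¹) • (δ * l) ∈ S := Submodule.smul_mem _ _ h3
    rw [IntermediateField.smul_def, smul_eq_mul] at h4
    have h5 : (((⟨δ, A_le_FF hδ⟩ : FF k η ζ)⁻¹ : FF k η ζ) : L) * (δ * l) = l := by
      have h6 : (((⟨δ, A_le_FF hδ⟩ : FF k η ζ)⁻¹ : FF k η ζ) : L) = δ⁻¹ := rfl
      rw [h6, ← mul_assoc, inv_mul_cancel₀ hδ0, one_mul]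
    rwa [h5] at h4
  have hfin : FiniteDimensional (FF k η ζ) S := by
    rw [hS]
    exact FiniteDimensional.span_of_finite (FF k η ζ) (Set.finite_range ρ)
  rw [eq_top_iff]
  intro l _
  obtain ⟨n, x, hx, y, hy, hy0, rfl⟩ := D.frac l
  have hmul : ∀ z ∈ S, y * z ∈ S := by
    intro z hz
    rw [hS] at hz
    induction hz using Submodule.span_induction with
    | mem z hz =>
      obtain ⟨j, rfl⟩ := hz
      exact hBS _ _ (D.mul_mem hy (h1 j))
    | zero => rw [mul_zero]; exact Submodule.zero_mem _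
    | add u v _ _ hu hv => rw [mul_add]; exact Submodule.add_mem _ hu hv
    | smul c u _ hu => rw [mul_smul_comm]; exact Submodule.smul_mem _ _ hu
  let φ : S →ₗ[FF k η ζ] S := (LinearMap.mulLeft (FF k η ζ) y).restrict hmul
  have hφ : Function.Injective φ := by
    intro u v huv
    have h1 : y * (u : L) = y * (v : L) := congrArg Subtype.val huv
    exact Subtype.ext (mul_left_cancel₀ hy0 h1)
  obtain ⟨s, hs⟩ := LinearMap.surjective_of_injective hφ ⟨x, hBS n x hx⟩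
  have h2 : y * (s : L) = x := congrArg Subtype.val hs
  have h3 : x / y = s := by
    rw [← h2, mul_div_cancel_left₀ _ hy0]
  rw [h3]
  exact s.2

end piece

end R169
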