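import Crest.Agent.R169.Lat8a

/-!
# Row 169, module 0 (LAT): L8b, embedding of `B^r`

Let `bs : Basis (Fin d) (FF k η ζ) L` be `ρ` (`rho_span`, `Module.Basis.mk`). `M = r * d`, or index by `Fin r × Fin d` and transport with
`finProdFinEquiv`. `f w (i, l) = δ * (bs.repr (w i) l : L)`. For `w ∈ B^r_n`: `δ * w i = ∑ g_l ρ_l`, `g_l ∈ A (n+t)`, and
`δ ∈ FF`, so `g_l = bs.repr (δ * w i) l = δ * bs.repr (w i) l` (uniqueness of coordinates). Injective because `δ ≠ 0`.
-/

set_option autoImplicit false

namespace R169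

open R169.Lat

section piece

variable {k L : Type} [Field k] [Field L] [Algebra k L]
variable {W : Type} [AddCommGroup W] [Module k W] [Module L W] [IsScalarTower k L W]
variable {D : GD k L} {η ζ : L} {E E' : ℤ → Submodule k W}

theorem RhoCert.emb {d : ℕ} {e t : ℤ} (h : RhoCert D η ζ d e t) (r : ℕ) : EmbA η ζ (Bpow D r) t := by
  obtain ⟨ρ, hρ, hli, δ, hδ, hδ0, hB⟩ := h
  have hsp := rho_span hρ hδ hδ0 hB
  let bs : Module.Basis (Fin d) (FF k η ζ) L := Module.Basis.mk hli hsp.ge
  have hbs : ∀ l, bs l = ρ l := fun l => Module.Basis.mk_apply hli hsp.ge l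
  let e0 : Fin r × Fin d ≃ Fin (r * d) := finProdFinEquiv
  let f : (Fin r → L) →ₗ[FF k η ζ] (Fin (r * d) → L) :=
    { toFun := fun w m => δ * ((bs.repr (w (e0.symm m).1) (e0.symm m).2 : FF k η ζ) : L)
      map_add' := by
        intro v w
        funext m
        simp only [Pi.add_apply, map_add, Finsupp.add_apply]
        push_cast
        ring
      map_smul' := by
        intro c w
        funext m
        have h1 : (c • w) (e0.symm m).1 = c • w (e0.symm m).1 := rfl
        rw [h1]
        simp only [map_smul, Finsupp.smul_apply, smul_eq_mul, RingHom.id_apply]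
        change _ = (c : L) * _
        push_cast
        ring }
  have hf : ∀ (w : Fin r → L) (m : Fin (r * d)),
      f w m = δ * ((bs.repr (w (e0.symm m).1) (e0.symm m).2 : FF k η ζ) : L) := fun w m => rfl
  refine ⟨r * d, f, ?_, ?_⟩
  · intro v w hvw
    funext i
    apply bs.repr.injective
    ext l
    have h1 := congrFun hvw (e0 (i, l))
    rw [hf, hf, Equiv.symm_apply_apply] at h1
    exact mul_left_cancel₀ hδ0 h1
  · intro n w hw m
    rw [hf]
    have hwi : w (e0.symm m).1 ∈ D.B n := by
      have := (Submodule.mem_pi).1 hw (e0.symm m).1 (Set.mem_univ _)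
      exact this
    generalize (e0.symm m).1 = i at hwi
    generalize (e0.symm m).2 = l
    obtain ⟨g, hg, hgs⟩ := hB n (w i) hwi
    let δ' : FF k η ζ := ⟨δ, A_le_FF hδ⟩
    let g' : Fin d → FF k η ζ := fun l => ⟨g l, A_le_FF (hg l)⟩
    have h1 : δ' • w i = ∑ l, g' l • bs l := by
      change δ * w i = _
      rw [hgs]
      refine Finset.sum_congr rfl fun l _ => ?_
      rw [hbs]
      rfl
    have h2 := congrArg (fun x => bs.repr x l) h1
    simp only [map_smul, Finsupp.smul_apply, smul_eq_mul] at h2
    rw [bs.repr_sum_self] at h2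
    have h3 := congrArg (fun x : FF k η ζ => (x : L)) h2
    have h4 : δ * ((bs.repr (w i) l : FF k η ζ) : L) = g l := h3
    rw [h4]
    exact hg l

end piece

end R169
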