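import Crest.Agent.R169.Lat4d

/-!
# Row 169, module 0 (LAT): L8c, existence of a certificate

1. `span_B_eq_top hP`: choose an `FF`-basis `ρ : Fin r → L` of `L` consisting of elements of `⋃ B n` (`finDim_FF`), all in one `B e`, `e ≥ 0`
   (`GD.mono_le`).
2. `IsPLat.exists_gens` for `B`: `b_j ∈ B (a j)`. `common_den` for the coordinates of the `b_j` with respect to `ρ`:
   `δ ∈ A T`, `δ ≠ 0`, `δ * coord ∈ A T`. For `b = ∑ f_j b_j ∈ B n`, `f_j ∈ A (n - a j)`: `δ b = ∑_l (∑_j f_j δ coord_{jl}) ρ_l` with coefficients in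
   `A (n - a j + T) ⊂ A (n + t)` if `t ≥ T`, `t ≥ T - a j` for all `j`. Take `t ≥ T` so that `δ ∈ A t`.
3. `r = d`: `finrank (FF) L = r`; `rank_eq` for `E = B` in `W = L`: `(d : ℚ) = finrank (fspan η ζ D.B) = finrank ⊤ = r` (`span_B_eq_top`).
-/

set_option autoImplicit false

namespace R169

open R169.Lat

section piece

variable {k L : Type} [Field k] [Field L] [Algebra k L]
variable {W : Type} [AddCommGroup W] [Module k W] [Module L W] [IsScalarTower k L W]
variable {D : GD k L} {η ζ : L} {E E' : ℤ → Submodule k W}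

theorem RhoCert.exists (hP : Par D η ζ) {d : ℕ} {βB γB : ℚ} (hB : HasHP D.B d βB γB) :
    ∃ e t, 0 ≤ e ∧ 0 ≤ t ∧ RhoCert D η ζ d e t := by
  classical
  have : FiniteDimensional (FF k η ζ) L := finDim_FF hP
  have hlat := (isLat_B hP).toPLat hP
  have hspan : Submodule.span (FF k η ζ) (⋃ n, (D.B n : Set L)) = ⊤ := span_B_eq_top hP
  -- `d` is the dimension
  have hd : d = Module.finrank (FF k η ζ) (Submodule.span (FF k η ζ) (⋃ n, (D.B n : Set L))) := by
    have h1 := rank_eq (W := L) hP.indep hlat hB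
    exact_mod_cast h1
  -- the basis
  obtain ⟨ρ, hρB, hρs, hρi⟩ : ∃ f : Fin d → L, (∀ i, f i ∈ (⋃ n, (D.B n : Set L))) ∧
      Submodule.span (FF k η ζ) (Set.range f) = Submodule.span (FF k η ζ) (⋃ n, (D.B n : Set L)) ∧
      LinearIndependent (FF k η ζ) f := by
    rw [hd]
    exact Submodule.exists_fun_fin_finrank_span_eq (FF k η ζ) (⋃ n, (D.B n : Set L))
  have hρn : ∀ i, ∃ n : ℤ, ρ i ∈ D.B n := fun i => by simpa using hρB i
  choose nn hnn using hρn
  obtain ⟨e, he0, he⟩ : ∃ e : ℤ, 0 ≤ e ∧ ∀ i, nn i ≤ e := by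
    by_cases hne : Nonempty (Fin d)
    · obtain ⟨j0, hj0⟩ := Finite.exists_max nn
      exact ⟨max 0 (nn j0), le_max_left _ _, fun i => (hj0 i).trans (le_max_right _ _)⟩
    · exact ⟨0, le_rfl, fun j => (hne ⟨j⟩).elim⟩
  have hρe : ∀ i, ρ i ∈ D.B e := fun i => D.mono_le (he i) (hnn i)
  let bs : Module.Basis (Fin d) (FF k η ζ) L := Module.Basis.mk hρi (by rw [hρs, hspan])
  have hbs : ∀ i, bs i = ρ i := fun i => Module.Basis.mk_apply _ _ i
  -- generators of `B`
  obtain ⟨m, a, bb, hbb, hgen⟩ := hlat.exists_gens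
  obtain ⟨T, δ, hδ, hδ0, hδx⟩ := common_den (k := k) (η := η) (ζ := ζ)
    (fun p : Fin m × Fin d => bs.repr (bb p.1) p.2)
  obtain ⟨t, ht0, htT, hta⟩ : ∃ t : ℤ, 0 ≤ t ∧ (T : ℤ) ≤ t ∧ ∀ j, (T : ℤ) - a j ≤ t := by
    by_cases hne : Nonempty (Fin m)
    · obtain ⟨j0, hj0⟩ := Finite.exists_max (fun j => (T : ℤ) - a j)
      exact ⟨max (T : ℤ) ((T : ℤ) - a j0), le_max_of_le_left (by omega), le_max_left _ _,
        fun i => (hj0 i).trans (le_max_right _ _)⟩
    · exact ⟨T, by omega, le_rfl, fun j => (hne ⟨j⟩).elim⟩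
  refine ⟨e, t, he0, ht0, ρ, hρe, hρi, δ, A_mono htT hδ, hδ0, ?_⟩
  intro n b hb
  obtain ⟨f, hf, rfl⟩ := (hgen n b).1 hb
  refine ⟨fun l => ∑ j, f j * (δ * ((bs.repr (bb j) l : FF k η ζ) : L)), fun l => ?_, ?_⟩
  · refine Submodule.sum_mem _ fun j _ => ?_
    have h1 := A_mul_mem (hf j) (hδx (j, l))
    refine A_mono ?_ h1
    have := hta j
    omega
  · have h2 : ∀ j, bb j = ∑ l, ((bs.repr (bb j) l : FF k η ζ) : L) * ρ l := fun j => by
      have h3 := bs.sum_repr (bb j)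
      simp only [hbs] at h3
      exact h3.symm
    rw [Finset.mul_sum]
    simp only [Finset.sum_mul]
    rw [Finset.sum_comm]
    refine Finset.sum_congr rfl fun j _ => ?_
    rw [smul_eq_mul]
    conv_lhs => rw [h2 j]
    rw [Finset.mul_sum, Finset.mul_sum]
    refine Finset.sum_congr rfl fun l _ => ?_
    ring

end piece

end R169
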