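import Crest.Agent.R169.Lat4a

/-!
# Row 169, module 0 (LAT): L8d, Cramer with degrees

`det T * x_j = ∑_i adjugate(T)_{ji} y_i` (from `T.adjugate * T = det T • 1`, `Matrix.adjugate_mul`, applied to `T *ᵥ x = y`).
Entries of the adjugate: `Matrix.adjugate_apply`: determinant of `T` with one row replaced by a unit vector; by `Matrix.det_apply` a sum of
signed products; each product is zero or a product of `d - 1` entries of `T` and one `1`, so lies in `A ((d-1) u)` (`A_mul_mem`, `Finset.prod`
version by induction, `one_mem_A`). Alternatively `Matrix.adjugate_fin_succ_eq_det_submatrix` : `adjugate` entries are `±` minors of size `d - 1`, and a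
`(d-1) × (d-1)` determinant of entries in `A u` lies in `A ((d-1) u)` (`Matrix.det_apply`). `det_mem_A` is that last fact (also for `d`).
-/

set_option autoImplicit false

namespace R169

open R169.Lat

section piece

variable {k L : Type} [Field k] [Field L] [Algebra k L]
variable {W : Type} [AddCommGroup W] [Module k W] [Module L W] [IsScalarTower k L W]
variable {D : GD k L} {η ζ : L} {E E' : ℤ → Submodule k W}

theorem Lat.prod_card_mem_A {ι : Type} (s : Finset ι) (g : ι → L) {u : ℤ} (hg : ∀ i ∈ s, g i ∈ A k η ζ u) :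
    ∏ i ∈ s, g i ∈ A k η ζ (s.card * u) := by
  classical
  induction s using Finset.induction_on with
  | empty => simpa using one_mem_A (k := k) (η := η) (ζ := ζ) le_rfl
  | insert a s ha ih =>
    rw [Finset.prod_insert ha, Finset.card_insert_of_notMem ha]
    have h1 := A_mul_mem (hg a (Finset.mem_insert_self _ _))
      (ih fun i hi => hg i (Finset.mem_insert_of_mem hi))
    have e : u + (s.card : ℤ) * u = ((s.card + 1 : ℕ) : ℤ) * u := by push_cast; ring
    rwa [e] at h1

theorem Lat.sign_mem {n : ℤ} {a : L} (ha : a ∈ A k η ζ n) (u : ℤˣ) : u • a ∈ A k η ζ n := by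
  rcases Int.units_eq_one_or u with rfl | rfl
  · rwa [one_smul]
  · rw [Units.neg_smul, one_smul]; exact Submodule.neg_mem _ ha

theorem Lat.det_mem_A {d : ℕ} {u : ℤ} (T : Matrix (Fin d) (Fin d) L) (hT : ∀ i j, T i j ∈ A k η ζ u) :
    T.det ∈ A k η ζ (d * u) := by
  rw [Matrix.det_apply]
  refine Submodule.sum_mem _ fun σ _ => Lat.sign_mem ?_ _
  have := Lat.prod_card_mem_A (k := k) (η := η) (ζ := ζ) Finset.univ (fun i => T (σ i) i) (fun i _ => hT _ _)
  simpa using this

theorem Lat.adj_mem_A {d : ℕ} {u : ℤ} (T : Matrix (Fin d) (Fin d) L) (hT : ∀ i j, T i j ∈ A k η ζ u)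
    (i j : Fin d) : T.adjugate i j ∈ A k η ζ ((d - 1) * u) := by
  cases d with
  | zero => exact i.elim0
  | succ d =>
    rw [Matrix.adjugate_fin_succ_eq_det_submatrix]
    have h1 : (T.submatrix j.succAbove i.succAbove).det ∈ A k η ζ (d * u) :=
      Lat.det_mem_A _ fun a b => hT _ _
    have e : ((d + 1 : ℕ) : ℤ) - 1 = d := by push_cast; ring
    rw [e]
    rcases neg_one_pow_eq_or L ((j : ℕ) + (i : ℕ)) with h2 | h2
    · rw [h2, one_mul]; exact h1
    · rw [h2, neg_one_mul]; exact Submodule.neg_mem _ h1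

theorem Lat.cramer_mem_A {d : ℕ} {u v : ℤ} (T : Matrix (Fin d) (Fin d) L) (hT : ∀ i j, T i j ∈ A k η ζ u)
    (x : Fin d → L) (hx : ∀ i, ∑ j, T i j * x j ∈ A k η ζ v) (j : Fin d) :
    T.det * x j ∈ A k η ζ ((d - 1) * u + v) := by
  have h1 : (T.adjugate * T).mulVec x j = T.det * x j := by
    rw [Matrix.adjugate_mul, Matrix.smul_mulVec, Matrix.one_mulVec, Pi.smul_apply, smul_eq_mul]
  rw [← h1, ← Matrix.mulVec_mulVec]
  show ∑ i, T.adjugate j i * (T.mulVec x) i ∈ _
  refine Submodule.sum_mem _ fun i _ => A_mul_mem (Lat.adj_mem_A T hT j i) ?_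
  exact hx i

end piece

end R169
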