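import Crest.Agent.R169.Lat8a
import Crest.Agent.R169.Lat8d

/-!
# Row 169, module 0 (LAT): L8e, the linearisation constant

Notation: `ρ, δ` from `RhoCert`; `bs` = the `FF`-basis `ρ` of `L` (`rho_span`); `d ≥ 1` because `L ≠ 0`. Let `i0 : Fin d` (the zero) and
`τ : L →ₗ[FF] FF`, `τ l = δ * bs.repr l i0` (`δ ∈ FF` by `A_le_FF`). `T i j = τ (ρ_i ρ_j)`: `ρ_i ρ_j ∈ B (2e)`, so `δ ρ_i ρ_j = ∑ g_l ρ_l`,
`g_l ∈ A (2e+t)` and `T i j = g_{i0} ∈ A (2e+t)`. `T` is nondegenerate: if `∑_j T i j x_j = 0` for all `i` (`x_j ∈ FF`) then `τ (ρ_i y) = 0` for all `i`,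
`y = ∑ x_j ρ_j`, so `τ (L y) = 0`; if `y ≠ 0` then `L y = L`, `τ = 0`, but `τ (ρ_{i0}) = δ ≠ 0`. So `det T ≠ 0`.
Given `r, V, G, j, φ` as in `LinShift`. `V = lspan G` is also the `FF`-span of `⋃ G n` (the `FF`-span `V'` of `⋃ G n` is stable under every `B n`
hence, `L = span_FF ⋃ B n` (`rho_span`), under `L`). So `φ w ∈ FF` for `w ∈ V`.
Define for `w ∈ V` the vector `x (w) ∈ FF^d` by `T x = (φ (ρ_i w))_i` (`T` invertible over `FF`) and `ψ0 w = ∑ x_j ρ_j`: it is characterised by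
`τ (l ψ0 w) = φ (l w)` for all `l : L` (enough for `l = ρ_i` since both sides are `FF`-linear in `l`), so `ψ0 : V → L` is `L`-linear
(uniqueness: `τ (l y) = 0` for all `l` ⇒ `y = 0`). `ψ0 w ≠ 0` if `φ w ≠ 0` (`l = 1`).
Let `ψ1 = det T • ψ0 : V →ₗ[L] L`, extended to `L^r` (`LinearMap.exists_extend`). For `w ∈ G n`: `ρ_i • w ∈ G (e + n)` (`IsLat.smul_mem`), so
`φ (ρ_i w) ∈ A (e + n + j)`, so by `Lat.cramer_mem_A` `det T * x_l ∈ A ((d-1)(2e+t) + e + n + j)`, and
`ψ1 w = ∑ (det T * x_l) ρ_l ∈ B ((d-1)(2e+t) + e + n + j + e)` (`A_le_B hP`, `D.mul_mem`). Exactly the shift `s = (d-1)(2e+t) + 2e`.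
-/

set_option autoImplicit false

namespace R169

open R169.Lat

section piece

variable {k L : Type} [Field k] [Field L] [Algebra k L]
variable {W : Type} [AddCommGroup W] [Module k W] [Module L W] [IsScalarTower k L W]
variable {D : GD k L} {η ζ : L} {E E' : ℤ → Submodule k W}

/-- the symmetric form: `T i j = τ(ρ_i ρ_j)` -/
theorem exists_tau (hP : Par D η ζ) {d : ℕ} {e t : ℤ} {ρ : Fin d → L} (h1 : ∀ i, ρ i ∈ D.B e)
    (hli : LinearIndependent (FF k η ζ) ρ) {δ : L} (hδ : δ ∈ A k η ζ t) (hδ0 : δ ≠ 0)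
    (h2 : ∀ n b, b ∈ D.B n → ∃ g : Fin d → L, (∀ i, g i ∈ A k η ζ (n + t)) ∧ δ * b = ∑ i, g i * ρ i) :
    ∃ τ : L →ₗ[FF k η ζ] FF k η ζ, τ ≠ 0 ∧ (∀ i j, (τ (ρ i * ρ j) : L) ∈ A k η ζ (2 * e + t)) ∧
      (Matrix.of (fun i j => (τ (ρ i * ρ j) : L))).det ≠ 0 := by
  classical
  have hspan := rho_span h1 hδ hδ0 h2
  let bs : Module.Basis (Fin d) (FF k η ζ) L := Module.Basis.mk hli (by rw [hspan])
  have hbs : ∀ i, bs i = ρ i := fun i => by simp [bs]
  have hd : 0 < d := by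
    rcases Nat.eq_zero_or_pos d with h0 | h0
    · exfalso
      subst h0
      have h3 : (1 : L) ∈ Submodule.span (FF k η ζ) (Set.range ρ) := by rw [hspan]; trivial
      rw [Set.range_eq_empty, Submodule.span_empty, Submodule.mem_bot] at h3
      exact one_ne_zero h3
    · exact h0
  let i0 : Fin d := ⟨0, hd⟩
  let δF : FF k η ζ := ⟨δ, A_le_FF hδ⟩
  have hδF : δF ≠ 0 := fun h => hδ0 (congrArg Subtype.val h)
  let τ : L →ₗ[FF k η ζ] FF k η ζ := δF • bs.coord i0
  have hτ0 : τ (ρ i0) = δF := by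
    show δF • bs.coord i0 (ρ i0) = δF
    rw [← hbs, Module.Basis.coord_apply, Module.Basis.repr_self, Finsupp.single_eq_same,
      smul_eq_mul, mul_one]
  have hτne : τ ≠ 0 := fun h => hδF (by rw [← hτ0, h]; rfl)
  refine ⟨τ, hτne, ?_, ?_⟩
  · intro i j
    obtain ⟨g, hg, hge⟩ := h2 (e + e) (ρ i * ρ j) (D.mul_mem (h1 i) (h1 j))
    let gF : Fin d → FF k η ζ := fun l => ⟨g l, A_le_FF (hg l)⟩
    have h3 : δF • (ρ i * ρ j) = ∑ l, gF l • bs l := by
      show δ * (ρ i * ρ j) = ∑ l, g l * bs l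
      rw [hge]
      exact Finset.sum_congr rfl fun l _ => by rw [hbs]
    have h4 : τ (ρ i * ρ j) = gF i0 := by
      show δF • bs.coord i0 (ρ i * ρ j) = _
      rw [← map_smul, h3, Module.Basis.coord_apply, Module.Basis.repr_sum_self]
    rw [h4]
    have h5 : e + e + t = 2 * e + t := by ring
    rw [← h5]
    exact hg i0
  · -- nondegeneracy
    let TF : Matrix (Fin d) (Fin d) (FF k η ζ) := Matrix.of fun i j => τ (ρ i * ρ j)
    have hmap : (Matrix.of (fun i j => (τ (ρ i * ρ j) : L))) =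
        (algebraMap (FF k η ζ) L).mapMatrix TF := by
      ext i j; rfl
    rw [hmap, ← RingHom.map_det]
    intro h0
    have h3 : TF.det = 0 := by
      have := (algebraMap (FF k η ζ) L).injective
      exact this (by rw [h0, map_zero])
    obtain ⟨v, hv, hv0⟩ := Matrix.exists_mulVec_eq_zero_iff.2 h3
    set y : L := ∑ j, v j • ρ j with hy
    have hy0 : y ≠ 0 := by
      intro h
      apply hv
      funext j
      exact (Fintype.linearIndependent_iff.1 hli) v h j
    have h4 : ∀ i, τ (ρ i * y) = 0 := by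
      intro i
      have h5 := congrFun hv0 i
      rw [Matrix.mulVec, dotProduct] at h5
      rw [hy, Finset.mul_sum, map_sum]
      rw [← h5.trans (Pi.zero_apply i)]
      refine Finset.sum_congr rfl fun j _ => ?_
      rw [mul_smul_comm, map_smul, smul_eq_mul, mul_comm]
      rfl
    have h5 : τ.comp (LinearMap.mulRight (FF k η ζ) y) = 0 := by
      refine bs.ext fun i => ?_
      rw [LinearMap.comp_apply, LinearMap.mulRight_apply, hbs, h4, LinearMap.zero_apply]
    have h6 := congrArg (fun f : L →ₗ[FF k η ζ] FF k η ζ => f (ρ i0 * y⁻¹)) h5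
    simp only [LinearMap.comp_apply, LinearMap.mulRight_apply, LinearMap.zero_apply] at h6
    rw [inv_mul_cancel_right₀ hy0, hτ0] at h6
    exact hδF h6
/-- `φ ↦ ψ` -/
theorem exists_trace_dual {V : Submodule L W} (τ : L →ₗ[FF k η ζ] FF k η ζ) (hτ : τ ≠ 0) [FiniteDimensional (FF k η ζ) L]
    (φ : V →ₗ[FF k η ζ] FF k η ζ) : ∃ ψ : V →ₗ[L] L, ∀ w, τ (ψ w) = φ w := by
  classical
  let Tm : L →ₗ[FF k η ζ] (L →ₗ[FF k η ζ] FF k η ζ) := (LinearMap.mul (FF k η ζ) L).compr₂ τ
  have hTm : ∀ y l, Tm y l = τ (y * l) := fun y l => rfl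
  have hinj : Function.Injective Tm := by
    rw [injective_iff_map_eq_zero]
    intro y hy
    by_contra hy0
    apply hτ
    refine LinearMap.ext fun z => ?_
    have h1 : Tm y (y⁻¹ * z) = 0 := by rw [hy]; rfl
    rw [hTm, mul_inv_cancel_left₀ hy0] at h1
    rw [h1]; rfl
  have hsurj : Function.Surjective Tm := by
    have hfr : Module.finrank (FF k η ζ) L = Module.finrank (FF k η ζ) (L →ₗ[FF k η ζ] FF k η ζ) :=
      (Subspace.dual_finrank_eq (K := FF k η ζ) (V := L)).symm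
    exact (LinearMap.injective_iff_surjective_of_finrank_eq_finrank hfr).1 hinj
  have hex : ∀ w : V, ∃ y : L, ∀ l : L, τ (y * l) = φ (l • w) := by
    intro w
    obtain ⟨y, hy⟩ := hsurj (φ.comp ((LinearMap.toSpanSingleton L V w).restrictScalars (FF k η ζ)))
    refine ⟨y, fun l => ?_⟩
    rw [← hTm, hy]
    rfl
  choose f hf using hex
  have huniq : ∀ y y' : L, (∀ l, τ (y * l) = τ (y' * l)) → y = y' := fun y y' h =>
    hinj (LinearMap.ext fun l => by rw [hTm, hTm, h])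
  refine ⟨{ toFun := f, map_add' := ?_, map_smul' := ?_ }, ?_⟩
  · intro w w'
    refine huniq _ _ fun l => ?_
    rw [hf, add_mul, map_add, hf, hf, smul_add, map_add]
  · intro a w
    refine huniq _ _ fun l => ?_
    rw [hf, RingHom.id_apply, smul_eq_mul]
    have e1 : a * f w * l = f w * (l * a) := by ring
    rw [e1, hf, mul_smul]
  · intro w
    have h1 := hf w 1
    rw [mul_one, one_smul] at h1
    exact h1
theorem RhoCert.linShift (hP : Par D η ζ) {d : ℕ} {e t : ℤ} (h : RhoCert D η ζ d e t) :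
    LinShift D η ζ ((d - 1) * (2 * e + t) + 2 * e) := by
  classical
  obtain ⟨ρ, h1, hli, δ, hδ, hδ0, h2⟩ := h
  intro r V G hG hV j φ hφ hne
  have hspan := rho_span h1 hδ hδ0 h2
  haveI : FiniteDimensional (FF k η ζ) L := finDim_FF hP
  obtain ⟨τ, hτ, hT, hdet⟩ := exists_tau hP h1 hli hδ hδ0 h2
  have hexp : ∀ l : L, ∃ c : Fin d → FF k η ζ, ∑ i, c i • ρ i = l := fun l =>
    (Submodule.mem_span_range_iff_exists_fun (FF k η ζ)).1 (by rw [hspan]; trivial)
  -- `φ` is `F`-valued on `V`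
  have hFF : ∀ w ∈ V, ∀ l : L, φ (l • w) ∈ FF k η ζ := by
    intro w hw
    rw [← hV] at hw
    unfold lspan at hw
    induction hw using Submodule.span_induction with
    | mem x hx =>
      intro l
      obtain ⟨n, hn⟩ := Set.mem_iUnion.1 hx
      obtain ⟨c, rfl⟩ := hexp l
      rw [Finset.sum_smul, map_sum]
      refine sum_mem fun i _ => ?_
      rw [smul_assoc, map_smul]
      have h3 : φ (ρ i • x) ∈ FF k η ζ := A_le_FF (hφ _ _ (hG.smul_mem (h1 i) hn))
      exact (FF k η ζ).mul_mem (c i).2 h3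
    | zero => intro l; rw [smul_zero, map_zero]; exact zero_mem _
    | add x y _ _ hx hy => intro l; rw [smul_add, map_add]; exact add_mem (hx l) (hy l)
    | smul a x _ hx => intro l; rw [smul_smul]; exact hx _
  have hFF1 : ∀ w : V, φ (w : Fin r → L) ∈ FF k η ζ := fun w => by
    have := hFF w w.2 1
    rwa [one_smul] at this
  let φ' : V →ₗ[FF k η ζ] FF k η ζ :=
    { toFun := fun w => ⟨φ (w : Fin r → L), hFF1 w⟩
      map_add' := by
        intro a b
        apply Subtype.ext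
        show φ ((a : Fin r → L) + b) = φ a + φ b
        rw [map_add]
      map_smul' := by
        intro c a
        apply Subtype.ext
        show φ (c • (a : Fin r → L)) = (c : L) * φ a
        rw [map_smul]; rfl }
  obtain ⟨ψ0, hψ0⟩ := exists_trace_dual τ hτ φ'
  set T : Matrix (Fin d) (Fin d) L := Matrix.of (fun i j => (τ (ρ i * ρ j) : L)) with hTdef
  obtain ⟨ψ, hψ⟩ := LinearMap.exists_extend (T.det • ψ0)
  have hψv : ∀ w : V, ψ (w : Fin r → L) = T.det * ψ0 w := fun w => by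
    have := congrArg (fun f : V →ₗ[L] L => f w) hψ
    exact this
  refine ⟨ψ, ?_, ?_⟩
  · obtain ⟨w, hw, hw0⟩ := hne
    refine ⟨w, hw, ?_⟩
    have h3 := hψv ⟨w, hw⟩
    simp only at h3
    rw [h3]
    refine mul_ne_zero hdet fun h4 => hw0 ?_
    have h5 := hψ0 ⟨w, hw⟩
    rw [h4, map_zero] at h5
    exact (congrArg Subtype.val h5).symm
  · intro n w hw
    have hwV : w ∈ V := by
      rw [← hV]
      exact Submodule.subset_span (Set.mem_iUnion.2 ⟨n, hw⟩)
    have h3 := hψv ⟨w, hwV⟩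
    simp only at h3
    rw [h3]
    obtain ⟨c, hc⟩ := hexp (ψ0 ⟨w, hwV⟩)
    -- the linear system
    have hsys : ∀ i, ∑ l, T i l * (c l : L) ∈ A k η ζ (e + n + j) := by
      intro i
      have h4 : τ (ρ i * ψ0 ⟨w, hwV⟩) = φ' (ρ i • ⟨w, hwV⟩) := by
        rw [← hψ0, map_smul, smul_eq_mul]
      have h5 : ((τ (ρ i * ψ0 ⟨w, hwV⟩) : FF k η ζ) : L) = ∑ l, T i l * (c l : L) := by
        rw [← hc, Finset.mul_sum, map_sum]
        rw [AddSubmonoidClass.coe_finset_sum]
        refine Finset.sum_congr rfl fun l _ => ?_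
        rw [mul_smul_comm, map_smul, smul_eq_mul, mul_comm]
        rfl
      rw [← h5, h4]
      exact hφ _ _ (hG.smul_mem (h1 i) hw)
    have hcr := fun l => Lat.cramer_mem_A T hT (fun l => (c l : L)) hsys l
    have h6 : T.det * ψ0 ⟨w, hwV⟩ = ∑ l, (T.det * (c l : L)) * ρ l := by
      rw [← hc, Finset.mul_sum]
      refine Finset.sum_congr rfl fun l _ => ?_
      rw [mul_assoc]; rfl
    rw [h6]
    refine Submodule.sum_mem _ fun l _ => ?_
    have h7 := D.mul_mem (A_le_B hP _ (hcr l)) (h1 l)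
    have h8 : ((d : ℤ) - 1) * (2 * e + t) + (e + n + j) + e = n + j + ((d - 1) * (2 * e + t) + 2 * e) := by
      ring
    rw [← h8]
    exact h7

end piece

end R169
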