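import Crest.Agent.R169.Defs2

/-!
# Row 169, module 0 (LAT): definitions used in the statements of `LatAPI`.
-/

set_option autoImplicit false

namespace R169

section api

variable {k L : Type} [Field k] [Field L] [Algebra k L]
variable {W : Type} [AddCommGroup W] [Module k W] [Module L W] [IsScalarTower k L W]
variable {D : GD k L} {η ζ : L} {E E' : ℤ → Submodule k W}

/-- `F = k(η,ζ)` -/
abbrev FF (k : Type) {L : Type} [Field k] [Field L] [Algebra k L] (η ζ : L) : IntermediateField k L :=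
  IntermediateField.adjoin k ({η, ζ} : Set L)

/-- `E` embeds `F`-linearly into a free `P`-module with shift `c` -/
def EmbA (η ζ : L) (E : ℤ → Submodule k W) (c : ℤ) : Prop :=
  ∃ (M : ℕ) (f : W →ₗ[FF k η ζ] (Fin M → L)), Function.Injective f ∧
    ∀ n w, w ∈ E n → ∀ i, f w i ∈ A k η ζ (n + c)

/-- certificate giving uniform constants -/
def RhoCert (D : GD k L) (η ζ : L) (d : ℕ) (e t : ℤ) : Prop :=
  ∃ ρ : Fin d → L, (∀ i, ρ i ∈ D.B e) ∧ LinearIndependent (FF k η ζ) ρ ∧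
    ∃ δ : L, δ ∈ A k η ζ t ∧ δ ≠ 0 ∧ ∀ n b, b ∈ D.B n → ∃ g : Fin d → L,
      (∀ i, g i ∈ A k η ζ (n + t)) ∧ δ * b = ∑ i, g i * ρ i

/-- `V` has minimal slope among nonzero subspaces (in `E`), with invariants `N1 β1 γ1` -/
def MinSlope (L : Type) [Field L] [Algebra k L] [Module L W] [IsScalarTower k L W]
    (E : ℤ → Submodule k W) (V : Submodule L W) (N1 β1 γ1 : ℚ) : Prop :=
  V ≠ ⊥ ∧ HasHP (sat E V) N1 β1 γ1 ∧
    ∀ V' : Submodule L W, V' ≠ ⊥ → ∀ N' β' γ' : ℚ, HasHP (sat E V') N' β' γ' → β1 * N' ≤ β' * N1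

/-- the reflexive hull (its elements are exactly the `w` with `Refl`, see `mem_hull`) -/
def hull (η ζ : L) (E : ℤ → Submodule k W) (n : ℤ) : Submodule k W :=
  Submodule.span k {w | Refl (k := k) η ζ E n w}

/-- the `F`-span -/
def fspan (η ζ : L) (E : ℤ → Submodule k W) : Submodule (FF k η ζ) W :=
  Submodule.span (FF k η ζ) (⋃ n, (E n : Set W))

theorem mem_fspan {n : ℤ} {w : W} (hw : w ∈ E n) : w ∈ fspan η ζ E :=
  Submodule.subset_span (Set.mem_iUnion.2 ⟨n, hw⟩)

/-- `Hom_P(G,P)_j` -/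
def dualP (η ζ : L) (G : ℤ → Submodule k W) (j : ℤ) :
    Submodule k (fspan η ζ G →ₗ[FF k η ζ] L) where
  carrier := {φ | ∀ (n : ℤ) (w : W) (hw : w ∈ G n), φ ⟨w, mem_fspan hw⟩ ∈ A k η ζ (n + j)}
  add_mem' := by
    intro a b ha hb n w hw
    simpa using Submodule.add_mem _ (ha n w hw) (hb n w hw)
  zero_mem' := by
    intro n w hw
    simp
  smul_mem' := by
    intro c a ha n w hw
    simpa using Submodule.smul_mem _ c (ha n w hw)

end api

end R169
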