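import Crest.Agent.R169.Lat0

/-!
# Row 169, LAT, L7 (helper57), file 1: decompositions in `A n`.
-/

set_option autoImplicit false

namespace R169.Lat

section

variable {k L : Type} [Field k] [Field L] [Algebra k L] {η ζ : L}

/-- the monomials -/
def mon (η ζ : L) (p : ℕ × ℕ) : L := η ^ p.1 * ζ ^ p.2

theorem mem_A_iff_rep {n : ℤ} {f : L} : f ∈ A k η ζ n ↔
    ∃ c : (ℕ × ℕ) →₀ k, (∀ p ∈ c.support, (p.1 : ℤ) + p.2 ≤ n) ∧
      f = Finsupp.linearCombination k (mon η ζ) c := by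
  have e : A k η ζ n = Submodule.span k (mon η ζ '' {p | (p.1 : ℤ) + p.2 ≤ n}) := by
    unfold A
    congr 1
    ext l
    simp only [Set.mem_ofPred_eq, Set.mem_image, Prod.exists, mon]
    constructor
    · rintro ⟨a, b, h, rfl⟩; exact ⟨a, b, h, rfl⟩
    · rintro ⟨a, b, h, rfl⟩; exact ⟨a, b, h, rfl⟩
  rw [e, Finsupp.mem_span_image_iff_linearCombination]
  constructor
  · rintro ⟨c, hc, rfl⟩
    exact ⟨c, fun p hp => hc hp, rfl⟩
  · rintro ⟨c, hc, rfl⟩
    exact ⟨c, fun p hp => hc p hp, rfl⟩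

/-- shift of exponents by `η` -/
def sE (p : ℕ × ℕ) : ℕ × ℕ := (p.1 + 1, p.2)

theorem sE_inj : Function.Injective sE := by
  rintro ⟨a, b⟩ ⟨c, d⟩ h
  simp only [sE, Prod.mk.injEq, Nat.add_right_cancel_iff] at h
  exact Prod.ext h.1 h.2

theorem eta_mul_lc (c : (ℕ × ℕ) →₀ k) : η * Finsupp.linearCombination k (mon η ζ) c =
    Finsupp.linearCombination k (mon η ζ) (c.mapDomain sE) := by
  rw [Finsupp.linearCombination_mapDomain, Finsupp.linearCombination_apply,
    Finsupp.linearCombination_apply, Finsupp.mul_sum]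
  refine Finsupp.sum_congr fun p _ => ?_
  rw [mul_smul_comm]
  simp only [Function.comp, mon, sE]
  congr 1
  ring

theorem A_dep2 (ind : AlgebraicIndependent k ![η, ζ]) {m : ℤ} {f : L} (_hf : f ∈ A k η ζ m)
    (h : η * f ∈ A k η ζ m) : f ∈ A k η ζ (m - 1) := by
  obtain ⟨c, hc, rfl⟩ := mem_A_iff_rep.1 _hf
  obtain ⟨d, hd, he⟩ := mem_A_iff_rep.1 h
  rw [eta_mul_lc] at he
  have h1 : c.mapDomain sE = d := (linIndep_monom ind) he
  refine mem_A_iff_rep.2 ⟨c, fun p hp => ?_, rfl⟩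
  have h2 : sE p ∈ d.support := by
    rw [← h1, Finsupp.mem_support_iff, Finsupp.mapDomain_apply sE_inj]
    exact Finsupp.mem_support_iff.1 hp
  have := hd _ h2
  simp only [sE] at this
  push_cast at this
  omega

/-- no `ζ^(m+1)` in `A_m + η A_m` -/
theorem no_top (ind : AlgebraicIndependent k ![η, ζ]) {m : ℕ} {c : k} {p q : L}
    (hp : p ∈ A k η ζ m) (hq : q ∈ A k η ζ m) (h : c • ζ ^ (m + 1) = p + η * q) : c = 0 := by
  obtain ⟨cp, hcp, rfl⟩ := mem_A_iff_rep.1 hp
  obtain ⟨cq, hcq, rfl⟩ := mem_A_iff_rep.1 hq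
  rw [eta_mul_lc, ← map_add] at h
  have h0 : c • ζ ^ (m + 1) = Finsupp.linearCombination k (mon η ζ) (Finsupp.single (0, m + 1) c) := by
    rw [Finsupp.linearCombination_single]
    simp [mon]
  rw [h0] at h
  have h1 : Finsupp.single (0, m + 1) c = cp + cq.mapDomain sE := (linIndep_monom ind) h
  have h2 := DFunLike.congr_fun h1 (0, m + 1)
  rw [Finsupp.single_eq_same, Finsupp.add_apply, Finsupp.mapDomain_of_notMem_range] at h2
  · rw [h2, add_zero]
    by_contra h3
    have := hcp _ (Finsupp.mem_support_iff.2 h3)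
    push_cast at this
    omega
  · rintro ⟨p, hp⟩
    simp [sE] at hp

theorem A_decomp {m : ℤ} {f : L} (hf : f ∈ A k η ζ m) : ∃ a ∈ A k η ζ (m - 1), ∃ b ∈ A k η ζ (m - 1),
    ∃ c : k, f = a + η * b + c • ζ ^ m.toNat ∧ (m < 0 → c = 0) := by
  rcases lt_or_ge m 0 with hm | hm
  · rw [A_neg hm, Submodule.mem_bot] at hf
    subst hf
    exact ⟨0, Submodule.zero_mem _, 0, Submodule.zero_mem _, 0, by simp, fun _ => rfl⟩
  unfold A at hf
  induction hf using Submodule.span_induction with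
  | mem x hx =>
    obtain ⟨a, b, hab, rfl⟩ := hx
    rcases lt_or_ge ((a : ℤ) + b) m with h | h
    · exact ⟨_, monom_mem_A a b (by omega), 0, Submodule.zero_mem _, 0, by simp, fun _ => rfl⟩
    · rcases Nat.eq_zero_or_pos a with ha | ha
      · subst ha
        refine ⟨0, Submodule.zero_mem _, 0, Submodule.zero_mem _, 1, ?_, fun h' => absurd h' (by omega)⟩
        have : m.toNat = b := by push_cast at h hab; omega
        rw [this]; simp
      · obtain ⟨a, rfl⟩ : ∃ a', a = a' + 1 := ⟨a - 1, by omega⟩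
        refine ⟨0, Submodule.zero_mem _, _, monom_mem_A a b (by push_cast at hab; omega), 0, ?_,
          fun _ => rfl⟩
        rw [zero_smul]; ring
  | zero => exact ⟨0, Submodule.zero_mem _, 0, Submodule.zero_mem _, 0, by simp, fun _ => rfl⟩
  | add x y _ _ hx hy =>
    obtain ⟨a, ha, b, hb, c, e, _⟩ := hx
    obtain ⟨a', ha', b', hb', c', e', _⟩ := hy
    refine ⟨a + a', Submodule.add_mem _ ha ha', b + b', Submodule.add_mem _ hb hb', c + c', ?_,
      fun h' => absurd h' (by omega)⟩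
    rw [e, e', add_smul]; ring
  | smul r x _ hx =>
    obtain ⟨a, ha, b, hb, c, e, _⟩ := hx
    refine ⟨r • a, Submodule.smul_mem _ _ ha, r • b, Submodule.smul_mem _ _ hb, r * c, ?_,
      fun h' => absurd h' (by omega)⟩
    rw [e, smul_add, smul_add, mul_smul, mul_smul_comm]

theorem A_zreg (ind : AlgebraicIndependent k ![η, ζ]) {m : ℤ} {f p q : L} (hf : f ∈ A k η ζ m)
    (hp : p ∈ A k η ζ m) (hq : q ∈ A k η ζ m) (h : ζ * f = p + η * q) :
    ∃ u ∈ A k η ζ (m - 1), ∃ v ∈ A k η ζ (m - 1), f = u + η * v := by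
  obtain ⟨a, ha, b, hb, c, e, hc⟩ := A_decomp hf
  have hc0 : c = 0 := by
    rcases lt_or_ge m 0 with hm | hm
    · exact hc hm
    · lift m to ℕ using hm
      have hza : ζ * a ∈ A k η ζ (m : ℤ) := by
        have := A_mul_mem (zeta_mem_A (k := k) (η := η)) ha
        rwa [show (1 : ℤ) + ((m : ℤ) - 1) = m by ring] at this
      have hzb : ζ * b ∈ A k η ζ (m : ℤ) := by
        have := A_mul_mem (zeta_mem_A (k := k) (η := η)) hb
        rwa [show (1 : ℤ) + ((m : ℤ) - 1) = m by ring] at this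
      refine no_top ind (Submodule.sub_mem _ hp hza) (Submodule.sub_mem _ hq hzb) ?_
      have e2 : c • ζ ^ (m + 1) = ζ * f - ζ * a - η * (ζ * b) := by
        rw [e, Int.toNat_natCast, pow_succ', ← mul_smul_comm]; ring
      rw [e2, h]; ring
  subst hc0
  exact ⟨a, ha, b, hb, by rw [e]; simp⟩

end

end R169.Lat
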