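import Crest.Agent.R169.LatDual1

/-!
# Row 169, LAT, L7 (helper57), file 2: a `P`-lattice on which `x,y,z` is a regular sequence is free.
-/

set_option autoImplicit false

namespace R169.Lat

section

variable {k L : Type} [Field k] [Field L] [Algebra k L] {η ζ : L}
variable {V : Type} [AddCommGroup V] [Module k V] [Module L V] [IsScalarTower k L V]

/-- `(x,y,z) K` in degree `n` -/
def Jm (η ζ : L) (K : ℤ → Submodule k V) (n : ℤ) : Submodule k V :=
  K (n - 1) ⊔ sm η (K (n - 1)) ⊔ sm ζ (K (n - 1))

theorem mem_Jm {K : ℤ → Submodule k V} {n : ℤ} {w : V} : w ∈ Jm η ζ K n ↔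
    ∃ u ∈ K (n - 1), ∃ v ∈ K (n - 1), ∃ t ∈ K (n - 1), w = u + η • v + ζ • t := by
  unfold Jm
  simp only [Submodule.mem_sup, mem_sm]
  constructor
  · rintro ⟨_, ⟨u, hu, _, ⟨v, hv, rfl⟩, rfl⟩, _, ⟨t, ht, rfl⟩, rfl⟩
    exact ⟨u, hu, v, hv, t, ht, rfl⟩
  · rintro ⟨u, hu, v, hv, t, ht, rfl⟩
    exact ⟨_, ⟨u, hu, _, ⟨v, hv, rfl⟩, rfl⟩, _, ⟨t, ht, rfl⟩, rfl⟩

/-- linear algebra: a family in `K` which is a basis modulo `J`. -/
theorem exists_basis_mod (K J : Submodule k V) [FiniteDimensional k K] :
    ∃ (d : ℕ) (u : Fin d → V), (∀ i, u i ∈ K) ∧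
      (∀ w ∈ K, ∃ c : Fin d → k, w - ∑ i, c i • u i ∈ J) ∧
      (∀ c : Fin d → k, ∑ i, c i • u i ∈ J → c = 0) := by
  let J' : Submodule k K := J.comap K.subtype
  let b := Module.finBasis k (K ⧸ J')
  have hs : ∀ i, ∃ x : K, J'.mkQ x = b i := fun i => J'.mkQ_surjective (b i)
  choose x hx using hs
  refine ⟨_, fun i => (x i : V), fun i => (x i).2, fun w hw => ?_, fun c hc => ?_⟩
  · refine ⟨fun i => b.repr (J'.mkQ ⟨w, hw⟩) i, ?_⟩
    have h1 : J'.mkQ (⟨w, hw⟩ - ∑ i, (b.repr (J'.mkQ ⟨w, hw⟩) i) • x i) = 0 := by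
      rw [map_sub, map_sum]
      simp only [map_smul, hx]
      rw [b.sum_repr, sub_self]
    rw [Submodule.mkQ_apply, Submodule.Quotient.mk_eq_zero] at h1
    simpa [J'] using h1
  · have h1 : ∑ i, c i • x i ∈ J' := by
      simpa [J'] using hc
    rw [← Submodule.Quotient.mk_eq_zero, ← Submodule.mkQ_apply, map_sum] at h1
    simp only [map_smul, hx] at h1
    have := b.linearIndependent
    rw [Fintype.linearIndependent_iff] at this
    funext i
    exact this c h1 i

/-- minimal generators -/
structure MinGens (η ζ : L) (K : ℤ → Submodule k V) {ι : Type} [Fintype ι] (b : ι → ℤ)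
    (κ : ι → V) : Prop where
  mem : ∀ i, κ i ∈ K (b i)
  gen : ∀ n, ∀ w ∈ K n, ∃ c : ι → k, (∀ i, b i ≠ n → c i = 0) ∧ w - ∑ i, c i • κ i ∈ Jm η ζ K n
  ind : ∀ n, ∀ c : ι → k, (∀ i, b i ≠ n → c i = 0) → ∑ i, c i • κ i ∈ Jm η ζ K n → c = 0

theorem exists_minGens {K : ℤ → Submodule k V} (hK : IsPLat η ζ K) :
    ∃ (ι : Type) (_ : Fintype ι) (b : ι → ℤ) (κ : ι → V), MinGens η ζ K b κ := by
  classical
  obtain ⟨n0, hn0⟩ := hK.bdd
  obtain ⟨n1, hn1⟩ := hK.gen
  have hb : ∀ n : ℤ, ∃ (d : ℕ) (u : Fin d → V), (∀ i, u i ∈ K n) ∧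
      (∀ w ∈ K n, ∃ c : Fin d → k, w - ∑ i, c i • u i ∈ Jm η ζ K n) ∧
      (∀ c : Fin d → k, ∑ i, c i • u i ∈ Jm η ζ K n → c = 0) := fun n =>
    haveI := hK.fin n
    exists_basis_mod (K n) (Jm η ζ K n)
  choose d u hu hspan hind using hb
  let ι : Type := Σ i : Fin (n1 - n0 + 1).toNat, Fin (d (n0 + (i : ℕ)))
  -- the sum over `ι` of coefficients supported in degree `n`
  have hsum : ∀ (j : Fin (n1 - n0 + 1).toNat) (c : ι → k),
      (∀ i : ι, n0 + ((i.1 : ℕ) : ℤ) ≠ n0 + ((j : ℕ) : ℤ) → c i = 0) →
      ∑ i : ι, c i • u (n0 + (i.1 : ℕ)) i.2 = ∑ l, c ⟨j, l⟩ • u (n0 + (j : ℕ)) l := by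
    intro j c hc
    rw [Fintype.sum_sigma]
    rw [Finset.sum_eq_single j]
    · intro i _ hij
      refine Finset.sum_eq_zero fun l _ => ?_
      rw [hc ⟨i, l⟩ (by
        intro h
        apply hij
        apply Fin.ext
        simp only at h
        omega), zero_smul]
    · intro h; exact absurd (Finset.mem_univ _) h
  refine ⟨ι, inferInstance, fun i => n0 + (i.1 : ℕ), fun i => u (n0 + (i.1 : ℕ)) i.2,
    fun i => hu _ _, ?_, ?_⟩
  · intro n w hw
    rcases lt_or_ge n n0 with h | h
    · rw [hn0 n h, Submodule.mem_bot] at hw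
      subst hw
      exact ⟨0, fun _ _ => rfl, by simp⟩
    · rcases lt_or_ge n1 n with h' | h'
      · refine ⟨0, fun _ _ => rfl, ?_⟩
        have h1 := hn1 (n - 1) (by omega)
        rw [sub_add_cancel] at h1
        have := h1 hw
        simpa [Jm] using this
      · obtain ⟨t, rfl⟩ := Int.le.dest h
        have ht : t < (n1 - n0 + 1).toNat := by omega
        obtain ⟨c, hc⟩ := hspan (n0 + t) w hw
        let c' : ι → k := fun i => if h : i.1 = ⟨t, ht⟩ then
          c (Fin.cast (by rw [h]) i.2) else 0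
        have hc' : ∀ i : ι, n0 + ((i.1 : ℕ) : ℤ) ≠ n0 + ((t : ℕ) : ℤ) → c' i = 0 := by
          intro i hi
          simp only [c']
          rw [dif_neg]
          intro h
          apply hi
          rw [h]
        refine ⟨c', hc', ?_⟩
        have := hsum ⟨t, ht⟩ c' hc'
        rw [this]
        simpa [c'] using hc
  · intro n c hc hmem
    rcases lt_or_ge n n0 with h | h
    · funext i
      exact hc i (by simp only [ne_eq]; omega)
    · rcases lt_or_ge n1 n with h' | h'
      · funext i
        have := i.1.2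
        exact hc i (by simp only [ne_eq]; omega)
      · obtain ⟨t, rfl⟩ := Int.le.dest h
        have ht : t < (n1 - n0 + 1).toNat := by omega
        rw [hsum ⟨t, ht⟩ c hc] at hmem
        have h1 := hind _ _ hmem
        funext i
        by_cases hi : i.1 = ⟨t, ht⟩
        · obtain ⟨j, l⟩ := i
          simp only at hi
          subst hi
          exact congrFun h1 l
        · refine hc i ?_
          intro h
          apply hi
          apply Fin.ext
          simp only at h ⊢
          omega

/-- minimal generators generate -/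
theorem MinGens.span {K : ℤ → Submodule k V} (hK : IsPLat η ζ K) {ι : Type} [Fintype ι] {b : ι → ℤ}
    {κ : ι → V} (h : MinGens η ζ K b κ) (n : ℤ) : ∀ w ∈ K n, ∃ p : ι → L,
      (∀ i, p i ∈ A k η ζ (n - b i)) ∧ w = ∑ i, p i • κ i := by
  obtain ⟨n0, hn0⟩ := hK.bdd
  have key : ∀ t : ℕ, ∀ w ∈ K (n0 - 1 + t), ∃ p : ι → L,
      (∀ i, p i ∈ A k η ζ (n0 - 1 + t - b i)) ∧ w = ∑ i, p i • κ i := by
    intro t
    induction t with
    | zero =>
      intro w hw
      rw [hn0 _ (by simp), Submodule.mem_bot] at hw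
      subst hw
      exact ⟨0, fun _ => Submodule.zero_mem _, by simp⟩
    | succ t ih =>
      intro w hw
      obtain ⟨c, hc, hJ⟩ := h.gen _ w hw
      obtain ⟨u, hu, v, hv, s, hs, e⟩ := mem_Jm.1 hJ
      have e0 : n0 - 1 + ((t + 1 : ℕ) : ℤ) - 1 = n0 - 1 + t := by push_cast; ring
      rw [e0] at hu hv hs
      obtain ⟨pu, hpu, eu⟩ := ih u hu
      obtain ⟨pv, hpv, ev⟩ := ih v hv
      obtain ⟨ps, hps, es⟩ := ih s hs
      refine ⟨fun i => algebraMap k L (c i) + pu i + η * pv i + ζ * ps i, fun i => ?_, ?_⟩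
      · refine Submodule.add_mem _ (Submodule.add_mem _ (Submodule.add_mem _ ?_ ?_) ?_) ?_
        · by_cases hb : b i = n0 - 1 + ((t + 1 : ℕ) : ℤ)
          · rw [Algebra.algebraMap_eq_smul_one]
            exact Submodule.smul_mem _ _ (one_mem_A (by omega))
          · rw [hc i hb, map_zero]
            exact Submodule.zero_mem _
        · exact A_mono (by push_cast; omega) (hpu i)
        · have := A_mul_mem (eta_mem_A (k := k) (η := η) (ζ := ζ)) (hpv i)
          refine A_mono ?_ this
          push_cast; omega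
        · have := A_mul_mem (zeta_mem_A (k := k) (η := η) (ζ := ζ)) (hps i)
          refine A_mono ?_ this
          push_cast; omega
      · rw [sub_eq_iff_eq_add] at e
        rw [e, eu, ev, es, Finset.smul_sum, Finset.smul_sum]
        simp only [add_smul, Finset.sum_add_distrib, mul_smul, algebraMap_smul]
        abel
  rcases lt_or_ge n (n0 - 1) with h' | h'
  · intro w hw
    rw [hn0 _ (by omega), Submodule.mem_bot] at hw
    subst hw
    exact ⟨0, fun _ => Submodule.zero_mem _, by simp⟩
  · obtain ⟨t, rfl⟩ := Int.le.dest h'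
    exact key t

/-- `z` is regular modulo `(x,y)` -/
def ZReg (η ζ : L) (K : ℤ → Submodule k V) : Prop :=
  ∀ n, ∀ v ∈ K n, (∃ p ∈ K n, ∃ q ∈ K n, ζ • v = p + η • q) →
    ∃ p ∈ K (n - 1), ∃ q ∈ K (n - 1), v = p + η • q

theorem MinGens.le {K : ℤ → Submodule k V} {n0 : ℤ}
    (hn0 : ∀ n, n < n0 → K n = ⊥) {ι : Type} [Fintype ι] {b : ι → ℤ}
    {κ : ι → V} (h : MinGens η ζ K b κ) (i : ι) : n0 ≤ b i := by
  classical
  by_contra hlt
  have h1 := h.mem i
  rw [hn0 _ (not_le.1 hlt), Submodule.mem_bot] at h1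
  have h2 := h.ind (b i) (Pi.single i 1) (by
    intro j hj
    have : j ≠ i := by rintro rfl; exact hj rfl
    simp [this]) (by
      rw [Finset.sum_eq_single i]
      · rw [h1, smul_zero]; exact Submodule.zero_mem _
      · intro j _ hj
        simp [hj]
      · intro h; exact absurd (Finset.mem_univ _) h)
  have := congrFun h2 i
  simp at this

/-- claim (C): independence over `k[z]` modulo `(x,y)` -/
theorem MinGens.claim {K : ℤ → Submodule k V} (hK : IsPLat η ζ K) (hz : ZReg η ζ K) {ι : Type}
    [Fintype ι] {b : ι → ℤ} {κ : ι → V} (h : MinGens η ζ K b κ) (n : ℤ) :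
    ∀ c : ι → k, (∀ i, n < b i → c i = 0) →
      (∃ p ∈ K (n - 1), ∃ q ∈ K (n - 1), ∑ i, (c i • ζ ^ (n - b i).toNat) • κ i = p + η • q) →
      c = 0 := by
  classical
  obtain ⟨n0, hn0⟩ := hK.bdd
  have hb := h.le hn0
  have key : ∀ t : ℕ, ∀ c : ι → k, (∀ i, n0 - 1 + t < b i → c i = 0) →
      (∃ p ∈ K (n0 - 1 + t - 1), ∃ q ∈ K (n0 - 1 + t - 1),
        ∑ i, (c i • ζ ^ (n0 - 1 + t - b i).toNat) • κ i = p + η • q) → c = 0 := by
    intro t
    induction t with
    | zero =>
      intro c hc _
      funext i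
      exact hc i (by have := hb i; push_cast; omega)
    | succ t ih =>
      intro c hc hpq
      set N : ℤ := n0 - 1 + ((t + 1 : ℕ) : ℤ) with hN
      have hN1 : n0 - 1 + (t : ℤ) = N - 1 := by rw [hN]; push_cast; ring
      rw [hN1] at ih
      -- the lower part
      let c1 : ι → k := fun i => if b i = N then c i else 0
      let c2 : ι → k := fun i => if b i = N then 0 else c i
      let v : V := ∑ i, (c2 i • ζ ^ (N - 1 - b i).toNat) • κ i
      have hvK : v ∈ K (N - 1) := by
        refine Submodule.sum_mem _ fun i _ => ?_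
        by_cases hi : N - 1 < b i
        · have : c2 i = 0 := by
            simp only [c2]
            split_ifs with h'
            · rfl
            · exact hc i (by omega)
          rw [this, zero_smul, zero_smul]
          exact Submodule.zero_mem _
        · rw [smul_assoc]
          refine Submodule.smul_mem _ _ ?_
          have h1 : ζ ^ (N - 1 - b i).toNat ∈ A k η ζ (N - 1 - b i) := by
            have := monom_mem_A (k := k) (η := η) (ζ := ζ) 0 (N - 1 - b i).toNat (n := N - 1 - b i)
              (by push_cast; omega)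
            simpa using this
          have := hK.smul_mem h1 (h.mem i)
          rwa [sub_add_cancel] at this
      have hdec : ∑ i, (c i • ζ ^ (N - b i).toNat) • κ i = ∑ i, c1 i • κ i + ζ • v := by
        simp only [v, Finset.smul_sum]
        rw [← Finset.sum_add_distrib]
        refine Finset.sum_congr rfl fun i _ => ?_
        simp only [c1, c2]
        by_cases hi : b i = N
        · rw [if_pos hi, if_pos hi, hi]
          simp
        · rw [if_neg hi, if_neg hi]
          by_cases hi2 : N < b i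
          · rw [hc i hi2]; simp
          · have e1 : (N - b i).toNat = (N - 1 - b i).toNat + 1 := by omega
            rw [e1, zero_smul, zero_add, smul_smul, mul_smul_comm, pow_succ']
      obtain ⟨p, hp, q, hq, e⟩ := hpq
      rw [hdec] at e
      -- degree `N` part vanishes
      have h1 : c1 = 0 := by
        refine h.ind N c1 (fun i hi => by simp only [c1]; rw [if_neg hi]) ?_
        rw [mem_Jm]
        refine ⟨p, hp, q, hq, -v, Submodule.neg_mem _ hvK, ?_⟩
        rw [smul_neg, ← sub_eq_add_neg, eq_sub_iff_add_eq]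
        exact e
      have h2 : ζ • v = p + η • q := by
        rw [h1] at e
        simpa using e
      obtain ⟨p', hp', q', hq', e'⟩ := hz (N - 1) v hvK ⟨p, hp, q, hq, h2⟩
      have h3 := ih c2 (by
        intro i hi
        simp only [c2]
        split_ifs with h'
        · rfl
        · exact hc i (by omega)) ⟨p', hp', q', hq', e'⟩
      funext i
      have e1 := congrFun h1 i
      have e2 := congrFun h3 i
      simp only [c1, c2, Pi.zero_apply] at e1 e2 ⊢
      split_ifs at e1 e2 with h'
      · exact e1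
      · exact e2
  rcases lt_or_ge n (n0 - 1) with h' | h'
  · intro c hc _
    funext i
    exact hc i (by have := hb i; omega)
  · obtain ⟨t, rfl⟩ := Int.le.dest h'
    exact key t

/-- independence over `P` -/
theorem MinGens.indep {K : ℤ → Submodule k V} (hK : IsPLat η ζ K) (hd : Dep2 η K)
    (hz : ZReg η ζ K) {ι : Type} [Fintype ι] {b : ι → ℤ} {κ : ι → V} (h : MinGens η ζ K b κ) (n : ℤ) :
    ∀ p : ι → L, (∀ i, p i ∈ A k η ζ (n - b i)) → ∑ i, p i • κ i = 0 → p = 0 := by
  classical
  obtain ⟨n0, hn0⟩ := hK.bdd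
  have hb := h.le hn0
  have hsmall : ∀ n : ℤ, n < n0 → ∀ p : ι → L, (∀ i, p i ∈ A k η ζ (n - b i)) → p = 0 := by
    intro n hn p hp
    funext i
    have := hp i
    rw [A_neg (by have := hb i; omega), Submodule.mem_bot] at this
    exact this
  have key : ∀ t : ℕ, ∀ p : ι → L, (∀ i, p i ∈ A k η ζ (n0 - 1 + t - b i)) →
      ∑ i, p i • κ i = 0 → p = 0 := by
    intro t
    induction t with
    | zero =>
      intro p hp _
      exact hsmall _ (by push_cast; omega) p hp
    | succ t ih =>
      intro p hp e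
      set N : ℤ := n0 - 1 + ((t + 1 : ℕ) : ℤ) with hN
      have hN1 : n0 - 1 + (t : ℤ) = N - 1 := by rw [hN]; push_cast; ring
      rw [hN1] at ih
      have hdec : ∀ i, ∃ x ∈ A k η ζ (N - 1 - b i), ∃ y ∈ A k η ζ (N - 1 - b i), ∃ c : k,
          p i = x + η * y + c • ζ ^ (N - b i).toNat ∧ (N - b i < 0 → c = 0) := by
        intro i
        obtain ⟨x, hx, y, hy, c, e, hc⟩ := A_decomp (hp i)
        exact ⟨x, by rwa [show N - 1 - b i = N - b i - 1 by ring], y,
          by rwa [show N - 1 - b i = N - b i - 1 by ring], c, e, hc⟩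
      choose x hx y hy c ep hc using hdec
      have hmemK : ∀ z : ι → L, (∀ i, z i ∈ A k η ζ (N - 1 - b i)) → ∑ i, z i • κ i ∈ K (N - 1) := by
        intro z hz'
        refine Submodule.sum_mem _ fun i _ => ?_
        have := hK.smul_mem (hz' i) (h.mem i)
        rwa [sub_add_cancel] at this
      have esum : ∑ i, p i • κ i = ∑ i, x i • κ i + η • ∑ i, y i • κ i +
          ∑ i, (c i • ζ ^ (N - b i).toNat) • κ i := by
        rw [Finset.smul_sum, ← Finset.sum_add_distrib, ← Finset.sum_add_distrib]
        refine Finset.sum_congr rfl fun i _ => ?_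
        rw [ep i, add_smul, add_smul, mul_smul]
      have hc0 : c = 0 := by
        refine h.claim hK hz N c (fun i hi => hc i (by omega)) ?_
        refine ⟨-∑ i, x i • κ i, Submodule.neg_mem _ (hmemK x hx), -∑ i, y i • κ i,
          Submodule.neg_mem _ (hmemK y hy), ?_⟩
        rw [e] at esum
        rw [smul_neg, ← neg_add, eq_neg_iff_add_eq_zero, add_comm]
        exact esum.symm
      have e1 : ∑ i, x i • κ i + η • ∑ i, y i • κ i = 0 := by
        rw [e, hc0] at esum
        simpa using esum.symm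
      -- Dep2
      have hyK := hmemK y hy
      have hηy : η • ∑ i, y i • κ i ∈ K (N - 1) := by
        rw [eq_neg_of_add_eq_zero_right e1]
        exact Submodule.neg_mem _ (hmemK x hx)
      have hyK2 := hd (N - 1) _ hyK hηy
      obtain ⟨u, hu, eu⟩ := h.span hK _ _ hyK2
      have e2 : y = u := by
        have := ih (fun i => y i - u i) (fun i => Submodule.sub_mem _ (hy i)
          (A_mono (by omega) (hu i))) (by
            simp only [sub_smul, Finset.sum_sub_distrib]
            rw [← eu, sub_self])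
        funext i
        have := congrFun this i
        simpa [sub_eq_zero] using this
      subst e2
      have e3 : (fun i => x i + η * y i) = 0 := by
        refine ih _ (fun i => Submodule.add_mem _ (hx i) ?_) ?_
        · have := A_mul_mem (eta_mem_A (k := k) (η := η) (ζ := ζ)) (hu i)
          rwa [show 1 + (N - 1 - 1 - b i) = N - 1 - b i by ring] at this
        · simp only [add_smul, Finset.sum_add_distrib, mul_smul]
          rw [← Finset.smul_sum]
          exact e1
      funext i
      have e4 := congrFun e3 i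
      simp only [Pi.zero_apply] at e4 ⊢
      rw [ep i, hc0, e4]
      simp
  rcases lt_or_ge n (n0 - 1) with h' | h'
  · intro p hp _
    exact hsmall n (by omega) p hp
  · obtain ⟨t, rfl⟩ := Int.le.dest h'
    exact key t

end

end R169.Lat
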