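import Crest.Agent.R169.LatDual2
import Crest.Agent.R169.Lat1a

/-!
# Row 169, LAT, L7 (helper57), file 3: the kernel `K` of the free cover of a `Dep2` lattice, dimension
count.
-/

set_option autoImplicit false

namespace R169.Lat

section

variable {k L : Type} [Field k] [Field L] [Algebra k L] {η ζ : L}
variable {W : Type} [AddCommGroup W] [Module k W] [Module L W] [IsScalarTower k L W]
variable {g : ℕ}

/-- the free module `⊕ P(-a_j)` -/
def F0 (k : Type) {L : Type} [Field k] [Field L] [Algebra k L] (η ζ : L) {g : ℕ} (a : Fin g → ℤ)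
    (n : ℤ) : Submodule k (Fin g → L) :=
  Submodule.pi Set.univ fun j => A k η ζ (n - a j)

theorem mem_F0 {a : Fin g → ℤ} {n : ℤ} {f : Fin g → L} :
    f ∈ F0 k η ζ a n ↔ ∀ j, f j ∈ A k η ζ (n - a j) := by
  simp [F0, Submodule.mem_pi]

/-- `f ↦ ∑ f_j e_j` -/
def lcL (k : Type) {L : Type} [Field k] [Field L] [Algebra k L] {W : Type} [AddCommGroup W]
    [Module k W] [Module L W] [IsScalarTower k L W] {g : ℕ} (e : Fin g → W) :
    (Fin g → L) →ₗ[k] W where
  toFun f := ∑ j, f j • e j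
  map_add' f f' := by simp [add_smul, Finset.sum_add_distrib]
  map_smul' c f := by simp [Finset.smul_sum]

/-- relations -/
def Kr (k : Type) {L : Type} [Field k] [Field L] [Algebra k L] (η ζ : L) {W : Type} [AddCommGroup W]
    [Module k W] [Module L W] [IsScalarTower k L W] {g : ℕ} (a : Fin g → ℤ) (e : Fin g → W) (n : ℤ) :
    Submodule k (Fin g → L) := F0 k η ζ a n ⊓ LinearMap.ker (lcL k e)

theorem mem_Kr {a : Fin g → ℤ} {e : Fin g → W} {n : ℤ} {f : Fin g → L} :
    f ∈ Kr k η ζ a e n ↔ (∀ j, f j ∈ A k η ζ (n - a j)) ∧ ∑ j, f j • e j = 0 := by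
  unfold Kr
  rw [Submodule.mem_inf, mem_F0, LinearMap.mem_ker]
  rfl

theorem isPLat_F0 (a : Fin g → ℤ) : IsPLat η ζ (F0 k η ζ a) := by
  classical
  have : F0 k η ζ a = gspan η ζ a (fun j => (Pi.single j 1 : Fin g → L)) := by
    funext n
    ext f
    rw [mem_F0, mem_gspan]
    constructor
    · intro h
      refine ⟨f, h, ?_⟩
      funext i
      simp [Finset.sum_apply, Pi.single_apply]
    · rintro ⟨f', h, rfl⟩ i
      simpa [Finset.sum_apply, Pi.single_apply] using h i
  rw [this]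
  exact isPLat_gspan _ _

theorem isPLat_Kr (a : Fin g → ℤ) (e : Fin g → W) : IsPLat η ζ (Kr k η ζ a e) := by
  refine IsPLat.sub (isPLat_F0 a) (fun n => inf_le_left) ?_ ?_ ?_
  · intro n f hf
    rw [mem_Kr] at hf ⊢
    exact ⟨fun j => A_mono (by omega) (hf.1 j), hf.2⟩
  · intro n f hf
    obtain ⟨f', hf', rfl⟩ := mem_sm.1 hf
    rw [mem_Kr] at hf' ⊢
    refine ⟨fun j => ?_, ?_⟩
    · have := A_mul_mem (eta_mem_A (k := k) (η := η) (ζ := ζ)) (hf'.1 j)
      rwa [show 1 + (n - a j) = n + 1 - a j by ring] at this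
    · have := congrArg (fun w => η • w) hf'.2
      simpa [Finset.smul_sum, mul_smul] using this
  · intro n f hf
    obtain ⟨f', hf', rfl⟩ := mem_sm.1 hf
    rw [mem_Kr] at hf' ⊢
    refine ⟨fun j => ?_, ?_⟩
    · have := A_mul_mem (zeta_mem_A (k := k) (η := η) (ζ := ζ)) (hf'.1 j)
      rwa [show 1 + (n - a j) = n + 1 - a j by ring] at this
    · have := congrArg (fun w => ζ • w) hf'.2
      simpa [Finset.smul_sum, mul_smul] using this

theorem dep2_Kr (ind : AlgebraicIndependent k ![η, ζ]) (a : Fin g → ℤ) (e : Fin g → W) :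
    Dep2 η (Kr k η ζ a e) := by
  intro n f hf hηf
  rw [mem_Kr] at hf hηf ⊢
  refine ⟨fun j => ?_, hf.2⟩
  have := A_dep2 ind (hf.1 j) (hηf.1 j)
  rwa [show n - a j - 1 = n - 1 - a j by ring] at this

/-- generators of `G` -/
def Gens (η ζ : L) (G : ℤ → Submodule k W) (a : Fin g → ℤ) (e : Fin g → W) : Prop :=
  (∀ j, e j ∈ G (a j)) ∧
    ∀ n w, w ∈ G n ↔ ∃ f : Fin g → L, (∀ j, f j ∈ A k η ζ (n - a j)) ∧ w = ∑ j, f j • e j

theorem zreg_Kr (ind : AlgebraicIndependent k ![η, ζ]) {G : ℤ → Submodule k W} (hd : Dep2 η G)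
    {a : Fin g → ℤ} {e : Fin g → W} (hg : Gens η ζ G a e) : ZReg η ζ (Kr k η ζ a e) := by
  intro n κ hκ ⟨p, hp, q, hq, h⟩
  rw [mem_Kr] at hκ hp hq
  have h1 : ∀ j, ∃ u ∈ A k η ζ (n - 1 - a j), ∃ v ∈ A k η ζ (n - 1 - a j), κ j = u + η * v := by
    intro j
    have hj : ζ * κ j = p j + η * q j := by
      have := congrFun h j
      simpa using this
    have := A_zreg ind (hκ.1 j) (hp.1 j) (hq.1 j) hj
    rwa [show n - a j - 1 = n - 1 - a j by ring] at this
  choose u hu v hv huv using h1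
  -- images in `G`
  have e0 : ∑ j, u j • e j + η • ∑ j, v j • e j = 0 := by
    rw [Finset.smul_sum, ← Finset.sum_add_distrib, ← hκ.2]
    refine Finset.sum_congr rfl fun j _ => ?_
    rw [huv j, add_smul, mul_smul]
  have hvG : ∑ j, v j • e j ∈ G (n - 1) := (hg.2 _ _).2 ⟨v, hv, rfl⟩
  have hηv : η • ∑ j, v j • e j ∈ G (n - 1) := by
    rw [eq_neg_of_add_eq_zero_right e0]
    exact Submodule.neg_mem _ ((hg.2 _ _).2 ⟨u, hu, rfl⟩)
  obtain ⟨t, ht, et⟩ := (hg.2 _ _).1 (hd _ _ hvG hηv)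
  refine ⟨fun j => u j + η * t j, ?_, fun j => v j - t j, ?_, ?_⟩
  · rw [mem_Kr]
    refine ⟨fun j => Submodule.add_mem _ (hu j) ?_, ?_⟩
    · have := A_mul_mem (eta_mem_A (k := k) (η := η) (ζ := ζ)) (ht j)
      rwa [show 1 + (n - 1 - 1 - a j) = n - 1 - a j by ring] at this
    · simp only [add_smul, Finset.sum_add_distrib, mul_smul]
      rw [← Finset.smul_sum, ← et]
      exact e0
  · rw [mem_Kr]
    refine ⟨fun j => Submodule.sub_mem _ (hv j) (A_mono (by omega) (ht j)), ?_⟩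
    simp only [sub_smul, Finset.sum_sub_distrib]
    rw [← et, sub_self]
  · funext j
    simp only [Pi.add_apply, Pi.smul_apply, smul_eq_mul]
    rw [huv j]; ring

/-- THE RESOLUTION -/
theorem exists_resolution (ind : AlgebraicIndependent k ![η, ζ]) {G : ℤ → Submodule k W}
    (hd : Dep2 η G) {a : Fin g → ℤ} {e : Fin g → W} (hg : Gens η ζ G a e) :
    ∃ (ι : Type) (_ : Fintype ι) (b : ι → ℤ) (κ : ι → Fin g → L),
      (∀ i, κ i ∈ Kr k η ζ a e (b i)) ∧
      (∀ n, ∀ f ∈ Kr k η ζ a e n, ∃ p : ι → L, (∀ i, p i ∈ A k η ζ (n - b i)) ∧ f = ∑ i, p i • κ i) ∧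
      (∀ n, ∀ p : ι → L, (∀ i, p i ∈ A k η ζ (n - b i)) → ∑ i, p i • κ i = 0 → p = 0) := by
  obtain ⟨ι, hι, b, κ, hm⟩ := exists_minGens (isPLat_Kr (k := k) (η := η) (ζ := ζ) a e)
  exact ⟨ι, hι, b, κ, hm.mem, hm.span (isPLat_Kr a e),
    hm.indep (isPLat_Kr a e) (dep2_Kr ind a e) (zreg_Kr ind hd hg)⟩

/-- dimension count -/
theorem finrank_G {G : ℤ → Submodule k W}
    {a : Fin g → ℤ} {e : Fin g → W} (hg : Gens η ζ G a e) {ι : Type} [Fintype ι] {b : ι → ℤ}
    {κ : ι → Fin g → L} (h1 : ∀ i, κ i ∈ Kr k η ζ a e (b i))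
    (h2 : ∀ n, ∀ f ∈ Kr k η ζ a e n, ∃ p : ι → L, (∀ i, p i ∈ A k η ζ (n - b i)) ∧
      f = ∑ i, p i • κ i)
    (h3 : ∀ n, ∀ p : ι → L, (∀ i, p i ∈ A k η ζ (n - b i)) → ∑ i, p i • κ i = 0 → p = 0) (n : ℤ) :
    Module.finrank k (G n) + ∑ i, Module.finrank k (A k η ζ (n - b i)) =
      ∑ j, Module.finrank k (A k η ζ (n - a j)) := by
  let T : (Π j, A k η ζ (n - a j)) →ₗ[k] W :=
    { toFun := fun f => ∑ j, (f j : L) • e j
      map_add' := by intro f f'; simp [add_smul, Finset.sum_add_distrib]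
      map_smul' := by intro c f; simp [Finset.smul_sum] }
  have hrange : LinearMap.range T = G n := by
    ext w
    rw [hg.2, LinearMap.mem_range]
    constructor
    · rintro ⟨f, rfl⟩
      exact ⟨fun j => f j, fun j => (f j).2, rfl⟩
    · rintro ⟨f, hf, rfl⟩
      exact ⟨fun j => ⟨f j, hf j⟩, rfl⟩
  let S : (Π i, A k η ζ (n - b i)) →ₗ[k] (Π j, A k η ζ (n - a j)) :=
    { toFun := fun p j => ⟨∑ i, (p i : L) * κ i j, by
        refine Submodule.sum_mem _ fun i _ => ?_
        have := A_mul_mem (p i).2 ((mem_Kr.1 (h1 i)).1 j)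
        rwa [show n - b i + (b i - a j) = n - a j by ring] at this⟩
      map_add' := by
        intro f f'
        funext j
        apply Subtype.ext
        simp [add_mul, Finset.sum_add_distrib]
      map_smul' := by
        intro c f
        funext j
        apply Subtype.ext
        simp [Finset.smul_sum] }
  have hS : ∀ p : (Π i, A k η ζ (n - b i)), (fun j => ((S p j : L))) = ∑ i, (p i : L) • κ i := by
    intro p
    funext j
    simp [S, Finset.sum_apply]
  have hinj : Function.Injective S := by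
    rw [injective_iff_map_eq_zero]
    intro p hp
    have h4 : ∑ i, (p i : L) • κ i = 0 := by
      rw [← hS p, hp]; rfl
    have := h3 n (fun i => p i) (fun i => (p i).2) h4
    funext i
    apply Subtype.ext
    exact congrFun this i
  have hker : LinearMap.range S = LinearMap.ker T := by
    ext f
    rw [LinearMap.mem_range, LinearMap.mem_ker]
    constructor
    · rintro ⟨p, rfl⟩
      have h4 : ∑ i, (p i : L) • κ i ∈ Kr k η ζ a e n := by
        refine Submodule.sum_mem _ fun i _ => ?_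
        have := (isPLat_Kr (k := k) (η := η) (ζ := ζ) a e).smul_mem (p i).2 (h1 i)
        rwa [sub_add_cancel] at this
      rw [← hS p] at h4
      exact (mem_Kr.1 h4).2
    · intro hf
      obtain ⟨p, hp, e1⟩ := h2 n (fun j => (f j : L)) (mem_Kr.2 ⟨fun j => (f j).2, hf⟩)
      refine ⟨fun i => ⟨p i, hp i⟩, ?_⟩
      funext j
      apply Subtype.ext
      have := congrFun (hS fun i => ⟨p i, hp i⟩) j
      rw [this]
      exact (congrFun e1 j).symm
  have hA := LinearMap.finrank_range_add_finrank_ker T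
  rw [hrange, ← hker, LinearMap.finrank_range_of_inj hinj, Module.finrank_pi_fintype,
    Module.finrank_pi_fintype] at hA
  exact hA

end

end R169.Lat
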