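import Crest.Agent.R169.Lat1
import Crest.Agent.R169.Lat2
import Crest.Agent.R169.Lat4d
import Crest.Agent.R169.C0Num

/-!
# Row 169, module 0 (LAT): L5 minimal slope (helper88)
-/

set_option autoImplicit false

namespace R169.Lat

section L5

variable {k L : Type} [Field k] [Field L] [Algebra k L]
variable {W : Type} [AddCommGroup W] [Module k W] [Module L W] [IsScalarTower k L W]
variable {D : GD k L} {η ζ : L} {E E' : ℤ → Submodule k W}

theorem slope_disc (d r R : ℕ) (hd : 0 < d) (hr : 0 < r) (hrR : r ≤ R) (N β : ℚ) (hN : N = d * r)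
    (hz : ∃ z : ℤ, N / 2 - β = z) : ∃ m : ℤ, β / N = m * (1 / (2 * d * (R.factorial : ℚ))) := by
  obtain ⟨z, hz⟩ := hz
  have hdvd : r ∣ R.factorial := Nat.dvd_factorial hr hrR
  obtain ⟨q, hq⟩ := hdvd
  have hR : (R.factorial : ℚ) = r * q := by exact_mod_cast hq
  have hq0 : (q : ℚ) ≠ 0 := by
    intro h
    rw [h, mul_zero] at hR
    exact (Nat.factorial_ne_zero R) (by exact_mod_cast hR)
  have hd' : (d : ℚ) ≠ 0 := by exact_mod_cast hd.ne'
  have hr' : (r : ℚ) ≠ 0 := by exact_mod_cast hr.ne'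
  refine ⟨(d * r - 2 * z) * q, ?_⟩
  have hβ : β = ((d * r : ℚ) - 2 * z) / 2 := by rw [← hz, hN]; ring
  rw [hR, hβ, hN]
  push_cast
  field_simp

theorem _root_.R169.exists_minSlope [FiniteDimensional L W] [Nontrivial W] (hP : Par D η ζ)
    (h : IsLat D η ζ E) (hs : lspan L E = ⊤) : ∃ V N1 β1 γ1, MinSlope L E V N1 β1 γ1 := by
  obtain ⟨d, βB, γB, hB, -, -⟩ := ((isLat_B hP).toPLat hP).hasHP
  have hinv : ∀ V : Submodule L W, V ≠ ⊥ → ∃ N β γ : ℚ, HasHP (sat E V) N β γ ∧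
      (∃ z : ℤ, N / 2 - β = z) ∧ N = d * Module.finrank L V ∧ 0 < d ∧ 0 < Module.finrank L V := by
    intro V hV
    have hsat := h.sat hP V
    obtain ⟨N, β, γ, hh, hz, -⟩ := (hsat.toPLat hP).hasHP
    obtain ⟨hd, hN⟩ := hsat.rank hP hB hh
    rw [lspan_sat h hs] at hN
    have hpos : 0 < Module.finrank L V := by
      rw [Module.finrank_pos_iff]
      exact Submodule.nontrivial_iff_ne_bot.2 hV
    exact ⟨N, β, γ, hh, hz, hN, by exact_mod_cast hd, hpos⟩
  obtain ⟨-, -, -, -, -, -, hd, -⟩ := hinv ⊤ top_ne_bot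
  obtain ⟨c, hc⟩ := EmbA.exists hP h
  let S : Set ℚ := {b | ∃ V : Submodule L W, V ≠ ⊥ ∧ ∃ N β γ : ℚ, HasHP (sat E V) N β γ ∧ b = β / N}
  have hne : S.Nonempty := by
    obtain ⟨N, β, γ, hh, -⟩ := hinv ⊤ top_ne_bot
    exact ⟨β / N, ⊤, top_ne_bot, N, β, γ, hh, rfl⟩
  have hq : (0 : ℚ) < 1 / (2 * d * ((Module.finrank L W).factorial : ℚ)) := by
    have h1 : (0 : ℚ) < d := by exact_mod_cast hd
    have h2 : (0 : ℚ) < (Module.finrank L W).factorial := by exact_mod_cast Nat.factorial_pos _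
    positivity
  obtain ⟨b0, ⟨V, hV, N1, β1, γ1, hh1, rfl⟩, hmin⟩ := exists_min_disc S hne _ hq
    (by
      rintro _ ⟨V, hV, N, β, γ, hh, rfl⟩
      obtain ⟨N', β', γ', hh', hz, hN, -, hpos⟩ := hinv V hV
      obtain ⟨rfl, rfl, rfl⟩ := hh.unique hh'
      exact slope_disc d _ _ hd hpos (Submodule.finrank_le V) N β hN hz)
    (-((c : ℚ) + 3 / 2))
    (by
      rintro _ ⟨V, hV, N, β, γ, hh, rfl⟩
      obtain ⟨N', β', γ', hh', -, -⟩ := ((h.sat hP V).toPLat hP).hasHP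
      obtain ⟨N'', β'', γ'', hh'', -, hN, hd0, hpos⟩ := hinv V hV
      obtain ⟨rfl, rfl, rfl⟩ := hh.unique hh'
      obtain ⟨e1, rfl, rfl⟩ := hh.unique hh''
      have hb := (EmbA.bound hP.indep (h.toPLat hP) hc ((h.sat hP V).toPLat hP)
        (fun n => inf_le_left) hh).2
      have hNpos : (0 : ℚ) < N' := by
        rw [e1, hN]
        have h1 : (0 : ℚ) < d := by exact_mod_cast hd
        have h2 : (0 : ℚ) < Module.finrank L V := by exact_mod_cast hpos
        positivity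
      rw [le_div_iff₀ hNpos]
      exact hb)
  refine ⟨V, N1, β1, γ1, hV, hh1, fun V' hV' N' β' γ' hh' => ?_⟩
  have hpos : ∀ (V : Submodule L W), V ≠ ⊥ → ∀ N β γ : ℚ, HasHP (sat E V) N β γ → 0 < N := by
    intro V hV N β γ hh
    obtain ⟨N'', β'', γ'', hh'', -, hN, hd0, hpos⟩ := hinv V hV
    obtain ⟨rfl, rfl, rfl⟩ := hh.unique hh''
    rw [hN]
    have h1 : (0 : ℚ) < d := by exact_mod_cast hd
    have h2 : (0 : ℚ) < Module.finrank L V := by exact_mod_cast hpos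
    positivity
  have h1 := hpos V hV _ _ _ hh1
  have h2 := hpos V' hV' _ _ _ hh'
  have h3 := hmin (β' / N') ⟨V', hV', N', β', γ', hh', rfl⟩
  rw [div_le_div_iff₀ h1 h2] at h3
  exact h3

/-- `E ∩ V` is semistable as a lattice inside `V` -/
theorem _root_.R169.MinSlope.semistable {V : Submodule L W} {N1 β1 γ1 : ℚ} (hm : MinSlope L E V N1 β1 γ1) :
    ∀ V' : Submodule L W, V' ≤ V → V' ≠ ⊥ → ∀ N' β' γ' : ℚ, HasHP (sat E V') N' β' γ' →
      β1 * N' ≤ β' * N1 := fun V' _ hV' N' β' γ' hh => hm.2.2 V' hV' N' β' γ' hh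

/-- subs of the quotient by the minimal slope subspace have larger slope -/
theorem _root_.R169.MinSlope.quo [FiniteDimensional L W] (hP : Par D η ζ) (h : IsLat D η ζ E)
    (hs : lspan L E = ⊤) {V : Submodule L W} {N1 β1 γ1 : ℚ}
    (hm : MinSlope L E V N1 β1 γ1) (U : Submodule L (W ⧸ V)) (hU : U ≠ ⊥) (N' β' γ' : ℚ)
    (hh : HasHP (R169.sat (R169.quo E V) U) N' β' γ') : β1 * N' ≤ β' * N1 := by
  obtain ⟨hV, hh1, hmin⟩ := hm
  have hle : V ≤ U.comap V.mkQ := by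
    intro v hv
    rw [Submodule.mem_comap, Submodule.mkQ_apply, (Submodule.Quotient.mk_eq_zero V).2 hv]
    exact Submodule.zero_mem _
  have hne : U.comap V.mkQ ≠ ⊥ := by
    intro h0
    exact hV (le_bot_iff.1 (h0 ▸ hle))
  have hfin : ∀ n, FiniteDimensional k (R169.sat E (U.comap V.mkQ) n) := fun n => by
    have := h.fin n
    exact Submodule.finiteDimensional_of_le (inf_le_left : R169.sat E (U.comap V.mkQ) n ≤ E n)
  have e1 : ∀ n, R169.sat (R169.sat E (U.comap V.mkQ)) V n = R169.sat E V n := by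
    intro n
    ext w
    simp only [R169.sat, Submodule.mem_inf, Submodule.restrictScalars_mem]
    exact ⟨fun hw => ⟨hw.1.1, hw.2⟩, fun hw => ⟨⟨hw.1, hle hw.2⟩, hw.2⟩⟩
  have e2 : ∀ n, R169.quo (R169.sat E (U.comap V.mkQ)) V n = R169.sat (R169.quo E V) U n := by
    intro n
    ext w
    simp only [R169.sat, R169.quo, Submodule.mem_inf, Submodule.restrictScalars_mem,
      Submodule.mem_map, Submodule.mem_comap, LinearMap.coe_restrictScalars]
    constructor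
    · rintro ⟨x, ⟨hx1, hx2⟩, rfl⟩
      exact ⟨⟨x, hx1, rfl⟩, hx2⟩
    · rintro ⟨⟨x, hx1, rfl⟩, hx2⟩
      exact ⟨x, ⟨hx1, hx2⟩, rfl⟩
  obtain ⟨a1, ha1⟩ := hh1
  obtain ⟨a2, ha2⟩ := hh
  have hsum : HasHP (R169.sat E (U.comap V.mkQ)) (N1 + N') (β1 + β') (γ1 + γ') := by
    refine ⟨max a1 a2, fun n hn => ?_⟩
    rw [finrank_sat_add_quo _ hfin V n, e1, e2]
    push_cast
    rw [ha1 n ((le_max_left _ _).trans hn), ha2 n ((le_max_right _ _).trans hn)]
    ring
  have := hmin _ hne _ _ _ hsum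
  nlinarith

end L5

end R169.Lat
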