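import Crest.Agent.R169.DefsBR

/-!
# Row 169: top theorems of the modules (interface; every owner replaces his statement by a proof
in his own files; this file will import them at the end).
-/

set_option autoImplicit false

namespace R169

/-! ### module 2b FROB (owner helper78) -/

theorem frobFormula_of {k L : Type} [Field k] [Field L] [Algebra k L] [IsAlgClosed k]
    (p : ℕ) [Fact p.Prime] [CharP k p] (D : GD k L) {η ζ : L} (hP : Par D η ζ)
    (hc : PCharts D p) (hcc : CurveCond D) : FrobFormula D η ζ p := sorry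

/-! ### module 2a CP (owner helper27) -/

/-- the char `p` bound; `A` depends only on the numerical data. `c(E) - r c_B ≤ A / p`. -/
theorem charP_bound (r : ℕ) (hr : 0 < r) (C0 s : ℤ) (C1 : ℕ) (N β γ dB βB γB : ℚ) :
    ∃ A : ℚ, ∀ (p : ℕ) [Fact p.Prime] (k L : Type) [Field k] [Field L] [Algebra k L]
      [IsAlgClosed k] [CharP k p] (D : GD k L) (η ζ : L), Par D η ζ →
      HasHP D.B dB βB γB → IsRefl (k := k) η ζ D.B → DerCond D p C0 →
      (∀ n : ℤ, 0 ≤ n → Module.finrank k (D.B n) ≤ Module.finrank k (D.B (n - 1)) + C1 * (n.toNat + 1)) →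
      LinShift D η ζ s → FrobFormula D η ζ p →
      ∀ E : ℤ → Submodule k (Fin r → L), IsLat D η ζ E → lspan L E = ⊤ → (∀ n, E n ≤ Bpow D r n) →
        IsRefl (k := k) η ζ E → HasHP E N β γ → Semistable L E N β →
        ((γ - β ^ 2 / (2 * N)) - r * (γB - βB ^ 2 / (2 * dB))) * p ≤ A := sorry

/-! ### module 3 TR (owners helper91, helper53) -/

/-- TRANSFER: suppose that all the ring data `D` (over `K`) and `Dp p` (over `Kp p`) have integral forms
with the same structure constants, and that the char `p` conditions hold with uniform constants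
for all large `p` and all parameters; then (BR) holds over `K = U.K`.
(the owners choose the concrete ultraproduct `U`; the statement for the final assembly is this one). -/
theorem br_of_transfer :
    ∃ U : UData, letI := U.fld;
    ∀ (S : ℤ → Type) (_ : ∀ n, Fintype (S n)) (one : S 1) (m : ∀ i j : ℤ, S i → S j → S (i + j) → ℤ)
      (L : Type) (_ : Field L) (_ : Algebra U.K L) (D : GD U.K L) (_ : IForm S one m D)
      (Lp : PP → Type) (_ : ∀ p, Field (Lp p)) (_ : ∀ p, Algebra (Kp p) (Lp p))
      (Dp : ∀ p, GD (Kp p) (Lp p)) (_ : ∀ p : PP, 7 < p.1 → Nonempty (IForm S one m (Dp p)))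
      (dB βB γB : ℚ) (_ : HasHP D.B dB βB γB)
      (C0 : ℤ) (C1 : ℕ)
      (_ : ∀ p : PP, 7 < p.1 → IsIntegrallyClosed (T (Dp p)) ∧ Gen1 (Dp p) ∧ DerCond (Dp p) p.1 C0 ∧
        (∀ n : ℤ, 0 ≤ n → Module.finrank (Kp p) ((Dp p).B n) ≤
          Module.finrank (Kp p) ((Dp p).B (n - 1)) + C1 * (n.toNat + 1)) ∧
        ∀ η ζ : Lp p, Par (Dp p) η ζ → FrobFormula (Dp p) η ζ p.1)
      (η ζ : L) (_ : Par D η ζ), BR D η ζ := sorry

/-! ### module 1 C0 (owners helper57, helper88) -/

theorem no_qreg {k L : Type} [Field k] [IsAlgClosed k] [Field L] [Algebra k L]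
    (D : GD k L) {η ζ : L} (hP : Par D η ζ) (hBR : BR D η ζ) {dB βB γB : ℚ}
    (hB : HasHP D.B dB βB γB) (hc : γB - βB ^ 2 / (2 * dB) < - dB / 4)
    (M : Type) [AddCommGroup M] [Module (T D) M] [Module k M] [IsScalarTower k (T D) M]
    (hq : QReg (xyz D hP) M)
    (hfin : FiniteDimensional k (M ⧸ (Ixyz D hP • (⊤ : Submodule (T D) M)).restrictScalars k))
    (hne : Ixyz D hP • (⊤ : Submodule (T D) M) ≠ ⊤) : False := sorry

end R169
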