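import Crest.Agent.R169.TRDefs

/-!
# R169_TR0A: `UK` has characteristic zero.
`(n : UK) = cl (fun p => n)`; by `UU_large`, a.e. `p > n`, so `(n : Kp p) ≠ 0` for `n ≠ 0` (CharP (Kp p) p.1).
-/
set_option autoImplicit false
namespace R169.TR
open Filter

instance UK_charZero : CharZero UK := by
  refine charZero_of_inj_zero fun n hn => ?_
  have h1 : cl (fun p => ((n : ℕ) : Kp p)) = cl 0 := by
    have e : (fun p => ((n : ℕ) : Kp p)) = ((n : ℕ) : ∀ p, Kp p) := rfl
    rw [e, map_natCast, map_zero]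
    exact hn
  rw [cl_eq_iff] at h1
  obtain ⟨p, h2, h3⟩ := (h1.and (UU_large n)).exists
  have h4 : ((n : ℕ) : Kp p) = 0 := h2
  rw [CharP.cast_eq_zero_iff (Kp p) p.1 n] at h4
  exact Nat.eq_zero_of_dvd_of_lt h4 h3

end R169.TR
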