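import Crest.Agent.R169.TRDefs

/-!
# R169_TR0B: `UK` is algebraically closed.
`IsAlgClosed.of_exists_root`: a monic irreducible (or just monic, degree `n > 0`) polynomial over `UK`: lift its
coefficients (`cl_surj`) to monic polynomials of degree `n` over every `Kp p`
(`X^n + ∑ i < n, c_i X^i`), choose roots `x p` (`IsAlgClosed (Kp p)`), then `cl x` is a root
(evaluate: a finite sum, `cl` is a ring hom: apply `cl_eq_iff`).
-/
set_option autoImplicit false
namespace R169.TR
open Filter

private theorem tr0b_root {K : Type} [Field K] [IsAlgClosed K] (n : ℕ) (hn : 0 < n) (c : ℕ → K) :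
    ∃ x : K, x ^ n + ∑ i ∈ Finset.range n, c i * x ^ i = 0 := by
  classical
  let r : Polynomial K := ∑ i ∈ Finset.range n, Polynomial.C (c i) * Polynomial.X ^ i
  have hr : r.degree < (n : WithBot ℕ) := by
    refine lt_of_le_of_lt (Polynomial.degree_sum_le _ _) ?_
    rw [Finset.sup_lt_iff (by exact WithBot.bot_lt_coe n)]
    intro i hi
    refine lt_of_le_of_lt (Polynomial.degree_C_mul_X_pow_le i (c i)) ?_
    exact_mod_cast Finset.mem_range.1 hi
  let q : Polynomial K := Polynomial.X ^ n + r
  have hq : q.degree = (n : WithBot ℕ) := by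
    show (Polynomial.X ^ n + r).degree = _
    rw [Polynomial.degree_add_eq_left_of_degree_lt]
    · exact Polynomial.degree_X_pow n
    · rw [Polynomial.degree_X_pow]; exact hr
  obtain ⟨x, hx⟩ := IsAlgClosed.exists_root q (by
    rw [hq]
    exact_mod_cast hn.ne')
  refine ⟨x, ?_⟩
  have h2 : Polynomial.eval x (Polynomial.X ^ n + r) = 0 := hx
  rw [Polynomial.eval_add, Polynomial.eval_pow, Polynomial.eval_X, Polynomial.eval_finsetSum] at h2
  simpa using h2

instance UK_algClosed : IsAlgClosed UK := by
  classical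
  refine IsAlgClosed.of_exists_root UK ?_
  intro P hmon hirr
  have hn : 0 < P.natDegree := hirr.natDegree_pos
  have hc : ∀ i : ℕ, ∃ f : ∀ p, Kp p, cl f = P.coeff i := fun i => cl_surj _
  choose c hc using hc
  have hx : ∀ p : PP, ∃ x : Kp p,
      x ^ P.natDegree + ∑ i ∈ Finset.range P.natDegree, c i p * x ^ i = 0 := fun p =>
    tr0b_root P.natDegree hn (fun i => c i p)
  choose x hx using hx
  refine ⟨cl x, ?_⟩
  rw [Polynomial.eval_eq_sum_range, Finset.sum_range_succ, Polynomial.Monic.coeff_natDegree hmon,
    one_mul]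
  have h1 : cl (x ^ P.natDegree + ∑ i ∈ Finset.range P.natDegree, c i * x ^ i) = 0 := by
    rw [show (x ^ P.natDegree + ∑ i ∈ Finset.range P.natDegree, c i * x ^ i : ∀ p, Kp p) = 0 from ?_]
    · exact map_zero cl
    · funext p
      have := hx p
      simpa [Finset.sum_apply] using this
  rw [map_add, map_pow, map_sum] at h1
  rw [add_comm]
  refine Eq.trans ?_ h1
  congr 1
  refine Finset.sum_congr rfl ?_
  intro i _
  rw [map_mul, map_pow, hc i]

end R169.TR
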