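import Crest.Agent.R169.TRDefs

/-!
# R169_TR0C: `#UK = 𝔠`.
Upper bound: `cl` is surjective from `∀ p, Kp p`, each `Kp p` countable (algebraic closure of a finite field:
`Algebra.IsAlgebraic.cardinalMk_le_max` or so), `ℵ₀ ^ ℵ₀ = 𝔠`.
Lower bound: an injection `(ℕ → Bool) → UK`: each `Kp p` is infinite, so choose for every `p` an injection
`c p : (Fin p.1 → Bool) → Kp p` (finite into infinite) and send `x` to `cl (fun p => c p (fun i => x i))`;
if `x ≠ y` differ at `i` then the images differ at all `p > i` (`UU_large`), hence a.e.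
-/
set_option autoImplicit false
namespace R169.TR
open Filter

theorem card_Kp_le (p : PP) : Cardinal.mk (Kp p) ≤ Cardinal.aleph0 := by
  have h := Algebra.IsAlgebraic.cardinalMk_le_max (ZMod p.1) (Kp p)
  refine h.trans (max_le ?_ le_rfl)
  have : NeZero p.1 := ⟨p.2.ne_zero⟩
  exact (Cardinal.lt_aleph0_of_finite (ZMod p.1)).le

theorem card_UK_le : Cardinal.mk UK ≤ Cardinal.continuum := by
  have h1 : Cardinal.mk UK ≤ Cardinal.mk (∀ p, Kp p) := Cardinal.mk_le_of_surjective cl_surj
  refine h1.trans ?_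
  rw [Cardinal.mk_pi]
  refine (Cardinal.prod_le_prod _ (fun _ => Cardinal.aleph0) card_Kp_le).trans ?_
  rw [Cardinal.prod_const]
  have : Cardinal.mk PP = Cardinal.aleph0 := Cardinal.mk_eq_aleph0 PP
  rw [this]
  simp [Cardinal.aleph0_power_aleph0]

theorem le_card_UK : Cardinal.continuum ≤ Cardinal.mk UK := by
  have hc : ∀ p : PP, Nonempty ((Fin p.1 → Bool) ↪ Kp p) := fun p => by
    have : Infinite (Kp p) := IsAlgClosed.instInfinite
    exact ⟨(Fintype.equivFin (Fin p.1 → Bool)).toEmbedding.trans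
      (Fin.valEmbedding.trans (Infinite.natEmbedding (Kp p)))⟩
  let c : ∀ p : PP, (Fin p.1 → Bool) ↪ Kp p := fun p => (hc p).some
  have hinj : Function.Injective (fun x : ℕ → Bool => cl (fun p => c p (fun i => x i))) := by
    intro x y hxy
    funext i
    have h1 := (cl_eq_iff _ _).1 hxy
    obtain ⟨p, h2, h3⟩ := (h1.and (UU_large i)).exists
    have h4 := (c p).injective h2
    exact congrFun h4 ⟨i, h3⟩
  have h5 := Cardinal.mk_le_of_injective hinj
  have h6 : Cardinal.mk (ℕ → Bool) = Cardinal.continuum := by simp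
  rwa [h6] at h5

theorem card_UK : Cardinal.mk UK = Cardinal.continuum :=
  le_antisymm card_UK_le le_card_UK

end R169.TR
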