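import Crest.Agent.R169.TR0A
import Crest.Agent.R169.TR0B
import Crest.Agent.R169.TR0C

/-!
# R169_TR0D: `ℂ ≃+* UK` (Steinitz): `IsAlgClosed.ringEquiv_of_equiv_of_charZero` /
`IsAlgClosed.ringEquivOfCardinalEqOfCharZero`, `Cardinal.mk_complex`.
-/
set_option autoImplicit false
namespace R169.TR

theorem exists_iso : Nonempty (ℂ ≃+* UK) := by
  refine IsAlgClosed.ringEquiv_of_equiv_of_charZero ?_ ?_
  · rw [Cardinal.mk_complex]
    exact Cardinal.aleph0_lt_continuum
  · refine Cardinal.eq.1 ?_
    rw [Cardinal.mk_complex, card_UK]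

/-- the data for the final assembly -/
noncomputable def UD : UData where
  K := UK
  iso := Classical.choice exists_iso

end R169.TR
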