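import Crest.Agent.R169.TRDefs

/-!
# R169_TR1A: calculus of `IsLim`, linear part.
`IsLim s n f l`: there are coordinate families `c p : S n → Kp p` with `f p = ∑ a, c p a • bas_p n a` (a.e. `p`)
and `l = ∑ a, cl (fun p => c p a) • bas n a`. Everything follows from `cl_eq_iff`, `cl_surj`, the bases and
`Filter.Eventually` (finite intersections, `UU_large 7`).
-/
set_option autoImplicit false
namespace R169.TR
open Filter

variable {s : Sys}

private theorem tr1a_sum_eq_zero {k L : Type} [Field k] [Field L] [Algebra k L] {ι : Type} [Fintype ι]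
    {B : Submodule k L} (b : Module.Basis ι k B) (c : ι → k) :
    ∑ a, c a • (b a : L) = 0 ↔ ∀ a, c a = 0 := by
  constructor
  · intro h
    have h1 : ∑ a, c a • b a = 0 := by
      apply Subtype.ext
      rw [AddSubmonoidClass.coe_finsetSum]
      exact h
    exact Fintype.linearIndependent_iff.1 b.linearIndependent c h1
  · intro h
    exact Finset.sum_eq_zero fun a _ => by rw [h a, zero_smul]

private theorem tr1a_sum_repr {k L : Type} [Field k] [Field L] [Algebra k L] {ι : Type} [Fintype ι]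
    {B : Submodule k L} (b : Module.Basis ι k B) (x : B) :
    (x : L) = ∑ a, b.repr x a • (b a : L) := by
  have h := congrArg (fun y : B => (y : L)) (b.sum_repr x)
  rw [← h]
  simp only [AddSubmonoidClass.coe_finsetSum, Submodule.coe_smul]

private theorem tr1a_sum_mem {k L : Type} [Field k] [Field L] [Algebra k L] {ι : Type} [Fintype ι]
    {B : Submodule k L} (b : Module.Basis ι k B) (c : ι → k) :
    ∑ a, c a • (b a : L) ∈ B :=
  Submodule.sum_mem _ fun a _ => Submodule.smul_mem _ _ (b a).2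

private theorem tr1a_zero (n : ℤ) : IsLim s n (fun _ => 0) 0 := by
  refine ⟨fun _ _ => 0, Eventually.of_forall fun p h => ?_, ?_⟩
  · simp
  · symm
    refine Finset.sum_eq_zero fun a _ => ?_
    have : cl (fun _ => (0 : Kp _)) = 0 := map_zero cl
    rw [this, zero_smul]

theorem IsLim.mem {n : ℤ} {f : ∀ p, s.Lp p} {l : s.L} (h : IsLim s n f l) : l ∈ s.D.B n := by
  obtain ⟨c, _, rfl⟩ := h
  exact tr1a_sum_mem _ _

theorem IsLim.ev_mem {n : ℤ} {f : ∀ p, s.Lp p} {l : s.L} (h : IsLim s n f l) :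
    ∀ᶠ p in (UU : Filter PP), f p ∈ (s.Dp p).B n := by
  obtain ⟨c, hc, _⟩ := h
  filter_upwards [hc, UU_large 7] with p h1 h2
  rw [h1 h2]
  exact tr1a_sum_mem _ _

/-- lifts exist (for all `p > 7` in `B_p n`; put `0` for `p ≤ 7`) -/
theorem exists_lift {n : ℤ} {l : s.L} (hl : l ∈ s.D.B n) :
    ∃ f : ∀ p, s.Lp p, IsLim s n f l ∧ ∀ p, f p ∈ (s.Dp p).B n := by
  choose cc hcc using fun a => cl_surj ((s.I.bas n).repr ⟨l, hl⟩ a)
  classical
  refine ⟨fun p => if h : 7 < p.1 then ∑ a, cc a p • ((s.Ip p h).bas n a : s.Lp p) else 0,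
    ⟨fun p a => cc a p, Eventually.of_forall fun p h => ?_, ?_⟩, fun p => ?_⟩
  · exact dif_pos h
  · refine (tr1a_sum_repr (s.I.bas n) ⟨l, hl⟩).trans ?_
    exact Finset.sum_congr rfl fun a _ => by rw [← hcc a]
  · by_cases h : 7 < p.1
    · simp only [dif_pos h]
      exact tr1a_sum_mem _ _
    · simp only [dif_neg h]
      exact Submodule.zero_mem _

theorem exists_lim {n : ℤ} {f : ∀ p, s.Lp p} (hf : ∀ᶠ p in (UU : Filter PP), f p ∈ (s.Dp p).B n) :
    ∃ l, IsLim s n f l := by
  classical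
  refine ⟨_, fun p a => if h : 7 < p.1 ∧ f p ∈ (s.Dp p).B n then
    ((s.Ip p h.1).bas n).repr ⟨f p, h.2⟩ a else 0, ?_, rfl⟩
  filter_upwards [hf] with p h1 h
  have h2 : 7 < p.1 ∧ f p ∈ (s.Dp p).B n := ⟨h, h1⟩
  simp only [dif_pos h2]
  exact tr1a_sum_repr ((s.Ip p h).bas n) ⟨f p, h1⟩

theorem IsLim.zero_iff {n : ℤ} {f : ∀ p, s.Lp p} {l : s.L} (h : IsLim s n f l) :
    l = 0 ↔ ∀ᶠ p in (UU : Filter PP), f p = 0 := by
  obtain ⟨c, hc, rfl⟩ := h
  rw [tr1a_sum_eq_zero]
  have h0 : ∀ a, cl (fun p => c p a) = 0 ↔ ∀ᶠ p in (UU : Filter PP), c p a = 0 := fun a => by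
    rw [← map_zero cl, cl_eq_iff]
    rfl
  simp only [h0]
  rw [← Filter.eventually_all]
  constructor
  · intro h
    filter_upwards [hc, UU_large 7, h] with p h1 h2 h3
    rw [h1 h2, tr1a_sum_eq_zero]
    exact h3
  · intro h
    filter_upwards [hc, UU_large 7, h] with p h1 h2 h3
    rw [h1 h2, tr1a_sum_eq_zero] at h3
    exact h3

theorem IsLim.add {n : ℤ} {f g : ∀ p, s.Lp p} {l l' : s.L} (h : IsLim s n f l) (h' : IsLim s n g l') :
    IsLim s n (fun p => f p + g p) (l + l') := by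
  obtain ⟨c, hc, rfl⟩ := h
  obtain ⟨c', hc', rfl⟩ := h'
  refine ⟨fun p a => c p a + c' p a, ?_, ?_⟩
  · filter_upwards [hc, hc'] with p h1 h2 h
    rw [h1 h, h2 h]
    simp only [add_smul, Finset.sum_add_distrib]
  · have e : ∀ a, cl (fun p => c p a + c' p a) = cl (fun p => c p a) + cl (fun p => c' p a) :=
      fun a => map_add cl _ _
    simp only [e, add_smul, Finset.sum_add_distrib]

theorem IsLim.smul {n : ℤ} {f : ∀ p, s.Lp p} {l : s.L} (h : IsLim s n f l) (c : ∀ p, Kp p) :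
    IsLim s n (fun p => c p • f p) (cl c • l) := by
  obtain ⟨c', hc', rfl⟩ := h
  refine ⟨fun p a => c p * c' p a, ?_, ?_⟩
  · filter_upwards [hc'] with p h1 h
    rw [h1 h]
    simp only [Finset.smul_sum, smul_smul]
  · have e : ∀ a, cl (fun p => c p * c' p a) = cl c * cl (fun p => c' p a) :=
      fun a => map_mul cl _ _
    simp only [e, Finset.smul_sum, smul_smul]

theorem IsLim.neg {n : ℤ} {f : ∀ p, s.Lp p} {l : s.L} (h : IsLim s n f l) :
    IsLim s n (fun p => - f p) (- l) := by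
  have h1 := h.smul (fun _ => -1)
  have h2 : cl (fun _ => (-1 : Kp _)) = -1 := by
    have : cl (-1) = -1 := by rw [map_neg, map_one]
    exact this
  rw [h2, neg_one_smul] at h1
  simpa using h1

theorem IsLim.congr {n : ℤ} {f g : ∀ p, s.Lp p} {l : s.L} (h : IsLim s n f l)
    (hfg : ∀ᶠ p in (UU : Filter PP), f p = g p) : IsLim s n g l := by
  obtain ⟨c, hc, rfl⟩ := h
  refine ⟨c, ?_, rfl⟩
  filter_upwards [hc, hfg] with p h1 h2 h
  rw [← h2, h1 h]

theorem IsLim.sum {ι : Type} (t : Finset ι) {n : ℤ} {f : ι → ∀ p, s.Lp p} {l : ι → s.L}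
    (h : ∀ i ∈ t, IsLim s n (f i) (l i)) : IsLim s n (fun p => ∑ i ∈ t, f i p) (∑ i ∈ t, l i) := by
  classical
  induction t using Finset.induction_on with
  | empty => simpa using tr1a_zero n
  | insert i t hi ih =>
    simp only [Finset.sum_insert hi]
    exact (h i (Finset.mem_insert_self _ _)).add
      (ih fun j hj => h j (Finset.mem_insert_of_mem hj))

theorem IsLim.unique {n : ℤ} {f : ∀ p, s.Lp p} {l l' : s.L} (h : IsLim s n f l) (h' : IsLim s n f l') :
    l = l' := by
  have h1 := h.add h'.neg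
  have h2 := h1.zero_iff.2 (Eventually.of_forall fun p => add_neg_cancel (f p))
  exact add_neg_eq_zero.1 h2

end R169.TR
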