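import Crest.Agent.R169.TR1A

/-!
# R169_TR1B: calculus of `IsLim`, multiplicative part.
`mul`: structure constants `m` are integers, the same for all `p` and for `UK` (`IForm.mul_eq`), `cl` is a ring hom
(`map_intCast`). `one1`: `IForm.one_eq`. `one0`: `B 0 = k·1` is one dimensional; `S 0` has exactly one element `a`;
`bas 0 a * bas 0 a = m • bas 0 a` forces `bas 0 a = (m : k) • 1` with the same integer `m` for all fields (and `m ≠ 0`
in all these fields), so `1 = m⁻¹ • bas 0 a`. `mono`: multiply by `1 ∈ B 1` (`mul` with `one1`).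
`unique'`: bring both to the same degree with `mono`, then `IsLim.unique`.
-/
set_option autoImplicit false
namespace R169.TR
open Filter

variable {s : Sys}

/-- product of two linear combinations of basis vectors -/
theorem iform_mul {k L : Type} [Field k] [Field L] [Algebra k L] {S : ℤ → Type}
    [∀ n, Fintype (S n)] {one : S 1} {m : ∀ i j : ℤ, S i → S j → S (i + j) → ℤ} {D : GD k L}
    (I : IForm S one m D) (i j : ℤ) (x : S i → k) (y : S j → k) :
    (∑ a, x a • (I.bas i a : L)) * (∑ b, y b • (I.bas j b : L)) =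
      ∑ t, (∑ a, ∑ b, x a * y b * ((m i j a b t : ℤ) : k)) • (I.bas (i + j) t : L) := by
  rw [Finset.sum_mul_sum]
  simp only [Finset.sum_smul]
  rw [Finset.sum_comm (s := (Finset.univ : Finset (S (i + j))))]
  refine Finset.sum_congr rfl fun a _ => ?_
  rw [Finset.sum_comm (s := (Finset.univ : Finset (S (i + j))))]
  refine Finset.sum_congr rfl fun b _ => ?_
  rw [smul_mul_smul_comm, I.mul_eq, Finset.smul_sum]
  refine Finset.sum_congr rfl fun t _ => ?_
  rw [smul_smul]

theorem IsLim.mul {i j : ℤ} {f g : ∀ p, s.Lp p} {l l' : s.L} (h : IsLim s i f l) (h' : IsLim s j g l') :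
    IsLim s (i + j) (fun p => f p * g p) (l * l') := by
  obtain ⟨c, hc, hl⟩ := h
  obtain ⟨c', hc', hl'⟩ := h'
  refine ⟨fun p t => ∑ a, ∑ b, c p a * c' p b * ((s.m i j a b t : ℤ) : Kp p), ?_, ?_⟩
  · filter_upwards [hc, hc'] with p h1 h2 hp
    rw [h1 hp, h2 hp]
    exact iform_mul (s.Ip p hp) i j _ _
  · rw [hl, hl', iform_mul s.I i j]
    refine Finset.sum_congr rfl fun t _ => ?_
    congr 1
    have h1 : (fun p => ∑ a, ∑ b, c p a * c' p b * ((s.m i j a b t : ℤ) : Kp p)) =
        ∑ a, ∑ b, ((fun p => c p a) * (fun p => c' p b) * ((s.m i j a b t : ℤ) : ∀ p, Kp p)) := by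
      funext p
      simp [Finset.sum_apply]
    rw [h1, map_sum]
    refine Finset.sum_congr rfl fun a _ => ?_
    rw [map_sum]
    refine Finset.sum_congr rfl fun b _ => ?_
    rw [map_mul, map_mul, map_intCast]

theorem isLim_one1 : IsLim s 1 (fun _ => 1) 1 := by
  classical
  refine ⟨fun p a => if a = s.one then 1 else 0, ?_, ?_⟩
  · refine Eventually.of_forall fun p hp => ?_
    rw [Finset.sum_eq_single s.one]
    · beta_reduce
      rw [if_pos rfl, one_smul, (s.Ip p hp).one_eq]
    · intro b _ hb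
      beta_reduce
      rw [if_neg hb, zero_smul]
    · intro hn
      exact absurd (Finset.mem_univ _) hn
  · rw [Finset.sum_eq_single s.one]
    · have h1 : (fun p : PP => if s.one = s.one then (1 : Kp p) else 0) = 1 := by
        funext p
        rw [if_pos rfl]
        rfl
      rw [h1, map_one, one_smul, s.I.one_eq]
    · intro b _ hb
      have h1 : (fun p : PP => if b = s.one then (1 : Kp p) else 0) = 0 := by
        funext p
        rw [if_neg hb]
        rfl
      rw [h1, map_zero, zero_smul]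
    · intro hn
      exact absurd (Finset.mem_univ _) hn

/-- the basis of `B 0` consists of one element `a`, and it is the integer `m 0 0 a a a` -/
theorem iform_zero {k L : Type} [Field k] [Field L] [Algebra k L] {S : ℤ → Type}
    [∀ n, Fintype (S n)] {one : S 1} {m : ∀ i j : ℤ, S i → S j → S (i + j) → ℤ} {D : GD k L}
    (I : IForm S one m D) : Fintype.card (S 0) = 1 ∧
      ∀ a : S 0, (∀ b : S 0, b = a) →
        (I.bas 0 a : L) = ((m 0 0 a a a : ℤ) : k) • (1 : L) ∧ ((m 0 0 a a a : ℤ) : k) ≠ 0 := by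
  have hcard : Fintype.card (S 0) = 1 := by
    rw [← Module.finrank_eq_card_basis (I.bas 0), D.zero]
    exact finrank_span_singleton one_ne_zero
  refine ⟨hcard, fun a ha => ?_⟩
  have hne : (I.bas 0 a : L) ≠ 0 := by
    intro h0
    exact (I.bas 0).ne_zero a (Subtype.ext h0)
  have hmul : (I.bas 0 a : L) * (I.bas 0 a : L) =
      ∑ c : S 0, ((m 0 0 a a c : ℤ) : k) • (I.bas 0 c : L) := I.mul_eq 0 0 a a
  have hsum : (∑ c : S 0, ((m 0 0 a a c : ℤ) : k) • (I.bas 0 c : L)) =
      ((m 0 0 a a a : ℤ) : k) • (I.bas 0 a : L) := by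
    rw [Finset.sum_eq_single a]
    · intro b _ hb
      exact absurd (ha b) hb
    · intro hn
      exact absurd (Finset.mem_univ _) hn
  rw [hsum] at hmul
  have h1 : (I.bas 0 a : L) = ((m 0 0 a a a : ℤ) : k) • (1 : L) := by
    apply mul_right_cancel₀ hne
    rw [hmul, smul_mul_assoc, one_mul]
  refine ⟨h1, fun h0 => hne ?_⟩
  rw [h1, h0, zero_smul]

theorem isLim_one0 : IsLim s 0 (fun _ => 1) 1 := by
  obtain ⟨hcard, hI⟩ := iform_zero s.I
  obtain ⟨a, ha⟩ := Fintype.card_eq_one_iff.1 hcard
  refine ⟨fun p _ => ((s.m 0 0 a a a : ℤ) : Kp p)⁻¹, ?_, ?_⟩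
  · refine Eventually.of_forall fun p hp => ?_
    obtain ⟨h1, h2⟩ := (iform_zero (s.Ip p hp)).2 a ha
    rw [Finset.sum_eq_single a]
    · rw [h1, smul_smul, inv_mul_cancel₀ h2, one_smul]
    · intro b _ hb
      exact absurd (ha b) hb
    · intro hn
      exact absurd (Finset.mem_univ _) hn
  · rw [Finset.sum_eq_single a]
    · rw [(hI a ha).1, smul_smul]
      have h3 : cl (fun p => ((s.m 0 0 a a a : ℤ) : Kp p)⁻¹) * ((s.m 0 0 a a a : ℤ) : UK) = 1 := by
        rw [← map_intCast cl, ← map_mul, ← map_one cl, cl_eq_iff]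
        filter_upwards [UU_large 7] with p hp
        have h2 := ((iform_zero (s.Ip p hp)).2 a ha).2
        simp only [Pi.mul_apply, Pi.intCast_apply, Pi.one_apply]
        exact inv_mul_cancel₀ h2
      rw [h3, one_smul]
    · intro b _ hb
      exact absurd (ha b) hb
    · intro hn
      exact absurd (Finset.mem_univ _) hn

theorem IsLim.mono {n : ℤ} {f : ∀ p, s.Lp p} {l : s.L} (h : IsLim s n f l) (i : ℕ) :
    IsLim s (n + i) f l := by
  induction i with
  | zero => simpa using h
  | succ i ih =>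
    have h1 : n + ((i + 1 : ℕ) : ℤ) = n + i + 1 := by push_cast; ring
    rw [h1]
    have h2 := ih.mul (isLim_one1 (s := s))
    simpa using h2

theorem IsLim.unique' {n n' : ℤ} {f : ∀ p, s.Lp p} {l l' : s.L} (h : IsLim s n f l)
    (h' : IsLim s n' f l') : l = l' := by
  rcases le_total n n' with hn | hn
  · obtain ⟨i, rfl⟩ := Int.le.dest hn
    exact (h.mono i).unique h'
  · obtain ⟨i, rfl⟩ := Int.le.dest hn
    exact h.unique (h'.mono i)

theorem IsLim.pow {i : ℤ} {f : ∀ p, s.Lp p} {l : s.L} (h : IsLim s i f l) (a : ℕ) :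
    IsLim s (a * i) (fun p => f p ^ a) (l ^ a) := by
  induction a with
  | zero => simpa using isLim_one0 (s := s)
  | succ a ih =>
    have h1 : ((a + 1 : ℕ) : ℤ) * i = a * i + i := by push_cast; ring
    rw [h1]
    simp only [pow_succ]
    exact ih.mul h

theorem IsLim.prod {ι : Type} (t : Finset ι) {d : ι → ℤ} {f : ι → ∀ p, s.Lp p} {l : ι → s.L}
    (h : ∀ i ∈ t, IsLim s (d i) (f i) (l i)) :
    IsLim s (∑ i ∈ t, d i) (fun p => ∏ i ∈ t, f i p) (∏ i ∈ t, l i) := by
  classical
  induction t using Finset.induction_on with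
  | empty => simpa using isLim_one0 (s := s)
  | insert i t hi ih =>
    rw [Finset.sum_insert hi, Finset.prod_insert hi]
    simp only [Finset.prod_insert hi]
    exact (h i (Finset.mem_insert_self i t)).mul
      (ih fun j hj => h j (Finset.mem_insert_of_mem hj))

/-- determinants: entry `(i,j)` in degree `b i - a j` -/
theorem IsLim.det {h : ℕ} (b : Fin h → ℤ) (a : Fin h → ℤ) {M : ∀ p, Matrix (Fin h) (Fin h) (s.Lp p)}
    {N : Matrix (Fin h) (Fin h) s.L} (hM : ∀ i j, IsLim s (b i - a j) (fun p => M p i j) (N i j)) :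
    IsLim s (∑ i, b i - ∑ j, a j) (fun p => (M p).det) N.det := by
  simp only [Matrix.det_apply]
  refine IsLim.sum _ fun σ _ => ?_
  have h1 : IsLim s (∑ i, b i - ∑ j, a j) (fun p => ∏ i, M p (σ i) i) (∏ i, N (σ i) i) := by
    have h2 : ∑ i, b i - ∑ j, a j = ∑ i, (b (σ i) - a i) := by
      rw [Finset.sum_sub_distrib, Equiv.sum_comp σ b]
    rw [h2]
    exact IsLim.prod Finset.univ fun i _ => hM (σ i) i
  rcases Int.units_eq_one_or (Equiv.Perm.sign σ) with hσ | hσ
  · simpa [hσ] using h1
  · simpa [hσ] using h1.neg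

end R169.TR
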