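import Crest.Agent.R169.TR1B

/-!
# R169_TR1C: calculus of `IsLim` for `A`.
`hη : IsLim s 1 ηp η`, `hζ : IsLim s 1 ζp ζ`. For `a + b ≤ n`: `IsLim s n (ηp^a ζp^b) (η^a ζ^b)` (`pow`, `mul`, `mono`).
Elements of `A k η ζ n` are finite combinations of the finitely many monomials with `a + b ≤ n`
(`Submodule.mem_span_range_iff` over the finite type `{(a,b) | a + b ≤ n}`); lift the coefficients by `cl_surj`;
conversely choose coefficients for a.e. `p`.
-/
set_option autoImplicit false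
namespace R169.TR
open Filter

variable {s : Sys} {ηp ζp : ∀ p, s.Lp p} {η ζ : s.L}

theorem isLim_monomial (hη : IsLim s 1 ηp η) (hζ : IsLim s 1 ζp ζ) {n : ℤ} {a b : ℕ}
    (hab : (a : ℤ) + b ≤ n) : IsLim s n (fun p => ηp p ^ a * ζp p ^ b) (η ^ a * ζ ^ b) := by
  have h1 := ((hη.pow a).mul (hζ.pow b)).mono (n - (a + b)).toNat
  have h2 : (a : ℤ) * 1 + (b : ℤ) * 1 + ((n - (a + b)).toNat : ℤ) = n := by
    rw [Int.toNat_of_nonneg (by omega)]; ring
  rw [h2] at h1
  exact h1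

theorem exists_liftA (hη : IsLim s 1 ηp η) (hζ : IsLim s 1 ζp ζ) {n : ℤ} {l : s.L}
    (hl : l ∈ A UK η ζ n) :
    ∃ f : ∀ p, s.Lp p, IsLim s n f l ∧ ∀ p, f p ∈ A (Kp p) (ηp p) (ζp p) n := by
  unfold A at hl
  induction hl using Submodule.span_induction with
  | mem x hx =>
    obtain ⟨a, b, hab, rfl⟩ := hx
    exact ⟨_, isLim_monomial hη hζ hab, fun p => Submodule.subset_span ⟨a, b, hab, rfl⟩⟩
  | zero =>
    have h0 := IsLim.sum (s := s) (∅ : Finset Empty) (n := n) (f := fun i => i.elim)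
      (l := fun i => i.elim) (fun i hi => i.elim)
    simp only [Finset.sum_empty] at h0
    exact ⟨fun p => 0, h0, fun p => Submodule.zero_mem _⟩
  | add x y hx hy ihx ihy =>
    obtain ⟨f, hf, hf2⟩ := ihx
    obtain ⟨g, hg, hg2⟩ := ihy
    exact ⟨_, hf.add hg, fun p => Submodule.add_mem _ (hf2 p) (hg2 p)⟩
  | smul c x hx ih =>
    obtain ⟨f, hf, hf2⟩ := ih
    obtain ⟨c', rfl⟩ := cl_surj c
    exact ⟨_, hf.smul c', fun p => Submodule.smul_mem _ _ (hf2 p)⟩

/-- the finite set of exponents -/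
private def expT (n : ℤ) : Finset (ℕ × ℕ) :=
  (Finset.range (n.toNat + 1) ×ˢ Finset.range (n.toNat + 1)).filter fun t => (t.1 : ℤ) + t.2 ≤ n

private theorem A_eq_range (k : Type) {L : Type} [Field k] [Field L] [Algebra k L] (x y : L) (n : ℤ) :
    A k x y n = Submodule.span k (Set.range fun t : expT n => x ^ t.1.1 * y ^ t.1.2) := by
  unfold A
  congr 1
  ext l
  constructor
  · rintro ⟨a, b, hab, rfl⟩
    refine ⟨⟨(a, b), ?_⟩, rfl⟩
    simp only [expT, Finset.mem_filter, Finset.mem_product, Finset.mem_range]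
    omega
  · rintro ⟨⟨⟨a, b⟩, ht⟩, rfl⟩
    simp only [expT, Finset.mem_filter, Finset.mem_product, Finset.mem_range] at ht
    exact ⟨a, b, ht.2, rfl⟩

theorem IsLim.mem_A_iff (hη : IsLim s 1 ηp η) (hζ : IsLim s 1 ζp ζ)
    (hP : Par s.D η ζ) (hPp : ∀ᶠ p in (UU : Filter PP), Par (s.Dp p) (ηp p) (ζp p))
    {n : ℤ} {f : ∀ p, s.Lp p} {l : s.L} (h : IsLim s n f l) :
    l ∈ A UK η ζ n ↔ ∀ᶠ p in (UU : Filter PP), f p ∈ A (Kp p) (ηp p) (ζp p) n := by
  classical
  constructor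
  · intro hl
    obtain ⟨f', hf', hf2⟩ := exists_liftA hη hζ hl
    have h1 := h.add hf'.neg
    have h2 := (IsLim.zero_iff h1).1 (add_neg_cancel l)
    filter_upwards [h2] with p hp
    have h3 : f p = f' p := by
      rw [← sub_eq_zero, sub_eq_add_neg]; exact hp
    rw [h3]
    exact hf2 p
  · intro hf
    have h1 : ∀ p, ∃ c : expT n → Kp p, f p ∈ A (Kp p) (ηp p) (ζp p) n →
        ∑ t, c t • (ηp p ^ t.1.1 * ζp p ^ t.1.2) = f p := by
      intro p
      by_cases hp : f p ∈ A (Kp p) (ηp p) (ζp p) n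
      · have hp2 := hp
        rw [A_eq_range, Submodule.mem_span_range_iff_exists_fun] at hp2
        obtain ⟨c, hc⟩ := hp2
        exact ⟨c, fun _ => hc⟩
      · exact ⟨fun _ => 0, fun h => absurd h hp⟩
    choose c hc using h1
    have h2 : IsLim s n (fun p => ∑ t, c p t • (ηp p ^ t.1.1 * ζp p ^ t.1.2))
        (∑ t : expT n, cl (fun p => c p t) • (η ^ t.1.1 * ζ ^ t.1.2)) := by
      refine IsLim.sum Finset.univ (fun t _ => ?_)
      have ht := t.2
      simp only [expT, Finset.mem_filter, Finset.mem_product, Finset.mem_range] at ht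
      exact (isLim_monomial hη hζ ht.2).smul (fun p => c p t)
    have h3 : IsLim s n f (∑ t : expT n, cl (fun p => c p t) • (η ^ t.1.1 * ζ ^ t.1.2)) := by
      refine h2.congr ?_
      filter_upwards [hf] with p hp
      exact hc p hp
    rw [h.unique h3, A_eq_range]
    exact Submodule.sum_mem _ fun t _ => Submodule.smul_mem _ _ (Submodule.subset_span ⟨t, rfl⟩)

end R169.TR
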