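import Crest.Agent.R169.TR1C
import Crest.Agent.R169.TR2A

/-!
# R169_TR2B: transfer of the parameters.
`hp_transfer`: `finrank B_p n = card (S n) = finrank B n` for all `n` (bases of the `IForm`s).
`par_transfer`: over `UK` take `n1 ≥ 0` with `B (n1+1) ≤ B n1 ⊔ ηB n1 ⊔ ζB n1`. Write the basis elements of `B (n1+1)`
as `u + η v + ζ w` with `u v w ∈ B n1`, lift (`exists_lift`), so the same holds for a.e. `p` in the single degree `n1`
(`IsLim.zero_iff`). For `n ≥ n1` multiply by `B_p 1` (`Gen1`): induction. Independence: `indep_of_gen`.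
`hd`: `0 < d` from `IsLat.rank`.
-/
set_option autoImplicit false
namespace R169.TR
open Filter

variable {s : Sys} {ηp ζp : ∀ p, s.Lp p} {η ζ : s.L}

theorem finrank_transfer (p : PP) (hp : 7 < p.1) (n : ℤ) :
    Module.finrank (Kp p) ((s.Dp p).B n) = Module.finrank UK (s.D.B n) := by
  rw [Module.finrank_eq_card_basis ((s.Ip p hp).bas n), Module.finrank_eq_card_basis (s.I.bas n)]

theorem hp_transfer {d βB γB : ℚ} (hB : HasHP s.D.B d βB γB) (p : PP) (hp : 7 < p.1) :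
    HasHP (s.Dp p).B d βB γB := by
  obtain ⟨n0, hn0⟩ := hB
  refine ⟨n0, fun n hn => ?_⟩
  rw [finrank_transfer p hp n]
  exact hn0 n hn

/-- the basis elements converge -/
theorem isLim_bas (n : ℤ) (a : s.S n) :
    IsLim s n (fun p => by
      classical
      exact if h : 7 < p.1 then ((s.Ip p h).bas n a : s.Lp p) else 0) (s.I.bas n a : s.L) := by
  classical
  refine ⟨fun p b => if b = a then 1 else 0, ?_, ?_⟩
  · refine Eventually.of_forall fun p hp => ?_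
    beta_reduce
    rw [dif_pos hp, Finset.sum_eq_single a]
    · beta_reduce
      rw [if_pos rfl, one_smul]
    · intro b _ hb
      rw [if_neg hb, zero_smul]
    · intro hn
      exact absurd (Finset.mem_univ _) hn
  · rw [Finset.sum_eq_single a]
    · have h1 : (fun p : PP => if a = a then (1 : Kp p) else 0) = 1 := by
        funext p
        rw [if_pos rfl]
        rfl
      rw [h1, map_one, one_smul]
    · intro b _ hb
      have h1 : (fun p : PP => if b = a then (1 : Kp p) else 0) = 0 := by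
        funext p
        rw [if_neg hb]
        rfl
      rw [h1, map_zero, zero_smul]
    · intro hn
      exact absurd (Finset.mem_univ _) hn

theorem gen_step {k L : Type} [Field k] [Field L] [Algebra k L] {D : GD k L} {x y : L}
    (hg : Gen1 D) {n1 : ℤ} (h0 : 0 ≤ n1)
    (h : D.B (n1 + 1) ≤ D.B n1 ⊔ sm x (D.B n1) ⊔ sm y (D.B n1)) :
    ∀ n, n1 ≤ n → D.B (n + 1) ≤ D.B n ⊔ sm x (D.B n) ⊔ sm y (D.B n) := by
  intro n hn
  obtain ⟨j, rfl⟩ := Int.le.dest hn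
  clear hn
  induction j with
  | zero => simpa using h
  | succ j ih =>
    have e1 : n1 + ((j + 1 : ℕ) : ℤ) = n1 + j + 1 := by push_cast; ring
    rw [e1]
    refine (hg (n1 + j + 1) (by omega)).trans ?_
    rw [Submodule.mul_le]
    intro c hc b hb
    obtain ⟨u, hu, w, hw, rfl⟩ := Submodule.mem_sup.1 (ih hb)
    obtain ⟨u0, hu0, u1, hu1, rfl⟩ := Submodule.mem_sup.1 hu
    obtain ⟨v1, hv1, rfl⟩ := Lat.mem_sm.1 hu1
    obtain ⟨v2, hv2, rfl⟩ := Lat.mem_sm.1 hw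
    have hm : ∀ v ∈ D.B (n1 + j), c * v ∈ D.B (n1 + j + 1) := by
      intro v hv
      have := D.mul_mem hc hv
      rwa [add_comm (1 : ℤ)] at this
    rw [mul_add, mul_add]
    refine Submodule.add_mem_sup (Submodule.add_mem_sup (hm _ hu0) ?_) ?_
    · exact Lat.mem_sm.2 ⟨c * v1, hm _ hv1, by simp only [smul_eq_mul]; ring⟩
    · exact Lat.mem_sm.2 ⟨c * v2, hm _ hv2, by simp only [smul_eq_mul]; ring⟩

theorem par_transfer (hP : Par s.D η ζ) (hη : IsLim s 1 ηp η) (hζ : IsLim s 1 ζp ζ) :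
    ∃ n1 : ℤ, 0 ≤ n1 ∧ ∀ᶠ p in (UU : Filter PP), Par (s.Dp p) (ηp p) (ζp p) ∧
      ∀ n, n1 ≤ n → (s.Dp p).B (n + 1) ≤ (s.Dp p).B n ⊔ sm (ηp p) ((s.Dp p).B n) ⊔ sm (ζp p) ((s.Dp p).B n) := by
  classical
  obtain ⟨n0, hn0⟩ := hP.gen
  obtain ⟨n1, hn1, h1⟩ : ∃ n1 : ℤ, 0 ≤ n1 ∧
      s.D.B (n1 + 1) ≤ s.D.B n1 ⊔ sm η (s.D.B n1) ⊔ sm ζ (s.D.B n1) :=
    ⟨max n0 0, le_max_right _ _, hn0 _ (le_max_left _ _)⟩
  refine ⟨n1, hn1, ?_⟩
  obtain ⟨N, β, γ, hB, -, -⟩ := (IsLat.toPLat hP (isLat_B hP)).hasHP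
  have hd : (0 : ℚ) < N := (IsLat.rank hP hB (isLat_B hP) hB).1
  have key : ∀ a : s.S (n1 + 1), ∀ᶠ p in (UU : Filter PP), ∀ h : 7 < p.1,
      ((s.Ip p h).bas (n1 + 1) a : s.Lp p) ∈
        (s.Dp p).B n1 ⊔ sm (ηp p) ((s.Dp p).B n1) ⊔ sm (ζp p) ((s.Dp p).B n1) := by
    intro a
    obtain ⟨u, hu, w, hw, huw⟩ := Submodule.mem_sup.1 (h1 (s.I.bas (n1 + 1) a).2)
    obtain ⟨u0, hu0, u1, hu1, hu01⟩ := Submodule.mem_sup.1 hu
    obtain ⟨v1, hv1, hv1'⟩ := Lat.mem_sm.1 hu1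
    obtain ⟨v2, hv2, hv2'⟩ := Lat.mem_sm.1 hw
    obtain ⟨f0, hf0, hf0'⟩ := exists_lift hu0
    obtain ⟨f1, hf1, hf1'⟩ := exists_lift hv1
    obtain ⟨f2, hf2, hf2'⟩ := exists_lift hv2
    have g0 : IsLim s (n1 + 1) f0 u0 := by simpa using hf0.mono 1
    have g1 : IsLim s (n1 + 1) (fun p => ηp p * f1 p) u1 := by
      have := hη.mul hf1
      rw [add_comm (1 : ℤ)] at this
      rw [← hv1', smul_eq_mul]
      exact this
    have g2 : IsLim s (n1 + 1) (fun p => ζp p * f2 p) w := by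
      have := hζ.mul hf2
      rw [add_comm (1 : ℤ)] at this
      rw [← hv2', smul_eq_mul]
      exact this
    have g3 := ((g0.add g1).add g2).add (isLim_bas (s := s) (n1 + 1) a).neg
    rw [hu01, huw] at g3
    have g4 := g3.zero_iff.1 (add_neg_cancel _)
    filter_upwards [g4] with p hp h

    rw [dif_pos h, add_neg_eq_zero] at hp
    rw [← hp]
    refine Submodule.add_mem_sup (Submodule.add_mem_sup (hf0' p) ?_) ?_
    · exact Lat.mem_sm.2 ⟨f1 p, hf1' p, rfl⟩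
    · exact Lat.mem_sm.2 ⟨f2 p, hf2' p, rfl⟩
  have key2 := Filter.eventually_all.2 key
  filter_upwards [key2, UU_large 7, hη.ev_mem, hζ.ev_mem] with p h2 h7 hηp hζp
  have hgen1 : (s.Dp p).B (n1 + 1) ≤
      (s.Dp p).B n1 ⊔ sm (ηp p) ((s.Dp p).B n1) ⊔ sm (ζp p) ((s.Dp p).B n1) := by
    intro b hb
    have h3 := congrArg (fun y : (s.Dp p).B (n1 + 1) => (y : s.Lp p))
      (((s.Ip p h7).bas (n1 + 1)).sum_repr ⟨b, hb⟩)
    simp only [AddSubmonoidClass.coe_finsetSum, Submodule.coe_smul] at h3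
    rw [← h3]
    exact Submodule.sum_mem _ fun a _ => Submodule.smul_mem _ _ (h2 a h7)
  have hgen := gen_step (s.gen1 p h7) hn1 hgen1
  exact ⟨⟨hηp, hζp, indep_of_gen hηp hζp hgen hd (hp_transfer hB p h7), ⟨n1, hgen⟩⟩, hgen⟩

end R169.TR
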