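import Crest.Agent.R169.TR2B

/-!
# R169_TR2C: transfer of `RhoCert` (uniform constants).
Over `UK`: `ρ i ∈ B e`, `δ ∈ A t`, `δ ≠ 0`, and for every basis element `b` of `B n`, `n ≤ n1`: `δ b = ∑ g_i ρ_i`,
`g_i ∈ A (n+t)`. Lift `ρ, δ, g` (`exists_lift`, `exists_liftA`); finitely many identities hold for a.e. `p`
(for `n < 0`, `B n = 0`, so only `0 ≤ n ≤ n1` matter). For `n > n1` use `gen` at `p` (uniform `n1`, `par_transfer`):
`b = u + ηp v + ζp w`, induction (`A (n+t)` stable under `ηp`: `A_mul_mem`). Independence of `ρ_p` over `F_p`: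
the identities show that `δ_p^{-1}·span_F ρ_p ⊃ ⋃ B_p n`, so `span_F ρ_p = L_p` (L_p = quotients of elements of `B_p`;
span_F ρ_p ⊇ B-span is a finite dimensional F-algebra... or use `finrank_FF`: `L_p = F_p · ⋃ B_p n` because the
right side is a finite dimensional domain over `F_p`), and `finrank_FF` gives `finrank = d = #ρ`, so independent.
-/
set_option autoImplicit false
namespace R169.TR
open Filter

section generic

variable {k L : Type} [Field k] [Field L] [Algebra k L] {D : GD k L} {η ζ : L}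

theorem mem_FF_of_A {n : ℤ} {x : L} (hx : x ∈ A k η ζ n) : x ∈ FF k η ζ := by
  unfold A at hx
  induction hx using Submodule.span_induction with
  | mem x hx =>
    obtain ⟨a, b, _, rfl⟩ := hx
    have h1 : η ∈ FF k η ζ := IntermediateField.subset_adjoin k _ (by simp)
    have h2 : ζ ∈ FF k η ζ := IntermediateField.subset_adjoin k _ (by simp)
    exact mul_mem (pow_mem h1 a) (pow_mem h2 b)
  | zero => exact zero_mem _
  | add x y _ _ hx hy => exact add_mem hx hy
  | smul c x _ hx => exact (FF k η ζ).smul_mem hx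

/-- from the identities in degrees `≤ n1` to all degrees -/
theorem ident_all {d : ℕ} {t n1 : ℤ}
    (hgen : ∀ n, n1 ≤ n → D.B (n + 1) ≤ D.B n ⊔ sm η (D.B n) ⊔ sm ζ (D.B n))
    (ρ : Fin d → L) (δ : L)
    (hid : ∀ n, 0 ≤ n → n ≤ n1 → ∀ b, b ∈ D.B n → ∃ g : Fin d → L,
      (∀ i, g i ∈ A k η ζ (n + t)) ∧ δ * b = ∑ i, g i * ρ i) :
    ∀ n b, b ∈ D.B n → ∃ g : Fin d → L,
      (∀ i, g i ∈ A k η ζ (n + t)) ∧ δ * b = ∑ i, g i * ρ i := by
  have hlow : ∀ n, n ≤ n1 → ∀ b, b ∈ D.B n → ∃ g : Fin d → L,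
      (∀ i, g i ∈ A k η ζ (n + t)) ∧ δ * b = ∑ i, g i * ρ i := by
    intro n hn b hb
    by_cases h0 : 0 ≤ n
    · exact hid n h0 hn b hb
    · rw [D.neg n (by omega), Submodule.mem_bot] at hb
      exact ⟨fun _ => 0, fun i => Submodule.zero_mem _, by simp [hb]⟩
  have hhigh : ∀ j : ℕ, ∀ b, b ∈ D.B (n1 + j) → ∃ g : Fin d → L,
      (∀ i, g i ∈ A k η ζ (n1 + j + t)) ∧ δ * b = ∑ i, g i * ρ i := by
    intro j
    induction j with
    | zero =>
      intro b hb
      exact hlow (n1 + (0 : ℕ)) (by simp) b hb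
    | succ j ih =>
      intro b hb
      have e : n1 + ((j + 1 : ℕ) : ℤ) = n1 + j + 1 := by push_cast; ring
      rw [e] at hb ⊢
      have h1 := hgen (n1 + j) (by omega) hb
      obtain ⟨y, hy, w, hw, rfl⟩ := Submodule.mem_sup.1 h1
      obtain ⟨u, hu, v, hv, rfl⟩ := Submodule.mem_sup.1 hy
      obtain ⟨v', hv', rfl⟩ := Lat.mem_sm.1 hv
      obtain ⟨w', hw', rfl⟩ := Lat.mem_sm.1 hw
      obtain ⟨g1, hg1, e1⟩ := ih u hu
      obtain ⟨g2, hg2, e2⟩ := ih v' hv'
      obtain ⟨g3, hg3, e3⟩ := ih w' hw'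
      refine ⟨fun i => g1 i + η * g2 i + ζ * g3 i, fun i => ?_, ?_⟩
      · have k1 : g1 i ∈ A k η ζ (n1 + j + 1 + t) := Lat.A_mono (by omega) (hg1 i)
        have k2 : η * g2 i ∈ A k η ζ (n1 + j + 1 + t) := by
          have := A_mul_mem (Lat.eta_mem_A (k := k) (η := η) (ζ := ζ)) (hg2 i)
          rwa [show (1 : ℤ) + (n1 + j + t) = n1 + j + 1 + t by ring] at this
        have k3 : ζ * g3 i ∈ A k η ζ (n1 + j + 1 + t) := by
          have := A_mul_mem (Lat.zeta_mem_A (k := k) (η := η) (ζ := ζ)) (hg3 i)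
          rwa [show (1 : ℤ) + (n1 + j + t) = n1 + j + 1 + t by ring] at this
        exact Submodule.add_mem _ (Submodule.add_mem _ k1 k2) k3
      · simp only [smul_eq_mul]
        have : δ * (u + η * v' + ζ * w') = δ * u + η * (δ * v') + ζ * (δ * w') := by ring
        rw [this, e1, e2, e3, Finset.mul_sum, Finset.mul_sum, ← Finset.sum_add_distrib,
          ← Finset.sum_add_distrib]
        exact Finset.sum_congr rfl fun i _ => by ring
  intro n b hb
  rcases le_total n n1 with hn | hn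
  · exact hlow n hn b hb
  · obtain ⟨j, rfl⟩ := Int.le.dest hn
    exact hhigh j b hb

/-- identities give the certificate -/
theorem rho_of_ident (hP : Par D η ζ) {d : ℕ} {βB γB : ℚ} (hB : HasHP D.B d βB γB) {e t n1 : ℤ}
    (hgen : ∀ n, n1 ≤ n → D.B (n + 1) ≤ D.B n ⊔ sm η (D.B n) ⊔ sm ζ (D.B n))
    (ρ : Fin d → L) (hρ : ∀ i, ρ i ∈ D.B e) (δ : L) (hδ : δ ∈ A k η ζ t) (hδ0 : δ ≠ 0)
    (hid : ∀ n, 0 ≤ n → n ≤ n1 → ∀ b, b ∈ D.B n → ∃ g : Fin d → L,
      (∀ i, g i ∈ A k η ζ (n + t)) ∧ δ * b = ∑ i, g i * ρ i) :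
    RhoCert D η ζ d e t := by
  have hall := ident_all hgen ρ δ hid
  refine ⟨ρ, hρ, ?_, δ, hδ, hδ0, hall⟩
  obtain ⟨hfd, hfr⟩ := finrank_FF hP hB
  have hδF : δ ∈ FF k η ζ := mem_FF_of_A hδ
  -- the `B n` lie in the span
  have hW : ∀ n b, b ∈ D.B n → b ∈ Submodule.span (FF k η ζ) (Set.range ρ) := by
    intro n b hb
    obtain ⟨g, hg, e1⟩ := hall n b hb
    have e2 : b = ∑ i, (⟨g i / δ, div_mem (mem_FF_of_A (hg i)) hδF⟩ : FF k η ζ) • ρ i := by
      have e3 : ∀ i, (⟨g i / δ, div_mem (mem_FF_of_A (hg i)) hδF⟩ : FF k η ζ) • ρ i =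
          g i * ρ i / δ := by
        intro i
        rw [Algebra.smul_def]
        show g i / δ * ρ i = g i * ρ i / δ
        ring
      simp only [e3]
      rw [← Finset.sum_div, ← e1]
      field_simp
    rw [e2]
    exact Submodule.sum_mem _ fun i _ =>
      Submodule.smul_mem _ _ (Submodule.subset_span ⟨i, rfl⟩)
  let M : Submonoid L :=
    { carrier := {l | ∃ n, l ∈ D.B n}
      one_mem' := ⟨1, D.one_mem⟩
      mul_mem' := by
        rintro a b ⟨i, ha⟩ ⟨j, hb⟩
        exact ⟨i + j, D.mul_mem ha hb⟩ }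
  let S : Subalgebra (FF k η ζ) L := Algebra.adjoin (FF k η ζ) (M : Set L)
  have hS : Subalgebra.toSubmodule S ≤ Submodule.span (FF k η ζ) (Set.range ρ) := by
    show Subalgebra.toSubmodule (Algebra.adjoin (FF k η ζ) (M : Set L)) ≤ _
    rw [Algebra.adjoin_eq_span, Submonoid.closure_eq, Submodule.span_le]
    rintro l ⟨n, hl⟩
    exact hW n l hl
  have hMS : ∀ n b, b ∈ D.B n → b ∈ S := fun n b hb => Algebra.subset_adjoin ⟨n, hb⟩
  have htop : (⊤ : Submodule (FF k η ζ) L) ≤ Submodule.span (FF k η ζ) (Set.range ρ) := by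
    intro l _
    apply hS
    obtain ⟨n, a, ha, b, hb, hb0, rfl⟩ := D.frac l
    show a / b ∈ S
    rw [div_eq_mul_inv]
    refine S.mul_mem (hMS n a ha) ?_
    exact S.inv_mem_of_algebraic (x := ⟨b, hMS n b hb⟩) (Algebra.IsAlgebraic.isAlgebraic b)
  refine linearIndependent_of_top_le_span_of_card_eq_finrank htop ?_
  rw [Fintype.card_fin]
  exact_mod_cast hfr.symm

end generic

variable {s : Sys} {ηp ζp : ∀ p, s.Lp p} {η ζ : s.L}

theorem IsLim.eq_ev {n n' : ℤ} {f g : ∀ p, s.Lp p} {l : s.L} (h : IsLim s n f l)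
    (h' : IsLim s n' g l) : ∀ᶠ p in (UU : Filter PP), f p = g p := by
  have key : ∀ {n : ℤ} {f g : ∀ p, s.Lp p}, IsLim s n f l → IsLim s n g l →
      ∀ᶠ p in (UU : Filter PP), f p = g p := by
    intro n f g h h'
    have h1 := h.add h'.neg
    have h2 := (IsLim.zero_iff h1).1 (add_neg_cancel l)
    filter_upwards [h2] with p hp
    rw [← sub_eq_zero, sub_eq_add_neg]
    exact hp
  rcases le_total n n' with hn | hn
  · obtain ⟨i, rfl⟩ := Int.le.dest hn
    exact key (h.mono i) h'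
  · obtain ⟨i, rfl⟩ := Int.le.dest hn
    exact key h (h'.mono i)

private theorem isLim_bas2 (n : ℤ) (a : s.S n) :
    IsLim s n (fun p => if h : 7 < p.1 then ((s.Ip p h).bas n a : s.Lp p) else 0)
      (s.I.bas n a : s.L) := by
  classical
  refine ⟨fun p b => if b = a then 1 else 0, ?_, ?_⟩
  · refine Eventually.of_forall fun p hp => ?_
    beta_reduce
    rw [dif_pos hp, Finset.sum_eq_single a]
    · skip
      rw [if_pos rfl, one_smul]
    · intro b _ hb
      rw [if_neg hb, zero_smul]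
    · intro hn
      exact absurd (Finset.mem_univ _) hn
  · rw [Finset.sum_eq_single a]
    · have h1 : (fun p : PP => if a = a then (1 : Kp p) else 0) = 1 := by
        funext p
        rw [if_pos rfl]
        rfl
      rw [h1, map_one, one_smul]
    · intro b _ hb
      have h1 : (fun p : PP => if b = a then (1 : Kp p) else 0) = 0 := by
        funext p
        rw [if_neg hb]
        rfl
      rw [h1, map_zero, zero_smul]
    · intro hn
      exact absurd (Finset.mem_univ _) hn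

theorem rho_transfer (hP : Par s.D η ζ) (hη : IsLim s 1 ηp η) (hζ : IsLim s 1 ζp ζ)
    {d : ℕ} {βB γB : ℚ} (hB : HasHP s.D.B d βB γB) {e t : ℤ} (h : RhoCert s.D η ζ d e t) :
    ∀ᶠ p in (UU : Filter PP), RhoCert (s.Dp p) (ηp p) (ζp p) d e t := by
  obtain ⟨ρ, hρ, -, δ, hδ, hδ0, hid⟩ := h
  obtain ⟨n1, hn1, hpar⟩ := par_transfer hP hη hζ
  choose ρp hρl hρm using fun i => exists_lift (hρ i)
  obtain ⟨δp, hδl, hδm⟩ := exists_liftA hη hζ hδ
  have hδ0p : ∀ᶠ p in (UU : Filter PP), δp p ≠ 0 := by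
    rw [Ultrafilter.eventually_not]
    exact fun h => hδ0 (hδl.zero_iff.2 h)
  have hidp : ∀ᶠ p in (UU : Filter PP), ∀ n ∈ Finset.Icc (0 : ℤ) n1, ∀ a : s.S n, ∀ hp : 7 < p.1,
      ∃ g : Fin d → s.Lp p, (∀ i, g i ∈ A (Kp p) (ηp p) (ζp p) (n + t)) ∧
        δp p * ((s.Ip p hp).bas n a : s.Lp p) = ∑ i, g i * ρp i p := by
    rw [Filter.eventually_all_finset]
    intro n _
    rw [Filter.eventually_all]
    intro a
    obtain ⟨g, hg, e1⟩ := hid n (s.I.bas n a : s.L) (s.I.bas n a).2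
    choose gp hgl hgm using fun i => exists_liftA hη hζ (hg i)
    have l1 := hδl.mul (isLim_bas2 n a)
    have l2 : IsLim s (n + t + e) (fun p => ∑ i, gp i p * ρp i p) (∑ i, g i * ρ i) :=
      IsLim.sum Finset.univ fun i _ => (hgl i).mul (hρl i)
    rw [← e1] at l2
    have l3 := l1.eq_ev l2
    filter_upwards [l3] with p h3 hp
    refine ⟨fun i => gp i p, fun i => hgm i p, ?_⟩
    rw [dif_pos hp] at h3
    exact h3
  filter_upwards [hpar, hδ0p, hidp, UU_large 7] with p h1 h2 h3 h4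
  refine rho_of_ident h1.1 (hp_transfer hB p h4) h1.2 (fun i => ρp i p) (fun i => hρm i p) (δp p)
    (hδm p) h2 ?_
  intro n hn0 hn b hb
  have h5 := h3 n (Finset.mem_Icc.2 ⟨hn0, hn⟩)
  choose g hg hge using fun a => h5 a h4
  have e3 : b = ∑ a, ((s.Ip p h4).bas n).repr ⟨b, hb⟩ a • ((s.Ip p h4).bas n a : s.Lp p) := by
    have h6 := congrArg (fun y : (s.Dp p).B n => (y : s.Lp p)) (((s.Ip p h4).bas n).sum_repr ⟨b, hb⟩)
    simp only [AddSubmonoidClass.coe_finsetSum, Submodule.coe_smul] at h6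
    exact h6.symm
  set c := ((s.Ip p h4).bas n).repr ⟨b, hb⟩ with hc
  refine ⟨fun i => ∑ a, c a • g a i, fun i =>
    Submodule.sum_mem _ fun a _ => Submodule.smul_mem _ _ (hg a i), ?_⟩
  rw [e3, Finset.mul_sum]
  simp only [Finset.sum_mul]
  rw [Finset.sum_comm]
  refine Finset.sum_congr rfl fun a _ => ?_
  rw [mul_smul_comm, hge a, Finset.smul_sum]
  exact Finset.sum_congr rfl fun i _ => (smul_mul_assoc _ _ _).symm

end R169.TR
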