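import Crest.Agent.R169.TRDefs

/-!
# R169_TR3A: basics of `latOf` and the lattice property.
`mem_latOf`: `w ∈ latOf a e n ↔ w = ∑ u j • e j` with `u j ∈ A (n - a j)` (`Submodule.mem_iSup_iff_exists_finsupp` or
induction over a finite supremum).
`latOf_isLat`: `P`-stability is clear (`A_mul_mem`); `B 1`-stability from `Cert.stab` (`x • (u • e j) = u • (x • e j)`),
then `B n`-stability from `Gen1` by induction on `n` (B 0 = k·1); fin/bdd clear (`A n = 0` for `n < 0`; finite sup of finite
dimensional); gen: `A (n+1) = A n + ηA n + ζA n` for `n ≥ 0`, so true for `n ≥ max a j`.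
`latOf_lspan`: from `Cert.span` (each `e j ∈ latOf (a j)`).
`latOf_fspan`: the `F`-span of the `e j` is stable under `⋃ B n` (by `B`-stability: `b e j ∈ latOf`), hence under `L`
(`l = b/b'`; multiplication by `b'` is injective on this finite dimensional `F`-space so surjective), so it is an
`L`-subspace, so `⊤`.
-/
set_option autoImplicit false
namespace R169.TR

variable {k L : Type} [Field k] [Field L] [Algebra k L] {D : GD k L} {η ζ : L}
variable {r g h : ℕ} {a : Fin g → ℤ} {b : Fin h → ℤ} {m : ℕ} {e : Fin g → (Fin r → L)}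
  {f : Fin h → Fin g → L} {cx cy cz : (Fin h → Fin g) → L}

open R169.Lat Module

/-- `latOf` is the family `gspan` of `Lat0` -/
private theorem latOf_eq_gspan {r g : ℕ} (a : Fin g → ℤ) (e : Fin g → (Fin r → L)) (n : ℤ) :
    latOf k η ζ a e n = gspan (k := k) η ζ a e n := by
  classical
  apply le_antisymm
  · refine iSup_le fun j => ?_
    rintro _ ⟨u, hu, rfl⟩
    refine ⟨fun i => if i = j then u else 0, fun i => ?_, ?_⟩
    · by_cases h : i = j
      · subst h
        simpa using hu
      · simp [h]
    · simp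
  · rintro w ⟨f, hf, rfl⟩
    refine Submodule.sum_mem _ fun j _ => ?_
    refine Submodule.mem_iSup_of_mem j ?_
    exact ⟨f j, hf j, rfl⟩

theorem mem_latOf (n : ℤ) (w : Fin r → L) : w ∈ latOf k η ζ a e n ↔
    ∃ u : Fin g → L, (∀ j, u j ∈ A k η ζ (n - a j)) ∧ w = ∑ j, u j • e j := by
  rw [latOf_eq_gspan]
  exact Iff.rfl

private theorem latOf_isPLat {r g : ℕ} (a : Fin g → ℤ) (e : Fin g → (Fin r → L)) :
    IsPLat η ζ (latOf k η ζ a e) := by
  have h : latOf k η ζ a e = gspan (k := k) η ζ a e := funext fun n => latOf_eq_gspan a e n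
  rw [h]
  exact isPLat_gspan a e

private theorem self_mem_latOf {r g : ℕ} (a : Fin g → ℤ) (e : Fin g → (Fin r → L)) (j : Fin g) :
    e j ∈ latOf k η ζ a e (a j) := by
  rw [latOf_eq_gspan]
  exact self_mem_gspan j

theorem latOf_isLat (hP : Par D η ζ) (hg : Gen1 D) (hc : Cert D η ζ a b m e f cx cy cz) :
    IsLat D η ζ (latOf k η ζ a e) := by
  have hpl := latOf_isPLat (k := k) (η := η) (ζ := ζ) a e
  have h1 : ∀ (n : ℤ) (x : L) (w : Fin r → L), x ∈ D.B 1 → w ∈ latOf k η ζ a e n →
      x • w ∈ latOf k η ζ a e (1 + n) := by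
    intro n x w hx hw
    obtain ⟨u, hu, rfl⟩ := (mem_latOf n w).1 hw
    rw [Finset.smul_sum]
    refine Submodule.sum_mem _ fun j _ => ?_
    rw [smul_comm]
    have := hpl.smul_mem (hu j) (hc.stab x hx j)
    rwa [show n - a j + (a j + 1) = 1 + n by ring] at this
  have h2 : ∀ (i : ℕ) (n : ℤ) (x : L) (w : Fin r → L), x ∈ D.B i → w ∈ latOf k η ζ a e n →
      x • w ∈ latOf k η ζ a e (i + n) := by
    intro i
    induction i with
    | zero =>
      intro n x w hx hw
      rw [Nat.cast_zero, D.zero, Submodule.mem_span_singleton] at hx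
      obtain ⟨c, rfl⟩ := hx
      rw [smul_assoc, one_smul, Nat.cast_zero, zero_add]
      exact Submodule.smul_mem _ _ hw
    | succ i ih =>
      intro n x w hx hw
      have hx' := hg i (by positivity) (by push_cast at hx; exact hx)
      refine Submodule.mul_induction_on hx' ?_ ?_
      · intro y hy z hz
        have h3 := h1 _ y _ hy (ih n z w hz hw)
        rw [smul_smul] at h3
        push_cast
        rwa [show (1 : ℤ) + (i + n) = i + 1 + n by ring] at h3
      · intro y z hy hz
        rw [add_smul]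
        exact Submodule.add_mem _ hy hz
  refine ⟨?_, hpl.fin, hpl.bdd, hpl.gen⟩
  intro i n x w hx hw
  rcases lt_or_ge i 0 with hi | hi
  · rw [D.neg i hi, Submodule.mem_bot] at hx
    rw [hx, zero_smul]
    exact Submodule.zero_mem _
  · lift i to ℕ using hi
    exact h2 i n x w hx hw

theorem latOf_lspan (hc : Cert D η ζ a b m e f cx cy cz) : lspan L (latOf k η ζ a e) = ⊤ := by
  rw [eq_top_iff, ← hc.span]
  refine Submodule.span_mono ?_
  rintro _ ⟨j, rfl⟩
  exact Set.mem_iUnion.2 ⟨a j, self_mem_latOf a e j⟩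

private theorem A_sub_FF {n : ℤ} {x : L} (hx : x ∈ A k η ζ n) : x ∈ FF k η ζ := by
  have hη : η ∈ FF k η ζ := IntermediateField.subset_adjoin _ _ (by simp)
  have hζ : ζ ∈ FF k η ζ := IntermediateField.subset_adjoin _ _ (by simp)
  rw [A] at hx
  induction hx using Submodule.span_induction with
  | mem x hx =>
    obtain ⟨c, d, _, rfl⟩ := hx
    exact mul_mem (pow_mem hη c) (pow_mem hζ d)
  | zero => exact zero_mem _
  | add x y _ _ hx hy => exact add_mem hx hy
  | smul c x _ hx =>
    rw [Algebra.smul_def]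
    exact mul_mem (IntermediateField.algebraMap_mem _ c) hx

theorem latOf_fspan (hP : Par D η ζ) (hg : Gen1 D) (hc : Cert D η ζ a b m e f cx cy cz) :
    Submodule.span (FF k η ζ) (Set.range e) = ⊤ := by
  set U := Submodule.span (FF k η ζ) (Set.range e) with hU
  have hlat := latOf_isLat hP hg hc
  have hsub : ∀ n w, w ∈ latOf k η ζ a e n → w ∈ U := by
    intro n w hw
    obtain ⟨u, hu, rfl⟩ := (mem_latOf n w).1 hw
    refine Submodule.sum_mem _ fun j _ => ?_
    have : u j • e j = (⟨u j, A_sub_FF (hu j)⟩ : FF k η ζ) • e j := rfl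
    rw [this]
    exact Submodule.smul_mem _ _ (Submodule.subset_span ⟨j, rfl⟩)
  have hB : ∀ n x, x ∈ D.B n → ∀ w ∈ U, x • w ∈ U := by
    intro n x hx w hw
    induction hw using Submodule.span_induction with
    | mem w hw =>
      obtain ⟨j, rfl⟩ := hw
      exact hsub _ _ (hlat.smul_mem hx (self_mem_latOf a e j))
    | zero => rw [smul_zero]; exact Submodule.zero_mem _
    | add v w _ _ hv hw => rw [smul_add]; exact Submodule.add_mem _ hv hw
    | smul c w _ hw =>
      rw [smul_comm]
      exact Submodule.smul_mem _ _ hw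
  haveI : FiniteDimensional (FF k η ζ) U := FiniteDimensional.span_of_finite _ (Set.finite_range e)
  have hinv : ∀ n x, x ∈ D.B n → x ≠ 0 → ∀ w ∈ U, x⁻¹ • w ∈ U := by
    intro n x hx hx0 w hw
    let φ : U →ₗ[FF k η ζ] U :=
      { toFun := fun v => ⟨x • (v : Fin r → L), hB n x hx v v.2⟩
        map_add' := fun v v' => Subtype.ext (smul_add _ _ _)
        map_smul' := fun c v => Subtype.ext (smul_comm _ _ _) }
    have hinj : Function.Injective φ := by
      intro v v' h
      have h' : x • (v : Fin r → L) = x • (v' : Fin r → L) := congrArg Subtype.val h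
      apply Subtype.ext
      have h3 := congrArg (fun y => x⁻¹ • y) h'
      simpa [smul_smul, inv_mul_cancel₀ hx0] using h3
    obtain ⟨v, hv⟩ := LinearMap.surjective_of_injective hinj ⟨w, hw⟩
    have h' : x • (v : Fin r → L) = w := congrArg Subtype.val hv
    rw [← h', smul_smul, inv_mul_cancel₀ hx0, one_smul]
    exact v.2
  have hL : ∀ l : L, ∀ w ∈ U, l • w ∈ U := by
    intro l w hw
    obtain ⟨n, x, hx, y, hy, hy0, rfl⟩ := D.frac l
    rw [div_eq_mul_inv, mul_smul]
    exact hB n x hx _ (hinv n y hy hy0 w hw)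
  rw [eq_top_iff]
  intro w _
  have hw : w ∈ Submodule.span L (Set.range e) := by rw [hc.span]; trivial
  induction hw using Submodule.span_induction with
  | mem w hw => exact Submodule.subset_span hw
  | zero => exact Submodule.zero_mem _
  | add v w _ _ hv hw => exact Submodule.add_mem _ (hv trivial) (hw trivial)
  | smul c w _ hw => exact hL c w (hw trivial)

end R169.TR
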