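import Crest.Agent.R169.TR3A

/-!
# R169_TR3B: exactness: relations among the `e j` in degree `n` are generated by the `f i`.
`V = {u : Fin g → L | all u j ∈ F, ∑ u j • e j = 0}` is an `F`-space of dimension `g - [L:F] r = h` (`latOf_fspan`,
`Cert.rank`, rank-nullity for the `F`-linear surjection `F^g → L^r`). The `f i` lie in `V` (`Cert.rel`) and are
`F`-independent: some minor `minor f I ≠ 0` (`Cert.hx`: the sum is `1`), so they are a basis of `V`.
Let `u j ∈ A (n - a j)`, `∑ u j • e j = 0`; `u = ∑ c i f i`, `c i ∈ F`. Cramer for the columns `I`: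
`minor f I * c i = det (matrix with row i replaced by u) ∈ A (n - b i + deg_I)`, `deg_I = ∑ b - ∑ a(I)`. Multiply by
`cx I` resp. `cy I` and sum (`hx`, `hy`): `c i ∈ A (n - b i + m)` and `η^m c i ∈ A (n - b i + m)`; since `η, ζ` are
algebraically independent (A = polynomials of degree ≤), `c i ∈ A (n - b i)` (`A_div` below).
-/
set_option autoImplicit false
namespace R169.TR

variable {k L : Type} [Field k] [Field L] [Algebra k L] {D : GD k L} {η ζ : L}
variable {r g h : ℕ} {a : Fin g → ℤ} {b : Fin h → ℤ} {m : ℕ} {e : Fin g → (Fin r → L)}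
  {f : Fin h → Fin g → L} {cx cy cz : (Fin h → Fin g) → L}

section aux

theorem A_eq_span_image (n : ℤ) : A k η ζ n =
    Submodule.span k ((fun p : ℕ × ℕ => η ^ p.1 * ζ ^ p.2) '' {p | (p.1 : ℤ) + p.2 ≤ n}) := by
  rw [A]
  congr 1
  ext l
  constructor
  · rintro ⟨a, b, hab, rfl⟩
    exact ⟨(a, b), hab, rfl⟩
  · rintro ⟨⟨a, b⟩, hab, rfl⟩
    exact ⟨a, b, hab, rfl⟩

theorem mem_FF_of_A3 {n : ℤ} {l : L} (h : l ∈ A k η ζ n) : l ∈ FF k η ζ := by
  have h0 : Submodule.span k {l | ∃ a b : ℕ, (a : ℤ) + b ≤ n ∧ l = η ^ a * ζ ^ b} ≤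
      Subalgebra.toSubmodule (FF k η ζ).toSubalgebra := by
    rw [Submodule.span_le]
    rintro l ⟨a, b, _, rfl⟩
    have h1 : η ∈ FF k η ζ := IntermediateField.subset_adjoin k _ (by simp)
    have h2 : ζ ∈ FF k η ζ := IntermediateField.subset_adjoin k _ (by simp)
    have h3 : η ^ a * ζ ^ b ∈ FF k η ζ := mul_mem (pow_mem h1 a) (pow_mem h2 b)
    exact h3
  exact h0 h

theorem prod_mem_A {ι : Type} (s : Finset ι) (x : ι → L) (d : ι → ℤ)
    (hx : ∀ i ∈ s, x i ∈ A k η ζ (d i)) : ∏ i ∈ s, x i ∈ A k η ζ (∑ i ∈ s, d i) := by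
  classical
  induction s using Finset.induction_on with
  | empty => simpa using Lat.one_mem_A (k := k) (η := η) (ζ := ζ) (n := 0) le_rfl
  | insert a s ha ih =>
    rw [Finset.prod_insert ha, Finset.sum_insert ha]
    exact A_mul_mem (hx a (Finset.mem_insert_self a s))
      (ih fun i hi => hx i (Finset.mem_insert_of_mem hi))

theorem det_mem_A {t : ℕ} (N : Matrix (Fin t) (Fin t) L) (dr dc : Fin t → ℤ)
    (hN : ∀ i j, N i j ∈ A k η ζ (dr i - dc j)) : N.det ∈ A k η ζ (∑ i, dr i - ∑ j, dc j) := by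
  rw [Matrix.det_apply]
  refine Submodule.sum_mem _ fun σ _ => ?_
  have h1 : ∏ i, N (σ i) i ∈ A k η ζ (∑ i, (dr (σ i) - dc i)) :=
    prod_mem_A _ _ _ fun i _ => hN _ _
  have h2 : ∑ i, (dr (σ i) - dc i) = ∑ i, dr i - ∑ j, dc j := by
    rw [Finset.sum_sub_distrib, Equiv.sum_comp σ dr]
  rw [h2] at h1
  rcases Int.units_eq_one_or (Equiv.Perm.sign σ) with h | h
  · rw [h, one_smul]; exact h1
  · rw [h]
    have h3 : ((-1 : ℤˣ) • ∏ i, N (σ i) i) = -∏ i, N (σ i) i := by
      rw [Units.neg_smul, one_smul]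
    rw [h3]
    exact Submodule.neg_mem _ h1

end aux

/-- a polynomial `c` of degree `≤ l` with `deg (η^m c) ≤ l` has degree `≤ l - m` -/
theorem A_div (ind : AlgebraicIndependent k ![η, ζ]) {c : L} {l : ℤ} {m : ℕ} (h1 : c ∈ A k η ζ l)
    (h2 : η ^ m * c ∈ A k η ζ l) : c ∈ A k η ζ (l - m) := by
  classical
  rw [A_eq_span_image, Finsupp.mem_span_image_iff_linearCombination] at h1 h2 ⊢
  obtain ⟨C, hC, hC'⟩ := h1
  obtain ⟨C2, hC2, hC2'⟩ := h2
  have hli := Lat.linIndep_monom ind
  let sh : ℕ × ℕ → ℕ × ℕ := fun p => (p.1 + m, p.2)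
  have hsh : Function.Injective sh := by
    intro p q hpq
    have hpq' : (p.1 + m, p.2) = (q.1 + m, q.2) := hpq
    have e1 : p.1 + m = q.1 + m := (Prod.ext_iff.1 hpq').1
    have e2 : p.2 = q.2 := (Prod.ext_iff.1 hpq').2
    exact Prod.ext (by omega) e2
  have h3 : Finsupp.linearCombination k (fun p : ℕ × ℕ => η ^ p.1 * ζ ^ p.2)
      (C.mapDomain sh) = η ^ m * c := by
    rw [Finsupp.linearCombination_mapDomain, ← hC', Finsupp.linearCombination_apply,
      Finsupp.linearCombination_apply, Finsupp.sum, Finsupp.sum, Finset.mul_sum]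
    refine Finset.sum_congr rfl fun p _ => ?_
    simp only [Function.comp, sh, mul_smul_comm]
    congr 1
    rw [pow_add]; ring
  have h4 : C.mapDomain sh = C2 := hli (h3.trans hC2'.symm)
  refine ⟨C, ?_, hC'⟩
  rw [Finsupp.mem_supported] at hC2 ⊢
  intro p hp
  have h5 : sh p ∈ C2.support := by
    rw [← h4, Finsupp.mapDomain_support_of_injective hsh]
    exact Finset.mem_image_of_mem _ hp
  have h6 := hC2 h5
  have h7 : ((p.1 + m : ℕ) : ℤ) + p.2 ≤ l := h6
  show (p.1 : ℤ) + p.2 ≤ l - m
  push_cast at h7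
  linarith

/-- the `f i` are independent over `L` -/
theorem f_indep (hc : Cert D η ζ a b m e f cx cy cz) : LinearIndependent L f := by
  obtain ⟨I, hI⟩ : ∃ I, minor f I ≠ 0 := by
    by_contra hcon
    push Not at hcon
    have := hc.hx
    simp [hcon] at this
  have h1 := Matrix.linearIndependent_rows_of_det_ne_zero hI
  have h2 : LinearIndependent L ((LinearMap.funLeft L L I) ∘ f) := h1
  exact h2.of_comp

theorem exact (hP : Par D η ζ) (hg : Gen1 D) (hc : Cert D η ζ a b m e f cx cy cz)
    {n : ℤ} {u : Fin g → L} (hu : ∀ j, u j ∈ A k η ζ (n - a j)) (h0 : ∑ j, u j • e j = 0) :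
    ∃ c : Fin h → L, (∀ i, c i ∈ A k η ζ (n - b i)) ∧ u = ∑ i, c i • f i := by
  classical
  let F := FF k η ζ
  -- the kernel over `F`
  let Φ : (Fin g → F) →ₗ[F] (Fin r → L) := Fintype.linearCombination F e
  have hΦ : ∀ v : Fin g → F, Φ v = ∑ j, (v j : L) • e j := fun v =>
    Fintype.linearCombination_apply F e v
  have hrange : LinearMap.range Φ = ⊤ := by
    rw [show LinearMap.range Φ = Submodule.span F (Set.range e) from
      Fintype.range_linearCombination F e]
    exact latOf_fspan hP hg hc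
  let u' : Fin g → F := fun j => ⟨u j, mem_FF_of_A3 (hu j)⟩
  let f' : Fin h → (Fin g → F) := fun i j => ⟨f i j, mem_FF_of_A3 (hc.f_mem i j)⟩
  have hu' : u' ∈ LinearMap.ker Φ := by
    rw [LinearMap.mem_ker, hΦ]
    exact h0
  have hf' : ∀ i, f' i ∈ LinearMap.ker Φ := by
    intro i
    rw [LinearMap.mem_ker, hΦ]
    exact hc.rel i
  have hf'ind : LinearIndependent F f' := by
    have h1 : LinearIndependent F f := (f_indep hc).restrict_scalars (by
      intro x y hxy
      have : (x : L) = y := by simpa [Algebra.smul_def] using hxy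
      exact Subtype.ext this)
    let ψ : (Fin g → F) →ₗ[F] (Fin g → L) :=
      LinearMap.pi fun j => (Algebra.linearMap F L).comp (LinearMap.proj j)
    have h2 : LinearIndependent F (ψ ∘ f') := h1
    exact h2.of_comp
  have hsum := LinearMap.finrank_range_add_finrank_ker Φ
  rw [hrange, finrank_top, Module.finrank_fintype_fun_eq_card, Fintype.card_fin] at hsum
  have hr : Module.finrank F (Fin r → L) = Module.finrank F L * r := by
    rcases Nat.eq_zero_or_pos r with h0 | h0
    · subst h0
      simp [Module.finrank_zero_of_subsingleton]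
    · have hfin : Module.Finite F (Fin r → L) := Module.Finite.of_surjective Φ
        (LinearMap.range_eq_top.1 hrange)
      have hL : Module.Finite F L := Module.Finite.of_surjective
        (LinearMap.proj (R := F) (φ := fun _ : Fin r => L) (⟨0, h0⟩ : Fin r))
        (LinearMap.proj_surjective _)
      rw [Module.finrank_pi_fintype]
      simp [mul_comm]
  have hker : Module.finrank F (LinearMap.ker Φ) = h := by
    have := hc.rank
    rw [hr] at hsum
    have h3 : Module.finrank F L * r + h = g := this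
    omega
  let fk : Fin h → LinearMap.ker Φ := fun i => ⟨f' i, hf' i⟩
  have hfk : LinearIndependent F fk := by
    have h2 : LinearIndependent F ((LinearMap.ker Φ).subtype ∘ fk) := hf'ind
    exact h2.of_comp
  have hspan := hfk.span_eq_top_of_card_eq_finrank' (by rw [hker, Fintype.card_fin])
  have hu2 : (⟨u', hu'⟩ : LinearMap.ker Φ) ∈ Submodule.span F (Set.range fk) := by
    rw [hspan]; trivial
  rw [Submodule.mem_span_range_iff_exists_fun] at hu2
  obtain ⟨c, hcc⟩ := hu2
  have hcu : ∀ j, u j = ∑ i, (c i : L) * f i j := by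
    intro j
    have h3 := congrArg (fun v : LinearMap.ker Φ => ((v : Fin g → F) j : L)) hcc
    simp only [Submodule.coe_sum, Submodule.coe_smul, Finset.sum_apply, Pi.smul_apply,
      smul_eq_mul, fk] at h3
    rw [← show ((u' j : F) : L) = u j from rfl, ← h3]
    push_cast
    rfl
  -- Cramer
  have hdet : ∀ (i : Fin h) (I : Fin h → Fin g), minor f I * (c i : L) ∈
      A k η ζ (∑ i', b i' - b i + n - ∑ i', a (I i')) := by
    intro i I
    let M : Matrix (Fin h) (Fin h) L := Matrix.of fun i i' => f i (I i')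
    have h3 : (M.updateRow i (∑ k', (c k' : L) • M k')).det = (c i : L) • M.det :=
      Matrix.det_updateRow_sum M i (fun k' => (c k' : L))
    have h4 : minor f I * (c i : L) = (M.updateRow i (∑ k', (c k' : L) • M k')).det := by
      rw [h3, smul_eq_mul, mul_comm]
      rfl
    rw [h4]
    have h5 := det_mem_A (k := k) (η := η) (ζ := ζ) (M.updateRow i (∑ k', (c k' : L) • M k'))
      (fun i' => if i' = i then n else b i') (fun i' => a (I i')) (by
        intro i1 i2
        by_cases hi : i1 = i
        · subst hi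
          rw [Matrix.updateRow_self, if_pos rfl]
          have : (∑ k', (c k' : L) • M k') i2 = u (I i2) := by
            rw [hcu, Finset.sum_apply]
            rfl
          rw [this]
          exact hu _
        · rw [Matrix.updateRow_ne hi, if_neg hi]
          exact hc.f_mem i1 (I i2))
    have h6 : ∑ i', (if i' = i then n else b i') = ∑ i', b i' - b i + n := by
      rw [← Finset.add_sum_erase _ _ (Finset.mem_univ i), if_pos rfl,
        ← Finset.add_sum_erase (f := b) _ (Finset.mem_univ i)]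
      have h7 : ∑ x ∈ Finset.univ.erase i, (if x = i then n else b x) =
          ∑ x ∈ Finset.univ.erase i, b x :=
        Finset.sum_congr rfl fun x hx => if_neg (Finset.ne_of_mem_erase hx)
      rw [h7]; ring
    rw [h6] at h5
    exact h5
  have hmul : ∀ (i : Fin h) (cc : (Fin h → Fin g) → L),
      (∀ I, cc I ∈ A k η ζ (m - (∑ i, b i - ∑ i, a (I i)))) →
      (∑ I, cc I * minor f I) * (c i : L) ∈ A k η ζ (n - b i + m) := by
    intro i cc hcc2
    rw [Finset.sum_mul]
    refine Submodule.sum_mem _ fun I _ => ?_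
    rw [mul_assoc]
    have h3 := A_mul_mem (hcc2 I) (hdet i I)
    have h4 : (m : ℤ) - (∑ i, b i - ∑ i, a (I i)) + (∑ i', b i' - b i + n - ∑ i', a (I i')) =
        n - b i + m := by ring
    rwa [h4] at h3
  refine ⟨fun i => (c i : L), fun i => ?_, ?_⟩
  · have h3 := hmul i cx (fun I => (hc.c_mem I).1)
    have h4 := hmul i cy (fun I => (hc.c_mem I).2.1)
    rw [hc.hx, one_mul] at h3
    rw [hc.hy] at h4
    have h5 := A_div hP.indep h3 h4
    rwa [add_sub_cancel_right] at h5
  · funext j
    rw [hcu j, Finset.sum_apply]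
    rfl

end R169.TR
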