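import Crest.Agent.R169.TR3B

/-!
# R169_TR3C: dimension formula `dim (latOf)_n = ∑ dim A(n - a j) - ∑ dim A(n - b i)`.
The linear map `∏ A(n - a j) → latOf n` is surjective (`mem_latOf`), its kernel is the image of the injective map
`∏ A(n - b i) → ∏ A(n - a j)`, `c ↦ ∑ c i • f i` (`exact`, `f_indep`, `Cert.f_mem`).
-/
set_option autoImplicit false
namespace R169.TR

variable {k L : Type} [Field k] [Field L] [Algebra k L] {D : GD k L} {η ζ : L}
variable {r g h : ℕ} {a : Fin g → ℤ} {b : Fin h → ℤ} {m : ℕ} {e : Fin g → (Fin r → L)}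
  {f : Fin h → Fin g → L} {cx cy cz : (Fin h → Fin g) → L}

/-- `u ↦ ∑ u j • e j` -/
noncomputable def tr3Phi (k : Type) {L : Type} [Field k] [Field L] [Algebra k L] (η ζ : L) {r g : ℕ}
    (a : Fin g → ℤ) (e : Fin g → (Fin r → L)) (n : ℤ) :
    (∀ j, A k η ζ (n - a j)) →ₗ[k] (Fin r → L) where
  toFun u := ∑ j, (u j : L) • e j
  map_add' u v := by
    simp only [Pi.add_apply, Submodule.coe_add, add_smul, Finset.sum_add_distrib]
  map_smul' c u := by
    simp only [Pi.smul_apply, Submodule.coe_smul, smul_assoc, RingHom.id_apply, Finset.smul_sum]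

/-- `c ↦ ∑ c i • f i` -/
noncomputable def tr3Psi (hf : ∀ i j, f i j ∈ A k η ζ (b i - a j)) (n : ℤ) :
    (∀ i, A k η ζ (n - b i)) →ₗ[k] (∀ j, A k η ζ (n - a j)) where
  toFun c j := ⟨∑ i, (c i : L) * f i j, Submodule.sum_mem _ fun i _ => by
    have h1 := A_mul_mem (c i).2 (hf i j)
    have h2 : n - b i + (b i - a j) = n - a j := by ring
    rwa [h2] at h1⟩
  map_add' u v := by
    funext j
    apply Subtype.ext
    simp only [Pi.add_apply, Submodule.coe_add, add_mul, Finset.sum_add_distrib]
  map_smul' c u := by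
    funext j
    apply Subtype.ext
    simp only [Pi.smul_apply, Submodule.coe_smul, RingHom.id_apply, Finset.smul_sum,
      smul_mul_assoc]

theorem latOf_finrank (hP : Par D η ζ) (hg : Gen1 D) (hc : Cert D η ζ a b m e f cx cy cz) (n : ℤ) :
    Module.finrank k (latOf k η ζ a e n) + ∑ i, Module.finrank k (A k η ζ (n - b i)) =
      ∑ j, Module.finrank k (A k η ζ (n - a j)) := by
  have hrange : LinearMap.range (tr3Phi k η ζ a e n) = latOf k η ζ a e n := by
    ext w
    rw [mem_latOf, LinearMap.mem_range]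
    constructor
    · rintro ⟨u, rfl⟩
      exact ⟨fun j => (u j : L), fun j => (u j).2, rfl⟩
    · rintro ⟨u, hu, rfl⟩
      exact ⟨fun j => ⟨u j, hu j⟩, rfl⟩
  have hker : LinearMap.ker (tr3Phi k η ζ a e n) = LinearMap.range (tr3Psi hc.f_mem n) := by
    ext u
    rw [LinearMap.mem_ker, LinearMap.mem_range]
    constructor
    · intro h0
      obtain ⟨c, hc1, hc2⟩ := exact hP hg hc (n := n) (u := fun j => (u j : L))
        (fun j => (u j).2) h0
      refine ⟨fun i => ⟨c i, hc1 i⟩, ?_⟩
      funext j
      apply Subtype.ext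
      have h3 := congrFun hc2 j
      simp only [Finset.sum_apply, Pi.smul_apply, smul_eq_mul] at h3
      exact h3.symm
    · rintro ⟨c, rfl⟩
      show ∑ j, (∑ i, (c i : L) * f i j) • e j = 0
      simp only [Finset.sum_smul, mul_smul]
      rw [Finset.sum_comm]
      apply Finset.sum_eq_zero
      intro i _
      rw [← Finset.smul_sum, hc.rel i, smul_zero]
  have hinj : Function.Injective (tr3Psi hc.f_mem n) := by
    rw [← LinearMap.ker_eq_bot, LinearMap.ker_eq_bot']
    intro c h0
    have hind := f_indep hc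
    rw [Fintype.linearIndependent_iff] at hind
    have h1 : ∑ i, (c i : L) • f i = 0 := by
      funext j
      have h2 := congrArg Subtype.val (congrFun h0 j)
      simp only [Finset.sum_apply, Pi.smul_apply, smul_eq_mul, Pi.zero_apply]
      exact h2
    funext i
    exact Subtype.ext (hind (fun i => (c i : L)) h1 i)
  have hrn := LinearMap.finrank_range_add_finrank_ker (tr3Phi k η ζ a e n)
  rw [hrange, hker, LinearMap.finrank_range_of_inj hinj, Module.finrank_pi_fintype,
    Module.finrank_pi_fintype] at hrn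
  exact hrn

end R169.TR
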