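import Crest.Agent.R169.TR3B

/-!
# R169_TR3D: `latOf` has `Dep2`: `w ∈ E l`, `η w ∈ E l` imply `w ∈ E (l-1)` (E = latOf).
`w = ∑ u j e j` (`u j ∈ A(l - a j)`), `η w = ∑ u' j e j` (`u' j ∈ A(l - a j)`). `exact` in degree `l+1`:
`η u - u' = ∑ c i f i`, `c i ∈ A(l+1-b i)`. Work "mod (x,y)" = mod polynomials of the form `x s + y s'`:
for `q ∈ A n` let `top q` be the coefficient of `ζ^n` (a linear functional `A n → k`, multiplicative:
`top_{n+n'} (q q') = top q · top q'`, kernel `= A(n-1) + η A(n-1)`). Apply `top` to `η u - u'` in degree `l+1-a j`: `0`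
(η u j has no `ζ^{l+1-a j}`, u' j has degree ≤ l - a j). So `∑ top(c i) top(f i j) = 0` for all `j`; from `hz` (top of
`ζ^m` is 1) some minor of the matrix `top(f i j)` is nonzero, so `top (c i) = 0` for all i, so
`c i = c' i + η c'' i` with `c', c'' ∈ A(l - b i)`. Then `η (u - ∑ c'' f) = u' + ∑ c' f =: v`, coordinates `v j ∈ A(l-a j)`,
`t := u - ∑ c'' f` has `t j ∈ A(l - a j)` and `η t j ∈ A(l - a j)`, so `t j ∈ A(l-1-a j)` (`A_div` with m=1), and
`w = ∑ u j e j = ∑ t j e j` by `Cert.rel`.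
(negative degrees: `A n = 0` for `n < 0`; treat `top` as 0 there.)
-/
set_option autoImplicit false
namespace R169.TR

variable {k L : Type} [Field k] [Field L] [Algebra k L] {D : GD k L} {η ζ : L}
variable {r g h : ℕ} {a : Fin g → ℤ} {b : Fin h → ℤ} {m : ℕ} {e : Fin g → (Fin r → L)}
  {f : Fin h → Fin g → L} {cx cy cz : (Fin h → Fin g) → L}

open R169.Lat

private theorem exists_rep {n : ℤ} (hn : 0 ≤ n) {q : L} (hq : q ∈ A k η ζ n) :
    ∃ P : MvPolynomial (Fin 2) k, MvPolynomial.aeval ![η, ζ] P = q ∧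
      (MvPolynomial.aeval ![(0 : Polynomial k), Polynomial.X] P).natDegree ≤ n.toNat := by
  unfold A at hq
  induction hq using Submodule.span_induction with
  | mem x hx =>
    obtain ⟨c, d, hcd, rfl⟩ := hx
    refine ⟨MvPolynomial.X 0 ^ c * MvPolynomial.X 1 ^ d, by simp, ?_⟩
    rw [map_mul, map_pow, map_pow, MvPolynomial.aeval_X, MvPolynomial.aeval_X]
    rcases Nat.eq_zero_or_pos c with hc | hc
    · subst hc
      simp only [Matrix.cons_val_zero, Matrix.cons_val_one, pow_zero, one_mul,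
        Polynomial.natDegree_pow, Polynomial.natDegree_X, mul_one]
      omega
    · simp only [Matrix.cons_val_zero]
      rw [zero_pow hc.ne', zero_mul, Polynomial.natDegree_zero]
      exact Nat.zero_le _
  | zero => exact ⟨0, by simp, by simp⟩
  | add x y _ _ hx hy =>
    obtain ⟨P, hP1, hP2⟩ := hx
    obtain ⟨Q, hQ1, hQ2⟩ := hy
    refine ⟨P + Q, by rw [map_add, hP1, hQ1], ?_⟩
    rw [map_add]
    exact (Polynomial.natDegree_add_le _ _).trans (max_le hP2 hQ2)
  | smul c x _ hx =>
    obtain ⟨P, hP1, hP2⟩ := hx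
    refine ⟨c • P, by rw [map_smul, hP1], ?_⟩
    rw [map_smul]
    exact (Polynomial.natDegree_smul_le _ _).trans hP2

/-- "value at the point (0:0:1)": coefficient of `ζ^n` in degree `n` -/
theorem exists_top (ind : AlgebraicIndependent k ![η, ζ]) :
    ∃ top : ℤ → (L → k), (∀ n q q', q ∈ A k η ζ n → q' ∈ A k η ζ n → top n (q + q') = top n q + top n q') ∧
      (∀ n n' q q', q ∈ A k η ζ n → q' ∈ A k η ζ n' → top (n + n') (q * q') = top n q * top n' q') ∧
      (∀ n : ℕ, top n (ζ ^ n) = 1) ∧ (∀ n q, q ∈ A k η ζ n → top (n + 1) q = 0) ∧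
      (∀ n q, q ∈ A k η ζ n → top (n + 1) (η * q) = 0) ∧
      (∀ n q, q ∈ A k η ζ n → top n q = 0 → ∃ q1 ∈ A k η ζ (n - 1), ∃ q2 ∈ A k η ζ (n - 1),
        q = q1 + η * q2) := by
  classical
  have hinj : Function.Injective (MvPolynomial.aeval ![η, ζ] : MvPolynomial (Fin 2) k →ₐ[k] L) := ind
  let rep : L → MvPolynomial (Fin 2) k := fun q =>
    if h : ∃ P : MvPolynomial (Fin 2) k, MvPolynomial.aeval ![η, ζ] P = q then h.choose else 0
  have hrep : ∀ P : MvPolynomial (Fin 2) k, rep (MvPolynomial.aeval ![η, ζ] P) = P := by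
    intro P
    have h : ∃ Q : MvPolynomial (Fin 2) k,
      MvPolynomial.aeval ![η, ζ] Q = MvPolynomial.aeval ![η, ζ] P := ⟨P, rfl⟩
    show dite _ _ _ = _
    rw [dif_pos h]
    exact hinj h.choose_spec
  let ρ : MvPolynomial (Fin 2) k →ₐ[k] Polynomial k :=
    MvPolynomial.aeval ![(0 : Polynomial k), Polynomial.X]
  let top : ℤ → (L → k) := fun n q => (ρ (rep q)).coeff n.toNat
  have htop : ∀ n P, top n (MvPolynomial.aeval ![η, ζ] P) = (ρ P).coeff n.toNat := by
    intro n P
    show (ρ (rep _)).coeff n.toNat = _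
    rw [hrep]
  have htop0 : ∀ n, top n 0 = 0 := by
    intro n
    have := htop n 0
    rw [map_zero] at this
    rw [this, map_zero, Polynomial.coeff_zero]
  have hneg : ∀ n q, n < 0 → q ∈ A k η ζ n → q = 0 := by
    intro n q hn hq
    rw [A_neg hn, Submodule.mem_bot] at hq
    exact hq
  have hadd : ∀ n q q', q ∈ A k η ζ n → q' ∈ A k η ζ n → top n (q + q') = top n q + top n q' := by
    intro n q q' hq hq'
    rcases lt_or_ge n 0 with hn | hn
    · rw [hneg n q hn hq, hneg n q' hn hq', add_zero, htop0, add_zero]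
    · obtain ⟨P, rfl, -⟩ := exists_rep hn hq
      obtain ⟨Q, rfl, -⟩ := exists_rep hn hq'
      rw [← map_add, htop, htop, htop, map_add, Polynomial.coeff_add]
  have hone : ∀ n : ℕ, top n (ζ ^ n) = 1 := by
    intro n
    have h := htop n (MvPolynomial.X 1 ^ n)
    rw [map_pow, MvPolynomial.aeval_X] at h
    change top n (ζ ^ n) = _ at h
    rw [h, map_pow]
    show ((MvPolynomial.aeval ![(0 : Polynomial k), Polynomial.X] (MvPolynomial.X 1)) ^ n).coeff
      (Int.toNat n) = 1
    rw [MvPolynomial.aeval_X]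
    simp
  have hlow : ∀ n q, q ∈ A k η ζ n → top (n + 1) q = 0 := by
    intro n q hq
    rcases lt_or_ge n 0 with hn | hn
    · rw [hneg n q hn hq, htop0]
    · obtain ⟨P, rfl, hP⟩ := exists_rep hn hq
      rw [htop]
      exact Polynomial.coeff_eq_zero_of_natDegree_lt (by
        show (MvPolynomial.aeval ![(0 : Polynomial k), Polynomial.X] P).natDegree < _
        omega)
  have heta : ∀ n q, q ∈ A k η ζ n → top (n + 1) (η * q) = 0 := by
    intro n q hq
    rcases lt_or_ge n 0 with hn | hn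
    · rw [hneg n q hn hq, mul_zero, htop0]
    · obtain ⟨P, rfl, hP⟩ := exists_rep hn hq
      have h := htop (n + 1) (MvPolynomial.X 0 * P)
      rw [map_mul, MvPolynomial.aeval_X] at h
      simp only [Matrix.cons_val_zero] at h
      rw [h, map_mul]
      show (MvPolynomial.aeval ![(0 : Polynomial k), Polynomial.X] (MvPolynomial.X 0) *
        ρ P).coeff _ = 0
      rw [MvPolynomial.aeval_X]
      simp
  refine ⟨top, hadd, ?_, hone, hlow, heta, ?_⟩
  · intro n n' q q' hq hq'
    rcases lt_or_ge n 0 with hn | hn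
    · rw [hneg n q hn hq, zero_mul, htop0, htop0, zero_mul]
    rcases lt_or_ge n' 0 with hn' | hn'
    · rw [hneg n' q' hn' hq', mul_zero, htop0, htop0, mul_zero]
    obtain ⟨P, rfl, hP⟩ := exists_rep hn hq
    obtain ⟨Q, rfl, hQ⟩ := exists_rep hn' hq'
    rw [← map_mul, htop, htop, htop, map_mul, Int.toNat_add hn hn']
    exact Polynomial.coeff_mul_add_eq_of_natDegree_le hP hQ
  · intro n q hq h0
    rcases lt_or_ge n 0 with hn | hn
    · exact ⟨0, Submodule.zero_mem _, 0, Submodule.zero_mem _, by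
        rw [hneg n q hn hq, mul_zero, add_zero]⟩
    have key : ∃ c : k, ∃ q1 ∈ A k η ζ (n - 1), ∃ q2 ∈ A k η ζ (n - 1),
        q = c • ζ ^ n.toNat + (q1 + η * q2) := by
      clear h0
      unfold A at hq
      induction hq using Submodule.span_induction with
      | mem x hx =>
        obtain ⟨c, d, hcd, rfl⟩ := hx
        rcases Nat.eq_zero_or_pos c with hc | hc
        · subst hc
          rcases eq_or_lt_of_le hcd with h | h
          · refine ⟨1, 0, Submodule.zero_mem _, 0, Submodule.zero_mem _, ?_⟩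
            have : n.toNat = d := by omega
            rw [this, one_smul, mul_zero, add_zero, add_zero, pow_zero, one_mul]
          · refine ⟨0, η ^ 0 * ζ ^ d, monom_mem_A _ _ (by omega), 0, Submodule.zero_mem _, ?_⟩
            rw [zero_smul, mul_zero, add_zero, zero_add]
        · obtain ⟨c', rfl⟩ : ∃ c', c = c' + 1 := ⟨c - 1, by omega⟩
          refine ⟨0, 0, Submodule.zero_mem _, η ^ c' * ζ ^ d, monom_mem_A _ _ (by push_cast at hcd; omega), ?_⟩
          rw [zero_smul, zero_add, zero_add, pow_succ]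
          ring
      | zero => exact ⟨0, 0, Submodule.zero_mem _, 0, Submodule.zero_mem _, by simp⟩
      | add x y _ _ hx hy =>
        obtain ⟨c, q1, h1, q2, h2, rfl⟩ := hx
        obtain ⟨c', q1', h1', q2', h2', rfl⟩ := hy
        refine ⟨c + c', q1 + q1', Submodule.add_mem _ h1 h1', q2 + q2', Submodule.add_mem _ h2 h2', ?_⟩
        rw [add_smul]
        ring
      | smul a x _ hx =>
        obtain ⟨c, q1, h1, q2, h2, rfl⟩ := hx
        refine ⟨a * c, a • q1, Submodule.smul_mem _ _ h1, a • q2, Submodule.smul_mem _ _ h2, ?_⟩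
        rw [smul_add, smul_add, smul_smul, mul_smul_comm]
    obtain ⟨c, q1, h1, q2, h2, rfl⟩ := key
    have hn' : ((n.toNat : ℕ) : ℤ) = n := Int.toNat_of_nonneg hn
    have hz : ζ ^ n.toNat ∈ A k η ζ n := by
      have := monom_mem_A (k := k) (η := η) (ζ := ζ) 0 n.toNat (n := n) (by omega)
      rwa [pow_zero, one_mul] at this
    have h1' : q1 ∈ A k η ζ n := A_mono (by omega) h1
    have h2' : η * q2 ∈ A k η ζ n := by
      have := A_mul_mem (eta_mem_A (k := k) (η := η) (ζ := ζ)) h2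
      rwa [show (1 : ℤ) + (n - 1) = n by ring] at this
    have e1 : top n (c • ζ ^ n.toNat) = c := by
      have h := htop n (c • MvPolynomial.X 1 ^ n.toNat)
      rw [map_smul, map_pow, MvPolynomial.aeval_X] at h
      change top n (c • ζ ^ n.toNat) = _ at h
      rw [h, map_smul, map_pow]
      show (c • (MvPolynomial.aeval ![(0 : Polynomial k), Polynomial.X]
        (MvPolynomial.X 1)) ^ n.toNat).coeff n.toNat = c
      rw [MvPolynomial.aeval_X]
      simp
    rw [hadd n _ _ (Submodule.smul_mem _ _ hz) (Submodule.add_mem _ h1' h2'), hadd n _ _ h1' h2', e1] at h0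
    have e2 := hlow (n - 1) q1 h1
    have e3 := heta (n - 1) q2 h2
    rw [show n - 1 + 1 = n by ring] at e2 e3
    rw [e2, e3, add_zero, add_zero] at h0
    exact ⟨q1, h1, q2, h2, by rw [h0, zero_smul, zero_add]⟩

theorem latOf_dep2 (hP : Par D η ζ) (hg : Gen1 D) (hc : Cert D η ζ a b m e f cx cy cz) :
    Dep2 η (latOf k η ζ a e) := by
  classical
  obtain ⟨top, hadd, hmul, hone, hlow, heta, hker⟩ := exists_top (k := k) hP.indep
  have htop0 : ∀ n, top n 0 = 0 := by
    intro n
    have h := hadd n 0 0 (Submodule.zero_mem _) (Submodule.zero_mem _)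
    rw [add_zero] at h
    exact left_eq_add.1 h
  have hneg : ∀ n q, q ∈ A k η ζ n → top n (-q) = -top n q := by
    intro n q hq
    have h := hadd n q (-q) hq (Submodule.neg_mem _ hq)
    rw [add_neg_cancel, htop0] at h
    exact (neg_eq_of_add_eq_zero_right h.symm).symm
  have hsum : ∀ {ι : Type} (s : Finset ι) (g : ι → L) (n : ℤ), (∀ i ∈ s, g i ∈ A k η ζ n) →
      top n (∑ i ∈ s, g i) = ∑ i ∈ s, top n (g i) := by
    intro ι s g n
    induction s using Finset.induction_on with
    | empty => intro _; rw [Finset.sum_empty, Finset.sum_empty, htop0]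
    | insert i s hi ih =>
      intro hs
      rw [Finset.sum_insert hi, Finset.sum_insert hi, hadd n _ _ (hs i (Finset.mem_insert_self _ _))
        (Submodule.sum_mem _ fun j hj => hs j (Finset.mem_insert_of_mem hj)),
        ih fun j hj => hs j (Finset.mem_insert_of_mem hj)]
  have hone0 : top 0 1 = 1 := by
    have := hone 0
    rwa [pow_zero, Nat.cast_zero] at this
  have hprod : ∀ (s : Finset (Fin h)) (d : Fin h → ℤ) (q : Fin h → L), (∀ i, q i ∈ A k η ζ (d i)) →
      (∏ i ∈ s, q i) ∈ A k η ζ (∑ i ∈ s, d i) ∧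
      top (∑ i ∈ s, d i) (∏ i ∈ s, q i) = ∏ i ∈ s, top (d i) (q i) := by
    intro s d q hq
    induction s using Finset.induction_on with
    | empty =>
      rw [Finset.sum_empty, Finset.prod_empty, Finset.prod_empty]
      exact ⟨one_mem_A le_rfl, hone0⟩
    | insert i s hi ih =>
      rw [Finset.sum_insert hi, Finset.prod_insert hi, Finset.prod_insert hi]
      exact ⟨A_mul_mem (hq i) ih.1, by rw [hmul _ _ _ _ (hq i) ih.1, ih.2]⟩
  -- minors
  let M : Fin h → Fin g → k := fun i j => top (b i - a j) (f i j)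
  have hminor : ∀ I : Fin h → Fin g, minor f I ∈ A k η ζ (∑ i, b i - ∑ i, a (I i)) ∧
      top (∑ i, b i - ∑ i, a (I i)) (minor f I) =
        Matrix.det (Matrix.of fun i i' => M i (I i')) := by
    intro I
    have hσ : ∀ σ : Equiv.Perm (Fin h), (∏ i, f (σ i) (I i)) ∈ A k η ζ (∑ i, b i - ∑ i, a (I i)) ∧
        top (∑ i, b i - ∑ i, a (I i)) (∏ i, f (σ i) (I i)) = ∏ i, M (σ i) (I i) := by
      intro σ
      have h1 := hprod Finset.univ (fun i => b (σ i) - a (I i)) (fun i => f (σ i) (I i))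
        (fun i => hc.f_mem _ _)
      have h2 : ∑ i, (b (σ i) - a (I i)) = ∑ i, b i - ∑ i, a (I i) := by
        rw [Finset.sum_sub_distrib, Equiv.sum_comp σ b]
      rw [h2] at h1
      exact h1
    have hσ' : ∀ σ : Equiv.Perm (Fin h), (Equiv.Perm.sign σ • ∏ i, f (σ i) (I i)) ∈
        A k η ζ (∑ i, b i - ∑ i, a (I i)) ∧
        top (∑ i, b i - ∑ i, a (I i)) (Equiv.Perm.sign σ • ∏ i, f (σ i) (I i)) =
          Equiv.Perm.sign σ • ∏ i, M (σ i) (I i) := by
      intro σ
      obtain ⟨h1, h2⟩ := hσ σ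
      rcases Int.units_eq_one_or (Equiv.Perm.sign σ) with hs | hs
      · rw [hs, one_smul, one_smul]; exact ⟨h1, h2⟩
      · rw [hs, Units.neg_smul, Units.neg_smul, one_smul, one_smul]
        exact ⟨Submodule.neg_mem _ h1, by rw [hneg _ _ h1, h2]⟩
    unfold minor
    rw [Matrix.det_apply, Matrix.det_apply]
    refine ⟨Submodule.sum_mem _ fun σ _ => (hσ' σ).1, ?_⟩
    rw [show (∑ σ : Equiv.Perm (Fin h), Equiv.Perm.sign σ •
      ∏ i, Matrix.of (fun i i' => f i (I i')) (σ i) i) =
      ∑ σ : Equiv.Perm (Fin h), Equiv.Perm.sign σ • ∏ i, f (σ i) (I i) from rfl,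
      hsum _ _ _ (fun σ _ => (hσ' σ).1)]
    exact Finset.sum_congr rfl fun σ _ => (hσ' σ).2
  have hex : ∃ I : Fin h → Fin g, Matrix.det (Matrix.of fun i i' => M i (I i')) ≠ 0 := by
    by_contra hcon
    push Not at hcon
    have h1 : top m (∑ I, cz I * minor f I) = 1 := by rw [hc.hz]; exact hone m
    have h2 : ∀ I : Fin h → Fin g, cz I * minor f I ∈ A k η ζ m ∧
        top m (cz I * minor f I) = 0 := by
      intro I
      have h3 := A_mul_mem (hc.c_mem I).2.2 (hminor I).1
      have h4 := hmul _ _ _ _ (hc.c_mem I).2.2 (hminor I).1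
      rw [sub_add_cancel] at h3 h4
      exact ⟨h3, by rw [h4, (hminor I).2, hcon I, mul_zero]⟩
    rw [hsum _ _ _ (fun I _ => (h2 I).1), Finset.sum_eq_zero fun I _ => (h2 I).2] at h1
    exact zero_ne_one h1
  intro n w hw hw'
  obtain ⟨u, hu, hwu⟩ := (mem_latOf n w).1 hw
  obtain ⟨u', hu', hwu'⟩ := (mem_latOf n _).1 hw'
  have hv : ∀ j, η * u j - u' j ∈ A k η ζ (n + 1 - a j) := by
    intro j
    refine Submodule.sub_mem _ ?_ (A_mono (by omega) (hu' j))
    have := A_mul_mem (eta_mem_A (k := k) (η := η) (ζ := ζ)) (hu j)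
    rwa [show (1 : ℤ) + (n - a j) = n + 1 - a j by ring] at this
  have h0 : ∑ j, (η * u j - u' j) • e j = 0 := by
    simp only [sub_smul, Finset.sum_sub_distrib, mul_smul]
    rw [← Finset.smul_sum, ← hwu, ← hwu', sub_self]
  obtain ⟨c, hcA, hcf⟩ := exact hP hg hc (n := n + 1) (u := fun j => η * u j - u' j) hv h0
  have hcf' : ∀ j, η * u j - u' j = ∑ i, c i * f i j := by
    intro j
    have := congrFun hcf j
    rw [Finset.sum_apply] at this
    exact this
  have hv0 : ∀ j, ∑ i, top (n + 1 - b i) (c i) * M i j = 0 := by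
    intro j
    have h1 : top (n + 1 - a j) (η * u j - u' j) = 0 := by
      have h2 := heta _ _ (hu j)
      have h3 := hlow _ _ (Submodule.neg_mem _ (hu' j))
      rw [show n - a j + 1 = n + 1 - a j by ring] at h2 h3
      rw [sub_eq_add_neg (η * u j) (u' j),
        hadd (n + 1 - a j) _ _ ?_ (Submodule.neg_mem _ (A_mono (by omega) (hu' j))), h2, h3, add_zero]
      have := A_mul_mem (eta_mem_A (k := k) (η := η) (ζ := ζ)) (hu j)
      rwa [show (1 : ℤ) + (n - a j) = n + 1 - a j by ring] at this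
    have h4 : ∀ i, c i * f i j ∈ A k η ζ (n + 1 - a j) ∧
        top (n + 1 - a j) (c i * f i j) = top (n + 1 - b i) (c i) * M i j := by
      intro i
      have h5 := A_mul_mem (hcA i) (hc.f_mem i j)
      have h6 := hmul _ _ _ _ (hcA i) (hc.f_mem i j)
      rw [show n + 1 - b i + (b i - a j) = n + 1 - a j by ring] at h5 h6
      exact ⟨h5, h6⟩
    rw [hcf' j, hsum _ _ _ (fun i _ => (h4 i).1)] at h1
    rw [← h1]
    exact Finset.sum_congr rfl fun i _ => (h4 i).2.symm
  obtain ⟨I, hI⟩ := hex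
  have hvz : (fun i => top (n + 1 - b i) (c i)) = 0 := by
    apply Matrix.eq_zero_of_vecMul_eq_zero hI
    funext i'
    rw [Matrix.vecMul, dotProduct]
    exact hv0 (I i')
  have hspl : ∀ i, ∃ q1 ∈ A k η ζ (n + 1 - b i - 1), ∃ q2 ∈ A k η ζ (n + 1 - b i - 1),
      c i = q1 + η * q2 := fun i => hker _ _ (hcA i) (congrFun hvz i)
  choose c1 hc1 c2 hc2 hc12 using hspl
  have hmem1 : ∀ (q : Fin h → L), (∀ i, q i ∈ A k η ζ (n + 1 - b i - 1)) → ∀ j,
      ∑ i, q i * f i j ∈ A k η ζ (n - a j) := by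
    intro q hq j
    refine Submodule.sum_mem _ fun i _ => ?_
    have := A_mul_mem (hq i) (hc.f_mem i j)
    rwa [show n + 1 - b i - 1 + (b i - a j) = n - a j by ring] at this
  have ht : ∀ j, u j - ∑ i, c2 i * f i j ∈ A k η ζ (n - 1 - a j) := by
    intro j
    have h1 : u j - ∑ i, c2 i * f i j ∈ A k η ζ (n - a j) :=
      Submodule.sub_mem _ (hu j) (hmem1 c2 hc2 j)
    have h2 : η ^ 1 * (u j - ∑ i, c2 i * f i j) ∈ A k η ζ (n - a j) := by
      have h3 : η ^ 1 * (u j - ∑ i, c2 i * f i j) = u' j + ∑ i, c1 i * f i j := by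
        have h4 := hcf' j
        have h5 : ∑ i, c i * f i j = ∑ i, c1 i * f i j + η * ∑ i, c2 i * f i j := by
          rw [Finset.mul_sum, ← Finset.sum_add_distrib]
          refine Finset.sum_congr rfl fun i _ => ?_
          rw [hc12 i]; ring
        rw [h5] at h4
        linear_combination h4
      rw [h3]
      exact Submodule.add_mem _ (hu' j) (hmem1 c1 hc1 j)
    have h3 := A_div hP.indep h1 h2
    rwa [show n - a j - ((1 : ℕ) : ℤ) = n - 1 - a j by push_cast; ring] at h3
  refine (mem_latOf (n - 1) w).2 ⟨fun j => u j - ∑ i, c2 i * f i j, ht, ?_⟩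
  have h1 : ∑ j, (∑ i, c2 i * f i j) • e j = 0 := by
    simp only [Finset.sum_smul, mul_smul]
    rw [Finset.sum_comm]
    refine Finset.sum_eq_zero fun i _ => ?_
    rw [← Finset.smul_sum, hc.rel i, smul_zero]
  simp only [sub_smul, Finset.sum_sub_distrib]
  rw [h1, sub_zero]
  exact hwu

end R169.TR
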