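import Crest.Agent.R169.TR3D

/-!
# R169_TR3E: `latOf` is reflexive.
Let `w` satisfy `Refl η ζ E n w` (`E = latOf`). `w = ∑ v j e j` with `v j ∈ F` (`latOf_fspan`). For columns `I` put
`T_I(v) j = minor f I * v j - ∑ i (det of the I-submatrix of f with row i replaced by (v (I i')))_i * f i j`
(= `minor_I v - ∑ (adj-coefficients) f i`). `T_I` is `F`-linear in `v`, vanishes on every `f i` (so on the relation space
`V = span_F f`, see TR3B), and `∑ T_I(v) j e j = minor_I • w` (`Cert.rel`). If `v j ∈ A(l - a j)` then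
`T_I(v) j ∈ A(l - a j + deg_I)`, `deg_I = ∑ b - ∑ a(I)`.
For a prime `π` take `s, G` with `¬ π ∣ G`, `ev G • w ∈ E (n+s)`, so `ev G • w = ∑ v' j e j`, `v' j ∈ A(n+s-a j)`, and
`ev G • v - v' ∈ V`, so `ev G * T_I(v) j = T_I(v') j ∈ A(n+s-a j+deg_I)`. As this holds for all primes `π`,
`T_I(v) j ∈ A(n - a j + deg_I)` (`A_refl` below: unique factorisation). Hence `minor_I • w ∈ E (n + deg_I)`; multiply by
`cx I`, `cy I`, sum: `w ∈ E (n+m)` and `η^m • w ∈ E (n+m)`. With `Dep2` (`latOf_dep2`) descend: for `v_i = η^i w`: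
`v_m ∈ E(n+m)`; `v_{m-1}`: it is in `E(n+2m-1)` and `η v_{m-1} ∈ E(n+m)`, so by Dep2 repeatedly `v_{m-1} ∈ E(n+m-1)`; ...;
`v_0 = w ∈ E n`.
`A_refl`: `q ∈ F` (quotient of polynomials in `η, ζ`); if for each prime `π` of `MvPolynomial (Fin 3) k` there are `s`, `G`
homogeneous of degree `s`, `¬ π ∣ G`, `ev G * q ∈ A(n+s)`, then `q ∈ A n`. Write `q = ev G1 / ev G2` with `G1, G2`
homogeneous (`mem_A_iff`; `G2` of degree `t`, `G1` of degree `n+t`, may be multiplied by powers of `X 0` (`ev (X 0) = 1`)),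
so for each `π`: `G * G1 = G2 * H` hence every prime `π` divides `G2` at most as often as `G1`; `G2 ∣ G1`.
-/
set_option autoImplicit false
namespace R169.TR

variable {k L : Type} [Field k] [Field L] [Algebra k L] {D : GD k L} {η ζ : L}
variable {r g h : ℕ} {a : Fin g → ℤ} {b : Fin h → ℤ} {m : ℕ} {e : Fin g → (Fin r → L)}
  {f : Fin h → Fin g → L} {cx cy cz : (Fin h → Fin g) → L}

theorem tr3e_ev_mem (H : MvPolynomial (Fin 3) k) : ev η ζ H ∈ A k η ζ H.totalDegree := by
  have e0 : ev η ζ H = ∑ d ∈ H.support, ev η ζ (MvPolynomial.monomial d (H.coeff d)) := by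
    unfold ev
    rw [← map_sum, ← H.as_sum]
  rw [e0]
  refine Submodule.sum_mem _ fun d hd => ?_
  have h1 := MvPolynomial.le_totalDegree hd
  rw [Finsupp.sum_fintype _ _ (by intro i; simp), Fin.sum_univ_three] at h1
  rw [Lat.ev_monomial (η := η) (ζ := ζ) d (H.coeff d)]
  refine Submodule.smul_mem _ _ (Lat.monom_mem_A _ _ ?_)
  omega

theorem tr3e_aeval_mem (r : MvPolynomial (Fin 2) k) :
    MvPolynomial.aeval ![η, ζ] r ∈ A k η ζ r.totalDegree := by
  have e0 : MvPolynomial.aeval ![η, ζ] r =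
      ∑ d ∈ r.support, MvPolynomial.aeval ![η, ζ] (MvPolynomial.monomial d (r.coeff d)) := by
    rw [← map_sum, ← r.as_sum]
  rw [e0]
  refine Submodule.sum_mem _ fun d hd => ?_
  have h1 := MvPolynomial.le_totalDegree hd
  rw [Finsupp.sum_fintype _ _ (by intro i; simp), Fin.sum_univ_two] at h1
  rw [MvPolynomial.aeval_monomial, Finsupp.prod_fintype _ _ (by intro i; simp),
    Fin.prod_univ_two, ← Algebra.smul_def]
  refine Submodule.smul_mem _ _ (Lat.monom_mem_A _ _ ?_)
  omega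

/-- elements of `F` are fractions of elements of `A N` -/
theorem tr3e_ff {q : L} (hq : q ∈ FF k η ζ) : ∃ (N : ℕ) (u v : L), u ∈ A k η ζ N ∧ v ∈ A k η ζ N ∧
    v ≠ 0 ∧ q = u / v := by
  have hr : (Set.range ![η, ζ] : Set L) = {η, ζ} := by
    ext x
    simp only [Set.mem_range, Fin.exists_fin_two, Matrix.cons_val_zero, Matrix.cons_val_one,
      Set.mem_insert_iff, Set.mem_singleton_iff]
    constructor
    · rintro (h | h)
      · exact Or.inl h.symm
      · exact Or.inr h.symm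
    · rintro (h | h)
      · exact Or.inl h.symm
      · exact Or.inr h.symm
  unfold FF at hq
  rw [← hr, IntermediateField.mem_adjoin_range_iff] at hq
  obtain ⟨r, s, hrs⟩ := hq
  by_cases h0 : MvPolynomial.aeval ![η, ζ] s = 0
  · refine ⟨0, 0, 1, Submodule.zero_mem _, Lat.one_mem_A (by simp), one_ne_zero, ?_⟩
    rw [hrs, h0, div_zero, zero_div]
  · refine ⟨r.totalDegree + s.totalDegree, _, _, Lat.A_mono (by push_cast; omega) (tr3e_aeval_mem r),
      Lat.A_mono (by push_cast; omega) (tr3e_aeval_mem s), h0, hrs⟩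

theorem tr3e_frac {q : L} (hq : q ∈ FF k η ζ) : ∃ (N : ℕ) (G1 G2 : MvPolynomial (Fin 3) k),
    G1.IsHomogeneous N ∧ G2.IsHomogeneous N ∧ G2 ≠ 0 ∧ q = ev η ζ G1 / ev η ζ G2 := by
  obtain ⟨N, u, v, hu, hv, hv0, hq⟩ := tr3e_ff hq
  obtain ⟨G1, hG1, h1⟩ := (mem_A_iff N u).1 hu
  obtain ⟨G2, hG2, h2⟩ := (mem_A_iff N v).1 hv
  refine ⟨N, G1, G2, hG1, hG2, ?_, by rw [h1, h2, hq]⟩
  rintro rfl
  apply hv0
  rw [← h2]
  simp [ev]

theorem tr3e_dvd {R : Type} [CommRing R] [IsDomain R] [UniqueFactorizationMonoid R] {a b : R}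
    (hb : b ≠ 0) (h : ∀ π : R, Prime π → ∃ G, ¬ π ∣ G ∧ b ∣ G * a) : b ∣ a := by
  obtain ⟨b', a', c, hrel, hb', ha'⟩ := UniqueFactorizationMonoid.exists_reduced_factors b hb a
  have hc : c ≠ 0 := by
    rintro rfl
    rw [zero_mul] at hb'
    exact hb hb'.symm
  have hb'0 : b' ≠ 0 := by
    rintro rfl
    rw [mul_zero] at hb'
    exact hb hb'.symm
  by_cases hu : IsUnit b'
  · rw [← hb', ← ha']
    exact mul_dvd_mul_left c (hu.dvd)
  · exfalso
    obtain ⟨π, hπ, hπb⟩ := WfDvdMonoid.exists_irreducible_factor hu hb'0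
    have hπp := UniqueFactorizationMonoid.irreducible_iff_prime.1 hπ
    obtain ⟨G, hG, hGa⟩ := h π hπp
    rw [← hb', ← ha'] at hGa
    have h1 : b' ∣ G * a' := by
      have e : G * (c * a') = c * (G * a') := by ring
      rw [e] at hGa
      exact (mul_dvd_mul_iff_left hc).1 hGa
    rcases hπp.dvd_or_dvd (hπb.trans h1) with h2 | h2
    · exact hG h2
    · exact hπ.not_isUnit (hrel hπb h2)

theorem A_refl (ind : AlgebraicIndependent k ![η, ζ]) (n : ℤ) (q : L) (hq : q ∈ FF k η ζ)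
    (h : ∀ π : MvPolynomial (Fin 3) k, Prime π → ∃ (s : ℕ) (G : MvPolynomial (Fin 3) k),
      G.IsHomogeneous s ∧ ¬ π ∣ G ∧ ev η ζ G * q ∈ A k η ζ (n + s)) : q ∈ A k η ζ n := by
  classical
  by_cases hq0 : q = 0
  · rw [hq0]; exact Submodule.zero_mem _
  obtain ⟨N, G1, G2, hG1, hG2, hG20, hqG⟩ := tr3e_frac hq
  have hG10 : G1 ≠ 0 := by
    intro e
    rw [e] at hqG
    have : ev η ζ (0 : MvPolynomial (Fin 3) k) = 0 := by simp [ev]
    rw [this, zero_div] at hqG
    exact hq0 hqG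
  have hev2 : ev η ζ G2 ≠ 0 := fun e => hG20 (ev_inj ind hG2 e)
  have hq1 : ev η ζ G2 * q = ev η ζ G1 := by rw [hqG]; field_simp
  obtain ⟨a, ha⟩ : ∃ a : ℕ, a = n.toNat := ⟨_, rfl⟩
  obtain ⟨b, hb⟩ : ∃ b : ℕ, b = (-n).toNat := ⟨_, rfl⟩
  have hab : n = (a : ℤ) - b := by omega
  have hX : ∀ c : ℕ, ev η ζ ((MvPolynomial.X 0 : MvPolynomial (Fin 3) k) ^ c) = 1 := by
    intro c; simp [ev]
  have hX0 : ∀ c : ℕ, ((MvPolynomial.X 0 : MvPolynomial (Fin 3) k) ^ c) ≠ 0 :=
    fun c => pow_ne_zero _ (MvPolynomial.X_ne_zero 0)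
  have hXh : ∀ c : ℕ, ((MvPolynomial.X 0 : MvPolynomial (Fin 3) k) ^ c).IsHomogeneous c :=
    fun c => MvPolynomial.isHomogeneous_X_pow 0 c
  have hdvd : G2 * MvPolynomial.X 0 ^ b ∣ G1 * MvPolynomial.X 0 ^ a := by
    refine tr3e_dvd (mul_ne_zero hG20 (hX0 b)) ?_
    intro π hπ
    obtain ⟨s, G, hG, hπG, hGq⟩ := h π hπ
    refine ⟨G, hπG, ?_⟩
    have hG0 : G ≠ 0 := fun e => hπG (e ▸ dvd_zero π)
    have hevG : ev η ζ G ≠ 0 := fun e => hG0 (ev_inj ind hG e)
    rcases lt_or_ge (n + s) 0 with hneg | hpos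
    · rw [Lat.A_neg hneg, Submodule.mem_bot] at hGq
      rcases mul_eq_zero.1 hGq with h' | h'
      · exact absurd h' hevG
      · exact absurd h' hq0
    · obtain ⟨u, hu⟩ : ∃ u : ℕ, n + s = (u : ℤ) := ⟨(n + s).toNat, by omega⟩
      rw [hu] at hGq
      obtain ⟨K, hK, hKe⟩ := (mem_A_iff u _).1 hGq
      refine ⟨K, ?_⟩
      have hdeg : s + (N + a) = u + (N + b) := by omega
      have h1 : (G * (G1 * MvPolynomial.X 0 ^ a) - K * (G2 * MvPolynomial.X 0 ^ b)).IsHomogeneous
          (s + (N + a)) := by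
        refine MvPolynomial.IsHomogeneous.sub (hG.mul (hG1.mul (hXh a))) ?_
        rw [hdeg]
        exact hK.mul (hG2.mul (hXh b))
      have h2 := ev_inj ind h1 (by
        rw [Lat.ev_sub, Lat.ev_mul, Lat.ev_mul, Lat.ev_mul, Lat.ev_mul, hX, hX, hKe, ← hq1]
        ring)
      rw [sub_eq_zero] at h2
      rw [h2]; ring
  obtain ⟨H, hH⟩ := hdvd
  have hne1 : G1 * MvPolynomial.X 0 ^ a ≠ 0 := mul_ne_zero hG10 (hX0 a)
  have hne2 : G2 * MvPolynomial.X 0 ^ b ≠ 0 := mul_ne_zero hG20 (hX0 b)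
  have hH0 : H ≠ 0 := by
    rintro rfl
    rw [mul_zero] at hH
    exact hne1 hH
  have hd1 : (G1 * MvPolynomial.X 0 ^ a).totalDegree = N + a := (hG1.mul (hXh a)).totalDegree hne1
  have hd2 : (G2 * MvPolynomial.X 0 ^ b).totalDegree = N + b := (hG2.mul (hXh b)).totalDegree hne2
  have hd3 := MvPolynomial.totalDegree_mul_of_isDomain hne2 hH0
  rw [← hH, hd1, hd2] at hd3
  have hq2 : q = ev η ζ H := by
    have h3 := congrArg (ev η ζ) hH
    rw [Lat.ev_mul, Lat.ev_mul, Lat.ev_mul, hX, hX, ← hq1, mul_one, mul_one] at h3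
    exact mul_left_cancel₀ hev2 h3
  rw [hq2]
  exact Lat.A_mono (by omega) (tr3e_ev_mem H)

theorem tr3e_A_le_FF {n : ℤ} {x : L} (hx : x ∈ A k η ζ n) : x ∈ FF k η ζ := by
  have h1 : η ∈ FF k η ζ := IntermediateField.subset_adjoin k _ (by simp)
  have h2 : ζ ∈ FF k η ζ := IntermediateField.subset_adjoin k _ (by simp)
  rw [A] at hx
  induction hx using Submodule.span_induction with
  | mem x hx =>
    obtain ⟨a, b, -, rfl⟩ := hx
    exact mul_mem (pow_mem h1 a) (pow_mem h2 b)
  | zero => exact zero_mem _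
  | add x y _ _ hx hy => exact add_mem hx hy
  | smul c x _ hx => exact (FF k η ζ).smul_mem hx

/-- common denominators -/
theorem tr3e_den (v : Fin g → L) (hv : ∀ j, v j ∈ FF k η ζ) : ∃ (δ : L) (N : ℕ), δ ≠ 0 ∧
    δ ∈ A k η ζ N ∧ ∀ j, (δ • v) j ∈ A k η ζ N := by
  classical
  have key : ∀ s : Finset (Fin g), ∃ (δ : L) (N : ℕ), δ ≠ 0 ∧
      δ ∈ A k η ζ N ∧ ∀ j ∈ s, δ * v j ∈ A k η ζ N := by
    intro s
    induction s using Finset.induction_on with
    | empty => exact ⟨1, 0, one_ne_zero, Lat.one_mem_A (by simp), by simp⟩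
    | insert j s hj ih =>
      obtain ⟨δ, N, h1, h2, h3⟩ := ih
      obtain ⟨N', u, w, hu, hw, hw0, hvj⟩ := tr3e_ff (hv j)
      refine ⟨δ * w, N + N', mul_ne_zero h1 hw0, ?_, ?_⟩
      · push_cast
        exact A_mul_mem h2 hw
      · intro i hi
        rcases Finset.mem_insert.1 hi with rfl | hi
        · have e : δ * w * v i = δ * u := by rw [hvj]; field_simp
          rw [e]
          push_cast
          exact A_mul_mem h2 hu
        · have e : δ * w * v i = (δ * v i) * w := by ring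
          rw [e]
          push_cast
          exact A_mul_mem (h3 i hi) hw
  obtain ⟨δ, N, h1, h2, h3⟩ := key Finset.univ
  exact ⟨δ, N, h1, h2, fun j => h3 j (Finset.mem_univ j)⟩

theorem tr3e_prod_mem {ι : Type} (s : Finset ι) (x : ι → L) (d : ι → ℤ)
    (h : ∀ i ∈ s, x i ∈ A k η ζ (d i)) : ∏ i ∈ s, x i ∈ A k η ζ (∑ i ∈ s, d i) := by
  classical
  induction s using Finset.induction_on with
  | empty => simpa using Lat.one_mem_A (k := k) (η := η) (ζ := ζ) (le_refl 0)
  | insert j s hj ih =>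
    rw [Finset.prod_insert hj, Finset.sum_insert hj]
    exact A_mul_mem (h j (Finset.mem_insert_self _ _))
      (ih fun i hi => h i (Finset.mem_insert_of_mem hi))

theorem tr3e_det_mem (M : Matrix (Fin h) (Fin h) L) (ρ γ : Fin h → ℤ)
    (hM : ∀ i i', M i i' ∈ A k η ζ (ρ i - γ i')) : M.det ∈ A k η ζ (∑ i, ρ i - ∑ i, γ i) := by
  rw [Matrix.det_apply]
  refine Submodule.sum_mem _ fun σ _ => ?_
  have h1 : ∏ i, M (σ i) i ∈ A k η ζ (∑ i, ρ i - ∑ i, γ i) := by
    have h2 := tr3e_prod_mem (k := k) (η := η) (ζ := ζ) Finset.univ (fun i => M (σ i) i)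
      (fun i => ρ (σ i) - γ i) (fun i _ => hM _ _)
    rw [Finset.sum_sub_distrib, Equiv.sum_comp σ ρ] at h2
    exact h2
  rcases Int.units_eq_one_or (Equiv.Perm.sign σ) with h3 | h3
  · rw [h3, one_smul]; exact h1
  · rw [h3, Units.neg_smul, one_smul]; exact Submodule.neg_mem _ h1

/-- the determinant of the `I`-submatrix with row `i` replaced by `v` -/
noncomputable def tr3eD (f : Fin h → Fin g → L) (I : Fin h → Fin g) (i : Fin h) :
    (Fin g → L) →ₗ[L] L :=
  (Matrix.detRowAlternating (n := Fin h) (R := L)).toMultilinearMap.toLinearMap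
    (fun i i' => f i (I i')) i ∘ₗ LinearMap.funLeft L L I

theorem tr3eD_apply (f : Fin h → Fin g → L) (I : Fin h → Fin g) (i : Fin h) (v : Fin g → L) :
    tr3eD f I i v = Matrix.det (Matrix.of (Function.update (fun i i' => f i (I i')) i
      (fun i' => v (I i')))) := rfl

/-- `T_I` -/
noncomputable def tr3eT (f : Fin h → Fin g → L) (I : Fin h → Fin g) :
    (Fin g → L) →ₗ[L] (Fin g → L) :=
  minor f I • LinearMap.id - ∑ i, (LinearMap.toSpanSingleton L (Fin g → L) (f i)) ∘ₗ (tr3eD f I i)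

theorem tr3eT_apply (f : Fin h → Fin g → L) (I : Fin h → Fin g) (v : Fin g → L) :
    tr3eT f I v = minor f I • v - ∑ i, tr3eD f I i v • f i := by
  simp [tr3eT]

theorem tr3eD_f (f : Fin h → Fin g → L) (I : Fin h → Fin g) (i i0 : Fin h) :
    tr3eD f I i (f i0) = if i = i0 then minor f I else 0 := by
  rw [tr3eD_apply]
  split_ifs with hi
  · subst hi
    rw [Function.update_eq_self_iff.2 rfl]
    rfl
  · refine Matrix.det_zero_of_row_eq hi ?_
    funext i'
    simp [Function.update_of_ne (Ne.symm hi)]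

theorem tr3eT_f (f : Fin h → Fin g → L) (I : Fin h → Fin g) (i0 : Fin h) :
    tr3eT f I (f i0) = 0 := by
  classical
  rw [tr3eT_apply]
  simp only [tr3eD_f]
  simp

theorem tr3eT_mem (hc : Cert D η ζ a b m e f cx cy cz) (I : Fin h → Fin g) {v : Fin g → L} {l : ℤ}
    (hv : ∀ j, v j ∈ A k η ζ (l - a j)) (j : Fin g) :
    tr3eT f I v j ∈ A k η ζ (l - a j + (∑ i, b i - ∑ i, a (I i))) := by
  classical
  rw [tr3eT_apply, Pi.sub_apply, Pi.smul_apply, Finset.sum_apply, smul_eq_mul]
  refine Submodule.sub_mem _ ?_ (Submodule.sum_mem _ fun i _ => ?_)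
  · have h1 : minor f I ∈ A k η ζ (∑ i, b i - ∑ i, a (I i)) :=
      tr3e_det_mem _ b (fun i => a (I i)) (fun i i' => hc.f_mem i (I i'))
    exact Lat.A_mono (by omega) (A_mul_mem h1 (hv j))
  · rw [Pi.smul_apply, smul_eq_mul, tr3eD_apply]
    have h1 := tr3e_det_mem (k := k) (η := η) (ζ := ζ)
      (Matrix.of (Function.update (fun i i' => f i (I i')) i (fun i' => v (I i'))))
      (Function.update b i l) (fun i => a (I i)) (by
        intro i1 i'
        rw [Matrix.of_apply]
        by_cases hi : i1 = i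
        · subst hi
          rw [Function.update_self, Function.update_self]
          exact hv _
        · rw [Function.update_of_ne hi, Function.update_of_ne hi]
          exact hc.f_mem _ _)
    have h2 : ∑ i1, Function.update b i l i1 = ∑ i1, b i1 - b i + l := by
      rw [Finset.sum_update_of_mem (Finset.mem_univ i), Finset.sdiff_singleton_eq_erase]
      have h3 := Finset.add_sum_erase Finset.univ b (Finset.mem_univ i)
      linarith
    rw [h2] at h1
    exact Lat.A_mono (by omega) (A_mul_mem h1 (hc.f_mem i j))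

theorem tr3eT_rel (hc : Cert D η ζ a b m e f cx cy cz) (I : Fin h → Fin g) (v : Fin g → L) :
    minor f I • ∑ j, v j • e j = ∑ j, tr3eT f I v j • e j := by
  have h1 : ∀ j, tr3eT f I v j • e j =
      minor f I • (v j • e j) - ∑ i, tr3eD f I i v • (f i j • e j) := by
    intro j
    rw [tr3eT_apply, Pi.sub_apply, sub_smul, Pi.smul_apply, Finset.sum_apply, Finset.sum_smul,
      smul_eq_mul, mul_smul]
    congr 1
    refine Finset.sum_congr rfl fun i _ => ?_
    rw [Pi.smul_apply, smul_eq_mul, mul_smul]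
  simp only [h1]
  rw [Finset.sum_sub_distrib, ← Finset.smul_sum, Finset.sum_comm]
  have h2 : ∑ i, ∑ j, tr3eD f I i v • (f i j • e j) = 0 := by
    refine Finset.sum_eq_zero fun i _ => ?_
    rw [← Finset.smul_sum, hc.rel i, smul_zero]
  rw [h2, sub_zero]

theorem latOf_refl (hP : Par D η ζ) (hg : Gen1 D) (hc : Cert D η ζ a b m e f cx cy cz) :
    IsRefl (k := k) η ζ (latOf k η ζ a e) := by
  classical
  have hlat := latOf_isLat hP hg hc
  have hmono : ∀ n, latOf k η ζ a e n ≤ latOf k η ζ a e (n + 1) := hlat.mono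
  have hmono' : ∀ {l l' : ℤ}, l ≤ l' → latOf k η ζ a e l ≤ latOf k η ζ a e l' := by
    intro l l' hl
    obtain ⟨d, rfl⟩ := Int.le.dest hl
    clear hl
    induction d with
    | zero => simp
    | succ d ih =>
      refine ih.trans ?_
      have := hmono (l + d)
      push_cast
      rwa [← add_assoc]
  have ind := hP.indep
  intro n w hw
  -- coordinates of `w` over `F`
  obtain ⟨v, hvF, hv⟩ : ∃ v : Fin g → L, (∀ j, v j ∈ FF k η ζ) ∧ w = ∑ j, v j • e j := by
    have h1 : w ∈ Submodule.span (FF k η ζ) (Set.range e) := by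
      rw [latOf_fspan hP hg hc]; trivial
    rw [Submodule.mem_span_range_iff_exists_fun] at h1
    obtain ⟨c, hc'⟩ := h1
    exact ⟨fun j => (c j : L), fun j => (c j).2, hc'.symm⟩
  obtain ⟨δ, N, hδ0, hδv⟩ := tr3e_den (η := η) (ζ := ζ) v hvF
  -- `TI` is rational
  have hTF : ∀ I j, tr3eT f I v j ∈ FF k η ζ := by
    intro I j
    obtain ⟨N', hN'⟩ : ∃ N' : ℤ, ∀ j, (N : ℤ) ≤ N' - a j :=
      ⟨N + ∑ i, |a i|, fun j => by
        have := Finset.single_le_sum (f := fun i => |a i|) (fun i _ => abs_nonneg _)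
          (Finset.mem_univ j)
        have h2 := le_abs_self (a j)
        omega⟩
    have h1 := tr3eT_mem hc I (v := δ • v) (l := N') (fun j => Lat.A_mono (hN' j) (hδv.2 j)) j
    rw [map_smul] at h1
    have h2 : tr3eT f I v j = (δ • tr3eT f I v) j / δ := by
      rw [Pi.smul_apply, smul_eq_mul]; field_simp
    rw [h2]
    exact div_mem (tr3e_A_le_FF h1) (tr3e_A_le_FF hδv.1)
  have hTA : ∀ I j, tr3eT f I v j ∈ A k η ζ (n - a j + (∑ i, b i - ∑ i, a (I i))) := by
    intro I j
    refine A_refl ind _ _ (hTF I j) ?_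
    intro π hπ
    obtain ⟨s, G, hG, hπG, hGw⟩ := hw π hπ
    refine ⟨s, G, hG, hπG, ?_⟩
    obtain ⟨v', hv', hv'e⟩ := (mem_latOf _ _).1 hGw
    -- the difference is a relation
    have hrel : ∑ j, (ev η ζ G • v - v') j • e j = 0 := by
      have h1 : ∑ j, (ev η ζ G • v - v') j • e j =
          ev η ζ G • (∑ j, v j • e j) - ∑ j, v' j • e j := by
        rw [Finset.smul_sum, ← Finset.sum_sub_distrib]
        refine Finset.sum_congr rfl fun j _ => ?_
        rw [Pi.sub_apply, Pi.smul_apply, sub_smul, smul_eq_mul, mul_smul]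
      rw [h1, ← hv, hv'e, sub_self]
    have hz : tr3eT f I (ev η ζ G • v - v') = 0 := by
      -- multiply by `δ`
      have h2 : ∃ N' : ℤ, ∀ j, (δ • (ev η ζ G • v - v')) j ∈ A k η ζ (N' - a j) := by
        refine ⟨(N : ℤ) + s + |n| + ∑ i, |a i|, fun j => ?_⟩
        have h3 := Finset.single_le_sum (f := fun i => |a i|) (fun i _ => abs_nonneg _)
          (Finset.mem_univ j)
        have h4 := le_abs_self (a j)
        have h5 := neg_abs_le (a j)
        have h6 := le_abs_self n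
        have h6' := abs_nonneg n
        have e1 : (δ • (ev η ζ G • v - v')) j = ev η ζ G * (δ • v) j - δ * v' j := by
          simp only [Pi.smul_apply, Pi.sub_apply, smul_eq_mul]; ring
        rw [e1]
        refine Submodule.sub_mem _ ?_ ?_
        · exact Lat.A_mono (by omega) (A_mul_mem (ev_mem_A hG) (hδv.2 j))
        · exact Lat.A_mono (by omega) (A_mul_mem hδv.1 (hv' j))
      obtain ⟨N', hN'⟩ := h2
      obtain ⟨c, -, hc'⟩ := exact hP hg hc hN' (by
        have e1 : ∑ j, (δ • (ev η ζ G • v - v')) j • e j =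
            δ • ∑ j, (ev η ζ G • v - v') j • e j := by
          rw [Finset.smul_sum]
          refine Finset.sum_congr rfl fun j _ => ?_
          rw [Pi.smul_apply, smul_eq_mul, mul_smul]
        rw [e1, hrel, smul_zero])
      have h7 : tr3eT f I (δ • (ev η ζ G • v - v')) = 0 := by
        rw [hc', map_sum]
        refine Finset.sum_eq_zero fun i _ => ?_
        rw [map_smul, tr3eT_f, smul_zero]
      rw [map_smul] at h7
      rcases smul_eq_zero.1 h7 with h8 | h8
      · exact absurd h8 hδ0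
      · exact h8
    rw [map_sub, map_smul, sub_eq_zero] at hz
    have h9 := congrFun hz j
    rw [Pi.smul_apply, smul_eq_mul] at h9
    rw [h9]
    have h10 := tr3eT_mem hc I hv' j
    exact Lat.A_mono (by omega) h10
  -- `minor • w`
  have hmin : ∀ I, minor f I • w ∈ latOf k η ζ a e (n + (∑ i, b i - ∑ i, a (I i))) := by
    intro I
    rw [mem_latOf]
    refine ⟨tr3eT f I v, fun j => ?_, ?_⟩
    · exact Lat.A_mono (by omega) (hTA I j)
    · rw [hv, tr3eT_rel hc]
  have hmul : ∀ (c : (Fin h → Fin g) → L),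
      (∀ I, c I ∈ A k η ζ (m - (∑ i, b i - ∑ i, a (I i)))) →
      (∑ I, c I * minor f I) • w ∈ latOf k η ζ a e (n + m) := by
    intro c hcI
    rw [Finset.sum_smul]
    refine Submodule.sum_mem _ fun I _ => ?_
    rw [mul_smul]
    have h1 := hlat.smul_mem (A_le_B hP _ (hcI I)) (hmin I)
    exact hmono' (by omega) h1
  have hw1 : w ∈ latOf k η ζ a e (n + m) := by
    have := hmul cx (fun I => (hc.c_mem I).1)
    rwa [hc.hx, one_smul] at this
  have hw2 : η ^ m • w ∈ latOf k η ζ a e (n + m) := by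
    have := hmul cy (fun I => (hc.c_mem I).2.1)
    rwa [hc.hy] at this
  have hdep := latOf_dep2 hP hg hc
  -- descent
  have hA : ∀ (l : ℤ) (u : Fin r → L), η • u ∈ latOf k η ζ a e l →
      ∀ t : ℕ, u ∈ latOf k η ζ a e (l + t) → u ∈ latOf k η ζ a e (l - 1) := by
    intro l u hu t
    induction t with
    | zero =>
      intro h1
      rw [Nat.cast_zero, add_zero] at h1
      exact hdep l u h1 hu
    | succ t ih =>
      intro h1
      apply ih
      have h2 := hdep _ u h1 (hmono' (by omega) hu)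
      have e1 : l + ((t + 1 : ℕ) : ℤ) - 1 = l + t := by push_cast; ring
      rwa [e1] at h2
  have hdesc : ∀ i : ℕ, i ≤ m → η ^ (m - i) • w ∈ latOf k η ζ a e (n + m - i) := by
    intro i
    induction i with
    | zero => intro _; simpa using hw2
    | succ i ih =>
      intro hi
      have h1 := ih (by omega)
      have e1 : η ^ (m - i) • w = η • (η ^ (m - (i + 1)) • w) := by
        rw [smul_smul, ← pow_succ']
        congr 2
        omega
      rw [e1] at h1
      have h2 : η ^ (m - (i + 1)) • w ∈ latOf k η ζ a e (n + m - i + ((m + i : ℕ) : ℤ)) := by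
        have h3 : η ^ (m - (i + 1)) ∈ A k η ζ (m : ℤ) := by
          have := Lat.monom_mem_A (k := k) (η := η) (ζ := ζ) (m - (i + 1)) 0 (n := (m : ℤ))
            (by simp)
          simpa using this
        have h4 := hlat.smul_mem (A_le_B hP _ h3) hw1
        exact hmono' (by push_cast; omega) h4
      have h5 := hA _ _ h1 _ h2
      have e2 : n + m - ((i + 1 : ℕ) : ℤ) = n + m - i - 1 := by push_cast; ring
      rw [e2]
      exact h5
  have := hdesc m le_rfl
  simpa using this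

end R169.TR
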