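import Crest.Agent.R169.TR3D

/-!
# R169_TR4A: graded modules on which `x,y,z` is a regular sequence are free.
`K` a `P`-lattice with `Dep2` and `z`-regularity modulo `(x,y)`. Choose, for every `n`, a basis of a complement of
`M n = K(n-1) + ηK(n-1) + ζK(n-1)` in `K n`; only finitely many `n` give vectors (`bdd`, `gen`).
Let `f i` (degree `b i`) be all of them.
Generation: `K n = K(n-1)+ηK(n-1)+ζK(n-1)+span(f i : b i = n)`, induction on `n`: `K n = ∑ A(n-b i) f i`.
Independence over `F` (equivalently: `∑ c i • f i = 0`, `c i ∈ A(n-b i)` implies `c = 0`; clear denominators): induct on `n`.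
Write `c i = t i ζ^{n-b i} + q1 i + η q2 i` (`t i ∈ k`, `q1, q2 ∈ A(n-1-b i)`); modulo `N n = K(n-1)+ηK(n-1)`:
`∑ t i ζ^{n-b i} f i ∈ N n`; take the largest `b i` with `t i ≠ 0`, cancel `ζ^{n-b}` (`h3`): contradiction to the
independence of the `f i` of degree `b` modulo `M b`. So `t = 0`: `u + η v = 0` with
`u = ∑ q1 f, v = ∑ q2 f ∈ K(n-1)`. By `Dep2` (`v ∈ K(n-1)`, `η v = -u ∈ K(n-1)`), `v ∈ K(n-2)`, so by
generation `v = ∑ d i f i` with `d i ∈ A(n-2-b i)`, and the induction hypothesis (degree `n-1`, to `q2 - d`) gives `q2 = d`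
and then (degree `n-1`, to `q1 + η d`) `q1 + η d = 0`, so `c = q1 + η q2 = 0`.
(proved by helper77)
-/
set_option autoImplicit false
namespace R169.TR

open R169.Lat
open scoped IntermediateField.algebraAdjoinAdjoin

variable {k L : Type} [Field k] [Field L] [Algebra k L] {η ζ : L}
variable {W : Type} [AddCommGroup W] [Module k W] [Module L W] [IsScalarTower k L W]

/-- top coefficient decomposition -/
private theorem tr4a_top (n : ℤ) (q : L) (hq : q ∈ A k η ζ n) :
    ∃ (t : k) (q1 q2 : L), q1 ∈ A k η ζ (n - 1) ∧ q2 ∈ A k η ζ (n - 1) ∧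
      q = t • ζ ^ n.toNat + q1 + η * q2 ∧ (n < 0 → t = 0) := by
  rcases lt_or_ge n 0 with hn | hn
  · rw [A_neg hn, Submodule.mem_bot] at hq
    exact ⟨0, 0, 0, Submodule.zero_mem _, Submodule.zero_mem _, by simp [hq], fun _ => rfl⟩
  rw [A] at hq
  induction hq using Submodule.span_induction with
  | mem x hx =>
    obtain ⟨a, b, hab, rfl⟩ := hx
    rcases Nat.eq_zero_or_pos a with ha | ha
    · subst ha
      rcases lt_or_ge (b : ℤ) n with hb | hb
      · refine ⟨0, ζ ^ b, 0, ?_, Submodule.zero_mem _, by simp, fun _ => rfl⟩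
        have := monom_mem_A (k := k) (η := η) (ζ := ζ) 0 b (n := n - 1) (by push_cast; omega)
        simpa using this
      · refine ⟨1, 0, 0, Submodule.zero_mem _, Submodule.zero_mem _, ?_, fun h => by omega⟩
        have : n.toNat = b := by push_cast at hab; omega
        rw [this]; simp
    · refine ⟨0, 0, η ^ (a - 1) * ζ ^ b, Submodule.zero_mem _, ?_, ?_, fun _ => rfl⟩
      · refine monom_mem_A _ _ ?_
        push_cast [Nat.cast_sub ha]; omega
      · obtain ⟨a, rfl⟩ : ∃ a', a = a' + 1 := ⟨a - 1, by omega⟩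
        simp only [Nat.add_sub_cancel, zero_smul, zero_add]
        ring
  | zero => exact ⟨0, 0, 0, Submodule.zero_mem _, Submodule.zero_mem _, by simp, fun _ => rfl⟩
  | add x y _ _ hx hy =>
    obtain ⟨t, q1, q2, h1, h2, rfl, h3⟩ := hx
    obtain ⟨t', q1', q2', h1', h2', rfl, h3'⟩ := hy
    refine ⟨t + t', q1 + q1', q2 + q2', Submodule.add_mem _ h1 h1', Submodule.add_mem _ h2 h2', ?_,
      fun h => by rw [h3 h, h3' h, add_zero]⟩
    rw [add_smul]; ring
  | smul c x _ hx =>
    obtain ⟨t, q1, q2, h1, h2, rfl, h3⟩ := hx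
    refine ⟨c * t, c • q1, c • q2, Submodule.smul_mem _ _ h1, Submodule.smul_mem _ _ h2, ?_,
      fun h => by rw [h3 h, mul_zero]⟩
    rw [smul_add, smul_add, smul_smul, mul_smul_comm]

/-- minimal generators -/
private theorem tr4a_gens {K : ℤ → Submodule k W} (hK : IsPLat η ζ K) :
    ∃ (ι : Type) (_ : Fintype ι) (b : ι → ℤ) (f : ι → W), (∀ i, f i ∈ K (b i)) ∧
      (∀ n, K n ≤ K (n - 1) ⊔ sm η (K (n - 1)) ⊔ sm ζ (K (n - 1)) ⊔ gspan η ζ b f n) ∧
      (∀ (n : ℤ) (c : ι → k), (∀ i, b i ≠ n → c i = 0) →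
        ∑ i, c i • f i ∈ K (n - 1) ⊔ sm η (K (n - 1)) ⊔ sm ζ (K (n - 1)) → ∀ i, c i = 0) := by
  classical
  obtain ⟨n0, hn0⟩ := hK.bdd
  obtain ⟨n1, hn1⟩ := hK.gen
  have hfin : ∀ n, FiniteDimensional k (K n) := hK.fin
  obtain ⟨M, hMdef⟩ : ∃ M : ℤ → Submodule k W,
      ∀ n, M n = K (n - 1) ⊔ sm η (K (n - 1)) ⊔ sm ζ (K (n - 1)) := ⟨_, fun _ => rfl⟩
  have hM : ∀ n, M n ≤ K n := by
    intro n
    rw [hMdef]
    have e : n - 1 + 1 = n := by ring
    have h1 := hK.mono (n - 1)
    have h2 := hK.smη (n - 1)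
    have h3 := hK.smζ (n - 1)
    rw [e] at h1 h2 h3
    exact sup_le (sup_le h1 h2) h3
  have hC : ∀ n, ∃ C : Submodule k W, C ≤ K n ∧ Disjoint (M n) C ∧ M n ⊔ C = K n := by
    intro n
    obtain ⟨X, hX⟩ := Submodule.exists_isCompl (M n)
    refine ⟨X ⊓ K n, inf_le_right, hX.disjoint.mono_right inf_le_left, ?_⟩
    rw [← sup_inf_assoc_of_le X (hM n), hX.sup_eq_top, top_inf_eq]
  choose C hC1 hC2 hC3 using hC
  have hCfin : ∀ n, FiniteDimensional k (C n) := fun n =>
    Submodule.finiteDimensional_of_le (hC1 n)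
  have hCbot : ∀ n, n1 < n → C n = ⊥ := by
    intro n hn
    have h1 := hn1 (n - 1) (by omega)
    rw [show n - 1 + 1 = n by ring, ← hMdef] at h1
    have h2 : C n ≤ M n := (hC1 n).trans h1
    exact (hC2 n).eq_bot_of_ge h2
  have hCbot' : ∀ n, n < n0 → C n = ⊥ := by
    intro n hn
    have := hC1 n
    rw [hn0 n hn] at this
    exact le_bot_iff.1 this
  let ι : Type := Σ i : Fin (n1 - n0 + 1).toNat, Fin (Module.finrank k (C (n0 + (i : ℕ))))
  let b : ι → ℤ := fun p => n0 + (p.1 : ℕ)
  let f : ι → W := fun p => (Module.finBasis k (C (n0 + (p.1 : ℕ))) p.2 : W)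
  have hf : ∀ p, f p ∈ C (b p) := fun p => (Module.finBasis k (C (n0 + (p.1 : ℕ))) p.2).2
  refine ⟨ι, inferInstance, b, f, fun i => hC1 _ (hf i), ?_, ?_⟩
  · intro n
    rw [← hMdef]
    have h1 : C n ≤ gspan η ζ b f n := by
      rcases lt_or_ge n n0 with h0 | h0
      · rw [hCbot' n h0]; exact bot_le
      rcases lt_or_ge n1 n with h2 | h2
      · rw [hCbot n h2]; exact bot_le
      obtain ⟨d, rfl⟩ := Int.le.dest h0
      intro w hw
      have hd : d < (n1 - n0 + 1).toNat := by omega
      have hw2 := (Module.finBasis k (C (n0 + d))).sum_repr ⟨w, hw⟩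
      have hw3 := congrArg (Submodule.subtype _) hw2
      rw [map_sum] at hw3
      simp only [map_smul, Submodule.subtype_apply] at hw3
      rw [← hw3]
      refine Submodule.sum_mem _ fun j _ => Submodule.smul_mem _ _ ?_
      exact self_mem_gspan (k := k) (η := η) (ζ := ζ) (a := b) (e := f) ⟨⟨d, hd⟩, j⟩
    rw [← hC3 n]
    exact sup_le_sup_left h1 _
  · intro n c hc hsum i
    by_cases hi : b i = n
    swap
    · exact hc i hi
    rw [← hMdef] at hsum
    have h1 : ∑ i, c i • f i ∈ C n := by
      refine Submodule.sum_mem _ fun j _ => ?_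
      by_cases hj : b j = n
      · rw [← hj]; exact Submodule.smul_mem _ _ (hf j)
      · rw [hc j hj, zero_smul]; exact Submodule.zero_mem _
    have h2 : ∑ i, c i • f i = 0 := by
      have := Submodule.disjoint_def.1 (hC2 n) _ hsum h1
      exact this
    rw [Fintype.sum_sigma] at h2
    rw [Finset.sum_eq_single i.1] at h2
    · have h3 := Fintype.linearIndependent_iff.1
        (Module.finBasis k (C (n0 + (i.1 : ℕ)))).linearIndependent (fun j => c ⟨i.1, j⟩) (by
          apply Subtype.ext
          rw [AddSubmonoidClass.coe_finsetSum]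
          exact h2) i.2
      exact h3
    · intro x _ hx
      refine Finset.sum_eq_zero fun y _ => ?_
      rw [hc ⟨x, y⟩ ?_, zero_smul]
      intro h
      apply hx
      have h4 : n0 + ((x : ℕ) : ℤ) = n0 + ((i.1 : ℕ) : ℤ) := h.trans hi.symm
      apply Fin.ext
      omega
    · intro h; exact absurd (Finset.mem_univ _) h

/-- cancellation of `ζ` -/
private theorem tr4a_cancel {K : ℤ → Submodule k W} (hK : IsPLat η ζ K)
    (h3 : ∀ n w, w ∈ K n → ζ • w ∈ K n ⊔ sm η (K n) → w ∈ K (n - 1) ⊔ sm η (K (n - 1)))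
    (j : ℕ) : ∀ (m : ℤ) (w : W), w ∈ K m → ζ ^ j • w ∈ K (m + j - 1) ⊔ sm η (K (m + j - 1)) →
      w ∈ K (m - 1) ⊔ sm η (K (m - 1)) := by
  have hz : ∀ (a : ℕ) (m : ℤ) (v : W), v ∈ K m → ζ ^ a • v ∈ K (m + a) := by
    intro a
    induction a with
    | zero => intro m v hv; simpa using hv
    | succ a ih =>
      intro m v hv
      have := hK.zeta_mem (ih m v hv)
      rw [smul_smul, ← pow_succ'] at this
      push_cast
      rwa [← add_assoc]
  induction j with
  | zero => intro m w _ h; simpa using h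
  | succ j ih =>
    intro m w hw h
    refine ih m w hw (h3 (m + j) _ (hz j m w hw) ?_)
    rw [smul_smul, ← pow_succ']
    have e : m + ((j + 1 : ℕ) : ℤ) - 1 = m + j := by push_cast; ring
    rwa [e] at h

theorem free_of_regular (ind : AlgebraicIndependent k ![η, ζ]) {K : ℤ → Submodule k W}
    (hK : IsPLat η ζ K) (h2 : Dep2 η K)
    (h3 : ∀ n w, w ∈ K n → ζ • w ∈ K n ⊔ sm η (K n) → w ∈ K (n - 1) ⊔ sm η (K (n - 1))) :
    ∃ (h : ℕ) (b : Fin h → ℤ) (f : Fin h → W), (∀ i, f i ∈ K (b i)) ∧
      LinearIndependent (FF k η ζ) f ∧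
      ∀ n w, w ∈ K n → ∃ c : Fin h → L, (∀ i, c i ∈ A k η ζ (n - b i)) ∧ w = ∑ i, c i • f i := by
  classical
  obtain ⟨n0, hn0⟩ := hK.bdd
  obtain ⟨ι, hι, b, f, hf, hgen, hmin⟩ := tr4a_gens hK
  have hz : ∀ (a : ℕ) (m : ℤ) (v : W), v ∈ K m → ζ ^ a • v ∈ K (m + a) := by
    intro a
    induction a with
    | zero => intro m v hv; simpa using hv
    | succ a ih =>
      intro m v hv
      have := hK.zeta_mem (ih m v hv)
      rw [smul_smul, ← pow_succ'] at this
      push_cast
      rwa [← add_assoc]
  -- generation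
  have key : ∀ n, K n ≤ gspan η ζ b f n := by
    intro n
    rcases lt_or_ge n n0 with h0 | h0
    · rw [hn0 n h0]; exact bot_le
    obtain ⟨d, rfl⟩ := Int.le.dest h0
    clear h0
    have step : ∀ m : ℤ, K (m - 1) ≤ gspan η ζ b f (m - 1) → K m ≤ gspan η ζ b f m := by
      intro m hm
      refine (hgen m).trans ?_
      have e : m - 1 + 1 = m := by ring
      refine sup_le (sup_le (sup_le ?_ ?_) ?_) le_rfl
      · refine hm.trans ?_
        have := gspan_mono (k := k) (η := η) (ζ := ζ) (a := b) (e := f) (m - 1)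
        rwa [e] at this
      · intro w hw
        obtain ⟨v, hv, rfl⟩ := mem_sm.1 hw
        have := gspan_mul eta_mem_A (hm hv)
        rwa [e] at this
      · intro w hw
        obtain ⟨v, hv, rfl⟩ := mem_sm.1 hw
        have := gspan_mul zeta_mem_A (hm hv)
        rwa [e] at this
    induction d with
    | zero =>
      refine step _ ?_
      rw [hn0 _ (by push_cast; omega)]; exact bot_le
    | succ d ih =>
      refine step _ ?_
      rw [show n0 + ((d + 1 : ℕ) : ℤ) - 1 = n0 + d by push_cast; ring]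
      exact ih
  -- lower bound of the degrees
  obtain ⟨m0, hm0⟩ : ∃ m0 : ℤ, ∀ j, m0 < b j := by
    by_cases hne : Nonempty ι
    · obtain ⟨j0, hj0⟩ := Finite.exists_min b
      exact ⟨b j0 - 1, fun j => by have := hj0 j; omega⟩
    · exact ⟨0, fun j => (hne ⟨j⟩).elim⟩
  have hsm : ∀ (n : ℤ) (c : ι → L), (∀ i, c i ∈ A k η ζ (n - b i)) → ∑ i, c i • f i ∈ K n := by
    intro n c hc
    refine Submodule.sum_mem _ fun i _ => ?_
    have := hK.smul_mem (hc i) (hf i)
    rwa [show n - b i + b i = n by ring] at this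
  -- independence in degree n
  have main : ∀ (d : ℕ) (c : ι → L), (∀ i, c i ∈ A k η ζ (m0 + d - b i)) →
      ∑ i, c i • f i = 0 → ∀ i, c i = 0 := by
    intro d
    induction d with
    | zero =>
      intro c hc _ i
      have h1 := hc i
      rw [A_neg (by have := hm0 i; push_cast; omega), Submodule.mem_bot] at h1
      exact h1
    | succ d ih =>
      intro c hc hsum
      obtain ⟨n, hn⟩ : ∃ n : ℤ, n = m0 + ((d + 1 : ℕ) : ℤ) := ⟨_, rfl⟩
      rw [← hn] at hc
      have hn1 : m0 + (d : ℤ) = n - 1 := by rw [hn]; push_cast; ring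
      rw [hn1] at ih
      choose t q1 q2 hq1 hq2 hcq ht using fun i => tr4a_top (n - b i) (c i) (hc i)
      have hq1' : ∀ i, q1 i ∈ A k η ζ (n - 1 - b i) := fun i => by
        have := hq1 i
        rwa [show n - b i - 1 = n - 1 - b i by ring] at this
      have hq2' : ∀ i, q2 i ∈ A k η ζ (n - 1 - b i) := fun i => by
        have := hq2 i
        rwa [show n - b i - 1 = n - 1 - b i by ring] at this
      have hu := hsm (n - 1) q1 hq1'
      have hv := hsm (n - 1) q2 hq2'
      have hsplit : ∑ i, c i • f i = ∑ i, (t i • ζ ^ (n - b i).toNat) • f i +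
          (∑ i, q1 i • f i + η • ∑ i, q2 i • f i) := by
        rw [Finset.smul_sum, ← Finset.sum_add_distrib, ← Finset.sum_add_distrib]
        refine Finset.sum_congr rfl fun i _ => ?_
        rw [hcq i, add_smul, add_smul, smul_smul, add_assoc]
      rw [hsum] at hsplit
      -- all t vanish
      have ht0 : ∀ i, t i = 0 := by
        by_contra hcon
        push Not at hcon
        obtain ⟨i1, hi1⟩ := hcon
        obtain ⟨i0, hi0, hmax⟩ := Finset.exists_max_image (Finset.univ.filter (fun i => t i ≠ 0)) b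
          ⟨i1, by simpa using hi1⟩
        have hti0 : t i0 ≠ 0 := by simpa using hi0
        have hbmax : ∀ i, t i ≠ 0 → b i ≤ b i0 := fun i hi => hmax i (by simpa using hi)
        have hbn : b i0 ≤ n := by
          by_contra h
          exact hti0 (ht i0 (by omega))
        obtain ⟨w, hw⟩ : ∃ w : W, w = ∑ i, (t i • ζ ^ (b i0 - b i).toNat) • f i := ⟨_, rfl⟩
        have hterm : ∀ i, t i = 0 ∨ (b i ≤ b i0 ∧ ζ ^ (b i0 - b i).toNat • f i ∈ K (b i0)) := by
          intro i
          by_cases h : t i = 0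
          · exact Or.inl h
          · refine Or.inr ⟨hbmax i h, ?_⟩
            have h5 := hz (b i0 - b i).toNat (b i) (f i) (hf i)
            rwa [Int.toNat_of_nonneg (by have := hbmax i h; omega),
              show b i + (b i0 - b i) = b i0 by ring] at h5
        have hwK : w ∈ K (b i0) := by
          rw [hw]
          refine Submodule.sum_mem _ fun i _ => ?_
          rcases hterm i with h | ⟨_, h⟩
          · rw [h, zero_smul, zero_smul]; exact Submodule.zero_mem _
          · rw [smul_assoc]; exact Submodule.smul_mem _ _ h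
        have hzw : ζ ^ (n - b i0).toNat • w = ∑ i, (t i • ζ ^ (n - b i).toNat) • f i := by
          rw [hw, Finset.smul_sum]
          refine Finset.sum_congr rfl fun i _ => ?_
          rcases hterm i with h | ⟨h, _⟩
          · rw [h, zero_smul, zero_smul, zero_smul, zero_smul, smul_zero]
          · rw [smul_smul, mul_smul_comm, ← pow_add]
            congr 3
            omega
        have hwN : w ∈ K (b i0 - 1) ⊔ sm η (K (b i0 - 1)) := by
          refine tr4a_cancel hK h3 (n - b i0).toNat (b i0) w hwK ?_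
          rw [Int.toNat_of_nonneg (by omega), show b i0 + (n - b i0) - 1 = n - 1 by ring]
          rw [hzw]
          have h6 : ∑ i, (t i • ζ ^ (n - b i).toNat) • f i =
              -(∑ i, q1 i • f i + η • ∑ i, q2 i • f i) := by
            exact (neg_eq_of_add_eq_zero_left hsplit.symm).symm
          rw [h6]
          refine Submodule.neg_mem _ (Submodule.add_mem _ (Submodule.mem_sup_left hu)
            (Submodule.mem_sup_right (mem_sm.2 ⟨_, hv, rfl⟩)))
        -- contradiction with minimality
        have h7 := hmin (b i0) (fun i => if b i = b i0 then t i else 0)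
          (fun i hi => by simp only [if_neg hi]) ?_ i0
        · simp only [if_true] at h7
          exact hti0 h7
        · have h8 : ∑ i, (if b i = b i0 then t i else 0) • f i =
              w - ∑ i, (if b i = b i0 then 0 else (t i • ζ ^ (b i0 - b i).toNat) • f i) := by
            rw [hw, ← Finset.sum_sub_distrib]
            refine Finset.sum_congr rfl fun i _ => ?_
            by_cases h : b i = b i0
            · simp [h]
            · simp [h]
          rw [h8]
          refine Submodule.sub_mem _ (Submodule.mem_sup_left hwN) (Submodule.sum_mem _ fun i _ => ?_)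
          by_cases h : b i = b i0
          · rw [if_pos h]; exact Submodule.zero_mem _
          · rw [if_neg h]
            by_cases h' : t i = 0
            · rw [h', zero_smul, zero_smul]; exact Submodule.zero_mem _
            · have hlt : b i < b i0 := lt_of_le_of_ne (hbmax i h') h
              rw [smul_assoc]
              refine Submodule.smul_mem _ _ (Submodule.mem_sup_right (mem_sm.2
                ⟨ζ ^ (b i0 - 1 - b i).toNat • f i, ?_, ?_⟩))
              · have h5 := hz (b i0 - 1 - b i).toNat (b i) (f i) (hf i)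
                rwa [Int.toNat_of_nonneg (by omega),
                  show b i + (b i0 - 1 - b i) = b i0 - 1 by ring] at h5
              · rw [smul_smul, ← pow_succ']
                congr 2
                omega
      -- u + η v = 0
      have huv : ∑ i, q1 i • f i + η • ∑ i, q2 i • f i = 0 := by
        have h9 : ∑ i, (t i • ζ ^ (n - b i).toNat) • f i = 0 := by
          refine Finset.sum_eq_zero fun i _ => ?_
          rw [ht0 i, zero_smul, zero_smul]
        rw [h9, zero_add] at hsplit
        exact hsplit.symm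
      have hηv : η • ∑ i, q2 i • f i ∈ K (n - 1) := by
        have h10 : η • ∑ i, q2 i • f i = - ∑ i, q1 i • f i := (neg_eq_of_add_eq_zero_right huv).symm
        rw [h10]
        exact Submodule.neg_mem _ hu
      have hv2 := h2 (n - 1) _ hv hηv
      obtain ⟨dd, hdd, hvd⟩ := key _ hv2
      have hdd' : ∀ i, dd i ∈ A k η ζ (n - 1 - b i) := fun i =>
        A_mono (by omega) (hdd i)
      have h11 := ih (fun i => q2 i - dd i) (fun i => Submodule.sub_mem _ (hq2' i) (hdd' i)) (by
        simp only [sub_smul, Finset.sum_sub_distrib]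
        rw [hvd, sub_self])
      have h12 := ih (fun i => q1 i + η * dd i) (fun i => Submodule.add_mem _ (hq1' i) (by
        have := A_mul_mem (eta_mem_A (k := k) (η := η) (ζ := ζ)) (hdd i)
        refine A_mono ?_ this
        omega)) (by
        simp only [add_smul, mul_smul, Finset.sum_add_distrib]
        rw [← Finset.smul_sum, ← hvd]
        exact huv)
      intro i
      have e1 : q2 i = dd i := sub_eq_zero.1 (h11 i)
      rw [hcq i, ht0 i, zero_smul, zero_add, e1]
      exact h12 i
  -- independence over k[η, ζ]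
  have hpoly : ∀ x : L, x ∈ Algebra.adjoin k ({η, ζ} : Set L) → ∃ m : ℕ, x ∈ A k η ζ m := by
    intro x hx
    induction hx using Algebra.adjoin_induction with
    | mem x hx =>
      rcases hx with hx | hx
      · rw [hx]
        exact ⟨1, by simpa using eta_mem_A (k := k) (η := η) (ζ := ζ)⟩
      · rw [Set.mem_singleton_iff] at hx
        rw [hx]
        exact ⟨1, by simpa using zeta_mem_A (k := k) (η := η) (ζ := ζ)⟩
    | algebraMap r =>
      refine ⟨0, ?_⟩
      rw [Algebra.algebraMap_eq_smul_one]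
      exact Submodule.smul_mem _ _ (one_mem_A (by simp))
    | add x y _ _ hx hy =>
      obtain ⟨m, hm⟩ := hx
      obtain ⟨m', hm'⟩ := hy
      refine ⟨m + m', Submodule.add_mem _ (A_mono ?_ hm) (A_mono ?_ hm')⟩ <;> push_cast <;> omega
    | mul x y _ _ hx hy =>
      obtain ⟨m, hm⟩ := hx
      obtain ⟨m', hm'⟩ := hy
      refine ⟨m + m', ?_⟩
      push_cast
      exact A_mul_mem hm hm'
  have hli : LinearIndependent (FF k η ζ) f := by
    rw [← LinearIndependent.iff_fractionRing (R := Algebra.adjoin k ({η, ζ} : Set L))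
      (K := FF k η ζ)]
    rw [Fintype.linearIndependent_iff]
    intro g hg i
    choose m hm using fun i => hpoly (g i) (g i).2
    obtain ⟨B, hB⟩ : ∃ B : ℤ, ∀ i, (m i : ℤ) + b i ≤ B := by
      by_cases hne : Nonempty ι
      · obtain ⟨j0, hj0⟩ := Finite.exists_max (fun i => (m i : ℤ) + b i)
        exact ⟨_, hj0⟩
      · exact ⟨0, fun j => (hne ⟨j⟩).elim⟩
    have h13 := main (B - m0).toNat (fun i => (g i : L)) (fun i => A_mono ?_ (hm i)) hg i
    · exact Subtype.ext h13
    · have := hB i
      have h14 : B - m0 ≤ ((B - m0).toNat : ℤ) := Int.self_le_toNat _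
      omega
  let eq := Fintype.equivFin ι
  refine ⟨Fintype.card ι, fun j => b (eq.symm j), fun j => f (eq.symm j), fun j => hf _, ?_, ?_⟩
  · exact hli.comp _ eq.symm.injective
  · intro n w hw
    obtain ⟨c, hc, rfl⟩ := key n hw
    refine ⟨fun j => c (eq.symm j), fun j => hc _, ?_⟩
    exact (Equiv.sum_comp eq.symm (fun p => c p • f p)).symm

end R169.TR
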