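import Crest.Agent.R169.TR4A

/-!
# R169_TR4B: the relation lattice of a `Dep2` lattice is free.
`K n = {u : Fin g → L | (∀ j, u j ∈ A(n - a j)) ∧ ∑ u j • e j = 0}`. It is a `P`-lattice (sublattice of `∏ A(n - a j)`,
`IsPLat.sub`), `Dep2` (if `u, η u ∈ K n` then `u j ∈ A(n-1-a j)` by `A_div`), and `z`-regular mod `(x,y)`:
`u ∈ K n`, `ζ u = v + η v'` with `v, v' ∈ K n`: apply `top` (TR3D) to coordinates: `top_{n+1-a j}(ζ u j) = top(u j) = 0`, so
`u = s + η s'`, `s j, s' j ∈ A(n-1-a j)`. Put `S = ∑ s j e j`, `S' = ∑ s' j e j ∈ E(n-1)`: `S + η S' = 0`, so `η S' ∈ E(n-1)`, so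
`S' ∈ E(n-2)` by `Dep2` of `E`: `S' = ∑ t j e j`, `t j ∈ A(n-2-a j)` (`mem_latOf`), `S = -η S' = -∑ η t j e j`. Then
`s' - t ∈ K(n-1)`, `s + η t ∈ K(n-1)` and `u = (s + η t) + η (s' - t)`. Now `free_of_regular`.
-/
set_option autoImplicit false
namespace R169.TR

variable {k L : Type} [Field k] [Field L] [Algebra k L] {D : GD k L} {η ζ : L}

/-! ### the spaces `A n` -/

private theorem t4_mono {m n : ℤ} (h : m ≤ n) : A k η ζ m ≤ A k η ζ n := by
  apply Submodule.span_mono
  rintro l ⟨a, b, hab, rfl⟩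
  exact ⟨a, b, hab.trans h, rfl⟩

private theorem t4_neg {n : ℤ} (h : n < 0) : A k η ζ n = ⊥ := by
  unfold A
  have : {l : L | ∃ a b : ℕ, (a : ℤ) + b ≤ n ∧ l = η ^ a * ζ ^ b} = ∅ := by
    rw [Set.eq_empty_iff_forall_notMem]
    rintro l ⟨a, b, hab, _⟩
    omega
  rw [this, Submodule.span_empty]

private theorem t4_fg (n : ℤ) : (A k η ζ n).FG := by
  unfold A
  apply Submodule.fg_span
  apply Set.Finite.subset ((Set.finite_Iic (n.toNat)).prod (Set.finite_Iic (n.toNat)) |>.image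
    (fun p : ℕ × ℕ => η ^ p.1 * ζ ^ p.2))
  rintro l ⟨a, b, hab, rfl⟩
  refine ⟨(a, b), ⟨?_, ?_⟩, rfl⟩
  · show a ≤ n.toNat
    omega
  · show b ≤ n.toNat
    omega

private theorem t4_eta {m : ℤ} {c : L} (hc : c ∈ A k η ζ m) : η * c ∈ A k η ζ (m + 1) := by
  unfold A at hc
  induction hc using Submodule.span_induction with
  | mem x hx =>
    obtain ⟨a, b, hab, rfl⟩ := hx
    apply Submodule.subset_span
    refine ⟨a + 1, b, by push_cast; omega, ?_⟩
    rw [pow_succ]
    ring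
  | zero =>
    rw [mul_zero]
    exact Submodule.zero_mem _
  | add x y _ _ hx hy =>
    rw [mul_add]
    exact Submodule.add_mem _ hx hy
  | smul r x _ hx =>
    rw [mul_smul_comm]
    exact Submodule.smul_mem _ _ hx

private theorem t4_zeta {m : ℤ} {c : L} (hc : c ∈ A k η ζ m) : ζ * c ∈ A k η ζ (m + 1) := by
  unfold A at hc
  induction hc using Submodule.span_induction with
  | mem x hx =>
    obtain ⟨a, b, hab, rfl⟩ := hx
    apply Submodule.subset_span
    refine ⟨a, b + 1, by push_cast; omega, ?_⟩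
    rw [pow_succ]
    ring
  | zero =>
    rw [mul_zero]
    exact Submodule.zero_mem _
  | add x y _ _ hx hy =>
    rw [mul_add]
    exact Submodule.add_mem _ hx hy
  | smul r x _ hx =>
    rw [mul_smul_comm]
    exact Submodule.smul_mem _ _ hx

/-- generation of `A (m+1)` -/
private theorem t4_gen {m : ℤ} (hm : 0 ≤ m) {c : L} (hc : c ∈ A k η ζ (m + 1)) :
    ∃ x ∈ A k η ζ m, ∃ y ∈ A k η ζ m, ∃ z ∈ A k η ζ m, c = x + η * y + ζ * z := by
  unfold A at hc
  induction hc using Submodule.span_induction with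
  | mem x hx =>
    obtain ⟨a, b, hab, rfl⟩ := hx
    by_cases h : (a : ℤ) + b ≤ m
    · exact ⟨_, Submodule.subset_span ⟨a, b, h, rfl⟩, 0, Submodule.zero_mem _, 0, Submodule.zero_mem _,
        by ring⟩
    · rcases Nat.eq_zero_or_pos a with ha | ha
      · obtain ⟨b', rfl⟩ : ∃ b', b = b' + 1 := ⟨b - 1, by omega⟩
        refine ⟨0, Submodule.zero_mem _, 0, Submodule.zero_mem _, η ^ a * ζ ^ b',
          Submodule.subset_span ⟨a, b', by push_cast at hab; omega, rfl⟩, ?_⟩
        rw [pow_succ]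
        ring
      · obtain ⟨a', rfl⟩ : ∃ a', a = a' + 1 := ⟨a - 1, by omega⟩
        refine ⟨0, Submodule.zero_mem _, η ^ a' * ζ ^ b,
          Submodule.subset_span ⟨a', b, by push_cast at hab; omega, rfl⟩, 0, Submodule.zero_mem _, ?_⟩
        rw [pow_succ]
        ring
  | zero =>
    exact ⟨0, Submodule.zero_mem _, 0, Submodule.zero_mem _, 0, Submodule.zero_mem _, by ring⟩
  | add u v _ _ hu hv =>
    obtain ⟨x, hx, y, hy, z, hz, rfl⟩ := hu
    obtain ⟨x', hx', y', hy', z', hz', rfl⟩ := hv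
    exact ⟨x + x', Submodule.add_mem _ hx hx', y + y', Submodule.add_mem _ hy hy', z + z',
      Submodule.add_mem _ hz hz', by ring⟩
  | smul r u _ hu =>
    obtain ⟨x, hx, y, hy, z, hz, rfl⟩ := hu
    refine ⟨r • x, Submodule.smul_mem _ _ hx, r • y, Submodule.smul_mem _ _ hy, r • z,
      Submodule.smul_mem _ _ hz, ?_⟩
    rw [smul_add, smul_add, mul_smul_comm, mul_smul_comm]

/-! ### the ambient lattice `∏ A(n - a j)` -/

private def amb (k : Type) {L : Type} [Field k] [Field L] [Algebra k L] (η ζ : L) {g : ℕ}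
    (a : Fin g → ℤ) (n : ℤ) : Submodule k (Fin g → L) :=
  Submodule.pi Set.univ (fun j => A k η ζ (n - a j))

private theorem mem_amb {g : ℕ} {a : Fin g → ℤ} {n : ℤ} {u : Fin g → L} :
    u ∈ amb k η ζ a n ↔ ∀ j, u j ∈ A k η ζ (n - a j) := by
  unfold amb
  rw [Submodule.mem_pi]
  exact ⟨fun h j => h j (Set.mem_univ _), fun h j _ => h j⟩

private theorem amb_lat {g : ℕ} (a : Fin g → ℤ) : IsPLat η ζ (amb k η ζ a) where
  mono := by
    intro n u hu
    rw [mem_amb] at hu ⊢
    intro j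
    exact t4_mono (by omega) (hu j)
  smη := by
    rintro n _ ⟨u, hu, rfl⟩
    have hu' := mem_amb.mp hu
    rw [mem_amb]
    intro j
    have e : n + 1 - a j = n - a j + 1 := by ring
    rw [e]
    exact t4_eta (hu' j)
  smζ := by
    rintro n _ ⟨u, hu, rfl⟩
    have hu' := mem_amb.mp hu
    rw [mem_amb]
    intro j
    have e : n + 1 - a j = n - a j + 1 := by ring
    rw [e]
    exact t4_zeta (hu' j)
  fin := by
    intro n
    rw [FiniteDimensional, Module.Finite.iff_fg]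
    exact Submodule.fg_pi fun j => t4_fg _
  bdd := by
    refine ⟨-∑ j, |a j|, fun n hn => ?_⟩
    rw [eq_bot_iff]
    intro u hu
    rw [mem_amb] at hu
    rw [Submodule.mem_bot]
    funext j
    have h1 : |a j| ≤ ∑ j, |a j| :=
      Finset.single_le_sum (f := fun j => |a j|) (fun _ _ => abs_nonneg _) (Finset.mem_univ j)
    have h2 := neg_abs_le (a j)
    have h3 : n - a j < 0 := by omega
    have h4 := hu j
    rw [t4_neg h3, Submodule.mem_bot] at h4
    exact h4
  gen := by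
    refine ⟨∑ j, |a j|, fun n hn => ?_⟩
    intro u hu
    rw [mem_amb] at hu
    have h0 : ∀ j, ∃ x ∈ A k η ζ (n - a j), ∃ y ∈ A k η ζ (n - a j), ∃ z ∈ A k η ζ (n - a j),
        u j = x + η * y + ζ * z := by
      intro j
      have h1 : |a j| ≤ ∑ j, |a j| :=
        Finset.single_le_sum (f := fun j => |a j|) (fun _ _ => abs_nonneg _) (Finset.mem_univ j)
      have h2 := le_abs_self (a j)
      apply t4_gen (by omega)
      have e : n - a j + 1 = n + 1 - a j := by ring
      rw [e]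
      exact hu j
    choose x hx y hy z hz h using h0
    have e : u = x + η • y + ζ • z := by
      funext j
      rw [h j]
      rfl
    rw [e]
    refine Submodule.add_mem_sup (Submodule.add_mem_sup (mem_amb.mpr hx) ?_) ?_
    · exact ⟨y, mem_amb.mpr hy, rfl⟩
    · exact ⟨z, mem_amb.mpr hz, rfl⟩

/-- the relation lattice -/
private def relK (k : Type) {L : Type} [Field k] [Field L] [Algebra k L] (η ζ : L) {r g : ℕ}
    (a : Fin g → ℤ) (e : Fin g → (Fin r → L)) (n : ℤ) : Submodule k (Fin g → L) where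
  carrier := {u | (∀ j, u j ∈ A k η ζ (n - a j)) ∧ ∑ j, u j • e j = 0}
  add_mem' := by
    rintro u v ⟨hu, hu'⟩ ⟨hv, hv'⟩
    refine ⟨fun j => Submodule.add_mem _ (hu j) (hv j), ?_⟩
    simp only [Pi.add_apply, add_smul, Finset.sum_add_distrib, hu', hv', add_zero]
  zero_mem' := ⟨fun j => Submodule.zero_mem _, by simp⟩
  smul_mem' := by
    rintro c u ⟨hu, hu'⟩
    refine ⟨fun j => Submodule.smul_mem _ _ (hu j), ?_⟩
    have : ∑ j, (c • u) j • e j = c • ∑ j, u j • e j := by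
      rw [Finset.smul_sum]
      apply Finset.sum_congr rfl
      intro j _
      rw [Pi.smul_apply, smul_assoc]
    rw [this, hu', smul_zero]

private theorem mem_relK {r g : ℕ} {a : Fin g → ℤ} {e : Fin g → (Fin r → L)} {n : ℤ} {u : Fin g → L} :
    u ∈ relK k η ζ a e n ↔ (∀ j, u j ∈ A k η ζ (n - a j)) ∧ ∑ j, u j • e j = 0 := Iff.rfl

private theorem smul_rel {r g : ℕ} (e : Fin g → (Fin r → L)) (c : L) (u : Fin g → L) :
    ∑ j, (c • u) j • e j = c • ∑ j, u j • e j := by
  rw [Finset.smul_sum]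
  apply Finset.sum_congr rfl
  intro j _
  rw [Pi.smul_apply, smul_assoc]

private theorem relK_lat {r g : ℕ} (a : Fin g → ℤ) (e : Fin g → (Fin r → L)) :
    IsPLat η ζ (relK k η ζ a e) := by
  refine IsPLat.sub (amb_lat (k := k) (η := η) (ζ := ζ) a) ?_ ?_ ?_ ?_
  · intro n u hu
    exact mem_amb.mpr (mem_relK.mp hu).1
  · intro n u hu
    obtain ⟨h1, h2⟩ := mem_relK.mp hu
    exact mem_relK.mpr ⟨fun j => t4_mono (by omega) (h1 j), h2⟩
  · rintro n _ ⟨u, hu, rfl⟩
    obtain ⟨h1, h2⟩ := mem_relK.mp hu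
    refine mem_relK.mpr ⟨fun j => ?_, ?_⟩
    · have e' : n + 1 - a j = n - a j + 1 := by ring
      rw [e']
      exact t4_eta (h1 j)
    · show ∑ j, (η • u) j • e j = 0
      rw [smul_rel, h2, smul_zero]
  · rintro n _ ⟨u, hu, rfl⟩
    obtain ⟨h1, h2⟩ := mem_relK.mp hu
    refine mem_relK.mpr ⟨fun j => ?_, ?_⟩
    · have e' : n + 1 - a j = n - a j + 1 := by ring
      rw [e']
      exact t4_zeta (h1 j)
    · show ∑ j, (ζ • u) j • e j = 0
      rw [smul_rel, h2, smul_zero]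

theorem relations_free (ind : AlgebraicIndependent k ![η, ζ]) {r g : ℕ} (a : Fin g → ℤ)
    (e : Fin g → (Fin r → L)) (hd : Dep2 η (latOf k η ζ a e)) :
    ∃ (h : ℕ) (b : Fin h → ℤ) (f : Fin h → Fin g → L), (∀ i j, f i j ∈ A k η ζ (b i - a j)) ∧
      (∀ i, ∑ j, f i j • e j = 0) ∧ LinearIndependent (FF k η ζ) f ∧
      ∀ (n : ℤ) (u : Fin g → L), (∀ j, u j ∈ A k η ζ (n - a j)) → ∑ j, u j • e j = 0 →
        ∃ c : Fin h → L, (∀ i, c i ∈ A k η ζ (n - b i)) ∧ u = ∑ i, c i • f i := by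
  have h2 : Dep2 η (relK k η ζ a e) := by
    intro n u hu hηu
    obtain ⟨h1, h2⟩ := mem_relK.mp hu
    obtain ⟨h3, _⟩ := mem_relK.mp hηu
    refine mem_relK.mpr ⟨fun j => ?_, h2⟩
    have h4 := A_div ind (m := 1) (h1 j) (by
      rw [pow_one]
      exact h3 j)
    have e' : n - a j - ((1 : ℕ) : ℤ) = n - 1 - a j := by push_cast; ring
    rw [e'] at h4
    exact h4
  have h3 : ∀ n u, u ∈ relK k η ζ a e n → ζ • u ∈ relK k η ζ a e n ⊔ sm η (relK k η ζ a e n) →
      u ∈ relK k η ζ a e (n - 1) ⊔ sm η (relK k η ζ a e (n - 1)) := by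
    intro n u hu hζ
    obtain ⟨top, t1, t2, t3, t4, t5, t6⟩ := exists_top (k := k) ind
    obtain ⟨v, hv, w, hw, hvw⟩ := Submodule.mem_sup.mp hζ
    obtain ⟨v', hv', rfl⟩ := hw
    obtain ⟨hu1, hu2⟩ := mem_relK.mp hu
    obtain ⟨hv1, _⟩ := mem_relK.mp hv
    obtain ⟨hv1', _⟩ := mem_relK.mp hv'
    have hζ1 : (ζ : L) ∈ A k η ζ 1 := Submodule.subset_span ⟨0, 1, by norm_num, by simp⟩
    have htop : ∀ j, top (n - a j) (u j) = 0 := by
      intro j
      have e1 : ζ * u j = v j + η * v' j := by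
        have := congrFun hvw j
        exact this.symm
      have e2 := t2 1 (n - a j) ζ (u j) hζ1 (hu1 j)
      have e3 : top 1 ζ = 1 := by
        have := t3 1
        rw [pow_one] at this
        exact this
      rw [e3, one_mul, e1] at e2
      have e4 : (1 : ℤ) + (n - a j) = n - a j + 1 := by ring
      rw [e4, t1 _ _ _ (t4_mono (by omega) (hv1 j)) (t4_eta (hv1' j)), t4 _ _ (hv1 j),
        t5 _ _ (hv1' j), add_zero] at e2
      exact e2.symm
    have hdec : ∀ j, ∃ q1 ∈ A k η ζ (n - a j - 1), ∃ q2 ∈ A k η ζ (n - a j - 1), u j = q1 + η * q2 :=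
      fun j => t6 _ _ (hu1 j) (htop j)
    choose s hs s' hs' hus using hdec
    have hs1 : ∀ j, s j ∈ A k η ζ (n - 1 - a j) := by
      intro j
      have e' : n - 1 - a j = n - a j - 1 := by ring
      rw [e']
      exact hs j
    have hs1' : ∀ j, s' j ∈ A k η ζ (n - 1 - a j) := by
      intro j
      have e' : n - 1 - a j = n - a j - 1 := by ring
      rw [e']
      exact hs' j
    have hsum : ∑ j, s j • e j + η • ∑ j, s' j • e j = 0 := by
      rw [← smul_rel, ← Finset.sum_add_distrib, ← hu2]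
      apply Finset.sum_congr rfl
      intro j _
      rw [← add_smul, hus j]
      rfl
    have hS' : ∑ j, s' j • e j ∈ latOf k η ζ a e (n - 1) := (mem_latOf _ _).mpr ⟨s', hs1', rfl⟩
    have hηS' : η • ∑ j, s' j • e j ∈ latOf k η ζ a e (n - 1) := by
      have : η • ∑ j, s' j • e j = -∑ j, s j • e j := by
        rw [eq_neg_iff_add_eq_zero, add_comm]
        exact hsum
      rw [this]
      exact Submodule.neg_mem _ ((mem_latOf _ _).mpr ⟨s, hs1, rfl⟩)
    obtain ⟨t, ht, hS't⟩ := (mem_latOf _ _).mp (hd (n - 1) _ hS' hηS')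
    have ht1 : ∀ j, t j ∈ A k η ζ (n - 1 - a j) := fun j => t4_mono (by omega) (ht j)
    have ht2 : ∀ j, η * t j ∈ A k η ζ (n - 1 - a j) := by
      intro j
      have := t4_eta (ht j)
      have e' : n - 1 - 1 - a j + 1 = n - 1 - a j := by ring
      rwa [e'] at this
    have k1 : s + η • t ∈ relK k η ζ a e (n - 1) := by
      refine mem_relK.mpr ⟨fun j => Submodule.add_mem _ (hs1 j) (ht2 j), ?_⟩
      simp only [Pi.add_apply, add_smul, Finset.sum_add_distrib]
      rw [smul_rel, ← hS't]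
      exact hsum
    have k2 : s' - t ∈ relK k η ζ a e (n - 1) := by
      refine mem_relK.mpr ⟨fun j => Submodule.sub_mem _ (hs1' j) (ht1 j), ?_⟩
      simp only [Pi.sub_apply, sub_smul, Finset.sum_sub_distrib]
      rw [hS't, sub_self]
    have e3 : u = (s + η • t) + η • (s' - t) := by
      funext j
      rw [hus j]
      simp only [Pi.add_apply, Pi.smul_apply, Pi.sub_apply, smul_eq_mul]
      ring
    rw [e3]
    exact Submodule.add_mem_sup k1 ⟨s' - t, k2, rfl⟩
  obtain ⟨h, b, f, hf1, hf2, hf3⟩ := free_of_regular ind (relK_lat a e) h2 h3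
  refine ⟨h, b, f, fun i j => (mem_relK.mp (hf1 i)).1 j, fun i => (mem_relK.mp (hf1 i)).2, hf2, ?_⟩
  intro n u hu hu0
  exact hf3 n u (mem_relK.mpr ⟨hu, hu0⟩)

end R169.TR
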