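import Crest.Agent.R169.TR4B

/-!
# R169_TR4C: no common zero of the maximal minors in `P²(k)`.
`G i j` homogeneous of degree `b i - a j` (`0` if negative) in `MvPolynomial (Fin 3) k` with `ev (G i j) = f i j`.
Let `q : Fin 3 → k`, `q ≠ 0`, with all minors of `(eval q (G i j))` zero. Then there is `0 ≠ κ : Fin h → k` with
`∑ κ i eval q (G i j) = 0` for all `j` (rank < h: `Matrix` over a field, all `h×h` minors zero;
e.g. rows linearly dependent: if they were independent one could choose `h` independent columns).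
Choose a linear form `ℓ` with `ℓ(q) = 1`, `B ≥ all b i`, `u i = κ i ℓ^{B - b i}`: `c j := ∑ u i G i j` is homogeneous of
degree `B - a j` and vanishes at `q`, so `c j = ℓ1 s j + ℓ2 s' j` with two linear forms `ℓ1, ℓ2` (independent, vanishing at `q`),
`s, s'` homogeneous of degree `B - 1 - a j` (divide; if `q i0 ≠ 0`, `ℓ1, ℓ2 = q i0 X i - q i X i0` for `i ≠ i0`).
In `E = latOf`: `ev ℓ1 S + ev ℓ2 S' = 0`, `S = ∑ ev(s j) e j`, `S' = ∑ ev(s' j) e j ∈ E(B-1)`. `W := S'/ev ℓ1` satisfies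
`ev ℓ1 • W = S' ∈ E(B-1)`, `ev ℓ2 • W = -S ∈ E(B-1)`, and no prime divides both `ℓ1` and `ℓ2`, so `W ∈ E(B-2)` (IsRefl, degree
`n = B-2`, s=1): `W = ∑ t j e j`, `t j ∈ A(B-2-a j)`. Then `s' - ℓ1 t`, `s + ℓ2 t` are relations in degree `B-1`, so
`= ∑ d i f i`, `d, d' : A(B-1-b i)`; `c = ℓ1 (s + ℓ2 t) + ℓ2 (s' - ℓ1 t)`, so `u i = ℓ1 d i + ℓ2 d' i` (independence of `f`), which
vanishes at `q`: `κ i = 0`, contradiction.
-/
set_option autoImplicit false
namespace R169.TR

open MvPolynomial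

variable {k L : Type} [Field k] [Field L] [Algebra k L] {D : GD k L} {η ζ : L}

/-! ### homogeneous of integer degree -/

private def HZ (n : ℤ) (p : MvPolynomial (Fin 3) k) : Prop :=
  (0 ≤ n → p.IsHomogeneous n.toNat) ∧ (n < 0 → p = 0)

private theorem HZ.zero (n : ℤ) : HZ n (0 : MvPolynomial (Fin 3) k) :=
  ⟨fun _ => isHomogeneous_zero _ _ _, fun _ => rfl⟩

private theorem HZ.add {n : ℤ} {p q : MvPolynomial (Fin 3) k} (hp : HZ n p) (hq : HZ n q) :
    HZ n (p + q) :=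
  ⟨fun h => (hp.1 h).add (hq.1 h), fun h => by rw [hp.2 h, hq.2 h, add_zero]⟩

private theorem HZ.neg {n : ℤ} {p : MvPolynomial (Fin 3) k} (hp : HZ n p) : HZ n (-p) :=
  ⟨fun h => (hp.1 h).neg, fun h => by rw [hp.2 h, neg_zero]⟩

private theorem HZ.sub {n : ℤ} {p q : MvPolynomial (Fin 3) k} (hp : HZ n p) (hq : HZ n q) :
    HZ n (p - q) :=
  ⟨fun h => (hp.1 h).sub (hq.1 h), fun h => by rw [hp.2 h, hq.2 h, sub_zero]⟩

private theorem HZ.sum {ι : Type*} {n : ℤ} (s : Finset ι) (p : ι → MvPolynomial (Fin 3) k)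
    (hp : ∀ i ∈ s, HZ n (p i)) : HZ n (∑ i ∈ s, p i) := by
  classical
  induction s using Finset.induction_on with
  | empty => exact HZ.zero n
  | insert a s ha ih =>
    rw [Finset.sum_insert ha]
    exact (hp a (Finset.mem_insert_self a s)).add (ih fun i hi => hp i (Finset.mem_insert_of_mem hi))

private theorem HZ.mul {m n : ℤ} {p q : MvPolynomial (Fin 3) k} (hp : HZ m p) (hq : HZ n q) :
    HZ (m + n) (p * q) := by
  by_cases hm : m < 0
  · rw [hp.2 hm, zero_mul]; exact HZ.zero _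
  · by_cases hn : n < 0
    · rw [hq.2 hn, mul_zero]; exact HZ.zero _
    · push Not at hm hn
      refine ⟨fun _ => ?_, fun h => by omega⟩
      rw [Int.toNat_add hm hn]
      exact (hp.1 hm).mul (hq.1 hn)

private theorem HZ.C (c : k) : HZ 0 (MvPolynomial.C c : MvPolynomial (Fin 3) k) :=
  ⟨fun _ => isHomogeneous_C _ _, fun h => absurd h (lt_irrefl _)⟩

private theorem HZ.X (i : Fin 3) : HZ 1 (MvPolynomial.X i : MvPolynomial (Fin 3) k) :=
  ⟨fun _ => isHomogeneous_X _ _, fun h => by omega⟩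

private theorem HZ.C_mul {n : ℤ} {p : MvPolynomial (Fin 3) k} (hp : HZ n p) (c : k) :
    HZ n (MvPolynomial.C c * p) := by
  have := (HZ.C c).mul hp
  rwa [zero_add] at this

private theorem HZ.pow {m : ℤ} {p : MvPolynomial (Fin 3) k} (hp : HZ m p) (n : ℕ) :
    HZ (n * m) (p ^ n) := by
  induction n with
  | zero =>
    have := HZ.C (1 : k)
    simpa using this
  | succ n ih =>
    have := ih.mul hp
    rw [pow_succ]
    have e : ((n + 1 : ℕ) : ℤ) * m = n * m + m := by push_cast; ring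
    rw [e]; exact this

private theorem HZ.nat {n : ℕ} {p : MvPolynomial (Fin 3) k} (hp : p.IsHomogeneous n) :
    HZ (n : ℤ) p :=
  ⟨fun _ => by rw [Int.toNat_natCast]; exact hp, fun h => by omega⟩

private theorem A_neg' {n : ℤ} (hn : n < 0) : A k η ζ n = ⊥ := by
  unfold A
  rw [Submodule.span_eq_bot]
  rintro l ⟨a, b, h, _⟩
  omega

private theorem HZ.ev_mem {n : ℤ} {p : MvPolynomial (Fin 3) k} (hp : HZ n p) :
    ev η ζ p ∈ A k η ζ n := by
  by_cases hn : n < 0
  · rw [hp.2 hn]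
    have : ev η ζ (0 : MvPolynomial (Fin 3) k) = 0 := map_zero _
    rw [this]; exact Submodule.zero_mem _
  · push Not at hn
    have := ev_mem_A (η := η) (ζ := ζ) (hp.1 hn)
    rwa [Int.toNat_of_nonneg hn] at this

private theorem exists_HZ {n : ℤ} {l : L} (hl : l ∈ A k η ζ n) :
    ∃ p : MvPolynomial (Fin 3) k, HZ n p ∧ ev η ζ p = l := by
  by_cases hn : n < 0
  · rw [A_neg' hn, Submodule.mem_bot] at hl
    exact ⟨0, HZ.zero n, by rw [hl]; exact map_zero _⟩
  · push Not at hn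
    obtain ⟨m, rfl⟩ := Int.eq_ofNat_of_zero_le hn
    obtain ⟨F, hF, hl⟩ := (mem_A_iff m l).1 hl
    exact ⟨F, HZ.nat hF, hl⟩

private theorem HZ.eq_zero (ind : AlgebraicIndependent k ![η, ζ]) {n : ℤ}
    {p : MvPolynomial (Fin 3) k} (hp : HZ n p) (h : ev η ζ p = 0) : p = 0 := by
  by_cases hn : n < 0
  · exact hp.2 hn
  · push Not at hn
    exact ev_inj ind (hp.1 hn) h

private theorem A_le_FF {n : ℤ} {l : L} (hl : l ∈ A k η ζ n) : l ∈ FF k η ζ := by
  unfold A at hl
  induction hl using Submodule.span_induction with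
  | mem x hx =>
    obtain ⟨a, b, _, rfl⟩ := hx
    have h1 : η ∈ FF k η ζ := IntermediateField.subset_adjoin _ _ (by simp)
    have h2 : ζ ∈ FF k η ζ := IntermediateField.subset_adjoin _ _ (by simp)
    exact mul_mem (pow_mem h1 a) (pow_mem h2 b)
  | zero => exact zero_mem _
  | add x y _ _ hx hy => exact add_mem hx hy
  | smul c x _ hx => exact (FF k η ζ).smul_mem hx

/-! ### division by the two linear forms vanishing at `q` -/

private theorem fin3_others : ∀ i0 : Fin 3, ∃ i1 i2 : Fin 3, i1 ≠ i0 ∧ i2 ≠ i0 ∧ i1 ≠ i2 ∧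
    ∀ i, i = i0 ∨ i = i1 ∨ i = i2 := by decide

/-- linear form vanishing at `q` -/
private noncomputable def lin (q : Fin 3 → k) (i0 i : Fin 3) : MvPolynomial (Fin 3) k :=
  MvPolynomial.C (q i0) * MvPolynomial.X i - MvPolynomial.C (q i) * MvPolynomial.X i0

private theorem HZ.lin (q : Fin 3 → k) (i0 i : Fin 3) : HZ 1 (lin q i0 i) :=
  ((HZ.X i).C_mul _).sub ((HZ.X i0).C_mul _)

private theorem eval_lin (q : Fin 3 → k) (i0 i : Fin 3) : MvPolynomial.eval q (lin q i0 i) = 0 := by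
  unfold lin
  simp [mul_comm]

private theorem X_eq (q : Fin 3 → k) {i0 i1 i2 : Fin 3} (h0 : q i0 ≠ 0)
    (hall : ∀ i, i = i0 ∨ i = i1 ∨ i = i2) (i : Fin 3) :
    ∃ a b c : k, (MvPolynomial.X i : MvPolynomial (Fin 3) k) =
      MvPolynomial.C a * lin q i0 i1 + MvPolynomial.C b * lin q i0 i2 +
        MvPolynomial.C c * MvPolynomial.X i0 := by
  have key : ∀ j, (MvPolynomial.X j : MvPolynomial (Fin 3) k) =
      MvPolynomial.C (q i0)⁻¹ * lin q i0 j +
        MvPolynomial.C ((q i0)⁻¹ * q j) * MvPolynomial.X i0 := by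
    intro j
    unfold lin
    rw [mul_sub, ← mul_assoc, ← mul_assoc, ← MvPolynomial.C_mul, ← MvPolynomial.C_mul,
      inv_mul_cancel₀ h0, MvPolynomial.C_1, one_mul, sub_add_cancel]
  rcases hall i with rfl | rfl | rfl
  · exact ⟨0, 0, 1, by simp⟩
  · refine ⟨(q i0)⁻¹, 0, (q i0)⁻¹ * q i, ?_⟩
    rw [MvPolynomial.C_0, zero_mul, add_zero]
    exact key i
  · refine ⟨0, (q i0)⁻¹, (q i0)⁻¹ * q i, ?_⟩
    rw [MvPolynomial.C_0, zero_mul, zero_add]
    exact key i

/-- the normal form -/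
private def NF (q : Fin 3 → k) (i0 i1 i2 : Fin 3) (n : ℕ) (p : MvPolynomial (Fin 3) k) : Prop :=
  ∃ (s s' : MvPolynomial (Fin 3) k) (c : k), HZ ((n : ℤ) - 1) s ∧ HZ ((n : ℤ) - 1) s' ∧
    p = lin q i0 i1 * s + lin q i0 i2 * s' + MvPolynomial.C c * MvPolynomial.X i0 ^ n

private theorem NF.add {q : Fin 3 → k} {i0 i1 i2 : Fin 3} {n : ℕ} {p p' : MvPolynomial (Fin 3) k}
    (h : NF q i0 i1 i2 n p) (h' : NF q i0 i1 i2 n p') : NF q i0 i1 i2 n (p + p') := by
  obtain ⟨s, s', c, h1, h2, h3⟩ := h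
  obtain ⟨t, t', d, h4, h5, h6⟩ := h'
  refine ⟨s + t, s' + t', c + d, h1.add h4, h2.add h5, ?_⟩
  rw [h3, h6, MvPolynomial.C_add]
  ring

private theorem NF.zero (q : Fin 3 → k) (i0 i1 i2 : Fin 3) (n : ℕ) :
    NF q i0 i1 i2 n (0 : MvPolynomial (Fin 3) k) :=
  ⟨0, 0, 0, HZ.zero _, HZ.zero _, by simp⟩

private theorem NF.C_mul {q : Fin 3 → k} {i0 i1 i2 : Fin 3} {n : ℕ} {p : MvPolynomial (Fin 3) k}
    (h : NF q i0 i1 i2 n p) (d : k) : NF q i0 i1 i2 n (MvPolynomial.C d * p) := by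
  obtain ⟨s, s', c, h1, h2, h3⟩ := h
  refine ⟨MvPolynomial.C d * s, MvPolynomial.C d * s', d * c, h1.C_mul d, h2.C_mul d, ?_⟩
  rw [h3, MvPolynomial.C_mul]
  ring

private theorem NF.X_mul {q : Fin 3 → k} {i0 i1 i2 : Fin 3} (h0 : q i0 ≠ 0)
    (hall : ∀ i, i = i0 ∨ i = i1 ∨ i = i2) {n : ℕ} {p : MvPolynomial (Fin 3) k}
    (h : NF q i0 i1 i2 n p) (i : Fin 3) : NF q i0 i1 i2 (n + 1) (MvPolynomial.X i * p) := by
  obtain ⟨s, s', c, h1, h2, h3⟩ := h
  obtain ⟨a, b, d, hX⟩ := X_eq q h0 hall i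
  have e : ((n + 1 : ℕ) : ℤ) - 1 = 1 + ((n : ℤ) - 1) := by push_cast; ring
  have e' : ((n + 1 : ℕ) : ℤ) - 1 = (n : ℤ) * 1 := by push_cast; ring
  have hp : HZ (((n + 1 : ℕ) : ℤ) - 1) (MvPolynomial.X i0 ^ n : MvPolynomial (Fin 3) k) := by
    rw [e']; exact (HZ.X i0).pow n
  refine ⟨MvPolynomial.X i * s + MvPolynomial.C (c * a) * MvPolynomial.X i0 ^ n,
    MvPolynomial.X i * s' + MvPolynomial.C (c * b) * MvPolynomial.X i0 ^ n, c * d, ?_, ?_, ?_⟩
  · exact HZ.add (by rw [e]; exact (HZ.X i).mul h1) (hp.C_mul _)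
  · exact HZ.add (by rw [e]; exact (HZ.X i).mul h2) (hp.C_mul _)
  · have e1 : MvPolynomial.X i * (MvPolynomial.C c * MvPolynomial.X i0 ^ n) =
        (MvPolynomial.C a * lin q i0 i1 + MvPolynomial.C b * lin q i0 i2 +
        MvPolynomial.C d * MvPolynomial.X i0) * (MvPolynomial.C c * MvPolynomial.X i0 ^ n) := by
      rw [← hX]
    rw [h3, mul_add, e1, MvPolynomial.C_mul, MvPolynomial.C_mul, MvPolynomial.C_mul, pow_succ]
    ring

private theorem NF.one (q : Fin 3 → k) (i0 i1 i2 : Fin 3) :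
    NF q i0 i1 i2 0 (1 : MvPolynomial (Fin 3) k) :=
  ⟨0, 0, 1, HZ.zero _, HZ.zero _, by simp⟩

private theorem NF.monomial {q : Fin 3 → k} {i0 i1 i2 : Fin 3} (h0 : q i0 ≠ 0)
    (hall : ∀ i, i = i0 ∨ i = i1 ∨ i = i2) (n : ℕ) :
    ∀ α : Fin 3 →₀ ℕ, α.degree = n → NF q i0 i1 i2 n (MvPolynomial.monomial α (1 : k)) := by
  induction n with
  | zero =>
    intro α hα
    rw [Finsupp.degree_eq_zero_iff] at hα
    subst hα
    exact NF.one q i0 i1 i2
  | succ n ih =>
    intro α hα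
    obtain ⟨i, hi⟩ : ∃ i, α i ≠ 0 := by
      by_contra hcon
      push Not at hcon
      have : α = 0 := by ext i; exact hcon i
      rw [this] at hα
      simp at hα
    have hα' : α = Finsupp.single i 1 + (α - Finsupp.single i 1) := by
      ext j
      simp only [Finsupp.add_apply, Finsupp.tsub_apply]
      by_cases hj : i = j
      · subst hj
        simp only [Finsupp.single_eq_same]
        omega
      · rw [Finsupp.single_eq_of_ne (fun h => hj h.symm)]
        omega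
    have hd : (α - Finsupp.single i 1).degree = n := by
      have := congrArg Finsupp.degree hα'
      rw [hα, map_add, Finsupp.degree_single] at this
      omega
    have := (ih _ hd).X_mul h0 hall i
    rw [MvPolynomial.X, MvPolynomial.monomial_mul, ← hα', one_mul] at this
    exact this

private theorem NF.of_homog {q : Fin 3 → k} {i0 i1 i2 : Fin 3} (h0 : q i0 ≠ 0)
    (hall : ∀ i, i = i0 ∨ i = i1 ∨ i = i2) {n : ℕ} {p : MvPolynomial (Fin 3) k}
    (hp : p.IsHomogeneous n) : NF q i0 i1 i2 n p := by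
  classical
  rw [MvPolynomial.as_sum p]
  have : ∀ s : Finset (Fin 3 →₀ ℕ), s ⊆ p.support →
      NF q i0 i1 i2 n (∑ v ∈ s, MvPolynomial.monomial v (p.coeff v)) := by
    intro s
    induction s using Finset.induction_on with
    | empty => intro _; exact NF.zero q i0 i1 i2 n
    | insert a s ha ih =>
      intro hs
      rw [Finset.sum_insert ha]
      refine NF.add ?_ (ih fun x hx => hs (Finset.mem_insert_of_mem hx))
      have hmem : a ∈ p.support := hs (Finset.mem_insert_self a s)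
      have hdeg : a.degree = n := by
        by_contra hcon
        exact (MvPolynomial.mem_support_iff.1 hmem) (hp.coeff_eq_zero hcon)
      have e : MvPolynomial.monomial a (p.coeff a) =
          MvPolynomial.C (p.coeff a) * MvPolynomial.monomial a (1 : k) := by
        rw [MvPolynomial.C_mul_monomial, mul_one]
      rw [e]
      exact (NF.monomial h0 hall n a hdeg).C_mul _
  exact this _ (Finset.Subset.refl _)

private theorem division {q : Fin 3 → k} {i0 i1 i2 : Fin 3} (h0 : q i0 ≠ 0)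
    (hall : ∀ i, i = i0 ∨ i = i1 ∨ i = i2) {n : ℤ} {p : MvPolynomial (Fin 3) k} (hp : HZ n p)
    (he : MvPolynomial.eval q p = 0) : ∃ s s' : MvPolynomial (Fin 3) k, HZ (n - 1) s ∧
      HZ (n - 1) s' ∧ p = lin q i0 i1 * s + lin q i0 i2 * s' := by
  by_cases hn : n < 0
  · exact ⟨0, 0, HZ.zero _, HZ.zero _, by rw [hp.2 hn]; simp⟩
  · push Not at hn
    obtain ⟨m, rfl⟩ := Int.eq_ofNat_of_zero_le hn
    have hp' := hp.1 hn
    rw [Int.toNat_natCast] at hp'
    obtain ⟨s, s', c, h1, h2, h3⟩ := NF.of_homog h0 hall hp'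
    have hc : c = 0 := by
      rw [h3] at he
      simp only [map_add, map_mul, eval_lin, zero_mul, zero_add, MvPolynomial.eval_C, map_pow,
        MvPolynomial.eval_X] at he
      rcases mul_eq_zero.1 he with h | h
      · exact h
      · exact absurd h (pow_ne_zero m h0)
    refine ⟨s, s', h1, h2, ?_⟩
    rw [h3, hc]
    simp

/-! ### rank -/

private theorem exists_left_kernel {h g : ℕ} (M : Matrix (Fin h) (Fin g) k)
    (hM : ∀ I : Fin h → Fin g, Matrix.det (Matrix.of fun i i' => M i (I i')) = 0) :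
    ∃ κ : Fin h → k, κ ≠ 0 ∧ ∀ j, ∑ i, κ i * M i j = 0 := by
  by_contra hcon
  push Not at hcon
  -- the columns span
  have hspan : Submodule.span k (Set.range fun j : Fin g => fun i => M i j) = ⊤ := by
    by_contra hne
    obtain ⟨φ, hφ0, hφ⟩ := Submodule.exists_le_ker_of_lt_top _ (lt_top_iff_ne_top.2 hne)
    have hφe : ∀ v : Fin h → k, φ v = ∑ i, φ (Pi.single i 1) * v i := by
      intro v
      have := LinearMap.pi_apply_eq_sum_univ φ v
      rw [this]
      refine Finset.sum_congr rfl fun i _ => ?_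
      rw [smul_eq_mul, mul_comm]
      congr 2
      ext j
      by_cases hij : i = j
      · subst hij; simp
      · rw [if_neg hij, Pi.single_eq_of_ne (fun h => hij h.symm)]
    obtain ⟨j, hj⟩ := hcon (fun i => φ (Pi.single i 1)) (by
      intro h0
      apply hφ0
      ext v
      rw [LinearMap.comp_apply, LinearMap.coe_single]
      have := congrFun h0 v
      simpa using this)
    apply hj
    have hm : (fun i => M i j) ∈ LinearMap.ker φ := hφ (Submodule.subset_span ⟨j, rfl⟩)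
    rw [LinearMap.mem_ker, hφe] at hm
    exact hm
  obtain ⟨v, hv, -, hv'⟩ := Submodule.exists_fun_fin_finrank_span_eq k
    (Set.range fun j : Fin g => fun i => M i j)
  have hfr : Module.finrank k (Submodule.span k (Set.range fun j : Fin g => fun i => M i j)) = h := by
    rw [hspan, finrank_top, Module.finrank_fin_fun]
  choose J hJ using hv
  let I : Fin h → Fin g := fun i => J (Fin.cast hfr.symm i)
  have hli : LinearIndependent k (fun i' : Fin h => fun i => M i (I i')) := by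
    have h1 : (fun i' : Fin h => fun i => M i (I i')) = v ∘ (Fin.cast hfr.symm) := by
      funext i'
      exact hJ (Fin.cast hfr.symm i')
    rw [h1]
    exact hv'.comp _ (Fin.cast_injective _)
  have hdet : Matrix.det (Matrix.of fun i i' => M i (I i')) ≠ 0 := by
    have h2 : IsUnit (Matrix.of fun i i' => M i (I i')) := by
      rw [← Matrix.linearIndependent_cols_iff_isUnit]
      exact hli
    exact ((Matrix.isUnit_iff_isUnit_det _).1 h2).ne_zero
  exact hdet (hM I)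

/-! ### no common prime factor -/

private theorem lin_ne_zero (q : Fin 3 → k) {i0 i : Fin 3} (h0 : q i0 ≠ 0) (hi : i ≠ i0) :
    lin q i0 i ≠ 0 := by
  intro h
  have := congrArg (MvPolynomial.coeff (Finsupp.single i 1)) h
  unfold lin at this
  have f1 : (Finsupp.single i0 1 : Fin 3 →₀ ℕ) ≠ Finsupp.single i 1 := fun h =>
    hi (Finsupp.single_left_injective one_ne_zero h).symm
  simp only [MvPolynomial.coeff_C_mul, MvPolynomial.coeff_sub, MvPolynomial.coeff_X,
    if_neg f1, if_true, mul_one, mul_zero, sub_zero, MvPolynomial.coeff_zero] at this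
  exact h0 this

private theorem no_common_prime (q : Fin 3 → k) {i0 i1 i2 : Fin 3} (h0 : q i0 ≠ 0) (h10 : i1 ≠ i0)
    (h20 : i2 ≠ i0) (h12 : i1 ≠ i2) (π : MvPolynomial (Fin 3) k) (hπ : Prime π)
    (h1 : π ∣ lin q i0 i1) (h2 : π ∣ lin q i0 i2) : False := by
  obtain ⟨t, ht⟩ := h1
  obtain ⟨t', ht'⟩ := h2
  have n1 := lin_ne_zero q h0 h10
  have n2 := lin_ne_zero q h0 h20
  have hπ0 : π ≠ 0 := hπ.ne_zero
  have ht0 : t ≠ 0 := by rintro rfl; rw [mul_zero] at ht; exact n1 ht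
  have ht0' : t' ≠ 0 := by rintro rfl; rw [mul_zero] at ht'; exact n2 ht'
  have d1 : (lin q i0 i1).totalDegree = 1 := by
    have := ((HZ.lin q i0 i1).1 (by norm_num)).totalDegree n1
    simpa using this
  have d2 : (lin q i0 i2).totalDegree = 1 := by
    have := ((HZ.lin q i0 i2).1 (by norm_num)).totalDegree n2
    simpa using this
  rw [ht, MvPolynomial.totalDegree_mul_of_isDomain hπ0 ht0] at d1
  rw [ht', MvPolynomial.totalDegree_mul_of_isDomain hπ0 ht0'] at d2
  have hπd : π.totalDegree ≠ 0 := by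
    intro hd
    rw [MvPolynomial.totalDegree_eq_zero_iff_eq_C] at hd
    apply hπ.not_isUnit
    rw [hd]
    apply IsUnit.map
    rw [isUnit_iff_ne_zero]
    intro hc
    rw [hc, MvPolynomial.C_0] at hd
    exact hπ0 hd
  have e1 : t.totalDegree = 0 := by omega
  have e2 : t'.totalDegree = 0 := by omega
  rw [MvPolynomial.totalDegree_eq_zero_iff_eq_C] at e1 e2
  have c1 : MvPolynomial.coeff 0 t ≠ 0 := by
    intro hc; rw [hc, MvPolynomial.C_0] at e1; exact ht0 e1
  have c2 : MvPolynomial.coeff 0 t' ≠ 0 := by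
    intro hc; rw [hc, MvPolynomial.C_0] at e2; exact ht0' e2
  have key : t' * lin q i0 i1 = t * lin q i0 i2 := by rw [ht, ht']; ring
  have := congrArg (MvPolynomial.coeff (Finsupp.single i1 1)) key
  rw [e1, e2] at this
  unfold lin at this
  have f1 : (Finsupp.single i0 1 : Fin 3 →₀ ℕ) ≠ Finsupp.single i1 1 := fun h =>
    h10 (Finsupp.single_left_injective one_ne_zero h).symm
  have f2 : (Finsupp.single i2 1 : Fin 3 →₀ ℕ) ≠ Finsupp.single i1 1 := fun h =>
    h12 (Finsupp.single_left_injective one_ne_zero h).symm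
  simp only [MvPolynomial.coeff_C_mul, MvPolynomial.coeff_sub, MvPolynomial.coeff_X,
    if_neg f1, if_neg f2, if_true, mul_one, mul_zero, sub_zero, sub_self] at this
  rcases mul_eq_zero.1 this with h | h
  · exact c2 h
  · exact h0 h

theorem minors_no_zero (ind : AlgebraicIndependent k ![η, ζ]) {r g h : ℕ} (a : Fin g → ℤ)
    (e : Fin g → (Fin r → L)) (hr : IsRefl (k := k) η ζ (latOf k η ζ a e))
    (b : Fin h → ℤ) (f : Fin h → Fin g → L)
    (hrel : ∀ i, ∑ j, f i j • e j = 0) (hind : LinearIndependent (FF k η ζ) f)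
    (hex : ∀ (n : ℤ) (u : Fin g → L), (∀ j, u j ∈ A k η ζ (n - a j)) → ∑ j, u j • e j = 0 →
        ∃ c : Fin h → L, (∀ i, c i ∈ A k η ζ (n - b i)) ∧ u = ∑ i, c i • f i)
    (G : Fin h → Fin g → MvPolynomial (Fin 3) k)
    (hG : ∀ i j, (b i - a j < 0 → G i j = 0) ∧ (0 ≤ b i - a j → (G i j).IsHomogeneous (b i - a j).toNat))
    (hGf : ∀ i j, ev η ζ (G i j) = f i j) (q : Fin 3 → k) (hq : q ≠ 0) :
    ∃ I : Fin h → Fin g, Matrix.det (Matrix.of fun i i' => MvPolynomial.eval q (G i (I i'))) ≠ 0 := by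
  classical
  by_contra hcon
  push Not at hcon
  obtain ⟨κ, hκ0, hκ⟩ := exists_left_kernel (Matrix.of fun i j => MvPolynomial.eval q (G i j)) hcon
  obtain ⟨i0, h0⟩ : ∃ i, q i ≠ 0 := by
    by_contra hc
    push Not at hc
    exact hq (funext hc)
  obtain ⟨i1, i2, h10, h20, h12, hall⟩ := fin3_others i0
  obtain ⟨B, hB⟩ : ∃ B : ℤ, ∀ i, b i ≤ B :=
    ⟨∑ i, |b i|, fun i => (le_abs_self _).trans
      (Finset.single_le_sum (f := fun i => |b i|) (fun j _ => abs_nonneg _) (Finset.mem_univ i))⟩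
  -- the linear form with value one
  obtain ⟨l0, hl0, hl0e⟩ : ∃ l0 : MvPolynomial (Fin 3) k, HZ 1 l0 ∧ MvPolynomial.eval q l0 = 1 :=
    ⟨MvPolynomial.C (q i0)⁻¹ * MvPolynomial.X i0, (HZ.X i0).C_mul _, by
      simp [inv_mul_cancel₀ h0]⟩
  let u : Fin h → MvPolynomial (Fin 3) k := fun i => MvPolynomial.C (κ i) * l0 ^ (B - b i).toNat
  have hu : ∀ i, HZ (B - b i) (u i) := by
    intro i
    have h1 := (hl0.pow (B - b i).toNat).C_mul (κ i)
    rw [Int.toNat_of_nonneg (by have := hB i; omega), mul_one] at h1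
    exact h1
  have hue : ∀ i, MvPolynomial.eval q (u i) = κ i := by
    intro i
    simp [u, hl0e]
  have hGz : ∀ i j, HZ (b i - a j) (G i j) := fun i j => ⟨(hG i j).2, (hG i j).1⟩
  let c : Fin g → MvPolynomial (Fin 3) k := fun j => ∑ i, u i * G i j
  have hc : ∀ j, HZ (B - a j) (c j) := by
    intro j
    refine HZ.sum _ _ fun i _ => ?_
    have h1 := (hu i).mul (hGz i j)
    have e1 : B - b i + (b i - a j) = B - a j := by ring
    rwa [e1] at h1
  have hce : ∀ j, MvPolynomial.eval q (c j) = 0 := by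
    intro j
    simp only [c, map_sum, map_mul, hue]
    exact hκ j
  choose s s' hs hs' hcs using fun j => division h0 hall (hc j) (hce j)
  have ev_mul : ∀ p p' : MvPolynomial (Fin 3) k, ev η ζ (p * p') = ev η ζ p * ev η ζ p' :=
    fun _ _ => map_mul _ _ _
  have ev_add : ∀ p p' : MvPolynomial (Fin 3) k, ev η ζ (p + p') = ev η ζ p + ev η ζ p' :=
    fun _ _ => map_add _ _ _
  have ev_sub : ∀ p p' : MvPolynomial (Fin 3) k, ev η ζ (p - p') = ev η ζ p - ev η ζ p' :=
    fun _ _ => map_sub _ _ _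
  have ev_c : ∀ j, ev η ζ (c j) = ∑ i, ev η ζ (u i) * f i j := by
    intro j
    have h1 : ev η ζ (c j) = ∑ i, ev η ζ (u i * G i j) := map_sum _ _ _
    rw [h1]
    exact Finset.sum_congr rfl fun i _ => by rw [ev_mul, hGf]
  obtain ⟨l1, hl1⟩ : ∃ l1, l1 = ev η ζ (lin q i0 i1) := ⟨_, rfl⟩
  obtain ⟨l2, hl2⟩ : ∃ l2, l2 = ev η ζ (lin q i0 i2) := ⟨_, rfl⟩
  have hl1A : l1 ∈ A k η ζ 1 := by rw [hl1]; exact (HZ.lin q i0 i1).ev_mem
  have hl2A : l2 ∈ A k η ζ 1 := by rw [hl2]; exact (HZ.lin q i0 i2).ev_mem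
  have hl10 : l1 ≠ 0 := fun h => lin_ne_zero q h0 h10 ((HZ.lin q i0 i1).eq_zero ind (hl1 ▸ h))
  have hcs' : ∀ j, ev η ζ (c j) = l1 * ev η ζ (s j) + l2 * ev η ζ (s' j) := by
    intro j
    rw [hcs j, ev_add, ev_mul, ev_mul, ← hl1, ← hl2]
  have hsA : ∀ j, ev η ζ (s j) ∈ A k η ζ (B - 1 - a j) := by
    intro j
    have h1 := (hs j).ev_mem (η := η) (ζ := ζ)
    have e1 : B - a j - 1 = B - 1 - a j := by ring
    rwa [e1] at h1
  have hsA' : ∀ j, ev η ζ (s' j) ∈ A k η ζ (B - 1 - a j) := by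
    intro j
    have h1 := (hs' j).ev_mem (η := η) (ζ := ζ)
    have e1 : B - a j - 1 = B - 1 - a j := by ring
    rwa [e1] at h1
  obtain ⟨S, hS⟩ : ∃ S, S = ∑ j, ev η ζ (s j) • e j := ⟨_, rfl⟩
  obtain ⟨S', hS'⟩ : ∃ S', S' = ∑ j, ev η ζ (s' j) • e j := ⟨_, rfl⟩
  have hSm : S ∈ latOf k η ζ a e (B - 1) := (mem_latOf _ _).2 ⟨_, hsA, hS⟩
  have hSm' : S' ∈ latOf k η ζ a e (B - 1) := (mem_latOf _ _).2 ⟨_, hsA', hS'⟩
  have hrel0 : l1 • S + l2 • S' = 0 := by
    have e1 : l1 • S + l2 • S' = ∑ j, ev η ζ (c j) • e j := by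
      rw [hS, hS', Finset.smul_sum, Finset.smul_sum, ← Finset.sum_add_distrib]
      refine Finset.sum_congr rfl fun j _ => ?_
      rw [hcs' j, add_smul, mul_smul, mul_smul]
    rw [e1]
    have e2 : ∑ j, ev η ζ (c j) • e j = ∑ i, ev η ζ (u i) • ∑ j, f i j • e j := by
      simp_rw [ev_c, Finset.sum_smul, Finset.smul_sum, mul_smul]
      exact Finset.sum_comm
    rw [e2]
    exact Finset.sum_eq_zero fun i _ => by rw [hrel i, smul_zero]
  obtain ⟨W, hW⟩ : ∃ W, W = l1⁻¹ • S' := ⟨_, rfl⟩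
  have hW1 : l1 • W = S' := by rw [hW, smul_smul, mul_inv_cancel₀ hl10, one_smul]
  have hW2 : l2 • W = -S := by
    have e1 : l2 • S' = -(l1 • S) := by rw [eq_neg_iff_add_eq_zero, add_comm]; exact hrel0
    rw [hW, smul_comm, e1, smul_neg, smul_smul, inv_mul_cancel₀ hl10, one_smul]
  have hWr : Refl (k := k) η ζ (latOf k η ζ a e) (B - 2) W := by
    intro π hπ
    have e1 : B - 2 + ((1 : ℕ) : ℤ) = B - 1 := by push_cast; ring
    by_cases hd : π ∣ lin q i0 i1
    · refine ⟨1, lin q i0 i2, by simpa using (HZ.lin q i0 i2).1 (by norm_num), fun hd' =>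
        no_common_prime q h0 h10 h20 h12 π hπ hd hd', ?_⟩
      rw [e1, ← hl2, hW2]
      exact Submodule.neg_mem _ hSm
    · refine ⟨1, lin q i0 i1, by simpa using (HZ.lin q i0 i1).1 (by norm_num), hd, ?_⟩
      rw [e1, ← hl1, hW1]
      exact hSm'
  obtain ⟨t, ht, hWt⟩ := (mem_latOf _ _).1 (hr (B - 2) W hWr)
  have hmulA : ∀ {l : L}, l ∈ A k η ζ 1 → ∀ j, l * t j ∈ A k η ζ (B - 1 - a j) := by
    intro l hl j
    have h1 := A_mul_mem hl (ht j)
    have e1 : 1 + (B - 2 - a j) = B - 1 - a j := by ring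
    rwa [e1] at h1
  obtain ⟨d, hd, hrd⟩ := hex (B - 1) (fun j => ev η ζ (s' j) - l1 * t j)
    (fun j => Submodule.sub_mem _ (hsA' j) (hmulA hl1A j)) (by
      simp_rw [sub_smul, Finset.sum_sub_distrib, mul_smul]
      rw [← Finset.smul_sum, ← hWt, hW1, ← hS', sub_self])
  obtain ⟨d', hd', hrd'⟩ := hex (B - 1) (fun j => ev η ζ (s j) + l2 * t j)
    (fun j => Submodule.add_mem _ (hsA j) (hmulA hl2A j)) (by
      simp_rw [add_smul, Finset.sum_add_distrib, mul_smul]
      rw [← Finset.smul_sum, ← hWt, hW2, ← hS, add_neg_cancel])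
  -- independence
  have key : ∀ i, ev η ζ (u i) = l1 * d' i + l2 * d i := by
    have hF : ∀ i, ev η ζ (u i) - (l1 * d' i + l2 * d i) ∈ FF k η ζ := fun i =>
      sub_mem (A_le_FF (hu i).ev_mem) (add_mem (mul_mem (A_le_FF hl1A) (A_le_FF (hd' i)))
        (mul_mem (A_le_FF hl2A) (A_le_FF (hd i))))
    have hz := Fintype.linearIndependent_iff.1 hind
      (fun i => (⟨ev η ζ (u i) - (l1 * d' i + l2 * d i), hF i⟩ : FF k η ζ)) (by
        funext j
        rw [Finset.sum_apply, Pi.zero_apply]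
        have e1 : ∀ i, ((⟨ev η ζ (u i) - (l1 * d' i + l2 * d i), hF i⟩ : FF k η ζ) • f i) j =
            ev η ζ (u i) * f i j - (l1 * (d' i * f i j) + l2 * (d i * f i j)) := by
          intro i
          show (ev η ζ (u i) - (l1 * d' i + l2 * d i)) * f i j = _
          ring
        simp_rw [e1]
        rw [Finset.sum_sub_distrib, Finset.sum_add_distrib, ← Finset.mul_sum, ← Finset.mul_sum,
          ← ev_c, hcs' j]
        have e2 := congrFun hrd j
        have e3 := congrFun hrd' j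
        simp only [Finset.sum_apply, Pi.smul_apply, smul_eq_mul] at e2 e3
        rw [← e2, ← e3]
        ring)
    intro i
    have := congrArg Subtype.val (hz i)
    exact sub_eq_zero.1 this
  apply hκ0
  funext i
  obtain ⟨P, hP, hPe⟩ := exists_HZ (hd i)
  obtain ⟨P', hP', hPe'⟩ := exists_HZ (hd' i)
  have e1 : 1 + (B - 1 - b i) = B - b i := by ring
  have h1 : HZ (B - b i) (u i - (lin q i0 i1 * P' + lin q i0 i2 * P)) := by
    refine (hu i).sub (HZ.add ?_ ?_)
    · rw [← e1]; exact (HZ.lin q i0 i1).mul hP'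
    · rw [← e1]; exact (HZ.lin q i0 i2).mul hP
  have h2 : u i - (lin q i0 i1 * P' + lin q i0 i2 * P) = 0 := by
    refine h1.eq_zero ind ?_
    have h5 : ev η ζ (u i - (lin q i0 i1 * P' + lin q i0 i2 * P)) = ev η ζ (u i) -
        (ev η ζ (lin q i0 i1) * ev η ζ P' + ev η ζ (lin q i0 i2) * ev η ζ P) := by
      rw [ev_sub, ev_add, ev_mul (lin q i0 i1) P', ev_mul (lin q i0 i2) P]
    rw [h5, hPe, hPe', ← hl1, ← hl2, key i, sub_self]
  have h3 : MvPolynomial.eval q (u i) = 0 := by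
    rw [sub_eq_zero.1 h2, map_add, map_mul, map_mul, eval_lin, eval_lin, zero_mul, zero_mul, add_zero]
  rw [hue] at h3
  exact h3

end R169.TR
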