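import Crest.Agent.R169.TR4C
import Crest.Agent.R169.TR2A

/-!
# R169_TR4D: existence of certificates over an algebraically closed field.
Generators `e j` (degree `a j`) of the reflexive lattice `E`; `relations_free` (Dep2 from `IsRefl.dep2`) gives `f, b`;
lift `f i j` to homogeneous polynomials `G i j` (`mem_A_iff`). The polynomials `M_I = det (G i (I i'))` are homogeneous of
degree `∑ b - ∑ a(I)` (or zero); by `minors_no_zero` and the Nullstellensatz
(`MvPolynomial.vanishingIdeal_zeroLocus_eq_radical` or similar) `X i ∈ radical (span M_I)`, so for some `m`: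
`X i ^ m = ∑ C_I M_I` for i=0,1,2; replace `C_I` by its homogeneous component of degree `m - deg M_I`; apply `ev`
(`ev (X 0) = 1, ev (X 1) = η, ev (X 2) = ζ`).
`stab`: `E` is `B`-stable. `span`: `lspan E = ⊤`. `rank`: `∑ dim A(n-a j) - ∑ dim A(n-b i) = dim E n` with leading
coefficient `(g - h)/2 = N/2`, `N = d r` (`IsLat.rank`), `finrank (FF) L = d` (`finrank_FF`, TR2A).
-/
set_option autoImplicit false
namespace R169.TR

variable {k L : Type} [Field k] [IsAlgClosed k] [Field L] [Algebra k L] {D : GD k L} {η ζ : L}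

namespace TR4Daux

omit [IsAlgClosed k] in
theorem one_mem_A {n : ℤ} (hn : 0 ≤ n) : (1 : L) ∈ A k η ζ n :=
  Submodule.subset_span ⟨0, 0, by simpa using hn, by simp⟩

omit [IsAlgClosed k] in
theorem eta_mem_A : η ∈ A k η ζ 1 := Submodule.subset_span ⟨1, 0, by simp, by simp⟩

omit [IsAlgClosed k] in
theorem zeta_mem_A : ζ ∈ A k η ζ 1 := Submodule.subset_span ⟨0, 1, by simp, by simp⟩

omit [IsAlgClosed k] in
theorem A_neg (hP : Par D η ζ) {n : ℤ} (hn : n < 0) : A k η ζ n = ⊥ := by
  rw [eq_bot_iff, ← D.neg n hn]; exact A_le_B hP n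

omit [IsAlgClosed k] in
theorem A_le_FF (n : ℤ) {q : L} (hq : q ∈ A k η ζ n) : q ∈ FF k η ζ := by
  have h : A k η ζ n ≤ Subalgebra.toSubmodule (FF k η ζ).toSubalgebra := by
    refine Submodule.span_le.2 ?_
    rintro _ ⟨a, b, _, rfl⟩
    have h1 : η ∈ FF k η ζ := IntermediateField.subset_adjoin _ _ (by simp)
    have h2 : ζ ∈ FF k η ζ := IntermediateField.subset_adjoin _ _ (by simp)
    have h3 : η ^ a * ζ ^ b ∈ FF k η ζ := mul_mem (pow_mem h1 a) (pow_mem h2 b)
    exact h3
  exact h hq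

omit [IsAlgClosed k] in
theorem latOf_smul {r g : ℕ} {a : Fin g → ℤ} {e : Fin g → (Fin r → L)} {i n : ℤ} {q : L}
    (hq : q ∈ A k η ζ i) {w : Fin r → L} (hw : w ∈ latOf k η ζ a e n) :
    q • w ∈ latOf k η ζ a e (i + n) := by
  obtain ⟨u, hu, rfl⟩ := (mem_latOf n w).1 hw
  refine (mem_latOf _ _).2 ⟨fun j => q * u j, fun j => ?_, ?_⟩
  · have h := A_mul_mem hq (hu j)
    rwa [← add_sub_assoc] at h
  · rw [Finset.smul_sum]
    exact Finset.sum_congr rfl fun j _ => (mul_smul _ _ _).symm

omit [IsAlgClosed k] in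
theorem gen_mem {r g : ℕ} (a : Fin g → ℤ) (e : Fin g → (Fin r → L)) (j : Fin g) :
    e j ∈ latOf k η ζ a e (a j) := by
  classical
  refine (mem_latOf _ _).2 ⟨Pi.single j 1, fun j' => ?_, ?_⟩
  · by_cases h : j' = j
    · subst h
      rw [Pi.single_eq_same, sub_self]
      exact one_mem_A le_rfl
    · rw [Pi.single_eq_of_ne h]
      exact Submodule.zero_mem _
  · rw [Finset.sum_eq_single j]
    · rw [Pi.single_eq_same, one_smul]
    · intro j' _ h
      rw [Pi.single_eq_of_ne h, zero_smul]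
    · intro h; exact absurd (Finset.mem_univ _) h

variable {r g h : ℕ}

/-! ### rank -/

omit [IsAlgClosed k] in
theorem fin_A (hP : Par D η ζ) (n : ℤ) : FiniteDimensional k (A k η ζ n) := by
  have := D.fin n
  exact Submodule.finiteDimensional_of_le (A_le_B hP n)

omit [IsAlgClosed k] in
theorem finrank_A_rat (ind : AlgebraicIndependent k ![η, ζ]) {n : ℤ} (hn : 0 ≤ n) :
    (Module.finrank k (A k η ζ n) : ℚ) = (n + 1) * (n + 2) / 2 := by
  rw [finrank_A ind n, if_pos hn]
  have h1 : 2 ∣ (n.toNat + 1) * (n.toNat + 2) := (Nat.even_mul_succ_self (n.toNat + 1)).two_dvd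
  rw [Nat.cast_div h1 (by norm_num)]
  have h2 : (n.toNat : ℚ) = n := by
    have : ((n.toNat : ℤ) : ℚ) = (n : ℚ) := by rw [Int.toNat_of_nonneg hn]
    rw [← this]; norm_cast
  push_cast
  rw [h2]

/-- the map `u ↦ ∑ u j • e j` -/
noncomputable def Phi (a : Fin g → ℤ) (e : Fin g → (Fin r → L)) (n : ℤ) :
    (∀ j, A k η ζ (n - a j)) →ₗ[k] (Fin r → L) where
  toFun u := ∑ j, (u j : L) • e j
  map_add' x y := by
    simp only [Pi.add_apply, Submodule.coe_add, add_smul, Finset.sum_add_distrib]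
  map_smul' c x := by
    simp only [Pi.smul_apply, Submodule.coe_smul, smul_assoc, Finset.smul_sum, RingHom.id_apply]

/-- the map `c ↦ ∑ c i • f i` -/
noncomputable def Psi (a : Fin g → ℤ) (b : Fin h → ℤ) (f : Fin h → Fin g → L)
    (hf : ∀ i j, f i j ∈ A k η ζ (b i - a j)) (n : ℤ) :
    (∀ i, A k η ζ (n - b i)) →ₗ[k] (∀ j, A k η ζ (n - a j)) where
  toFun c := fun j => ⟨∑ i, (c i : L) * f i j, Submodule.sum_mem _ fun i _ => by
    have h := A_mul_mem (c i).2 (hf i j)
    rwa [sub_add_sub_cancel] at h⟩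
  map_add' x y := by
    funext j
    apply Subtype.ext
    simp only [Pi.add_apply, Submodule.coe_add, add_mul, Finset.sum_add_distrib]
  map_smul' c x := by
    funext j
    apply Subtype.ext
    simp only [Pi.smul_apply, Submodule.coe_smul, Algebra.smul_mul_assoc, Finset.smul_sum,
      RingHom.id_apply]

omit [IsAlgClosed k] in
theorem dim_formula (hP : Par D η ζ) (a : Fin g → ℤ) (e : Fin g → (Fin r → L)) (b : Fin h → ℤ)
    (f : Fin h → Fin g → L) (hf : ∀ i j, f i j ∈ A k η ζ (b i - a j))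
    (hrel : ∀ i, ∑ j, f i j • e j = 0) (hind : LinearIndependent (FF k η ζ) f)
    (hex : ∀ (n : ℤ) (u : Fin g → L), (∀ j, u j ∈ A k η ζ (n - a j)) → ∑ j, u j • e j = 0 →
        ∃ c : Fin h → L, (∀ i, c i ∈ A k η ζ (n - b i)) ∧ u = ∑ i, c i • f i) (n : ℤ) :
    Module.finrank k (latOf k η ζ a e n) + ∑ i, Module.finrank k (A k η ζ (n - b i)) =
      ∑ j, Module.finrank k (A k η ζ (n - a j)) := by
  have hfin : ∀ n, FiniteDimensional k (A k η ζ n) := fin_A hP
  have h1 : LinearMap.range (Phi (k := k) (η := η) (ζ := ζ) a e n) = latOf k η ζ a e n := by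
    ext w
    rw [mem_latOf]
    constructor
    · rintro ⟨u, rfl⟩
      exact ⟨fun j => u j, fun j => (u j).2, rfl⟩
    · rintro ⟨u, hu, rfl⟩
      exact ⟨fun j => ⟨u j, hu j⟩, rfl⟩
  have h2 : LinearMap.ker (Phi (k := k) (η := η) (ζ := ζ) a e n) =
      LinearMap.range (Psi a b f hf n) := by
    ext u
    constructor
    · intro hu
      obtain ⟨c, hc, huc⟩ := hex n (fun j => u j) (fun j => (u j).2) hu
      refine ⟨fun i => ⟨c i, hc i⟩, ?_⟩
      funext j
      apply Subtype.ext
      have := congrFun huc j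
      rw [Finset.sum_apply] at this
      exact this.symm
    · rintro ⟨c, rfl⟩
      change ∑ j, (∑ i, (c i : L) * f i j) • e j = 0
      simp only [Finset.sum_smul, mul_smul]
      rw [Finset.sum_comm]
      simp only [← Finset.smul_sum, hrel, smul_zero, Finset.sum_const_zero]
  have h3 : Function.Injective (Psi a b f hf n) := by
    rw [← LinearMap.ker_eq_bot, LinearMap.ker_eq_bot']
    intro c hc
    have h4 : ∑ i, (⟨(c i : L), A_le_FF _ (c i).2⟩ : FF k η ζ) • f i = 0 := by
      funext j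
      have h5 := congrArg Subtype.val (congrFun hc j)
      rw [Finset.sum_apply]
      exact h5
    have h5 := Fintype.linearIndependent_iff.1 hind _ h4
    funext i
    apply Subtype.ext
    have h6 := congrArg Subtype.val (h5 i)
    exact h6
  have h4 := LinearMap.finrank_range_add_finrank_ker (Phi (k := k) (η := η) (ζ := ζ) a e n)
  rw [h1, h2, LinearMap.finrank_range_of_inj h3, Module.finrank_pi_fintype,
    Module.finrank_pi_fintype] at h4
  exact h4

omit [IsAlgClosed k] in
theorem rank_formula (hP : Par D η ζ) {d βB γB : ℚ} (hB : HasHP D.B d βB γB)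
    (a : Fin g → ℤ) (e : Fin g → (Fin r → L)) (b : Fin h → ℤ)
    (f : Fin h → Fin g → L) (hf : ∀ i j, f i j ∈ A k η ζ (b i - a j))
    (hrel : ∀ i, ∑ j, f i j • e j = 0) (hind : LinearIndependent (FF k η ζ) f)
    (hex : ∀ (n : ℤ) (u : Fin g → L), (∀ j, u j ∈ A k η ζ (n - a j)) → ∑ j, u j • e j = 0 →
        ∃ c : Fin h → L, (∀ i, c i ∈ A k η ζ (n - b i)) ∧ u = ∑ i, c i • f i)
    (hE : IsLat D η ζ (latOf k η ζ a e)) (hs : lspan L (latOf k η ζ a e) = ⊤) :
    Module.finrank (FF k η ζ) L * r + h = g := by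
  have hH : HasHP (latOf k η ζ a e) ((g : ℚ) - h)
      (∑ j, (2 * (a j : ℚ) - 3) / 2 - ∑ i, (2 * (b i : ℚ) - 3) / 2)
      (∑ j, (1 - (a j : ℚ)) * (2 - a j) / 2 - ∑ i, (1 - (b i : ℚ)) * (2 - b i) / 2) := by
    refine ⟨∑ j, |a j| + ∑ i, |b i|, fun n hn => ?_⟩
    have ha : ∀ j, 0 ≤ n - a j := by
      intro j
      have h1 := Finset.single_le_sum (f := fun j => |a j|) (fun j _ => abs_nonneg _)
        (Finset.mem_univ j)
      have h2 : 0 ≤ ∑ i, |b i| := Finset.sum_nonneg fun i _ => abs_nonneg _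
      have h3 := le_abs_self (a j)
      linarith
    have hb : ∀ i, 0 ≤ n - b i := by
      intro i
      have h1 := Finset.single_le_sum (f := fun i => |b i|) (fun j _ => abs_nonneg _)
        (Finset.mem_univ i)
      have h2 : 0 ≤ ∑ j, |a j| := Finset.sum_nonneg fun i _ => abs_nonneg _
      have h3 := le_abs_self (b i)
      linarith
    have h1 := dim_formula hP a e b f hf hrel hind hex n
    have h2 : (Module.finrank k (latOf k η ζ a e n) : ℚ) +
        ∑ i, (Module.finrank k (A k η ζ (n - b i)) : ℚ) =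
        ∑ j, (Module.finrank k (A k η ζ (n - a j)) : ℚ) := by exact_mod_cast h1
    have h3 : ∀ j, (Module.finrank k (A k η ζ (n - a j)) : ℚ) = (n : ℚ) ^ 2 / 2 -
        (2 * (a j : ℚ) - 3) / 2 * n + (1 - (a j : ℚ)) * (2 - a j) / 2 := by
      intro j
      rw [finrank_A_rat hP.indep (ha j)]
      push_cast
      ring
    have h4 : ∀ i, (Module.finrank k (A k η ζ (n - b i)) : ℚ) = (n : ℚ) ^ 2 / 2 -
        (2 * (b i : ℚ) - 3) / 2 * n + (1 - (b i : ℚ)) * (2 - b i) / 2 := by
      intro i
      rw [finrank_A_rat hP.indep (hb i)]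
      push_cast
      ring
    simp only [h3, h4, Finset.sum_add_distrib, Finset.sum_sub_distrib, Finset.sum_const,
      Finset.card_univ, Fintype.card_fin, nsmul_eq_mul, ← Finset.sum_mul] at h2
    linear_combination h2
  obtain ⟨N, β, γ, hH', -, -⟩ := (hE.toPLat hP).hasHP
  have h1 := (hH.unique hH').1
  have h2 := (hE.rank hP hB hH').2
  rw [hs, finrank_top, Module.finrank_fin_fun] at h2
  obtain ⟨-, h3⟩ := finrank_FF hP hB
  have h4 : (Module.finrank (FF k η ζ) L : ℚ) * r + h = g := by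
    rw [h3]
    linarith
  exact_mod_cast h4

/-! ### polynomials -/

/-- homogeneous of integral degree `n` (zero if `n < 0`) -/
def Hd (n : ℤ) (p : MvPolynomial (Fin 3) k) : Prop :=
  (n < 0 → p = 0) ∧ (0 ≤ n → p.IsHomogeneous n.toNat)

omit [IsAlgClosed k] in
theorem Hd.zero (n : ℤ) : Hd n (0 : MvPolynomial (Fin 3) k) :=
  ⟨fun _ => rfl, fun _ => MvPolynomial.isHomogeneous_zero _ _ _⟩

omit [IsAlgClosed k] in
theorem Hd.add {n : ℤ} {p q : MvPolynomial (Fin 3) k} (hp : Hd n p) (hq : Hd n q) :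
    Hd n (p + q) :=
  ⟨fun h => by rw [hp.1 h, hq.1 h, add_zero], fun h => (hp.2 h).add (hq.2 h)⟩

omit [IsAlgClosed k] in
theorem Hd.neg {n : ℤ} {p : MvPolynomial (Fin 3) k} (hp : Hd n p) : Hd n (-p) :=
  ⟨fun h => by rw [hp.1 h, neg_zero], fun h => (hp.2 h).neg⟩

omit [IsAlgClosed k] in
theorem Hd.mul {m n : ℤ} {p q : MvPolynomial (Fin 3) k} (hp : Hd m p) (hq : Hd n q) :
    Hd (m + n) (p * q) := by
  rcases lt_or_ge m 0 with hm | hm
  · rw [hp.1 hm, zero_mul]; exact Hd.zero _
  · rcases lt_or_ge n 0 with hn | hn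
    · rw [hq.1 hn, mul_zero]; exact Hd.zero _
    · refine ⟨fun h => absurd h (by linarith), fun _ => ?_⟩
      rw [Int.toNat_add hm hn]
      exact (hp.2 hm).mul (hq.2 hn)

omit [IsAlgClosed k] in
theorem Hd.prod {ι : Type} (s : Finset ι) (n : ι → ℤ) (p : ι → MvPolynomial (Fin 3) k)
    (hp : ∀ i ∈ s, Hd (n i) (p i)) : Hd (∑ i ∈ s, n i) (∏ i ∈ s, p i) := by
  classical
  induction s using Finset.induction_on with
  | empty =>
    rw [Finset.sum_empty, Finset.prod_empty]
    exact ⟨fun h => absurd h (lt_irrefl _), fun _ => MvPolynomial.isHomogeneous_one _ _⟩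
  | insert i s hi ih =>
    rw [Finset.sum_insert hi, Finset.prod_insert hi]
    exact (hp i (Finset.mem_insert_self _ _)).mul
      (ih fun j hj => hp j (Finset.mem_insert_of_mem hj))

omit [IsAlgClosed k] in
theorem Hd.sum {ι : Type} (s : Finset ι) {n : ℤ} (p : ι → MvPolynomial (Fin 3) k)
    (hp : ∀ i ∈ s, Hd n (p i)) : Hd n (∑ i ∈ s, p i) := by
  classical
  induction s using Finset.induction_on with
  | empty => rw [Finset.sum_empty]; exact Hd.zero _
  | insert i s hi ih =>
    rw [Finset.sum_insert hi]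
    exact (hp i (Finset.mem_insert_self _ _)).add
      (ih fun j hj => hp j (Finset.mem_insert_of_mem hj))

omit [IsAlgClosed k] in
theorem Hd.det {a : Fin g → ℤ} {b : Fin h → ℤ} {G : Fin h → Fin g → MvPolynomial (Fin 3) k}
    (hG : ∀ i j, Hd (b i - a j) (G i j)) (I : Fin h → Fin g) :
    Hd (∑ i, b i - ∑ i, a (I i)) (Matrix.det (Matrix.of fun i i' => G i (I i'))) := by
  rw [Matrix.det_apply]
  refine Hd.sum _ _ fun σ _ => ?_
  have h1 : Hd (∑ i, b i - ∑ i, a (I i)) (∏ i, (Matrix.of fun i i' => G i (I i')) (σ i) i) := by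
    have h2 : ∑ i, b i - ∑ i, a (I i) = ∑ i, (b (σ i) - a (I i)) := by
      rw [Finset.sum_sub_distrib, Equiv.sum_comp σ b]
    rw [h2]
    exact Hd.prod _ _ _ fun i _ => hG _ _
  rcases Int.units_eq_one_or (Equiv.Perm.sign σ) with h | h
  · rw [h, one_smul]; exact h1
  · rw [h]
    have : (-1 : ℤˣ) • (∏ i, (Matrix.of fun i i' => G i (I i')) (σ i) i) =
        - (∏ i, (Matrix.of fun i i' => G i (I i')) (σ i) i) := by
      rw [Units.smul_def]; simp
    rw [this]
    exact h1.neg

omit [IsAlgClosed k] in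
theorem Hd.comp {n : ℤ} {q : MvPolynomial (Fin 3) k} (hq : Hd n q) (N : ℕ)
    (p : MvPolynomial (Fin 3) k) : ∃ p', Hd (N - n) p' ∧
      MvPolynomial.homogeneousComponent N (p * q) = p' * q := by
  rcases lt_or_ge n 0 with hn | hn
  · refine ⟨0, Hd.zero _, ?_⟩
    rw [hq.1 hn, mul_zero, map_zero, mul_zero]
  · obtain ⟨n, rfl⟩ := Int.eq_ofNat_of_zero_le hn
    have hq' : q.IsHomogeneous n := by simpa using hq.2 hn
    have hexp : MvPolynomial.homogeneousComponent N (p * q) =
        ∑ t ∈ Finset.range (p.totalDegree + 1),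
          if N = t + n then MvPolynomial.homogeneousComponent t p * q else 0 := by
      conv_lhs => rw [← MvPolynomial.sum_homogeneousComponent p, Finset.sum_mul, map_sum]
      refine Finset.sum_congr rfl fun t _ => ?_
      exact MvPolynomial.homogeneousComponent_of_mem
        ((MvPolynomial.homogeneousComponent_isHomogeneous t p).mul hq')
    rcases lt_or_ge N n with hN | hN
    · refine ⟨0, Hd.zero _, ?_⟩
      rw [hexp, zero_mul]
      exact Finset.sum_eq_zero fun t _ => if_neg (by omega)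
    · refine ⟨MvPolynomial.homogeneousComponent (N - n) p, ⟨fun h => absurd h (by omega),
        fun _ => ?_⟩, ?_⟩
      · have : ((N : ℤ) - n).toNat = N - n := by omega
        rw [this]
        exact MvPolynomial.homogeneousComponent_isHomogeneous _ _
      · rw [hexp]
        have h1 : ∀ t, (if N = t + n then MvPolynomial.homogeneousComponent t p * q else 0) =
            if t = N - n then MvPolynomial.homogeneousComponent (N - n) p * q else 0 := by
          intro t
          by_cases h : t = N - n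
          · rw [if_pos h, if_pos (by omega), h]
          · rw [if_neg h, if_neg (by omega)]
        simp only [h1]
        rw [Finset.sum_ite_eq']
        split_ifs with h2
        · rfl
        · rw [MvPolynomial.homogeneousComponent_eq_zero, zero_mul]
          rw [Finset.mem_range] at h2
          omega

omit [IsAlgClosed k] in
theorem Hd.ev {n : ℤ} {p : MvPolynomial (Fin 3) k} (hp : Hd n p) : ev η ζ p ∈ A k η ζ n := by
  rcases lt_or_ge n 0 with hn | hn
  · rw [hp.1 hn]
    unfold R169.ev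
    rw [map_zero]
    exact Submodule.zero_mem _
  · have := ev_mem_A (η := η) (ζ := ζ) (hp.2 hn)
    rwa [Int.toNat_of_nonneg hn] at this

omit [IsAlgClosed k] in
theorem ev_det (G : Fin h → Fin g → MvPolynomial (Fin 3) k) (f : Fin h → Fin g → L)
    (hG : ∀ i j, ev η ζ (G i j) = f i j) (I : Fin h → Fin g) :
    ev η ζ (Matrix.det (Matrix.of fun i i' => G i (I i'))) = minor f I := by
  unfold R169.ev minor
  rw [AlgHom.map_det]
  congr 1
  ext i i'
  exact hG i (I i')

theorem exists_pow_mem {ι : Type} (M : ι → MvPolynomial (Fin 3) k)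
    (hM : ∀ q : Fin 3 → k, q ≠ 0 → ∃ I, MvPolynomial.eval q (M I) ≠ 0) :
    ∃ m : ℕ, ∀ i, (MvPolynomial.X i : MvPolynomial (Fin 3) k) ^ m ∈ Ideal.span (Set.range M) := by
  have h1 : ∀ i, ∃ m : ℕ, (MvPolynomial.X i : MvPolynomial (Fin 3) k) ^ m ∈
      Ideal.span (Set.range M) := by
    intro i
    have h2 : (MvPolynomial.X i : MvPolynomial (Fin 3) k) ∈
        (Ideal.span (Set.range M)).radical := by
      rw [← MvPolynomial.vanishingIdeal_zeroLocus_eq_radical (K := k)]
      rw [MvPolynomial.mem_vanishingIdeal_iff]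
      intro x hx
      have hx0 : x = 0 := by
        by_contra hcon
        obtain ⟨I, hI⟩ := hM x hcon
        apply hI
        have := hx (M I) (Ideal.subset_span ⟨I, rfl⟩)
        rw [← MvPolynomial.coe_aeval_eq_eval]
        exact this
      rw [hx0]
      simp
    exact h2
  choose m hm using h1
  refine ⟨∑ i, m i, fun i => ?_⟩
  have h3 : m i ≤ ∑ i, m i := Finset.single_le_sum (f := m) (fun _ _ => Nat.zero_le _)
    (Finset.mem_univ i)
  obtain ⟨c, hc⟩ := Nat.exists_eq_add_of_le h3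
  rw [hc, pow_add]
  exact Ideal.mul_mem_right _ _ (hm i)

omit [IsAlgClosed k] in
theorem exists_coeff {a : Fin g → ℤ} {b : Fin h → ℤ} {G : Fin h → Fin g → MvPolynomial (Fin 3) k}
    (hG : ∀ i j, Hd (b i - a j) (G i j)) {f : Fin h → Fin g → L}
    (hGf : ∀ i j, ev η ζ (G i j) = f i j) {m : ℕ} (i : Fin 3)
    (hm : (MvPolynomial.X i : MvPolynomial (Fin 3) k) ^ m ∈ Ideal.span
      (Set.range fun I : Fin h → Fin g =>
        (Matrix.det (Matrix.of fun i i' => G i (I i')) : MvPolynomial (Fin 3) k))) :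
    ∃ c : (Fin h → Fin g) → L, (∀ I, c I ∈ A k η ζ (m - (∑ i, b i - ∑ i, a (I i)))) ∧
      ∑ I, c I * minor f I = ev η ζ (MvPolynomial.X i : MvPolynomial (Fin 3) k) ^ m := by
  obtain ⟨C, hC⟩ := Ideal.mem_span_range_iff_exists_fun.1 hm
  choose C' hC1 hC2 using fun I => (Hd.det hG I).comp m (C I)
  refine ⟨fun I => ev η ζ (C' I), fun I => (hC1 I).ev, ?_⟩
  have h1 := congrArg (MvPolynomial.homogeneousComponent m) hC
  rw [map_sum, MvPolynomial.homogeneousComponent_eq_self
    (by simpa using (MvPolynomial.isHomogeneous_X k i).pow m)] at h1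
  simp only [hC2] at h1
  have h2 := congrArg (ev η ζ) h1
  have h3 : ∀ I, ev η ζ (Matrix.det (Matrix.of fun i i' => G i (I i'))) = minor f I :=
    ev_det G f hGf
  simp only [← h3]
  unfold R169.ev at h2 ⊢
  rw [map_sum, map_pow] at h2
  simp only [map_mul] at h2
  exact h2

end TR4Daux

/-- `E` is generated over `P` by finitely many homogeneous elements -/
theorem exists_gens {r : ℕ} (hP : Par D η ζ) {E : ℤ → Submodule k (Fin r → L)} (hE : IsLat D η ζ E) :
    ∃ (g : ℕ) (a : Fin g → ℤ) (e : Fin g → (Fin r → L)), (∀ j, e j ∈ E (a j)) ∧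
      ∀ n, E n = latOf k η ζ a e n := by
  classical
  have hfg : ∀ n, ∃ (m : ℕ) (t : Fin m → (Fin r → L)), Submodule.span k (Set.range t) = E n := by
    intro n
    have h1 : (E n).FG := by
      have := hE.fin n
      exact Module.Finite.iff_fg.1 this
    exact Submodule.fg_iff_exists_fin_generating_family.1 h1
  choose m t ht using hfg
  obtain ⟨n0, h0⟩ := hE.bdd
  obtain ⟨n1, h1⟩ := hE.gen
  set n2 : ℤ := max n0 n1 with hn2
  let ι : Type := Σ n : (Finset.Icc n0 n2 : Finset ℤ), Fin (m n)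
  let φ : Fin (Fintype.card ι) ≃ ι := (Fintype.equivFin ι).symm
  refine ⟨Fintype.card ι, fun j => ((φ j).1 : ℤ), fun j => t (φ j).1 (φ j).2, ?_, ?_⟩
  · intro j
    rw [← ht]
    exact Submodule.subset_span ⟨_, rfl⟩
  · set a : Fin (Fintype.card ι) → ℤ := fun j => ((φ j).1 : ℤ) with ha
    set e : Fin (Fintype.card ι) → (Fin r → L) := fun j => t (φ j).1 (φ j).2 with he
    have hej : ∀ j, e j ∈ E (a j) := by
      intro j
      rw [← ht]
      exact Submodule.subset_span ⟨_, rfl⟩
    intro n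
    apply le_antisymm
    · rcases lt_or_ge n n0 with hn | hn
      · rw [h0 n hn]; exact bot_le
      · have hsmall : ∀ n, n0 ≤ n → n ≤ n2 → E n ≤ latOf k η ζ a e n := by
          intro n hn hn'
          conv_lhs => rw [← ht n]
          refine Submodule.span_le.2 ?_
          rintro _ ⟨i, rfl⟩
          let x : ι := ⟨⟨n, Finset.mem_Icc.2 ⟨hn, hn'⟩⟩, i⟩
          have h2 := TR4Daux.gen_mem (k := k) (η := η) (ζ := ζ) a e (φ.symm x)
          have h3 : a (φ.symm x) = n := by
            simp only [ha, Equiv.apply_symm_apply]; rfl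
          have h4 : e (φ.symm x) = t n i := by
            have h5 : ∀ y : ι, φ (φ.symm x) = y → e (φ.symm x) = t y.1 y.2 := by
              rintro y rfl; rfl
            exact h5 x (Equiv.apply_symm_apply _ _)
          rw [h3, h4] at h2
          exact h2
        rcases le_total n n2 with hn' | hn'
        · exact hsmall n hn hn'
        · induction n, hn' using Int.leInduction with
          | base => exact hsmall n2 hn le_rfl
          | succ n hn' ih =>
            have ih' := ih ((le_max_left n0 n1).trans hn')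
            refine (h1 n ((le_max_right n0 n1).trans hn')).trans ?_
            refine sup_le (sup_le ?_ ?_) ?_
            · intro w hw
              have := TR4Daux.latOf_smul (TR4Daux.one_mem_A (k := k) (η := η) (ζ := ζ)
                zero_le_one) (ih' hw)
              rwa [one_smul, add_comm] at this
            · rintro _ ⟨w, hw, rfl⟩
              have := TR4Daux.latOf_smul (TR4Daux.eta_mem_A (k := k) (η := η) (ζ := ζ)) (ih' hw)
              rwa [add_comm] at this
            · rintro _ ⟨w, hw, rfl⟩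
              have := TR4Daux.latOf_smul (TR4Daux.zeta_mem_A (k := k) (η := η) (ζ := ζ)) (ih' hw)
              rwa [add_comm] at this
    · intro w hw
      obtain ⟨u, hu, rfl⟩ := (mem_latOf n w).1 hw
      refine Submodule.sum_mem _ fun j _ => ?_
      have := hE.smul_mem (A_le_B hP _ (hu j)) (hej j)
      rwa [sub_add_cancel] at this

theorem exists_cert {r : ℕ} (hP : Par D η ζ) {d βB γB : ℚ} (hB : HasHP D.B d βB γB)
    {E : ℤ → Submodule k (Fin r → L)} (hE : IsLat D η ζ E) (hs : lspan L E = ⊤)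
    (hr : IsRefl (k := k) η ζ E) :
    ∃ (g h : ℕ) (a : Fin g → ℤ) (b : Fin h → ℤ) (m : ℕ) (e : Fin g → (Fin r → L))
      (f : Fin h → Fin g → L) (cx cy cz : (Fin h → Fin g) → L),
      Cert D η ζ a b m e f cx cy cz ∧ (∀ j, e j ∈ E (a j)) ∧ ∀ n, E n = latOf k η ζ a e n := by
  obtain ⟨g, a, e, he, hEe⟩ := exists_gens hP hE
  obtain rfl : E = latOf k η ζ a e := funext hEe
  have hd : Dep2 η (latOf k η ζ a e) := IsRefl.dep2 hP.indep (hE.toPLat hP) hr
  obtain ⟨h, b, f, hf, hrel, hind, hex⟩ := relations_free hP.indep a e hd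
  have hex2 : ∀ i j, ∃ G : MvPolynomial (Fin 3) k, TR4Daux.Hd (b i - a j) G ∧
      ev η ζ G = f i j := by
    intro i j
    rcases lt_or_ge (b i - a j) 0 with hn | hn
    · refine ⟨0, TR4Daux.Hd.zero _, ?_⟩
      have h1 := hf i j
      rw [TR4Daux.A_neg hP hn, Submodule.mem_bot] at h1
      rw [h1]
      unfold ev
      rw [map_zero]
    · have h1 := hf i j
      rw [← Int.toNat_of_nonneg hn] at h1
      obtain ⟨F, hF, hF'⟩ := (mem_A_iff _ _).1 h1
      exact ⟨F, ⟨fun h => absurd h (by omega), fun _ => hF⟩, hF'⟩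
  choose G hG hGf using hex2
  obtain ⟨m, hm⟩ := TR4Daux.exists_pow_mem
    (fun I : Fin h → Fin g => Matrix.det (Matrix.of fun i i' => G i (I i'))) (by
      intro q hq
      obtain ⟨I, hI⟩ := minors_no_zero hP.indep a e hr b f hrel hind hex G
        (fun i j => hG i j) hGf q hq
      refine ⟨I, ?_⟩
      rw [RingHom.map_det]
      exact hI)
  obtain ⟨cx, hcx, hcx'⟩ := TR4Daux.exists_coeff (η := η) (ζ := ζ) hG hGf 0 (hm 0)
  obtain ⟨cy, hcy, hcy'⟩ := TR4Daux.exists_coeff (η := η) (ζ := ζ) hG hGf 1 (hm 1)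
  obtain ⟨cz, hcz, hcz'⟩ := TR4Daux.exists_coeff (η := η) (ζ := ζ) hG hGf 2 (hm 2)
  have ev0 : ev η ζ (MvPolynomial.X 0 : MvPolynomial (Fin 3) k) = 1 := by
    unfold ev; simp
  have ev1 : ev η ζ (MvPolynomial.X 1 : MvPolynomial (Fin 3) k) = η := by
    unfold ev; simp
  have ev2 : ev η ζ (MvPolynomial.X 2 : MvPolynomial (Fin 3) k) = ζ := by
    unfold ev; simp
  rw [ev0, one_pow] at hcx'
  rw [ev1] at hcy'
  rw [ev2] at hcz'
  refine ⟨g, h, a, b, m, e, f, cx, cy, cz, ⟨hf, hrel, ?_, ?_, ?_, fun I => ⟨hcx I, hcy I, hcz I⟩,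
    hcx', hcy', hcz'⟩, he, fun n => rfl⟩
  · intro x hx j
    have := hE.smul_mem hx (he j)
    rwa [add_comm] at this
  · rw [eq_top_iff, ← hs, lspan, Submodule.span_le]
    intro w hw
    obtain ⟨n, hn⟩ := Set.mem_iUnion.1 hw
    obtain ⟨u, hu, rfl⟩ := (mem_latOf n w).1 hn
    exact Submodule.sum_mem _ fun j _ => Submodule.smul_mem _ _ (Submodule.subset_span ⟨j, rfl⟩)
  · exact TR4Daux.rank_formula hP hB a e b f hf hrel hind hex hE hs

end R169.TR
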