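import Crest.Agent.R169.TR2C
import Crest.Agent.R169.TR3A

/-!
# R169_TR5A: transfer of a certificate, and limits of elements of `latOf`.

`lift_data`: given a certificate over `UK` with `e j ∈ Bpow (a j)` choose lifts
`ep j` (`IsLimV (a j)`, in `Bpow`), `fp i j` (`exists_liftA`, degree `b i - a j`), `cxp I, cyp I, czp I` (`exists_liftA`).
`cert_transfer`: for a.e. `p` the lifted data are a certificate:
`f_mem`, `c_mem` hold for all `p` by choice of the lifts; `rel`: coordinatewise `IsLim.mul/sum/zero_iff` in degree `b i`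
(`f i j * e j c : (b i - a j) + a j`); `hx hy hz`: `IsLim.det`, `mul`, `sum`, `isLim_one1`/`pow` and `unique'`/`zero_iff`
(difference in a common degree); `stab`: write `x_s • e j = ∑ c • e l` for the basis elements `x_s` of `B 1`
(`mem_latOf`), lift the coefficients, then a.e. `p` for the basis of `B_p 1` and by linearity for all `x`;
`span`: `L`-span of `e` is `⊤` so some `r` of the `e j` have nonzero determinant in `L`; lift (`IsLim.det`-like in degree
`∑ a j`; `zero_iff`); `rank`: `finrank_FF` at `p` and over `UK` give the same `d` (`hp_transfer`).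

`latOf_lim`: `w ∈ latOf n ↔ f p ∈ latOf_p n` a.e.: `mem_latOf`, lifting/limit of the coefficients (`exists_liftA`,
`exists_lim` + `IsLim.mem_A_iff`), `IsLim.unique` and `zero_iff`.
-/
set_option autoImplicit false
namespace R169.TR
open Filter

variable {s : Sys} {ηp ζp : ∀ p, s.Lp p} {η ζ : s.L}
variable {r g h : ℕ} {a : Fin g → ℤ} {b : Fin h → ℤ} {m : ℕ} {e : Fin g → (Fin r → s.L)}
  {f : Fin h → Fin g → s.L} {cx cy cz : (Fin h → Fin g) → s.L}

/-- families with the same limit agree a.e. -/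
private theorem ev_eq {n n' : ℤ} {f g : ∀ p, s.Lp p} {l : s.L} (h : IsLim s n f l)
    (h' : IsLim s n' g l) : ∀ᶠ p in (UU : Filter PP), f p = g p := by
  have key : ∀ {n : ℤ} {f g : ∀ p, s.Lp p}, IsLim s n f l → IsLim s n g l →
      ∀ᶠ p in (UU : Filter PP), f p = g p := by
    intro n f g h h'
    have h1 := (h.add h'.neg).zero_iff.1 (add_neg_cancel l)
    filter_upwards [h1] with p hp
    exact add_neg_eq_zero.1 hp
  rcases le_total n n' with hn | hn
  · obtain ⟨i, rfl⟩ := Int.le.dest hn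
    exact key (h.mono i) h'
  · obtain ⟨i, rfl⟩ := Int.le.dest hn
    exact key h (h'.mono i)

private theorem IsLim.cast {n n' : ℤ} {f : ∀ p, s.Lp p} {l : s.L} (h : IsLim s n f l)
    (e : n = n') : IsLim s n' f l := e ▸ h

theorem exists_liftV {n : ℤ} {w : Fin r → s.L} (hw : w ∈ Bpow s.D r n) :
    ∃ v : ∀ p, (Fin r → s.Lp p), IsLimV s n v w ∧ ∀ p, v p ∈ Bpow (s.Dp p) r n := by
  have hw' : ∀ i, w i ∈ s.D.B n := fun i => (Submodule.mem_pi.1 hw) i (Set.mem_univ i)
  choose v hv1 hv2 using fun i => exists_lift (hw' i)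
  exact ⟨fun p i => v i p, fun i => hv1 i, fun p => Submodule.mem_pi.2 fun i _ => hv2 i p⟩

theorem latOf_lim (hP : Par s.D η ζ) (hη : IsLim s 1 ηp η) (hζ : IsLim s 1 ζp ζ)
    {ep : ∀ p, Fin g → (Fin r → s.Lp p)} (he : ∀ j, IsLimV s (a j) (fun p => ep p j) (e j))
    {n : ℤ} {v : ∀ p, (Fin r → s.Lp p)} {w : Fin r → s.L} (hv : IsLimV s n v w) :
    w ∈ latOf UK η ζ a e n ↔
      ∀ᶠ p in (UU : Filter PP), v p ∈ latOf (Kp p) (ηp p) (ζp p) a (ep p) n := by
  classical
  constructor
  · intro hw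
    obtain ⟨u, hu, hw⟩ := (mem_latOf n w).1 hw
    choose up hup1 hup2 using fun j => exists_liftA hη hζ (hu j)
    have h1 : ∀ c : Fin r, ∀ᶠ p in (UU : Filter PP), v p c = ∑ j, up j p * ep p j c := by
      intro c
      have h2 : IsLim s n (fun p => ∑ j, up j p * ep p j c) (∑ j, u j * e j c) :=
        IsLim.sum Finset.univ fun j _ => ((hup1 j).mul (he j c)).cast (by ring)
      have h3 : w c = ∑ j, u j * e j c := by
        rw [hw, Finset.sum_apply]
        rfl
      have h4 : IsLim s n (fun p => v p c) (w c) := hv c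
      rw [h3] at h4
      exact ev_eq h4 h2
    filter_upwards [Filter.eventually_all.2 h1] with p hp
    refine (mem_latOf n (v p)).2 ⟨fun j => up j p, fun j => hup2 j p, ?_⟩
    funext c
    rw [hp c, Finset.sum_apply]
    rfl
  · intro hev
    obtain ⟨n1, _, hpar⟩ := par_transfer hP hη hζ
    have h1 : ∀ p, ∃ u : Fin g → s.Lp p, v p ∈ latOf (Kp p) (ηp p) (ζp p) a (ep p) n →
        (∀ j, u j ∈ A (Kp p) (ηp p) (ζp p) (n - a j)) ∧ v p = ∑ j, u j • ep p j := by
      intro p
      by_cases hp : v p ∈ latOf (Kp p) (ηp p) (ζp p) a (ep p) n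
      · obtain ⟨u, hu, hvu⟩ := (mem_latOf n (v p)).1 hp
        exact ⟨u, fun _ => ⟨hu, hvu⟩⟩
      · exact ⟨fun _ => 0, fun h => absurd h hp⟩
    choose u hu using h1
    have h2 : ∀ j, ∀ᶠ p in (UU : Filter PP), u p j ∈ A (Kp p) (ηp p) (ζp p) (n - a j) := by
      intro j
      filter_upwards [hev] with p hp
      exact (hu p hp).1 j
    have h3 : ∀ j, ∃ l, IsLim s (n - a j) (fun p => u p j) l := by
      intro j
      refine exists_lim ?_
      filter_upwards [h2 j, hpar] with p hp hp2
      exact A_le_B hp2.1 _ hp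
    choose l hl using h3
    have hpar' : ∀ᶠ p in (UU : Filter PP), Par (s.Dp p) (ηp p) (ζp p) := by
      filter_upwards [hpar] with p hp
      exact hp.1
    refine (mem_latOf n w).2 ⟨l, fun j => (IsLim.mem_A_iff hη hζ hP hpar' (hl j)).2 (h2 j), ?_⟩
    funext c
    have h4 : IsLim s n (fun p => ∑ j, u p j * ep p j c) (∑ j, l j * e j c) :=
      IsLim.sum Finset.univ fun j _ => ((hl j).mul (he j c)).cast (by ring)
    have h5 : IsLim s n (fun p => v p c) (∑ j, l j * e j c) := by
      refine h4.congr ?_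
      filter_upwards [hev] with p hp
      have h6 := congrFun (hu p hp).2 c
      rw [h6, Finset.sum_apply]
      rfl
    rw [(hv c).unique h5, Finset.sum_apply]
    rfl

/-- if the limits span, so do the vectors a.e. -/
private theorem span_transfer (hspan : Submodule.span s.L (Set.range e) = ⊤)
    {ep : ∀ p, Fin g → (Fin r → s.Lp p)} (he : ∀ j, IsLimV s (a j) (fun p => ep p j) (e j)) :
    ∀ᶠ p in (UU : Filter PP), Submodule.span (s.Lp p) (Set.range (ep p)) = ⊤ := by
  classical
  obtain ⟨κ, I, hI, hIs, hIl⟩ := exists_linearIndependent' s.L e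
  have hfin : Finite κ := Finite.of_injective I hI
  have : Fintype κ := Fintype.ofFinite κ
  have hcard : Fintype.card κ = r := by
    have h1 := finrank_span_eq_card hIl
    rw [hIs, hspan, finrank_top, Module.finrank_fin_fun] at h1
    exact h1.symm
  let σ : Fin r ≃ κ := (Fintype.equivFinOfCardEq hcard).symm
  let J : Fin r → Fin g := fun i => I (σ i)
  have hJl : LinearIndependent s.L (fun i => e (J i)) := hIl.comp σ σ.injective
  let N : Matrix (Fin r) (Fin r) s.L := Matrix.of fun i c => e (J i) c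
  have hN : N.det ≠ 0 := by
    have h1 : LinearIndependent s.L N.row := hJl
    rw [Matrix.linearIndependent_rows_iff_isUnit] at h1
    exact ((Matrix.isUnit_iff_isUnit_det _).1 h1).ne_zero
  have hlim : IsLim s (∑ i, a (J i) - ∑ _c : Fin r, (0 : ℤ))
      (fun p => (Matrix.of fun (i c : Fin r) => ep p (J i) c).det) N.det := by
    refine IsLim.det (s := s) (fun i => a (J i)) (fun _ => 0)
      (M := fun p => Matrix.of fun (i c : Fin r) => ep p (J i) c) (N := N) fun i c => ?_
    exact (he (J i) c).cast (by ring)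
  have h2 : ∀ᶠ p in (UU : Filter PP), (Matrix.of fun (i c : Fin r) => ep p (J i) c).det ≠ 0 := by
    have h3 : ¬ ∀ᶠ p in (UU : Filter PP),
        (Matrix.of fun (i c : Fin r) => ep p (J i) c).det = 0 := fun h => hN (hlim.zero_iff.2 h)
    exact Ultrafilter.eventually_not.2 h3
  filter_upwards [h2] with p hp
  have h4 : LinearIndependent (s.Lp p) (Matrix.of fun (i c : Fin r) => ep p (J i) c).row := by
    rw [Matrix.linearIndependent_rows_iff_isUnit, Matrix.isUnit_iff_isUnit_det]
    exact hp.isUnit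
  have h5 : Submodule.span (s.Lp p) (Set.range (fun i => ep p (J i))) = ⊤ := by
    have h6 : LinearIndependent (s.Lp p) (fun i => ep p (J i)) := h4
    rcases Nat.eq_zero_or_pos r with h0 | h0
    · subst h0
      exact Subsingleton.elim _ _
    · have : Nonempty (Fin r) := ⟨⟨0, h0⟩⟩
      exact h6.span_eq_top_of_card_eq_finrank (by
        rw [Module.finrank_fin_fun, Fintype.card_fin])
  rw [eq_top_iff, ← h5]
  refine Submodule.span_mono ?_
  rintro _ ⟨i, rfl⟩
  exact ⟨J i, rfl⟩

theorem cert_transfer (hP : Par s.D η ζ) (hη : IsLim s 1 ηp η) (hζ : IsLim s 1 ζp ζ)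
    {d βB γB : ℚ} (hB : HasHP s.D.B d βB γB)
    (hc : Cert s.D η ζ a b m e f cx cy cz)
    {ep : ∀ p, Fin g → (Fin r → s.Lp p)} (he : ∀ j, IsLimV s (a j) (fun p => ep p j) (e j)) :
    ∀ᶠ p in (UU : Filter PP), ∃ (fp : Fin h → Fin g → s.Lp p) (cxp cyp czp : (Fin h → Fin g) → s.Lp p),
      Cert (s.Dp p) (ηp p) (ζp p) a b m (ep p) fp cxp cyp czp := by
  classical
  choose F hF1 hF2 using fun i j => exists_liftA hη hζ (hc.f_mem i j)
  choose CX hCX1 hCX2 using fun I => exists_liftA hη hζ (hc.c_mem I).1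
  choose CY hCY1 hCY2 using fun I => exists_liftA hη hζ (hc.c_mem I).2.1
  choose CZ hCZ1 hCZ2 using fun I => exists_liftA hη hζ (hc.c_mem I).2.2
  obtain ⟨n1, _, hpar⟩ := par_transfer hP hη hζ
  -- relations
  have hrel : ∀ i : Fin h, ∀ c : Fin r, ∀ᶠ p in (UU : Filter PP),
      ∑ j, F i j p * ep p j c = 0 := by
    intro i c
    have h2 : IsLim s (b i) (fun p => ∑ j, F i j p * ep p j c) (∑ j, f i j * e j c) :=
      IsLim.sum Finset.univ fun j _ => ((hF1 i j).mul (he j c)).cast (by ring)
    refine h2.zero_iff.1 ?_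
    have h3 := congrFun (hc.rel i) c
    rw [Finset.sum_apply] at h3
    exact h3
  -- minors
  have hmin : ∀ I : Fin h → Fin g, IsLim s (∑ i, b i - ∑ i, a (I i))
      (fun p => minor (fun i j => F i j p) I) (minor f I) := by
    intro I
    exact IsLim.det (s := s) b (fun i => a (I i))
      (M := fun p => Matrix.of fun i i' => F i (I i') p)
      (N := Matrix.of fun i i' => f i (I i')) fun i j => hF1 i (I j)
  have hsum : ∀ (C : (Fin h → Fin g) → ∀ p, s.Lp p) (c : (Fin h → Fin g) → s.L),
      (∀ I, IsLim s (m - (∑ i, b i - ∑ i, a (I i))) (C I) (c I)) →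
      IsLim s m (fun p => ∑ I, C I p * minor (fun i j => F i j p) I) (∑ I, c I * minor f I) := by
    intro C c hC
    exact IsLim.sum Finset.univ fun I _ => ((hC I).mul (hmin I)).cast (by ring)
  have hX : ∀ᶠ p in (UU : Filter PP), ∑ I, CX I p * minor (fun i j => F i j p) I = 1 := by
    have h1 := hsum CX cx hCX1
    rw [hc.hx] at h1
    exact ev_eq h1 (isLim_one0 (s := s))
  have hY : ∀ᶠ p in (UU : Filter PP), ∑ I, CY I p * minor (fun i j => F i j p) I = ηp p ^ m := by
    have h1 := hsum CY cy hCY1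
    rw [hc.hy] at h1
    exact ev_eq h1 (hη.pow m)
  have hZ : ∀ᶠ p in (UU : Filter PP), ∑ I, CZ I p * minor (fun i j => F i j p) I = ζp p ^ m := by
    have h1 := hsum CZ cz hCZ1
    rw [hc.hz] at h1
    exact ev_eq h1 (hζ.pow m)
  -- stability
  have hst : ∀ (x : s.S 1) (j : Fin g), ∀ᶠ p in (UU : Filter PP), ∀ h7 : 7 < p.1,
      ((s.Ip p h7).bas 1 x : s.Lp p) • ep p j ∈
        latOf (Kp p) (ηp p) (ζp p) a (ep p) (a j + 1) := by
    intro x j
    have h1 : IsLimV s (a j + 1) (fun p => (if h7 : 7 < p.1 then ((s.Ip p h7).bas 1 x : s.Lp p)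
        else 0) • ep p j) ((s.I.bas 1 x : s.L) • e j) := by
      intro c
      exact ((isLim_bas (s := s) 1 x).mul (he j c)).cast (by ring)
    have h2 := (latOf_lim hP hη hζ he h1).1 (hc.stab _ (s.I.bas 1 x).2 j)
    filter_upwards [h2] with p hp h7
    rw [dif_pos h7] at hp
    exact hp
  filter_upwards [Filter.eventually_all.2 fun i => Filter.eventually_all.2 (hrel i), hX, hY, hZ,
    Filter.eventually_all.2 fun x => Filter.eventually_all.2 (hst x), hpar, UU_large 7,
    span_transfer hc.span he] with p h1 h2 h3 h4 h5 h6 h7 h8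
  refine ⟨fun i j => F i j p, fun I => CX I p, fun I => CY I p, fun I => CZ I p, ?_⟩
  refine ⟨fun i j => hF2 i j p, fun i => ?_, fun x hx j => ?_, h8, ?_,
    fun I => ⟨hCX2 I p, hCY2 I p, hCZ2 I p⟩, h2, h3, h4⟩
  · funext c
    rw [Finset.sum_apply]
    exact h1 i c
  · have h9 := congrArg (fun y : (s.Dp p).B 1 => (y : s.Lp p))
      (((s.Ip p h7).bas 1).sum_repr ⟨x, hx⟩)
    simp only [AddSubmonoidClass.coe_finsetSum, Submodule.coe_smul] at h9
    rw [← h9, Finset.sum_smul]
    refine Submodule.sum_mem _ fun t _ => ?_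
    rw [smul_assoc]
    exact Submodule.smul_mem _ _ (h5 t j h7)
  · have e1 := (finrank_FF hP hB).2
    have e2 := (finrank_FF h6.1 (hp_transfer hB p h7)).2
    have e3 : Module.finrank (FF (Kp p) (ηp p) (ζp p)) (s.Lp p) =
        Module.finrank (FF UK η ζ) s.L := by
      have : (Module.finrank (FF (Kp p) (ηp p) (ζp p)) (s.Lp p) : ℚ) =
        Module.finrank (FF UK η ζ) s.L := by rw [e1, e2]
      exact_mod_cast this
    rw [e3]
    exact hc.rank

end R169.TR
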