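import Crest.Agent.R169.TR5A
import Crest.Agent.R169.TR4D
import Crest.Agent.R169.TR3C
import Crest.Agent.R169.TR3E

/-!
# R169_TR5B: the package: a reflexive lattice `E ⊂ B^r` over `UK` and its reductions `E^p`.
Assemble: `exists_cert` (TR4D), lifts (`exists_liftV` for `e j ∈ E (a j) ≤ Bpow`), `par_transfer`, `hp_transfer`,
`rho_transfer` (with `RhoCert.exists`), `cert_transfer`, then `latOf_isLat`, `latOf_refl`, `latOf_lspan`, `latOf_finrank`
(over `UK` and over `Kp p`: same right hand sides by `finrank_A`), `latOf_lim`.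
-/
set_option autoImplicit false
namespace R169.TR
open Filter

variable {s : Sys} {η ζ : s.L}

/-- the reduction data -/
structure Red (s : Sys) (η ζ : s.L) (r : ℕ) (E : ℤ → Submodule UK (Fin r → s.L)) (d : ℕ) (βB γB : ℚ)
    (ηp ζp : ∀ p, s.Lp p) (g : ℕ) (a : Fin g → ℤ) (e : Fin g → (Fin r → s.L))
    (ep : ∀ p, Fin g → (Fin r → s.Lp p)) (e0 t0 : ℤ) : Prop where
  limη : IsLim s 1 ηp η
  limζ : IsLim s 1 ζp ζ
  lime : ∀ j, IsLimV s (a j) (fun p => ep p j) (e j)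
  par : ∀ᶠ p in (UU : Filter PP), Par (s.Dp p) (ηp p) (ζp p)
  hp : ∀ᶠ p in (UU : Filter PP), HasHP (s.Dp p).B d βB γB
  rho : ∀ᶠ p in (UU : Filter PP), RhoCert (s.Dp p) (ηp p) (ζp p) d e0 t0
  Eeq : ∀ n, E n = latOf UK η ζ a e n
  lat : ∀ᶠ p in (UU : Filter PP), IsLat (s.Dp p) (ηp p) (ζp p) (latOf (Kp p) (ηp p) (ζp p) a (ep p))
  refl : ∀ᶠ p in (UU : Filter PP), IsRefl (k := Kp p) (ηp p) (ζp p) (latOf (Kp p) (ηp p) (ζp p) a (ep p))
  span : ∀ᶠ p in (UU : Filter PP), lspan (s.Lp p) (latOf (Kp p) (ηp p) (ζp p) a (ep p)) = ⊤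
  inB : ∀ᶠ p in (UU : Filter PP), ∀ n, latOf (Kp p) (ηp p) (ζp p) a (ep p) n ≤ Bpow (s.Dp p) r n
  fin : ∀ᶠ p in (UU : Filter PP), ∀ n,
    Module.finrank (Kp p) (latOf (Kp p) (ηp p) (ζp p) a (ep p) n) = Module.finrank UK (E n)
  lim : ∀ (n : ℤ) (v : ∀ p, (Fin r → s.Lp p)) (w : Fin r → s.L), IsLimV s n v w →
    (w ∈ E n ↔ ∀ᶠ p in (UU : Filter PP), v p ∈ latOf (Kp p) (ηp p) (ζp p) a (ep p) n)

/-- elements of `B i * B j` in terms of bases -/
private theorem mul_bases {k L : Type} [Field k] [Field L] [Algebra k L] {S T : Type} [Fintype S]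
    [Fintype T] {B C : Submodule k L} (b : Module.Basis S k B) (c : Module.Basis T k C) {x : L}
    (hx : x ∈ B * C) : ∃ q : S → T → k, x = ∑ i, ∑ j, q i j • ((b i : L) * (c j : L)) := by
  refine Submodule.mul_induction_on hx ?_ ?_
  · intro y hy z hz
    refine ⟨fun i j => b.repr ⟨y, hy⟩ i * c.repr ⟨z, hz⟩ j, ?_⟩
    have h1 : y = ∑ i, b.repr ⟨y, hy⟩ i • (b i : L) := by
      have h := congrArg (fun w : B => (w : L)) (b.sum_repr ⟨y, hy⟩)
      simp only [AddSubmonoidClass.coe_finsetSum, Submodule.coe_smul] at h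
      exact h.symm
    have h2 : z = ∑ j, c.repr ⟨z, hz⟩ j • (c j : L) := by
      have h := congrArg (fun w : C => (w : L)) (c.sum_repr ⟨z, hz⟩)
      simp only [AddSubmonoidClass.coe_finsetSum, Submodule.coe_smul] at h
      exact h.symm
    calc y * z = (∑ i, b.repr ⟨y, hy⟩ i • (b i : L)) * ∑ j, c.repr ⟨z, hz⟩ j • (c j : L) := by
          rw [← h1, ← h2]
      _ = _ := by
          rw [Finset.sum_mul_sum]
          refine Finset.sum_congr rfl fun i _ => Finset.sum_congr rfl fun j _ => ?_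
          rw [smul_mul_smul_comm]
  · rintro y z ⟨q, rfl⟩ ⟨q', rfl⟩
    refine ⟨fun i j => q i j + q' i j, ?_⟩
    rw [← Finset.sum_add_distrib]
    refine Finset.sum_congr rfl fun i _ => ?_
    rw [← Finset.sum_add_distrib]
    exact Finset.sum_congr rfl fun j _ => (add_smul _ _ _).symm

/-- `Gen1` holds over the ultraproduct -/
private theorem gen1_lim : Gen1 s.D := by
  classical
  intro n hn x hx
  obtain ⟨f, hf, hfB⟩ := exists_lift hx
  have h1 : ∀ p : PP, ∃ q : s.S 1 → s.S n → Kp p, ∀ hp : 7 < p.1,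
      f p = ∑ i, ∑ j, q i j • (((s.Ip p hp).bas 1 i : s.Lp p) * ((s.Ip p hp).bas n j : s.Lp p)) := by
    intro p
    by_cases hp : 7 < p.1
    · obtain ⟨q, hq⟩ := mul_bases ((s.Ip p hp).bas 1) ((s.Ip p hp).bas n)
        (s.gen1 p hp n hn (hfB p))
      exact ⟨q, fun _ => hq⟩
    · exact ⟨0, fun h => absurd h hp⟩
  choose q hq using h1
  have h2 : IsLim s (1 + n)
      (fun p => ∑ i, ∑ j, q p i j •
        ((if h : 7 < p.1 then ((s.Ip p h).bas 1 i : s.Lp p) else 0) *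
          (if h : 7 < p.1 then ((s.Ip p h).bas n j : s.Lp p) else 0)))
      (∑ i, ∑ j, cl (fun p => q p i j) • ((s.I.bas 1 i : s.L) * (s.I.bas n j : s.L))) := by
    refine IsLim.sum Finset.univ fun i _ => IsLim.sum Finset.univ fun j _ => ?_
    exact ((isLim_bas 1 i).mul (isLim_bas n j)).smul (fun p => q p i j)
  have h3 : IsLim s (1 + n) f
      (∑ i, ∑ j, cl (fun p => q p i j) • ((s.I.bas 1 i : s.L) * (s.I.bas n j : s.L))) := by
    refine h2.congr ?_
    filter_upwards [UU_large 7] with p hp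
    rw [hq p hp]
    simp only [dif_pos hp]
  rw [add_comm] at h3
  rw [hf.unique h3]
  refine Submodule.sum_mem _ fun i _ => Submodule.sum_mem _ fun j _ => Submodule.smul_mem _ _ ?_
  exact Submodule.mul_mem_mul (s.I.bas 1 i).2 (s.I.bas n j).2

theorem exists_red (hP : Par s.D η ζ) {d : ℕ} {βB γB : ℚ} (hB : HasHP s.D.B d βB γB)
    [IsAlgClosed UK] {r : ℕ} {E : ℤ → Submodule UK (Fin r → s.L)} (hE : IsLat s.D η ζ E)
    (hs : lspan s.L E = ⊤) (hr : IsRefl (k := UK) η ζ E) (hEB : ∀ n, E n ≤ Bpow s.D r n) :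
    ∃ (ηp ζp : ∀ p, s.Lp p) (g : ℕ) (a : Fin g → ℤ) (e : Fin g → (Fin r → s.L))
      (ep : ∀ p, Fin g → (Fin r → s.Lp p)) (e0 t0 : ℤ),
      Red s η ζ r E d βB γB ηp ζp g a e ep e0 t0 := by
  obtain ⟨g, h, a, b, m, e, f, cx, cy, cz, hc, he, hEq⟩ := exists_cert hP hB hE hs hr
  obtain ⟨ηp, hηl, -⟩ := exists_lift hP.hη
  obtain ⟨ζp, hζl, -⟩ := exists_lift hP.hζ
  choose ev hev hevB using fun j => exists_liftV (hEB _ (he j))
  obtain ⟨n1, hn1, hpar⟩ := par_transfer hP hηl hζl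
  obtain ⟨e0, t0, he0, ht0, hrho⟩ := RhoCert.exists hP hB
  have hcert := cert_transfer hP hηl hζl hB hc (ep := fun p j => ev j p) hev
  refine ⟨ηp, ζp, g, a, e, fun p j => ev j p, e0, t0, hηl, hζl, hev, ?_, ?_,
    rho_transfer hP hηl hζl hB hrho, hEq, ?_, ?_, ?_, ?_, ?_, ?_⟩
  · filter_upwards [hpar] with p h1
    exact h1.1
  · filter_upwards [UU_large 7] with p h1
    exact hp_transfer hB p h1
  · filter_upwards [hpar, hcert, UU_large 7] with p h1 h2 h3
    obtain ⟨fp, cxp, cyp, czp, hcp⟩ := h2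
    exact latOf_isLat h1.1 (s.gen1 p h3) hcp
  · filter_upwards [hpar, hcert, UU_large 7] with p h1 h2 h3
    obtain ⟨fp, cxp, cyp, czp, hcp⟩ := h2
    exact latOf_refl h1.1 (s.gen1 p h3) hcp
  · filter_upwards [hpar, hcert, UU_large 7] with p h1 h2 h3
    obtain ⟨fp, cxp, cyp, czp, hcp⟩ := h2
    exact latOf_lspan hcp
  · filter_upwards [hpar] with p h1 n w hw
    obtain ⟨u, hu, rfl⟩ := (mem_latOf n w).1 hw
    refine Submodule.sum_mem _ fun j _ => ?_
    have h2 := hevB j p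
    simp only [Bpow, Submodule.mem_pi, Set.mem_univ, forall_true_left] at h2 ⊢
    intro i
    have h3 := (s.Dp p).mul_mem (A_le_B h1.1 _ (hu j)) (h2 i)
    rw [show n - a j + a j = n by ring] at h3
    exact h3
  · filter_upwards [hpar, hcert, UU_large 7] with p h1 h2 h3 n
    obtain ⟨fp, cxp, cyp, czp, hcp⟩ := h2
    have h4 := latOf_finrank h1.1 (s.gen1 p h3) hcp n
    have h5 := latOf_finrank hP gen1_lim hc n
    simp only [finrank_A h1.1.indep] at h4
    simp only [finrank_A hP.indep] at h5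
    rw [hEq n]
    omega
  · intro n v w hv
    rw [hEq n]
    exact latOf_lim hP hηl hζl hev hv

end R169.TR
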