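import Crest.Agent.R169.TR6Defs

/-!
# R169_TR6A1: a destabilising subspace of minimal slope, single field.
`rank_sat`: `IsLat.rank` applied to `sat E V` + `lspan_sat`.
`exists_destab`: not semistable: `V' ≠ ⊥`, `HasHP (sat E V') N' β' γ'`, `β' * N < β * N'`.  `exists_minSlope` gives
`V`, `β1 * N' ≤ β' * N1`.  By `rank_sat` (`hB : HasHP D.B ..` exists: `((isLat_B hP).toPLat hP).hasHP`)
`N1 = dB * finrank V > 0`, `N' > 0`, `N = dB * r > 0` (`IsLat.rank` with `hs`).  Then divide.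
`Nontrivial (Fin r → L)` from `0 < r`.
`int_sat`: `IsPLat.hasHP` + `HasHP.unique`.
-/

set_option autoImplicit false

namespace R169.TR
open R169

variable {k L : Type} [Field k] [Field L] [Algebra k L] {D : GD k L} {η ζ : L}

theorem rank_sat (hP : Par D η ζ) {dB βB γB : ℚ} (hB : HasHP D.B dB βB γB) {r : ℕ}
    {E : ℤ → Submodule k (Fin r → L)} (hE : IsLat D η ζ E) (hs : lspan L E = ⊤) (V : Submodule L (Fin r → L))
    {N1 β1 γ1 : ℚ} (h : HasHP (sat E V) N1 β1 γ1) : 0 < dB ∧ N1 = dB * Module.finrank L V := by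
  have h1 := IsLat.rank hP hB (hE.sat hP V) h
  rw [lspan_sat hE hs] at h1
  exact h1

theorem exists_destab {r : ℕ} (hr : 0 < r) (hP : Par D η ζ) {E : ℤ → Submodule k (Fin r → L)}
    (hE : IsLat D η ζ E) (hs : lspan L E = ⊤) {N β γ : ℚ} (hh : HasHP E N β γ)
    (hns : ¬ Semistable L E N β) :
    ∃ V N1 β1 γ1, MinSlope L E V N1 β1 γ1 ∧ 0 < N1 ∧ β1 * N < β * N1 := by
  haveI : Nonempty (Fin r) := ⟨⟨0, hr⟩⟩
  haveI : Nontrivial (Fin r → L) := inferInstance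
  unfold Semistable at hns
  push Not at hns
  obtain ⟨V', hV', N', β', γ', hh', hlt⟩ := hns
  obtain ⟨dB0, βB, γB, hB, -, -⟩ := ((isLat_B hP).toPLat hP).hasHP
  obtain ⟨V, N1, β1, γ1, hm⟩ := exists_minSlope hP hE hs
  have hmin := hm.2.2 V' hV' N' β' γ' hh'
  obtain ⟨hd, hN1⟩ := rank_sat hP hB hE hs V hm.2.1
  obtain ⟨-, hN'⟩ := rank_sat hP hB hE hs V' hh'
  obtain ⟨-, hN⟩ := IsLat.rank hP hB hE hh
  have hpos : ∀ U : Submodule L (Fin r → L), U ≠ ⊥ → (0 : ℚ) < Module.finrank L U := by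
    intro U hU
    have : 0 < Module.finrank L U := by
      rw [Nat.pos_iff_ne_zero]
      intro h0
      exact hU (Submodule.finrank_eq_zero.1 h0)
    exact_mod_cast this
  have hN1pos : 0 < N1 := by
    rw [hN1]; exact mul_pos hd (hpos V hm.1)
  have hN'pos : 0 < N' := by
    rw [hN']; exact mul_pos hd (hpos V' hV')
  have hNpos : 0 < N := by
    rw [hN, hs]; exact mul_pos hd (hpos ⊤ top_ne_bot)
  refine ⟨V, N1, β1, γ1, hm, hN1pos, ?_⟩
  have e1 : β1 * N' * N ≤ β' * N1 * N := mul_le_mul_of_nonneg_right hmin hNpos.le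
  have e2 : N1 * (β' * N) < N1 * (β * N') := mul_lt_mul_of_pos_left hlt hN1pos
  by_contra hcon
  have e3 : β * N1 ≤ β1 * N := not_lt.1 hcon
  have e4 : β * N1 * N' ≤ β1 * N * N' := mul_le_mul_of_nonneg_right e3 hN'pos.le
  nlinarith [e1, e2, e4]

/-- `N1/2 - β1` is an integer -/
theorem int_sat (hP : Par D η ζ) {r : ℕ} {E : ℤ → Submodule k (Fin r → L)} (hE : IsLat D η ζ E)
    (V : Submodule L (Fin r → L)) {N1 β1 γ1 : ℚ} (h : HasHP (sat E V) N1 β1 γ1) :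
    ∃ z : ℤ, N1 / 2 - β1 = z := by
  obtain ⟨M, β, γ, hM, ⟨z, hz⟩, -⟩ := ((hE.sat hP V).toPLat hP).hasHP
  obtain ⟨rfl, rfl, rfl⟩ := h.unique hM
  exact ⟨z, hz⟩

end R169.TR
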