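import Crest.Agent.R169.TR6Defs
import Crest.Agent.R169.CPB1

/-!
# R169_TR6A2: lower bound for `β1` and upper bound for the dimensions from `RhoCert`.
`bound_sat`: `EmbA.bound` applied to `E := Bpow D r` (a P-lattice: coordinatewise `isLat_B`; `Bpow D r n = ⨆ i, (D.B n).map (single i)`
or check the fields directly) and `E' := sat E V ≤ Bpow D r`; `RhoCert.emb`; `IsPLat.hasHP` + `HasHP.unique` (N1 is a
natural number).
-/

set_option autoImplicit false

namespace R169.TR
open R169

variable {k L : Type} [Field k] [Field L] [Algebra k L] {D : GD k L} {η ζ : L}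

/-- lower bound for `β1` and upper bound for the dimensions from `RhoCert` -/
theorem bound_sat (hP : Par D η ζ) {d : ℕ} {e t : ℤ} (hR : RhoCert D η ζ d e t) {r : ℕ}
    {E : ℤ → Submodule k (Fin r → L)} (hE : IsLat D η ζ E) (hle : ∀ n, E n ≤ Bpow D r n)
    (V : Submodule L (Fin r → L)) {N1 β1 γ1 : ℚ} (h : HasHP (sat E V) N1 β1 γ1) :
    (∀ n, (Module.finrank k (sat E V n) : ℚ) ≤ N1 * Module.finrank k (A k η ζ (n + t))) ∧
      -((t : ℚ) + 3 / 2) * N1 ≤ β1 := by
  have hB : IsPLat η ζ (Bpow D r) := (R169.CP.isLat_Bpow hP r).toPLat hP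
  have hS : IsPLat η ζ (sat E V) := (hE.sat hP V).toPLat hP
  obtain ⟨N', β', γ', hh', -, -⟩ := hS.hasHP
  obtain ⟨h1, h2, -⟩ := h.unique hh'
  have hb := EmbA.bound hP.indep hB (hR.emb r) hS (fun n => inf_le_left.trans (hle n)) hh'
  rw [h1, h2]
  refine ⟨fun n => ?_, hb.2⟩
  exact_mod_cast hb.1 n

end R169.TR
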