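import Crest.Agent.R169.TR6Defs

/-!
# R169_TR6A3: finitely many possible invariants.
`pairs_finite`: `x.1` lies in a finite set (`d * r1`, `r1 ≤ r`); for each `x.1` the integer `z = x.1/2 - x.2` is bounded
(`x.2` between `-(t+3/2) x.1` and `β x.1 / N`), and `x.2 = x.1/2 - z`.
-/

set_option autoImplicit false

namespace R169.TR
open R169

/-- finitely many possible invariants -/
theorem pairs_finite (r d : ℕ) (t : ℤ) (N β : ℚ) (hN : 0 < N) : (pairs r d t N β).Finite := by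
  refine Set.Finite.subset (s := ⋃ r1 ∈ (Finset.range (r + 1) : Set ℕ),
    (fun z : ℤ => (((d : ℚ) * r1 : ℚ), ((d : ℚ) * r1) / 2 - z)) ''
      Set.Icc ⌊((d : ℚ) * r1) / 2 - β * (d * r1) / N⌋
        ⌈((d : ℚ) * r1) / 2 + ((t : ℚ) + 3 / 2) * (d * r1)⌉) ?_ ?_
  · exact (Finset.finite_toSet _).biUnion fun r1 _ => (Set.finite_Icc _ _).image _
  · rintro ⟨x1, x2⟩ ⟨⟨r1, hr1, h1⟩, ⟨z, hz⟩, h2, h3⟩
    simp only at h1 hz h2 h3
    subst h1
    refine Set.mem_biUnion (x := r1) (by simpa using Nat.lt_succ_of_le hr1) ⟨z, ⟨?_, ?_⟩, ?_⟩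
    · have h4 : x2 ≤ β * (d * r1) / N := by
        rw [le_div_iff₀ hN]
        exact h3
      have h5 : ((d : ℚ) * r1) / 2 - β * (d * r1) / N ≤ z := by linarith
      exact_mod_cast (Int.floor_le _).trans h5
    · have h5 : (z : ℚ) ≤ ((d : ℚ) * r1) / 2 + ((t : ℚ) + 3 / 2) * (d * r1) := by linarith
      exact_mod_cast h5.trans (Int.le_ceil _)
    · show (((d : ℚ) * r1 : ℚ), ((d : ℚ) * r1) / 2 - z) = ((d : ℚ) * r1, x2)
      rw [← hz]
      congr 1
      ring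

end R169.TR
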