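import Crest.Agent.R169.TR6B2

/-!
# R169_TR6B: the dual term vanishes for a minimal slope subspace (single field).

`psi_slope`: `J m := (sat E V m).map ψ` is a lattice in `L` (`IsLat.map`, `IsLat.sat`), nonzero, so by `IsLat.rank`
(`W = L`, `lspan = ⊤` because nonzero) `N3 = dB`; `J m ≤ D.B (m + j)`, so `β3 ≥ βB - dB * j`
(`HasHP.shift`, `HasHP.beta_le`).  With `U := V ⊓ ker ψ`:
`dim (sat E V m) = dim (sat E U m) + dim J m` (rank-nullity), so `N1 = N2 + dB`, `β1 = β2 + β3`.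
If `U = ⊥`: `N2 = β2 = 0`; else `MinSlope.semistable` gives `β1 * N2 ≤ β2 * N1`.  In both cases
`β1 * dB ≥ β3 * N1`, i.e. `β1 / N1 ≥ β3 / dB ≥ βB / dB - j`.
-/

set_option autoImplicit false

namespace R169.TR
open R169

variable {k L : Type} [Field k] [Field L] [Algebra k L] {D : GD k L} {η ζ : L}

theorem dual_zero (hP : Par D η ζ) {dB βB γB : ℚ} (hB : HasHP D.B dB βB γB) {s : ℤ}
    (hL : LinShift D η ζ s) {r : ℕ}
    {E : ℤ → Submodule k (Fin r → L)} (hE : IsLat D η ζ E) (hs : lspan L E = ⊤)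
    {V : Submodule L (Fin r → L)} {N1 β1 γ1 : ℚ} (hm : MinSlope L E V N1 β1 γ1) (j : ℤ)
    (hj : β1 / N1 < βB / dB - j - s) (φ : (Fin r → L) →ₗ[FF k η ζ] L)
    (hφ : ∀ m w, w ∈ sat E V m → φ w ∈ A k η ζ (m + j)) :
    ∀ m w, w ∈ sat E V m → φ w = 0 := by
  by_contra hcon
  push Not at hcon
  obtain ⟨m, w, hw, hne⟩ := hcon
  obtain ⟨ψ, hψ0, hψ⟩ := hL r V (sat E V) (hE.sat hP V) (lspan_sat hE hs) j φ hφ ⟨w, hw.2, hne⟩
  have := psi_slope hP hB hE hs hm ψ hψ0 (j + s) (by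
    intro m w hw
    have := hψ m w hw
    rwa [add_assoc] at this)
  push_cast at this
  linarith

/-- (i): `P_G(n) ≤ dim G_n` for `n` large in terms of the slopes -/
theorem sec_lower (hP : Par D η ζ) {dB βB γB : ℚ} (hB : HasHP D.B dB βB γB) {s : ℤ}
    (hL : LinShift D η ζ s) {r : ℕ}
    {E : ℤ → Submodule k (Fin r → L)} (hE : IsLat D η ζ E) (hs : lspan L E = ⊤) (hd : Dep2 η E)
    {V : Submodule L (Fin r → L)} {N1 β1 γ1 : ℚ} (hm : MinSlope L E V N1 β1 γ1) (n : ℤ)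
    (hn : β1 / N1 < βB / dB + n + 3 - s) :
    N1 / 2 * (n : ℚ) ^ 2 - β1 * n + γ1 ≤ Module.finrank k (sat E V n) := by
  refine duality_zero hP.indep ((hE.toPLat hP).sat V) (hd.sat V) hm.2.1 n ?_
  intro φ hφ
  refine dual_zero hP hB hL hE hs hm (-n - 3) ?_ φ hφ
  push_cast
  linarith

end R169.TR
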