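import Crest.Agent.R169.TR6A1

/-!
# R169_TR6B1: rank-nullity for a functional on a saturated sublattice.
`sat E V m ⊓ ker ψ = sat E (V ⊓ ker ψ) m` (`Submodule.finrank_map_add_finrank_ker`-type lemma for the restriction of
`ψ.restrictScalars k` to `sat E V m`: `LinearMap.finrank_range_add_finrank_ker` for `.domRestrict`).
-/

set_option autoImplicit false

namespace R169.TR
open R169

variable {k L : Type} [Field k] [Field L] [Algebra k L] {D : GD k L} {η ζ : L}

/-- rank-nullity -/
theorem finrank_psi {r : ℕ} {E : ℤ → Submodule k (Fin r → L)} (hf : ∀ n, FiniteDimensional k (E n))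
    (V : Submodule L (Fin r → L)) (ψ : (Fin r → L) →ₗ[L] L) (m : ℤ) :
    Module.finrank k (sat E V m) = Module.finrank k (sat E (V ⊓ LinearMap.ker ψ) m) +
      Module.finrank k ((sat E V m).map (ψ.restrictScalars k)) := by
  have := hf m
  have hfin : FiniteDimensional k (sat E V m) := Submodule.finiteDimensional_of_le inf_le_left
  have h1 := LinearMap.finrank_range_add_finrank_ker ((ψ.restrictScalars k).domRestrict (sat E V m))
  rw [LinearMap.range_domRestrict, LinearMap.ker_domRestrict] at h1
  have h2 : Module.finrank k (Submodule.comap (sat E V m).subtype (LinearMap.ker (ψ.restrictScalars k))) =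
      Module.finrank k (sat E (V ⊓ LinearMap.ker ψ) m) := by
    rw [← Submodule.finrank_map_subtype_eq, Submodule.map_comap_subtype]
    have h3 : sat E V m ⊓ LinearMap.ker (ψ.restrictScalars k) = sat E (V ⊓ LinearMap.ker ψ) m := by
      ext w
      simp only [sat, Submodule.mem_inf, Submodule.restrictScalars_mem, LinearMap.mem_ker,
        LinearMap.coe_restrictScalars, and_assoc]
    rw [h3]
  rw [h2] at h1
  rw [← h1, add_comm]

end R169.TR
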