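import Crest.Agent.R169.TR6B1

/-!
# R169_TR6B2: slope of the image of a functional.
`psi_slope`: `J m := (sat E V m).map ψ` is a lattice in `L` (`IsLat.map`, `IsLat.sat`), nonzero (h0 and `lspan_sat`: some
element of some `sat E V m` has `ψ ≠ 0`), so by `IsLat.rank` (`W = L`, `lspan = ⊤` because nonzero) `N3 = dB`;
`J m ≤ D.B (m + j)`, so `β3 ≥ βB - dB * j` (`HasHP.shift`, `HasHP.beta_le`).  With `U := V ⊓ ker ψ`:
`dim (sat E V m) = dim (sat E U m) + dim J m` (`finrank_psi`), so `N1 = N2 + dB`, `β1 = β2 + β3` (unique HP).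
If `U = ⊥`: `N2 = β2 = 0`; else `MinSlope.semistable` gives `β1 * N2 ≤ β2 * N1`.  In both cases
`β1 * dB ≥ β3 * N1`, i.e. `β1 / N1 ≥ β3 / dB ≥ βB / dB - j`  (`rank_sat`: `dB > 0`, `N1 > 0`).
-/

set_option autoImplicit false

namespace R169.TR
open R169

variable {k L : Type} [Field k] [Field L] [Algebra k L] {D : GD k L} {η ζ : L}

theorem psi_slope (hP : Par D η ζ) {dB βB γB : ℚ} (hB : HasHP D.B dB βB γB) {r : ℕ}
    {E : ℤ → Submodule k (Fin r → L)} (hE : IsLat D η ζ E) (hs : lspan L E = ⊤)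
    {V : Submodule L (Fin r → L)} {N1 β1 γ1 : ℚ} (hm : MinSlope L E V N1 β1 γ1)
    (ψ : (Fin r → L) →ₗ[L] L) (h0 : ∃ w ∈ V, ψ w ≠ 0) (j : ℤ)
    (hψ : ∀ m w, w ∈ sat E V m → ψ w ∈ D.B (m + j)) : βB / dB - j ≤ β1 / N1 := by
  obtain ⟨-, h1, -⟩ := id hm
  have hJ : IsLat D η ζ (fun n => (sat E V n).map (ψ.restrictScalars k)) := (hE.sat hP V).map ψ
  obtain ⟨N3, β3, γ3, h3, -, -⟩ := (hJ.toPLat hP).hasHP
  obtain ⟨N2, β2, γ2, h2, -, -⟩ := ((hE.sat hP (V ⊓ LinearMap.ker ψ)).toPLat hP).hasHP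
  have hsum : HasHP (sat E V) ((N2 : ℚ) + N3) (β2 + β3) (γ2 + γ3) := by
    obtain ⟨n2, hn2⟩ := h2
    obtain ⟨n3, hn3⟩ := h3
    refine ⟨max n2 n3, fun n hn => ?_⟩
    have e1 := finrank_psi hE.fin V ψ n
    have e2 := hn2 n (le_trans (le_max_left _ _) hn)
    have e3 := hn3 n (le_trans (le_max_right _ _) hn)
    simp only at e3
    rw [e1]
    push_cast
    rw [e2, e3]
    ring
  obtain ⟨hN, hβ, -⟩ := h1.unique hsum
  -- the image is nonzero
  have hne : ∃ m, ∃ w ∈ sat E V m, ψ w ≠ 0 := by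
    by_contra hcon
    push Not at hcon
    have hall : ∀ w ∈ lspan L (sat E V), ψ w = 0 := by
      intro w hw
      unfold lspan at hw
      induction hw using Submodule.span_induction with
      | mem x hx =>
        obtain ⟨n, hn⟩ := Set.mem_iUnion.1 hx
        exact hcon n x hn
      | zero => exact map_zero ψ
      | add x y _ _ hx hy => rw [map_add, hx, hy, add_zero]
      | smul a x _ hx => rw [map_smul, hx, smul_zero]
    obtain ⟨w, hw, hw0⟩ := h0
    exact hw0 (hall w (by rw [lspan_sat hE hs]; exact hw))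
  have htop : lspan L (fun n => (sat E V n).map (ψ.restrictScalars k)) = ⊤ := by
    obtain ⟨m, w, hw, hw0⟩ := hne
    rw [eq_top_iff]
    intro l _
    have e1 : ψ w ∈ lspan L (fun n => (sat E V n).map (ψ.restrictScalars k)) :=
      Submodule.subset_span (Set.mem_iUnion.2 ⟨m, ⟨w, hw, rfl⟩⟩)
    have e2 : l = (l / ψ w) • ψ w := by
      rw [smul_eq_mul, div_mul_cancel₀ _ hw0]
    rw [e2]
    exact Submodule.smul_mem _ _ e1
  obtain ⟨hd, hN3⟩ := hJ.rank hP hB h3
  rw [htop, finrank_top, Module.finrank_self, Nat.cast_one, mul_one] at hN3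
  rw [hN3] at h3 hN hsum
  have hβ3 : βB - dB * j ≤ β3 :=
    HasHP.beta_le (E := fun n => D.B (n + j)) (E' := fun n => (sat E V n).map (ψ.restrictScalars k))
      (fun n => by
        rintro _ ⟨w, hw, rfl⟩
        exact hψ n w hw) (fun n => D.fin _) (hB.shift j) h3
  have hkey : β3 * N1 ≤ β1 * dB := by
    by_cases hU : V ⊓ LinearMap.ker ψ = ⊥
    · have h4 : HasHP (sat E (V ⊓ LinearMap.ker ψ)) 0 0 0 := by
        refine ⟨0, fun n _ => ?_⟩
        have e1 : sat E (V ⊓ LinearMap.ker ψ) n = ⊥ := by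
          rw [hU]
          unfold sat
          rw [eq_bot_iff]
          intro w hw
          exact hw.2
        rw [e1, finrank_bot]
        simp
      obtain ⟨h5, h6, -⟩ := h2.unique h4
      rw [hN, hβ, h5, h6]
      linarith [mul_comm β3 dB]
    · have h4 := hm.semistable _ inf_le_left hU _ _ _ h2
      rw [hN, hβ] at h4 ⊢
      nlinarith [h4]
  have hN2 : (0 : ℚ) ≤ N2 := Nat.cast_nonneg _
  have hN1 : 0 < N1 := by rw [hN]; linarith
  rw [le_div_iff₀ hN1]
  have h5 : (βB / dB - j) * dB = βB - dB * j := by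
    field_simp
  have h6 : (βB / dB - j) * N1 * dB ≤ β1 * dB := by
    calc (βB / dB - j) * N1 * dB = ((βB / dB - j) * dB) * N1 := by ring
      _ = (βB - dB * j) * N1 := by rw [h5]
      _ ≤ β3 * N1 := mul_le_mul_of_nonneg_right hβ3 hN1.le
      _ ≤ β1 * dB := hkey
  exact le_of_mul_le_mul_right h6 hd

end R169.TR
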