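import Crest.Agent.R169.TR6A1

/-!
# R169_TR6C1: `sat (hull Q) U` has the same `N, β` as `sat Q U`.
-/

set_option autoImplicit false

namespace R169.TR
open R169

variable {k L : Type} [Field k] [Field L] [Algebra k L] {D : GD k L} {η ζ : L}
variable {W : Type} [AddCommGroup W] [Module k W] [Module L W] [IsScalarTower k L W]

/-- `sat (hull Q) U` has the same `N, β` as `sat Q U`: the quotient
`sat (hull Q) U n / sat Q U n` embeds into `hull Q n / Q n`, so its dimension is bounded (`hull_bdd`);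
`HasHP.beta_eq_of_bdd`. -/
theorem sat_hull_hp [FiniteDimensional L W] (hP : Par D η ζ) {Q : ℤ → Submodule k W}
    (hQ : IsLat D η ζ Q) (U : Submodule L W) {N' β' γ' : ℚ} (h : HasHP (sat (hull η ζ Q) U) N' β' γ') :
    ∃ γ'', HasHP (sat Q U) N' β' γ'' := by
  have hH : IsLat D η ζ (hull η ζ Q) := IsLat.hull hP hQ
  have hle : ∀ n, Q n ≤ hull η ζ Q n := fun n => le_hull (hQ.toPLat hP) n
  obtain ⟨C, hC⟩ := hull_bdd hP hQ
  obtain ⟨N, β, γ, hp, -, -⟩ := ((hQ.sat hP U).toPLat hP).hasHP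
  have hfA : ∀ n, FiniteDimensional k (hull η ζ Q n) := hH.fin
  have hfB : ∀ n, FiniteDimensional k (Q n) := hQ.fin
  have hfs : ∀ n, FiniteDimensional k (sat (hull η ζ Q) U n) := fun n => by
    have := hfA n
    exact Submodule.finiteDimensional_of_le (inf_le_left : sat (hull η ζ Q) U n ≤ hull η ζ Q n)
  have key : ∀ n, Module.finrank k (sat (hull η ζ Q) U n) ≤ Module.finrank k (sat Q U n) + C := by
    intro n
    have := hfA n
    have := hfB n
    have := hfs n
    have h1 := Submodule.finrank_sup_add_finrank_inf_eq (sat (hull η ζ Q) U n) (Q n)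
    have h2 : Module.finrank k ↥(sat (hull η ζ Q) U n ⊔ Q n) ≤ Module.finrank k (hull η ζ Q n) :=
      Submodule.finrank_mono (sup_le inf_le_left (hle n))
    have h3 : sat (hull η ζ Q) U n ⊓ Q n = sat Q U n := by
      ext w
      constructor
      · rintro ⟨⟨_, h5⟩, h6⟩
        exact ⟨h6, h5⟩
      · rintro ⟨h5, h6⟩
        exact ⟨⟨hle n h5, h6⟩, h5⟩
    rw [h3] at h1
    have h4 := hC n
    omega
  obtain ⟨e1, e2⟩ := HasHP.beta_eq_of_bdd (E := sat (hull η ζ Q) U) (E' := sat Q U)
    (fun n => inf_le_inf_right _ (hle n)) hfs C key h hp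
  subst e1 e2
  exact ⟨γ, hp⟩

end R169.TR
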