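import Crest.Agent.R169.TR6A1

/-!
# R169_TR6C2: a nonzero vector gives a rank one sublattice.
-/

set_option autoImplicit false

namespace R169.TR
open R169

variable {k L : Type} [Field k] [Field L] [Algebra k L] {D : GD k L} {η ζ : L}
variable {W : Type} [AddCommGroup W] [Module k W] [Module L W] [IsScalarTower k L W]

/-- a nonzero vector `w ∈ G n` gives a rank one sublattice of slope `≤ b_B + n`:
`D.B (m - n) • w ≤ sat G (L ∙ w) m` (`hasHP_free` with `s = 1`, `IsLat.rank`, `HasHP.beta_le`). -/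
theorem slope_vector [FiniteDimensional L W] (hP : Par D η ζ) {dB βB γB : ℚ} (hB : HasHP D.B dB βB γB)
    {G : ℤ → Submodule k W} (hG : IsLat D η ζ G) {n : ℤ} {w : W} (hw : w ∈ G n) (hw0 : w ≠ 0) :
    ∃ β' γ', HasHP (sat G (L ∙ w)) dB β' γ' ∧ β' ≤ βB + dB * n := by
  set V : Submodule L W := L ∙ w with hV
  have hwV : w ∈ V := Submodule.mem_span_singleton_self w
  have hS : IsLat D η ζ (sat G V) := hG.sat hP V
  obtain ⟨N, β', γ', hh, -, -⟩ := (hS.toPLat hP).hasHP
  obtain ⟨-, hN⟩ := hS.rank hP hB hh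
  have hls : lspan L (sat G V) = V := by
    apply le_antisymm
    · unfold lspan
      rw [Submodule.span_le]
      intro x hx
      obtain ⟨m, hm⟩ := Set.mem_iUnion.1 hx
      exact hm.2
    · rw [hV, Submodule.span_singleton_le_iff_mem]
      exact Submodule.subset_span (Set.mem_iUnion.2 ⟨n, hw, hwV⟩)
  rw [hls, hV, finrank_span_singleton hw0, Nat.cast_one, mul_one] at hN
  rw [hN] at hh
  refine ⟨β', γ', hh, ?_⟩
  have hli : LinearIndependent L (fun _ : Fin 1 => w) := by
    rw [linearIndependent_unique_iff]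
    exact hw0
  have hfree := hasHP_free (k := k) (fun _ : Fin 1 => w) hli n hB
  have e1 : (((1 : ℕ) : ℚ) * dB) = dB := by rw [Nat.cast_one, one_mul]
  rw [e1] at hfree
  have hle : ∀ m, (⨆ _i : Fin 1, (D.B (m - n)).map
      ((LinearMap.toSpanSingleton L W w).restrictScalars k)) ≤ sat G V m := by
    intro m
    refine iSup_le fun _ => ?_
    rintro _ ⟨b, hb, rfl⟩
    refine ⟨?_, ?_⟩
    · have h1 := hG.smul_mem hb hw
      rw [sub_add_cancel] at h1
      exact h1
    · exact V.smul_mem b hwV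
  have h2 := HasHP.beta_le hle hS.fin hh hfree
  rw [Nat.cast_one, one_mul] at h2
  exact h2

end R169.TR
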