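import Crest.Agent.R169.TR6C1
import Crest.Agent.R169.TR6C2

/-!
# R169_TR6C3: the hull of the quotient vanishes in low degrees.
Let `w ∈ hull (quo E V) n`, `w ≠ 0`, `U := L ∙ w` in `(Fin r → L) ⧸ V`. `slope_vector` for `G = hull (quo E V)`
(`IsLat.hull`, `IsLat.quo`): `HasHP (sat G U) dB β' γ'`, `β' ≤ βB + dB * n`; `sat_hull_hp`: `HasHP (sat (quo E V) U) dB β' _`;
`MinSlope.quo`: `β1 * dB ≤ β' * N1`; `N1 > 0`, `dB > 0` (`rank_sat`); contradiction with `hn`.
-/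

set_option autoImplicit false

namespace R169.TR
open R169

variable {k L : Type} [Field k] [Field L] [Algebra k L] {D : GD k L} {η ζ : L}

theorem hull_quo_zero (hP : Par D η ζ) {dB βB γB : ℚ} (hB : HasHP D.B dB βB γB) {r : ℕ}
    {E : ℤ → Submodule k (Fin r → L)} (hE : IsLat D η ζ E) (hs : lspan L E = ⊤)
    {V : Submodule L (Fin r → L)} {N1 β1 γ1 : ℚ} (hm : MinSlope L E V N1 β1 γ1) (n : ℤ)
    (hn : (n : ℚ) < β1 / N1 - βB / dB) : hull η ζ (quo E V) n = ⊥ := by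
  rw [Submodule.eq_bot_iff]
  intro w hw
  by_contra hw0
  have hQ : IsLat D η ζ (quo E V) := hE.quo V
  have hG : IsLat D η ζ (hull η ζ (quo E V)) := hQ.hull hP
  obtain ⟨β', γ', h1, h2⟩ := slope_vector hP hB hG hw hw0
  obtain ⟨γ'', h3⟩ := sat_hull_hp hP hQ (L ∙ w) h1
  have hU : (L ∙ w) ≠ ⊥ := by
    rw [Ne, Submodule.span_singleton_eq_bot]
    exact hw0
  have h4 := MinSlope.quo hP hE hs hm (L ∙ w) hU dB β' γ'' h3
  obtain ⟨hd, hN⟩ := rank_sat hP hB hE hs V hm.2.1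
  have hV : 0 < Module.finrank L V := by
    rw [Module.finrank_pos_iff]
    exact (Submodule.nontrivial_iff_ne_bot).2 hm.1
  have hN1 : 0 < N1 := by
    rw [hN]
    exact mul_pos hd (by exact_mod_cast hV)
  have h5 : β1 / N1 ≤ β' / dB := by
    rw [div_le_div_iff₀ hN1 hd]
    exact h4
  have h6 : β' / dB ≤ βB / dB + n := by
    rw [div_add' _ _ _ hd.ne', div_le_div_iff_of_pos_right hd]
    linarith
  linarith

end R169.TR
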