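import Crest.Agent.R169.TR6A1

/-!
# R169_TR6C4: `F`-spans.
-/

set_option autoImplicit false

namespace R169.TR
open R169

variable {k L : Type} [Field k] [Field L] [Algebra k L] {D : GD k L} {η ζ : L}
variable {W : Type} [AddCommGroup W] [Module k W] [Module L W] [IsScalarTower k L W]

/-- `hull Q` and `Q` have the same `F`-span (`w ∈ hull Q n`: take any prime `π`, e.g. `X 0`: `F • w ∈ Q (n+s)`, `F ≠ 0`;
`ev η ζ F ∈ FF k η ζ` is nonzero by `ev_inj`) -/
theorem fspan_hull (ind : AlgebraicIndependent k ![η, ζ]) {Q : ℤ → Submodule k W}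
    (hQ : IsPLat η ζ Q) : fspan η ζ (hull η ζ Q) = fspan η ζ Q := by
  have hX : Prime (MvPolynomial.X 0 : MvPolynomial (Fin 3) k) := MvPolynomial.X_prime
  apply le_antisymm
  · refine Submodule.span_le.2 (Set.iUnion_subset fun n => ?_)
    intro w hw
    have hw' : w ∈ Submodule.span k {w | Refl (k := k) η ζ Q n w} := hw
    show w ∈ fspan η ζ Q
    induction hw' using Submodule.span_induction with
    | mem x hx =>
      obtain ⟨s, F, hF, hd, hm⟩ := hx _ hX
      have hF0 : F ≠ 0 := fun h0 => hd (h0 ▸ dvd_zero _)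
      have hev : ev η ζ F ≠ 0 := fun h0 => hF0 (ev_inj ind hF h0)
      have hmem : ev η ζ F ∈ FF k η ζ := ev_mem_FF F
      have h1 : (⟨ev η ζ F, hmem⟩ : FF k η ζ) • x ∈ fspan η ζ Q := mem_fspan hm
      have h2 : (⟨ev η ζ F, hmem⟩ : FF k η ζ) ≠ 0 := fun h0 => hev (congrArg Subtype.val h0)
      have h3 := Submodule.smul_mem _ ((⟨ev η ζ F, hmem⟩ : FF k η ζ)⁻¹) h1
      rwa [inv_smul_smul₀ h2] at h3
    | zero => exact Submodule.zero_mem _
    | add x y hx0 hy0 hx hy => exact Submodule.add_mem _ (hx hx0) (hy hy0)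
    | smul c x hx0 hx => exact Submodule.smul_of_tower_mem _ c (hx hx0)
  · refine Submodule.span_le.2 (Set.iUnion_subset fun n => ?_)
    intro w hw
    refine mem_fspan (n := n) (Submodule.subset_span ?_)
    intro π hπ
    refine ⟨0, 1, MvPolynomial.isHomogeneous_one _ _, fun h => hπ.not_isUnit (isUnit_of_dvd_one h), ?_⟩
    have h1 : ev η ζ (1 : MvPolynomial (Fin 3) k) = 1 := by unfold ev; exact map_one _
    rw [h1, one_smul]
    simpa using hw

/-- `F`-span of the quotient lattice of `latOf` (all elements of `A` lie in `FF k η ζ`) -/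
theorem fspan_quo_latOf {r g : ℕ} (a : Fin g → ℤ) (v : Fin g → (Fin r → L)) (V : Submodule L (Fin r → L)) :
    Submodule.span (FF k η ζ) (Set.range fun i => V.mkQ (v i)) = fspan η ζ (quo (latOf k η ζ a v) V) := by
  apply le_antisymm
  · refine Submodule.span_le.2 ?_
    rintro _ ⟨i, rfl⟩
    refine mem_fspan (n := a i) ?_
    refine Submodule.mem_map.2 ⟨v i, ?_, rfl⟩
    refine (mem_latOf _ _).2 ⟨fun j => if j = i then 1 else 0, ?_, by simp⟩
    intro j
    by_cases h : j = i
    · subst h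
      simp only [if_true]
      exact Lat.one_mem_A (by simp)
    · simp [h]
  · refine Submodule.span_le.2 (Set.iUnion_subset fun n => ?_)
    rintro _ ⟨u, hu, rfl⟩
    obtain ⟨f, hf, rfl⟩ := (mem_latOf _ _).1 hu
    show V.mkQ (∑ j, f j • v j) ∈ Submodule.span (FF k η ζ) (Set.range fun i => V.mkQ (v i))
    rw [map_sum]
    refine Submodule.sum_mem _ fun j _ => ?_
    rw [map_smul]
    exact Submodule.smul_mem (Submodule.span (FF k η ζ) (Set.range fun i => V.mkQ (v i)))
      (⟨f j, A_le_FF (hf j)⟩ : FF k η ζ) (Submodule.subset_span ⟨j, rfl⟩)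

end R169.TR
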