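import Crest.Agent.R169.TR6C3
import Crest.Agent.R169.TR6C4

/-!
# R169_TR6C5: (ii): `γ1` is bounded below.
`G := hull (quo E V)`, `E = latOf k η ζ a v`: `HasHP (quo E V) (N-N1) (β-β1) (γ-γ1)` (`HasHP.sub_quo` with `IsPLat.hasHP`,
`HasHP.unique`), `HasHP G (N-N1) (β-β1) γ'` with `γ-γ1 ≤ γ'` (`HasHP.hull`); `duality` for `G` (`IsRefl.dep2`, `isRefl_hull`)
at `n`: `G n = ⊥` (`hull_quo_zero`), and `dualP_bound` with `f := V.mkQ` (restricted to `FF k η ζ`), `e := v`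
(`v i ∈ latOf (a i)`; `le_hull`), `hspan`: `fspan_quo_latOf` + `fspan_hull`; `finrank_A` = `dA`.
-/

set_option autoImplicit false

namespace R169.TR
open R169

variable {k L : Type} [Field k] [Field L] [Algebra k L] {D : GD k L} {η ζ : L}

private theorem self_mem_latOf_c5 {r g : ℕ} (a : Fin g → ℤ) (v : Fin g → (Fin r → L)) (i : Fin g) :
    v i ∈ latOf k η ζ a v (a i) := by
  have h1 : (A k η ζ (a i - a i)).map
      ((LinearMap.toSpanSingleton L (Fin r → L) (v i)).restrictScalars k) ≤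
      latOf k η ζ a v (a i) :=
    le_iSup (fun j => (A k η ζ (a i - a j)).map
      ((LinearMap.toSpanSingleton L (Fin r → L) (v j)).restrictScalars k)) i
  apply h1
  refine ⟨1, ?_, ?_⟩
  · exact Lat.one_mem_A (by omega)
  · simp

/-- (ii): `γ1` is bounded below -/
theorem gamma_lower (hP : Par D η ζ) {dB βB γB : ℚ} (hB : HasHP D.B dB βB γB) {r g : ℕ}
    (a : Fin g → ℤ) (v : Fin g → (Fin r → L))
    (hE : IsLat D η ζ (latOf k η ζ a v)) (hs : lspan L (latOf k η ζ a v) = ⊤) {N β γ : ℚ}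
    (hh : HasHP (latOf k η ζ a v) N β γ)
    {V : Submodule L (Fin r → L)} {N1 β1 γ1 : ℚ} (hm : MinSlope L (latOf k η ζ a v) V N1 β1 γ1) (n : ℤ)
    (hn : (n : ℚ) < β1 / N1 - βB / dB) :
    γ - γ1 ≤ (∑ j, dA (a j - n - 3) : ℕ) - (N - N1) / 2 * (n : ℚ) ^ 2 + (β - β1) * n := by
  set E := latOf k η ζ a v with hEdef
  have hQ : IsLat D η ζ (quo E V) := hE.quo V
  obtain ⟨N2, β2, γ2, h2, -, -⟩ := (hQ.toPLat hP).hasHP
  obtain ⟨e1, e2, e3⟩ := HasHP.sub_quo hE.fin hh hm.2.1 h2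
  obtain ⟨γ', hγ', hG'⟩ := HasHP.hull hP hQ h2
  have hGl : IsLat D η ζ (hull η ζ (quo E V)) := hQ.hull hP
  have hGd : Dep2 η (hull η ζ (quo E V)) := IsRefl.dep2 hP.indep (hGl.toPLat hP) (isRefl_hull hP hQ)
  have h3 := (duality hP.indep (hGl.toPLat hP) hGd hG' n).2
  rw [hull_quo_zero hP hB hE hs hm n hn, finrank_bot] at h3
  have h4 : Module.finrank k (dualP η ζ (hull η ζ (quo E V)) (-n - 3)) ≤
      ∑ i, Module.finrank k (A k η ζ (a i + (-n - 3))) := by
    refine dualP_bound v a (V.mkQ.restrictScalars (FF k η ζ)) ?_ ?_ (-n - 3)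
    · intro i
      apply le_hull (hQ.toPLat hP)
      exact ⟨v i, self_mem_latOf_c5 a v i, rfl⟩
    · rw [fspan_hull hP.indep (hQ.toPLat hP)]
      exact fspan_quo_latOf a v V
  have h5 : ∑ i, Module.finrank k (A k η ζ (a i + (-n - 3))) = ∑ j, dA (a j - n - 3) := by
    refine Finset.sum_congr rfl (fun i _ => ?_)
    rw [finrank_A hP.indep]
    have e : a i + (-n - 3) = a i - n - 3 := by ring
    rw [e]
    rfl
  rw [h5] at h4
  have h6 : (Module.finrank k (dualP η ζ (hull η ζ (quo E V)) (-n - 3)) : ℚ) ≤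
      ((∑ j, dA (a j - n - 3) : ℕ) : ℚ) := by exact_mod_cast h4
  have e4 : N - N1 = N2 := by linarith
  have e5 : β - β1 = β2 := by linarith
  rw [e4, e5]
  push_cast at h3 h6 ⊢
  linarith

end R169.TR
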