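import Crest.Agent.R169.TR5A

/-!
# R169_TR6D1: calculus of `IsLimV` (coordinatewise from `IsLim`).
`zero_iff`, `mem` etc. coordinatewise (`Filter.eventually_all` for `Fin r`).
-/

set_option autoImplicit false

namespace R169.TR
open R169 Filter

variable {s : Sys} {r : ℕ}

theorem isLimV_zero (n : ℤ) : IsLimV (r := r) s n (fun _ => 0) 0 := by
  intro i
  have h := IsLim.sum (s := s) (∅ : Finset (Fin 0)) (n := n) (f := fun _ _ => 0) (l := fun _ => 0)
    (fun i hi => absurd hi (Finset.notMem_empty i))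
  simpa using h

theorem IsLimV.add {n : ℤ} {f g : ∀ p, (Fin r → s.Lp p)} {w w' : Fin r → s.L} (h : IsLimV s n f w)
    (h' : IsLimV s n g w') : IsLimV s n (fun p => f p + g p) (w + w') := by
  intro i
  exact (h i).add (h' i)

theorem IsLimV.smul {n : ℤ} {f : ∀ p, (Fin r → s.Lp p)} {w : Fin r → s.L} (h : IsLimV s n f w)
    (c : ∀ p, Kp p) : IsLimV s n (fun p => c p • f p) (cl c • w) := by
  intro i
  exact (h i).smul c

theorem IsLimV.sum {ι : Type} (t : Finset ι) {n : ℤ} {f : ι → ∀ p, (Fin r → s.Lp p)}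
    {w : ι → (Fin r → s.L)} (h : ∀ i ∈ t, IsLimV s n (f i) (w i)) :
    IsLimV s n (fun p => ∑ i ∈ t, f i p) (∑ i ∈ t, w i) := by
  intro c
  have h1 := IsLim.sum (s := s) t (n := n) (f := fun i p => f i p c) (l := fun i => w i c)
    (fun i hi => h i hi c)
  simp only [Finset.sum_apply]
  exact h1

theorem IsLimV.zero_iff {n : ℤ} {f : ∀ p, (Fin r → s.Lp p)} {w : Fin r → s.L} (h : IsLimV s n f w) :
    w = 0 ↔ ∀ᶠ p in (UU : Filter PP), f p = 0 := by
  have e1 : w = 0 ↔ ∀ i, w i = 0 := by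
    constructor
    · intro h i; rw [h]; rfl
    · intro h; funext i; exact h i
  have e2 : (∀ᶠ p in (UU : Filter PP), f p = 0) ↔ ∀ i, ∀ᶠ p in (UU : Filter PP), f p i = 0 := by
    rw [← Filter.eventually_all]
    constructor
    · intro h
      filter_upwards [h] with p hp i
      rw [hp]; rfl
    · intro h
      filter_upwards [h] with p hp
      funext i
      exact hp i
  rw [e1, e2]
  exact forall_congr' fun i => (h i).zero_iff

theorem IsLimV.mem {n : ℤ} {f : ∀ p, (Fin r → s.Lp p)} {w : Fin r → s.L} (h : IsLimV s n f w) :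
    w ∈ Bpow s.D r n :=
  Submodule.mem_pi.2 fun i _ => (h i).mem

theorem exists_limV {n : ℤ} {f : ∀ p, (Fin r → s.Lp p)}
    (hf : ∀ᶠ p in (UU : Filter PP), f p ∈ Bpow (s.Dp p) r n) : ∃ w, IsLimV s n f w := by
  have h1 : ∀ i : Fin r, ∃ l, IsLim s n (fun p => f p i) l := by
    intro i
    refine exists_lim ?_
    filter_upwards [hf] with p hp
    exact (Submodule.mem_pi.1 hp) i (Set.mem_univ i)
  choose w hw using h1
  exact ⟨w, hw⟩

theorem IsLimV.smulB {i n : ℤ} {b : ∀ p, s.Lp p} {l : s.L} (hb : IsLim s i b l)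
    {f : ∀ p, (Fin r → s.Lp p)} {w : Fin r → s.L} (h : IsLimV s n f w) :
    IsLimV s (i + n) (fun p => b p • f p) (l • w) := by
  intro c
  exact hb.mul (h c)

end R169.TR
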