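import Crest.Agent.R169.TR6D3

/-!
# R169_TR6D2: limits of families of subspaces.
`finrank_limS_ge`: a.e. `p` choose `M` independent vectors in `G p` (`0` elsewhere), limits exist (`exists_limV`, `hle`),
independent by `IsLimV.linInd_iff`; `limS_fin`: `limS ≤ Bpow s.D r n`, finite dimensional.
`finrank_limS_le`: if `M < finrank (limS ..)` choose `M+1` independent vectors of `limS`, their lifts lie in `G p` a.e.
and are a.e. independent (`linInd_iff`), so `M + 1 ≤ finrank (G p)` (finite dimensional because `G p ≤ Bpow`).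
`limS_stab`: lift `b ∈ B i` by `exists_lift`, `IsLimV.smulB`.
-/

set_option autoImplicit false

namespace R169.TR
open R169 Filter

variable {s : Sys} {r : ℕ}

/-- limit of a family of subspaces -/
def limS (s : Sys) {r : ℕ} (n : ℤ) (G : ∀ p, Submodule (Kp p) (Fin r → s.Lp p)) :
    Submodule UK (Fin r → s.L) where
  carrier := {w | ∃ f : ∀ p, (Fin r → s.Lp p), (∀ᶠ p in (UU : Filter PP), f p ∈ G p) ∧ IsLimV s n f w}
  add_mem' := by
    rintro w w' ⟨f, hf, h⟩ ⟨f', hf', h'⟩
    refine ⟨_, ?_, h.add h'⟩
    filter_upwards [hf, hf'] with p h1 h2 using Submodule.add_mem _ h1 h2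
  zero_mem' := ⟨_, Eventually.of_forall fun p => Submodule.zero_mem _, isLimV_zero n⟩
  smul_mem' := by
    rintro x w ⟨f, hf, h⟩
    obtain ⟨c, rfl⟩ := cl_surj x
    refine ⟨_, ?_, h.smul c⟩
    filter_upwards [hf] with p h1 using Submodule.smul_mem _ _ h1

theorem limS_le {n : ℤ} (G : ∀ p, Submodule (Kp p) (Fin r → s.Lp p)) : limS s n G ≤ Bpow s.D r n := by
  rintro w ⟨f, _, h⟩
  exact h.mem

private theorem bpow_fin {k L : Type} [Field k] [Field L] [Algebra k L] (D : GD k L) (r : ℕ) (n : ℤ) :
    FiniteDimensional k (Bpow D r n) := by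
  have := D.fin n
  let φ : (Bpow D r n) →ₗ[k] (Fin r → D.B n) :=
    { toFun := fun w j => ⟨w.1 j, w.2 j (Set.mem_univ _)⟩
      map_add' := fun _ _ => rfl
      map_smul' := fun _ _ => rfl }
  refine FiniteDimensional.of_injective φ ?_
  intro w w' h
  apply Subtype.ext
  funext j
  exact congrArg Subtype.val (congrFun h j)

theorem limS_fin {n : ℤ} (G : ∀ p, Submodule (Kp p) (Fin r → s.Lp p)) :
    FiniteDimensional UK (limS s n G) := by
  have := bpow_fin s.D r n
  exact Submodule.finiteDimensional_of_le (limS_le G)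

theorem finrank_limS_ge {n : ℤ} {G : ∀ p, Submodule (Kp p) (Fin r → s.Lp p)}
    (hle : ∀ᶠ p in (UU : Filter PP), G p ≤ Bpow (s.Dp p) r n) (M : ℕ)
    (h : ∀ᶠ p in (UU : Filter PP), M ≤ Module.finrank (Kp p) (G p)) :
    M ≤ Module.finrank UK (limS s n G) := by
  classical
  let v : Fin M → ∀ p, (Fin r → s.Lp p) := fun l p =>
    if hp : M ≤ Module.finrank (Kp p) (G p) then
      ((Classical.choose (exists_linearIndependent_of_le_finrank hp) l : G p) : Fin r → s.Lp p)
    else 0
  have hv : ∀ p, M ≤ Module.finrank (Kp p) (G p) →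
      (∀ l, v l p ∈ G p) ∧ LinearIndependent (Kp p) (fun l => v l p) := by
    intro p hp
    have h1 := Classical.choose_spec (exists_linearIndependent_of_le_finrank hp)
    have e : ∀ l, v l p =
        ((Classical.choose (exists_linearIndependent_of_le_finrank hp) l : G p) :
          Fin r → s.Lp p) := fun l => dif_pos hp
    constructor
    · intro l
      rw [e l]
      exact Subtype.mem _
    · have h2 := h1.map' (G p).subtype (Submodule.ker_subtype _)
      have e' : (fun l => v l p) = (G p).subtype ∘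
          (Classical.choose (exists_linearIndependent_of_le_finrank hp)) := by
        funext l
        rw [e l]
        rfl
      rw [e']
      exact h2
  have hw : ∀ l, ∃ w, IsLimV s n (v l) w := by
    intro l
    apply exists_limV
    filter_upwards [hle, h] with p h1 h2
    exact h1 ((hv p h2).1 l)
  choose w hw using hw
  have hmem : ∀ l, w l ∈ limS s n G := by
    intro l
    refine ⟨v l, ?_, hw l⟩
    filter_upwards [h] with p h2
    exact (hv p h2).1 l
  have hind : LinearIndependent UK w := by
    rw [IsLimV.linInd_iff hw]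
    filter_upwards [h] with p h2
    exact (hv p h2).2
  have := limS_fin (n := n) G
  have hind' : LinearIndependent UK (fun l => (⟨w l, hmem l⟩ : limS s n G)) :=
    LinearIndependent.of_comp (limS s n G).subtype hind
  have hc := hind'.fintype_card_le_finrank
  rwa [Fintype.card_fin] at hc

theorem finrank_limS_le {n : ℤ} {G : ∀ p, Submodule (Kp p) (Fin r → s.Lp p)}
    (hle : ∀ᶠ p in (UU : Filter PP), G p ≤ Bpow (s.Dp p) r n) (M : ℕ)
    (h : ∀ᶠ p in (UU : Filter PP), Module.finrank (Kp p) (G p) ≤ M) :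
    Module.finrank UK (limS s n G) ≤ M := by
  by_contra hcon
  rw [not_le] at hcon
  obtain ⟨w, hw⟩ := exists_linearIndependent_of_le_finrank (R := UK) (M := limS s n G)
    (n := M + 1) hcon
  have hlift : ∀ l, ∃ f : ∀ p, (Fin r → s.Lp p), (∀ᶠ p in (UU : Filter PP), f p ∈ G p) ∧
      IsLimV s n f (w l : Fin r → s.L) := fun l => (w l).2
  choose f hfG hf using hlift
  have hind : LinearIndependent UK (fun l => (w l : Fin r → s.L)) :=
    hw.map' (limS s n G).subtype (Submodule.ker_subtype _)
  rw [IsLimV.linInd_iff hf] at hind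
  have hall : ∀ᶠ p in (UU : Filter PP), ∀ l, f l p ∈ G p := eventually_all.2 hfG
  obtain ⟨p, ⟨⟨h1, h2⟩, h3⟩, h4⟩ := (((hle.and h).and hind).and hall).exists
  have := bpow_fin (s.Dp p) r n
  have hfin : FiniteDimensional (Kp p) (G p) := Submodule.finiteDimensional_of_le h1
  have hind' : LinearIndependent (Kp p) (fun l => (⟨f l p, h4 l⟩ : G p)) :=
    LinearIndependent.of_comp (G p).subtype h3
  have hc := hind'.fintype_card_le_finrank
  rw [Fintype.card_fin] at hc
  omega

theorem limS_stab {G : ∀ p, ℤ → Submodule (Kp p) (Fin r → s.Lp p)}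
    (h : ∀ᶠ p in (UU : Filter PP), Stab (s.Dp p) (G p)) :
    Stab s.D (fun n => limS s n (fun p => G p n)) := by
  intro i n a w ha hw
  obtain ⟨f, hf, hlim⟩ := hw
  obtain ⟨b, hb, hb'⟩ := exists_lift ha
  refine ⟨fun p => b p • f p, ?_, IsLimV.smulB hb hlim⟩
  filter_upwards [hf, h] with p h1 h2
  exact h2 (hb' p) h1

end R169.TR
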