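import Crest.Agent.R169.TR6D1

/-!
# R169_TR6D3: transfer of linear independence.
`linInd_iff` (the important one): `(⇐)` if `∑ x_l w_l = 0` with `x_l = cl c_l` (`cl_surj`) then
`∑ c_l p • v l p = 0` a.e. (`IsLimV.zero_iff`), so `c_l p = 0` a.e., `x_l = 0` (`cl_eq_iff`).
`(⇒)` if not a.e. independent then (ultrafilter) a.e. dependent: choose for these `p` coefficients `c p : Fin M → Kp p`,
not all zero, and an index `l0 p` with `c p (l0 p) ≠ 0`, normalise `c p (l0 p) = 1`; `l0` is constant `= l0` on a set of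
the ultrafilter (`Fin M` finite: `Ultrafilter.finite_biUnion_mem_iff` / `Ultrafilter.eventually_exists_iff`), so
`∑ cl (fun p => c p l) • w l = 0` with `l0`-coefficient `cl 1 = 1 ≠ 0`.
-/

set_option autoImplicit false

namespace R169.TR
open R169 Filter

variable {s : Sys} {r : ℕ}

theorem IsLimV.linInd_iff {M : ℕ} {n : ℤ} {v : Fin M → ∀ p, (Fin r → s.Lp p)} {w : Fin M → (Fin r → s.L)}
    (h : ∀ l, IsLimV s n (v l) (w l)) :
    LinearIndependent UK w ↔ ∀ᶠ p in (UU : Filter PP), LinearIndependent (Kp p) (fun l => v l p) := by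
  classical
  have key : ∀ c : Fin M → ∀ p, Kp p, (∑ l, cl (c l) • w l = 0) ↔
      ∀ᶠ p in (UU : Filter PP), ∑ l, c l p • v l p = 0 := fun c =>
    (IsLimV.sum Finset.univ (fun l _ => (h l).smul (c l))).zero_iff
  constructor
  · intro hw
    by_contra hcon
    rw [← Ultrafilter.eventually_not] at hcon
    have h1 : ∀ᶠ p in (UU : Filter PP), ∃ c : Fin M → Kp p, (∑ l, c l • v l p = 0) ∧ ∃ l0, c l0 = 1 := by
      filter_upwards [hcon] with p hp
      rw [Fintype.not_linearIndependent_iff] at hp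
      obtain ⟨g, hg, l0, hl0⟩ := hp
      refine ⟨fun l => (g l0)⁻¹ * g l, ?_, l0, inv_mul_cancel₀ hl0⟩
      simp_rw [mul_smul, ← Finset.smul_sum, hg, smul_zero]
    let c : ∀ p, Fin M → Kp p := fun p =>
      if h : ∃ c : Fin M → Kp p, (∑ l, c l • v l p = 0) ∧ ∃ l0, c l0 = 1 then h.choose else 0
    have h2 : ∀ᶠ p in (UU : Filter PP), (∑ l, c p l • v l p = 0) ∧ ∃ l0, c p l0 = 1 := by
      filter_upwards [h1] with p hp
      simp only [c, dif_pos hp]
      exact hp.choose_spec
    have h3 : ∃ l0, ∀ᶠ p in (UU : Filter PP), c p l0 = 1 := by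
      have h5 : {p | ∃ l0, c p l0 = 1} ∈ UU := h2.mono (fun p hp => hp.2)
      have h6 : {p | ∃ l0, c p l0 = 1} = ⋃ l0 ∈ (Set.univ : Set (Fin M)), {p | c p l0 = 1} := by
        ext p; simp
      rw [h6, Ultrafilter.finite_biUnion_mem_iff Set.finite_univ] at h5
      obtain ⟨l0, _, h7⟩ := h5
      exact ⟨l0, h7⟩
    obtain ⟨l0, hl0⟩ := h3
    have h4 := (key (fun l p => c p l)).2 (h2.mono fun p hp => hp.1)
    rw [Fintype.linearIndependent_iff] at hw
    have h5 := hw _ h4 l0
    have h6 : cl (fun p => c p l0) = 1 := by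
      rw [← map_one cl, cl_eq_iff]
      filter_upwards [hl0] with p hp
      exact hp
    exact one_ne_zero (h6.symm.trans h5)
  · intro hv
    rw [Fintype.linearIndependent_iff]
    intro g hg l
    choose c hc using fun l => cl_surj (g l)
    have h1 := (key c).1 (by simpa [hc] using hg)
    rw [← hc l, ← map_zero cl, cl_eq_iff]
    filter_upwards [hv, h1] with p hp h1p
    rw [Fintype.linearIndependent_iff] at hp
    exact hp (fun l => c l p) h1p l

end R169.TR
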