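import Crest.Agent.R169.TR5B

/-!
# Row 169, module 3 (TR), part T3: transfer of semistability. Definitions.
-/

set_option autoImplicit false

namespace R169.TR

open R169 Filter

/-- `dim A_n` as a function of `n` (see `finrank_A`) -/
def dA (n : ℤ) : ℕ := if 0 ≤ n then ((n.toNat + 1) * (n.toNat + 2)) / 2 else 0

/-- all single-field facts about the lattice `latOf k η ζ a v` (numerical data uniform in `p`) -/
structure SF {k L : Type} [Field k] [Field L] [Algebra k L] (D : GD k L) (η ζ : L) (r g d : ℕ) (e t : ℤ)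
    (a : Fin g → ℤ) (v : Fin g → (Fin r → L)) (N β γ βB γB : ℚ) : Prop where
  par : Par D η ζ
  hB : HasHP D.B d βB γB
  rho : RhoCert D η ζ d e t
  hr : 0 < r
  lat : IsLat D η ζ (latOf k η ζ a v)
  refl : IsRefl (k := k) η ζ (latOf k η ζ a v)
  span : lspan L (latOf k η ζ a v) = ⊤
  le : ∀ n, latOf k η ζ a v n ≤ Bpow D r n
  hp : HasHP (latOf k η ζ a v) N β γ

/-- the finitely many possible invariants `(N1, β1)` of a destabilising subspace -/
def pairs (r d : ℕ) (t : ℤ) (N β : ℚ) : Set (ℚ × ℚ) :=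
  {x : ℚ × ℚ | (∃ r1 : ℕ, r1 ≤ r ∧ x.1 = d * r1) ∧ (∃ z : ℤ, x.1 / 2 - x.2 = z) ∧
      -((t : ℚ) + 3 / 2) * x.1 ≤ x.2 ∧ x.2 * N ≤ β * x.1}

/-- what we know about a destabilising subspace of minimal slope (with uniform bounds) -/
structure Dest {k L : Type} [Field k] [Field L] [Algebra k L] (r g d : ℕ) (e t : ℤ)
    (a : Fin g → ℤ) (N β γ βB : ℚ) (E : ℤ → Submodule k (Fin r → L)) (V : Submodule L (Fin r → L))
    (N1 β1 γ1 : ℚ) : Prop where
  hp : HasHP (sat E V) N1 β1 γ1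
  pos : 0 < N1
  lt : β1 * N < β * N1
  mem : (N1, β1) ∈ pairs r d t N β
  sec : ∀ n : ℤ, β1 / N1 < βB / d + n + 3 - (((d : ℤ) - 1) * (2 * e + t) + 2 * e : ℤ) →
    N1 / 2 * (n : ℚ) ^ 2 - β1 * n + γ1 ≤ Module.finrank k (sat E V n)
  gam : ∀ n : ℤ, (n : ℚ) < β1 / N1 - βB / d →
    γ - γ1 ≤ (∑ j, dA (a j - n - 3) : ℕ) - (N - N1) / 2 * (n : ℚ) ^ 2 + (β - β1) * n
  upp : ∀ n, (Module.finrank k (sat E V n) : ℚ) ≤ N1 * dA (n + t)

end R169.TR
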