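import Crest.Agent.R169.TR6A
import Crest.Agent.R169.TR6B
import Crest.Agent.R169.TR6C

/-!
# R169_TR6E: assembly of the single-field part: a lattice with `SF` which is not semistable has a destabilising
subspace with uniform bounds (`Dest`).
`exists_destab`, `rank_sat` + `Submodule.finrank_le` (`r1 = finrank V ≤ r`), `int_sat`, `bound_sat`, `finrank_A`
(`dA`), `sec_lower` (with `RhoCert.linShift`, `IsRefl.dep2`), `gamma_lower`.
-/

set_option autoImplicit false

namespace R169.TR
open R169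

variable {k L : Type} [Field k] [Field L] [Algebra k L] {D : GD k L} {η ζ : L}

theorem exists_dest {r g d : ℕ} {e t : ℤ} {a : Fin g → ℤ} {v : Fin g → (Fin r → L)} {N β γ βB γB : ℚ}
    (h : SF D η ζ r g d e t a v N β γ βB γB) (hns : ¬ Semistable L (latOf k η ζ a v) N β) :
    ∃ V, V ≠ ⊥ ∧ ∃ N1 β1 γ1, Dest r g d e t a N β γ βB (latOf k η ζ a v) V N1 β1 γ1 := by
  obtain ⟨V, N1, β1, γ1, hm, hpos, hlt⟩ := exists_destab h.hr h.par h.lat h.span h.hp hns
  obtain ⟨hup, hlow⟩ := bound_sat h.par h.rho h.lat h.le V hm.2.1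
  refine ⟨V, hm.1, N1, β1, γ1, ⟨hm.2.1, hpos, hlt, ⟨?_, ?_, hlow, hlt.le⟩, ?_, ?_, ?_⟩⟩
  · obtain ⟨-, h2⟩ := rank_sat h.par h.hB h.lat h.span V hm.2.1
    refine ⟨Module.finrank L V, ?_, h2⟩
    have h3 := Submodule.finrank_le V
    rwa [Module.finrank_fin_fun] at h3
  · exact int_sat h.par h.lat V hm.2.1
  · intro n hn
    exact sec_lower h.par h.hB (h.rho.linShift h.par) h.lat h.span
      (h.refl.dep2 h.par.indep (h.lat.toPLat h.par)) hm n hn
  · intro n hn
    exact gamma_lower h.par h.hB a v h.lat h.span h.hp hm n hn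
  · intro n
    have h4 := hup n
    rw [finrank_A h.par.indep] at h4
    exact h4

end R169.TR
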