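import Crest.Agent.R169.TR6D2
import Crest.Agent.R169.TR6Defs

/-!
# R169_TR6F2: the limit of the destabilising sublattices.
-/

set_option autoImplicit false

namespace R169.TR
open R169 Filter

/-- the limit of the destabilising sublattices. `G p := sat (Ep p) (V p)`, `Vn n := limS s n (fun p => G p n)`.
`gam` at a fixed integer `n₁ < β1/N1 - βB/d` gives a uniform lower bound `c0 ≤ γ1 p`; `sec` then gives for all `n ≥ n0`
(`n0` from `β1/N1 < βB/d + n + 3 - ..`) `N1/2 n² - β1 n + c0 ≤ dim G_p n` a.e., so the same for `Vn n`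
(`finrank_limS_ge` with `M = ⌈..⌉`); `upp` gives `dim Vn n ≤ N1 * dA (n + t)` (`finrank_limS_le` with `M = ⌊..⌋`).
`Vn n ≤ E n` by `Red.lim`; `Stab`: `limS_stab` (`sat` of a stable family is stable: `IsLat.sat`, `IsLat.stab`). -/
theorem limit_sub {s : Sys} {η ζ : s.L} {r g d : ℕ} {E : ℤ → Submodule UK (Fin r → s.L)} {N β γ βB γB : ℚ}
    {ηp ζp : ∀ p, s.Lp p} {a : Fin g → ℤ} {e : Fin g → (Fin r → s.L)} {ep : ∀ p, Fin g → (Fin r → s.Lp p)}
    {e0 t0 : ℤ} (hred : Red s η ζ r E d βB γB ηp ζp g a e ep e0 t0) {N1 β1 : ℚ}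
    (h : ∀ᶠ p in (UU : Filter PP), ∃ V, V ≠ ⊥ ∧ ∃ γ1,
      Dest r g d e0 t0 a N β γ βB (latOf (Kp p) (ηp p) (ζp p) a (ep p)) V N1 β1 γ1) :
    ∃ (Vn : ℤ → Submodule UK (Fin r → s.L)) (n0 : ℤ) (c0 : ℚ), Stab s.D Vn ∧ (∀ n, Vn n ≤ E n) ∧
      (∀ n : ℤ, n0 ≤ n → N1 / 2 * (n : ℚ) ^ 2 - β1 * n + c0 ≤ Module.finrank UK (Vn n)) ∧
      (∀ n : ℤ, n0 ≤ n → (Module.finrank UK (Vn n) : ℚ) ≤ N1 * dA (n + t0)) := by
  classical
  -- choose the destabilising subspaces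
  have hch : ∀ p, ∃ (V : Submodule (s.Lp p) (Fin r → s.Lp p)) (γ1 : ℚ),
      (∃ V, V ≠ ⊥ ∧ ∃ γ1, Dest r g d e0 t0 a N β γ βB
        (latOf (Kp p) (ηp p) (ζp p) a (ep p)) V N1 β1 γ1) →
      Dest r g d e0 t0 a N β γ βB (latOf (Kp p) (ηp p) (ζp p) a (ep p)) V N1 β1 γ1 := by
    intro p
    by_cases hp : ∃ V, V ≠ ⊥ ∧ ∃ γ1, Dest r g d e0 t0 a N β γ βB
        (latOf (Kp p) (ηp p) (ζp p) a (ep p)) V N1 β1 γ1
    · obtain ⟨V, _, γ1, h1⟩ := hp
      exact ⟨V, γ1, fun _ => h1⟩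
    · exact ⟨⊥, 0, fun h => absurd h hp⟩
  choose V γ1 hV using hch
  have hD : ∀ᶠ p in (UU : Filter PP), Dest r g d e0 t0 a N β γ βB
      (latOf (Kp p) (ηp p) (ζp p) a (ep p)) (V p) N1 β1 (γ1 p) := by
    filter_upwards [h] with p hp using hV p hp
  obtain ⟨p0, hp0⟩ := hD.exists
  have hN1 : 0 < N1 := hp0.pos
  set G : ∀ p, ℤ → Submodule (Kp p) (Fin r → s.Lp p) := fun p =>
    sat (latOf (Kp p) (ηp p) (ζp p) a (ep p)) (V p) with hG
  have hGB : ∀ n, ∀ᶠ p in (UU : Filter PP), G p n ≤ Bpow (s.Dp p) r n := by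
    intro n
    filter_upwards [hred.inB] with p hp
    exact inf_le_left.trans (hp n)
  set n1 : ℤ := ⌈β1 / N1 - βB / d⌉ - 1 with hn1
  have hn1' : (n1 : ℚ) < β1 / N1 - βB / d := by
    have := Int.ceil_lt_add_one (β1 / N1 - βB / d)
    rw [hn1]
    push_cast
    linarith
  set C : ℤ := ((d : ℤ) - 1) * (2 * e0 + t0) + 2 * e0 with hC
  set n0 : ℤ := ⌈β1 / N1 - βB / d - 3 + C⌉ + 1 with hn0
  refine ⟨fun n => limS s n (fun p => G p n), n0,
    γ - ((∑ j, dA (a j - n1 - 3) : ℕ) - (N - N1) / 2 * (n1 : ℚ) ^ 2 + (β - β1) * n1), ?_, ?_, ?_, ?_⟩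
  · refine limS_stab (G := G) ?_
    filter_upwards [hred.lat, hred.par] with p hp hp2
    exact (IsLat.sat hp2 hp (V p)).stab
  · rintro n w ⟨f, hf, hfw⟩
    refine (hred.lim n f w hfw).2 ?_
    filter_upwards [hf] with p hp
    exact (Submodule.mem_inf.1 hp).1
  · intro n hn
    have hn' : β1 / N1 < βB / d + n + 3 - (((d : ℤ) - 1) * (2 * e0 + t0) + 2 * e0 : ℤ) := by
      have h1 := Int.le_ceil (β1 / N1 - βB / d - 3 + C)
      have h2 : (n0 : ℚ) ≤ n := by exact_mod_cast hn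
      rw [hn0] at h2
      push_cast at h2
      rw [← hC]
      linarith
    have hlow : ∀ᶠ p in (UU : Filter PP), ⌈N1 / 2 * (n : ℚ) ^ 2 - β1 * n +
        (γ - ((∑ j, dA (a j - n1 - 3) : ℕ) - (N - N1) / 2 * (n1 : ℚ) ^ 2 + (β - β1) * n1))⌉₊ ≤
        Module.finrank (Kp p) (G p n) := by
      filter_upwards [hD] with p hp
      have h1 := hp.sec n hn'
      have h2 := hp.gam n1 hn1'
      refine Nat.ceil_le.2 (le_trans ?_ h1)
      linarith
    have h3 := finrank_limS_ge (hGB n) _ hlow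
    exact (Nat.le_ceil _).trans (by exact_mod_cast h3)
  · intro n _
    have h0 : (0 : ℚ) ≤ N1 * dA (n + t0) := mul_nonneg hN1.le (Nat.cast_nonneg _)
    have hup : ∀ᶠ p in (UU : Filter PP), Module.finrank (Kp p) (G p n) ≤
        ⌊N1 * dA (n + t0)⌋₊ := by
      filter_upwards [hD] with p hp
      exact Nat.le_floor (hp.upp n)
    have h3 := finrank_limS_le (hGB n) _ hup
    exact le_trans (by exact_mod_cast h3) (Nat.floor_le h0)

end R169.TR
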