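import Crest.Agent.R169.TR6F1

/-!
# R169_TR6F3: contradiction over `UK`.
-/

set_option autoImplicit false

namespace R169.TR
open R169 Filter

/-- contradiction over `UK`: `Vn` is a lattice (`IsLat.sub`), `HasHP Vn N2 β2 γ2`, by `quad_compare` `N2 = N1`,
`β2 ≤ β1`; `V := lspan Vn`, `HasHP (sat E V) N3 β3 γ3`; `N3 = N2` (`IsLat.rank` for `Vn` and for `sat E V`, `lspan_sat`),
`β3 ≤ β2` (`HasHP.beta_le`); `V ≠ ⊥` since `N1 > 0`; semistability of `E`: `β * N3 ≤ β3 * N`, contradiction with `hlt`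
(`N > 0` from `IsLat.rank`). -/
theorem contra_sub {k L : Type} [Field k] [Field L] [Algebra k L] {D : GD k L} {η ζ : L}
    (hP : Par D η ζ) {r : ℕ} (hr : 0 < r) {E : ℤ → Submodule k (Fin r → L)} (hE : IsLat D η ζ E)
    (hs : lspan L E = ⊤) {N β γ : ℚ} (hh : HasHP E N β γ) (hss : Semistable L E N β)
    {Vn : ℤ → Submodule k (Fin r → L)} (hst : Stab D Vn) (hle : ∀ n, Vn n ≤ E n) {N1 β1 c0 : ℚ} {t n0 : ℤ}
    (hN1 : 0 < N1) (hlt : β1 * N < β * N1)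
    (h1 : ∀ n : ℤ, n0 ≤ n → N1 / 2 * (n : ℚ) ^ 2 - β1 * n + c0 ≤ Module.finrank k (Vn n))
    (h2 : ∀ n : ℤ, n0 ≤ n → (Module.finrank k (Vn n) : ℚ) ≤ N1 * dA (n + t)) : False := by
  have hV : IsLat D η ζ Vn := IsLat.sub hP hE hle hst
  obtain ⟨N2, β2, γ2, hH2, -, -⟩ := (hV.toPLat hP).hasHP
  obtain ⟨n2, hn2⟩ := id hH2
  obtain ⟨hNN, hββ⟩ := quad_compare (N1 := N1) (β1 := β1) (c1 := c0) (N2 := N2) (β2 := β2)
    (c2 := γ2) (C := 0) (t := t) (n0 := max n0 n2)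
    (fun n hn => by
      rw [← hn2 n ((le_max_right _ _).trans hn)]
      exact h1 n ((le_max_left _ _).trans hn))
    (fun n hn => by
      rw [← hn2 n ((le_max_right _ _).trans hn)]
      exact h2 n ((le_max_left _ _).trans hn))
  obtain ⟨dB, βB, γB, hB, -, -⟩ := ((isLat_B hP).toPLat hP).hasHP
  have hsat : IsLat D η ζ (sat E (lspan L Vn)) := IsLat.sat hP hE _
  obtain ⟨N3, β3, γ3, hH3, -, -⟩ := (hsat.toPLat hP).hasHP
  obtain ⟨hd, hr2⟩ := hV.rank hP hB hH2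
  obtain ⟨-, hr3⟩ := hsat.rank hP hB hH3
  obtain ⟨-, hrE⟩ := hE.rank hP hB hh
  rw [lspan_sat hE hs] at hr3
  have h32 : (N3 : ℚ) = N2 := by rw [hr3, hr2]
  have hβ32 : β3 ≤ β2 := by
    refine HasHP.beta_le (E := sat E (lspan L Vn)) (E' := Vn) (N := N3) (fun n w hw => ?_) hsat.fin
      hH3 (by rw [h32]; exact hH2)
    exact ⟨hle n hw, Submodule.subset_span (Set.mem_iUnion.2 ⟨n, hw⟩)⟩
  have hVne : lspan L Vn ≠ ⊥ := by
    intro h
    rw [h, finrank_bot, Nat.cast_zero, mul_zero] at hr2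
    rw [hr2] at hNN
    linarith
  have hss' := hss _ hVne _ _ _ hH3
  have hN : 0 < N := by
    rw [hrE, hs, finrank_top, Module.finrank_fin_fun]
    have : (0 : ℚ) < r := by exact_mod_cast hr
    positivity
  have e1 : (N3 : ℚ) = N1 := by rw [h32, hNN]
  rw [e1] at hss'
  nlinarith

end R169.TR
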