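import Crest.Agent.R169.TR6E
import Crest.Agent.R169.TR6F2
import Crest.Agent.R169.TR6F3
import Crest.Agent.R169.TR6A3

/-!
# R169_TR6F: transfer of semistability.
-/

set_option autoImplicit false

namespace R169.TR
open R169 Filter

/-- `Red` gives `SF` at a.e. `p` (`hp`: finrank equal for all `n`) -/
theorem Red.sf {s : Sys} {η ζ : s.L} {r g d : ℕ} {E : ℤ → Submodule UK (Fin r → s.L)} {N β γ βB γB : ℚ}
    (hr : 0 < r) (hh : HasHP E N β γ)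
    {ηp ζp : ∀ p, s.Lp p} {a : Fin g → ℤ} {e : Fin g → (Fin r → s.L)} {ep : ∀ p, Fin g → (Fin r → s.Lp p)}
    {e0 t0 : ℤ} (hred : Red s η ζ r E d βB γB ηp ζp g a e ep e0 t0) :
    ∀ᶠ p in (UU : Filter PP), SF (s.Dp p) (ηp p) (ζp p) r g d e0 t0 a (ep p) N β γ βB γB := by
  filter_upwards [hred.par, hred.hp, hred.rho, hred.lat, hred.refl, hred.span, hred.inB, hred.fin]
    with p h1 h2 h3 h4 h5 h6 h7 h8
  refine ⟨h1, h2, h3, hr, h4, h5, h6, h7, ?_⟩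
  obtain ⟨n0, h0⟩ := hh
  refine ⟨n0, fun n hn => ?_⟩
  rw [h8 n]
  exact h0 n hn

theorem semistable_transfer {s : Sys} {η ζ : s.L} (hP : Par s.D η ζ) {r g d : ℕ} (hr : 0 < r)
    {E : ℤ → Submodule UK (Fin r → s.L)} (hE : IsLat s.D η ζ E) (hs : lspan s.L E = ⊤)
    {N β γ βB γB : ℚ} (hN : 0 < N) (hh : HasHP E N β γ) (hss : Semistable s.L E N β)
    {ηp ζp : ∀ p, s.Lp p} {a : Fin g → ℤ} {e : Fin g → (Fin r → s.L)} {ep : ∀ p, Fin g → (Fin r → s.Lp p)}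
    {e0 t0 : ℤ} (hred : Red s η ζ r E d βB γB ηp ζp g a e ep e0 t0) :
    ∀ᶠ p in (UU : Filter PP),
      Semistable (s.Lp p) (latOf (Kp p) (ηp p) (ζp p) a (ep p)) N β := by
  by_contra hcon
  rw [← Ultrafilter.eventually_not] at hcon
  have h1 : ∀ᶠ p in (UU : Filter PP), ∃ x ∈ pairs r d t0 N β, ∃ V, V ≠ ⊥ ∧ ∃ γ1,
      Dest r g d e0 t0 a N β γ βB (latOf (Kp p) (ηp p) (ζp p) a (ep p)) V x.1 x.2 γ1 := by
    filter_upwards [hcon, hred.sf hr hh] with p hp hsf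
    obtain ⟨V, hV, N1, β1, γ1, hd⟩ := exists_dest hsf hp
    exact ⟨(N1, β1), hd.mem, V, hV, γ1, hd⟩
  obtain ⟨x, hx, h2⟩ := pigeon (pairs_finite r d t0 N β hN) h1
  obtain ⟨Vn, n0, c0, hst, hle, h3, h4⟩ := limit_sub hred h2
  obtain ⟨p, V, hV, γ1, hd⟩ := h2.exists
  exact contra_sub hP hr hE hs hh hss hst hle hd.pos hd.lt h3 h4

end R169.TR
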