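import Crest.Agent.R169.TR6Defs

/-!
# R169_TR6F1: comparison of quadratic polynomials, ultrafilter pigeonhole.
-/

set_option autoImplicit false

namespace R169.TR
open R169 Filter

private theorem lin_le {b c : ℚ} {n0 : ℤ} (h : ∀ n : ℤ, n0 ≤ n → b * (n : ℚ) + c ≤ 0) : b ≤ 0 := by
  by_contra hb
  push Not at hb
  have h1 := h (max n0 (⌈|c| / b⌉ + 1)) (le_max_left _ _)
  have h2 : |c| / b + 1 ≤ ((max n0 (⌈|c| / b⌉ + 1) : ℤ) : ℚ) := by
    have : ((⌈|c| / b⌉ + 1 : ℤ) : ℚ) ≤ ((max n0 (⌈|c| / b⌉ + 1) : ℤ) : ℚ) := by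
      exact_mod_cast le_max_right _ _
    push_cast at this ⊢
    linarith [Int.le_ceil (|c| / b)]
  have h3 : |c| + b ≤ b * ((max n0 (⌈|c| / b⌉ + 1) : ℤ) : ℚ) := by
    have := mul_le_mul_of_nonneg_left h2 hb.le
    rw [mul_add, mul_div_cancel₀ _ hb.ne', mul_one] at this
    exact this
  linarith [neg_abs_le c]

private theorem quad_le {a b c : ℚ} {n0 : ℤ}
    (h : ∀ n : ℤ, n0 ≤ n → a * (n : ℚ) ^ 2 + b * (n : ℚ) + c ≤ 0) : a ≤ 0 := by
  refine lin_le (c := -(|b| + |c|)) (n0 := max n0 1) fun n hn => ?_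
  have h1 := h n (le_trans (le_max_left _ _) hn)
  have h2 : (1 : ℚ) ≤ n := by exact_mod_cast le_trans (le_max_right _ _) hn
  have h3 : -(|b|) * (n : ℚ) ≤ b * n := mul_le_mul_of_nonneg_right (neg_abs_le b) (by linarith)
  have h4 : |c| ≤ |c| * n := le_mul_of_one_le_right (abs_nonneg c) h2
  have h5 : (a * n - (|b| + |c|)) * n ≤ 0 := by nlinarith [neg_abs_le c]
  by_contra h6
  push Not at h6
  have : 0 < (a * n - (|b| + |c|)) * n := mul_pos (by linarith) (by linarith)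
  linarith

private theorem dA_cast {n : ℤ} (hn : 0 ≤ n) : (dA n : ℚ) = ((n : ℚ) + 1) * (n + 2) / 2 := by
  obtain ⟨m, rfl⟩ := Int.eq_ofNat_of_zero_le hn
  simp only [dA, hn, if_true, Int.toNat_natCast]
  have : 2 ∣ (m + 1) * (m + 2) := (Nat.even_mul_succ_self (m + 1)).two_dvd
  rw [Nat.cast_div this (by norm_num)]
  push_cast
  ring

/-- comparison of quadratic polynomials. First `N1 ≤ N2` and `N2 ≤ N1` (divide by `n²`, `n → ∞`), then `β2 ≤ β1`
(divide by `n`). -/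
theorem quad_compare {N1 β1 c1 N2 β2 c2 C : ℚ} {t n0 : ℤ}
    (h1 : ∀ n : ℤ, n0 ≤ n → N1 / 2 * (n : ℚ) ^ 2 - β1 * n + c1 ≤ N2 / 2 * (n : ℚ) ^ 2 - β2 * n + c2)
    (h2 : ∀ n : ℤ, n0 ≤ n → N2 / 2 * (n : ℚ) ^ 2 - β2 * n + c2 ≤ N1 * dA (n + t)) :
    N2 = N1 ∧ β2 ≤ β1 := by
  have e1 : N1 ≤ N2 := by
    have := quad_le (a := N1 / 2 - N2 / 2) (b := β2 - β1) (c := c1 - c2) (n0 := n0) fun n hn => by
      have := h1 n hn
      nlinarith
    linarith
  have e2 : N2 ≤ N1 := by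
    have := quad_le (a := N2 / 2 - N1 / 2) (b := -β2 - N1 * (2 * t + 3) / 2)
        (c := c2 - N1 * ((t + 1) * (t + 2)) / 2) (n0 := max n0 (-t)) fun n hn => by
      have h3 := h2 n (le_trans (le_max_left _ _) hn)
      have h4 : 0 ≤ n + t := by linarith [le_trans (le_max_right _ _) hn]
      rw [dA_cast h4] at h3
      push_cast at h3
      nlinarith
    linarith
  have e3 : N2 = N1 := le_antisymm e2 e1
  refine ⟨e3, ?_⟩
  have := lin_le (b := β2 - β1) (c := c1 - c2) (n0 := n0) fun n hn => by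
    have := h1 n hn
    rw [e3] at this
    nlinarith
  linarith

/-- ultrafilter pigeonhole for a finite set (`Ultrafilter.finite_biUnion_mem_iff`) -/
theorem pigeon {α : Type} {F : Set α} (hF : F.Finite) {P : PP → α → Prop}
    (h : ∀ᶠ p in (UU : Filter PP), ∃ x ∈ F, P p x) : ∃ x ∈ F, ∀ᶠ p in (UU : Filter PP), P p x := by
  have h' : (⋃ x ∈ F, {p | P p x}) ∈ UU := by
    refine Filter.mem_of_superset h fun p hp => ?_
    obtain ⟨x, hx, hP⟩ := hp
    exact Set.mem_biUnion hx hP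
  obtain ⟨x, hx, hP⟩ := (Ultrafilter.finite_biUnion_mem_iff hF).mp h'
  exact ⟨x, hx, hP⟩

end R169.TR
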