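import Crest.Agent.R169.TR7A1

/-!
# R169_TR7A: scaling and shifting a lattice in `L^r` into `B^r`.

`scl b c E n = b • E (n - c)`.
Bookkeeping: multiplication by `b ≠ 0` is an `L`-linear automorphism of `L^r`.
HP: `HasHP.shift` with `-c`.
-/

set_option autoImplicit false

namespace R169.TR
open R169

variable {k L : Type} [Field k] [Field L] [Algebra k L] {D : GD k L} {η ζ : L} {r : ℕ}

/-- scaled and shifted family -/
def scl (b : L) (c : ℤ) (E : ℤ → Submodule k (Fin r → L)) (n : ℤ) : Submodule k (Fin r → L) :=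
  sm b (E (n - c))

private theorem mem_scl' {E : ℤ → Submodule k (Fin r → L)} {b : L} {c n : ℤ} {w : Fin r → L} :
    w ∈ scl b c E n ↔ ∃ w' ∈ E (n - c), b • w' = w := Iff.rfl

private theorem mem_scl {E : ℤ → Submodule k (Fin r → L)} {b : L} (hb : b ≠ 0) {c n : ℤ}
    {w : Fin r → L} : w ∈ scl b c E n ↔ b⁻¹ • w ∈ E (n - c) := by
  rw [mem_scl']
  constructor
  · rintro ⟨w', hw', rfl⟩
    rwa [smul_smul, inv_mul_cancel₀ hb, one_smul]
  · intro h
    exact ⟨_, h, by rw [smul_smul, mul_inv_cancel₀ hb, one_smul]⟩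

private theorem finrank_scl {E : ℤ → Submodule k (Fin r → L)} {b : L} (hb : b ≠ 0) (c n : ℤ) :
    Module.finrank k (scl b c E n) = Module.finrank k (E (n - c)) := by
  have hinj : Function.Injective (Algebra.lsmul k k (Fin r → L) b) := by
    intro x y h
    have h' : b • x = b • y := h
    exact smul_right_injective _ hb h'
  exact ((E (n - c)).equivMapOfInjective (Algebra.lsmul k k (Fin r → L) b) hinj).finrank_eq.symm

theorem scl_le {E : ℤ → Submodule k (Fin r → L)} {b : L} {c : ℤ}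
    (h : ∀ n w, w ∈ E n → b • w ∈ Bpow D r (n + c)) (n : ℤ) : scl b c E n ≤ Bpow D r n := by
  intro w hw
  obtain ⟨w', hw', rfl⟩ := mem_scl'.mp hw
  have := h _ _ hw'
  rwa [sub_add_cancel] at this

theorem scl_isLat {E : ℤ → Submodule k (Fin r → L)} (hE : IsLat D η ζ E) {b : L} (hb : b ≠ 0) (c : ℤ) :
    IsLat D η ζ (scl b c E) := by
  have h1 := (IsLat.shift hE (-c)).map (LinearMap.lsmul L (Fin r → L) b)
  have e1 : scl b c E = fun n =>
      (E (n + -c)).map ((LinearMap.lsmul L (Fin r → L) b).restrictScalars k) := by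
    funext n
    rw [scl, sm, sub_eq_add_neg]
    rfl
  rw [e1]
  exact h1

theorem scl_lspan {E : ℤ → Submodule k (Fin r → L)} {b : L} (hb : b ≠ 0) (c : ℤ) (hs : lspan L E = ⊤) :
    lspan L (scl b c E) = ⊤ := by
  rw [eq_top_iff, ← hs]
  unfold lspan
  rw [Submodule.span_le]
  intro w hw
  obtain ⟨n, hn⟩ := Set.mem_iUnion.mp hw
  have h1 : b • w ∈ scl b c E (n + c) := by
    rw [mem_scl']
    exact ⟨w, by rw [add_sub_cancel_right]; exact hn, rfl⟩
  have h2 : b • w ∈ Submodule.span L (⋃ n, (scl b c E n : Set (Fin r → L))) :=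
    Submodule.subset_span (Set.mem_iUnion.mpr ⟨n + c, h1⟩)
  have h3 := Submodule.smul_mem _ b⁻¹ h2
  rwa [smul_smul, inv_mul_cancel₀ hb, one_smul] at h3

theorem scl_refl {E : ℤ → Submodule k (Fin r → L)} {b : L} (hb : b ≠ 0) (c : ℤ)
    (hr : IsRefl (k := k) η ζ E) : IsRefl (k := k) η ζ (scl b c E) := by
  intro n w hw
  rw [mem_scl hb]
  apply hr
  intro π hπ
  obtain ⟨s, F, hF, hπF, hm⟩ := hw π hπ
  refine ⟨s, F, hF, hπF, ?_⟩
  rw [mem_scl hb] at hm
  rw [smul_comm]
  have e : n - c + (s : ℤ) = n + s - c := by ring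
  rw [e]
  exact hm

/-- `sat (scl b c E) V n = b • sat E V (n - c)` -/
theorem sat_scl {E : ℤ → Submodule k (Fin r → L)} {b : L} (hb : b ≠ 0) (c : ℤ)
    (V : Submodule L (Fin r → L)) (n : ℤ) : sat (scl b c E) V n = scl b c (sat E V) n := by
  ext w
  rw [mem_scl hb]
  unfold sat
  rw [Submodule.mem_inf, Submodule.mem_inf, mem_scl hb, Submodule.restrictScalars_mem,
    Submodule.restrictScalars_mem, Submodule.smul_mem_iff V (inv_ne_zero hb)]

theorem scl_hp {E : ℤ → Submodule k (Fin r → L)} {b : L} (hb : b ≠ 0) (c : ℤ) {N β γ : ℚ} :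
    HasHP E N β γ ↔ HasHP (scl b c E) N (β + N * c) (N / 2 * c ^ 2 + β * c + γ) := by
  constructor
  · rintro ⟨n0, h⟩
    refine ⟨n0 + c, fun n hn => ?_⟩
    rw [finrank_scl hb, h (n - c) (by omega)]
    push_cast
    ring
  · rintro ⟨n0, h⟩
    refine ⟨n0 - c, fun n hn => ?_⟩
    have h1 := h (n + c) (by omega)
    rw [finrank_scl hb, add_sub_cancel_right] at h1
    rw [h1]
    push_cast
    ring

theorem scl_semistable {E : ℤ → Submodule k (Fin r → L)} {b : L} (hb : b ≠ 0) (c : ℤ) {N β : ℚ}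
    (hss : Semistable L E N β) : Semistable L (scl b c E) N (β + N * c) := by
  intro V hV N' β' γ' hh
  have e : sat (scl b c E) V = scl b c (sat E V) := by
    funext n
    exact sat_scl hb c V n
  rw [e] at hh
  have hh' : HasHP (scl b c (sat E V)) N' ((β' - N' * c) + N' * c)
      (N' / 2 * c ^ 2 + (β' - N' * c) * c + (γ' - N' / 2 * c ^ 2 - (β' - N' * c) * c)) := by
    have e1 : (β' - N' * c) + N' * c = β' := by ring
    have e2 : N' / 2 * (c : ℚ) ^ 2 + (β' - N' * c) * c + (γ' - N' / 2 * c ^ 2 - (β' - N' * c) * c) = γ' := by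
      ring
    rw [e1, e2]
    exact hh
  have h1 := hss V hV _ _ _ ((scl_hp hb c).mpr hh')
  linarith

end R169.TR
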