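import Crest.Agent.R169.LatAPI
import Crest.Agent.R169.FrobGen

/-!
# R169_TR7A1: scaling a lattice into `B^r`.
`exists_scale`: `E` is generated by the finite dimensional pieces `E n`, `n0 ≤ n ≤ n1`
(`bdd`, `gen`): choose bases, their coordinates are quotients of elements of `⋃ B n` (`GD.frac`), take the product `b` of all
denominators and `c` large: `b • w ∈ Bpow D r (n + c)` for `w ∈ E n`, `n ≤ n1`; for `n > n1` induction with `gen`
(`η ∈ B 1`, `ζ ∈ B 1`, `D.mul_mem`, `GD.mono`).
-/

set_option autoImplicit false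

namespace R169.TR
open R169

variable {k L : Type} [Field k] [Field L] [Algebra k L] {D : GD k L} {η ζ : L} {r : ℕ}

private theorem prod_mem_B (D : GD k L) {ι : Type} (t : Finset ι) (b : ι → L) (N : ι → ℤ)
    (hb : ∀ q ∈ t, b q ∈ D.B (N q)) : ∏ q ∈ t, b q ∈ D.B (∑ q ∈ t, N q) := by
  classical
  induction t using Finset.induction_on with
  | empty =>
    rw [Finset.prod_empty, Finset.sum_empty, D.zero]
    exact Submodule.mem_span_singleton_self _
  | insert q t hq ih =>
    rw [Finset.prod_insert hq, Finset.sum_insert hq]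
    exact D.mul_mem (hb q (Finset.mem_insert_self q t))
      (ih fun q' hq' => hb q' (Finset.mem_insert_of_mem hq'))

theorem exists_scale (hP : Par D η ζ) {E : ℤ → Submodule k (Fin r → L)} (hE : IsLat D η ζ E) :
    ∃ (b : L) (c : ℤ), b ≠ 0 ∧ ∀ n w, w ∈ E n → b • w ∈ Bpow D r (n + c) := by
  classical
  obtain ⟨s, w, c, hw, hEg⟩ := hE.exists_gens hP
  have hfr : ∀ (i : Fin s) (j : Fin r), ∃ n, ∃ a ∈ D.B n, ∃ b ∈ D.B n, b ≠ 0 ∧ w i j = a / b :=
    fun i j => D.frac (w i j)
  choose N a ha b hb hb0 hab using hfr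
  set M : ℤ := ∑ q : Fin s × Fin r, N q.1 q.2 with hM
  set B0 : L := ∏ q : Fin s × Fin r, b q.1 q.2 with hB0
  have hB0ne : B0 ≠ 0 := Finset.prod_ne_zero_iff.2 fun q _ => hb0 q.1 q.2
  have key : ∀ i j, B0 * w i j ∈ D.B M := by
    intro i j
    have h1 : B0 = b i j * ∏ q ∈ Finset.univ.erase (i, j), b q.1 q.2 :=
      (Finset.mul_prod_erase Finset.univ (fun q : Fin s × Fin r => b q.1 q.2)
        (Finset.mem_univ (i, j))).symm
    have h2 : M = ∑ q ∈ Finset.univ.erase (i, j), N q.1 q.2 + N i j :=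
      (Finset.sum_erase_add Finset.univ (fun q : Fin s × Fin r => N q.1 q.2)
        (Finset.mem_univ (i, j))).symm
    have h3 : B0 * w i j = (∏ q ∈ Finset.univ.erase (i, j), b q.1 q.2) * a i j := by
      rw [h1, hab i j]
      have := hb0 i j
      field_simp
    rw [h3, h2]
    exact D.mul_mem (prod_mem_B D _ (fun q : Fin s × Fin r => b q.1 q.2) (fun q => N q.1 q.2)
      fun q _ => hb q.1 q.2) (ha i j)
  obtain ⟨C, hC⟩ := Finite.exists_le (fun i => M - c i)
  refine ⟨B0, C, hB0ne, fun n x hx => ?_⟩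
  rw [hEg] at hx
  have hle : gens D w c n ≤ (Bpow D r (n + C)).comap (Algebra.lsmul k k (Fin r → L) B0) := by
    unfold gens
    refine iSup_le fun i => ?_
    intro y hy
    obtain ⟨β, hβ, rfl⟩ := mem_mulg.1 hy
    show B0 • (β • w i) ∈ Bpow D r (n + C)
    unfold Bpow
    rw [Submodule.mem_pi]
    intro j _
    have h1 : (B0 • (β • w i)) j = β * (B0 * w i j) := by
      simp only [Pi.smul_apply, smul_eq_mul]
      ring
    rw [h1]
    have h2 := D.mul_mem hβ (key i j)
    exact D.mono_le (by have := hC i; omega) h2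
  exact hle hx

end R169.TR
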