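import Crest.Agent.R169.TR7A

/-!
# R169_TR7B: normalisation: replace a semistable lattice by a reflexive one inside `B^r`.
First the hull (`IsLat.hull`, `isRefl_hull`, `le_hull` for the span, `HasHP.hull`: same `N, β`, `γ ≤ γ'`,
`Semistable.hull`), then `scl` (TR7A). `γ - β²/(2N)` is invariant under
`(β, γ) ↦ (β + N c, N/2 c² + β c + γ)` (`N ≠ 0`: `IsLat.rank`).
-/

set_option autoImplicit false

namespace R169.TR
open R169

variable {k L : Type} [Field k] [Field L] [Algebra k L] {D : GD k L} {η ζ : L} {r : ℕ}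

theorem exists_norm (hP : Par D η ζ) (hr : 0 < r)
    {E : ℤ → Submodule k (Fin r → L)} (hE : IsLat D η ζ E) (hs : lspan L E = ⊤)
    {N β γ : ℚ} (hh : HasHP E N β γ) (hss : Semistable L E N β) :
    ∃ (E' : ℤ → Submodule k (Fin r → L)) (β' γ' : ℚ), 0 < N ∧ IsLat D η ζ E' ∧ lspan L E' = ⊤ ∧
      IsRefl (k := k) η ζ E' ∧ (∀ n, E' n ≤ Bpow D r n) ∧ HasHP E' N β' γ' ∧ Semistable L E' N β' ∧
      γ - β ^ 2 / (2 * N) ≤ γ' - β' ^ 2 / (2 * N) := by
  -- `0 < N`
  have hN : 0 < N := by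
    obtain ⟨d, βB, γB, hB, -, -⟩ := ((isLat_B hP).toPLat hP).hasHP
    obtain ⟨hd, hN⟩ := IsLat.rank hP hB hE hh
    rw [hN, hs, finrank_top, Module.finrank_fin_fun]
    have : (0 : ℚ) < r := by exact_mod_cast hr
    positivity
  -- the hull
  have hH : IsLat D η ζ (R169.hull η ζ E) := IsLat.hull hP hE
  have hHr : IsRefl (k := k) η ζ (R169.hull η ζ E) := isRefl_hull hP hE
  have hHs : lspan L (R169.hull η ζ E) = ⊤ := by
    rw [eq_top_iff, ← hs]
    refine Submodule.span_mono ?_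
    exact Set.iUnion_mono fun n => le_hull (hE.toPLat hP) n
  obtain ⟨γ1, hγ1, hHh⟩ := HasHP.hull hP hE hh
  have hHss : Semistable L (R169.hull η ζ E) N β := Semistable.hull hP hE hs hh hss
  obtain ⟨b, c, hb, hbc⟩ := exists_scale hP hH
  refine ⟨scl b c (R169.hull η ζ E), β + N * c, N / 2 * c ^ 2 + β * c + γ1, hN,
    scl_isLat hH hb c, scl_lspan hb c hHs, scl_refl hb c hHr, scl_le hbc, (scl_hp hb c).1 hHh,
    scl_semistable hb c hHss, ?_⟩
  have e : (N / 2 * c ^ 2 + β * c + γ1) - (β + N * c) ^ 2 / (2 * N) = γ1 - β ^ 2 / (2 * N) := by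
    field_simp
    ring
  rw [e]
  linarith

end R169.TR
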