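import Crest.Agent.R169.TR7B
import Crest.Agent.R169.TR6F
import Crest.Agent.R169.TR0D
import Crest.Agent.R169.CPF

/-!
# R169_TR7C: (BR) over `UK`, and `br_of_transfer`.
-/

set_option autoImplicit false

namespace R169.TR
open R169 Filter

/-- the conditions at the primes -/
def PC (s : Sys) (C0 : ℤ) (C1 : ℕ) : Prop :=
  ∀ p : PP, 7 < p.1 → IsIntegrallyClosed (T (s.Dp p)) ∧ DerCond (s.Dp p) p.1 C0 ∧
    (∀ n : ℤ, 0 ≤ n → Module.finrank (Kp p) ((s.Dp p).B n) ≤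
      Module.finrank (Kp p) ((s.Dp p).B (n - 1)) + C1 * (n.toNat + 1)) ∧
    ∀ η ζ : s.Lp p, Par (s.Dp p) η ζ → FrobFormula (s.Dp p) η ζ p.1

/-- `x * p ≤ A` for a.e. `p` implies `x ≤ 0` (`UU_large`) -/
theorem le_zero_of_ev {x A : ℚ} (h : ∀ᶠ p in (UU : Filter PP), x * p.1 ≤ A) : x ≤ 0 := by
  by_contra hx
  push Not at hx
  obtain ⟨n, hn⟩ := exists_nat_gt (A / x)
  obtain ⟨p, h1, h2⟩ := (h.and (UU_large n)).exists
  rw [div_lt_iff₀ hx] at hn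
  have h3 : (n : ℚ) < p.1 := by exact_mod_cast h2
  nlinarith

/-- `RhoCert` gives `LinShift` with the constant `s0` -/
theorem br_of_sys (s : Sys) {d : ℕ} {βB γB : ℚ} (hB : HasHP s.D.B d βB γB) {C0 : ℤ} {C1 : ℕ} (h : PC s C0 C1)
    {η ζ : s.L} (hP : Par s.D η ζ) {r : ℕ} (hr : 0 < r) {E : ℤ → Submodule UK (Fin r → s.L)}
    (hE : IsLat s.D η ζ E) (hs : lspan s.L E = ⊤) {N β γ : ℚ} (hh : HasHP E N β γ)
    (hss : Semistable s.L E N β) :
    γ - β ^ 2 / (2 * N) ≤ r * (γB - βB ^ 2 / (2 * d)) := by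
  haveI : IsAlgClosed UK := UK_algClosed
  obtain ⟨E', β', γ', hN, hE', hs', hr', hB', hh', hss', hle⟩ := exists_norm hP hr hE hs hh hss
  obtain ⟨ηp, ζp, g, a, e, ep, e0, t0, hred⟩ := exists_red hP hB hE' hs' hr' hB'
  have hst := semistable_transfer hP hr hE' hs' hN hh' hss' hred
  obtain ⟨A, hA⟩ := CP.charP_bound r hr C0 (((d : ℤ) - 1) * (2 * e0 + t0) + 2 * e0) C1 N β' γ' d βB γB
  have key : ∀ᶠ p in (UU : Filter PP),
      ((γ' - β' ^ 2 / (2 * N)) - r * (γB - βB ^ 2 / (2 * d))) * (p.1 : ℚ) ≤ A := by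
    filter_upwards [hst, hred.sf hr hh', UU_large 7] with p h1 h2 h3
    obtain ⟨hi, hD, hC, hF⟩ := h p h3
    exact hA p.1 (Kp p) (s.Lp p) (s.Dp p) (ηp p) (ζp p) h2.par h2.hB (isRefl_B h2.par hi) hD hC
      (RhoCert.linShift h2.par h2.rho) (hF _ _ h2.par) _ h2.lat h2.span h2.le h2.refl h2.hp h1
  have := le_zero_of_ev key
  linarith

end R169.TR
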