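import Crest.Agent.R169.DefsBR

/-!
# Row 169, module 3 (TR): definitions. Ultraproduct field `UK`, limits `IsLim`, certificates `Cert`.
-/

set_option autoImplicit false

namespace R169.TR

open R169 Filter

instance : Infinite PP := Nat.infinite_setOfPred_prime.to_subtype

/-- a nonprincipal ultrafilter on the primes -/
noncomputable def UU : Ultrafilter PP := hyperfilter PP

theorem UU_large (n : ℕ) : ∀ᶠ p in (UU : Filter PP), n < p.1 := by
  have h : {p : PP | ¬ n < p.1}.Finite := by
    apply Set.Finite.of_injOn (f := fun p : PP => p.1) (t := Set.Iic n)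
    · intro p hp
      simpa using hp
    · intro p _ q _ h
      exact Subtype.ext h
    · exact Set.finite_Iic n
  have := hyperfilter_le_cofinite (α := PP)
  exact this (by simpa [mem_cofinite, Set.compl_setOf] using h)

/-- the ideal of families vanishing a.e. -/
def IU : Ideal (∀ p, Kp p) where
  carrier := {f | ∀ᶠ p in (UU : Filter PP), f p = 0}
  add_mem' := by
    intro a b ha hb
    filter_upwards [ha, hb] with p h1 h2
    simp [h1, h2]
  zero_mem' := Eventually.of_forall fun _ => rfl
  smul_mem' := by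
    intro c x hx
    filter_upwards [hx] with p h1
    simp [h1]

/-- the ultraproduct field -/
abbrev UK : Type := (∀ p, Kp p) ⧸ IU

/-- class of a family -/
noncomputable def cl : (∀ p, Kp p) →+* UK := Ideal.Quotient.mk IU

theorem cl_eq_iff (f g : ∀ p, Kp p) : cl f = cl g ↔ ∀ᶠ p in (UU : Filter PP), f p = g p := by
  unfold cl
  rw [Ideal.Quotient.eq]
  constructor
  · intro h
    filter_upwards [h] with p hp
    exact sub_eq_zero.1 hp
  · intro h
    show ∀ᶠ p in (UU : Filter PP), (f - g) p = 0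
    filter_upwards [h] with p hp
    simp [hp]

theorem cl_surj : Function.Surjective cl := Ideal.Quotient.mk_surjective

instance IU_max : IU.IsMaximal := by
  rw [Ideal.isMaximal_iff]
  constructor
  · intro h
    have h' : ∀ᶠ p in (UU : Filter PP), (1 : ∀ p, Kp p) p = 0 := h
    obtain ⟨p, hp⟩ := h'.exists
    exact one_ne_zero hp
  · intro J x hJ hx hxJ
    have hx' : ∀ᶠ p in (UU : Filter PP), x p ≠ 0 := by
      by_contra hcon
      apply hx
      have := (Ultrafilter.eventually_not (f := UU) (p := fun p => x p = 0))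
      by_contra h2
      exact hcon (this.2 h2)
    classical
    have h1 : (1 - (fun p => (x p)⁻¹) * x : ∀ p, Kp p) ∈ IU := by
      show ∀ᶠ p in (UU : Filter PP), (1 - (fun p => (x p)⁻¹) * x : ∀ p, Kp p) p = 0
      filter_upwards [hx'] with p hp
      simp [hp]
    have h2 : ((fun p => (x p)⁻¹) * x : ∀ p, Kp p) ∈ J := J.mul_mem_left _ hxJ
    have := J.add_mem (hJ h1) h2
    simpa using this

noncomputable instance UKfield : Field UK := Ideal.Quotient.field IU

/-- all data of the transfer problem -/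
structure Sys where
  S : ℤ → Type
  [fS : ∀ n, Fintype (S n)]
  one : S 1
  m : ∀ i j : ℤ, S i → S j → S (i + j) → ℤ
  L : Type
  [fL : Field L]
  [aL : Algebra UK L]
  D : GD UK L
  I : IForm S one m D
  Lp : PP → Type
  [fLp : ∀ p, Field (Lp p)]
  [aLp : ∀ p, Algebra (Kp p) (Lp p)]
  Dp : ∀ p, GD (Kp p) (Lp p)
  Ip : ∀ p : PP, 7 < p.1 → IForm S one m (Dp p)
  gen1 : ∀ p : PP, 7 < p.1 → Gen1 (Dp p)

attribute [instance] Sys.fS Sys.fL Sys.aL Sys.fLp Sys.aLp

variable (s : Sys)

/-- `l ∈ B n` is the limit of the family `f p ∈ B_p n` -/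
def IsLim (n : ℤ) (f : ∀ p, s.Lp p) (l : s.L) : Prop :=
  ∃ c : ∀ p, (s.S n → Kp p),
    (∀ᶠ p in (UU : Filter PP), ∀ h : 7 < p.1, f p = ∑ a, c p a • ((s.Ip p h).bas n a : s.Lp p)) ∧
    l = ∑ a, cl (fun p => c p a) • (s.I.bas n a : s.L)

/-- vector version -/
def IsLimV {r : ℕ} (n : ℤ) (f : ∀ p, (Fin r → s.Lp p)) (w : Fin r → s.L) : Prop :=
  ∀ i, IsLim s n (fun p => f p i) (w i)

/-! certificates -/

section cert
variable {k L : Type} [Field k] [Field L] [Algebra k L]

/-- the lattice generated over `P` by `e j` in degree `a j` -/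
def latOf (k : Type) {L : Type} [Field k] [Field L] [Algebra k L] (η ζ : L) {r g : ℕ}
    (a : Fin g → ℤ) (e : Fin g → (Fin r → L)) (n : ℤ) : Submodule k (Fin r → L) :=
  ⨆ j, (A k η ζ (n - a j)).map ((LinearMap.toSpanSingleton L (Fin r → L) (e j)).restrictScalars k)

/-- the `h × h` minor of `f` with columns `I` -/
def minor {h g : ℕ} (f : Fin h → Fin g → L) (I : Fin h → Fin g) : L :=
  Matrix.det (Matrix.of fun i i' => f i (I i'))

/-- certificate for a reflexive lattice generated by `e j` (degree `a j`), with relations `f i` (degree `b i`),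
whose `h × h` minors generate all forms of degree `m`. -/
structure Cert (D : GD k L) (η ζ : L) {r g h : ℕ} (a : Fin g → ℤ) (b : Fin h → ℤ) (m : ℕ)
    (e : Fin g → (Fin r → L)) (f : Fin h → Fin g → L)
    (cx cy cz : (Fin h → Fin g) → L) : Prop where
  f_mem : ∀ i j, f i j ∈ A k η ζ (b i - a j)
  rel : ∀ i, ∑ j, f i j • e j = 0
  stab : ∀ x ∈ D.B 1, ∀ j, x • e j ∈ latOf k η ζ a e (a j + 1)
  span : Submodule.span L (Set.range e) = ⊤
  rank : Module.finrank (FF k η ζ) L * r + h = g
  c_mem : ∀ I, cx I ∈ A k η ζ (m - (∑ i, b i - ∑ i, a (I i))) ∧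
    cy I ∈ A k η ζ (m - (∑ i, b i - ∑ i, a (I i))) ∧ cz I ∈ A k η ζ (m - (∑ i, b i - ∑ i, a (I i)))
  hx : ∑ I, cx I * minor f I = 1
  hy : ∑ I, cy I * minor f I = η ^ m
  hz : ∑ I, cz I * minor f I = ζ ^ m

end cert

end R169.TR
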